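import Vale.Agent.P161C.Col

/-!
# Cones in a regular tree and masses
-/

open Set

namespace P161C

open P161

universe u

variable {V : Type u} {G : SimpleGraph V}

/-- the vertices closer to `b` than to `a` -/
def Cone (G : SimpleGraph V) (a b : V) : Set V := {x | G.dist x b < G.dist x a}

theorem cone_or (hG : G.IsTree) {a b : V} (h : G.Adj a b) (x : V) :
    x ∈ Cone G a b ∨ x ∈ Cone G b a := by
  have := hG.dist_eq_dist_add_one_of_adj x h
  unfold Cone
  simp only [mem_ofPred_eq]
  omega

theorem cone_disj {a b : V} : Disjoint (Cone G a b) (Cone G b a) := by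
  rw [Set.disjoint_left]
  intro x h1 h2
  unfold Cone at h1 h2
  simp only [mem_ofPred_eq] at h1 h2
  omega

/-- the two ways to leave `q` towards `x` coincide -/
theorem cone_unique (hG : G.IsTree) {q c c' x : V} (hc : G.Adj q c) (hc' : G.Adj q c')
    (h : x ∈ Cone G q c) (h' : x ∈ Cone G q c') : c = c' := by
  unfold Cone at h h'
  simp only [mem_ofPred_eq] at h h'
  have h1 := hG.dist_eq_dist_add_one_of_adj x hc
  have h2 := hG.dist_eq_dist_add_one_of_adj x hc'
  have s1 : G.dist c x = G.dist x c := SimpleGraph.dist_comm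
  have s2 : G.dist c' x = G.dist x c' := SimpleGraph.dist_comm
  have s3 : G.dist q x = G.dist x q := SimpleGraph.dist_comm
  exact next_unique hG hc hc' (y := x) (by omega) (by omega)

theorem cone_sub (hG : G.IsTree) {p q c : V} (hp : G.Adj p q) (hc : G.Adj q c) (h : c ≠ p) :
    Cone G q c ⊆ Cone G p q := by
  intro x hx
  rcases cone_or hG hp x with h1 | h1
  · exact h1
  · exact absurd (cone_unique hG hc hp.symm hx h1) h

theorem aut_dist (hG : G.Connected) (g : G ≃g G) (x y : V) : G.dist (g x) (g y) = G.dist x y := by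
  have key : ∀ (g : G ≃g G) (x y : V), G.dist (g x) (g y) ≤ G.dist x y := by
    intro g x y
    obtain ⟨p, hp⟩ := hG.exists_walk_length_eq_dist x y
    have := SimpleGraph.dist_le (p.map g.toHom)
    rw [SimpleGraph.Walk.length_map, hp] at this
    exact this
  refine le_antisymm (key g x y) ?_
  have := key g.symm (g x) (g y)
  simpa using this

theorem cone_image (hG : G.Connected) (g : G ≃g G) (a b : V) :
    g '' Cone G a b = Cone G (g a) (g b) := by
  ext x
  constructor
  · rintro ⟨y, hy, rfl⟩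
    unfold Cone at *
    simp only [mem_ofPred_eq] at *
    rwa [aut_dist hG, aut_dist hG]
  · intro hx
    refine ⟨g.symm x, ?_, by simp⟩
    unfold Cone at *
    simp only [mem_ofPred_eq] at *
    rw [← aut_dist hG g, ← aut_dist hG g (g.symm x) a]
    simpa using hx

/-- a mass function -/
structure MassFn (G : SimpleGraph V) (z₀ z₁ : V) (M : Set V → ℝ) : Prop where
  nonneg : ∀ R, 0 ≤ M R
  mono : ∀ R R', R ⊆ R' → M R ≤ M R'
  disj : ∀ (I : Finset V) (R : V → Set V) (T : Set V),
    (∀ i ∈ I, ∀ j ∈ I, i ≠ j → Disjoint (R i) (R j)) → (∀ i ∈ I, R i ⊆ T) →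
    ∑ i ∈ I, M (R i) ≤ M T
  inv : ∀ g : G ≃g G, g z₀ = z₀ → g z₁ = z₁ → ∀ R, M (g '' R) = M R

theorem MassFn.decay [G.LocallyFinite] (hG : G.IsTree) {D : ℕ}
    (hreg : G.IsRegularOfDegree (D + 1)) {z₀ z₁ : V} {M : Set V → ℝ} (hM : MassFn G z₀ z₁ M)
    {p q c : V} (hp : G.Adj p q) (h0 : z₀ ∈ Cone G q p) (h1 : z₁ ∈ Cone G q p)
    (hc : G.Adj q c) (hcp : c ≠ p) : D * M (Cone G q c) ≤ M (Cone G p q) := by
  classical
  have hmem : ∀ z, z ∈ Cone G q p → ∀ c', G.Adj q c' → c' ≠ p → G.dist z q ≤ G.dist z c' := by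
    intro z hz c' hc' hne
    rcases cone_or hG hc' z with h | h
    · exact absurd (cone_unique hG hc' hp.symm h hz) hne
    · exact le_of_lt h
  have hM1 : ∀ c', G.Adj q c' → c' ≠ p → M (Cone G q c') = M (Cone G q c) := by
    intro c' hc' hne
    obtain ⟨g, hg1, hg2⟩ := Col.exists_swap hG hreg hc hc'
    have e1 : g q = q := hg2 q (by simp) (by simp)
    have e2 : g z₀ = z₀ := hg2 _ (hmem _ h0 _ hc hcp) (hmem _ h0 _ hc' hne)
    have e3 : g z₁ = z₁ := hg2 _ (hmem _ h1 _ hc hcp) (hmem _ h1 _ hc' hne)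
    rw [← hM.inv g e2 e3 (Cone G q c), cone_image hG.connected, e1, hg1]
  have h2 := hM.disj ((G.neighborFinset q).erase p) (fun c' => Cone G q c') (Cone G p q)
    (by
      intro i hi j hj hij
      rw [Finset.mem_erase, SimpleGraph.mem_neighborFinset] at hi hj
      rw [Set.disjoint_left]
      intro x hx hx'
      exact hij (cone_unique hG hi.2 hj.2 hx hx'))
    (by
      intro i hi
      rw [Finset.mem_erase, SimpleGraph.mem_neighborFinset] at hi
      exact cone_sub hG hp hi.2 hi.1)
  have h3 : ∑ i ∈ (G.neighborFinset q).erase p, M (Cone G q i)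
      = ∑ i ∈ (G.neighborFinset q).erase p, M (Cone G q c) := by
    refine Finset.sum_congr rfl fun i hi => ?_
    rw [Finset.mem_erase, SimpleGraph.mem_neighborFinset] at hi
    exact hM1 i hi.2 hi.1
  have h4 : ((G.neighborFinset q).erase p).card = D := by
    rw [Finset.card_erase_of_mem (by simpa using hp.symm),
      SimpleGraph.card_neighborFinset_eq_degree, hreg q]
    rfl
  rw [h3, Finset.sum_const, h4, nsmul_eq_mul] at h2
  exact h2

/-- a geodesic -/
structure Geod (G : SimpleGraph V) (x : ℕ → V) (n : ℕ) : Prop where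
  dist : ∀ i j, i ≤ j → j ≤ n → G.dist (x i) (x j) = j - i

theorem Geod.adj {x : ℕ → V} {n : ℕ} (h : Geod G x n) {i : ℕ} (hi : i < n) :
    G.Adj (x i) (x (i + 1)) := by
  rw [← SimpleGraph.dist_eq_one_iff_adj, h.dist i (i + 1) (by omega) (by omega)]
  omega

theorem Geod.ne {x : ℕ → V} {n : ℕ} (h : Geod G x n) {i j : ℕ} (hij : i < j) (hj : j ≤ n) :
    x i ≠ x j := by
  intro he
  have := h.dist i j hij.le hj
  rw [he, SimpleGraph.dist_self] at this
  omega

theorem Geod.rev {x : ℕ → V} {n : ℕ} (h : Geod G x n) : Geod G (fun i => x (n - i)) n := by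
  refine ⟨fun i j hij hj => ?_⟩
  show G.dist (x (n - i)) (x (n - j)) = j - i
  rw [SimpleGraph.dist_comm, h.dist (n - j) (n - i) (by omega) (by omega)]
  omega

theorem exists_geod (hG : G.Connected) (a b : V) :
    ∃ x : ℕ → V, x 0 = a ∧ x (G.dist a b) = b ∧ Geod G x (G.dist a b) := by
  obtain ⟨p, hp⟩ := hG.exists_walk_length_eq_dist a b
  refine ⟨p.getVert, p.getVert_zero, ?_, ⟨?_⟩⟩
  · rw [← hp, p.getVert_length]
  · have hstep : ∀ i j, i ≤ j → j ≤ G.dist a b →
        G.dist (p.getVert i) (p.getVert j) ≤ j - i := by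
      intro i j hij
      induction j, hij using Nat.le_induction with
      | base => intro _; rw [SimpleGraph.dist_self]; omega
      | succ j hij ih =>
        intro hj
        have h1 := ih (by omega)
        have h2 : G.Adj (p.getVert j) (p.getVert (j + 1)) := p.adj_getVert_succ (by omega)
        have h3 : G.dist (p.getVert j) (p.getVert (j + 1)) = 1 :=
          SimpleGraph.dist_eq_one_iff_adj.2 h2
        have h4 : G.dist (p.getVert i) (p.getVert (j + 1))
            ≤ G.dist (p.getVert i) (p.getVert j) + G.dist (p.getVert j) (p.getVert (j + 1)) :=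
          hG.dist_triangle
        omega
    intro i j hij hj
    have h1 := hstep 0 i (by omega) (by omega)
    have h2 := hstep i j hij hj
    have h3 := hstep j (G.dist a b) hj le_rfl
    have e0 : p.getVert 0 = a := p.getVert_zero
    have e1 : p.getVert (G.dist a b) = b := by rw [← hp, p.getVert_length]
    rw [e0] at h1
    rw [e1] at h3
    have t1 : G.dist a b ≤ G.dist a (p.getVert i) + G.dist (p.getVert i) b := hG.dist_triangle
    have t2 : G.dist (p.getVert i) b
        ≤ G.dist (p.getVert i) (p.getVert j) + G.dist (p.getVert j) b := hG.dist_triangle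
    omega

/-- decay of the masses of the cones along a geodesic -/
theorem MassFn.decay_geod [G.LocallyFinite] (hG : G.IsTree) {D : ℕ}
    (hreg : G.IsRegularOfDegree (D + 1)) {n : ℕ} {x : ℕ → V} (hx : Geod G x n)
    {M : Set V → ℝ} (hM : MassFn G (x 0) (x 1) M) :
    ∀ i, i < n → (D : ℝ) ^ i * M (Cone G (x i) (x (i + 1))) ≤ M (Cone G (x 0) (x 1)) := by
  intro i
  induction i with
  | zero => intro _; simp
  | succ i ih =>
    intro hi
    have h1 := ih (by omega)
    have a1 : G.Adj (x i) (x (i + 1)) := hx.adj (by omega)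
    have a2 : G.Adj (x (i + 1)) (x (i + 1 + 1)) := hx.adj (by omega)
    have hne : x (i + 1 + 1) ≠ x i := (hx.ne (by omega) (by omega)).symm
    have m0 : x 0 ∈ Cone G (x (i + 1)) (x i) := by
      unfold Cone
      rw [mem_ofPred_eq, hx.dist 0 i (by omega) (by omega), hx.dist 0 (i + 1) (by omega) (by omega)]
      omega
    have m1 : x 1 ∈ Cone G (x (i + 1)) (x i) ∨ i = 0 := by
      by_cases h : i = 0
      · exact Or.inr h
      · left
        unfold Cone
        rw [mem_ofPred_eq, hx.dist 1 i (by omega) (by omega),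
          hx.dist 1 (i + 1) (by omega) (by omega)]
        omega
    rcases m1 with m1 | rfl
    · have h2 := hM.decay hG hreg a1 m0 m1 a2 hne
      calc (D : ℝ) ^ (i + 1) * M (Cone G (x (i + 1)) (x (i + 1 + 1)))
          = (D : ℝ) ^ i * (D * M (Cone G (x (i + 1)) (x (i + 1 + 1)))) := by ring
        _ ≤ (D : ℝ) ^ i * M (Cone G (x i) (x (i + 1))) := by gcongr
        _ ≤ _ := h1
    · -- the first step: automorphisms fixing `x 0` and swapping branches at `x 1`
      classical
      simp only [Nat.zero_add] at *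
      have hM1 : ∀ c', G.Adj (x 1) c' → c' ≠ x 0 →
          M (Cone G (x 1) c') = M (Cone G (x 1) (x (1 + 1))) := by
        intro c' hc' hne'
        obtain ⟨g, hg1, hg2⟩ := Col.exists_swap hG hreg a2 hc'
        have e1 : g (x 1) = x 1 := hg2 _ (by simp) (by simp)
        have hmem : ∀ c', G.Adj (x 1) c' → c' ≠ x 0 → G.dist (x 0) (x 1) ≤ G.dist (x 0) c' := by
          intro c' hc' hne
          rcases cone_or hG hc' (x 0) with h | h
          · exact absurd (cone_unique hG hc' a1.symm h m0) hne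
          · exact le_of_lt h
        have e2 : g (x 0) = x 0 := hg2 _ (hmem _ a2 hne) (hmem _ hc' hne')
        rw [← hM.inv g e2 e1 (Cone G (x 1) (x (1 + 1))), cone_image hG.connected, e1, hg1]
      have h2 := hM.disj ((G.neighborFinset (x 1)).erase (x 0)) (fun c' => Cone G (x 1) c')
        (Cone G (x 0) (x 1))
        (by
          intro i hi j hj hij
          rw [Finset.mem_erase, SimpleGraph.mem_neighborFinset] at hi hj
          rw [Set.disjoint_left]
          intro y hy hy'
          exact hij (cone_unique hG hi.2 hj.2 hy hy'))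
        (by
          intro i hi
          rw [Finset.mem_erase, SimpleGraph.mem_neighborFinset] at hi
          exact cone_sub hG a1 hi.2 hi.1)
      have h3 : ∑ i ∈ (G.neighborFinset (x 1)).erase (x 0), M (Cone G (x 1) i)
          = ∑ i ∈ (G.neighborFinset (x 1)).erase (x 0), M (Cone G (x 1) (x (1 + 1))) := by
        refine Finset.sum_congr rfl fun i hi => ?_
        rw [Finset.mem_erase, SimpleGraph.mem_neighborFinset] at hi
        exact hM1 i hi.2 hi.1
      have h4 : ((G.neighborFinset (x 1)).erase (x 0)).card = D := by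
        rw [Finset.card_erase_of_mem (by simpa using a1.symm),
          SimpleGraph.card_neighborFinset_eq_degree, hreg (x 1)]
        rfl
      rw [h3, Finset.sum_const, h4, nsmul_eq_mul] at h2
      rw [pow_one]
      exact h2

/-- the regions of the projections on a geodesic -/
def Reg (G : SimpleGraph V) (x : ℕ → V) (k : ℕ) (i : ℕ) : Set V :=
  if i = 0 then Cone G (x 1) (x 0)
  else if i = k + 1 then Cone G (x k) (x (k + 1))
  else Cone G (x (i - 1)) (x i) ∩ Cone G (x (i + 1)) (x i)

theorem exists_reg (hG : G.IsTree) {x : ℕ → V} {k : ℕ} (hx : Geod G x (k + 1)) (y : V) :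
    ∃ i ∈ Finset.range (k + 2), y ∈ Reg G x k i := by
  classical
  by_cases h : ∃ i, i ≤ k ∧ y ∈ Cone G (x (i + 1)) (x i)
  · obtain ⟨hi, hyi⟩ := Nat.find_spec h
    set i := Nat.find h with hidef
    refine ⟨i, Finset.mem_range.2 (by omega), ?_⟩
    unfold Reg
    by_cases h0 : i = 0
    · rw [if_pos h0]
      rw [h0] at hyi
      exact hyi
    · rw [if_neg h0, if_neg (by omega)]
      refine ⟨?_, hyi⟩
      have h1 := Nat.find_min h (m := i - 1) (by omega)
      have a1 : G.Adj (x (i - 1)) (x (i - 1 + 1)) := hx.adj (by omega)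
      have e : i - 1 + 1 = i := by omega
      rcases cone_or hG a1 y with h2 | h2
      · rw [e] at h2
        exact h2
      · exact absurd ⟨by omega, h2⟩ h1
  · push Not at h
    refine ⟨k + 1, Finset.mem_range.2 (by omega), ?_⟩
    unfold Reg
    rw [if_neg (by omega), if_pos rfl]
    rcases cone_or hG (hx.adj (i := k) (by omega)) y with h2 | h2
    · exact h2
    · exact absurd h2 (h k le_rfl)

/-- the numerical conclusion -/
theorem sum_reg_le [G.LocallyFinite] (hG : G.IsTree) {D : ℕ} (hD : 1 ≤ D)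
    (hreg : G.IsRegularOfDegree (D + 1)) {x : ℕ → V} {k : ℕ} (hx : Geod G x (k + 1))
    {M M' : Set V → ℝ} {N : ℝ} (hM : MassFn G (x 0) (x 1) M)
    (hM' : MassFn G (x (k + 1)) (x k) M')
    (hh : M' (Cone G (x k) (x (k + 1))) = M (Cone G (x 0) (x 1)))
    (ht : M' (Cone G (x (k + 1)) (x k)) = M (Cone G (x 1) (x 0)))
    (hN : M (Cone G (x 0) (x 1)) + M (Cone G (x 1) (x 0)) ≤ N) :
    ∑ i ∈ Finset.range (k + 2), √(M (Reg G x k i)) * √(M' (Reg G x k i))
      ≤ (k + 1) * (√D * (1 / √D) ^ k) * N := by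
  set q := M (Cone G (x 0) (x 1)) with hq
  set p := M (Cone G (x 1) (x 0)) with hp
  have hq0 : 0 ≤ q := hM.nonneg _
  have hp0 : 0 ≤ p := hM.nonneg _
  have hDpos : (0 : ℝ) < D := by exact_mod_cast hD
  have hsD : 0 < √(D : ℝ) := Real.sqrt_pos.2 hDpos
  have hs1 : 1 ≤ √(D : ℝ) := by
    rw [Real.one_le_sqrt]
    exact_mod_cast hD
  set s := 1 / √(D : ℝ) with hs
  have hs0 : 0 < s := by positivity
  have hsq : s ^ 2 = 1 / D := by
    rw [hs, div_pow, Real.sq_sqrt hDpos.le, one_pow]
  -- decay for M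
  have d1 : ∀ i, i ≤ k → M (Cone G (x i) (x (i + 1))) ≤ (s ^ i) ^ 2 * q := by
    intro i hi
    have := hM.decay_geod hG hreg hx i (by omega)
    have e : (s ^ i) ^ 2 = 1 / (D : ℝ) ^ i := by rw [← pow_mul, mul_comm, pow_mul, hsq, div_pow,
      one_pow]
    rw [e, div_mul_eq_mul_div, one_mul, le_div_iff₀ (by positivity), mul_comm]
    exact this
  have hx' := hx.rev
  have d2 : ∀ i, i ≤ k → M' (Cone G (x (i + 1)) (x i)) ≤ (s ^ (k - i)) ^ 2 * p := by
    intro i hi
    have hM'' : MassFn G ((fun i => x (k + 1 - i)) 0) ((fun i => x (k + 1 - i)) 1) M' := by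
      simpa using hM'
    have := hM''.decay_geod hG hreg hx' (k - i) (by omega)
    have e1 : k + 1 - (k - i) = i + 1 := by omega
    have e2 : k + 1 - (k - i + 1) = i := by omega
    simp only [e1, e2, Nat.sub_zero, Nat.add_sub_cancel] at this
    rw [ht] at this
    have e : (s ^ (k - i)) ^ 2 = 1 / (D : ℝ) ^ (k - i) := by
      rw [← pow_mul, mul_comm, pow_mul, hsq, div_pow, one_pow]
    rw [e, div_mul_eq_mul_div, one_mul, le_div_iff₀ (by positivity), mul_comm]
    exact this
  have sqrt_le : ∀ {a b c : ℝ}, 0 ≤ b → a ≤ b ^ 2 * c → √a ≤ b * √c := by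
    intro a b c hb h
    calc √a ≤ √(b ^ 2 * c) := Real.sqrt_le_sqrt h
      _ = b * √c := by rw [Real.sqrt_mul (sq_nonneg _), Real.sqrt_sq hb]
  -- the terms
  have T0 : √(M (Reg G x k 0)) * √(M' (Reg G x k 0)) ≤ s ^ k * p := by
    unfold Reg
    rw [if_pos rfl, ← hp]
    have := sqrt_le (by positivity) (d2 0 (by omega))
    rw [Nat.sub_zero, Nat.zero_add] at this
    calc √p * √(M' (Cone G (x 1) (x 0))) ≤ √p * (s ^ k * √p) := by gcongr
      _ = s ^ k * (√p * √p) := by ring
      _ = s ^ k * p := by rw [Real.mul_self_sqrt hp0]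
  have Tk : √(M (Reg G x k (k + 1))) * √(M' (Reg G x k (k + 1))) ≤ s ^ k * q := by
    unfold Reg
    rw [if_neg (by omega), if_pos rfl, hh]
    have := sqrt_le (by positivity) (d1 k le_rfl)
    calc √(M (Cone G (x k) (x (k + 1)))) * √q ≤ (s ^ k * √q) * √q := by gcongr
      _ = s ^ k * (√q * √q) := by ring
      _ = s ^ k * q := by rw [Real.mul_self_sqrt hq0]
  have Ti : ∀ i ∈ Finset.range k, √(M (Reg G x k (i + 1))) * √(M' (Reg G x k (i + 1)))
      ≤ s ^ k * √D * ((p + q) / 2) := by
    intro i hi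
    rw [Finset.mem_range] at hi
    unfold Reg
    rw [if_neg (by omega), if_neg (by omega)]
    have h1 : M (Cone G (x (i + 1 - 1)) (x (i + 1)) ∩ Cone G (x (i + 1 + 1)) (x (i + 1)))
        ≤ (s ^ i) ^ 2 * q := by
      refine (hM.mono _ _ Set.inter_subset_left).trans ?_
      rw [Nat.add_sub_cancel]
      exact d1 i (by omega)
    have h2 : M' (Cone G (x (i + 1 - 1)) (x (i + 1)) ∩ Cone G (x (i + 1 + 1)) (x (i + 1)))
        ≤ (s ^ (k - (i + 1))) ^ 2 * p :=
      (hM'.mono _ _ Set.inter_subset_right).trans (d2 (i + 1) (by omega))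
    have h3 := sqrt_le (by positivity) h1
    have h4 := sqrt_le (by positivity) h2
    have e : s ^ i * s ^ (k - (i + 1)) = s ^ k * √D := by
      have e1 : s ^ k = s ^ i * s ^ (k - (i + 1)) * s := by
        rw [← pow_add, ← pow_succ]
        congr 1
        omega
      rw [e1, mul_assoc _ s, hs, one_div_mul_cancel hsD.ne', mul_one]
    calc _ ≤ (s ^ i * √q) * (s ^ (k - (i + 1)) * √p) :=
          mul_le_mul h3 h4 (Real.sqrt_nonneg _) (by positivity)
      _ = (s ^ i * s ^ (k - (i + 1))) * (√q * √p) := by ring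
      _ = s ^ k * √D * (√q * √p) := by rw [e]
      _ ≤ _ := by
          have h5 : √q * √p ≤ (p + q) / 2 := by
            have h6 := sq_nonneg (√q - √p)
            have h7 := Real.mul_self_sqrt hq0
            have h8 := Real.mul_self_sqrt hp0
            nlinarith
          gcongr
  rw [Finset.sum_range_succ, Finset.sum_range_succ']
  have hsum := Finset.sum_le_sum Ti
  rw [Finset.sum_const, Finset.card_range, nsmul_eq_mul] at hsum
  have hpq : p + q ≤ N := by linarith
  have hsk : 0 < s ^ k := by positivity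
  have hpq0 : 0 ≤ p + q := by linarith
  calc _ ≤ (k * (s ^ k * √D * ((p + q) / 2)) + s ^ k * p) + s ^ k * q := by
        refine add_le_add (add_le_add hsum T0) Tk
    _ = s ^ k * (p + q) * (k * √D / 2 + 1) := by ring
    _ ≤ s ^ k * (p + q) * ((k + 1) * √D) := by
        have hk0 : (0 : ℝ) ≤ k := Nat.cast_nonneg k
        have : k * √D / 2 + 1 ≤ (k + 1) * √D := by nlinarith [mul_nonneg hk0 hsD.le]
        gcongr
    _ ≤ s ^ k * N * ((k + 1) * √D) := by gcongr
    _ = _ := by ring

end P161C
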