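import Vale.Agent.P161C.Mods
import Vale.Agent.P161C.Cone

/-!
# GEO, SPH: geodesics and spheres in a tree
-/

open MeasureTheory Set Filter Topology

namespace P161C

open P161

universe u

variable {V : Type u} {G : SimpleGraph V}

theorem geo_uniq (hG : G.IsTree) {v w : V} : ∀ (i : ℕ) (x y : V), G.dist v x = i →
    G.dist x w + i = G.dist v w → G.dist v y = i → G.dist y w + i = G.dist v w → x = y := by
  intro i
  induction i with
  | zero =>
    intro x y hx _ hy _
    have h1 := (hG.connected v x).dist_eq_zero_iff.1 hx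
    have h2 := (hG.connected v y).dist_eq_zero_iff.1 hy
    rw [← h1, ← h2]
  | succ i ih =>
    intro x y hx hx2 hy hy2
    have hxv : x ≠ v := by
      rintro rfl
      rw [SimpleGraph.dist_self] at hx
      omega
    have hyv : y ≠ v := by
      rintro rfl
      rw [SimpleGraph.dist_self] at hy
      omega
    obtain ⟨x', hx', hxd⟩ := exists_next hG.connected hxv
    obtain ⟨y', hy', hyd⟩ := exists_next hG.connected hyv
    have s1 : G.dist x v = G.dist v x := SimpleGraph.dist_comm
    have s2 : G.dist x' v = G.dist v x' := SimpleGraph.dist_comm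
    have s3 : G.dist y v = G.dist v y := SimpleGraph.dist_comm
    have s4 : G.dist y' v = G.dist v y' := SimpleGraph.dist_comm
    have t1 : G.dist v w ≤ G.dist v x' + G.dist x' w := hG.connected.dist_triangle
    have t2 : G.dist x' w ≤ G.dist x' x + G.dist x w := hG.connected.dist_triangle
    have t3 : G.dist x' x = 1 := SimpleGraph.dist_eq_one_iff_adj.2 hx'.symm
    have t4 : G.dist v w ≤ G.dist v y' + G.dist y' w := hG.connected.dist_triangle
    have t5 : G.dist y' w ≤ G.dist y' y + G.dist y w := hG.connected.dist_triangle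
    have t6 : G.dist y' y = 1 := SimpleGraph.dist_eq_one_iff_adj.2 hy'.symm
    have he : x' = y' := ih x' y' (by omega) (by omega) (by omega) (by omega)
    subst he
    exact next_unique hG hx'.symm hy'.symm (y := w) (by omega) (by omega)

theorem geo_eq (hG : G.IsTree) {v w x : V} {i : ℕ} (h1 : G.dist v x = i)
    (h2 : G.dist x w + i = G.dist v w) : geo G v w i = x := by
  classical
  have h : ∃ x, G.dist v x = i ∧ G.dist x w + i = G.dist v w := ⟨x, h1, h2⟩
  unfold geo
  rw [dif_pos h]
  exact geo_uniq hG i _ _ h.choose_spec.1 h.choose_spec.2 h1 h2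

theorem geo_geod (hG : G.IsTree) (v w : V) : Geod G (geo G v w) (G.dist v w) ∧
    geo G v w 0 = v ∧ geo G v w (G.dist v w) = w := by
  obtain ⟨x, h0, hn, hx⟩ := exists_geod hG.connected v w
  have key : ∀ i, i ≤ G.dist v w → geo G v w i = x i := by
    intro i hi
    apply geo_eq hG
    · conv_lhs => rw [← h0]
      rw [hx.dist 0 i (by omega) hi]; rfl
    · conv_lhs => rw [← hn]
      rw [hx.dist i _ hi le_rfl]; omega
  refine ⟨⟨fun i j hij hj => ?_⟩, ?_, ?_⟩
  · rw [key i (by omega), key j hj, hx.dist i j hij hj]
  · rw [key 0 (by omega), h0]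
  · rw [key _ le_rfl, hn]

theorem geo_zero (hG : G.IsTree) (v w : V) : geo G v w 0 = v := (geo_geod hG v w).2.1

theorem geo_last (hG : G.IsTree) (v w : V) : geo G v w (G.dist v w) = w := (geo_geod hG v w).2.2

theorem geo_dist (hG : G.IsTree) {v w : V} {i j : ℕ} (hij : i ≤ j) (hj : j ≤ G.dist v w) :
    G.dist (geo G v w i) (geo G v w j) = j - i := (geo_geod hG v w).1.dist i j hij hj

theorem geo_dist_left (hG : G.IsTree) {v w : V} {i : ℕ} (hi : i ≤ G.dist v w) :
    G.dist v (geo G v w i) = i := by
  have := geo_dist hG (v := v) (w := w) (Nat.zero_le i) hi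
  rw [geo_zero hG] at this
  omega

theorem geo_dist_right (hG : G.IsTree) {v w : V} {i : ℕ} (hi : i ≤ G.dist v w) :
    G.dist (geo G v w i) w + i = G.dist v w := by
  have := geo_dist hG (v := v) (w := w) hi le_rfl
  rw [geo_last hG] at this
  omega

theorem geo_adj (hG : G.IsTree) {v w : V} {i : ℕ} (hi : i < G.dist v w) :
    G.Adj (geo G v w i) (geo G v w (i + 1)) := (geo_geod hG v w).1.adj hi

theorem geo_rev (hG : G.IsTree) {v w : V} {i : ℕ} (hi : i ≤ G.dist v w) :
    geo G w v (G.dist v w - i) = geo G v w i := by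
  have h1 := geo_dist_left hG hi
  have h2 := geo_dist_right hG hi
  have s1 : G.dist w v = G.dist v w := SimpleGraph.dist_comm
  have s2 : G.dist w (geo G v w i) = G.dist (geo G v w i) w := SimpleGraph.dist_comm
  have s3 : G.dist (geo G v w i) v = G.dist v (geo G v w i) := SimpleGraph.dist_comm
  exact geo_eq hG (by omega) (by omega)

/-- sub-geodesics -/
theorem geo_sub (hG : G.IsTree) {v w : V} {i : ℕ} (hi : i ≤ G.dist v w) {j : ℕ}
    (hj : i + j ≤ G.dist v w) : geo G (geo G v w i) w j = geo G v w (i + j) := by
  have h1 := geo_dist hG (v := v) (w := w) (i := i) (j := i + j) (by omega) hj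
  have h2 := geo_dist_right hG hj
  have h3 := geo_dist_right hG hi
  exact geo_eq hG (by omega) (by omega)

theorem geo_proof : GEO.{u} := by
  intro V G hG
  refine ⟨fun v w i hi => ⟨geo_dist_left hG hi, geo_dist_right hG hi⟩,
    fun v w i x h1 h2 => geo_eq hG h1 h2, fun v w i hi => geo_adj hG hi,
    fun v w i j hij hj => geo_dist hG hij hj, fun v w i hi => geo_rev hG hi, ?_⟩
  intro g v w i hi
  symm
  apply geo_eq hG
  · rw [aut_dist hG.connected, geo_dist_left hG hi]
  · rw [aut_dist hG.connected, aut_dist hG.connected, geo_dist_right hG hi]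

/-- the children spheres -/
theorem sph_proof : SPH.{u} := by
  classical
  intro V G _ D hE v n
  have hG := hE.tree
  set s : ℕ → Finset V := fun n => (ballF G hE.tree.connected v n).filter fun w => G.dist v w = n
    with hs
  have mem_s : ∀ n w, w ∈ s n ↔ G.dist v w = n := by
    intro n w
    simp only [hs, Finset.mem_filter, mem_ballF]
    constructor
    · exact fun h => h.2
    · exact fun h => ⟨h.le, h⟩
  have hD2 := hE.hD
  have h0 : (s 0).card ≤ 1 := by
    have : s 0 ⊆ {v} := by
      intro u hu
      rw [mem_s] at hu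
      rw [Finset.mem_singleton]
      exact ((hG.connected.dist_eq_zero_iff).1 hu).symm
    simpa using Finset.card_le_card this
  have h1 : (s 1).card ≤ D + 1 := by
    have : s 1 ⊆ G.neighborFinset v := by
      intro u hu
      rw [mem_s, SimpleGraph.dist_eq_one_iff_adj] at hu
      simpa using hu
    refine (Finset.card_le_card this).trans (le_of_eq ?_)
    rw [SimpleGraph.card_neighborFinset_eq_degree]
    exact hE.reg v
  have hstep : ∀ n, (s (n + 2)).card ≤ D * (s (n + 1)).card := by
    intro n
    have hsub : s (n + 2) ⊆ (s (n + 1)).biUnion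
        (fun w => (G.neighborFinset w).filter (fun u => G.dist v u = n + 2)) := by
      intro u hu
      have hu' := (mem_s _ _).1 hu
      have hne : u ≠ v := by
        rintro rfl
        rw [SimpleGraph.dist_self] at hu'
        omega
      obtain ⟨w, hw, hwx⟩ := exists_next hG.connected hne
      have s1 : G.dist w v = G.dist v w := SimpleGraph.dist_comm
      have s2 : G.dist u v = G.dist v u := SimpleGraph.dist_comm
      refine Finset.mem_biUnion.2 ⟨w, (mem_s _ _).2 (by omega), ?_⟩
      rw [Finset.mem_filter]
      exact ⟨by simpa using hw.symm, hu'⟩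
    refine (Finset.card_le_card hsub).trans ?_
    rw [mul_comm]
    refine Finset.card_biUnion_le_card_mul _ _ _ (fun w hw => ?_)
    have hw' := (mem_s _ _).1 hw
    have hne : w ≠ v := by
      rintro rfl
      rw [SimpleGraph.dist_self] at hw'
      omega
    obtain ⟨z, hz, hzv⟩ := exists_next hG.connected hne
    have s1 : G.dist z v = G.dist v z := SimpleGraph.dist_comm
    have s2 : G.dist w v = G.dist v w := SimpleGraph.dist_comm
    have hsub2 : (G.neighborFinset w).filter (fun u => G.dist v u = n + 2)
        ⊆ (G.neighborFinset w).erase z := by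
      intro u hu
      rw [Finset.mem_filter] at hu
      refine Finset.mem_erase.2 ⟨?_, hu.1⟩
      rintro rfl
      omega
    refine (Finset.card_le_card hsub2).trans ?_
    rw [Finset.card_erase_of_mem (by simpa using hz), SimpleGraph.card_neighborFinset_eq_degree,
      hE.reg w]
    rfl
  have hcard : ∀ n, ((s (n + 1)).card : ℝ) ≤ (D + 1) * (D : ℝ) ^ n := by
    intro n
    induction n with
    | zero => simpa using (by exact_mod_cast h1 : ((s 1).card : ℝ) ≤ D + 1)
    | succ n ih =>
      have h2 : ((s (n + 2)).card : ℝ) ≤ (D : ℝ) * ((s (n + 1)).card : ℝ) := by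
        exact_mod_cast hstep n
      refine h2.trans ?_
      calc (D : ℝ) * ((s (n + 1)).card : ℝ) ≤ (D : ℝ) * ((D + 1) * (D : ℝ) ^ n) :=
            mul_le_mul_of_nonneg_left ih (by positivity)
        _ = (D + 1) * (D : ℝ) ^ (n + 1) := by ring
  have hDr : (2 : ℝ) ≤ D := by exact_mod_cast hD2
  show ((s n).card : ℝ) ≤ 2 * (D : ℝ) ^ n
  cases n with
  | zero =>
    have : ((s 0).card : ℝ) ≤ 1 := by exact_mod_cast h0
    simp only [pow_zero]
    linarith
  | succ n =>
    refine (hcard n).trans ?_
    rw [pow_succ]
    have : (0 : ℝ) < (D : ℝ) ^ n := by positivity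
    nlinarith

end P161C
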