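import Vale.Agent.P161C.Dec
import Vale.Agent.P161C.Geo

/-!
# P161: above the reconstruction threshold the free Ising state is not a factor of IID

(Known result of Sly, recorded by Lyons; proved here from the decorrelation inequality for
factors of i.i.d.)
-/

open MeasureTheory Set Filter Topology

namespace P161C

open P161

universe u

namespace Above

variable {V : Type u} {G : SimpleGraph V} {θ : ℝ} {μ : Measure (V → Bool)}

theorem edgesIn_one (x : V) : edgesIn G {x} = ∅ := by
  classical
  ext e
  induction e using Sym2.ind with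
  | _ a b =>
    rw [P161.mem_edgesIn]
    constructor
    · rintro ⟨h1, h2, h3⟩
      rw [Finset.mem_singleton] at h1 h2
      subst h1
      subst h2
      exact absurd h3 (G.loopless.irrefl _)
    · intro h
      exact absurd h (Finset.notMem_empty _)

theorem mean_zero (hμ : IsFreeIsing G θ μ) (x : V) : ∫ s, spin (s x) ∂μ = 0 := by
  classical
  have hc : (G.induce (({x} : Finset V) : Set V)).Connected := by
    have := (SimpleGraph.Walk.nil : G.Walk x x).connected_induce_support
    have e : {v | v ∈ (SimpleGraph.Walk.nil : G.Walk x x).support}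
        = (({x} : Finset V) : Set V) := by
      ext v; simp
    rwa [e] at this
  have hd : DependsOn (fun s : V → Bool => spin (s x)) (({x} : Finset V) : Set V) := by
    intro s s' h
    show spin (s x) = spin (s' x)
    rw [h x (by simp)]
  rw [integral_eq_sum_wt hμ hc hd]
  have hw : ∀ η : V → Bool, P161.wt G θ {x} η = 1 / 2 := by
    intro η
    unfold P161.wt
    rw [edgesIn_one]
    simp
  simp only [hw]
  rw [← Finset.mul_sum]
  have hp : ({x} : Finset V).powerset = {∅, {x}} := by
    ext A
    simp [Finset.subset_singleton_iff]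
  rw [hp, Finset.sum_pair (by simp)]
  simp [pat, spin]

theorem corr [Countable V] (hG : G.IsTree) (hμ : IsFreeIsing G θ μ) :
    ∀ (n : ℕ) (v w : V), G.dist v w = n → ∫ s, spin (s v) * spin (s w) ∂μ = θ ^ n := by
  have := hμ.isProb
  intro n
  induction n with
  | zero =>
    intro v w h
    have : v = w := hG.connected.dist_eq_zero_iff.1 h
    subst this
    simp [spin_mul_self]
  | succ n ih =>
    intro v w h
    have hne : v ≠ w := by
      rintro rfl
      simp at h
    obtain ⟨z, hz, hzd⟩ := exists_next hG.connected hne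
    have hdep : ∀ x : V, DependsOn (fun s : V → Bool => spin (s x)) (({x} : Finset V) : Set V) := by
      intro x s s' h
      show spin (s x) = spin (s' x)
      rw [h x (by simp)]
    have hvz : G.dist v z = 1 := SimpleGraph.dist_eq_one_iff_adj.2 hz
    have s1 : G.dist w z = G.dist z w := SimpleGraph.dist_comm
    have s2 : G.dist w v = G.dist v w := SimpleGraph.dist_comm
    have e := edge_split hG hμ hz (S := {v}) (T := {w}) (by
      intro x hx
      rw [Finset.mem_singleton.1 hx, SimpleGraph.dist_self, hvz]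
      norm_num) (by
      intro x hx
      rw [Finset.mem_singleton.1 hx]
      omega) (hdep v) (hdep w)
    rw [e, mean_zero hμ v, mean_zero hμ w]
    have e1 : ∫ s : V → Bool, spin (s v) * spin (s v) ∂μ = 1 := by
      simp [spin_mul_self]
    rw [e1, ih w z (by omega)]
    ring

theorem exists_far [G.LocallyFinite] {D : ℕ} (hE : Env G D) (o : V) :
    ∀ n : ℕ, ∃ w, G.dist o w = n := by
  classical
  intro n
  induction n with
  | zero => exact ⟨o, SimpleGraph.dist_self⟩
  | succ n ih =>
    obtain ⟨w, hw⟩ := ih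
    have hcard : 1 < (G.neighborFinset w).card := by
      have h1 : G.degree w = D + 1 := hE.reg w
      have h2 := hE.hD
      rw [SimpleGraph.card_neighborFinset_eq_degree, h1]
      omega
    by_cases hz : ∃ z, G.Adj w z ∧ G.dist z o + 1 = G.dist w o
    · obtain ⟨z, hz1, hz2⟩ := hz
      obtain ⟨y, hy1, hy2⟩ := Finset.exists_mem_ne hcard z
      have hy3 : G.Adj w y := (SimpleGraph.mem_neighborFinset _ _ _).1 hy1
      refine ⟨y, ?_⟩
      have h3 := hE.tree.dist_eq_dist_add_one_of_adj o hy3
      rcases h3 with h3 | h3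
      · exfalso
        apply hy2
        refine next_unique hE.tree hy3 hz1 ?_ hz2
        rw [SimpleGraph.dist_comm, SimpleGraph.dist_comm (u := w)]
        omega
      · omega
    · obtain ⟨y, hy1⟩ := Finset.card_pos.1 (by omega : 0 < (G.neighborFinset w).card)
      have hy3 : G.Adj w y := (SimpleGraph.mem_neighborFinset _ _ _).1 hy1
      refine ⟨y, ?_⟩
      have h3 := hE.tree.dist_eq_dist_add_one_of_adj o hy3
      rcases h3 with h3 | h3
      · exfalso
        apply hz
        refine ⟨y, hy3, ?_⟩
        rw [SimpleGraph.dist_comm, SimpleGraph.dist_comm (u := w)]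
        omega
      · omega

/-- a free Ising state which is a factor of i.i.d. satisfies `θ² D ≤ 1` -/
theorem not_factor [Countable V] [G.LocallyFinite] {D : ℕ} (hE : Env G D)
    (hμ : IsFreeIsing G θ μ) (h0 : 0 ≤ θ) (h1 : 1 < θ ^ 2 * D) : ¬ IsFactorOfIID G μ := by
  rintro ⟨Φ, hΦ, heq, hlaw⟩
  have := hμ.isProb
  have hpl : IsProbabilityMeasure (labelLaw V) := by unfold labelLaw; infer_instance
  have hsm : ∀ a, Measurable fun U : V → unitInterval => spin (Φ U a) := fun a =>
    (measurable_of_finite spin).comp ((measurable_pi_apply a).comp hΦ)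
  have hL : ∀ a, MemLp (fun U : V → unitInterval => spin (Φ U a)) 2 (labelLaw V) := fun a =>
    MemLp.of_bound (hsm a).aestronglyMeasurable 1 (Filter.Eventually.of_forall fun U => by
      rw [Real.norm_eq_abs, abs_spin])
  set F : V → V → HH V := fun a _ => (hL a).toLp _ with hF
  have hFc : ∀ a b, (F a b : (V → unitInterval) → ℝ) =ᵐ[labelLaw V] fun U => spin (Φ U a) :=
    fun a b => MemLp.coeFn_toLp _
  have hint : ∀ f : (V → Bool) → ℝ, Measurable f →
      ∫ U, f (Φ U) ∂(labelLaw V) = ∫ s, f s ∂μ := by
    intro f hf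
    rw [← hlaw]
    exact (integral_map hΦ.aemeasurable hf.aestronglyMeasurable).symm
  have hsp : ∀ a, Measurable fun s : V → Bool => spin (s a) := fun a =>
    (measurable_of_finite spin).comp (measurable_pi_apply a)
  have hTT : ∀ (g : G ≃g G) a b, G.Adj a b → TT g (F (g a) (g b)) = F a b := by
    intro g a b _
    apply Lp.ext
    have hmeas : Measure.QuasiMeasurePreserving (shift g : (V → unitInterval) → (V → unitInterval))
        (labelLaw V) (labelLaw V) := (mp_shift g).quasiMeasurePreserving
    have h4 := hmeas.ae_eq_comp (hFc (g a) (g b))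
    filter_upwards [TT_coe g (F (g a) (g b)), h4, hFc a b, heq g] with U k1 k2 k3 k4
    rw [k1, k3, k2]
    show spin (Φ (fun v => U (g.symm v)) (g a)) = spin (Φ U a)
    rw [k4]
    simp
  have hF0 : ∀ a b, G.Adj a b →
      ∫ x, (F a b : (V → unitInterval) → ℝ) x ∂(labelLaw V) = 0 := by
    intro a b _
    rw [integral_congr_ae (hFc a b), hint (fun s => spin (s a)) (hsp a), mean_zero hμ a]
  have hin : ∀ a b a' b', inner ℝ (F a b) (F a' b') = ∫ s, spin (s a) * spin (s a') ∂μ := by
    intro a b a' b'
    rw [L2.inner_def, ← hint (fun s => spin (s a) * spin (s a')) ((hsp a).mul (hsp a'))]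
    refine integral_congr_ae ?_
    filter_upwards [hFc a b, hFc a' b'] with U h4 h5
    rw [h4, h5]
    simp [mul_comm]
  have hnorm : ∀ a b, ‖F a b‖ ^ 2 = 1 := by
    intro a b
    rw [← real_inner_self_eq_norm_sq, hin a b a b, corr hE.tree hμ 0 a a SimpleGraph.dist_self,
      pow_zero]
  obtain ⟨o⟩ := hE.tree.connected.nonempty
  have hD0 : (0 : ℝ) < D := by
    have := hE.hD
    have : 0 < D := by omega
    exact_mod_cast this
  have hs0 : 0 < √(D : ℝ) := Real.sqrt_pos.2 hD0
  have hs2 : √(D : ℝ) ^ 2 = D := Real.sq_sqrt hD0.le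
  have hbound : ∀ k : ℕ, (θ * √(D : ℝ)) ^ k ≤ (k + 1) * √(D : ℝ) := by
    intro k
    obtain ⟨w, hw⟩ := exists_far hE o (k + 1)
    have hgeo := geo_geod hE.tree o w
    rw [hw] at hgeo
    obtain ⟨hg, g0, g1⟩ := hgeo
    have d1 := hg.dist 0 k (by omega) (by omega)
    have d2 := hg.dist 1 (k + 1) (by omega) le_rfl
    have d3 := hg.dist 0 (k + 1) (by omega) le_rfl
    have key := dec_label hE F hTT hF0 (hg.adj (i := 0) (by omega)) (hg.adj (i := k) (by omega))
      (k := k) (by rw [d1]; omega) (by rw [d2]; omega) (by rw [d3]; omega)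
    rw [hin (geo G o w 0) (geo G o w (0 + 1)) (geo G o w k) (geo G o w (k + 1)),
      hnorm (geo G o w 0) (geo G o w (0 + 1)), corr hE.tree hμ k _ _ (by rw [d1]; omega),
      mul_one, abs_of_nonneg (pow_nonneg h0 k)] at key
    have e1 : (θ * √(D : ℝ)) ^ k = θ ^ k * √(D : ℝ) ^ k := mul_pow _ _ _
    rw [e1]
    calc θ ^ k * √(D : ℝ) ^ k ≤ ((k + 1) * (√(D : ℝ) * (1 / √(D : ℝ)) ^ k)) * √(D : ℝ) ^ k :=
          mul_le_mul_of_nonneg_right key (by positivity)
      _ = (k + 1) * √(D : ℝ) * ((1 / √(D : ℝ)) * √(D : ℝ)) ^ k := by rw [mul_pow]; ring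
      _ = (k + 1) * √(D : ℝ) := by
          rw [one_div_mul_cancel hs0.ne', one_pow, mul_one]
  have hq : 1 < θ * √(D : ℝ) := by
    have h2 : 1 < (θ * √(D : ℝ)) ^ 2 := by rw [mul_pow, hs2]; exact h1
    have h3 : 0 ≤ θ * √(D : ℝ) := by positivity
    nlinarith
  have hlim := tendsto_pow_const_div_const_pow_of_one_lt 1 hq
  have hε : (0 : ℝ) < 1 / (2 * √(D : ℝ)) := by positivity
  obtain ⟨N, hN⟩ := ((tendsto_order.1 hlim).2 _ hε).exists_forall_of_atTop
  have h5 := hN (N + 1) (by omega)
  have h6 := hbound (N + 1)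
  have hpos : 0 < (θ * √(D : ℝ)) ^ (N + 1) := by positivity
  rw [pow_one, div_lt_div_iff₀ hpos (by positivity), one_mul] at h5
  push_cast at h5 h6
  nlinarith [Nat.cast_nonneg (α := ℝ) N]

end Above

end P161C
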