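import Vale.Agent.P161C.All

/-!
# P161 at the critical point: assembly
-/

open MeasureTheory Set Filter Topology

namespace P161C

open P161

universe u

theorem a_star : STAR.{u} := star_proof chan_proof (stt_proof chan_proof)

theorem a_starm : STARM.{u} := starm_proof chan_proof (stt_proof chan_proof)

theorem a_lim : LIM.{u} := lim_proof chan_proof (stt_proof chan_proof) a_star a_starm

theorem a_limq : LIMQ.{u} :=
  limq_proof eqf_proof (stt_proof chan_proof) a_starm shp_proof a_lim

theorem a_stari : STARI.{u} :=
  stari_proof chan_proof msg_proof sph_proof (stt_proof chan_proof) (pathf_proof msg_proof)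
    a_lim a_star

theorem a_treelaw : TREELAW.{u} := treelaw_proof lawb_proof (jlb_proof lawb_proof)

theorem a_proclaw : PROCLAW.{u} := proclaw_proof chan_proof msg_proof a_treelaw

theorem a_cvx : CVX := cvx_proof lawb_proof

theorem a_sigf : SIGF := sigf_proof lawb_proof a_cvx fmu_proof

theorem a_lawx : LAWX := lawx_proof lawb_proof fmu_proof lawa_proof

theorem a_lawz : LAWZ := lawz_proof lawb_proof (jlb_proof lawb_proof) a_cvx lawl_proof a_lawx

theorem a_fldx : FLDX.{u} :=
  fldx_proof a_lim a_limq a_proclaw a_lawx a_lawz a_sigf (bnd_proof chan_proof) msg_proof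
    (stt_proof chan_proof)

theorem a_init : INIT.{u} :=
  init_proof a_lim a_proclaw lawa_proof a_sigf msg_proof (stt_proof chan_proof)

theorem a_mon : MON.{u} :=
  mon_proof a_lim a_proclaw a_cvx a_sigf msg_proof lawa_proof (stt_proof chan_proof)
    (bnd_proof chan_proof)

theorem a_var : VAR.{u} := var_proof chan_proof lawb_proof a_sigf a_treelaw

theorem a_fin (hMain : MAIN.{u}) : FIN.{u} :=
  fin_proof (conv_proof (diff_proof a_stari hMain a_fldx a_limq a_lim hom_proof shp_proof)
    a_init a_mon a_limq) a_lim a_limq (stt_proof chan_proof) a_starm a_var shp_proof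

end P161C
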