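import Vale.Agent.P161C.Mods2

/-!
# P161 at the critical point: shared basic lemmas
-/

open MeasureTheory Set Filter Topology

namespace P161C

open P161

universe u

variable {V : Type u} {μ : Measure (V → Bool)}

instance : IsProbabilityMeasure (Pc V) := by unfold Pc; infer_instance
instance : IsProbabilityMeasure (Pm V) := by unfold Pm; infer_instance

open Classical in
theorem measurable_upd2 (e : V × ℤ) :
    Measurable fun p : Cfg V × unitInterval => (Function.update p.1 e p.2 : Cfg V) := by
  refine measurable_pi_lambda _ fun f => ?_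
  by_cases h : f = e
  · subst h
    simpa using measurable_snd
  · simp only [Function.update_of_ne h]
    exact (measurable_pi_apply f).comp measurable_fst

open Classical in
/-- resampling one coordinate does not change the law -/
theorem Pc_map_update (e : V × ℤ) :
    ((Pc V).prod (volume : Measure unitInterval)).map
      (fun p => (Function.update p.1 e p.2 : Cfg V)) = Pc V := by
  refine Measure.eq_infinitePi _ fun s t ht => ?_
  rw [Measure.map_apply (measurable_upd2 e)
    (MeasurableSet.pi s.countable_toSet fun i _ => ht i)]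
  have h1 : (fun p : Cfg V × unitInterval => (Function.update p.1 e p.2 : Cfg V)) ⁻¹'
      ((s : Set (V × ℤ)).pi t)
      = (((s.erase e : Finset (V × ℤ)) : Set (V × ℤ)).pi t) ×ˢ
        (if e ∈ s then t e else univ) := by
    ext ⟨U, x⟩
    simp only [mem_preimage, Set.mem_pi, Finset.mem_coe, mem_prod, Finset.mem_erase]
    constructor
    · intro h
      refine ⟨fun i hi => ?_, ?_⟩
      · have := h i hi.2
        rwa [Function.update_of_ne hi.1] at this
      · by_cases he : e ∈ s
        · have := h e he
          simp only [Function.update_self] at this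
          simpa [he] using this
        · simp [he]
    · rintro ⟨h, h'⟩ i hi
      by_cases hie : i = e
      · subst hie
        simpa [hi] using h'
      · rw [Function.update_of_ne hie]
        exact h i ⟨hie, hi⟩
  rw [h1, Measure.prod_prod]
  have h2 : Pc V (((s.erase e : Finset (V × ℤ)) : Set (V × ℤ)).pi t)
      = ∏ i ∈ s.erase e, (volume : Measure unitInterval) (t i) := by
    unfold Pc
    exact Measure.infinitePi_pi _ fun i _ => ht i
  rw [h2]
  by_cases he : e ∈ s
  · rw [if_pos he, mul_comm, Finset.mul_prod_erase s (fun i => volume (t i)) he]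
  · rw [if_neg he, Finset.erase_eq_of_notMem he]
    simp

open Classical in
theorem mp_update (e : V × ℤ) : MeasurePreserving
    (fun p : Cfg V × unitInterval => (Function.update p.1 e p.2 : Cfg V))
    ((Pc V).prod volume) (Pc V) := ⟨measurable_upd2 e, Pc_map_update e⟩

open Classical in
/-- Fubini in one coordinate -/
theorem integral_update (e : V × ℤ) {f : Cfg V → ℝ} (hf : Integrable f (Pc V)) :
    ∫ U, f U ∂(Pc V) = ∫ U, (∫ x : unitInterval, f (Function.update U e x)) ∂(Pc V) := by
  have h1 := (mp_update (V := V) e).integrable_comp_of_integrable hf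
  have h2 : ∫ U, f U ∂(Pc V) = ∫ p, f (Function.update p.1 e p.2)
      ∂((Pc V).prod (volume : Measure unitInterval)) := by
    conv_lhs => rw [← Pc_map_update e]
    rw [integral_map (measurable_upd2 e).aemeasurable]
    rw [Pc_map_update e]
    exact hf.aestronglyMeasurable
  rw [h2]
  exact integral_prod _ h1

/-! ## Distinct times -/

/-- almost surely all times are distinct -/
theorem ae_tm_inj [Countable V] : ∀ᵐ o ∂(Pc V), Function.Injective (tm o) := by
  classical
  have h : ∀ a b : V × ℤ, a ≠ b → ∀ᵐ o ∂(Pc V), tm o a ≠ tm o b := by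
    intro a b hab
    have h1 : (Pc V).map (fun o => (o a, o b))
        = (volume : Measure unitInterval).prod (volume : Measure unitInterval) := by
      unfold Pc
      exact Measure.infinitePi_map_eval_prod hab
    have h2 : ∀ᵐ x ∂((volume : Measure unitInterval).prod (volume : Measure unitInterval)),
        (a.2 : ℝ) + (x.1 : ℝ) ≠ (b.2 : ℝ) + (x.2 : ℝ) := by
      rw [Measure.ae_prod_iff_ae_ae]
      · refine Filter.Eventually.of_forall fun x => ?_
        rw [ae_iff]
        simp only [ne_eq, not_not]
        have hs : {y : unitInterval | (a.2 : ℝ) + (x : ℝ) = (b.2 : ℝ) + (y : ℝ)}.Subsingleton := by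
          intro y hy z hz
          simp only [Set.mem_ofPred_eq] at hy hz
          exact Subtype.ext (by linarith)
        exact hs.measure_zero _
      · exact (measurableSet_eq_fun (by fun_prop) (by fun_prop)).compl
    rw [← h1] at h2
    exact ae_of_ae_map (f := fun o : Cfg V => (o a, o b))
      (p := fun x : unitInterval × unitInterval => (a.2 : ℝ) + (x.1 : ℝ) ≠ (b.2 : ℝ) + (x.2 : ℝ))
      (by fun_prop) h2
  have h' : ∀ᵐ o ∂(Pc V), ∀ a b : V × ℤ, a ≠ b → tm o a ≠ tm o b := by
    rw [ae_all_iff]; intro a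
    rw [ae_all_iff]; intro b
    by_cases hab : a = b
    · simp [hab]
    · filter_upwards [h a b hab] with o ho _ using ho
  filter_upwards [h'] with o ho a b hab
  by_contra hne
  exact ho a b hne hab

/-! ## Sorted lists -/

open Classical in
/-- the elements of a finite set of events sorted, the latest first -/
noncomputable def srt (o : Cfg V) (E : Finset (V × ℤ)) : List (V × ℤ) :=
  E.toList.insertionSort (fun e f => tm o f ≤ tm o e)

theorem evl_eq (Λ : Finset V) (k : ℕ) (t : ℝ) (o : Cfg V) :
    evl Λ k t o = srt o (evs Λ k t o) := rfl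

theorem srt_perm (o : Cfg V) (E : Finset (V × ℤ)) : (srt o E).Perm E.toList :=
  List.perm_insertionSort _ _

theorem mem_srt {o : Cfg V} {E : Finset (V × ℤ)} {e : V × ℤ} : e ∈ srt o E ↔ e ∈ E := by
  rw [(srt_perm o E).mem_iff, Finset.mem_toList]

theorem nodup_srt (o : Cfg V) (E : Finset (V × ℤ)) : (srt o E).Nodup :=
  (srt_perm o E).nodup_iff.2 (Finset.nodup_toList E)

theorem srt_pairwise (o : Cfg V) (E : Finset (V × ℤ)) :
    (srt o E).Pairwise (fun e f => tm o f ≤ tm o e) := by
  classical
  have : Std.Total (fun e f : V × ℤ => tm o f ≤ tm o e) := ⟨fun a b => le_total _ _⟩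
  have : IsTrans (V × ℤ) (fun e f : V × ℤ => tm o f ≤ tm o e) := ⟨fun a b c h h' => h'.trans h⟩
  exact List.pairwise_insertionSort _ _

/-- a list with the right elements, sorted, is the sorted list -/
theorem eq_srt {o : Cfg V} {E : Finset (V × ℤ)} {l : List (V × ℤ)}
    (hinj : InjOn (tm o) (E : Set (V × ℤ))) (hl : l.Perm E.toList)
    (hs : l.Pairwise (fun e f => tm o f ≤ tm o e)) : srt o E = l := by
  refine List.Perm.eq_of_pairwise ?_ (srt_pairwise o E) hs ((srt_perm o E).trans hl.symm)
  intro a b ha hb h1 h2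
  refine hinj ?_ ?_ (le_antisymm h2 h1)
  · exact Finset.mem_coe.2 (mem_srt.1 ha)
  · have := hl.mem_iff.1 hb
    exact Finset.mem_coe.2 (Finset.mem_toList.1 this)

open Classical in
theorem srt_insert {o : Cfg V} {E : Finset (V × ℤ)} {e : V × ℤ}
    (hinj : InjOn (tm o) ((insert e E : Finset (V × ℤ)) : Set (V × ℤ))) (he : e ∉ E)
    (hlast : ∀ f ∈ E, tm o f ≤ tm o e) : srt o (insert e E) = e :: srt o E := by
  refine eq_srt hinj ?_ ?_
  · exact ((srt_perm o E).cons e).trans (Finset.toList_insert he).symm
  · rw [List.pairwise_cons]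
    exact ⟨fun f hf => hlast f (mem_srt.1 hf), srt_pairwise o E⟩

theorem srt_congr {o o' : Cfg V} {E : Finset (V × ℤ)} (h : ∀ e ∈ E, tm o e = tm o' e) :
    srt o E = srt o' E := by
  classical
  have := List.map_insertionSort (r := fun e f => tm o f ≤ tm o e)
    (s := fun e f => tm o' f ≤ tm o' e) (f := fun x : V × ℤ => x) (l := E.toList) (by
      intro a ha b hb
      rw [Finset.mem_toList] at ha hb
      rw [h a ha, h b hb])
  simpa [srt] using this

/-! ## Densities -/

theorem dn_congr (μ : Measure (V → Bool)) {U U' : Cfg V} {l : List (V × ℤ)}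
    (h : ∀ e ∈ l, U e = U' e) : dn μ U l = dn μ U' l := by
  induction l with
  | nil => rfl
  | cons e l ih =>
    have h1 := ih fun f hf => h f (List.mem_cons_of_mem _ hf)
    simp only [dn, h1, h e (List.mem_cons_self ..)]

theorem amp_pos (j : ℤ) : 0 < amp j := by unfold amp scal; positivity

theorem scal_pos (j : ℤ) : 0 < scal j := by unfold scal; positivity

theorem scal_le_one (j : ℤ) : scal j ≤ 1 := by
  unfold scal
  calc (2 : ℝ) ^ (min j 0) ≤ 2 ^ (0 : ℤ) := zpow_le_zpow_right₀ (by norm_num) (min_le_right _ _)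
    _ = 1 := by simp

theorem amp_le (j : ℤ) : amp j ≤ 1 / 8 := by
  unfold amp
  have := scal_le_one j
  linarith

theorem dn_post [IsProbabilityMeasure μ] {G : SimpleGraph V} (hG : G.IsTree) (hC : CHAN)
    (U : Cfg V) (l : List (V × ℤ)) : Post G μ (dn μ U l) := by
  induction l with
  | nil => exact Post.one
  | cons e l ih =>
    have h1 := hC.Ig_le (amp e.2) (mean μ (dn μ U l) e.1) (U e) (amp_pos _).le (amp_le _)
      (ih.abs_mean_le _) (U e).2.1 (U e).2.2
    refine ih.upd e.1 (h1.trans ?_) hG
    have := amp_le e.2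
    linarith

theorem mean_dn_cons [IsProbabilityMeasure μ] {G : SimpleGraph V} (hG : G.IsTree) (hC : CHAN)
    (U : Cfg V) (e : V × ℤ) (l : List (V × ℤ)) (v : V) :
    mean μ (dn μ U (e :: l)) v = mean μ (dn μ U l) v
      + cov μ (dn μ U l) v e.1 * Ig (amp e.2) (mean μ (dn μ U l) e.1) (U e) := by
  have := mean_upd (μ := μ) (dn_post (μ := μ) hG hC U l).loc e.1
    (Ig (amp e.2) (mean μ (dn μ U l) e.1) (U e)) v
  rw [mul_comm]
  exact this

theorem measurable_Ig (hC : CHAN) : Measurable fun p : ℝ × ℝ × ℝ => Ig p.1 p.2.1 p.2.2 := by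
  have h1 : Measurable fun p : ℝ × ℝ × ℝ => qt (p.1 * p.2.1) p.2.2 :=
    hC.qt_meas.comp (by fun_prop : Measurable fun p : ℝ × ℝ × ℝ => ((p.1 * p.2.1, p.2.2) : ℝ × ℝ))
  unfold Ig sg
  fun_prop

theorem measurable_dn [IsProbabilityMeasure μ] (hC : CHAN) (l : List (V × ℤ)) :
    Measurable fun p : Cfg V × (V → Bool) => dn μ p.1 l p.2 := by
  induction l with
  | nil => exact measurable_const
  | cons e l ih =>
    have hsp : ∀ w : V, Measurable fun p : Cfg V × (V → Bool) => spin (p.2 w) := fun w =>
      (measurable_of_finite spin).comp ((measurable_pi_apply w).comp measurable_snd)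
    have hm : ∀ w : V, Measurable fun U : Cfg V => mean μ (dn μ U l) w := by
      intro w
      have h1 : StronglyMeasurable fun p : Cfg V × (V → Bool) => dn μ p.1 l p.2 * spin (p.2 w) :=
        (ih.mul (hsp w)).stronglyMeasurable
      exact (h1.integral_prod_right (ν := μ)).measurable
    have h2 : Measurable fun p : Cfg V × (V → Bool) =>
        Ig (amp e.2) (mean μ (dn μ p.1 l) e.1) (p.1 e) :=
      (measurable_Ig hC).comp (measurable_const.prodMk
        (((hm e.1).comp measurable_fst).prodMk
          (measurable_subtype_coe.comp ((measurable_pi_apply e).comp measurable_fst))))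
    have h3 : Measurable fun p : Cfg V × (V → Bool) => mean μ (dn μ p.1 l) e.1 :=
      (hm e.1).comp measurable_fst
    simp only [dn, upd]
    exact ih.mul ((measurable_const.add (h2.mul ((hsp e.1).sub h3))))

theorem measurable_mean_dn [IsProbabilityMeasure μ] (hC : CHAN) (l : List (V × ℤ)) (v : V) :
    Measurable fun U : Cfg V => mean μ (dn μ U l) v := by
  have hsp : Measurable fun p : Cfg V × (V → Bool) => spin (p.2 v) :=
    (measurable_of_finite spin).comp ((measurable_pi_apply v).comp measurable_snd)
  have h1 : StronglyMeasurable fun p : Cfg V × (V → Bool) => dn μ p.1 l p.2 * spin (p.2 v) :=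
    ((measurable_dn hC l).mul hsp).stronglyMeasurable
  exact (h1.integral_prod_right (ν := μ)).measurable

theorem measurable_cov_dn [IsProbabilityMeasure μ] (hC : CHAN) (l : List (V × ℤ)) (v w : V) :
    Measurable fun U : Cfg V => cov μ (dn μ U l) v w := by
  have hsp : ∀ v : V, Measurable fun p : Cfg V × (V → Bool) => spin (p.2 v) := fun v =>
    (measurable_of_finite spin).comp ((measurable_pi_apply v).comp measurable_snd)
  have h1 : StronglyMeasurable fun p : Cfg V × (V → Bool) =>
      dn μ p.1 l p.2 * (spin (p.2 v) * spin (p.2 w)) :=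
    ((measurable_dn hC l).mul ((hsp v).mul (hsp w))).stronglyMeasurable
  have h2 := (h1.integral_prod_right' (ν := μ)).measurable
  unfold cov
  exact h2.sub ((measurable_mean_dn hC l v).mul (measurable_mean_dn hC l w))

/-! ## Times -/

theorem pr_mono (i : ℤ) {t t' : ℝ} (h : t ≤ t') : pr i t ≤ pr i t' := by
  unfold pr
  exact max_le_max le_rfl (min_le_min (by linarith) le_rfl)

theorem pr_nonneg (i : ℤ) (t : ℝ) : 0 ≤ pr i t := le_max_left _ _

theorem pr_le_half (i : ℤ) (t : ℝ) : pr i t ≤ 1 / 2 := by
  unfold pr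
  exact max_le (by norm_num) (min_le_right _ _)

/-- an event is used iff its label is `< 1/2` and its time is `< t` -/
theorem act_iff {t : ℝ} {o : Cfg V} {e : V × ℤ} :
    act t o e ↔ (o e : ℝ) < 1 / 2 ∧ tm o e < t := by
  unfold act pr tm
  have h0 := (o e).2.1
  constructor
  · intro h
    rcases lt_max_iff.1 h with h | h
    · linarith
    · have h1 := lt_min_iff.1 h
      exact ⟨h1.2, by linarith [h1.1]⟩
  · rintro ⟨h1, h2⟩
    exact lt_max_iff.2 (Or.inr (lt_min_iff.2 ⟨by linarith, h1⟩))

theorem mem_evs {Λ : Finset V} {k : ℕ} {t : ℝ} {o : Cfg V} {e : V × ℤ} :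
    e ∈ evs Λ k t o ↔ e.1 ∈ Λ ∧ -(k : ℤ) ≤ e.2 ∧ act t o e := by
  classical
  unfold evs
  simp only [Finset.mem_filter, Finset.mem_product, Finset.mem_Icc]
  constructor
  · rintro ⟨⟨h1, h2, _⟩, h3⟩
    exact ⟨h1, h2, h3⟩
  · rintro ⟨h1, h2, h3⟩
    refine ⟨⟨h1, h2, ?_⟩, h3⟩
    have h4 := (act_iff.1 h3).2
    unfold tm at h4
    have h5 := (o e).2.1
    have h6 : (e.2 : ℝ) ≤ t := by linarith
    have h7 : (e.2 : ℝ) ≤ (⌈t⌉ : ℝ) := h6.trans (Int.le_ceil t)
    exact_mod_cast h7

end P161C
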