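import Vale.Agent.P161C.Mods2
import Vale.Agent.P161C.Base

/-!
# P161 at the critical point: bounded convergence of the fields (shared by FLDX, INIT, MON)
-/

open MeasureTheory Set Filter Topology

namespace P161C

open P161

/-- bounded `L¹` convergence -/
structure BT {Ω : Type*} [MeasurableSpace Ω] (P : Measure Ω) (B : ℝ) (Y : ℕ → Ω → ℝ)
    (X : Ω → ℝ) : Prop where
  mY : ∀ n, Measurable (Y n)
  mX : Measurable X
  bY : ∀ n, ∀ᵐ ω ∂P, |Y n ω| ≤ B
  bX : ∀ᵐ ω ∂P, |X ω| ≤ B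
  lim : Tendsto (fun n => ∫ ω, |Y n ω - X ω| ∂P) atTop (𝓝 0)

namespace BT

set_option linter.unusedSectionVars false

variable {Ω : Type*} [MeasurableSpace Ω] {P : Measure Ω} [IsProbabilityMeasure P]
  {B B₁ B₂ : ℝ} {Y Y₁ Y₂ : ℕ → Ω → ℝ} {X X₁ X₂ : Ω → ℝ}

theorem intY (h : BT P B Y X) (n : ℕ) : Integrable (Y n) P :=
  Integrable.of_bound (h.mY n).aestronglyMeasurable B (h.bY n)

theorem intX (h : BT P B Y X) : Integrable X P :=
  Integrable.of_bound h.mX.aestronglyMeasurable B h.bX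

theorem intD (h : BT P B Y X) (n : ℕ) : Integrable (fun ω => |Y n ω - X ω|) P :=
  ((h.intY n).sub h.intX).abs

theorem integral (h : BT P B Y X) :
    Tendsto (fun n => ∫ ω, Y n ω ∂P) atTop (𝓝 (∫ ω, X ω ∂P)) := by
  rw [tendsto_iff_dist_tendsto_zero]
  refine squeeze_zero (fun n => dist_nonneg) (fun n => ?_) h.lim
  rw [Real.dist_eq, ← integral_sub (h.intY n) h.intX]
  exact abs_integral_le_integral_abs

theorem of_two (h₁ : BT P B₁ Y₁ X₁) (h₂ : BT P B₂ Y₂ X₂) {K : ℝ}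
    (mY : ∀ n, Measurable (Y n)) (mX : Measurable X) (bY : ∀ n, ∀ᵐ ω ∂P, |Y n ω| ≤ B)
    (bX : ∀ᵐ ω ∂P, |X ω| ≤ B)
    (hle : ∀ n, ∀ᵐ ω ∂P, |Y n ω - X ω| ≤ K * (|Y₁ n ω - X₁ ω| + |Y₂ n ω - X₂ ω|)) :
    BT P B Y X := by
  refine ⟨mY, mX, bY, bX, ?_⟩
  have h : Tendsto (fun n => K * (∫ ω, |Y₁ n ω - X₁ ω| ∂P + ∫ ω, |Y₂ n ω - X₂ ω| ∂P)) atTop
      (𝓝 (K * (0 + 0))) := (h₁.lim.add h₂.lim).const_mul K
  rw [add_zero, mul_zero] at h
  refine squeeze_zero (fun n => integral_nonneg (fun ω => abs_nonneg _)) (fun n => ?_) h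
  rw [← integral_add (h₁.intD n) (h₂.intD n), ← integral_const_mul]
  refine integral_mono_ae ?_ (((h₁.intD n).add (h₂.intD n)).const_mul K) (hle n)
  have hi : Integrable (Y n) P := Integrable.of_bound (mY n).aestronglyMeasurable B (bY n)
  have hi2 : Integrable X P := Integrable.of_bound mX.aestronglyMeasurable B bX
  exact (hi.sub hi2).abs

theorem mono (h : BT P B Y X) {B' : ℝ} (hB : B ≤ B') : BT P B' Y X :=
  ⟨h.mY, h.mX, fun n => (h.bY n).mono fun _ h => h.trans hB, h.bX.mono fun _ h => h.trans hB,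
    h.lim⟩

theorem const (c : ℝ) : BT P |c| (fun _ _ => c) (fun _ : Ω => c) :=
  ⟨fun _ => measurable_const, measurable_const, fun _ => ae_of_all _ fun _ => le_refl _,
    ae_of_all _ fun _ => le_refl _, by simp⟩

theorem comp (h : BT P B Y X) {φ : ℝ → ℝ} {K B' : ℝ} (hφ : Measurable φ)
    (hb : ∀ x, |x| ≤ B → |φ x| ≤ B')
    (hl : ∀ x y, |x| ≤ B → |y| ≤ B → |φ x - φ y| ≤ K * |x - y|) :
    BT P B' (fun n ω => φ (Y n ω)) (fun ω => φ (X ω)) := by
  refine of_two h h (K := K / 2) (fun n => hφ.comp (h.mY n)) (hφ.comp h.mX) (fun n => ?_) ?_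
    (fun n => ?_)
  · filter_upwards [h.bY n] with ω hω using hb _ hω
  · filter_upwards [h.bX] with ω hω using hb _ hω
  · filter_upwards [h.bY n, h.bX] with ω h1 h2
    have := hl _ _ h1 h2
    calc |φ (Y n ω) - φ (X ω)| ≤ K * |Y n ω - X ω| := this
      _ = K / 2 * (|Y n ω - X ω| + |Y n ω - X ω|) := by ring

theorem add (h₁ : BT P B₁ Y₁ X₁) (h₂ : BT P B₂ Y₂ X₂) :
    BT P (B₁ + B₂) (fun n ω => Y₁ n ω + Y₂ n ω) (fun ω => X₁ ω + X₂ ω) := by
  refine of_two h₁ h₂ (K := 1) (fun n => (h₁.mY n).add (h₂.mY n)) (h₁.mX.add h₂.mX)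
    (fun n => ?_) ?_ (fun n => ?_)
  · filter_upwards [h₁.bY n, h₂.bY n] with ω a b using (abs_add_le _ _).trans (add_le_add a b)
  · filter_upwards [h₁.bX, h₂.bX] with ω a b using (abs_add_le _ _).trans (add_le_add a b)
  · refine ae_of_all _ fun ω => ?_
    rw [one_mul]
    calc |Y₁ n ω + Y₂ n ω - (X₁ ω + X₂ ω)| = |(Y₁ n ω - X₁ ω) + (Y₂ n ω - X₂ ω)| := by
          congr 1; ring
      _ ≤ _ := abs_add_le _ _

theorem mul (h₁ : BT P B₁ Y₁ X₁) (h₂ : BT P B₂ Y₂ X₂) (h0 : 0 ≤ B₁) (h0' : 0 ≤ B₂) :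
    BT P (B₁ * B₂) (fun n ω => Y₁ n ω * Y₂ n ω) (fun ω => X₁ ω * X₂ ω) := by
  refine of_two h₁ h₂ (K := B₁ + B₂) (fun n => (h₁.mY n).mul (h₂.mY n)) (h₁.mX.mul h₂.mX)
    (fun n => ?_) ?_ (fun n => ?_)
  · filter_upwards [h₁.bY n, h₂.bY n] with ω a b
    rw [abs_mul]; exact mul_le_mul a b (abs_nonneg _) h0
  · filter_upwards [h₁.bX, h₂.bX] with ω a b
    rw [abs_mul]; exact mul_le_mul a b (abs_nonneg _) h0
  · filter_upwards [h₂.bY n, h₁.bX] with ω a b
    calc |Y₁ n ω * Y₂ n ω - X₁ ω * X₂ ω|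
        = |(Y₁ n ω - X₁ ω) * Y₂ n ω + X₁ ω * (Y₂ n ω - X₂ ω)| := by congr 1; ring
      _ ≤ |(Y₁ n ω - X₁ ω) * Y₂ n ω| + |X₁ ω * (Y₂ n ω - X₂ ω)| := abs_add_le _ _
      _ = |Y₁ n ω - X₁ ω| * |Y₂ n ω| + |X₁ ω| * |Y₂ n ω - X₂ ω| := by rw [abs_mul, abs_mul]
      _ ≤ |Y₁ n ω - X₁ ω| * B₂ + B₁ * |Y₂ n ω - X₂ ω| := by
          gcongr
      _ ≤ (B₁ + B₂) * (|Y₁ n ω - X₁ ω| + |Y₂ n ω - X₂ ω|) := by
          nlinarith [abs_nonneg (Y₁ n ω - X₁ ω), abs_nonneg (Y₂ n ω - X₂ ω)]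

theorem smul (h : BT P B Y X) (c : ℝ) :
    BT P (|c| * B) (fun n ω => c * Y n ω) (fun ω => c * X ω) := by
  refine h.comp (φ := fun x => c * x) (K := |c|) (by fun_prop) (fun x hx => ?_)
    (fun x y _ _ => ?_)
  · rw [abs_mul]; exact mul_le_mul_of_nonneg_left hx (abs_nonneg _)
  · rw [← mul_sub, abs_mul]

theorem sum {ι : Type*} (s : Finset ι) {Ys : ι → ℕ → Ω → ℝ} {Xs : ι → Ω → ℝ}
    (h : ∀ i ∈ s, BT P B (Ys i) (Xs i)) :
    BT P (s.card * B) (fun n ω => ∑ i ∈ s, Ys i n ω) (fun ω => ∑ i ∈ s, Xs i ω) := by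
  classical
  induction s using Finset.induction_on with
  | empty =>
    have := const (P := P) (Ω := Ω) 0
    simpa using this
  | insert a s ha ih =>
    have h1 := h a (Finset.mem_insert_self _ _)
    have h2 := ih (fun i hi => h i (Finset.mem_insert_of_mem hi))
    have h3 := h1.add h2
    have e : ((insert a s).card : ℝ) * B = B + s.card * B := by
      rw [Finset.card_insert_of_notMem ha]; push_cast; ring
    rw [e]
    simpa only [Finset.sum_insert ha] using h3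

/-- `L²` convergence of bounded functions -/
theorem ofL2 {Y : ℕ → Ω → ℝ} {X : Ω → ℝ} (mY : ∀ n, Measurable (Y n)) (mX : Measurable X)
    (bY : ∀ n ω, |Y n ω| ≤ 1) (bX : ∀ ω, |X ω| ≤ 1) (h : TendL2 P Y X) : BT P 1 Y X := by
  refine ⟨mY, mX, fun n => ae_of_all _ (bY n), ae_of_all _ bX, ?_⟩
  have h2 : Tendsto (fun n => √(∫ x, (Y n x - X x) ^ 2 ∂P)) atTop (𝓝 0) := by
    have := (Real.continuous_sqrt.tendsto 0).comp h
    rwa [Real.sqrt_zero] at this
  refine squeeze_zero (fun n => integral_nonneg (fun ω => abs_nonneg _)) (fun n => ?_) h2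
  have hi : Integrable (Y n) P := Integrable.of_bound (mY n).aestronglyMeasurable 1
    (ae_of_all _ (bY n))
  have hi2 : Integrable X P := Integrable.of_bound mX.aestronglyMeasurable 1 (ae_of_all _ bX)
  have hd : Integrable (fun ω => |Y n ω - X ω|) P := (hi.sub hi2).abs
  have hsq : Integrable (fun ω => (Y n ω - X ω) ^ 2) P := by
    refine Integrable.of_bound (by have := mY n; fun_prop) 4 (ae_of_all _ fun ω => ?_)
    rw [Real.norm_eq_abs, abs_of_nonneg (sq_nonneg _)]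
    have := abs_le.mp (bY n ω)
    have := abs_le.mp (bX ω)
    nlinarith
  set m : ℝ := ∫ ω, |Y n ω - X ω| ∂P with hm
  have h3 : 0 ≤ ∫ ω, (|Y n ω - X ω| - m) ^ 2 ∂P := integral_nonneg (fun ω => sq_nonneg _)
  have h4 : ∫ ω, (|Y n ω - X ω| - m) ^ 2 ∂P
      = ∫ ω, (Y n ω - X ω) ^ 2 ∂P - m ^ 2 := by
    have e : ∀ ω, (|Y n ω - X ω| - m) ^ 2
        = (Y n ω - X ω) ^ 2 - (2 * m) * |Y n ω - X ω| + m ^ 2 := by
      intro ω
      have := sq_abs (Y n ω - X ω)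
      nlinarith
    have h5 : Integrable (fun ω => (Y n ω - X ω) ^ 2 - (2 * m) * |Y n ω - X ω|) P :=
      hsq.sub (hd.const_mul _)
    simp only [e]
    rw [integral_add h5 (integrable_const _),
      integral_sub hsq (hd.const_mul _), integral_const_mul, ← hm]
    simp
    ring
  apply Real.le_sqrt_of_sq_le
  linarith

/-- a pointwise bound passes to the limit -/
theorem ae_bound (h : BT P B Y X) {r : ℝ} (hr : ∀ n ω, |Y n ω| ≤ r) :
    ∀ᵐ ω ∂P, |X ω| ≤ r := by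
  have hm : Measurable (fun ω => max (|X ω| - r) 0) := by
    have := h.mX
    fun_prop
  have hle : ∀ n ω, max (|X ω| - r) 0 ≤ |Y n ω - X ω| := by
    intro n ω
    apply max_le _ (abs_nonneg _)
    have h1 := hr n ω
    have h2 : |X ω| ≤ |Y n ω| + |Y n ω - X ω| := by
      calc |X ω| = |Y n ω - (Y n ω - X ω)| := by congr 1; ring
        _ ≤ _ := abs_sub _ _
    linarith
  have hint : Integrable (fun ω => max (|X ω| - r) 0) P := by
    refine Integrable.mono' (h.intD 0) hm.aestronglyMeasurable (ae_of_all _ fun ω => ?_)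
    rw [Real.norm_eq_abs, abs_of_nonneg (le_max_right _ _)]
    exact hle 0 ω
  have h0 : ∫ ω, max (|X ω| - r) 0 ∂P ≤ 0 := by
    refine ge_of_tendsto' h.lim (fun n => ?_)
    exact integral_mono hint (h.intD n) (hle n)
  have h1 : ∫ ω, max (|X ω| - r) 0 ∂P = 0 :=
    le_antisymm h0 (integral_nonneg (fun ω => le_max_right _ _))
  have h2 := (integral_eq_zero_iff_of_nonneg (fun ω => le_max_right _ _) hint).mp h1
  filter_upwards [h2] with ω hω
  have h3 : max (|X ω| - r) 0 = 0 := hω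
  have := le_max_left (|X ω| - r) 0
  linarith

/-- replace the bound -/
theorem rebound (h : BT P B Y X) {r : ℝ} (hr : ∀ n ω, |Y n ω| ≤ r) : BT P r Y X :=
  ⟨h.mY, h.mX, fun n => ae_of_all _ (hr n), h.ae_bound hr, h.lim⟩

end BT

/-! ### the message function -/

theorem bt_meas_msg (θ : ℝ) : Measurable fun p : ℝ × ℝ => msg θ p.1 p.2 := by
  unfold msg
  fun_prop

theorem bt_meas_Nf (θ : ℝ) : Measurable (Nf θ) := by
  unfold Nf
  fun_prop

theorem bt_meas_kt (r y : ℝ) : Measurable (kt r y) := by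
  unfold kt
  fun_prop

universe u

variable {V : Type u}

/-- convergence of the messages -/
theorem BT.ms {Ω : Type*} [MeasurableSpace Ω] {P : Measure Ω} [IsProbabilityMeasure P]
    (hM : MSG) {θ r r' : ℝ} (h0 : 0 ≤ θ) (h1 : θ ^ 2 ≤ 1 / 2) (hr : r ≤ 1)
    (hb : ∀ x y, |x| ≤ r → |y| ≤ r → |msg θ x y| ≤ r')
    {Mn : ℕ → V → Ω → ℝ} {M : V → Ω → ℝ} (h : ∀ v, BT P r (fun n => Mn n v) (M v)) (a b : V) :
    BT P r' (fun n ω => ms θ (fun v => Mn n v ω) a b) (fun ω => ms θ (fun v => M v ω) a b) := by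
  obtain ⟨C, _, hC⟩ := hM.lip
  refine BT.of_two (h a) (h b) (K := C) (fun n => ?_) ?_ (fun n => ?_) ?_ (fun n => ?_)
  · exact (bt_meas_msg θ).comp (((h a).mY n).prodMk ((h b).mY n))
  · exact (bt_meas_msg θ).comp ((h a).mX.prodMk (h b).mX)
  · filter_upwards [(h a).bY n, (h b).bY n] with ω ha hb' using hb _ _ ha hb'
  · filter_upwards [(h a).bX, (h b).bX] with ω ha hb' using hb _ _ ha hb'
  · filter_upwards [(h a).bY n, (h b).bY n, (h a).bX, (h b).bX] with ω h1' h2' h3' h4'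
    exact hC θ _ _ _ _ h0 h1 (h1'.trans hr) (h2'.trans hr) (h3'.trans hr) (h4'.trans hr)

/-- Lipschitz bound for `exp` on bounded sets -/
theorem bt_exp_lip {B x y : ℝ} (hx : x ≤ B) (hy : y ≤ B) :
    |Real.exp x - Real.exp y| ≤ Real.exp B * |x - y| := by
  wlog h : y ≤ x generalizing x y with H
  · rw [abs_sub_comm, abs_sub_comm x y]
    exact H hy hx (le_of_not_ge h)
  have h1 : Real.exp y ≤ Real.exp x := Real.exp_le_exp.mpr h
  rw [abs_of_nonneg (by linarith), abs_of_nonneg (by linarith)]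
  have h2 : Real.exp y = Real.exp x * Real.exp (-(x - y)) := by
    rw [← Real.exp_add]; congr 1; ring
  have h3 : 1 - (x - y) ≤ Real.exp (-(x - y)) := by
    have := Real.add_one_le_exp (-(x - y)); linarith
  have h4 : Real.exp x ≤ Real.exp B := Real.exp_le_exp.mpr hx
  have h5 : 0 < Real.exp x := Real.exp_pos x
  calc Real.exp x - Real.exp y = Real.exp x * (1 - Real.exp (-(x - y))) := by rw [h2]; ring
    _ ≤ Real.exp x * (x - y) := mul_le_mul_of_nonneg_left (by linarith) h5.le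
    _ ≤ Real.exp B * (x - y) := mul_le_mul_of_nonneg_right h4 (by linarith)

theorem bt_sq_lip {B x y : ℝ} (hx : |x| ≤ B) (hy : |y| ≤ B) :
    |x ^ 2 - y ^ 2| ≤ 2 * B * |x - y| := by
  have e : x ^ 2 - y ^ 2 = (x + y) * (x - y) := by ring
  rw [e, abs_mul]
  exact mul_le_mul_of_nonneg_right ((abs_add_le _ _).trans (by linarith)) (abs_nonneg _)

/-- `φ (c x²)` with `φ = exp` -/
theorem BT.expsq {Ω : Type*} [MeasurableSpace Ω] {P : Measure Ω} [IsProbabilityMeasure P]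
    {B : ℝ} {Y : ℕ → Ω → ℝ} {X : Ω → ℝ} (h : BT P B Y X) (c : ℝ) :
    ∃ B', BT P B' (fun n ω => Real.exp (c * Y n ω ^ 2)) (fun ω => Real.exp (c * X ω ^ 2)) := by
  refine ⟨Real.exp (|c| * B ^ 2), h.comp (φ := fun x => Real.exp (c * x ^ 2))
    (K := Real.exp (|c| * B ^ 2) * (|c| * (2 * B))) (by fun_prop) (fun x hx => ?_)
    (fun x y hx hy => ?_)⟩
  · have h1 : c * x ^ 2 ≤ |c| * B ^ 2 := by
      have h2 : x ^ 2 ≤ B ^ 2 := by
        rw [← sq_abs x]; exact pow_le_pow_left₀ (abs_nonneg _) hx 2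
      calc c * x ^ 2 ≤ |c| * x ^ 2 := mul_le_mul_of_nonneg_right (le_abs_self c) (sq_nonneg x)
        _ ≤ |c| * B ^ 2 := mul_le_mul_of_nonneg_left h2 (abs_nonneg c)
    rw [abs_of_pos (Real.exp_pos _)]
    exact Real.exp_le_exp.mpr h1
  · have hle : ∀ z : ℝ, |z| ≤ B → c * z ^ 2 ≤ |c| * B ^ 2 := by
      intro z hz
      have h2 : z ^ 2 ≤ B ^ 2 := by
        rw [← sq_abs z]; exact pow_le_pow_left₀ (abs_nonneg _) hz 2
      calc c * z ^ 2 ≤ |c| * z ^ 2 := mul_le_mul_of_nonneg_right (le_abs_self c) (sq_nonneg z)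
        _ ≤ |c| * B ^ 2 := mul_le_mul_of_nonneg_left h2 (abs_nonneg c)
    refine (bt_exp_lip (hle x hx) (hle y hy)).trans ?_
    rw [mul_assoc]
    apply mul_le_mul_of_nonneg_left _ (Real.exp_pos _).le
    rw [← mul_sub, abs_mul, mul_assoc]
    exact mul_le_mul_of_nonneg_left (bt_sq_lip hx hy) (abs_nonneg c)

end P161C
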