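import Vale.Agent.P161C.Base

/-!
# P161 at the critical point, module BND: the posterior means stay away from `± 1`
-/

open MeasureTheory Set Filter Topology

namespace P161C

open P161

universe u

variable {V : Type u} {G : SimpleGraph V} {θ : ℝ} {μ : Measure (V → Bool)}

namespace Bnd

open Classical in
/-- flip the spin of `v` -/
noncomputable def flp (v : V) (s : V → Bool) : V → Bool := Function.update s v (!(s v))

theorem flp_self (v : V) (s : V → Bool) : flp v s v = !(s v) := by simp [flp]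

theorem flp_of_ne {v w : V} (h : w ≠ v) (s : V → Bool) : flp v s w = s w := by simp [flp, h]

theorem flp_flp (v : V) (s : V → Bool) : flp v (flp v s) = s := by
  classical
  funext w
  by_cases h : w = v
  · subst h; simp [flp]
  · simp [flp, h]

open Classical in
/-- flipping of finite sets -/
noncomputable def fl (v : V) (A : Finset V) : Finset V := if v ∈ A then A.erase v else insert v A

theorem fl_fl (v : V) (A : Finset V) : fl v (fl v A) = A := by
  classical
  unfold fl
  by_cases h : v ∈ A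
  · simp [h]
  · simp [h]

theorem pat_fl (v : V) (A : Finset V) : pat (fl v A) = flp v (pat A) := by
  classical
  funext w
  unfold fl
  by_cases hw : w = v
  · subst hw
    rw [flp_self]
    by_cases h : w ∈ A <;> simp [pat, h]
  · rw [flp_of_ne hw]
    by_cases h : v ∈ A <;> simp [pat, h, hw]

theorem fl_mem {v : V} {D A : Finset V} (hv : v ∈ D) (hA : A ⊆ D) : fl v A ⊆ D := by
  classical
  unfold fl
  split_ifs with h
  · exact (Finset.erase_subset _ _).trans hA
  · exact Finset.insert_subset hv hA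

theorem pairSpin_flp_of_notMem {v : V} {s : V → Bool} {e : Sym2 V} (h : v ∉ e) :
    pairSpin (flp v s) e = pairSpin s e := by
  induction e using Sym2.ind with
  | _ x y =>
    rw [Sym2.mem_iff, not_or] at h
    show spin (flp v s x) * spin (flp v s y) = spin (s x) * spin (s y)
    rw [flp_of_ne (Ne.symm h.1), flp_of_ne (Ne.symm h.2)]

theorem abs_pairSpin (s : V → Bool) (e : Sym2 V) : |pairSpin s e| = 1 := by
  induction e using Sym2.ind with
  | _ x y =>
    show |spin (s x) * spin (s y)| = 1
    rw [abs_mul, abs_spin, abs_spin, one_mul]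

/-- the weight changes by a bounded factor -/
theorem wt_flp [G.LocallyFinite] {D : ℕ} (hreg : G.IsRegularOfDegree D) (h0 : 0 ≤ θ) (h1 : θ < 1)
    (v : V) (S : Finset V) (s : V → Bool) :
    P161.wt G θ S (flp v s) ≤ ((1 + θ) / (1 - θ)) ^ D * P161.wt G θ S s := by
  classical
  have h1' : 0 < 1 - θ := by linarith
  set c := (1 + θ) / (1 - θ) with hc
  have hc1 : 1 ≤ c := by
    rw [hc, le_div_iff₀ h1']; linarith
  have hfac : ∀ (s : V → Bool) e, 0 < (1 + θ * pairSpin s e) / 2 := by
    intro s e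
    have h2 := abs_pairSpin s e
    have h3 : -1 ≤ pairSpin s e := (abs_le.1 h2.le).1
    nlinarith
  have hstep : ∀ e, (1 + θ * pairSpin (flp v s) e) / 2
      ≤ (if v ∈ e then c else 1) * ((1 + θ * pairSpin s e) / 2) := by
    intro e
    split_ifs with h
    · have h2 := abs_pairSpin s e
      have h3 := abs_pairSpin (flp v s) e
      have h4 := (abs_le.1 h2.le).1
      have h5 := (abs_le.1 h3.le).2
      have h6 : 1 + θ * pairSpin (flp v s) e ≤ 1 + θ := by nlinarith
      have h7 : 1 - θ ≤ 1 + θ * pairSpin s e := by nlinarith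
      have h8 : c * (1 - θ) = 1 + θ := by rw [hc]; field_simp
      have h9 : c * (1 - θ) ≤ c * (1 + θ * pairSpin s e) :=
        mul_le_mul_of_nonneg_left h7 (by linarith)
      have h10 : c * ((1 + θ * pairSpin s e) / 2) = c * (1 + θ * pairSpin s e) / 2 := by ring
      rw [h10]
      linarith
    · rw [pairSpin_flp_of_notMem h, one_mul]
  unfold P161.wt
  have h2 : ∏ e ∈ edgesIn G S, (1 + θ * pairSpin (flp v s) e) / 2
      ≤ ∏ e ∈ edgesIn G S, ((if v ∈ e then c else 1) * ((1 + θ * pairSpin s e) / 2)) :=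
    Finset.prod_le_prod (fun e _ => (hfac _ e).le) (fun e _ => hstep e)
  have h3 : ∏ e ∈ edgesIn G S, (if v ∈ e then c else 1) ≤ c ^ D := by
    rw [Finset.prod_ite]
    simp only [Finset.prod_const, one_pow, mul_one]
    apply pow_le_pow_right₀ hc1
    have h4 : ((edgesIn G S).filter (fun e => v ∈ e)).card ≤ (G.incidenceFinset v).card := by
      apply Finset.card_le_card
      intro e he
      rw [Finset.mem_filter] at he
      rw [SimpleGraph.mem_incidenceFinset]
      have := he.1
      unfold edgesIn at this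
      exact ⟨(Finset.mem_filter.1 this).2, he.2⟩
    rw [SimpleGraph.card_incidenceFinset_eq_degree, hreg v] at h4
    exact h4
  rw [Finset.prod_mul_distrib] at h2
  have h5 : 0 ≤ ∏ e ∈ edgesIn G S, (1 + θ * pairSpin s e) / 2 :=
    Finset.prod_nonneg (fun e _ => (hfac _ e).le)
  have h6 := mul_le_mul_of_nonneg_right h3 h5
  nlinarith

theorem wt_nonneg (h0 : 0 ≤ θ) (h1 : θ < 1) (S : Finset V) (s : V → Bool) :
    0 ≤ P161.wt G θ S s := by
  unfold P161.wt
  apply mul_nonneg (by norm_num)
  apply Finset.prod_nonneg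
  intro e _
  have h2 := abs_pairSpin s e
  have h3 : -1 ≤ pairSpin s e := (abs_le.1 h2.le).1
  nlinarith

/-- quasi-invariance of the Ising measure under a flip -/
theorem int_flp [G.LocallyFinite] {D : ℕ} (hG : G.Connected) (hreg : G.IsRegularOfDegree D)
    (hμ : IsFreeIsing G θ μ) (h0 : 0 ≤ θ) (h1 : θ < 1) (v : V) {F : (V → Bool) → ℝ} (hF : Loc F)
    (hpos : ∀ s, 0 ≤ F s) :
    ∫ s, F (flp v s) ∂μ ≤ ((1 + θ) / (1 - θ)) ^ D * ∫ s, F s ∂μ := by
  classical
  obtain ⟨S, hS⟩ := hF
  obtain ⟨E, hSE, hE⟩ := G.extend_finset_to_connected hG.preconnected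
      (t := insert v S) ⟨v, Finset.mem_insert_self _ _⟩
  have hvE : v ∈ E := hSE (Finset.mem_insert_self _ _)
  have hF' : DependsOn F (E : Set V) := fun x y h =>
    hS (fun i hi => h i (hSE (Finset.mem_insert_of_mem hi)))
  have hF2 : DependsOn (fun s => F (flp v s)) (E : Set V) := by
    intro x y h
    apply hF'
    intro i hi
    by_cases hiv : i = v
    · subst hiv
      rw [flp_self, flp_self, h i hi]
    · rw [flp_of_ne hiv, flp_of_ne hiv, h i hi]
  rw [integral_eq_sum_wt hμ hE hF2, integral_eq_sum_wt hμ hE hF']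
  have e1 : ∑ A ∈ E.powerset, P161.wt G θ E (pat A) * F (flp v (pat A))
      = ∑ A ∈ E.powerset, P161.wt G θ E (flp v (pat A)) * F (pat A) := by
    refine Finset.sum_nbij' (fun A => fl v A) (fun A => fl v A) ?_ ?_ ?_ ?_ ?_
    · intro A hA
      rw [Finset.mem_powerset] at hA ⊢
      exact fl_mem hvE hA
    · intro A hA
      rw [Finset.mem_powerset] at hA ⊢
      exact fl_mem hvE hA
    · intro A _; exact fl_fl v A
    · intro A _; exact fl_fl v A
    · intro A _
      rw [pat_fl, flp_flp]
  rw [e1, Finset.mul_sum]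
  apply Finset.sum_le_sum
  intro A _
  rw [← mul_assoc]
  exact mul_le_mul_of_nonneg_right (wt_flp hreg h0 h1 v E _) (hpos _)

/-- abstract bound for the mean -/
theorem mean_bound [G.LocallyFinite] {D : ℕ} (hG : G.Connected) (hreg : G.IsRegularOfDegree D)
    (hμ : IsFreeIsing G θ μ) (h0 : 0 ≤ θ) (h1 : θ < 1) {ρ : (V → Bool) → ℝ} (hρ : Post G μ ρ)
    (v : V) {K : ℝ} (hK : 0 ≤ K) (hfl : ∀ s, ρ (flp v s) ≤ K * ρ s) :
    |mean μ ρ v| ≤ 1 - 2 / (1 + ((1 + θ) / (1 - θ)) ^ D * K) := by
  have := hμ.isProb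
  have h1' : 0 < 1 - θ := by linarith
  set C := ((1 + θ) / (1 - θ)) ^ D with hC
  have hC0 : 0 ≤ C := by rw [hC]; positivity
  -- for a sign `ε`
  have key : ∀ ε : ℝ, |ε| = 1 →
      ∫ s, ρ s * (1 + ε * spin (s v)) ∂μ ≤ C * K * ∫ s, ρ s * (1 - ε * spin (s v)) ∂μ := by
    intro ε hε
    have hloc : Loc (fun s : V → Bool => ρ (flp v s) * (1 - ε * spin (s v))) := by
      obtain ⟨S, hS⟩ := hρ.loc
      classical
      refine ⟨insert v S, ?_⟩
      intro x y h
      have hv : x v = y v := h v (by simp)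
      have hf : ρ (flp v x) = ρ (flp v y) := by
        apply hS
        intro i hi
        by_cases hiv : i = v
        · subst hiv
          rw [flp_self, flp_self, hv]
        · rw [flp_of_ne hiv, flp_of_ne hiv]
          exact h i (by simp only [Finset.coe_insert]; exact Set.mem_insert_of_mem _ hi)
      simp only [hf, hv]
    have hnn : ∀ s : V → Bool, 0 ≤ 1 - ε * spin (s v) := by
      intro s
      have : |ε * spin (s v)| = 1 := by rw [abs_mul, hε, abs_spin, one_mul]
      have := (abs_le.1 this.le).2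
      linarith
    have e1 : ∫ s, ρ s * (1 + ε * spin (s v)) ∂μ
        = ∫ s, (fun s : V → Bool => ρ (flp v s) * (1 - ε * spin (s v))) (flp v s) ∂μ := by
      congr 1
      funext s
      simp only [flp_flp, flp_self, spin_not]
      ring
    rw [e1]
    have h2 := int_flp hG hreg hμ h0 h1 v hloc (fun s => mul_nonneg (hρ.pos _).le (hnn s))
    refine h2.trans ?_
    rw [mul_assoc, ← integral_const_mul K]
    apply mul_le_mul_of_nonneg_left _ hC0
    have hl2 : Loc (fun s : V → Bool => ρ s * (1 - ε * spin (s v))) :=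
      hρ.loc.mul ((Loc.const 1).sub ((Loc.coord v).const_mul ε))
    refine integral_mono (hloc.integrable μ) ((hl2.const_mul K).integrable μ) ?_
    intro s
    simp only
    calc ρ (flp v s) * (1 - ε * spin (s v)) ≤ K * ρ s * (1 - ε * spin (s v)) :=
          mul_le_mul_of_nonneg_right (hfl s) (hnn s)
      _ = K * (ρ s * (1 - ε * spin (s v))) := by ring
  have hint : ∀ ε : ℝ, ∫ s, ρ s * (1 + ε * spin (s v)) ∂μ = 1 + ε * mean μ ρ v := by
    intro ε
    have e : ∀ s : V → Bool, ρ s * (1 + ε * spin (s v)) = ρ s + ε * (ρ s * spin (s v)) := by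
      intro s; ring
    simp_rw [e]
    rw [integral_add (hρ.loc.integrable μ)
      (((hρ.loc.mul (Loc.coord v)).const_mul ε).integrable μ), integral_const_mul, hρ.mass]
    rfl
  have k1 := key 1 (by norm_num)
  have k2 := key (-1) (by norm_num)
  have e3 : ∀ ε : ℝ, ∫ s, ρ s * (1 - ε * spin (s v)) ∂μ = 1 + (-ε) * mean μ ρ v := by
    intro ε
    rw [← hint (-ε)]
    congr 1
    funext s
    ring
  rw [hint, e3] at k1 k2
  set m := mean μ ρ v with hm
  set M := C * K with hM
  have hM0 : 0 ≤ M := mul_nonneg hC0 hK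
  have hden : 0 < 1 + M := by linarith
  rw [abs_le]
  constructor
  · have : (-1 + 2 / (1 + M)) ≤ m := by
      rw [← sub_nonneg]
      have e : m - (-1 + 2 / (1 + M)) = ((m + 1) * (1 + M) - 2) / (1 + M) := by
        field_simp
        ring
      rw [e]
      apply div_nonneg _ hden.le
      nlinarith
    linarith
  · have : m ≤ 1 - 2 / (1 + M) := by
      rw [← sub_nonneg]
      have e : 1 - 2 / (1 + M) - m = ((1 - m) * (1 + M) - 2) / (1 + M) := by
        field_simp
        ring
      rw [e]
      apply div_nonneg _ hden.le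
      nlinarith
    exact this

/-! ### the density changes by a bounded factor -/

open Classical in
/-- total strength of the signals at `v` -/
noncomputable def str (v : V) : List (V × ℤ) → ℝ
  | [] => 0
  | e :: l => (if e.1 = v then amp e.2 else 0) + str v l

theorem dn_flp (hG : G.IsTree) [IsProbabilityMeasure μ] (hC : CHAN) (U : Cfg V) (v : V)
    (l : List (V × ℤ)) (s : V → Bool) :
    dn μ U l (flp v s) ≤ Real.exp (3 * str v l) * dn μ U l s := by
  induction l generalizing s with
  | nil => simp [dn, str]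
  | cons e l ih =>
    have hpost := dn_post (μ := μ) hG hC U l
    have hpos : ∀ s, 0 < dn μ U l s := hpost.pos
    have hpost' := dn_post (μ := μ) hG hC U (e :: l)
    set m := mean μ (dn μ U l) e.1 with hm
    have hm1 : |m| ≤ 1 := hpost.abs_mean_le e.1
    set a := amp e.2 with ha
    have ha0 : 0 < a := amp_pos _
    have ha1 : a ≤ 1 / 8 := amp_le _
    have hsg := hC.sg_le a m (U e) ha0.le ha1 hm1 (U e).2.1 (U e).2.2
    set σ := sg a m (U e) with hσ
    have hσ' := abs_le.1 hsg
    have hm' := abs_le.1 hm1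
    have hden : 0 < 1 + σ * m := by
      have : |σ * m| ≤ 1 / 8 := by
        rw [abs_mul]
        calc |σ| * |m| ≤ a * 1 := mul_le_mul hsg hm1 (abs_nonneg _) ha0.le
          _ ≤ 1 / 8 := by linarith
      have := (abs_le.1 this).1
      linarith
    have hfac : ∀ s : V → Bool, 1 + Ig a m (U e) * (spin (s e.1) - m)
        = (1 + σ * spin (s e.1)) / (1 + σ * m) := by
      intro s
      unfold Ig
      rw [← hσ]
      field_simp
      ring
    have hdn : ∀ s : V → Bool, dn μ U (e :: l) s
        = dn μ U l s * ((1 + σ * spin (s e.1)) / (1 + σ * m)) := by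
      intro s
      rw [← hfac s]
      rfl
    rw [hdn, hdn]
    by_cases hev : e.1 = v
    · have h1 : 1 + σ * spin (flp v s e.1) ≤ Real.exp (3 * a) * (1 + σ * spin (s e.1)) := by
        have h2 : |σ * spin (flp v s e.1)| ≤ a := by rw [abs_mul, abs_spin, mul_one]; exact hsg
        have h3 : |σ * spin (s e.1)| ≤ a := by rw [abs_mul, abs_spin, mul_one]; exact hsg
        have h4 := (abs_le.1 h2).2
        have h5 := (abs_le.1 h3).1
        have h6 : 1 + 3 * a ≤ Real.exp (3 * a) := by
          have := Real.add_one_le_exp (3 * a)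
          linarith
        have h7 : (1 + 3 * a) * (1 - a) ≤ Real.exp (3 * a) * (1 + σ * spin (s e.1)) :=
          mul_le_mul h6 (by linarith) (by linarith) (Real.exp_pos _).le
        nlinarith
      have hstr : str v (e :: l) = a + str v l := by
        simp [str, hev, ha]
      rw [hstr, mul_add, Real.exp_add]
      have h8 : (1 + σ * spin (flp v s e.1)) / (1 + σ * m)
          ≤ Real.exp (3 * a) * ((1 + σ * spin (s e.1)) / (1 + σ * m)) := by
        rw [← mul_div_assoc]
        exact div_le_div_of_nonneg_right h1 hden.le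
      have h9 : 0 ≤ (1 + σ * spin (flp v s e.1)) / (1 + σ * m) := by
        apply div_nonneg _ hden.le
        have h2 : |σ * spin (flp v s e.1)| ≤ a := by rw [abs_mul, abs_spin, mul_one]; exact hsg
        have := (abs_le.1 h2).1
        linarith
      calc dn μ U l (flp v s) * ((1 + σ * spin (flp v s e.1)) / (1 + σ * m))
          ≤ (Real.exp (3 * str v l) * dn μ U l s)
            * (Real.exp (3 * a) * ((1 + σ * spin (s e.1)) / (1 + σ * m))) :=
            mul_le_mul (ih s) h8 h9 (mul_nonneg (Real.exp_pos _).le (hpos s).le)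
        _ = _ := by ring
    · have h1 : flp v s e.1 = s e.1 := flp_of_ne hev s
      have hstr : str v (e :: l) = str v l := by
        simp [str, hev]
      rw [hstr, h1]
      have h9 : 0 ≤ (1 + σ * spin (s e.1)) / (1 + σ * m) := by
        apply div_nonneg _ hden.le
        have h2 : |σ * spin (s e.1)| ≤ a := by rw [abs_mul, abs_spin, mul_one]; exact hsg
        have := (abs_le.1 h2).1
        linarith
      calc dn μ U l (flp v s) * ((1 + σ * spin (s e.1)) / (1 + σ * m))
          ≤ (Real.exp (3 * str v l) * dn μ U l s) * ((1 + σ * spin (s e.1)) / (1 + σ * m)) :=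
            mul_le_mul_of_nonneg_right (ih s) h9
        _ = _ := by ring

open Classical in
theorem str_eq_sum (v : V) (l : List (V × ℤ)) (hl : l.Nodup) :
    str v l = ∑ e ∈ l.toFinset.filter (fun e => e.1 = v), amp e.2 := by
  induction l with
  | nil => simp [str]
  | cons e l ih =>
    rw [List.nodup_cons] at hl
    rw [str, ih hl.2, List.toFinset_cons, Finset.filter_insert]
    split_ifs with h
    · rw [Finset.sum_insert]
      simp [hl.1]
    · rw [zero_add]

theorem amp_sum_neg (k : ℕ) : ∑ i ∈ Finset.Icc (-(k : ℤ)) 0, amp i ≤ 1 / 4 - 1 / 8 * (1 / 2) ^ k := by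
  induction k with
  | zero => simp [amp, scal]; norm_num
  | succ k ih =>
    have e : Finset.Icc (-((k + 1 : ℕ) : ℤ)) 0 = insert (-((k + 1 : ℕ) : ℤ))
        (Finset.Icc (-(k : ℤ)) 0) := by
      ext i
      simp only [Finset.mem_Icc, Finset.mem_insert]
      push_cast
      omega
    rw [e, Finset.sum_insert]
    · have h1 : amp (-((k + 1 : ℕ) : ℤ)) = 1 / 8 * (1 / 2) ^ (k + 1) := by
        unfold amp scal
        have : min (-((k + 1 : ℕ) : ℤ)) 0 = -((k + 1 : ℕ) : ℤ) := by
          apply min_eq_left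
          push_cast
          omega
        rw [this, zpow_neg, zpow_natCast, one_div_pow]
        ring
      rw [h1, pow_succ]
      linarith
    · simp only [Finset.mem_Icc]
      push_cast
      omega

theorem amp_sum (k J : ℕ) : ∑ i ∈ Finset.Icc (-(k : ℤ)) (J + 1), amp i ≤ 1 / 4 + (J + 1) / 8 := by
  have e : Finset.Icc (-(k : ℤ)) ((J : ℤ) + 1)
      ⊆ Finset.Icc (-(k : ℤ)) 0 ∪ Finset.Icc 1 ((J : ℤ) + 1) := by
    intro i
    simp only [Finset.mem_Icc, Finset.mem_union]
    omega
  have h1 : ∑ i ∈ Finset.Icc (-(k : ℤ)) ((J : ℤ) + 1), amp i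
      ≤ ∑ i ∈ Finset.Icc (-(k : ℤ)) 0 ∪ Finset.Icc 1 ((J : ℤ) + 1), amp i :=
    Finset.sum_le_sum_of_subset_of_nonneg e (fun i _ _ => (amp_pos i).le)
  have h2 : ∑ i ∈ Finset.Icc (-(k : ℤ)) 0 ∪ Finset.Icc 1 ((J : ℤ) + 1), amp i
      ≤ ∑ i ∈ Finset.Icc (-(k : ℤ)) 0, amp i + ∑ i ∈ Finset.Icc 1 ((J : ℤ) + 1), amp i := by
    rw [← Finset.sum_union_inter]
    have : 0 ≤ ∑ i ∈ Finset.Icc (-(k : ℤ)) 0 ∩ Finset.Icc 1 ((J : ℤ) + 1), amp i :=
      Finset.sum_nonneg (fun i _ => (amp_pos i).le)
    linarith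
  have h3 := amp_sum_neg k
  have h4 : ∑ i ∈ Finset.Icc (1 : ℤ) ((J : ℤ) + 1), amp i ≤ (J + 1) / 8 := by
    calc ∑ i ∈ Finset.Icc (1 : ℤ) ((J : ℤ) + 1), amp i
        ≤ ∑ i ∈ Finset.Icc (1 : ℤ) ((J : ℤ) + 1), (1 / 8 : ℝ) :=
          Finset.sum_le_sum (fun i _ => amp_le i)
      _ = (J + 1) / 8 := by
          rw [Finset.sum_const, Int.card_Icc]
          have : ((J : ℤ) + 1 + 1 - 1).toNat = J + 1 := by omega
          rw [this, nsmul_eq_mul]
          push_cast
          ring
  have h5 : (0 : ℝ) ≤ 1 / 8 * (1 / 2) ^ k := by positivity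
  linarith

theorem str_evl (Λ : Finset V) (k J : ℕ) (t : ℝ) (ht : t ≤ J + 1) (o : Cfg V) (v : V) :
    str v (evl Λ k t o) ≤ 1 / 4 + (J + 1) / 8 := by
  classical
  rw [evl_eq, str_eq_sum v _ (nodup_srt _ _)]
  have hceil : ⌈t⌉ ≤ (J : ℤ) + 1 := by
    rw [Int.ceil_le]
    push_cast
    exact ht
  refine le_trans ?_ (amp_sum k J)
  have hinj : Set.InjOn (fun e : V × ℤ => e.2)
      ((((srt o (evs Λ k t o)).toFinset.filter (fun e => e.1 = v)) : Finset (V × ℤ)) : Set (V × ℤ)) := by
    intro e he f hf hef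
    rw [Finset.mem_coe, Finset.mem_filter] at he hf
    exact Prod.ext (he.2.trans hf.2.symm) hef
  rw [← Finset.sum_image (f := fun i : ℤ => amp i) hinj]
  apply Finset.sum_le_sum_of_subset_of_nonneg
  · intro i hi
    rw [Finset.mem_image] at hi
    obtain ⟨e, he, rfl⟩ := hi
    rw [Finset.mem_filter, List.mem_toFinset, mem_srt] at he
    have h1 := he.1
    unfold evs at h1
    rw [Finset.mem_filter, Finset.mem_product, Finset.mem_Icc] at h1
    rw [Finset.mem_Icc]
    exact ⟨h1.1.2.1, h1.1.2.2.trans hceil⟩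
  · intro i _ _
    exact (amp_pos i).le

end Bnd

open Bnd

theorem bnd_proof (hC : CHAN) : BND.{u} := by
  intro D J hD
  set K := Real.exp (3 * (1 / 4 + ((J : ℝ) + 1) / 8)) with hK
  have hK1 : 1 ≤ K := by
    rw [hK]
    apply Real.one_le_exp
    positivity
  set M := (7 : ℝ) ^ (D + 1) * K with hM
  have hM1 : 1 < M := by
    rw [hM]
    have h7 : (7 : ℝ) ≤ 7 ^ (D + 1) := by
      calc (7 : ℝ) = 7 ^ 1 := by norm_num
        _ ≤ 7 ^ (D + 1) := pow_le_pow_right₀ (by norm_num) (by omega)
    nlinarith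
  refine ⟨1 - 2 / (1 + M), ?_, ?_, ?_⟩
  · have : 2 / (1 + M) < 1 := by
      rw [div_lt_one (by linarith)]; linarith
    linarith
  · have : 0 < 2 / (1 + M) := by positivity
    linarith
  · intro V _ G _ θ μ hE hI Λ k t ht v ω
    have := hI.ising.isProb
    have hD2 : (2 : ℝ) ≤ D := by exact_mod_cast hD
    have hθ2 : θ ^ 2 ≤ 1 / 2 := by
      have := hI.h1
      nlinarith [sq_nonneg θ]
    have hθ34 : θ ≤ 3 / 4 := by
      by_contra hcon
      push Not at hcon
      nlinarith
    have hθ1 : θ < 1 := by linarith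
    have hpost := dn_post (μ := μ) hE.tree hC ω.2 (evl Λ k t ω.1)
    have hfl : ∀ s, dn μ ω.2 (evl Λ k t ω.1) (flp v s) ≤ K * dn μ ω.2 (evl Λ k t ω.1) s := by
      intro s
      refine (dn_flp hE.tree hC ω.2 v _ s).trans ?_
      apply mul_le_mul_of_nonneg_right _ (hpost.pos s).le
      rw [hK]
      apply Real.exp_le_exp.2
      have := str_evl Λ k J t ht ω.1 v
      linarith
    have h1 := mean_bound hE.tree.connected hE.reg hI.ising hI.h0 hθ1 hpost v
      (by linarith : (0 : ℝ) ≤ K) hfl
    unfold mk stt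
    refine h1.trans ?_
    have h2 : ((1 + θ) / (1 - θ)) ^ (D + 1) * K ≤ M := by
      rw [hM]
      apply mul_le_mul_of_nonneg_right _ (by linarith)
      apply pow_le_pow_left₀
      · apply div_nonneg <;> linarith [hI.h0]
      · rw [div_le_iff₀ (by linarith)]; linarith
    have h3 : 0 ≤ ((1 + θ) / (1 - θ)) ^ (D + 1) * K := by
      apply mul_nonneg _ (by linarith)
      apply pow_nonneg
      apply div_nonneg <;> linarith [hI.h0]
    have h4 : 2 / (1 + M) ≤ 2 / (1 + ((1 + θ) / (1 - θ)) ^ (D + 1) * K) :=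
      div_le_div_of_nonneg_left (by norm_num) (by linarith) (by linarith)
    linarith

end P161C
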