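import Vale.Agent.P161C.Mods

/-! # P161C: the channel (module CHAN) -/

open MeasureTheory Set Filter Topology

namespace P161C

namespace ChanAux

theorem disc_nonneg {c u : ℝ} (_hc : |c| ≤ 1 / 8) (h0 : 0 ≤ u) (h1 : u ≤ 1) :
    0 ≤ (1 - c) ^ 2 + 4 * c * u := by
  rcases le_total 0 c with h | h
  · positivity
  · have : c * 1 ≤ c * u := mul_le_mul_of_nonpos_left h1 h
    nlinarith [sq_nonneg (1 + c)]

theorem den_pos {c : ℝ} (hc : |c| ≤ 1 / 8) (s : ℝ) (hs : 0 ≤ s) : 7 / 8 ≤ (1 - c) + s := by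
  rw [abs_le] at hc
  linarith [hc.2]

theorem qt_mem {c u : ℝ} (hc : |c| ≤ 1 / 8) (h0 : 0 ≤ u) (h1 : u ≤ 1) :
    0 ≤ qt c u ∧ qt c u ≤ 1 := by
  have hd := disc_nonneg hc h0 h1
  have hs := Real.sqrt_nonneg ((1 - c) ^ 2 + 4 * c * u)
  have hD := den_pos hc _ hs
  have hc' := abs_le.mp hc
  unfold qt
  constructor
  · positivity
  · rw [div_le_one (by linarith)]
    have : 2 * u - (1 - c) ≤ √((1 - c) ^ 2 + 4 * c * u) := by
      apply Real.le_sqrt_of_sq_le
      nlinarith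
    linarith

theorem qt_eq {c u : ℝ} (hc : |c| ≤ 1 / 8) (h0 : 0 ≤ u) (h1 : u ≤ 1) :
    qt c u + c * (qt c u ^ 2 - qt c u) = u := by
  have hd := disc_nonneg hc h0 h1
  have hs := Real.sqrt_nonneg ((1 - c) ^ 2 + 4 * c * u)
  have hs2 := Real.mul_self_sqrt hd
  have hD := den_pos hc _ hs
  unfold qt
  set s := √((1 - c) ^ 2 + 4 * c * u) with hsd
  have hD' : (1 - c) + s ≠ 0 := by linarith
  field_simp
  linear_combination (-u) * hs2

theorem fac_ge {c y y' : ℝ} (hc : |c| ≤ 1 / 8) (h0 : 0 ≤ y) (h1 : y ≤ 1) (h0' : 0 ≤ y')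
    (h1' : y' ≤ 1) : 7 / 8 ≤ 1 + c * (y + y' - 1) := by
  have h2 : |y + y' - 1| ≤ 1 := by rw [abs_le]; constructor <;> linarith
  have h3 : |c * (y + y' - 1)| ≤ 1 / 8 * 1 := by
    rw [abs_mul]; exact mul_le_mul hc h2 (abs_nonneg _) (by norm_num)
  rw [abs_le] at h3
  linarith [h3.1]

/-- the polynomial map `T` is injective on the unit interval -/
theorem T_inj {c y y' : ℝ} (hc : |c| ≤ 1 / 8) (h0 : 0 ≤ y) (h1 : y ≤ 1) (h0' : 0 ≤ y')
    (h1' : y' ≤ 1) (h : y + c * (y ^ 2 - y) = y' + c * (y' ^ 2 - y')) : y = y' := by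
  have h2 := fac_ge hc h0 h1 h0' h1'
  have e : (y - y') * (1 + c * (y + y' - 1)) = 0 := by linear_combination h
  rcases mul_eq_zero.mp e with h3 | h3
  · linarith
  · linarith

theorem T_mem {c y : ℝ} (hc : |c| ≤ 1 / 8) (h0 : 0 ≤ y) (h1 : y ≤ 1) :
    0 ≤ y + c * (y ^ 2 - y) ∧ y + c * (y ^ 2 - y) ≤ 1 := by
  rw [abs_le] at hc
  have h2 : 0 ≤ y - y ^ 2 := by nlinarith
  constructor
  · have h3 : c * (y - y ^ 2) ≤ 1 / 8 * (y - y ^ 2) := mul_le_mul_of_nonneg_right hc.2 h2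
    nlinarith [sq_nonneg y]
  · have h3 : -(1 / 8) * (y - y ^ 2) ≤ c * (y - y ^ 2) := mul_le_mul_of_nonneg_right hc.1 h2
    nlinarith [sq_nonneg (1 - y)]

theorem qt_T {c y : ℝ} (hc : |c| ≤ 1 / 8) (h0 : 0 ≤ y) (h1 : y ≤ 1) :
    qt c (y + c * (y ^ 2 - y)) = y := by
  obtain ⟨a, b⟩ := T_mem hc h0 h1
  obtain ⟨a', b'⟩ := qt_mem hc a b
  exact T_inj hc a' b' h0 h1 (qt_eq hc a b)

theorem T_image {c : ℝ} (hc : |c| ≤ 1 / 8) :
    (fun y : ℝ => y + c * (y ^ 2 - y)) '' Icc 0 1 = Icc 0 1 := by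
  ext u
  constructor
  · rintro ⟨y, hy, rfl⟩
    exact T_mem hc hy.1 hy.2
  · intro hu
    exact ⟨qt c u, qt_mem hc hu.1 hu.2, qt_eq hc hu.1 hu.2⟩

theorem int_uI (g : ℝ → ℝ) : ∫ u : unitInterval, g u = ∫ x in Icc (0 : ℝ) 1, g x :=
  integral_subtype_comap measurableSet_Icc g

theorem qt_int {c : ℝ} (hc : |c| ≤ 1 / 8) (f : ℝ → ℝ) :
    ∫ u : unitInterval, f (qt c u) = ∫ x in Icc (0 : ℝ) 1, f x * (1 + c * (2 * x - 1)) := by
  rw [int_uI (fun u => f (qt c u))]
  have hder : ∀ y ∈ Icc (0 : ℝ) 1, HasDerivWithinAt (fun y : ℝ => y + c * (y ^ 2 - y))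
      (1 + c * (2 * y - 1)) (Icc 0 1) y := by
    intro y _
    have h1 : HasDerivAt (fun y : ℝ => y ^ 2 - y) (2 * y - 1) y := by
      have := (hasDerivAt_pow 2 y).fun_sub (hasDerivAt_id' y)
      simpa using this
    exact ((hasDerivAt_id' y).fun_add (h1.const_mul c)).hasDerivWithinAt
  have hinj : InjOn (fun y : ℝ => y + c * (y ^ 2 - y)) (Icc 0 1) := by
    intro y hy y' hy' h
    exact T_inj hc hy.1 hy.2 hy'.1 hy'.2 h
  have h2 := integral_image_eq_integral_abs_deriv_smul measurableSet_Icc hder hinj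
    (fun u => f (qt c u))
  rw [T_image hc] at h2
  rw [h2]
  apply setIntegral_congr_fun measurableSet_Icc
  intro y hy
  have h3 := fac_ge hc hy.1 hy.2 hy.1 hy.2
  have h4 : 0 ≤ 1 + c * (2 * y - 1) := by
    have : y + y - 1 = 2 * y - 1 := by ring
    rw [this] at h3
    linarith
  simp only [smul_eq_mul]
  rw [qt_T hc hy.1 hy.2, abs_of_nonneg h4, mul_comm]

theorem am_le {a m : ℝ} (ha : 0 ≤ a) (ha' : a ≤ 1 / 8) (hm : |m| ≤ 1) : |a * m| ≤ 1 / 8 := by
  rw [abs_mul, abs_of_nonneg ha]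
  nlinarith [abs_nonneg m]

theorem b_le {a y : ℝ} (ha : 0 ≤ a) (h0 : 0 ≤ y) (h1 : y ≤ 1) : |a * (2 * y - 1)| ≤ a := by
  rw [abs_mul, abs_of_nonneg ha]
  have : |2 * y - 1| ≤ 1 := by rw [abs_le]; constructor <;> linarith
  nlinarith

theorem sg_le {a m u : ℝ} (ha : 0 ≤ a) (ha' : a ≤ 1 / 8) (hm : |m| ≤ 1) (h0 : 0 ≤ u)
    (h1 : u ≤ 1) : |sg a m u| ≤ a := by
  obtain ⟨h2, h3⟩ := qt_mem (am_le ha ha' hm) h0 h1
  exact b_le ha h2 h3

theorem one_add_ge {b m a : ℝ} (hb : |b| ≤ a) (ha' : a ≤ 1 / 8) (hm : |m| ≤ 1) :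
    7 / 8 ≤ 1 + b * m ∧ 1 + b * m ≤ 9 / 8 := by
  have h1 : |b * m| ≤ 1 / 8 * 1 := by
    rw [abs_mul]; exact mul_le_mul (hb.trans ha') hm (abs_nonneg _) (by norm_num)
  rw [abs_le] at h1
  constructor
  · linarith [h1.1]
  · linarith [h1.2]

theorem qt_lip {c c' u : ℝ} (hc : |c| ≤ 1 / 8) (hc' : |c'| ≤ 1 / 8) (h0 : 0 ≤ u) (h1 : u ≤ 1) :
    |qt c u - qt c' u| ≤ 2 / 7 * |c - c'| := by
  obtain ⟨a1, b1⟩ := qt_mem hc h0 h1
  obtain ⟨a2, b2⟩ := qt_mem hc' h0 h1
  have e1 := qt_eq hc h0 h1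
  have e2 := qt_eq hc' h0 h1
  set y := qt c u
  set y' := qt c' u
  have h2 := fac_ge hc a1 b1 a2 b2
  have e : (y - y') * (1 + c * (y + y' - 1)) = (c' - c) * (y' ^ 2 - y') := by
    linear_combination e1 - e2
  have h3 : |y - y'| * (1 + c * (y + y' - 1)) = |c - c'| * |y' ^ 2 - y'| := by
    have := congrArg abs e
    rw [abs_mul, abs_mul, abs_of_pos (by linarith : 0 < 1 + c * (y + y' - 1)),
      abs_sub_comm c' c] at this
    exact this
  have h4 : |y' ^ 2 - y'| ≤ 1 / 4 := by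
    rw [abs_le]; constructor <;> nlinarith [sq_nonneg (y' - 1 / 2)]
  have h5 : |c - c'| * |y' ^ 2 - y'| ≤ |c - c'| * (1 / 4) :=
    mul_le_mul_of_nonneg_left h4 (abs_nonneg _)
  have h6 : |y - y'| * (7 / 8) ≤ |y - y'| * (1 + c * (y + y' - 1)) :=
    mul_le_mul_of_nonneg_left h2 (abs_nonneg _)
  linarith

theorem int_lin : ∫ x in Icc (0 : ℝ) 1, (2 * x - 1) = 0 := by
  rw [integral_Icc_eq_integral_Ioc, ← intervalIntegral.integral_of_le (by norm_num)]
  rw [intervalIntegral.integral_sub (by apply Continuous.intervalIntegrable; fun_prop)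
    (by apply Continuous.intervalIntegrable; fun_prop),
    intervalIntegral.integral_const_mul, integral_id]
  simp

theorem int_quad : ∫ x in Icc (0 : ℝ) 1, (2 * x - 1) ^ 2 = 1 / 3 := by
  rw [integral_Icc_eq_integral_Ioc, ← intervalIntegral.integral_of_le (by norm_num)]
  have e : ∀ x : ℝ, (2 * x - 1) ^ 2 = 4 * x ^ 2 - 4 * x + 1 := fun x => by ring
  simp_rw [e]
  rw [intervalIntegral.integral_add (by apply Continuous.intervalIntegrable; fun_prop)
    (by apply Continuous.intervalIntegrable; fun_prop),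
    intervalIntegral.integral_sub (by apply Continuous.intervalIntegrable; fun_prop)
    (by apply Continuous.intervalIntegrable; fun_prop),
    intervalIntegral.integral_const_mul, intervalIntegral.integral_const_mul, integral_id,
    integral_pow]
  simp
  norm_num

end ChanAux

open ChanAux

theorem chan_proof : CHAN where
  qt_meas := by
    unfold qt
    fun_prop
  qt_mem := fun c u hc h0 h1 => ChanAux.qt_mem hc h0 h1
  qt_eq := fun c u hc h0 h1 => ChanAux.qt_eq hc h0 h1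
  qt_int := by
    intro c hc f _ _
    rw [ChanAux.qt_int hc f, int_uI (fun y => f y * (1 + c * (2 * y - 1)))]
  sg_le := fun a m u ha ha' hm h0 h1 => ChanAux.sg_le ha ha' hm h0 h1
  Ig_le := by
    intro a m u ha ha' hm h0 h1
    have h2 := ChanAux.sg_le ha ha' hm h0 h1
    obtain ⟨h3, -⟩ := one_add_ge h2 ha' hm
    unfold Ig
    rw [abs_div, abs_of_pos (by linarith : 0 < 1 + sg a m u * m), div_le_iff₀ (by linarith)]
    nlinarith [abs_nonneg (sg a m u)]
  Ig_int := by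
    intro a m ha ha' hm
    have hc := am_le ha ha' hm
    refine (ChanAux.qt_int hc
      (fun y : ℝ => a * (2 * y - 1) / (1 + a * (2 * y - 1) * m))).trans ?_
    have e2 : ∫ x in Icc (0 : ℝ) 1, a * (2 * x - 1) / (1 + a * (2 * x - 1) * m)
        * (1 + a * m * (2 * x - 1)) = ∫ x in Icc (0 : ℝ) 1, a * (2 * x - 1) := by
      apply setIntegral_congr_fun measurableSet_Icc
      intro y hy
      obtain ⟨h3, -⟩ := one_add_ge (b_le ha hy.1 hy.2) ha' hm
      have h4 : 1 + a * m * (2 * y - 1) = 1 + a * (2 * y - 1) * m := by ring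
      simp only
      rw [h4, div_mul_cancel₀ _ (by linarith : 1 + a * (2 * y - 1) * m ≠ 0)]
    rw [e2, integral_const_mul, int_lin, mul_zero]
  Ig_sq := by
    intro a m ha ha' hm
    have hc := am_le ha ha' hm
    refine le_of_le_of_eq ?_ (ChanAux.qt_int hc
      (fun y : ℝ => (a * (2 * y - 1) / (1 + a * (2 * y - 1) * m)) ^ 2)).symm
    have e2 : ∫ x in Icc (0 : ℝ) 1, (8 / 9 * a ^ 2) * (2 * x - 1) ^ 2 = 8 / 9 * a ^ 2 * (1 / 3) := by
      rw [integral_const_mul, int_quad]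
    have h5 : a ^ 2 / 4 ≤ 8 / 9 * a ^ 2 * (1 / 3) := by nlinarith [sq_nonneg a]
    refine h5.trans ?_
    rw [← e2]
    have hne : ∀ x ∈ Icc (0 : ℝ) 1, 1 + a * (2 * x - 1) * m ≠ 0 := by
      intro x hx
      obtain ⟨h3, -⟩ := one_add_ge (b_le ha hx.1 hx.2) ha' hm
      linarith
    apply setIntegral_mono_on
    · apply ContinuousOn.integrableOn_Icc
      fun_prop
    · apply ContinuousOn.integrableOn_Icc
      apply ContinuousOn.mul
      · apply ContinuousOn.pow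
        apply ContinuousOn.div
        · fun_prop
        · fun_prop
        · exact hne
      · fun_prop
    · exact measurableSet_Icc
    · intro y hy
      obtain ⟨h3, h3'⟩ := one_add_ge (b_le ha hy.1 hy.2) ha' hm
      have h4 : 1 + a * m * (2 * y - 1) = 1 + a * (2 * y - 1) * m := by ring
      rw [h4]
      set D := 1 + a * (2 * y - 1) * m with hD
      have e3 : (a * (2 * y - 1) / D) ^ 2 * D = (a * (2 * y - 1)) ^ 2 / D := by
        field_simp
      rw [e3, le_div_iff₀ (by linarith)]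
      have h6 : 0 ≤ (a * (2 * y - 1)) ^ 2 := sq_nonneg _
      have e4 : 8 / 9 * a ^ 2 * (2 * y - 1) ^ 2 * D = 8 / 9 * D * (a * (2 * y - 1)) ^ 2 := by ring
      rw [e4]
      nlinarith
  Ig_lip := by
    intro a m m' u ha ha' hm hm' h0 h1
    have h2 := ChanAux.sg_le ha ha' hm h0 h1
    have h2' := ChanAux.sg_le ha ha' hm' h0 h1
    obtain ⟨h3, -⟩ := one_add_ge h2 ha' hm
    obtain ⟨h3', -⟩ := one_add_ge h2' ha' hm'
    have hq := qt_lip (am_le ha ha' hm) (am_le ha ha' hm') h0 h1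
    have e0 : a * m - a * m' = a * (m - m') := by ring
    rw [e0, abs_mul, abs_of_nonneg ha] at hq
    have hs : |sg a m u - sg a m' u| ≤ 4 / 7 * a ^ 2 * |m - m'| := by
      have e : sg a m u - sg a m' u = 2 * a * (qt (a * m) u - qt (a * m') u) := by
        unfold sg; ring
      rw [e, abs_mul, abs_of_nonneg (by positivity : 0 ≤ 2 * a)]
      have := mul_le_mul_of_nonneg_left hq (by positivity : 0 ≤ 2 * a)
      linarith
    unfold Ig
    set s := sg a m u
    set s' := sg a m' u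
    have e : s / (1 + s * m) - s' / (1 + s' * m')
        = ((s - s') + s * s' * (m' - m)) / ((1 + s * m) * (1 + s' * m')) := by
      have d1 : 1 + s * m ≠ 0 := by linarith
      have d2 : 1 + s' * m' ≠ 0 := by linarith
      field_simp
      ring
    have hDD : 49 / 64 ≤ (1 + s * m) * (1 + s' * m') := by nlinarith
    rw [e, abs_div, abs_of_pos (by linarith : 0 < (1 + s * m) * (1 + s' * m')),
      div_le_iff₀ (by linarith)]
    have h4 : |s * s' * (m' - m)| ≤ a ^ 2 * |m - m'| := by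
      rw [abs_mul, abs_mul, abs_sub_comm m' m]
      apply mul_le_mul_of_nonneg_right _ (abs_nonneg _)
      rw [pow_two]
      exact mul_le_mul h2 h2' (abs_nonneg _) ha
    have h5 := abs_add_le (s - s') (s * s' * (m' - m))
    have h6 : 0 ≤ a ^ 2 * |m - m'| := by positivity
    have h7 : 3 * (a ^ 2 * |m - m'|) * (49 / 64)
        ≤ 3 * (a ^ 2 * |m - m'|) * ((1 + s * m) * (1 + s' * m')) :=
      mul_le_mul_of_nonneg_left hDD (by positivity)
    nlinarith

end P161C
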