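import Vale.Agent.P161.Exist
import Vale.Agent.P161.Geom

/-!
# Proper edge colourings of regular trees and colour preserving automorphisms
-/

open Set

namespace P161

universe u

variable {V : Type u} {G : SimpleGraph V}

/-- A proper edge colouring of a `d`-regular graph, as a neighbour function: `nb v c` is the
neighbour of `v` along the edge of colour `c`. -/
structure Col (G : SimpleGraph V) (d : ℕ) where
  nb : V → Fin d → V
  adj : ∀ v c, G.Adj v (nb v c)
  surj : ∀ v w, G.Adj v w → ∃ c, nb v c = w
  inj : ∀ v, Function.Injective (nb v)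
  invol : ∀ v c, nb (nb v c) c = v

namespace ColEx

open Ex

variable [G.LocallyFinite] {d : ℕ}

/-- some numbering of the neighbours -/
noncomputable def base (hreg : G.IsRegularOfDegree d) (v : V) : G.neighborSet v ≃ Fin d :=
  Fintype.equivFinOfCardEq (by rw [SimpleGraph.card_neighborSet_eq_degree]; exact hreg v)

open Classical in
/-- the colours of the edges at `v` -/
noncomputable def colE (hG : G.IsTree) (hreg : G.IsRegularOfDegree d) (o : V) (v : V) :
    G.neighborSet v ≃ Fin d :=
  if h : v = o then base hreg v
  else (base hreg v).trans (Equiv.swap (base hreg v ⟨par hG o v, adj_par hG h⟩)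
    (colE hG hreg o (par hG o v) ⟨v, (adj_par hG h).symm⟩))
termination_by dep hG o v
decreasing_by
  have := dep_par hG h
  omega

theorem colE_par (hG : G.IsTree) (hreg : G.IsRegularOfDegree d) {o v : V} (h : v ≠ o) :
    colE hG hreg o v ⟨par hG o v, adj_par hG h⟩
      = colE hG hreg o (par hG o v) ⟨v, (adj_par hG h).symm⟩ := by
  rw [colE]
  simp [h]

theorem colE_symm (hG : G.IsTree) (hreg : G.IsRegularOfDegree d) (o : V) {v w : V}
    (h : G.Adj v w) : colE hG hreg o v ⟨w, h⟩ = colE hG hreg o w ⟨v, h.symm⟩ := by
  rcases par_of_adj hG o h with ⟨h1, h2⟩ | ⟨h1, h2⟩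
  · subst h2
    exact colE_par hG hreg h1
  · subst h2
    exact (colE_par hG hreg h1).symm

end ColEx

open ColEx in
theorem exists_col [G.LocallyFinite] {d : ℕ} (hG : G.IsTree) (hreg : G.IsRegularOfDegree d) :
    Nonempty (Col G d) := by
  classical
  obtain ⟨o⟩ := hG.connected.nonempty
  refine ⟨⟨fun v c => ((colE hG hreg o v).symm c : V), fun v c => ((colE hG hreg o v).symm c).2,
    fun v w h => ⟨colE hG hreg o v ⟨w, h⟩, by simp⟩, fun v c c' h => ?_, fun v c => ?_⟩⟩
  · exact (colE hG hreg o v).symm.injective (Subtype.ext h)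
  · set w : G.neighborSet v := (colE hG hreg o v).symm c with hw
    have h1 : colE hG hreg o v w = c := by rw [hw]; simp
    have h2 : colE hG hreg o v ⟨w.1, w.2⟩ = colE hG hreg o w.1 ⟨v, w.2.symm⟩ :=
      colE_symm hG hreg o w.2
    have h3 : colE hG hreg o w.1 ⟨v, w.2.symm⟩ = c := by rw [← h2]; exact h1
    have h4 : (colE hG hreg o w.1).symm c = ⟨v, w.2.symm⟩ := by
      rw [← h3]; simp
    show ((colE hG hreg o w.1).symm c : V) = v
    rw [h4]

namespace Col

open Ex

variable {d : ℕ}

/-- the colour of the edge from `v` to `w` -/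
noncomputable def clr (C : Col G d) {v w : V} (h : G.Adj v w) : Fin d := (C.surj v w h).choose

theorem nb_clr (C : Col G d) {v w : V} (h : G.Adj v w) : C.nb v (C.clr h) = w :=
  (C.surj v w h).choose_spec

theorem clr_eq (C : Col G d) {v w : V} (h : G.Adj v w) {c : Fin d} (hc : C.nb v c = w) :
    C.clr h = c := C.inj v (by rw [C.nb_clr h, hc])

open Classical in
/-- the developing map sending `v` to `v'` and `C`-colours to `C'`-colours -/
noncomputable def dev (C C' : Col G d) (hG : G.IsTree) (v v' : V) (x : V) : V :=
  if h : x = v then v'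
  else C'.nb (dev C C' hG v v' (par hG v x)) (C.clr (adj_par hG h).symm)
termination_by dep hG v x
decreasing_by
  have := dep_par hG h
  omega

theorem dev_root (C C' : Col G d) (hG : G.IsTree) (v v' : V) : C.dev C' hG v v' v = v' := by
  rw [dev]; simp

theorem dev_par (C C' : Col G d) (hG : G.IsTree) {v v' x : V} (h : x ≠ v) :
    C.dev C' hG v v' x
      = C'.nb (C.dev C' hG v v' (par hG v x)) (C.clr (adj_par hG h).symm) := by
  conv_lhs => rw [dev]
  simp [h]

theorem dev_nb (C C' : Col G d) (hG : G.IsTree) (v v' x : V) (c : Fin d) :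
    C.dev C' hG v v' (C.nb x c) = C'.nb (C.dev C' hG v v' x) c := by
  rcases par_of_adj hG v (C.adj x c) with ⟨h1, h2⟩ | ⟨h1, h2⟩
  · have h3 := C.dev_par C' hG (v' := v') h1
    have h4 : C.clr (adj_par hG h1).symm = c := by
      apply C.clr_eq
      rw [h2, C.invol]
    rw [h4, h2] at h3
    rw [h3, C'.invol]
  · have h3 := C.dev_par C' hG (v' := v') h1
    have h4 : C.clr (adj_par hG h1).symm = c := by
      apply C.clr_eq
      rw [h2]
    rw [h4, h2] at h3
    exact h3

/-- a map commuting with the colours and fixing a vertex is the identity -/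
theorem eq_of_nb (C C' : Col G d) (hG : G.Connected) {f f' : V → V} {v : V}
    (h0 : f v = f' v) (hf : ∀ x c, f (C.nb x c) = C'.nb (f x) c)
    (hf' : ∀ x c, f' (C.nb x c) = C'.nb (f' x) c) (x : V) : f x = f' x := by
  obtain ⟨p⟩ := hG x v
  induction p with
  | nil => exact h0
  | cons h p ih =>
    rename_i a b c
    have h1 := ih h0
    obtain ⟨k, hk⟩ := C.surj _ _ h.symm
    rw [← hk, hf, hf', h1]

/-- two colourings differ by an automorphism -/
theorem exists_iso (C C' : Col G d) (hG : G.IsTree) (v v' : V) :
    ∃ g : G ≃g G, g v = v' ∧ ∀ x c, g (C.nb x c) = C'.nb (g x) c := by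
  set f := C.dev C' hG v v' with hf
  set f' := C'.dev C hG v' v with hf'
  have h1 : ∀ x, f' (f x) = x := by
    intro x
    refine eq_of_nb C C hG.connected (f := fun x => f' (f x)) (f' := fun x => x) (v := v) ?_ ?_ ?_ x
    · simp only [hf, hf', dev_root]
    · intro x c
      simp only [hf, hf', dev_nb]
    · intro x c; rfl
  have h2 : ∀ x, f (f' x) = x := by
    intro x
    refine eq_of_nb C' C' hG.connected (f := fun x => f (f' x)) (f' := fun x => x) (v := v')
      ?_ ?_ ?_ x
    · simp only [hf, hf', dev_root]
    · intro x c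
      simp only [hf, hf', dev_nb]
    · intro x c; rfl
  refine ⟨⟨⟨f, f', h1, h2⟩, ?_⟩, ?_, ?_⟩
  · intro a b
    show G.Adj (f a) (f b) ↔ G.Adj a b
    constructor
    · intro h
      obtain ⟨c, hc⟩ := C'.surj _ _ h
      have h3 : f (C.nb a c) = f b := by rw [← hc, hf, dev_nb]
      have h4 : C.nb a c = b := by rw [← h1 (C.nb a c), h3, h1]
      rw [← h4]; exact C.adj a c
    · intro h
      obtain ⟨c, hc⟩ := C.surj _ _ h
      rw [← hc, hf, dev_nb]
      exact C'.adj _ c
  · show f v = v'
    rw [hf, dev_root]
  · intro x c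
    show f (C.nb x c) = C'.nb (f x) c
    rw [hf, dev_nb]

/-- the two branches at `p` in the directions `ca`, `cb` -/
def Br (C : Col G d) (p : V) (ca cb : Fin d) (x : V) : Prop :=
  G.dist x (C.nb p ca) < G.dist x p ∨ G.dist x (C.nb p cb) < G.dist x p

theorem br_closed (C : Col G d) (hG : G.IsTree) {p : V} {ca cb : Fin d} {x y : V}
    (hx : C.Br p ca cb x) (h : G.Adj x y) : C.Br p ca cb y ∨ y = p := by
  rcases hx with hx | hx
  · by_cases hy : G.dist y (C.nb p ca) < G.dist y p
    · exact Or.inl (Or.inl hy)
    · right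
      have h1 := hG.dist_eq_dist_add_one_of_adj y (C.adj p ca)
      exact (cross_edge hG (C.adj p ca).symm h hx (by omega)).2
  · by_cases hy : G.dist y (C.nb p cb) < G.dist y p
    · exact Or.inl (Or.inr hy)
    · right
      have h1 := hG.dist_eq_dist_add_one_of_adj y (C.adj p cb)
      exact (cross_edge hG (C.adj p cb).symm h hx (by omega)).2

theorem not_br_nb (C : Col G d) {p : V} {ca cb c : Fin d}
    (h : ¬ C.Br p ca cb (C.nb p c)) : c ≠ ca ∧ c ≠ cb := by
  have h1 : G.dist (C.nb p c) p = 1 := SimpleGraph.dist_eq_one_iff_adj.2 (C.adj p c).symm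
  constructor
  · rintro rfl
    apply h
    left
    rw [SimpleGraph.dist_self, h1]
    exact Nat.one_pos
  · rintro rfl
    apply h
    right
    rw [SimpleGraph.dist_self, h1]
    exact Nat.one_pos

theorem not_br_p (C : Col G d) {p : V} {ca cb : Fin d} : ¬ C.Br p ca cb p := by
  unfold Br
  rw [SimpleGraph.dist_self]
  simp

open Classical in
/-- exchange the colours `ca`, `cb` in the two branches -/
noncomputable def recol (C : Col G d) (hG : G.IsTree) (p : V) (ca cb : Fin d) : Col G d where
  nb x c := if C.Br p ca cb x ∨ x = p then C.nb x (Equiv.swap ca cb c) else C.nb x c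
  adj x c := by
    split_ifs
    · exact C.adj _ _
    · exact C.adj _ _
  surj x y h := by
    obtain ⟨c, hc⟩ := C.surj x y h
    by_cases hx : C.Br p ca cb x ∨ x = p
    · refine ⟨Equiv.swap ca cb c, ?_⟩
      rw [if_pos hx, Equiv.swap_apply_self, hc]
    · exact ⟨c, by rw [if_neg hx, hc]⟩
  inj x c c' h := by
    by_cases hx : C.Br p ca cb x ∨ x = p
    · simp only [if_pos hx] at h
      exact (Equiv.swap ca cb).injective (C.inj x h)
    · simp only [if_neg hx] at h
      exact C.inj x h
  invol x c := by
    by_cases hx : C.Br p ca cb x ∨ x = p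
    · rw [if_pos hx]
      by_cases hy : C.Br p ca cb (C.nb x (Equiv.swap ca cb c)) ∨ C.nb x (Equiv.swap ca cb c) = p
      · rw [if_pos hy, C.invol]
      · rw [if_neg hy]
        push Not at hy
        rcases hx with hx | hx
        · rcases C.br_closed hG hx (C.adj x (Equiv.swap ca cb c)) with h | h
          · exact absurd h hy.1
          · exact absurd h hy.2
        · subst hx
          have h1 := C.not_br_nb hy.1
          have h2 : Equiv.swap ca cb c = c := by
            by_contra h3
            rcases (Equiv.swap_apply_ne_self_iff.1 h3).2 with h4 | h4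
            · rw [h4, Equiv.swap_apply_left] at h1
              exact h1.2 rfl
            · rw [h4, Equiv.swap_apply_right] at h1
              exact h1.1 rfl
          rw [h2, C.invol]
    · rw [if_neg hx]
      push Not at hx
      by_cases hy : C.Br p ca cb (C.nb x c) ∨ C.nb x c = p
      · rw [if_pos hy]
        rcases hy with hy | hy
        · rcases C.br_closed hG hy (C.adj x c).symm with h | h
          · exact absurd h hx.1
          · exact absurd h hx.2
        · have h0 : C.nb p c = x := by rw [← hy, C.invol]
          have h1 : c ≠ ca ∧ c ≠ cb := by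
            apply C.not_br_nb (p := p)
            rw [h0]
            exact hx.1
          rw [Equiv.swap_apply_of_ne_of_ne h1.1 h1.2, hy, h0]
      · rw [if_neg hy, C.invol]

/-- swap two branches at `p` -/
theorem exists_swap [G.LocallyFinite] (hG : G.IsTree) (hreg : G.IsRegularOfDegree d) {p a b : V}
    (ha : G.Adj p a) (hb : G.Adj p b) :
    ∃ g : G ≃g G, g a = b ∧ ∀ x, G.dist x p ≤ G.dist x a → G.dist x p ≤ G.dist x b → g x = x := by
  classical
  obtain ⟨C⟩ := exists_col hG hreg
  obtain ⟨ca, hca⟩ := C.surj _ _ ha
  obtain ⟨cb, hcb⟩ := C.surj _ _ hb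
  obtain ⟨g, hgp, hg⟩ := C.exists_iso (C.recol hG p ca cb) hG p p
  refine ⟨g, ?_, ?_⟩
  · rw [← hca, hg, hgp]
    show (if C.Br p ca cb p ∨ p = p then C.nb p (Equiv.swap ca cb ca) else C.nb p ca) = b
    rw [if_pos (Or.inr rfl), Equiv.swap_apply_left, hcb]
  · intro x
    induction hn : G.dist x p generalizing x with
    | zero =>
      intro _ _
      have : x = p := (hG.connected x p).dist_eq_zero_iff.1 hn
      rw [this, hgp]
    | succ n ih =>
      intro h1 h2
      have hne : x ≠ p := by
        rintro rfl
        rw [SimpleGraph.dist_self] at hn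
        omega
      obtain ⟨w, hw, hwd⟩ := exists_next hG.connected hne
      have hwn : G.dist w p = n := by omega
      have hxB : ¬ C.Br p ca cb x := by
        unfold Br
        rw [hca, hcb]
        push Not
        rw [hn]
        exact ⟨h1, h2⟩
      have hwB : ¬ C.Br p ca cb w := by
        intro h
        rcases C.br_closed hG h hw.symm with h3 | h3
        · exact hxB h3
        · exact hne h3
      have hwB' : n ≤ G.dist w a ∧ n ≤ G.dist w b := by
        unfold Br at hwB
        rw [hca, hcb] at hwB
        push Not at hwB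
        rw [hwn] at hwB
        exact hwB
      have hgw := ih w hwn hwB'.1 hwB'.2
      obtain ⟨c, hc⟩ := C.surj _ _ hw.symm
      rw [← hc, hg, hgw]
      by_cases hwp : w = p
      · subst hwp
        have h4 : c ≠ ca ∧ c ≠ cb := by
          apply C.not_br_nb (p := w)
          rw [hc]
          exact hxB
        show (if C.Br w ca cb w ∨ w = w then C.nb w (Equiv.swap ca cb c) else C.nb w c) = _
        rw [if_pos (Or.inr rfl), Equiv.swap_apply_of_ne_of_ne h4.1 h4.2]
      · show (if C.Br p ca cb w ∨ w = p then C.nb w (Equiv.swap ca cb c) else C.nb w c) = _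
        rw [if_neg]
        push Not
        exact ⟨hwB, hwp⟩

end Col

/-- a regular tree is distance transitive -/
theorem exists_aut_of_dist_eq [G.LocallyFinite] {d : ℕ} (hG : G.IsTree)
    (hreg : G.IsRegularOfDegree d) (v v' : V) : ∀ (n : ℕ) (w w' : V), G.dist v w = n →
    G.dist v' w' = n → ∃ g : G ≃g G, g v = v' ∧ g w = w' := by
  intro n
  induction n with
  | zero =>
    intro w w' h h'
    obtain ⟨C⟩ := exists_col hG hreg
    obtain ⟨g, hg, -⟩ := C.exists_iso C hG v v'
    have h1 : v = w := (hG.connected v w).dist_eq_zero_iff.1 h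
    have h2 : v' = w' := (hG.connected v' w').dist_eq_zero_iff.1 h'
    exact ⟨g, hg, by rw [← h1, ← h2, hg]⟩
  | succ n ih =>
    intro w w' h h'
    have hne : w ≠ v := by
      rintro rfl
      rw [SimpleGraph.dist_self] at h
      omega
    have hne' : w' ≠ v' := by
      rintro rfl
      rw [SimpleGraph.dist_self] at h'
      omega
    obtain ⟨p, hp, hpd⟩ := exists_next hG.connected hne
    obtain ⟨p', hp', hpd'⟩ := exists_next hG.connected hne'
    have s1 : G.dist w v = G.dist v w := SimpleGraph.dist_comm
    have s2 : G.dist p v = G.dist v p := SimpleGraph.dist_comm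
    have s3 : G.dist w' v' = G.dist v' w' := SimpleGraph.dist_comm
    have s4 : G.dist p' v' = G.dist v' p' := SimpleGraph.dist_comm
    obtain ⟨g, hgv, hgp⟩ := ih p p' (by omega) (by omega)
    have hadj : G.Adj p' (g w) := by
      rw [← hgp]
      exact g.map_adj_iff.2 hp.symm
    have hd : G.dist v' (g w) = n + 1 := by
      rw [← hgv, ← h]
      have h1 := hG.connected
      refine le_antisymm ?_ ?_
      · obtain ⟨q, hq⟩ := h1.exists_walk_length_eq_dist v w
        have := SimpleGraph.dist_le (q.map g.toHom)
        rw [SimpleGraph.Walk.length_map, hq] at this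
        exact this
      · obtain ⟨q, hq⟩ := h1.exists_walk_length_eq_dist (g v) (g w)
        have := SimpleGraph.dist_le (q.map g.symm.toHom)
        rw [SimpleGraph.Walk.length_map, hq] at this
        have e1 : g.symm.toHom (g v) = v := g.symm_apply_apply v
        have e2 : g.symm.toHom (g w) = w := g.symm_apply_apply w
        rw [e1, e2] at this
        exact this
    obtain ⟨k, hk1, hk2⟩ := Col.exists_swap hG hreg hadj hp'.symm
    refine ⟨g.trans k, ?_, ?_⟩
    · show k (g v) = v'
      rw [hgv]
      apply hk2
      · omega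
      · omega
    · show k (g w) = w'
      exact hk1

end P161
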