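import Vale.Agent.P161C.Mods

/-! # P161 at the critical point: module OSG (Osgood lemma with one logarithm) -/

open MeasureTheory Set Filter Topology

namespace P161C

namespace Osg

/-- the modulus -/
noncomputable def om (x : ℝ) : ℝ := (1 + Real.log (4 / x)) * x

theorem om_mono {x y : ℝ} (hx : 0 ≤ x) (hxy : x ≤ y) (hy : y ≤ 4) : om x ≤ om y := by
  unfold om
  rcases eq_or_lt_of_le hx with h | h
  · rw [← h, mul_zero]
    rcases eq_or_lt_of_le (hx.trans hxy) with h' | h'
    · rw [← h', mul_zero]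
    · have : 0 ≤ Real.log (4 / y) := Real.log_nonneg (by rw [le_div_iff₀ h']; linarith)
      positivity
  · have hy0 : 0 < y := lt_of_lt_of_le h hxy
    have h1 : 0 ≤ Real.log (4 / y) := Real.log_nonneg (by rw [le_div_iff₀ hy0]; linarith)
    have h2 : Real.log (4 / x) = Real.log (4 / y) + Real.log (y / x) := by
      rw [← Real.log_mul (by positivity) (by positivity)]
      congr 1
      field_simp
    have h3 : Real.log (y / x) ≤ y / x - 1 := Real.log_le_sub_one_of_pos (by positivity)
    have h4 : x * Real.log (y / x) ≤ y - x := by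
      have := mul_le_mul_of_nonneg_left h3 h.le
      have e : x * (y / x - 1) = y - x := by field_simp
      linarith
    have h5 : x * Real.log (4 / y) ≤ y * Real.log (4 / y) := mul_le_mul_of_nonneg_right hxy h1
    rw [h2]
    nlinarith

theorem om_nonneg {x : ℝ} (hx : 0 ≤ x) (hx4 : x ≤ 4) : 0 ≤ om x := by
  have := om_mono le_rfl hx hx4
  simpa [om] using this

/-- the one step estimate -/
theorem step {F F' δ ε A : ℝ} (hA : 0 < A) (hAF : A ≤ F) (hFF : F ≤ F') (hF4 : F' ≤ 4)
    (hδ : 0 ≤ δ) (hε : 0 < ε) (h : F' - F ≤ δ * om F')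
    (hd : δ * (1 + Real.log (4 / A)) ≤ ε / (1 + ε)) :
    Real.exp (-((1 + ε) * δ)) * (1 + Real.log (4 / F)) ≤ 1 + Real.log (4 / F') := by
  have hF : 0 < F := lt_of_lt_of_le hA hAF
  have hF' : 0 < F' := lt_of_lt_of_le hF hFF
  set L := 1 + Real.log (4 / F) with hL
  set L' := 1 + Real.log (4 / F') with hL'
  have hlog' : 0 ≤ Real.log (4 / F') := Real.log_nonneg (by rw [le_div_iff₀ hF']; linarith)
  have hL'1 : 1 ≤ L' := by linarith
  have hL'A : L' ≤ 1 + Real.log (4 / A) := by
    have : Real.log (4 / F') ≤ Real.log (4 / A) := by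
      apply Real.log_le_log (by positivity)
      apply div_le_div_of_nonneg_left (by norm_num) hA
      linarith
    linarith
  have hx : δ * L' ≤ ε / (1 + ε) := (mul_le_mul_of_nonneg_left hL'A hδ).trans hd
  set x := δ * L' with hxdef
  have hx0 : 0 ≤ x := mul_nonneg hδ (by linarith)
  have h1ε : 0 < 1 + ε := by linarith
  have hx2 : x * (1 + ε) ≤ ε := by
    rw [le_div_iff₀ h1ε] at hx
    exact hx
  have hx1 : x < 1 := by nlinarith
  have hq : 1 - x ≤ F / F' := by
    rw [le_div_iff₀ hF']
    have : δ * om F' = x * F' := by rw [om, hxdef, hL']; ring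
    linarith
  have hlog : L - L' ≤ (1 + ε) * x := by
    have e : L - L' = Real.log (F' / F) := by
      rw [hL, hL', Real.log_div (by norm_num) hF.ne', Real.log_div (by norm_num) hF'.ne',
        Real.log_div hF'.ne' hF.ne']
      ring
    rw [e]
    have h1 : F' / F ≤ 1 / (1 - x) := by
      rw [div_le_div_iff₀ hF (by linarith)]
      rw [le_div_iff₀ hF'] at hq
      linarith
    have h2 : Real.log (F' / F) ≤ 1 / (1 - x) - 1 :=
      (Real.log_le_sub_one_of_pos (by positivity)).trans (by linarith)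
    have h3 : 1 / (1 - x) - 1 ≤ (1 + ε) * x := by
      rw [sub_le_iff_le_add, div_le_iff₀ (by linarith)]
      nlinarith
    linarith
  have hL1 : L ≤ L' * Real.exp ((1 + ε) * δ) := by
    have h1 : 1 + (1 + ε) * δ ≤ Real.exp ((1 + ε) * δ) := by
      have := Real.add_one_le_exp ((1 + ε) * δ)
      linarith
    have h2 : L ≤ L' * (1 + (1 + ε) * δ) := by
      have : L ≤ L' + (1 + ε) * x := by linarith
      calc L ≤ L' + (1 + ε) * x := this
        _ = L' * (1 + (1 + ε) * δ) := by rw [hxdef]; ring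
    exact h2.trans (mul_le_mul_of_nonneg_left h1 (by linarith))
  rw [Real.exp_neg, inv_mul_le_iff₀ (Real.exp_pos _), mul_comm]
  exact hL1

end Osg

open Osg in
theorem osg_proof : OSG := by
  intro a b A f K g hab hmono hf hK hg hKi hgi hineq hA hA4 hstart
  -- integrability of `K * om f`
  have huIcc : uIcc a b = Icc a b := uIcc_of_le hab
  have homm : MonotoneOn (fun s => om (f s)) (Icc a b) := by
    intro s hs t ht hst
    exact om_mono (hf s hs).1 (hmono hs ht hst) (hf t ht).2
  have homi : IntervalIntegrable (fun s => om (f s)) volume a b := by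
    apply MonotoneOn.intervalIntegrable
    rw [huIcc]; exact homm
  have hKom : IntervalIntegrable (fun s => K s * om (f s)) volume a b := by
    rw [intervalIntegrable_iff_integrableOn_Ioc_of_le hab] at hKi homi ⊢
    refine Integrable.mul_bdd (c := om 4) hKi homi.aestronglyMeasurable ?_
    rw [ae_restrict_iff' measurableSet_Ioc]
    refine Eventually.of_forall (fun s hs => ?_)
    have hs' : s ∈ Icc a b := ⟨hs.1.le, hs.2⟩
    rw [Real.norm_eq_abs, abs_of_nonneg (om_nonneg (hf s hs').1 (hf s hs').2)]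
    exact om_mono (hf s hs').1 (hf s hs').2 le_rfl
  have hsub : ∀ s ∈ Icc a b, ∀ t ∈ Icc a b, uIcc s t ⊆ uIcc a b := by
    intro s hs t ht
    rw [huIcc]
    exact uIcc_subset_Icc hs ht
  have haI : a ∈ Icc a b := ⟨le_rfl, hab⟩
  have hbI : b ∈ Icc a b := ⟨hab, le_rfl⟩
  set F : ℝ → ℝ := fun t => A + ∫ s in a..t, K s * om (f s) with hF
  set κ : ℝ → ℝ := fun t => ∫ s in a..t, K s with hκ
  have hFf : ∀ t ∈ Icc a b, f t ≤ F t := by
    intro t ht
    have h1 := hineq t ht
    have hi1 := hKom.mono_set (hsub a haI t ht)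
    have hi2 := hgi.mono_set (hsub a haI t ht)
    have e : ∫ s in a..t, (K s * ((1 + Real.log (4 / f s)) * f s) + g s)
        = (∫ s in a..t, K s * om (f s)) + ∫ s in a..t, g s :=
      intervalIntegral.integral_add hi1 hi2
    have h2 : ∫ s in a..t, g s ≤ ∫ s in a..b, g s := by
      have hi3 := hgi.mono_set (hsub t ht b hbI)
      have h3 : ∫ s in a..b, g s = (∫ s in a..t, g s) + ∫ s in t..b, g s :=
        (intervalIntegral.integral_add_adjacent_intervals hi2 hi3).symm
      have h4 : 0 ≤ ∫ s in t..b, g s :=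
        intervalIntegral.integral_nonneg ht.2 (fun s hs => hg s ⟨ht.1.trans hs.1, hs.2⟩)
      linarith
    simp only [hF]
    linarith
  have hκc : ContinuousOn κ (Icc a b) := by
    have := intervalIntegral.continuousOn_primitive_interval' hKi (a := a) (by simp)
    rwa [huIcc] at this
  have hFc : ContinuousOn F (Icc a b) := by
    have := intervalIntegral.continuousOn_primitive_interval' hKom (a := a) (by simp)
    rw [huIcc] at this
    exact continuousOn_const.add this
  have hFa : F a = A := by simp [hF]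
  have hκa : κ a = 0 := by simp [hκ]
  have hκd : ∀ s ∈ Icc a b, ∀ t ∈ Icc a b, s ≤ t → κ t - κ s = ∫ u in s..t, K u := by
    intro s hs t ht hst
    simp only [hκ]
    exact intervalIntegral.integral_interval_sub_left (hKi.mono_set (hsub a haI t ht))
      (hKi.mono_set (hsub a haI s hs))
  have hFd : ∀ s ∈ Icc a b, ∀ t ∈ Icc a b, s ≤ t →
      F t - F s = ∫ u in s..t, K u * om (f u) := by
    intro s hs t ht hst
    simp only [hF]
    rw [add_sub_add_left_eq_sub]
    exact intervalIntegral.integral_interval_sub_left (hKom.mono_set (hsub a haI t ht))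
      (hKom.mono_set (hsub a haI s hs))
  have hκm : ∀ s ∈ Icc a b, ∀ t ∈ Icc a b, s ≤ t → κ s ≤ κ t := by
    intro s hs t ht hst
    have := hκd s hs t ht hst
    have h4 : 0 ≤ ∫ u in s..t, K u :=
      intervalIntegral.integral_nonneg hst (fun u hu => hK u ⟨hs.1.trans hu.1, hu.2.trans ht.2⟩)
    linarith
  have hFm : ∀ s ∈ Icc a b, ∀ t ∈ Icc a b, s ≤ t → F s ≤ F t := by
    intro s hs t ht hst
    have := hFd s hs t ht hst
    have h4 : 0 ≤ ∫ u in s..t, K u * om (f u) := by
      refine intervalIntegral.integral_nonneg hst (fun u hu => ?_)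
      have hu' : u ∈ Icc a b := ⟨hs.1.trans hu.1, hu.2.trans ht.2⟩
      exact mul_nonneg (hK u hu') (om_nonneg (hf u hu').1 (hf u hu').2)
    linarith
  have hFA : ∀ t ∈ Icc a b, A ≤ F t := by
    intro t ht
    rw [← hFa]
    exact hFm a haI t ht ht.1
  have hstep : ∀ s ∈ Icc a b, ∀ t ∈ Icc a b, s ≤ t → F t ≤ 4 →
      F t - F s ≤ (κ t - κ s) * om (F t) := by
    intro s hs t ht hst h4
    rw [hFd s hs t ht hst, hκd s hs t ht hst, ← intervalIntegral.integral_mul_const]
    refine intervalIntegral.integral_mono_on hst (hKom.mono_set (hsub s hs t ht))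
      ((hKi.mono_set (hsub s hs t ht)).mul_const _) (fun u hu => ?_)
    have hu' : u ∈ Icc a b := ⟨hs.1.trans hu.1, hu.2.trans ht.2⟩
    apply mul_le_mul_of_nonneg_left _ (hK u hu')
    exact om_mono (hf u hu').1 ((hmono hu' ht hu.2).trans (hFf t ht)) h4
  set L₀ := 1 + Real.log (4 / A) with hL₀
  have hL₀1 : 1 ≤ L₀ := by
    have : 0 ≤ Real.log (4 / A) := Real.log_nonneg (by rw [le_div_iff₀ hA]; linarith)
    linarith
  -- trivial case
  by_cases htriv : Real.exp (-κ b) * L₀ ≤ 1
  · have h1 : 4 ≤ 4 * Real.exp (1 - Real.exp (-κ b) * L₀) := by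
      have := Real.one_le_exp (x := 1 - Real.exp (-κ b) * L₀) (by linarith)
      linarith
    exact (hf b hbI).2.trans h1
  push Not at htriv
  -- the main case
  have hmain : ∀ ε : ℝ, 0 < ε → 1 < Real.exp (-((1 + ε) * κ b)) * L₀ →
      Real.exp (-((1 + ε) * κ b)) * L₀ ≤ 1 + Real.log (4 / F b) := by
    intro ε hε h1
    have hκnn : ∀ t ∈ Icc a b, 0 ≤ κ t := fun t ht => by
      rw [← hκa]; exact hκm a haI t ht ht.1
    set δ₀ := ε / (1 + ε) / L₀ with hδ₀
    have hδ₀p : 0 < δ₀ := by positivity
    set S : Set ℝ := {t | Real.exp (-((1 + ε) * κ t)) * L₀ ≤ 1 + Real.log (4 / F t)} with hS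
    have hcl : IsClosed (S ∩ Icc a b) := by
      have c1 : ContinuousOn (fun t => Real.exp (-((1 + ε) * κ t)) * L₀) (Icc a b) := by
        fun_prop
      have c2 : ContinuousOn (fun t => 1 + Real.log (4 / F t)) (Icc a b) := by
        refine continuousOn_const.add (ContinuousOn.log ?_ ?_)
        · exact continuousOn_const.div hFc (fun t ht => (lt_of_lt_of_le hA (hFA t ht)).ne')
        · intro t ht
          have := lt_of_lt_of_le hA (hFA t ht)
          positivity
      have := isClosed_Icc.isClosed_le c1 c2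
      have e : S ∩ Icc a b = {t | t ∈ Icc a b ∧ Real.exp (-((1 + ε) * κ t)) * L₀
          ≤ 1 + Real.log (4 / F t)} := by
        ext t
        simp only [hS, mem_inter_iff, mem_ofPred_eq]
        tauto
      rw [e]
      exact this
    have haS : a ∈ S := by
      simp only [hS, mem_ofPred_eq, hκa, hFa, mul_zero, neg_zero, Real.exp_zero, one_mul]
      exact le_rfl
    have hsubset : Icc a b ⊆ S := by
      refine hcl.Icc_subset_of_forall_mem_nhdsWithin haS ?_
      rintro t ⟨htS, ht⟩
      have htI : t ∈ Icc a b := ⟨ht.1, ht.2.le⟩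
      have hFt4 : F t < 4 := by
        have h2 : 1 < 1 + Real.log (4 / F t) := by
          refine lt_of_lt_of_le ?_ htS
          refine lt_of_lt_of_le h1 ?_
          apply mul_le_mul_of_nonneg_right _ (by linarith)
          apply Real.exp_le_exp.mpr
          have := hκm t htI b hbI htI.2
          nlinarith
        have hFt := lt_of_lt_of_le hA (hFA t htI)
        have h3 : 0 < Real.log (4 / F t) := by linarith
        rw [Real.log_pos_iff (by positivity)] at h3
        rw [lt_div_iff₀ hFt] at h3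
        linarith
      have hle : 𝓝[>] t ≤ 𝓝[Icc a b] t := by
        rw [← nhdsWithin_Ioo_eq_nhdsGT ht.2]
        apply nhdsWithin_mono
        intro s hs
        exact ⟨ht.1.trans hs.1.le, hs.2.le⟩
      have ev1 : ∀ᶠ s in 𝓝[>] t, F s < 4 :=
        hle ((hFc t htI).eventually_lt tendsto_const_nhds hFt4)
      have ev2 : ∀ᶠ s in 𝓝[>] t, κ s < κ t + δ₀ :=
        hle ((hκc t htI).eventually_lt tendsto_const_nhds (by linarith))
      have ev3 : ∀ᶠ s in 𝓝[>] t, s ∈ Ioo t b := by
        rw [← nhdsWithin_Ioo_eq_nhdsGT ht.2]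
        exact eventually_mem_nhdsWithin
      filter_upwards [ev1, ev2, ev3] with s s1 s2 s3
      have hsI : s ∈ Icc a b := ⟨ht.1.trans s3.1.le, s3.2.le⟩
      have hst := hstep t htI s hsI s3.1.le s1.le
      have hκst := hκm t htI s hsI s3.1.le
      have hd : (κ s - κ t) * L₀ ≤ ε / (1 + ε) := by
        have h5 : κ s - κ t ≤ δ₀ := by linarith
        calc (κ s - κ t) * L₀ ≤ δ₀ * L₀ := mul_le_mul_of_nonneg_right h5 (by linarith)
          _ = ε / (1 + ε) := by rw [hδ₀]; field_simp
      have h6 := Osg.step hA (hFA t htI) (hFm t htI s hsI s3.1.le) s1.le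
        (by linarith : 0 ≤ κ s - κ t) hε hst hd
      have h7 : Real.exp (-((1 + ε) * κ s)) * L₀
          = Real.exp (-((1 + ε) * (κ s - κ t))) * (Real.exp (-((1 + ε) * κ t)) * L₀) := by
        rw [← mul_assoc, ← Real.exp_add]
        congr 2
        ring
      change Real.exp (-((1 + ε) * κ s)) * L₀ ≤ 1 + Real.log (4 / F s)
      rw [h7]
      refine le_trans ?_ h6
      exact mul_le_mul_of_nonneg_left htS (Real.exp_pos _).le
    exact hsubset hbI
  have hFb : 0 < F b := lt_of_lt_of_le hA (hFA b hbI)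
  have hfin : ∀ ε : ℝ, 0 < ε → 1 < Real.exp (-((1 + ε) * κ b)) * L₀ →
      F b ≤ 4 * Real.exp (1 - Real.exp (-((1 + ε) * κ b)) * L₀) := by
    intro ε hε h1
    have h2 := hmain ε hε h1
    have h3 : Real.log (F b / 4) ≤ 1 - Real.exp (-((1 + ε) * κ b)) * L₀ := by
      have e : Real.log (4 / F b) = - Real.log (F b / 4) := by
        rw [← Real.log_inv, inv_div]
      rw [e] at h2
      linarith
    have h4 : F b / 4 ≤ Real.exp (1 - Real.exp (-((1 + ε) * κ b)) * L₀) := by
      rw [← Real.log_le_iff_le_exp (by positivity)]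
      exact h3
    linarith
  have hcont : Continuous fun ε : ℝ => Real.exp (-((1 + ε) * κ b)) * L₀ := by fun_prop
  have hlim : Tendsto (fun ε : ℝ => Real.exp (-((1 + ε) * κ b)) * L₀) (𝓝[>] 0)
      (𝓝 (Real.exp (-κ b) * L₀)) := by
    have := (hcont.tendsto 0).mono_left (nhdsWithin_le_nhds (s := Ioi (0 : ℝ)))
    simpa using this
  have hev : ∀ᶠ ε : ℝ in 𝓝[>] 0, F b ≤ 4 * Real.exp (1 - Real.exp (-((1 + ε) * κ b)) * L₀) := by
    filter_upwards [hlim.eventually_const_lt htriv, eventually_mem_nhdsWithin] with ε h1 h2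
    exact hfin ε h2 h1
  have hlim2 : Tendsto (fun ε : ℝ => 4 * Real.exp (1 - Real.exp (-((1 + ε) * κ b)) * L₀)) (𝓝[>] 0)
      (𝓝 (4 * Real.exp (1 - Real.exp (-κ b) * L₀))) :=
    ((Real.continuous_exp.tendsto _).comp (tendsto_const_nhds.sub hlim)).const_mul 4
  exact (hFf b hbI).trans (ge_of_tendsto hlim2 hev)

end P161C
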