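import Vale.Agent.P161C.Base
import Vale.Agent.P161C.Osg

/-! # P161 at the critical point: module CONV -/

open MeasureTheory Set Filter Topology

namespace P161C

open P161

universe u

namespace Conv

theorem scal_floor_le (s : ℝ) : scal ⌊s⌋ ≤ Real.exp (Real.log 2 * s) := by
  have h2 : Real.exp (Real.log 2 * s) = (2 : ℝ) ^ s := by
    rw [Real.rpow_def_of_pos (by norm_num)]
  rw [h2]
  unfold scal
  rw [← Real.rpow_intCast]
  rcases le_or_gt 0 s with h | h
  · have h0 : 0 ≤ ⌊s⌋ := Int.floor_nonneg.mpr h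
    rw [min_eq_right h0]
    simpa using Real.one_le_rpow (by norm_num : (1 : ℝ) ≤ 2) h
  · apply Real.rpow_le_rpow_of_exponent_le (by norm_num)
    have h1 : ((min ⌊s⌋ 0 : ℤ) : ℝ) ≤ (⌊s⌋ : ℝ) := by exact_mod_cast min_le_left _ _
    exact h1.trans (Int.floor_le s)

theorem scal_floor_ge {k : ℕ} (hk : 1 ≤ k) {s : ℝ} (hs : -(k : ℝ) + 1 ≤ s) :
    1 / 2 ^ k ≤ scal ⌊s⌋ := by
  unfold scal
  have h1 : (-(k : ℤ)) ≤ min ⌊s⌋ 0 := by
    apply le_min
    · rw [Int.le_floor]
      push_cast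
      linarith
    · omega
  have h2 : (1 : ℝ) / 2 ^ k = (2 : ℝ) ^ (-(k : ℤ)) := by
    rw [zpow_neg, zpow_natCast, one_div]
  rw [h2]
  exact zpow_le_zpow_right₀ (by norm_num) h1

theorem measurable_scal_floor : Measurable fun s : ℝ => scal ⌊s⌋ :=
  (measurable_from_top (f := scal)).comp Int.measurable_floor

theorem integrable_exp_Iic (J : ℝ) :
    IntegrableOn (fun s : ℝ => Real.exp (Real.log 2 * s)) (Iic J) :=
  integrableOn_exp_mul_Iic (Real.log_pos (by norm_num)) J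

/-- the analytic core -/
theorem core (J : ℕ) {C K : ℝ} (hC : 0 < C) (hK : 0 < K) (f : ℕ → ℝ → ℝ)
    (hfm : ∀ k, 1 ≤ k → MonotoneOn (f k) (Iic (J + 1)))
    (hfk : ∀ (k : ℕ) (t : ℝ), 1 ≤ k → t ≤ J + 1 → f k t ≤ f (k + 1) t)
    (hfb : ∀ k (j : ℤ) (t : ℝ), 1 ≤ k → j ≤ J → (j : ℝ) ≤ t → t ≤ j + 1 → 0 ≤ f k t ∧
        f k t ≤ C * scal j) (C₁ : ℝ) {ε : ℝ} (hε : 0 < ε) :
    ∃ N : ℕ, ∀ k l : ℕ, N ≤ k → k ≤ l → ∀ Δ : ℝ → ℝ, Monotone Δ → (∀ t, 0 ≤ Δ t ∧ Δ t ≤ 4) →
      Δ (-(k : ℝ) + 1) ≤ C₁ / 2 ^ k →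
      (∀ t, -(k : ℝ) + 1 ≤ t → t ≤ J → Δ t ≤ Δ (-(k : ℝ) + 1) + ∫ s in (-(k : ℝ) + 1)..t,
        (K * scal ⌊s⌋ * ((1 + Real.log (4 / Δ s)) * Δ s)
          + K / scal ⌊s⌋ * ((f k s - f l s) ^ 2 + (2 / 8 ^ k) ^ 2))) →
      Δ J ≤ ε := by
  -- facts on `f`
  have hb : ∀ (k : ℕ) (s : ℝ), 1 ≤ k → s ≤ J → 0 ≤ f k s ∧ f k s ≤ C * scal ⌊s⌋ := by
    intro k s hk hs
    refine hfb k ⌊s⌋ s hk ?_ (Int.floor_le s) (Int.lt_floor_add_one s).le
    have : (⌊s⌋ : ℝ) ≤ (J : ℝ) := (Int.floor_le s).trans hs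
    exact_mod_cast this
  have hmono : ∀ s : ℝ, s ≤ J → ∀ k l, 1 ≤ k → k ≤ l → f k s ≤ f l s := by
    intro s hs k l hk hkl
    induction l, hkl using Nat.le_induction with
    | base => exact le_rfl
    | succ l hl ih => exact ih.trans (hfk l s (hk.trans hl) (by linarith))
  set F : ℝ → ℝ := fun s => ⨆ n : ℕ, f (n + 1) s with hF
  have hbdd : ∀ s : ℝ, s ≤ J → BddAbove (range fun n : ℕ => f (n + 1) s) := by
    intro s hs
    refine ⟨C * scal ⌊s⌋, ?_⟩
    rintro _ ⟨n, rfl⟩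
    exact (hb (n + 1) s (by omega) hs).2
  have hfF : ∀ s : ℝ, s ≤ J → ∀ k, 1 ≤ k → f k s ≤ F s := by
    intro s hs k hk
    obtain ⟨n, rfl⟩ : ∃ n, k = n + 1 := ⟨k - 1, by omega⟩
    exact le_ciSup (hbdd s hs) n
  have hFC : ∀ s : ℝ, s ≤ J → F s ≤ C * scal ⌊s⌋ := by
    intro s hs
    exact ciSup_le (fun n => (hb (n + 1) s (by omega) hs).2)
  have hFlim : ∀ s : ℝ, s ≤ J → Tendsto (fun n : ℕ => f (n + 1) s) atTop (𝓝 (F s)) := by
    intro s hs
    apply tendsto_atTop_ciSup _ (hbdd s hs)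
    intro n m hnm
    exact hmono s hs _ _ (by omega) (by omega)
  have hfme : ∀ k, 1 ≤ k → AEStronglyMeasurable (f k) (volume.restrict (Iic (J : ℝ))) := by
    intro k hk
    apply AEMeasurable.aestronglyMeasurable
    apply aemeasurable_restrict_of_monotoneOn measurableSet_Iic
    exact (hfm k hk).mono (fun s hs => by
      simp only [mem_Iic] at hs ⊢
      linarith)
  have hFme : AEStronglyMeasurable F (volume.restrict (Iic (J : ℝ))) := by
    refine aestronglyMeasurable_of_tendsto_ae (u := atTop) (f := fun n : ℕ => f (n + 1))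
      (fun n => hfme (n + 1) (by omega)) ?_
    rw [ae_restrict_iff' measurableSet_Iic]
    exact Eventually.of_forall (fun s hs => hFlim s hs)
  have hexpi := integrable_exp_Iic (J : ℝ)
  -- the integrals of `F - f k`
  have hdi : ∀ k, 1 ≤ k → IntegrableOn (fun s => F s - f k s) (Iic (J : ℝ)) := by
    intro k hk
    refine Integrable.mono' (hexpi.const_mul C) (hFme.sub (hfme k hk)) ?_
    rw [ae_restrict_iff' measurableSet_Iic]
    refine Eventually.of_forall (fun s hs => ?_)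
    have h1 := hfF s hs k hk
    have h2 := hFC s hs
    have h3 := (hb k s hk hs).1
    have h4 := mul_le_mul_of_nonneg_left (scal_floor_le s) hC.le
    rw [Real.norm_eq_abs, abs_of_nonneg (by linarith)]
    linarith
  set I : ℕ → ℝ := fun k => ∫ s in Iic (J : ℝ), (F s - f k s) with hI
  have hI0 : ∀ k, 1 ≤ k → 0 ≤ I k := by
    intro k hk
    apply setIntegral_nonneg measurableSet_Iic
    intro s hs
    have := hfF s hs k hk
    linarith
  have hIlim : Tendsto (fun n : ℕ => I (n + 1)) atTop (𝓝 0) := by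
    have h0 : (0 : ℝ) = ∫ s in Iic (J : ℝ), (0 : ℝ) := by simp
    rw [h0]
    refine tendsto_integral_of_dominated_convergence
      (fun s => C * Real.exp (Real.log 2 * s)) (fun n => (hdi (n + 1) (by omega)).1)
      (hexpi.const_mul C) ?_ ?_
    · intro n
      rw [ae_restrict_iff' measurableSet_Iic]
      refine Eventually.of_forall (fun s hs => ?_)
      have h1 := hfF s hs (n + 1) (by omega)
      have h2 := hFC s hs
      have h3 := (hb (n + 1) s (by omega) hs).1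
      have h4 := mul_le_mul_of_nonneg_left (scal_floor_le s) hC.le
      rw [Real.norm_eq_abs, abs_of_nonneg (by linarith)]
      linarith
    · rw [ae_restrict_iff' measurableSet_Iic]
      refine Eventually.of_forall (fun s hs => ?_)
      have := (hFlim s hs).const_sub (F s)
      simpa using this
  -- constants
  set κ₀ : ℝ := K * ∫ s in Iic (J : ℝ), Real.exp (Real.log 2 * s) with hκ₀
  set X : ℝ := Real.exp κ₀ * (1 + |Real.log (ε / 4)|) with hX
  have hX0 : 0 ≤ X := by positivity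
  set A : ℝ := 4 * Real.exp (-X) with hA
  have hApos : 0 < A := by positivity
  have hA4 : A ≤ 4 := by
    have : Real.exp (-X) ≤ 1 := Real.exp_le_one_iff.mpr (by linarith)
    rw [hA]; linarith
  have hlogA : Real.log (4 / A) = X := by
    rw [hA]
    have : (4 : ℝ) / (4 * Real.exp (-X)) = Real.exp X := by
      rw [Real.exp_neg]; field_simp
    rw [this, Real.log_exp]
  -- the sequence
  have hseq : Tendsto (fun n : ℕ => C₁ * (1 / 2 : ℝ) ^ (n + 1) + K * C * I (n + 1)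
      + 4 * K * (J + 1) * (1 / 16 : ℝ) ^ (n + 1)) atTop (𝓝 0) := by
    have t1 : Tendsto (fun n : ℕ => (1 / 2 : ℝ) ^ (n + 1)) atTop (𝓝 0) :=
      (tendsto_pow_atTop_nhds_zero_of_lt_one (by norm_num) (by norm_num)).comp
        (tendsto_add_atTop_nat 1)
    have t2 : Tendsto (fun n : ℕ => (1 / 16 : ℝ) ^ (n + 1)) atTop (𝓝 0) :=
      (tendsto_pow_atTop_nhds_zero_of_lt_one (by norm_num) (by norm_num)).comp
        (tendsto_add_atTop_nat 1)
    have := ((t1.const_mul C₁).add (hIlim.const_mul (K * C))).add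
      (t2.const_mul (4 * K * ((J : ℝ) + 1)))
    simpa using this
  obtain ⟨N, hN⟩ := (hseq.eventually_le_const hApos).exists_forall_of_atTop
  refine ⟨N + 1, ?_⟩
  intro k l hk hkl Δ hΔm hΔ hΔa hΔi
  have hk1 : 1 ≤ k := by omega
  have hl1 : 1 ≤ l := hk1.trans hkl
  set a : ℝ := -(k : ℝ) + 1 with ha
  have haJ : a ≤ (J : ℝ) := by
    have h1 : (1 : ℝ) ≤ k := by exact_mod_cast hk1
    have h2 : (0 : ℝ) ≤ J := by positivity
    linarith
  set g : ℝ → ℝ := fun s => K / scal ⌊s⌋ * ((f k s - f l s) ^ 2 + (2 / 8 ^ k) ^ 2) with hg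
  have hsubset : Ioc a (J : ℝ) ⊆ Iic (J : ℝ) := fun s hs => hs.2
  have hc0 : (0 : ℝ) ≤ 4 * K / 32 ^ k := by positivity
  have hgle : ∀ s ∈ Icc a (J : ℝ), g s ≤ K * C * (F s - f k s) + 4 * K / 32 ^ k := by
    intro s hs
    have hs' : s ≤ (J : ℝ) := hs.2
    have hsp := scal_pos ⌊s⌋
    have hsg := scal_floor_ge hk1 hs.1
    have e1 := hfF s hs' l hl1
    have e2 := hmono s hs' k l hk1 hkl
    have e3 := (hb k s hk1 hs').1
    have e4 := (hb l s hl1 hs').2
    have h1 : K / scal ⌊s⌋ * (f k s - f l s) ^ 2 ≤ K * C * (F s - f k s) := by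
      rw [div_mul_eq_mul_div, div_le_iff₀ hsp]
      have h2 : (f k s - f l s) ^ 2 ≤ (C * scal ⌊s⌋) * (F s - f k s) := by
        have : (f k s - f l s) ^ 2 = (f l s - f k s) * (f l s - f k s) := by ring
        rw [this]
        apply mul_le_mul (by linarith) (by linarith) (by linarith) (by linarith)
      calc K * (f k s - f l s) ^ 2 ≤ K * ((C * scal ⌊s⌋) * (F s - f k s)) :=
            mul_le_mul_of_nonneg_left h2 hK.le
        _ = K * C * (F s - f k s) * scal ⌊s⌋ := by ring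
    have h2 : K / scal ⌊s⌋ * (2 / 8 ^ k) ^ 2 ≤ 4 * K / 32 ^ k := by
      rw [div_mul_eq_mul_div, div_le_iff₀ hsp]
      have h3 : K * (2 / 8 ^ k) ^ 2 = 4 * K / 32 ^ k * (1 / 2 ^ k) := by
        have e8 : (8 : ℝ) ^ k = 2 ^ k * 2 ^ k * 2 ^ k := by
          rw [← mul_pow, ← mul_pow]; norm_num
        have e32 : (32 : ℝ) ^ k = 2 ^ k * 2 ^ k * 2 ^ k * 2 ^ k * 2 ^ k := by
          rw [← mul_pow, ← mul_pow, ← mul_pow, ← mul_pow]; norm_num
        have hp : (2 : ℝ) ^ k ≠ 0 := by positivity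
        rw [e8, e32]
        field_simp
        ring
      rw [h3]
      exact mul_le_mul_of_nonneg_left hsg hc0
    simp only [hg]
    rw [mul_add]
    linarith
  have hg0 : ∀ s, 0 ≤ g s := by
    intro s
    have hsp := scal_pos ⌊s⌋
    simp only [hg]
    positivity
  have hGi : IntegrableOn (fun s => K * C * (F s - f k s) + 4 * K / 32 ^ k) (Ioc a (J : ℝ)) := by
    refine Integrable.add (((hdi k hk1).mono_set hsubset).const_mul _) ?_
    exact integrableOn_const (by simp) (by simp)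
  have hgme : AEStronglyMeasurable g (volume.restrict (Ioc a (J : ℝ))) := by
    have m1 : AEStronglyMeasurable (fun s : ℝ => K / scal ⌊s⌋)
        (volume.restrict (Ioc a (J : ℝ))) :=
      (measurable_scal_floor.const_div K).aestronglyMeasurable
    have m2 : AEStronglyMeasurable (f k) (volume.restrict (Ioc a (J : ℝ))) :=
      (hfme k hk1).mono_measure (Measure.restrict_mono_set _ hsubset)
    have m3 : AEStronglyMeasurable (f l) (volume.restrict (Ioc a (J : ℝ))) :=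
      (hfme l hl1).mono_measure (Measure.restrict_mono_set _ hsubset)
    exact m1.mul (((m2.sub m3).pow 2).add aestronglyMeasurable_const)
  have hgi : IntegrableOn g (Ioc a (J : ℝ)) := by
    refine Integrable.mono' hGi hgme ?_
    rw [ae_restrict_iff' measurableSet_Ioc]
    refine Eventually.of_forall (fun s hs => ?_)
    rw [Real.norm_eq_abs, abs_of_nonneg (hg0 s)]
    exact hgle s ⟨hs.1.le, hs.2⟩
  have hgint : ∫ s in a..(J : ℝ), g s
      ≤ K * C * I k + 4 * K * (J + 1) * (1 / 16 : ℝ) ^ k := by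
    rw [intervalIntegral.integral_of_le haJ]
    have h1 : ∫ s in Ioc a (J : ℝ), g s
        ≤ ∫ s in Ioc a (J : ℝ), (K * C * (F s - f k s) + 4 * K / 32 ^ k) :=
      setIntegral_mono_on hgi hGi measurableSet_Ioc (fun s hs => hgle s ⟨hs.1.le, hs.2⟩)
    have h2 : ∫ s in Ioc a (J : ℝ), (K * C * (F s - f k s) + 4 * K / 32 ^ k)
        = K * C * (∫ s in Ioc a (J : ℝ), (F s - f k s)) + (J - a) * (4 * K / 32 ^ k) := by
      rw [integral_add (((hdi k hk1).mono_set hsubset).const_mul _)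
        (integrableOn_const (by simp) (by simp)), integral_const_mul, setIntegral_const]
      simp only [measureReal_def, Real.volume_Ioc, smul_eq_mul]
      rw [ENNReal.toReal_ofReal (by linarith)]
    have h3 : ∫ s in Ioc a (J : ℝ), (F s - f k s) ≤ I k := by
      refine setIntegral_mono_set (hdi k hk1) ?_ (Eventually.of_forall hsubset)
      rw [EventuallyLE, ae_restrict_iff' measurableSet_Iic]
      refine Eventually.of_forall (fun s hs => ?_)
      have := hfF s hs k hk1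
      simp only [Pi.zero_apply]
      linarith
    have h4 : (J - a) * (4 * K / 32 ^ k) ≤ 4 * K * (J + 1) * (1 / 16 : ℝ) ^ k := by
      have h5 : (k : ℝ) ≤ 2 ^ k := by
        have := Nat.lt_two_pow_self (n := k)
        have h6 : (k : ℕ) ≤ 2 ^ k := this.le
        exact_mod_cast h6
      have h2k : (1 : ℝ) ≤ 2 ^ k := one_le_pow₀ (by norm_num)
      have h7 : (J : ℝ) - a ≤ (J + 1) * 2 ^ k := by
        have hJ0 : (0 : ℝ) ≤ J := by positivity
        rw [ha]
        nlinarith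
      have e32 : (32 : ℝ) ^ k = 2 ^ k * 16 ^ k := by rw [← mul_pow]; norm_num
      have hp : (2 : ℝ) ^ k ≠ 0 := by positivity
      calc (J - a) * (4 * K / 32 ^ k) ≤ ((J + 1) * 2 ^ k) * (4 * K / 32 ^ k) :=
            mul_le_mul_of_nonneg_right h7 hc0
        _ = 4 * K * (J + 1) * (1 / 16 : ℝ) ^ k := by
            rw [e32, one_div, inv_pow]
            field_simp
    have h8 := mul_le_mul_of_nonneg_left h3 (by positivity : 0 ≤ K * C)
    linarith
  have hKi : IntegrableOn (fun s => K * scal ⌊s⌋) (Iic (J : ℝ)) := by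
    refine Integrable.mono' (hexpi.const_mul K)
      (measurable_scal_floor.const_mul K).aestronglyMeasurable ?_
    refine Eventually.of_forall (fun s => ?_)
    have hsp := scal_pos ⌊s⌋
    rw [Real.norm_eq_abs, abs_of_nonneg (by positivity)]
    exact mul_le_mul_of_nonneg_left (scal_floor_le s) hK.le
  have hKint : ∫ s in a..(J : ℝ), K * scal ⌊s⌋ ≤ κ₀ := by
    rw [intervalIntegral.integral_of_le haJ, hκ₀, ← integral_const_mul]
    refine (setIntegral_mono_set hKi ?_ (Eventually.of_forall hsubset)).trans ?_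
    · refine Eventually.of_forall (fun s => ?_)
      have hsp := scal_pos ⌊s⌋
      simp only [Pi.zero_apply]
      positivity
    · refine setIntegral_mono_on hKi (hexpi.const_mul K) measurableSet_Iic (fun s _ => ?_)
      exact mul_le_mul_of_nonneg_left (scal_floor_le s) hK.le
  have hOS := osg_proof a (J : ℝ) A Δ (fun s => K * scal ⌊s⌋) g haJ (hΔm.monotoneOn _)
    (fun t _ => hΔ t) (fun t _ => by have := scal_pos ⌊t⌋; positivity) (fun t _ => hg0 t)
    ((intervalIntegrable_iff_integrableOn_Ioc_of_le haJ).mpr (hKi.mono_set hsubset))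
    ((intervalIntegrable_iff_integrableOn_Ioc_of_le haJ).mpr hgi)
    (fun t ht => hΔi t ht.1 ht.2) hApos hA4 ?_
  · refine hOS.trans ?_
    rw [hlogA]
    have h1 : Real.exp (-κ₀) ≤ Real.exp (-∫ s in a..(J : ℝ), K * scal ⌊s⌋) :=
      Real.exp_le_exp.mpr (by linarith)
    have h2 : Real.exp (-κ₀) * X = 1 + |Real.log (ε / 4)| := by
      rw [hX, ← mul_assoc, ← Real.exp_add, neg_add_cancel, Real.exp_zero, one_mul]
    have h3 : 1 - Real.exp (-∫ s in a..(J : ℝ), K * scal ⌊s⌋) * (1 + X) ≤ Real.log (ε / 4) := by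
      have h4 : Real.exp (-κ₀) * (1 + X)
          ≤ Real.exp (-∫ s in a..(J : ℝ), K * scal ⌊s⌋) * (1 + X) :=
        mul_le_mul_of_nonneg_right h1 (by linarith)
      have h5 := Real.exp_pos (-κ₀)
      have h6 := neg_abs_le (Real.log (ε / 4))
      nlinarith
    calc 4 * Real.exp (1 - Real.exp (-∫ s in a..(J : ℝ), K * scal ⌊s⌋) * (1 + X))
        ≤ 4 * Real.exp (Real.log (ε / 4)) := by
          apply mul_le_mul_of_nonneg_left _ (by norm_num)
          exact Real.exp_le_exp.mpr h3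
      _ = ε := by rw [Real.exp_log (by positivity)]; ring
  · obtain ⟨n, rfl⟩ : ∃ n, k = n + 1 := ⟨k - 1, by omega⟩
    have h1 := hN n (by omega)
    have h2 : C₁ / 2 ^ (n + 1) = C₁ * (1 / 2 : ℝ) ^ (n + 1) := by
      rw [one_div, inv_pow, div_eq_mul_inv]
    rw [h2] at hΔa
    have h3 : Δ a ≤ C₁ * (1 / 2 : ℝ) ^ (n + 1) := hΔa
    linarith

variable {V : Type u}

theorem Mi_measurable (G : SimpleGraph V) [G.LocallyFinite] (hG : G.Connected)
    (μ : Measure (V → Bool)) (k : ℕ) (t : ℝ) (v : V) : Measurable (Mi G hG μ k t v) := by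
  unfold Mi
  split_ifs with h
  · exact h.choose_spec.1
  · exact measurable_const

theorem Mi_abs_le (G : SimpleGraph V) [G.LocallyFinite] (hG : G.Connected)
    (μ : Measure (V → Bool)) (k : ℕ) (t : ℝ) (v : V) (ω : Om V) : |Mi G hG μ k t v ω| ≤ 1 := by
  unfold Mi
  split_ifs with h
  · exact h.choose_spec.2.1 ω
  · simp

theorem Mi_sub_sq_integrable (G : SimpleGraph V) [G.LocallyFinite] (hG : G.Connected)
    (μ μ' : Measure (V → Bool)) (k k' : ℕ) (t t' : ℝ) (v : V) :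
    Integrable (fun ω => (Mi G hG μ k t v ω - Mi G hG μ' k' t' v ω) ^ 2) (Pm V) := by
  refine Integrable.of_bound
    (((Mi_measurable G hG μ k t v).sub (Mi_measurable G hG μ' k' t' v)).pow_const
      2).aestronglyMeasurable 4 (Eventually.of_forall fun ω => ?_)
  have h1 := abs_le.mp (Mi_abs_le G hG μ k t v ω)
  have h2 := abs_le.mp (Mi_abs_le G hG μ' k' t' v ω)
  rw [Real.norm_eq_abs, abs_of_nonneg (sq_nonneg _)]
  nlinarith

theorem Mi_sq_integrable (G : SimpleGraph V) [G.LocallyFinite] (hG : G.Connected)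
    (μ : Measure (V → Bool)) (k : ℕ) (t : ℝ) (v : V) :
    Integrable (fun ω => (Mi G hG μ k t v ω) ^ 2) (Pm V) := by
  refine Integrable.of_bound
    ((Mi_measurable G hG μ k t v).pow_const 2).aestronglyMeasurable 1
    (Eventually.of_forall fun ω => ?_)
  have h1 := abs_le.mp (Mi_abs_le G hG μ k t v ω)
  rw [Real.norm_eq_abs, abs_of_nonneg (sq_nonneg _)]
  nlinarith

theorem Mi_sub_sq_bounds (G : SimpleGraph V) [G.LocallyFinite] (hG : G.Connected)
    (μ μ' : Measure (V → Bool)) (k k' : ℕ) (t t' : ℝ) (v : V) :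
    0 ≤ ∫ ω, (Mi G hG μ k t v ω - Mi G hG μ' k' t' v ω) ^ 2 ∂(Pm V) ∧
      ∫ ω, (Mi G hG μ k t v ω - Mi G hG μ' k' t' v ω) ^ 2 ∂(Pm V) ≤ 4 := by
  refine ⟨integral_nonneg fun ω => sq_nonneg _, ?_⟩
  calc ∫ ω, (Mi G hG μ k t v ω - Mi G hG μ' k' t' v ω) ^ 2 ∂(Pm V)
      ≤ ∫ _ω, (4 : ℝ) ∂(Pm V) := by
        refine integral_mono (Mi_sub_sq_integrable G hG μ μ' k k' t t' v) (integrable_const _) ?_
        intro ω
        have h1 := abs_le.mp (Mi_abs_le G hG μ k t v ω)
        have h2 := abs_le.mp (Mi_abs_le G hG μ' k' t' v ω)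
        simp only
        nlinarith
    _ = 4 := by simp

theorem Mi_sub_sq_le (G : SimpleGraph V) [G.LocallyFinite] (hG : G.Connected)
    (μ μ' : Measure (V → Bool)) (k k' : ℕ) (t t' : ℝ) (v : V) :
    ∫ ω, (Mi G hG μ k t v ω - Mi G hG μ' k' t' v ω) ^ 2 ∂(Pm V)
      ≤ 2 * ∫ ω, (Mi G hG μ k t v ω) ^ 2 ∂(Pm V)
        + 2 * ∫ ω, (Mi G hG μ' k' t' v ω) ^ 2 ∂(Pm V) := by
  rw [← integral_const_mul, ← integral_const_mul, ← integral_add
    ((Mi_sq_integrable G hG μ k t v).const_mul 2) ((Mi_sq_integrable G hG μ' k' t' v).const_mul 2)]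
  refine integral_mono (Mi_sub_sq_integrable G hG μ μ' k k' t t' v)
    (((Mi_sq_integrable G hG μ k t v).const_mul 2).add
      ((Mi_sq_integrable G hG μ' k' t' v).const_mul 2)) ?_
  intro ω
  simp only
  nlinarith [sq_nonneg (Mi G hG μ k t v ω + Mi G hG μ' k' t' v ω)]

theorem thk_lt {D : ℕ} (hD : 2 ≤ D) (k : ℕ) : thk D k ^ 2 * D < 1 := by
  have hDr : (0 : ℝ) < D := by
    have : (2 : ℝ) ≤ D := by exact_mod_cast hD
    linarith
  have h8 : (0 : ℝ) < 1 / 8 ^ k := by positivity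
  have h81 : (1 : ℝ) / 8 ^ k ≤ 1 := by
    rw [div_le_one (by positivity)]
    exact one_le_pow₀ (by norm_num)
  have e : thk D k ^ 2 * D = (1 - 1 / 8 ^ k) ^ 2 := by
    unfold thk
    rw [mul_pow, div_pow, Real.sq_sqrt hDr.le]
    field_simp
  rw [e]
  nlinarith

end Conv

open Conv in
theorem conv_proof (hD : DIFF.{u}) (hI : INIT.{u}) (hM : MON.{u}) (hL : LIMQ.{u}) :
    CONV.{u} := by
  intro D J hD2 V _ G _ hE μ hμ v ε hε
  obtain ⟨K, k₀, hK, hk₀, hdiff⟩ := hD D J hD2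
  obtain ⟨Ci, hCi, hinit⟩ := hI D J hD2
  obtain ⟨Cm, hCm, hmon⟩ := hM D J hD2
  obtain ⟨f, hf1, hf2, hf3, hf4⟩ := hmon V G hE μ hμ
  obtain ⟨N, hN⟩ := Conv.core J hCm hK f hf2 hf3 hf4 (8 * Ci) hε
  refine ⟨max N k₀, ?_⟩
  intro k l hk hkl
  have hkN : N ≤ k := (le_max_left _ _).trans hk
  have hkk : k₀ ≤ k := (le_max_right _ _).trans hk
  have hk1 : 1 ≤ k := hk₀.trans hkk
  have hl1 : 1 ≤ l := hk1.trans hkl
  set Δ : ℝ → ℝ := fun t => ∫ ω, (Mi G hE.tree.connected (μ k) k t v ω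
    - Mi G hE.tree.connected (μ l) l t v ω) ^ 2 ∂(Pm V) with hΔ
  have hres := hN k l hkN hkl Δ
    (hL V G D (thk D k) (thk D l) (μ k) (μ l) hE (hμ k) (hμ l) (thk_lt hD2 k) (thk_lt hD2 l)
      k l v).2.2.1
    (fun t => Mi_sub_sq_bounds G hE.tree.connected (μ k) (μ l) k l t t v) ?_ ?_
  · exact hres
  · have hj : (-(k : ℤ) + 1) ≤ (J : ℤ) := by omega
    have h1 := hinit V G hE k (μ k) hk1 (hμ k) (-(k : ℤ) + 1) (-(k : ℝ) + 1) v hj
      (by push_cast; exact le_rfl) (by push_cast; linarith)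
    have h2 := hinit V G hE l (μ l) hl1 (hμ l) (-(k : ℤ) + 1) (-(k : ℝ) + 1) v hj
      (by push_cast; exact le_rfl) (by push_cast; linarith)
    have h3 := Mi_sub_sq_le G hE.tree.connected (μ k) (μ l) k l (-(k : ℝ) + 1)
      (-(k : ℝ) + 1) v
    have hsc : scal (-(k : ℤ) + 1) = 2 / 2 ^ k := by
      unfold scal
      have : min (-(k : ℤ) + 1) 0 = -(k : ℤ) + 1 := min_eq_left (by omega)
      rw [this, zpow_add₀ (by norm_num), zpow_neg, zpow_natCast, zpow_one]
      field_simp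
    rw [hsc] at h1 h2
    have h4 : 8 * Ci / 2 ^ k = 4 * (Ci * (2 / 2 ^ k)) := by ring
    rw [h4]
    change ∫ ω, (Mi G hE.tree.connected (μ k) k (-(k : ℝ) + 1) v ω
      - Mi G hE.tree.connected (μ l) l (-(k : ℝ) + 1) v ω) ^ 2 ∂(Pm V) ≤ _
    linarith
  · intro t ht1 ht2
    exact hdiff V G hE μ hμ f hf1 hf2 k l v t hkk hkl ht1 ht2

end P161C
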