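import Vale.Agent.P161C.Mods

/-!
# P161 at the critical point: monotonicity in the convex order (module CVX)
-/

open MeasureTheory Set Filter Topology

namespace P161C

open P161

namespace Cvx

theorem opl_mem {x y : ℝ} (hx : x ∈ Ioo (-1 : ℝ) 1) (hy : y ∈ Ioo (-1 : ℝ) 1) :
    0 < 1 + x * y ∧ opl x y ∈ Ioo (-1 : ℝ) 1 := by
  have h1 : 0 < (1 - x) * (1 - y) := mul_pos (by linarith [hx.2]) (by linarith [hy.2])
  have h2 : 0 < (1 + x) * (1 + y) := mul_pos (by linarith [hx.1]) (by linarith [hy.1])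
  have h3 : 0 < 1 + x * y := by nlinarith
  refine ⟨h3, ?_, ?_⟩
  · unfold opl
    rw [lt_div_iff₀ h3]
    nlinarith
  · unfold opl
    rw [div_lt_iff₀ h3]
    nlinarith

theorem abs_mem {r x : ℝ} (hr : r < 1) (hx : |x| ≤ r) : x ∈ Ioo (-1 : ℝ) 1 := by
  rw [abs_le] at hx
  exact ⟨by linarith [hx.1], by linarith [hx.2]⟩

/-- the perspective transform keeps convexity -/
theorem persp_convex {φ : ℝ → ℝ} (hφ : ConvexOn ℝ (Ioo (-1) 1) φ) {x : ℝ}
    (hx : x ∈ Ioo (-1 : ℝ) 1) :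
    ConvexOn ℝ (Ioo (-1) 1) (fun y => (1 + x * y) * φ (opl x y)) := by
  refine ⟨convex_Ioo _ _, ?_⟩
  intro y₁ hy₁ y₂ hy₂ a b ha hb hab
  obtain ⟨p1, m1⟩ := opl_mem hx hy₁
  obtain ⟨p2, m2⟩ := opl_mem hx hy₂
  simp only [smul_eq_mul]
  have hv : 1 + x * (a * y₁ + b * y₂) = a * (1 + x * y₁) + b * (1 + x * y₂) := by
    have : a * (1 + x * y₁) + b * (1 + x * y₂) = (a + b) + x * (a * y₁ + b * y₂) := by ring
    rw [this, hab]
  have hvpos : 0 < a * (1 + x * y₁) + b * (1 + x * y₂) := by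
    rcases ha.eq_or_lt with h | h
    · rw [← h] at hab
      rw [← h]
      have : b = 1 := by linarith
      rw [this]; linarith
    · have := mul_pos h p1
      have := mul_nonneg hb p2.le
      linarith
  set v := a * (1 + x * y₁) + b * (1 + x * y₂) with hvdef
  have w1 : 0 ≤ a * (1 + x * y₁) / v := by positivity
  have w2 : 0 ≤ b * (1 + x * y₂) / v := by positivity
  have key := hφ.2 m1 m2 w1 w2 (by rw [← add_div, ← hvdef, div_self hvpos.ne'])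
  simp only [smul_eq_mul] at key
  have e : a * (1 + x * y₁) / v * opl x y₁ + b * (1 + x * y₂) / v * opl x y₂
      = opl x (a * y₁ + b * y₂) := by
    unfold opl
    rw [hv]
    have h1 : (1 + x * y₁) ≠ 0 := p1.ne'
    have h2 : (1 + x * y₂) ≠ 0 := p2.ne'
    have h3 : v ≠ 0 := hvpos.ne'
    have h4 : x + (a * y₁ + b * y₂) = a * (x + y₁) + b * (x + y₂) := by
      have : a * (x + y₁) + b * (x + y₂) = (a + b) * x + (a * y₁ + b * y₂) := by ring
      rw [this, hab, one_mul]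
    rw [h4]
    field_simp
  rw [e] at key
  rw [hv]
  calc v * φ (opl x (a * y₁ + b * y₂))
      ≤ v * (a * (1 + x * y₁) / v * φ (opl x y₁) + b * (1 + x * y₂) / v * φ (opl x y₂)) :=
        mul_le_mul_of_nonneg_left key hvpos.le
    _ = a * ((1 + x * y₁) * φ (opl x y₁)) + b * ((1 + x * y₂) * φ (opl x y₂)) := by
        field_simp

theorem opl_cont2 : ContinuousOn (fun p : ℝ × ℝ => opl p.1 p.2)
    (Ioo (-1 : ℝ) 1 ×ˢ Ioo (-1 : ℝ) 1) := by
  unfold opl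
  refine ContinuousOn.div (by fun_prop) (by fun_prop) ?_
  rintro ⟨x, y⟩ ⟨hx, hy⟩
  exact (opl_mem hx hy).1.ne'

theorem persp_cont2 {φ : ℝ → ℝ} (hφ : ContinuousOn φ (Ioo (-1) 1)) :
    ContinuousOn (fun p : ℝ × ℝ => (1 + p.1 * p.2) * φ (opl p.1 p.2))
      (Ioo (-1 : ℝ) 1 ×ˢ Ioo (-1 : ℝ) 1) := by
  refine ContinuousOn.mul (by fun_prop) ?_
  refine hφ.comp opl_cont2 ?_
  rintro ⟨x, y⟩ ⟨hx, hy⟩
  exact (opl_mem hx hy).2

theorem persp_cont {φ : ℝ → ℝ} (hφ : ContinuousOn φ (Ioo (-1) 1)) {x : ℝ}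
    (hx : x ∈ Ioo (-1 : ℝ) 1) :
    ContinuousOn (fun y => (1 + x * y) * φ (opl x y)) (Ioo (-1) 1) := by
  have h : ContinuousOn (fun y : ℝ => ((x, y) : ℝ × ℝ)) (Ioo (-1 : ℝ) 1) := by fun_prop
  exact (persp_cont2 hφ).comp h (fun y hy => ⟨hx, hy⟩)

theorem int2 {r : ℝ} {L L' : Measure ℝ} (hr : r < 1) (hL : Sym r L) (hL' : Sym r L')
    {Φ : ℝ × ℝ → ℝ} (hΦ : ContinuousOn Φ (Ioo (-1 : ℝ) 1 ×ˢ Ioo (-1 : ℝ) 1)) :
    Integrable Φ (L.prod L') := by
  have := hL.prob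
  have := hL'.prob
  have hK : IsCompact (Icc (-r) r ×ˢ Icc (-r) r) := isCompact_Icc.prod isCompact_Icc
  have hsub : Icc (-r) r ×ˢ Icc (-r) r ⊆ Ioo (-1 : ℝ) 1 ×ˢ Ioo (-1 : ℝ) 1 := by
    rintro ⟨x, y⟩ ⟨⟨a1, a2⟩, ⟨b1, b2⟩⟩
    simp only at a1 a2 b1 b2
    exact ⟨⟨by simp only; linarith, by simp only; linarith⟩,
      ⟨by simp only; linarith, by simp only; linarith⟩⟩
  have h1 : IntegrableOn Φ (Icc (-r) r ×ˢ Icc (-r) r) (L.prod L') :=
    (hΦ.mono hsub).integrableOn_compact hK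
  have hae : ∀ᵐ p ∂(L.prod L'), p ∈ Icc (-r) r ×ˢ Icc (-r) r := by
    have a1 : ∀ᵐ p ∂(L.prod L'), |p.1| ≤ r :=
      Measure.quasiMeasurePreserving_fst.ae hL.supp
    have a2 : ∀ᵐ p ∂(L.prod L'), |p.2| ≤ r :=
      Measure.quasiMeasurePreserving_snd.ae hL'.supp
    filter_upwards [a1, a2] with p h1 h2
    exact ⟨abs_le.mp h1, abs_le.mp h2⟩
  rw [IntegrableOn, Measure.restrict_eq_self_of_ae_mem hae] at h1
  exact h1

theorem int_neg {r : ℝ} {L : Measure ℝ} (hL : Sym r L) {φ : ℝ → ℝ}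
    (hφ : Integrable φ L) : Integrable (fun x => φ (-x)) L ∧ ∫ x, φ (-x) ∂L = ∫ x, φ x ∂L := by
  have h0 : Integrable φ (L.map fun x => -x) := by rw [hL.symm]; exact hφ
  have h1 := (integrable_map_measure h0.aestronglyMeasurable measurable_neg.aemeasurable).mp h0
  refine ⟨h1, ?_⟩
  have h2 := integral_map (μ := L) measurable_neg.aemeasurable h0.aestronglyMeasurable
  rw [← h2, hL.symm]

theorem comb_right (hB : LAWB) {r : ℝ} {L M M' : Measure ℝ} (hr0 : 0 ≤ r) (hr : r < 1)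
    (hL : Sym r L) (hM : Sym r M) (hM' : Sym r M') (h : Cx M M') :
    Cx (comb L M) (comb L M') := by
  intro φ hc hv
  have := hL.prob
  have := hM.prob
  have := hM'.prob
  rw [hB.int_comb r L M hr0 hr hL hM φ hc, hB.int_comb r L M' hr0 hr hL hM' φ hc]
  refine integral_mono_ae ?_ ?_ ?_
  · exact (int2 hr hL hM (persp_cont2 hc)).integral_prod_left
  · exact (int2 hr hL hM' (persp_cont2 hc)).integral_prod_left
  · filter_upwards [hL.supp] with x hx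
    exact h _ (persp_cont hc (abs_mem hr hx)) (persp_convex hv (abs_mem hr hx))

theorem c_comb (hB : LAWB) (r : ℝ) (L₁ L₂ L₁' L₂' : Measure ℝ) (hr0 : 0 ≤ r) (hr : r < 1)
    (h1 : Sym r L₁) (h2 : Sym r L₂) (h1' : Sym r L₁') (h2' : Sym r L₂') (c1 : Cx L₁ L₁')
    (c2 : Cx L₂ L₂') : Cx (comb L₁ L₂) (comb L₁' L₂') := by
  intro φ hc hv
  refine (comb_right hB hr0 hr h1 h2 h2' c2 φ hc hv).trans ?_
  rw [hB.comm r L₁ L₂' hr0 hr h1 h2', hB.comm r L₁' L₂' hr0 hr h1' h2']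
  exact comb_right hB hr0 hr h2' h1 h1' c1 φ hc hv

theorem sym_pos {φ : ℝ → ℝ} (hv : ConvexOn ℝ (Ioo (-1) 1) φ) {s t : ℝ} (h : |s| ≤ t)
    (ht : t < 1) : φ s + φ (-s) ≤ φ t + φ (-t) := by
  have hst := abs_le.mp h
  have ht0 : 0 ≤ t := (abs_nonneg s).trans h
  rcases ht0.eq_or_lt with h0 | h0
  · have : s = 0 := by
      rw [← h0] at h
      exact abs_nonpos_iff.mp h
    rw [this, ← h0]
  · have mt : t ∈ Ioo (-1 : ℝ) 1 := ⟨by linarith, ht⟩
    have mt' : -t ∈ Ioo (-1 : ℝ) 1 := ⟨by linarith, by linarith⟩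
    have w1 : 0 ≤ (t + s) / (2 * t) := div_nonneg (by linarith) (by linarith)
    have w2 : 0 ≤ (t - s) / (2 * t) := div_nonneg (by linarith) (by linarith)
    have a1 := hv.2 mt mt' w1 w2 (by field_simp; ring)
    have a2 := hv.2 mt mt' w2 w1 (by field_simp; ring)
    simp only [smul_eq_mul] at a1 a2
    have e1 : (t + s) / (2 * t) * t + (t - s) / (2 * t) * -t = s := by field_simp; ring
    have e2 : (t - s) / (2 * t) * t + (t + s) / (2 * t) * -t = -s := by field_simp; ring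
    rw [e1] at a1
    rw [e2] at a2
    have e3 : (t + s) / (2 * t) * φ t + (t - s) / (2 * t) * φ (-t)
        + ((t - s) / (2 * t) * φ t + (t + s) / (2 * t) * φ (-t)) = φ t + φ (-t) := by
      field_simp; ring
    linarith

theorem sym_abs {φ : ℝ → ℝ} (hv : ConvexOn ℝ (Ioo (-1) 1) φ) {s t : ℝ} (h : |s| ≤ |t|)
    (ht : |t| < 1) : φ s + φ (-s) ≤ φ t + φ (-t) := by
  have := sym_pos hv h ht
  rcases abs_choice t with h' | h'
  · rw [h'] at this; exact this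
  · rw [h', neg_neg] at this; linarith

theorem sym_scl (hB : LAWB) {r θ : ℝ} {L : Measure ℝ} (hr0 : 0 ≤ r) (h0 : 0 ≤ θ) (h1 : θ ≤ 1)
    (hL : Sym r L) : Sym r (scl θ L) := by
  refine hB.s_mono (θ * r) r _ ?_ (hB.s_scl θ r L h0 hL)
  nlinarith

theorem int_scl (hB : LAWB) {r θ : ℝ} {L : Measure ℝ} (hr0 : 0 ≤ r) (hr : r < 1) (h0 : 0 ≤ θ)
    (h1 : θ ≤ 1) (hL : Sym r L) {φ : ℝ → ℝ} (hc : ContinuousOn φ (Ioo (-1) 1)) :
    ∫ x, φ x ∂(scl θ L) = ∫ x, φ (θ * x) ∂L ∧ Integrable (fun x => φ (θ * x)) L := by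
  have hI := hB.int_cont r (scl θ L) hr (sym_scl hB hr0 h0 h1 hL) φ hc
  have hm : AEMeasurable (fun x : ℝ => θ * x) L := (measurable_const_mul θ).aemeasurable
  exact ⟨integral_map hm hI.aestronglyMeasurable,
    (integrable_map_measure hI.aestronglyMeasurable hm).mp hI⟩

theorem scl_theta (hB : LAWB) {r θ θ' : ℝ} {L : Measure ℝ} (hr0 : 0 ≤ r) (hr : r < 1)
    (h0 : 0 ≤ θ) (h : θ ≤ θ') (h1 : θ' ≤ 1) (hL : Sym r L) : Cx (scl θ L) (scl θ' L) := by
  intro φ hc hv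
  obtain ⟨e1, i1⟩ := int_scl hB hr0 hr h0 (h.trans h1) hL hc
  obtain ⟨e2, i2⟩ := int_scl hB hr0 hr (h0.trans h) h1 hL hc
  rw [e1, e2]
  obtain ⟨j1, f1⟩ := int_neg hL i1
  obtain ⟨j2, f2⟩ := int_neg hL i2
  have key : ∫ x, (φ (θ * x) + φ (θ * -x)) ∂L ≤ ∫ x, (φ (θ' * x) + φ (θ' * -x)) ∂L := by
    refine integral_mono_ae (i1.add j1) (i2.add j2) ?_
    filter_upwards [hL.supp] with x hx
    have hx1 : |x| ≤ 1 := hx.trans hr.le
    have hθ' : 0 ≤ θ' := h0.trans h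
    have b1 : |θ * x| ≤ |θ' * x| := by
      rw [abs_mul, abs_mul, abs_of_nonneg h0, abs_of_nonneg hθ']
      exact mul_le_mul_of_nonneg_right h (abs_nonneg _)
    have b2 : |θ' * x| < 1 := by
      rw [abs_mul, abs_of_nonneg hθ']
      calc θ' * |x| ≤ 1 * |x| := mul_le_mul_of_nonneg_right h1 (abs_nonneg _)
        _ = |x| := one_mul _
        _ ≤ r := hx
        _ < 1 := hr
    have := sym_abs hv b1 b2
    rw [← mul_neg, ← mul_neg] at this
    exact this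
  rw [integral_add i1 j1, integral_add i2 j2, f1, f2] at key
  linarith

theorem scl_law (hB : LAWB) {r θ : ℝ} {L L' : Measure ℝ} (hr0 : 0 ≤ r) (hr : r < 1)
    (h0 : 0 ≤ θ) (h1 : θ ≤ 1) (hL : Sym r L) (hL' : Sym r L') (h : Cx L L') :
    Cx (scl θ L) (scl θ L') := by
  intro φ hc hv
  rw [(int_scl hB hr0 hr h0 h1 hL hc).1, (int_scl hB hr0 hr h0 h1 hL' hc).1]
  have hmaps : MapsTo (fun x : ℝ => θ * x) (Ioo (-1) 1) (Ioo (-1) 1) := by
    intro x hx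
    have hx' : |x| < 1 := abs_lt.mpr hx
    have : |θ * x| < 1 := by
      rw [abs_mul, abs_of_nonneg h0]
      calc θ * |x| ≤ 1 * |x| := mul_le_mul_of_nonneg_right h1 (abs_nonneg _)
        _ < 1 := by rw [one_mul]; exact hx'
    exact abs_lt.mp this
  refine h _ (hc.comp (by fun_prop) hmaps) ⟨convex_Ioo _ _, ?_⟩
  intro x hx y hy a b ha hb hab
  have := hv.2 (hmaps hx) (hmaps hy) ha hb hab
  simp only [smul_eq_mul] at this ⊢
  rw [show θ * (a * x + b * y) = a * (θ * x) + b * (θ * y) by ring]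
  exact this

theorem c_scl (hB : LAWB) (r θ θ' : ℝ) (L L' : Measure ℝ) (hr0 : 0 ≤ r) (hr : r < 1)
    (h0 : 0 ≤ θ) (h : θ ≤ θ') (h1 : θ' ≤ 1) (hL : Sym r L) (hL' : Sym r L') (hc : Cx L L') :
    Cx (scl θ L) (scl θ' L') := fun φ a b =>
  (scl_law hB hr0 hr h0 (h.trans h1) hL hL' hc φ a b).trans
    (scl_theta hB hr0 hr h0 h h1 hL' φ a b)

theorem c_dirac (hB : LAWB) (r : ℝ) (L : Measure ℝ) (hr : r < 1) (hL : Sym r L) :
    Cx (Measure.dirac 0) L := by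
  intro φ hc hv
  have := hL.prob
  have i1 := hB.int_cont r L hr hL φ hc
  obtain ⟨j1, f1⟩ := int_neg hL i1
  rw [integral_dirac]
  have key : ∫ _x, (φ 0 + φ 0) ∂L ≤ ∫ x, (φ x + φ (-x)) ∂L := by
    refine integral_mono_ae (integrable_const _) (i1.add j1) ?_
    filter_upwards [hL.supp] with x hx
    have := sym_abs hv (s := 0) (t := x) (by simp) (lt_of_le_of_lt hx hr)
    rw [neg_zero] at this
    exact this
  rw [integral_add i1 j1, f1, integral_const] at key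
  rw [probReal_univ, one_smul] at key
  linarith

theorem Cx_refl (L : Measure ℝ) : Cx L L := fun _ _ _ => le_refl _

theorem Cx_trans {L L' L'' : Measure ℝ} (h : Cx L L') (h' : Cx L' L'') : Cx L L'' :=
  fun φ a b => (h φ a b).trans (h' φ a b)

theorem c_combN (hB : LAWB) {r : ℝ} {L L' : Measure ℝ} (hr0 : 0 ≤ r) (hr : r < 1)
    (hL : Sym r L) (hL' : Sym r L') (h : Cx L L') : ∀ n, Cx (combN L n) (combN L' n) := by
  intro n
  induction n with
  | zero => exact Cx_refl _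
  | succ n ih =>
    obtain ⟨r', a1, a2, a3⟩ := hB.s_combN r n hr0 hr
    have m1 : r ≤ max r r' := le_max_left _ _
    have m2 : r' ≤ max r r' := le_max_right _ _
    exact c_comb hB (max r r') _ _ _ _ (hr0.trans m1) (max_lt hr a2)
      (hB.s_mono _ _ _ m1 hL) (hB.s_mono _ _ _ m2 (a3 L hL)) (hB.s_mono _ _ _ m1 hL')
      (hB.s_mono _ _ _ m2 (a3 L' hL')) h ih

theorem th_le_one {D : ℕ} {θ : ℝ} (hD : 2 ≤ D) (h : θ ^ 2 * D ≤ 1) : θ ≤ 1 := by
  have hD' : (2 : ℝ) ≤ D := by exact_mod_cast hD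
  by_contra hcon
  rw [not_le] at hcon
  nlinarith

/-- one step of the recursion is monotone -/
theorem step_mono (hB : LAWB) {D : ℕ} {r θ θ' : ℝ} {S S' L L' : Measure ℝ} (hr0 : 0 ≤ r)
    (hr : r < 1) (h0 : 0 ≤ θ) (h : θ ≤ θ') (h1 : θ' ≤ 1) (hS : Sym r S) (hS' : Sym r S')
    (hL : Sym r L) (hL' : Sym r L') (hc : Cx S S') (hcL : Cx L L') :
    Cx (comb S (combN (scl θ L) D)) (comb S' (combN (scl θ' L') D)) := by
  obtain ⟨r', a1, a2, a3⟩ := hB.s_combN r D hr0 hr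
  have m1 : r ≤ max r r' := le_max_left _ _
  have m2 : r' ≤ max r r' := le_max_right _ _
  have s1 := sym_scl hB hr0 h0 (h.trans h1) hL
  have s2 := sym_scl hB hr0 (h0.trans h) h1 hL'
  exact c_comb hB (max r r') _ _ _ _ (hr0.trans m1) (max_lt hr a2)
    (hB.s_mono _ _ _ m1 hS) (hB.s_mono _ _ _ m2 (a3 _ s1)) (hB.s_mono _ _ _ m1 hS')
    (hB.s_mono _ _ _ m2 (a3 _ s2)) hc
    (c_combN hB hr0 hr s1 s2 (c_scl hB r θ θ' L L' hr0 hr h0 h h1 hL hL' hcL) D)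

theorem c_lawR (hB : LAWB) (D : ℕ) (r θ θ' : ℝ) (S S' : Measure ℝ) (hD : 2 ≤ D) (hr0 : 0 ≤ r)
    (hr : r < 1) (h0 : 0 ≤ θ) (h : θ ≤ θ') (hθ : θ' ^ 2 * D ≤ 1) (hS : Sym r S)
    (hS' : Sym r S') (hc : Cx S S') : ∀ n,
      Cx (lawR θ D S n) (lawR θ' D S' n) ∧ Cx (lawR θ D S n) (lawR θ D S (n + 1)) ∧
      Cx S (lawR θ D S (n + 1)) := by
  have h1 : θ' ≤ 1 := th_le_one hD hθ
  have hDR : (0 : ℝ) ≤ D := Nat.cast_nonneg _
  have hθ1 : θ ^ 2 * D ≤ 1 := by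
    refine le_trans ?_ hθ
    refine mul_le_mul_of_nonneg_right ?_ hDR
    exact pow_le_pow_left₀ h0 h 2
  obtain ⟨R, b1, b2, b3⟩ := hB.s_lawR D r hD hr0 hr
  have m1 : r ≤ max r R := le_max_left _ _
  have m2 : R ≤ max r R := le_max_right _ _
  have q0 : 0 ≤ max r R := hr0.trans m1
  have q1 : max r R < 1 := max_lt hr b2
  have tS := hB.s_mono _ _ _ m1 hS
  have tS' := hB.s_mono _ _ _ m1 hS'
  have tL : ∀ n, Sym (max r R) (lawR θ D S n) := fun n =>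
    hB.s_mono _ _ _ m2 (b3 θ S n h0 hθ1 hS)
  have tL' : ∀ n, Sym (max r R) (lawR θ' D S' n) := fun n =>
    hB.s_mono _ _ _ m2 (b3 θ' S' n (h0.trans h) hθ hS')
  have A : ∀ n, Cx (lawR θ D S n) (lawR θ' D S' n) := by
    intro n
    induction n with
    | zero => exact Cx_refl _
    | succ n ih => exact step_mono hB q0 q1 h0 h h1 tS tS' (tL n) (tL' n) hc ih
  have B : ∀ n, Cx (lawR θ D S n) (lawR θ D S (n + 1)) := by
    intro n
    induction n with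
    | zero => exact c_dirac hB _ _ q1 (tL 1)
    | succ n ih =>
      exact step_mono hB q0 q1 h0 (le_refl θ) (h.trans h1) tS tS (tL n) (tL (n + 1))
        (Cx_refl _) ih
  refine fun n => ⟨A n, B n, ?_⟩
  obtain ⟨r', a1, a2, a3⟩ := hB.s_combN (max r R) D q0 q1
  have n1 : max r R ≤ max (max r R) r' := le_max_left _ _
  have n2 : r' ≤ max (max r R) r' := le_max_right _ _
  have p0 : 0 ≤ max (max r R) r' := q0.trans n1
  have p1 : max (max r R) r' < 1 := max_lt q1 a2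
  have uS := hB.s_mono _ _ _ n1 tS
  have uN := hB.s_mono _ _ _ n2 (a3 _ (sym_scl hB q0 h0 (h.trans h1) (tL n)))
  have uD := hB.s_dirac (max (max r R) r') p0
  have e : S = comb S (Measure.dirac 0) := by
    rw [hB.comm _ S (Measure.dirac 0) p0 p1 uS uD, hB.dirac_comb _ S p1 uS]
  have key : Cx (comb S (Measure.dirac 0)) (comb S (combN (scl θ (lawR θ D S n)) D)) :=
    c_comb hB _ _ _ _ _ p0 p1 uS uD uS uN (Cx_refl _) (c_dirac hB _ _ p1 uN)
  rw [← e] at key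
  exact key

end Cvx

theorem cvx_proof (hB : LAWB) : CVX where
  c_comb := Cvx.c_comb hB
  c_scl := Cvx.c_scl hB
  c_dirac := Cvx.c_dirac hB
  c_lawR := Cvx.c_lawR hB

end P161C
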