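import Vale.Agent.P161C.Mods
import Vale.Agent.P161C.Col

/-!
# HOM: a regular tree is distance transitive
-/

namespace P161C

open P161

universe u

theorem hom_proof : HOM.{u} := by
  intro V G _ d hG hreg v w v' w' h
  exact exists_aut_of_dist_eq hG hreg v v' _ w w' h rfl

end P161C
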