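import Vale.Agent.P161C.PiL2
import Vale.Agent.P161C.Cone
import Vale.Agent.P161C.Hom

/-!
# DEC: decorrelation of factors of i.i.d. along a geodesic
-/

open MeasureTheory Set Filter Topology ProbabilityTheory
open scoped ENNReal

namespace P161C

open P161

universe u

variable {V : Type u} {G : SimpleGraph V}

theorem mp_shift (g : G ≃g G) :
    MeasurePreserving (shift g : (V → unitInterval) → (V → unitInterval))
      (labelLaw V) (labelLaw V) := by
  refine ⟨?_, ?_⟩
  · unfold shift
    fun_prop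
  · unfold labelLaw shift
    exact Measure.map_infinitePi_infinitePi_of_inj
      (P := fun _ : V => (volume : Measure unitInterval)) g.symm.injective

theorem shift_symm_shift (g : G ≃g G) (ω : V → unitInterval) : shift g (shift g.symm ω) = ω := by
  funext v
  simp [shift]

theorem comap_shift (g : G ≃g G) (A : Set V) :
    sg' V A = MeasurableSpace.comap (shift g) (sg' V (g '' A)) := by
  unfold sg'
  rw [iSup_image]
  simp only [MeasurableSpace.comap_iSup, MeasurableSpace.comap_comp]
  refine iSup_congr fun v => iSup_congr fun _ => ?_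
  congr 1
  funext ω
  simp [shift]

/-- the action on `L²` -/
noncomputable def TT (g : G ≃g G) : HH V →ₗᵢ[ℝ] HH V :=
  Lp.compMeasurePreservingₗᵢ ℝ (shift g) (mp_shift g)

theorem TT_coe (g : G ≃g G) (f : HH V) :
    (TT g f : (V → unitInterval) → ℝ) =ᵐ[labelLaw V] (f : (V → unitInterval) → ℝ) ∘ shift g :=
  Lp.coeFn_compMeasurePreserving f (mp_shift g)

theorem TT_setInt (g : G ≃g G) (f : HH V) {s : Set (V → unitInterval)} (hs : MeasurableSet s) :
    ∫ x in shift g ⁻¹' s, (TT g f : (V → unitInterval) → ℝ) x ∂(labelLaw V)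
      = ∫ x in s, (f : (V → unitInterval) → ℝ) x ∂(labelLaw V) := by
  rw [integral_congr_ae (ae_restrict_of_ae (TT_coe g f))]
  have hmp := (mp_shift g).restrict_preimage hs
  have hf : AEStronglyMeasurable (f : (V → unitInterval) → ℝ) ((labelLaw V).restrict s) :=
    (Lp.aestronglyMeasurable f).restrict
  rw [← hmp.map_eq] at hf
  have := integral_map hmp.measurable.aemeasurable hf
  rw [hmp.map_eq] at this
  rw [this]
  rfl

open Classical in
theorem TT_PE (g : G ≃g G) (A : Finset V) (f : HH V) :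
    TT g (PE V (A.map g.toEquiv.toEmbedding) f) = PE V A (TT g f) := by
  symm
  have hA : ((A.map g.toEquiv.toEmbedding : Finset V) : Set V) = g '' (A : Set V) := by
    rw [Finset.coe_map]; rfl
  have hcom := comap_shift g (A : Set V)
  refine PE_eq ?_ ?_
  · obtain ⟨r, hr1, hr2⟩ := PE_mem (A.map g.toEquiv.toEmbedding) f
    rw [hA] at hr1
    refine ⟨r ∘ shift g, ?_, ?_⟩
    · rw [hcom]
      exact hr1.comp_measurable (comap_measurable _)
    · exact (TT_coe g _).trans ((mp_shift g).quasiMeasurePreserving.ae_eq_comp hr2)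
  · intro s hs
    rw [hcom] at hs
    obtain ⟨t, ht, rfl⟩ := hs
    have ht0 : MeasurableSet t := sg'_le _ t ht
    rw [TT_setInt g _ ht0, TT_setInt g _ ht0]
    rw [← hA] at ht
    exact PE_int _ f ht

open Classical in
theorem TT_Q (g : G ≃g G) (S : Finset V) (f : HH V) :
    TT g (Hoef.Q (fun A => PE V A) (S.map g.toEquiv.toEmbedding) f)
      = Hoef.Q (fun A => PE V A) S (TT g f) := by
  unfold Hoef.Q Hoef.alt
  rw [map_sum, Finset.card_map]
  symm
  refine Finset.sum_bij (fun A _ => A.map g.toEquiv.toEmbedding) ?_ ?_ ?_ ?_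
  · intro A hA
    rw [Finset.mem_powerset] at hA ⊢
    exact Finset.map_subset_map.2 hA
  · intro A _ B _ h
    exact Finset.map_injective _ h
  · intro B hB
    rw [Finset.mem_powerset] at hB
    refine ⟨B.map g.toEquiv.symm.toEmbedding, ?_, ?_⟩
    · rw [Finset.mem_powerset]
      intro x hx
      rw [Finset.mem_map] at hx
      obtain ⟨y, hy, rfl⟩ := hx
      obtain ⟨z, hz, hzy⟩ := Finset.mem_map.1 (hB hy)
      have : g.toEquiv.symm.toEmbedding y = z := by
        rw [← hzy]
        exact g.toEquiv.symm_apply_apply z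
      rw [this]; exact hz
    · ext x
      simp only [Finset.mem_map, Equiv.coe_toEmbedding]
      constructor
      · rintro ⟨a, ⟨b, hb, rfl⟩, rfl⟩
        simpa using hb
      · intro hx
        exact ⟨g.toEquiv.symm x, ⟨x, hx, rfl⟩, by simp⟩
  · intro A _
    rw [map_smul, TT_PE, Finset.card_map]

open Classical in
theorem wt_map (g : G ≃g G) (R : Set V) (S : Finset V) :
    Hoef.wt (g '' R) (S.map g.toEquiv.toEmbedding) = Hoef.wt R S := by
  unfold Hoef.wt
  rw [Finset.card_map]
  congr 2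
  rw [Finset.filter_map, Finset.card_map]
  congr 1
  ext x
  simp only [Finset.mem_filter, Function.comp_apply, Equiv.coe_toEmbedding]
  refine and_congr_right fun _ => ?_
  constructor
  · rintro ⟨y, hy, hyx⟩
    have : y = x := g.injective hyx
    rw [← this]; exact hy
  · intro h
    exact ⟨x, h, rfl⟩

open Classical in
theorem mass_map (g : G ≃g G) (R : Set V) (f : HH V) :
    Hoef.mass (fun A => PE V A) f (g '' R) = Hoef.mass (fun A => PE V A) (TT g f) R := by
  unfold Hoef.mass
  rw [← (Equiv.finsetCongr g.toEquiv).tsum_eq]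
  refine tsum_congr fun S => ?_
  rw [Equiv.finsetCongr_apply, wt_map, ← TT_Q, LinearIsometry.norm_map]

/-- decorrelation for one uniform label per vertex -/
theorem dec_label [G.LocallyFinite] {D : ℕ} (hE : Env G D) (F : V → V → HH V)
    (hF : ∀ (g : G ≃g G) a b, G.Adj a b → TT g (F (g a) (g b)) = F a b)
    (h0 : ∀ a b, G.Adj a b → ∫ x, (F a b : (V → unitInterval) → ℝ) x ∂(labelLaw V) = 0)
    {a b a' b' : V} (hab : G.Adj a b) (hab' : G.Adj a' b') {k : ℕ} (h1 : G.dist a a' = k)
    (h2 : G.dist b b' = k) (h3 : G.dist a b' = k + 1) :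
    |inner ℝ (F a b) (F a' b')| ≤ (k + 1) * (√D * (1 / √D) ^ k) * ‖F a b‖ ^ 2 := by
  classical
  have hG := hE.tree
  obtain ⟨x, hx0, hxn, hx⟩ := exists_geod hG.connected a b'
  rw [h3] at hxn hx
  have hadj0 : G.Adj (x 0) (x 1) := hx.adj (by omega)
  have hadjk : G.Adj (x k) (x (k + 1)) := hx.adj (by omega)
  -- x 1 = b
  have hb : x 1 = b := by
    refine next_unique hG (a := a) (y := b') (by rw [← hx0]; exact hadj0) hab ?_ ?_
    · rw [h3, ← hxn, hx.dist 1 (k + 1) (by omega) le_rfl]
      omega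
    · rw [h2, h3]
  -- x k = a'
  have ha' : x k = a' := by
    have s1 : G.dist (x k) a = G.dist a (x k) := SimpleGraph.dist_comm
    have s2 : G.dist b' a = G.dist a b' := SimpleGraph.dist_comm
    have s3 : G.dist a' a = G.dist a a' := SimpleGraph.dist_comm
    refine next_unique hG (a := b') (y := a) (by rw [← hxn]; exact hadjk.symm) hab'.symm ?_ ?_
    · rw [s1, s2, h3, ← hx0, hx.dist 0 k (by omega) (by omega)]
      omega
    · rw [s3, s2, h1, h3]
  have hPF := pf_PE V
  set M : Set V → ℝ := Hoef.mass (fun A => PE V A) (F a b) with hM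
  set M' : Set V → ℝ := Hoef.mass (fun A => PE V A) (F a' b') with hM'
  have hmass : ∀ (c d : V), G.Adj c d → ∀ z₀ z₁ : V, (∀ g : G ≃g G, g z₀ = z₀ → g z₁ = z₁ →
      g c = c ∧ g d = d) → MassFn G z₀ z₁ (Hoef.mass (fun A => PE V A) (F c d)) := by
    intro c d hcd z₀ z₁ hz
    refine ⟨fun R => Hoef.mass_nonneg _ _, fun R R' h => hPF.mass_mono _ h,
      fun I R T hd hT => hPF.mass_biUnion _ I R hd hT, fun g hg0 hg1 R => ?_⟩
    obtain ⟨e1, e2⟩ := hz g hg0 hg1
    rw [mass_map]
    have := hF g c d hcd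
    rw [e1, e2] at this
    rw [this]
  have hMf : MassFn G (x 0) (x 1) M := hmass a b hab _ _ (fun g e1 e2 => by
    rw [hx0] at e1; rw [hb] at e2; exact ⟨e1, e2⟩)
  have hMf' : MassFn G (x (k + 1)) (x k) M' := hmass a' b' hab' _ _ (fun g e1 e2 => by
    rw [hxn] at e1; rw [ha'] at e2; exact ⟨e2, e1⟩)
  -- transport from (a, b) to (a', b')
  obtain ⟨g, hga, hgb⟩ := exists_aut_of_dist_eq hG hE.reg a a' 1 b b'
    (SimpleGraph.dist_eq_one_iff_adj.2 hab) (SimpleGraph.dist_eq_one_iff_adj.2 hab')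
  have htr : ∀ R : Set V, M' (g '' R) = M R := by
    intro R
    rw [hM', mass_map, hM]
    have := hF g a b hab
    rw [hga, hgb] at this
    rw [this]
  have hh : M' (Cone G (x k) (x (k + 1))) = M (Cone G (x 0) (x 1)) := by
    rw [← htr, cone_image hG.connected, hx0, hb, hga, hgb, ha', hxn]
  have ht : M' (Cone G (x (k + 1)) (x k)) = M (Cone G (x 1) (x 0)) := by
    rw [← htr, cone_image hG.connected, hx0, hb, hga, hgb, ha', hxn]
  have hN : M (Cone G (x 0) (x 1)) + M (Cone G (x 1) (x 0)) ≤ ‖F a b‖ ^ 2 :=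
    (hPF.mass_union _ cone_disj).trans (hPF.mass_le _ _)
  have hmain := hPF.abs_inner_le (F a b) (F a' b') (PE_empty _ (h0 a b hab))
    (fun ε hε => PE_dense _ hε) (Finset.range (k + 2)) (Reg G x k)
    (fun y => exists_reg hG hx y)
  exact hmain.trans (sum_reg_le hG (by have := hE.hD; omega) hE.reg hx hMf hMf' hh ht hN)

theorem dec_proof (hS : SHP.{u}) : DEC.{u} := by
  intro V _ G _ D hE f hf2 hf0 hfe a b a' b' hab hab' k h1 h2 h3
  obtain ⟨-, -, Fm, hFm, hFlaw, hFeq⟩ := hS V G
  have hmp : MeasurePreserving Fm (labelLaw V) (Pm V) := ⟨hFm, hFlaw⟩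
  classical
  have hm2 : ∀ a b, G.Adj a b → MemLp (f a b ∘ Fm) 2 (labelLaw V) := fun a b h =>
    (hf2 a b h).comp_measurePreserving hmp
  set F : V → V → HH V := fun a b => if h : G.Adj a b then (hm2 a b h).toLp (f a b ∘ Fm) else 0
    with hF
  have hFa : ∀ a b (h : G.Adj a b), F a b = (hm2 a b h).toLp (f a b ∘ Fm) := fun a b h => by
    rw [hF]; simp only [dif_pos h]
  have hFc : ∀ a b, G.Adj a b →
      (F a b : (V → unitInterval) → ℝ) =ᵐ[labelLaw V] f a b ∘ Fm := fun a b h => by
    rw [hFa a b h]; exact MemLp.coeFn_toLp _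
  have hint : ∀ φ : Om V → ℝ, AEStronglyMeasurable φ (Pm V) →
      ∫ U, φ (Fm U) ∂(labelLaw V) = ∫ ω, φ ω ∂(Pm V) := by
    intro φ hφ
    rw [← hFlaw] at hφ ⊢
    exact (integral_map hFm.aemeasurable hφ).symm
  have key := dec_label hE F ?_ ?_ hab hab' h1 h2 h3
  · have e1 : inner ℝ (F a b) (F a' b') = ∫ ω, f a b ω * f a' b' ω ∂(Pm V) := by
      rw [L2.inner_def, ← hint (fun ω => f a b ω * f a' b' ω)
        ((hf2 a b hab).aestronglyMeasurable.mul (hf2 a' b' hab').aestronglyMeasurable)]
      refine integral_congr_ae ?_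
      filter_upwards [hFc a b hab, hFc a' b' hab'] with U h4 h5
      rw [h4, h5]
      simp [mul_comm]
    have e2 : ‖F a b‖ ^ 2 = ∫ ω, f a b ω ^ 2 ∂(Pm V) := by
      rw [← real_inner_self_eq_norm_sq, L2.inner_def,
        ← hint (fun ω => f a b ω ^ 2) ((hf2 a b hab).aestronglyMeasurable.pow 2)]
      refine integral_congr_ae ?_
      filter_upwards [hFc a b hab] with U h4
      rw [h4]
      simp [sq]
    rw [e1, e2] at key
    exact key
  · intro g a b h
    have hg : G.Adj (g a) (g b) := g.map_adj_iff.2 h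
    apply Lp.ext
    have hmeas : Measure.QuasiMeasurePreserving (shift g : (V → unitInterval) → (V → unitInterval))
        (labelLaw V) (labelLaw V) := (mp_shift g).quasiMeasurePreserving
    have h4 := hmeas.ae_eq_comp (hFc (g a) (g b) hg)
    have h5 : ∀ᵐ U ∂(labelLaw V), f (g a) (g b) (sh g (Fm U)) = f a b (Fm U) := by
      have := hfe g a b h
      rw [← hFlaw] at this
      exact ae_of_ae_map hFm.aemeasurable this
    filter_upwards [TT_coe g (F (g a) (g b)), h4, h5, hFc a b h] with U k1 k2 k3 k4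
    rw [k1, k4, k2]
    show f (g a) (g b) (Fm (shift g U)) = f a b (Fm U)
    rw [← k3]
    congr 1
    exact hFeq g U
  · intro a b h
    have h4 : ∫ x, (F a b : (V → unitInterval) → ℝ) x ∂(labelLaw V)
        = ∫ U, f a b (Fm U) ∂(labelLaw V) := integral_congr_ae (hFc a b h)
    rw [h4, hint _ (hf2 a b h).aestronglyMeasurable]
    exact hf0 a b h

end P161C
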