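import Vale.Agent.P161.Final

/-!
# P161 at the critical point: definitions

`D = d - 1` is the branching number, `θ_k ↑ θ_c = D^(-1/2)`; process `k` starts in round `-k`.
All times are real numbers `t`; round `j` occupies `[j, j+1)`, an event `e = (v, i)` has the time
`i + o_e` and is used only when `o_e < 1/2`.
-/

open MeasureTheory Set Filter Topology

namespace P161C

open P161

universe u

variable {V : Type u}

/-! ## Parameters -/

/-- scale `y_j` of round `j`; at most one -/
noncomputable def scal (j : ℤ) : ℝ := (2 : ℝ) ^ (min j 0)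

/-- strength of the signals of round `j` -/
noncomputable def amp (j : ℤ) : ℝ := scal j / 8

/-- probability that a vertex has used its round `i` signal at time `t` -/
noncomputable def pr (i : ℤ) (t : ℝ) : ℝ := max 0 (min (t - i) (1 / 2))

/-! ## The channel: density `1 + a σ (2 y - 1)` on `[0, 1]`, quantile coupling -/

/-- inverse of `y ↦ y + c (y² - y)` -/
noncomputable def qt (c u : ℝ) : ℝ := 2 * u / ((1 - c) + √((1 - c) ^ 2 + 4 * c * u))

/-- the signal `a (2 y - 1)` when the current mean is `m` and the uniform label is `u` -/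
noncomputable def sg (a m u : ℝ) : ℝ := a * (2 * qt (a * m) u - 1)

/-- the innovation `b / (1 + b m)` -/
noncomputable def Ig (a m u : ℝ) : ℝ := sg a m u / (1 + sg a m u * m)

/-! ## Label space -/

/-- labels indexed by events `(v, i)` -/
abbrev Cfg (V : Type u) := V × ℤ → unitInterval

/-- order labels and signal labels -/
abbrev Om (V : Type u) := Cfg V × Cfg V

/-- i.i.d. uniform labels indexed by events -/
noncomputable def Pc (V : Type u) : Measure (Cfg V) :=
  Measure.infinitePi fun _ : V × ℤ => (volume : Measure unitInterval)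

/-- the underlying probability measure -/
noncomputable def Pm (V : Type u) : Measure (Om V) := (Pc V).prod (Pc V)

/-- action of an automorphism on labels: `(g ω)_{(v,i)} = ω_{(g⁻¹ v, i)}` -/
def shc {G : SimpleGraph V} (g : G ≃g G) (ω : Cfg V) : Cfg V := fun e => ω (g.symm e.1, e.2)

/-- action of an automorphism on pairs of labels -/
def sh {G : SimpleGraph V} (g : G ≃g G) (ω : Om V) : Om V := (shc g ω.1, shc g ω.2)

/-! ## The process in a finite volume -/

/-- posterior density after the events of the list (the head is the last event) -/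
noncomputable def dn (μ : Measure (V → Bool)) (U : Cfg V) : List (V × ℤ) → (V → Bool) → ℝ
  | [] => fun _ => 1
  | e :: l => upd μ (dn μ U l) e.1 (Ig (amp e.2) (mean μ (dn μ U l) e.1) (U e))

/-- time of an event -/
noncomputable def tm (o : Cfg V) (e : V × ℤ) : ℝ := (e.2 : ℝ) + (o e : ℝ)

/-- the event is used at time `t` -/
def act (t : ℝ) (o : Cfg V) (e : V × ℤ) : Prop := (o e : ℝ) < pr e.2 t

open Classical in
/-- events used at time `t` by the process in `Λ` started in round `-k` -/
noncomputable def evs (Λ : Finset V) (k : ℕ) (t : ℝ) (o : Cfg V) : Finset (V × ℤ) :=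
  (Λ ×ˢ Finset.Icc (-(k : ℤ)) ⌈t⌉).filter (act t o)

open Classical in
/-- the same events, sorted, the latest one first -/
noncomputable def evl (Λ : Finset V) (k : ℕ) (t : ℝ) (o : Cfg V) : List (V × ℤ) :=
  ((evs Λ k t o).toList).insertionSort (fun e f => tm o f ≤ tm o e)

/-- the state (posterior density) at time `t` -/
noncomputable def stt (μ : Measure (V → Bool)) (Λ : Finset V) (k : ℕ) (t : ℝ) (ω : Om V) :
    (V → Bool) → ℝ := dn μ ω.2 (evl Λ k t ω.1)

/-- posterior mean at time `t` -/
noncomputable def mk (μ : Measure (V → Bool)) (Λ : Finset V) (k : ℕ) (t : ℝ) (v : V)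
    (ω : Om V) : ℝ := mean μ (stt μ Λ k t ω) v

/-- posterior covariance at time `t` -/
noncomputable def ck (μ : Measure (V → Bool)) (Λ : Finset V) (k : ℕ) (t : ℝ) (v w : V)
    (ω : Om V) : ℝ := cov μ (stt μ Λ k t ω) v w

/-! ## Messages, geodesics, the path formula -/

/-- the message `α_{a → b}` as a function of `m_a` and `m_b` -/
noncomputable def msg (θ x y : ℝ) : ℝ :=
  2 * (x - θ * y) / ((1 - θ ^ 2) + √((1 - θ ^ 2) ^ 2 - 4 * (x - θ * y) * (θ * y - θ ^ 2 * x)))

/-- the transfer factor of an edge carrying the message `α` -/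
noncomputable def kap (θ α : ℝ) : ℝ := θ * (1 - α ^ 2) / (1 - θ ^ 2 * α ^ 2)

/-- `kap θ α = θ * exp (- Nf θ α)` -/
noncomputable def Nf (θ α : ℝ) : ℝ := Real.log (1 - θ ^ 2 * α ^ 2) - Real.log (1 - α ^ 2)

open Classical in
/-- the vertex at distance `i` from `v` on the way from `v` to `w` -/
noncomputable def geo (G : SimpleGraph V) (v w : V) (i : ℕ) : V :=
  if h : ∃ x, G.dist v x = i ∧ G.dist x w + i = G.dist v w then h.choose else w

/-- message from `a` to `b` computed from a field of means -/
noncomputable def ms (θ : ℝ) (M : V → ℝ) (a b : V) : ℝ := msg θ (M a) (M b)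

/-- the covariance of `v` and `w` from the field of means: product of the transfer factors along
the geodesic, all messages directed towards the midpoint -/
noncomputable def cvp (G : SimpleGraph V) (θ : ℝ) (M : V → ℝ) (v w : V) : ℝ :=
  (∏ i ∈ Finset.range (G.dist v w / 2),
      kap θ (ms θ M (geo G v w i) (geo G v w (i + 1))))
    * (1 - M (geo G v w (G.dist v w / 2)) ^ 2)
    * ∏ i ∈ Finset.Ico (G.dist v w / 2) (G.dist v w),
      kap θ (ms θ M (geo G v w (i + 1)) (geo G v w i))

/-! ## Recursively defined laws of messages -/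

/-- combination of two independent messages -/
noncomputable def opl (x y : ℝ) : ℝ := (x + y) / (1 + x * y)

/-- law of the combination of two independent messages with symmetric laws `L`, `L'` -/
noncomputable def comb (L L' : Measure ℝ) : Measure ℝ :=
  ((L.prod L').withDensity fun p => ENNReal.ofReal (1 + p.1 * p.2)).map fun p => opl p.1 p.2

/-- law of the combination of `n` independent messages with law `L` -/
noncomputable def combN (L : Measure ℝ) : ℕ → Measure ℝ
  | 0 => Measure.dirac 0
  | n + 1 => comb L (combN L n)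

/-- law of `θ α` -/
noncomputable def scl (θ : ℝ) (L : Measure ℝ) : Measure ℝ := L.map fun x => θ * x

/-- law of the message at the root of the `D`-ary tree with `n` levels, `S` is the law of the
local signal -/
noncomputable def lawR (θ : ℝ) (D : ℕ) (S : Measure ℝ) : ℕ → Measure ℝ
  | 0 => Measure.dirac 0
  | n + 1 => comb S (combN (scl θ (lawR θ D S n)) D)

/-- a signal of strength `a` present with probability `p`; its law is uniform on `[-a, a]` -/
noncomputable def chan (p a : ℝ) : Measure ℝ :=
  ENNReal.ofReal (1 - p) • Measure.dirac 0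
    + ENNReal.ofReal p • Measure.map (fun y : unitInterval => a * (2 * (y : ℝ) - 1)) volume

/-- law of the combination of the signals of the rounds `-k, ..., -k + n - 1` at time `t` -/
noncomputable def sigN (k : ℕ) (t : ℝ) : ℕ → Measure ℝ
  | 0 => Measure.dirac 0
  | n + 1 => comb (chan (pr (-(k : ℤ) + n) t) (amp (-(k : ℤ) + n))) (sigN k t n)

/-- law of the local signal of process `k` at time `t` -/
noncomputable def sigL (k : ℕ) (t : ℝ) : Measure ℝ := sigN k t (k + 1 + ⌈t⌉.toNat)

/-- the damping test function `r exp (- α² / y)` -/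
noncomputable def kt (r y α : ℝ) : ℝ := r * Real.exp (-(α ^ 2 / y))

/-- joint law of the message at the root and of the average over the paths of `l` steps down of
the product of `kt` over the messages of the path (root excluded) -/
noncomputable def jlaw (θ : ℝ) (D : ℕ) (S : Measure ℝ) (r y : ℝ) : ℕ → ℕ → Measure (ℝ × ℝ)
  | n, 0 => (lawR θ D S n).map fun α => (α, 1)
  | 0, _ + 1 => Measure.dirac (0, 0)
  | n + 1, l + 1 =>
    ((S.prod (Measure.pi fun _ : Fin D => jlaw θ D S r y n l)).withDensity fun p =>
        ENNReal.ofReal (((1 + p.1) * ∏ i, (1 + θ * (p.2 i).1)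
          + (1 - p.1) * ∏ i, (1 - θ * (p.2 i).1)) / 2)).map fun p =>
      (((1 + p.1) * ∏ i, (1 + θ * (p.2 i).1) - (1 - p.1) * ∏ i, (1 - θ * (p.2 i).1))
          / ((1 + p.1) * ∏ i, (1 + θ * (p.2 i).1) + (1 - p.1) * ∏ i, (1 - θ * (p.2 i).1)),
        (∑ i, kt r y (p.2 i).1 * (p.2 i).2) / D)

open Classical in
/-- average over the paths of `l` steps starting in `x` away from `p` of the product of `kt` over
the messages of the path directed towards `x` -/
noncomputable def Zf (G : SimpleGraph V) [G.LocallyFinite] (D : ℕ) (θ r y : ℝ) (M : V → ℝ) :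
    ℕ → V → V → ℝ
  | 0, _, _ => 1
  | l + 1, p, x => (∑ c ∈ (G.neighborFinset x).erase p,
      kt r y (ms θ M c x) * Zf G D θ r y M l x c) / D

/-! ## The sequence of parameters -/

/-- `θ_k = D^(-1/2) (1 - 8^(-k))` -/
noncomputable def thk (D k : ℕ) : ℝ := 1 / Real.sqrt D * (1 - 1 / 8 ^ k)

/-! ## Convex order of laws on `(-1, 1)` -/

/-- `L ≤ L'` in the convex order (tested on continuous convex functions on `(-1,1)`) -/
def Cx (L L' : Measure ℝ) : Prop :=
  ∀ φ : ℝ → ℝ, ContinuousOn φ (Ioo (-1) 1) → ConvexOn ℝ (Ioo (-1) 1) φ →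
    ∫ x, φ x ∂L ≤ ∫ x, φ x ∂L'

/-- symmetric probability law supported by `[-r, r]` -/
structure Sym (r : ℝ) (L : Measure ℝ) : Prop where
  prob : IsProbabilityMeasure L
  supp : ∀ᵐ x ∂L, |x| ≤ r
  symm : L.map (fun x => -x) = L

/-- `F_w(α) = cosh (√(1+w) h) / cosh h` with `α = tanh h` -/
noncomputable def Fw (w α : ℝ) : ℝ :=
  Real.cosh (Real.sqrt (1 + w) * Real.artanh α) / Real.cosh (Real.artanh α)

end P161C
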