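import Vale.Agent.P161C.Mods2

/-! # P161C, module DIFF: integral inequality for the difference of two processes -/

open MeasureTheory Set Filter Topology

namespace P161C

open P161

universe u

namespace DF

variable {V : Type u}

lemma kap_meas (θ : ℝ) : Measurable (kap θ) := by
  unfold kap
  fun_prop

lemma ms_meas (θ : ℝ) {M : V → Om V → ℝ} (hM : ∀ v, Measurable (M v)) (a b : V) :
    Measurable (fun ω => ms θ (fun x => M x ω) a b) := by
  have ha := hM a
  have hb := hM b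
  unfold ms msg
  fun_prop

lemma cvp_meas (G : SimpleGraph V) (θ : ℝ) {M : V → Om V → ℝ} (hM : ∀ v, Measurable (M v))
    (v w : V) : Measurable (fun ω => cvp G θ (fun x => M x ω) v w) := by
  unfold cvp
  have h1 : ∀ a b : V, Measurable (fun ω => kap θ (ms θ (fun x => M x ω) a b)) := fun a b =>
    (kap_meas θ).comp (ms_meas θ hM a b)
  refine Measurable.mul (Measurable.mul ?_ ?_) ?_
  · exact Finset.measurable_prod _ fun i _ => h1 _ _
  · exact (measurable_const.sub ((hM _).pow_const 2))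
  · exact Finset.measurable_prod _ fun i _ => h1 _ _

/-- comparison of two weighted sums of nonnegative functions -/
lemma int_cmp {Ω : Type u} [MeasurableSpace Ω] (P : Measure Ω) {X Y : Ω → ℝ}
    (hX : Measurable X) (hY : Measurable Y) (X0 : ∀ ω, 0 ≤ X ω) (Y0 : ∀ ω, 0 ≤ Y ω)
    {a b c : ℝ} (ha : 0 < a) (hb : 0 < b) (hac : a ≤ c) (hbc : b ≤ c) :
    ∫ ω, (a * X ω + b * Y ω) ∂P ≤ c * ∫ ω, (X ω + Y ω) ∂P := by
  by_cases hi : Integrable (fun ω => X ω + Y ω) P
  · rw [← integral_const_mul]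
    refine integral_mono_of_nonneg (ae_of_all _ fun ω => ?_) (hi.const_mul c)
      (ae_of_all _ fun ω => ?_)
    · exact add_nonneg (mul_nonneg ha.le (X0 ω)) (mul_nonneg hb.le (Y0 ω))
    · show a * X ω + b * Y ω ≤ c * (X ω + Y ω)
      have h1 := mul_le_mul_of_nonneg_right hac (X0 ω)
      have h2 := mul_le_mul_of_nonneg_right hbc (Y0 ω)
      linarith
  · have hn : ¬ Integrable (fun ω => a * X ω + b * Y ω) P := by
      intro h
      apply hi
      have hm : 0 < min a b := lt_min ha hb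
      refine Integrable.mono' (h.const_mul (1 / min a b)) (hX.add hY).aestronglyMeasurable
        (ae_of_all _ fun ω => ?_)
      rw [Real.norm_eq_abs, abs_of_nonneg (add_nonneg (X0 ω) (Y0 ω)), div_mul_eq_mul_div,
        le_div_iff₀ hm]
      have h1 := mul_le_mul_of_nonneg_right (min_le_left a b) (X0 ω)
      have h2 := mul_le_mul_of_nonneg_right (min_le_right a b) (Y0 ω)
      linarith
    rw [integral_undef hn, integral_undef hi, mul_zero]

lemma scal_pos (j : ℤ) : 0 < scal j := by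
  unfold scal; positivity

lemma scal_le (j : ℤ) : scal j ≤ 1 := by
  unfold scal
  exact zpow_le_one_of_nonpos₀ (by norm_num) (min_le_right _ _)

lemma omg_nonneg {x : ℝ} (h0 : 0 ≤ x) (h4 : x ≤ 4) : 0 ≤ (1 + Real.log (4 / x)) * x := by
  rcases h0.eq_or_lt with h | h
  · rw [← h]; simp
  · have : 0 ≤ Real.log (4 / x) := Real.log_nonneg (by rw [le_div_iff₀ h]; linarith)
    positivity

lemma omg_le {x : ℝ} (h0 : 0 ≤ x) : (1 + Real.log (4 / x)) * x ≤ 4 := by
  rcases h0.eq_or_lt with h | h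
  · rw [← h]; simp
  · have h1 := Real.log_le_sub_one_of_pos (show 0 < 4 / x by positivity)
    have h2 : (1 + Real.log (4 / x)) * x ≤ (1 + (4 / x - 1)) * x :=
      mul_le_mul_of_nonneg_right (by linarith) h.le
    have h3 : (1 + (4 / x - 1)) * x = 4 := by field_simp; ring
    linarith

lemma thk_facts {D : ℕ} (hD : 2 ≤ D) {k : ℕ} (hk : 1 ≤ k) :
    1 / 2 ≤ thk D k ^ 2 * D ∧ thk D k ^ 2 * D < 1 ∧
      ∀ l, l ≤ k → |thk D k - thc D| ≤ 1 / 8 ^ l := by
  have hD0 : (2 : ℝ) ≤ D := by exact_mod_cast hD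
  have hs : 0 < √(D : ℝ) := Real.sqrt_pos.2 (by linarith)
  have hs2 : √(D : ℝ) ^ 2 = D := Real.sq_sqrt (by linarith)
  have hs1 : 1 ≤ √(D : ℝ) := Real.one_le_sqrt.2 (by linarith)
  have h8 : (0 : ℝ) < 1 / 8 ^ k := by positivity
  have h8' : (1 : ℝ) / 8 ^ k ≤ 1 / 8 := by
    have : (8 : ℝ) ^ 1 ≤ 8 ^ k := pow_le_pow_right₀ (by norm_num) hk
    rw [pow_one] at this
    exact one_div_le_one_div_of_le (by norm_num) this
  have e : thk D k ^ 2 * D = (1 - 1 / 8 ^ k) ^ 2 := by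
    unfold thk
    rw [mul_pow, div_pow, hs2]
    field_simp
  refine ⟨?_, ?_, ?_⟩
  · rw [e]; nlinarith
  · rw [e]; nlinarith
  · intro l hl
    have e2 : thk D k - thc D = -(1 / √(D : ℝ) * (1 / 8 ^ k)) := by
      unfold thk thc; ring
    rw [e2, abs_neg, abs_of_nonneg (by positivity)]
    have h1 : 1 / √(D : ℝ) ≤ 1 := by rw [div_le_one hs]; exact hs1
    have h2 : (1 : ℝ) / 8 ^ k ≤ 1 / 8 ^ l :=
      one_div_le_one_div_of_le (by positivity) (pow_le_pow_right₀ (by norm_num) hl)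
    calc 1 / √(D : ℝ) * (1 / 8 ^ k) ≤ 1 * (1 / 8 ^ k) :=
        mul_le_mul_of_nonneg_right h1 h8.le
      _ ≤ 1 / 8 ^ l := by rw [one_mul]; exact h2

/-- bounded and measurable functions are interval integrable -/
lemma ii_of_bd {g : ℝ → ℝ} {a b C : ℝ} (hab : a ≤ b)
    (hm : AEStronglyMeasurable g (volume.restrict (Ioc a b)))
    (hb : ∀ s ∈ Ioc a b, |g s| ≤ C) : IntervalIntegrable g volume a b := by
  rw [intervalIntegrable_iff_integrableOn_Ioc_of_le hab]
  refine Integrable.mono' (g := fun _ => C) (integrable_const C) hm ?_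
  rw [ae_restrict_iff' measurableSet_Ioc]
  exact ae_of_all _ fun s hs => hb s hs

lemma scal_ge {k : ℕ} {j : ℤ} (h : -(k : ℤ) ≤ j) : 1 / scal j ≤ 2 ^ k := by
  rw [div_le_iff₀ (scal_pos j)]
  unfold scal
  have h1 : (2 : ℝ) ^ (-(k : ℤ)) ≤ 2 ^ (min j 0) :=
    zpow_le_zpow_right₀ (by norm_num) (le_min h (by omega))
  have h2 : (2 : ℝ) ^ k * 2 ^ (-(k : ℤ)) = 1 := by
    rw [zpow_neg, zpow_natCast]
    exact mul_inv_cancel₀ (by positivity)
  calc (1 : ℝ) = 2 ^ k * 2 ^ (-(k : ℤ)) := h2.symm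
    _ ≤ _ := mul_le_mul_of_nonneg_left h1 (by positivity)

lemma scal_meas : Measurable (fun s : ℝ => scal ⌊s⌋) :=
  (measurable_from_top (f := scal)).comp Int.measurable_floor

/-- the right hand side -/
noncomputable def Hf (K : ℝ) (k : ℕ) (Δ f g : ℝ → ℝ) (s : ℝ) : ℝ :=
  K * scal ⌊s⌋ * ((1 + Real.log (4 / Δ s)) * Δ s)
    + K / scal ⌊s⌋ * ((f s - g s) ^ 2 + (2 / 8 ^ k) ^ 2)

lemma Hf_nonneg {K : ℝ} (hK : 0 < K) (k : ℕ) {Δ f g : ℝ → ℝ} {s : ℝ} (h0 : 0 ≤ Δ s)
    (h4 : Δ s ≤ 4) : 0 ≤ Hf K k Δ f g s := by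
  have h1 := omg_nonneg h0 h4
  have h2 := scal_pos ⌊s⌋
  unfold Hf
  positivity

lemma Hf_ii {K : ℝ} (hK : 0 < K) (k : ℕ) {Δ f g : ℝ → ℝ} {b₀ : ℝ} (hΔ : Monotone Δ)
    (h0 : ∀ s, 0 ≤ Δ s) (h4 : ∀ s, Δ s ≤ 4) (hf : MonotoneOn f (Iic b₀))
    (hg : MonotoneOn g (Iic b₀)) {a b : ℝ} (hab : a ≤ b) (ha : -(k : ℝ) ≤ a) (hb : b ≤ b₀) :
    IntervalIntegrable (Hf K k Δ f g) volume a b := by
  have hfb : ∀ F : ℝ → ℝ, MonotoneOn F (Iic b₀) → ∀ s ∈ Ioc a b, |F s| ≤ |F a| + |F b| := by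
    intro F hF s hs
    have h1 := hF (mem_Iic.2 (hab.trans hb)) (mem_Iic.2 (hs.2.trans hb)) hs.1.le
    have h2 := hF (mem_Iic.2 (hs.2.trans hb)) (mem_Iic.2 hb) hs.2
    rw [abs_le]
    constructor
    · linarith [neg_abs_le (F a), abs_nonneg (F b)]
    · linarith [le_abs_self (F b), abs_nonneg (F a)]
  have hfm : ∀ F : ℝ → ℝ, MonotoneOn F (Iic b₀) →
      AEMeasurable F (volume.restrict (Ioc a b)) := by
    intro F hF
    exact aemeasurable_restrict_of_monotoneOn measurableSet_Ioc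
      (hF.mono fun s hs => mem_Iic.2 (hs.2.trans hb))
  set B := |f a| + |f b| + (|g a| + |g b|) with hB
  refine ii_of_bd (C := K * 1 * 4 + K * 2 ^ k * (B ^ 2 + (2 / 8 ^ k) ^ 2)) hab ?_ ?_
  · have m1 := hfm f hf
    have m2 := hfm g hg
    have m3 : Measurable Δ := hΔ.measurable
    have m4 := scal_meas
    have m5 : AEMeasurable (fun s => K * scal ⌊s⌋ * ((1 + Real.log (4 / Δ s)) * Δ s))
        (volume.restrict (Ioc a b)) := by
      refine Measurable.aemeasurable ?_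
      exact (measurable_const.mul m4).mul ((measurable_const.add
        (Real.measurable_log.comp (measurable_const.div m3))).mul m3)
    have m6 : AEMeasurable (fun s => K / scal ⌊s⌋ * ((f s - g s) ^ 2 + (2 / 8 ^ k) ^ 2))
        (volume.restrict (Ioc a b)) :=
      ((measurable_const.div m4).aemeasurable).mul
        (((m1.sub m2).pow_const 2).add_const _)
    exact (m5.add m6).aestronglyMeasurable
  · intro s hs
    rw [abs_of_nonneg (Hf_nonneg hK k (h0 s) (h4 s))]
    have hj : -(k : ℤ) ≤ ⌊s⌋ := by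
      rw [Int.le_floor]
      push_cast
      linarith [hs.1]
    have s1 := scal_ge hj
    have s2 := scal_le ⌊s⌋
    have s3 := scal_pos ⌊s⌋
    have w0 := omg_nonneg (h0 s) (h4 s)
    have w4 := omg_le (h0 s)
    have f1 := hfb f hf s hs
    have g1 := hfb g hg s hs
    have d1 : |f s - g s| ≤ B := (abs_sub _ _).trans (by rw [hB]; linarith)
    have d2 : (f s - g s) ^ 2 ≤ B ^ 2 := by
      rw [← sq_abs]
      exact pow_le_pow_left₀ (abs_nonneg _) d1 2
    unfold Hf
    have e : K / scal ⌊s⌋ = K * (1 / scal ⌊s⌋) := by ring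
    rw [e]
    refine add_le_add (mul_le_mul (mul_le_mul_of_nonneg_left s2 hK.le) w4 w0 (by positivity)) ?_
    refine mul_le_mul (mul_le_mul_of_nonneg_left s1 hK.le) (by linarith) (by positivity)
      (by positivity)

end DF

open DF in
/-- DIFF -/
theorem diff_proof (hI : STARI.{u}) (hM : MAIN.{u}) (hF : FLDX.{u}) (hQ : LIMQ.{u})
    (hL : LIM.{u}) (hH : HOM.{u}) (hSh : SHP.{u}) : DIFF.{u} := by
  intro D J hD
  obtain ⟨r, r₀, c, C, l₀, k₀, hr0, hr1, hr01, hc, hC, hl0, hk0, HF⟩ := hF D J hD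
  obtain ⟨K₀, hK₀, HM⟩ := hM D r r₀ c C l₀ hD hr0 hr1 hr01 hc hC hl0
  refine ⟨K₀ / 4, k₀, by positivity, hk0, ?_⟩
  intro V _ G _ hE μ hμ f hf hfm k l v t hk hkl ht1 htJ
  have hk1 : 1 ≤ k := hk0.trans hk
  have hl1 : 1 ≤ l := hk1.trans hkl
  obtain ⟨a1, a2, a3⟩ := thk_facts hD hk1
  obtain ⟨b1, b2, b3⟩ := thk_facts hD hl1
  have hP : IsProbabilityMeasure (Pm V) := (hSh V G).1
  set Δ : V → ℝ → ℝ := fun v s => ∫ ω, (Mi G hE.tree.connected (μ k) k s v ω
      - Mi G hE.tree.connected (μ l) l s v ω) ^ 2 ∂(Pm V) with hΔ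
  have mk1 : ∀ s w, Measurable (Mi G hE.tree.connected (μ k) k s w) := fun s w =>
    (hL V G D (thk D k) (μ k) hE (hμ k) a2 k s w).1
  have ml1 : ∀ s w, Measurable (Mi G hE.tree.connected (μ l) l s w) := fun s w =>
    (hL V G D (thk D l) (μ l) hE (hμ l) b2 l s w).1
  have bk1 : ∀ s w ω, |Mi G hE.tree.connected (μ k) k s w ω| ≤ 1 := fun s w =>
    (hL V G D (thk D k) (μ k) hE (hμ k) a2 k s w).2.1
  have bl1 : ∀ s w ω, |Mi G hE.tree.connected (μ l) l s w ω| ≤ 1 := fun s w =>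
    (hL V G D (thk D l) (μ l) hE (hμ l) b2 l s w).2.1
  -- independence of the vertex
  have hind : ∀ s w, Δ w s = Δ v s := by
    intro s w
    obtain ⟨g, hg, -⟩ := hH V G (D + 1) hE.tree hE.reg v v w w (by simp)
    obtain ⟨hgm, hgmap⟩ := (hSh V G).2.1 g
    have q1 := (hQ V G D (thk D k) (thk D l) (μ k) (μ l) hE (hμ k) (hμ l) a2 b2 k l v).1 s g
    have q2 := (hQ V G D (thk D l) (thk D k) (μ l) (μ k) hE (hμ l) (hμ k) b2 a2 l k v).1 s g
    rw [hg] at q1 q2
    have hm : Measurable (fun ω => (Mi G hE.tree.connected (μ k) k s w ω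
      - Mi G hE.tree.connected (μ l) l s w ω) ^ 2) := ((mk1 s w).sub (ml1 s w)).pow_const 2
    show ∫ ω, (Mi G hE.tree.connected (μ k) k s w ω
      - Mi G hE.tree.connected (μ l) l s w ω) ^ 2 ∂(Pm V) = _
    conv_lhs => rw [← hgmap]
    rw [integral_map hgm.aemeasurable hm.aestronglyMeasurable]
    refine integral_congr_ae ?_
    filter_upwards [q1, q2] with ω h1 h2
    rw [h1, h2]
  have h0 : ∀ s, 0 ≤ Δ v s := fun s => integral_nonneg fun ω => sq_nonneg _
  have h4 : ∀ s, Δ v s ≤ 4 := by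
    intro s
    have : Δ v s ≤ ∫ _ω, (4 : ℝ) ∂(Pm V) := by
      refine integral_mono_of_nonneg (ae_of_all _ fun ω => sq_nonneg _) (integrable_const 4)
        (ae_of_all _ fun ω => ?_)
      have h1 := abs_le.1 (bk1 s v ω)
      have h2 := abs_le.1 (bl1 s v ω)
      show (_ : ℝ) ^ 2 ≤ 4
      nlinarith
    simpa using this
  have hLQ := hQ V G D (thk D k) (thk D l) (μ k) (μ l) hE (hμ k) (hμ l) a2 b2 k l v
  have hLQ' := hQ V G D (thk D l) (thk D k) (μ l) (μ k) hE (hμ l) (hμ k) b2 a2 l k v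
  have hmono : Monotone (Δ v) := hLQ.2.2.1
  set H : ℝ → ℝ := Hf (K₀ / 4) k (Δ v) (f k) (f l) with hHd
  have hK4 : 0 < K₀ / 4 := by positivity
  have hii : ∀ a b : ℝ, a ≤ b → -(k : ℝ) ≤ a → b ≤ J + 1 → IntervalIntegrable H volume a b :=
    fun a b hab ha hb => Hf_ii hK4 k hmono h0 h4 (hfm k hk1) (hfm l hl1) hab ha hb
  -- first half of a round
  have step1 : ∀ (j : ℤ) (t : ℝ), -(k : ℤ) < j → j ≤ J → (j : ℝ) ≤ t → t ≤ j + 1 / 2 →
      Δ v t - Δ v j ≤ ∫ s in (j : ℝ)..t, H s := by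
    intro j t hj hjJ hjt htj
    have hjk : -(k : ℝ) ≤ j := by exact_mod_cast hj.le
    have hjJ' : (j : ℝ) ≤ J := by exact_mod_cast hjJ
    have hi := hii j t hjt hjk (by linarith)
    have key := hI V G D (thk D k) (thk D l) (μ k) (μ l) hE (hμ k) (hμ l) a2 b2 k l v j j t
      hj.le (by omega) le_rfl hjt htj (fun s => H s / 2) (hi.div_const 2) ?_
    · have e : 2 * ∫ s in (j : ℝ)..t, H s / 2 = ∫ s in (j : ℝ)..t, H s := by
        rw [intervalIntegral.integral_div]; ring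
      rw [e] at key
      exact key
    · intro N s hs
      have hsj : ⌊s⌋ = j := by
        rw [Int.floor_eq_iff]
        constructor
        · exact hs.1
        · linarith [hs.2]
      have hs1 : s ≤ j + 1 / 2 := hs.2.trans htj
      have hsJ : s ≤ J + 1 := by linarith
      have hP1 : Pair G D (thk D k) (thk D l) r r₀ (scal j) c C l₀
          (Mi G hE.tree.connected (μ k) k s) (Mi G hE.tree.connected (μ l) l s) (Δ v s)
          |f k s - f l s| (2 / 8 ^ k) := by
        refine ⟨HF V G hE k (μ k) hk (hμ k) j s hj hjJ hs.1 hs1,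
          HF V G hE l (μ l) (hk.trans hkl) (hμ l) j s (by omega) hjJ hs.1 hs1,
          scal_pos j, scal_le j, (hμ k).h0, (hμ k).h1, a1, (hμ l).h0, (hμ l).h1, b1, ?_, h4 s,
          ?_, ?_⟩
        · intro w
          exact (hind s w).le
        · intro a b hab
          rw [hf k s a b hk1 hsJ hab, hf l s a b hl1 hsJ hab]
        · have := a3 k le_rfl
          have := b3 k hkl
          have e : (2 : ℝ) / 8 ^ k = 1 / 8 ^ k + 1 / 8 ^ k := by ring
          rw [e]; linarith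
      have hmain := HM V G (thk D k) (thk D l) (scal j) _ _ (Δ v s) |f k s - f l s| (2 / 8 ^ k)
        hE hP1 v N
      have hy := scal_pos j
      have hy1 := scal_le j
      have hc1 : 8 * amp j ^ 2 = scal j ^ 2 / 8 := by unfold amp; ring
      have hc2 : 18 * amp j ^ 4 ≤ scal j ^ 2 / 8 := by
        unfold amp
        have : scal j ^ 4 ≤ scal j ^ 2 := pow_le_pow_of_le_one hy.le hy1 (by norm_num)
        nlinarith
      have hamp : 0 < amp j := by unfold amp; positivity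
      calc _ ≤ ∑ w ∈ ballF G hE.tree.connected v N, scal j ^ 2 / 8 * ∫ ω,
            ((cvp G (thk D k) (fun x => Mi G hE.tree.connected (μ k) k s x ω) v w
                - cvp G (thk D l) (fun x => Mi G hE.tree.connected (μ l) l s x ω) v w) ^ 2
              + cvp G (thk D l) (fun x => Mi G hE.tree.connected (μ l) l s x ω) v w ^ 2
                * (Mi G hE.tree.connected (μ k) k s w ω
                  - Mi G hE.tree.connected (μ l) l s w ω) ^ 2) ∂(Pm V) := by
            refine Finset.sum_le_sum fun w _ => ?_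
            refine int_cmp (Pm V) (((cvp_meas G _ (mk1 s) v w).sub
              (cvp_meas G _ (ml1 s) v w)).pow_const 2)
              (((cvp_meas G _ (ml1 s) v w).pow_const 2).mul
                (((mk1 s w).sub (ml1 s w)).pow_const 2)) (fun ω => sq_nonneg _)
              (fun ω => mul_nonneg (sq_nonneg _) (sq_nonneg _)) (by positivity) (by positivity) hc1.le hc2
        _ = scal j ^ 2 / 8 * ∑ w ∈ ballF G hE.tree.connected v N, ∫ ω,
            ((cvp G (thk D k) (fun x => Mi G hE.tree.connected (μ k) k s x ω) v w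
                - cvp G (thk D l) (fun x => Mi G hE.tree.connected (μ l) l s x ω) v w) ^ 2
              + cvp G (thk D l) (fun x => Mi G hE.tree.connected (μ l) l s x ω) v w ^ 2
                * (Mi G hE.tree.connected (μ k) k s w ω
                  - Mi G hE.tree.connected (μ l) l s w ω) ^ 2) ∂(Pm V) := by
            rw [Finset.mul_sum]
        _ ≤ scal j ^ 2 / 8 * (K₀ * (((1 + Real.log (4 / Δ v s)) * Δ v s) / scal j
            + (|f k s - f l s| ^ 2 + (2 / 8 ^ k) ^ 2) / scal j ^ 3)) :=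
            mul_le_mul_of_nonneg_left hmain (by positivity)
        _ = H s / 2 := by
            rw [hHd]
            unfold Hf
            rw [hsj, sq_abs]
            field_simp
            ring
  -- a whole round
  have step2 : ∀ (j : ℤ) (t : ℝ), -(k : ℤ) < j → j ≤ J → (j : ℝ) ≤ t → t ≤ j + 1 →
      Δ v t ≤ Δ v j + ∫ s in (j : ℝ)..t, H s := by
    intro j t hj hjJ hjt htj
    have hjk : -(k : ℝ) ≤ j := by exact_mod_cast hj.le
    have hjJ' : (j : ℝ) ≤ J := by exact_mod_cast hjJ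
    rcases le_total t (j + 1 / 2) with h | h
    · have := step1 j t hj hjJ hjt h
      linarith
    · have h1 := step1 j (j + 1 / 2) hj hjJ (by linarith) le_rfl
      have e1 := hLQ.2.1 j t h htj
      have e2 := hLQ'.2.1 j t h htj
      have e3 : Δ v t = Δ v (j + 1 / 2) := by
        refine integral_congr_ae ?_
        filter_upwards [e1, e2] with ω w1 w2
        rw [w1, w2]
      have e4 : ∫ s in (j : ℝ)..t, H s
          = (∫ s in (j : ℝ)..(j + 1 / 2), H s) + ∫ s in (j + 1 / 2 : ℝ)..t, H s :=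
        (intervalIntegral.integral_add_adjacent_intervals
          (hii _ _ (by linarith) hjk (by linarith))
          (hii _ _ h (by linarith) (by linarith))).symm
      have e5 : 0 ≤ ∫ s in (j + 1 / 2 : ℝ)..t, H s :=
        intervalIntegral.integral_nonneg h fun s _ => Hf_nonneg hK4 k (h0 s) (h4 s)
      rw [e3, e4]
      linarith
  -- induction over the rounds
  have step3 : ∀ n : ℕ, -(k : ℤ) + 1 + n ≤ J →
      Δ v (((-(k : ℤ) + 1 + n : ℤ)) : ℝ) ≤ Δ v (-(k : ℝ) + 1)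
        + ∫ s in (-(k : ℝ) + 1)..((-(k : ℤ) + 1 + n : ℤ) : ℝ), H s := by
    intro n
    induction n with
    | zero =>
      intro _
      have : (((-(k : ℤ) + 1 + (0 : ℕ) : ℤ)) : ℝ) = -(k : ℝ) + 1 := by push_cast; ring
      rw [this]
      simp
    | succ n ih =>
      intro hn
      have hn' : (-(k : ℤ) + 1 + n : ℤ) ≤ J := by push_cast at hn; omega
      have i1 := ih hn'
      have i2 := step2 (-(k : ℤ) + 1 + n) (((-(k : ℤ) + 1 + (n + 1 : ℕ) : ℤ)) : ℝ)
        (by omega) hn' (by push_cast; linarith) (by push_cast; linarith)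
      have hnJ : (-(k : ℝ) + 1 + (n + 1)) ≤ J := by exact_mod_cast hn
      have e4 : ∫ s in (-(k : ℝ) + 1)..(((-(k : ℤ) + 1 + (n + 1 : ℕ) : ℤ)) : ℝ), H s
          = (∫ s in (-(k : ℝ) + 1)..((-(k : ℤ) + 1 + n : ℤ) : ℝ), H s)
            + ∫ s in ((-(k : ℤ) + 1 + n : ℤ) : ℝ)..(((-(k : ℤ) + 1 + (n + 1 : ℕ) : ℤ)) : ℝ), H s :=
        (intervalIntegral.integral_add_adjacent_intervals
          (hii _ _ (by push_cast; linarith [Nat.cast_nonneg (α := ℝ) n]) (by linarith)
            (by push_cast; linarith))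
          (hii _ _ (by push_cast; linarith)
            (by push_cast; linarith [Nat.cast_nonneg (α := ℝ) n])
            (by push_cast; linarith))).symm
      rw [e4]
      linarith
  -- conclusion
  show Δ v t ≤ Δ v (-(k : ℝ) + 1) + ∫ s in (-(k : ℝ) + 1)..t, H s
  have hfl : -(k : ℤ) + 1 ≤ ⌊t⌋ := by
    rw [Int.le_floor]
    push_cast
    exact ht1
  obtain ⟨n, hn⟩ : ∃ n : ℕ, ⌊t⌋ = -(k : ℤ) + 1 + n :=
    ⟨(⌊t⌋ - (-(k : ℤ) + 1)).toNat, by omega⟩
  have hnJ : (-(k : ℤ) + 1 + n : ℤ) ≤ J := by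
    rw [← hn]
    have : (⌊t⌋ : ℝ) ≤ J := (Int.floor_le t).trans htJ
    exact_mod_cast this
  have hnJ' : ((-(k : ℤ) + 1 + n : ℤ) : ℝ) ≤ J := by exact_mod_cast hnJ
  have l1 : ((-(k : ℤ) + 1 + n : ℤ) : ℝ) ≤ t := by
    rw [← hn]; exact Int.floor_le t
  have l2 : t ≤ ((-(k : ℤ) + 1 + n : ℤ) : ℝ) + 1 := by
    rw [← hn]; exact (Int.lt_floor_add_one t).le
  have i1 := step3 n hnJ
  have i2 := step2 (-(k : ℤ) + 1 + n) t (by omega) hnJ l1 l2
  have l0 : -(k : ℝ) + 1 ≤ ((-(k : ℤ) + 1 + n : ℤ) : ℝ) := by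
    push_cast
    linarith [Nat.cast_nonneg (α := ℝ) n]
  have e4 : ∫ s in (-(k : ℝ) + 1)..t, H s
      = (∫ s in (-(k : ℝ) + 1)..((-(k : ℤ) + 1 + n : ℤ) : ℝ), H s)
        + ∫ s in ((-(k : ℤ) + 1 + n : ℤ) : ℝ)..t, H s :=
    (intervalIntegral.integral_add_adjacent_intervals
      (hii _ _ l0 (by linarith) (by linarith))
      (hii _ _ l1 (by linarith) (by linarith))).symm
  rw [e4]
  linarith

end P161C
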