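import Vale.Agent.P161C.Mods

/-!
# ENT: the truncation inequality
-/

open MeasureTheory Set Filter Topology

namespace P161C

universe u

theorem ent_proof : ENT.{u} := by
  intro l B hl hB
  refine ⟨(2 + 2 * B) / l, by positivity, ?_⟩
  intro Ω _ P _ X Z hX hZ hX04 hZ0 hexp hexpB A hA hA4
  -- integrability
  have hZint : Integrable (fun ω => 4 / l * Real.exp (l * Z ω)) P := hexp.const_mul _
  have hprod : Integrable (fun ω => X ω * Z ω) P := by
    refine Integrable.mono' hZint (hX.mul hZ).aestronglyMeasurable ?_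
    filter_upwards [hX04, hZ0] with ω h1 h2
    rw [Real.norm_eq_abs, abs_of_nonneg (mul_nonneg h1.1 h2)]
    have h3 : l * Z ω ≤ Real.exp (l * Z ω) := by
      have := Real.add_one_le_exp (l * Z ω)
      linarith
    have h4 : Z ω ≤ Real.exp (l * Z ω) / l := by
      rw [le_div_iff₀ hl, mul_comm]; exact h3
    calc X ω * Z ω ≤ 4 * (Real.exp (l * Z ω) / l) := mul_le_mul h1.2 h4 h2 (by norm_num)
      _ = 4 / l * Real.exp (l * Z ω) := by ring
  refine ⟨hprod, ?_⟩
  have hXint : Integrable X P := by
    refine Integrable.mono' (integrable_const (4 : ℝ)) hX.aestronglyMeasurable ?_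
    filter_upwards [hX04] with ω h1
    rw [Real.norm_eq_abs, abs_of_nonneg h1.1]
    exact h1.2
  have hX0 : 0 ≤ ∫ ω, X ω ∂P := integral_nonneg_of_ae (by
    filter_upwards [hX04] with ω h1 using h1.1)
  have hA0 : 0 ≤ A := hX0.trans hA
  rcases hA0.eq_or_lt with h0 | hApos
  · -- A = 0
    rw [← h0] at hA ⊢
    have h1 : ∫ ω, X ω ∂P = 0 := le_antisymm hA hX0
    have h2 : X =ᵐ[P] 0 := (integral_eq_zero_iff_of_nonneg_ae (by
      filter_upwards [hX04] with ω h1 using h1.1) hXint).1 h1
    have h3 : (fun ω => X ω * Z ω) =ᵐ[P] fun _ => 0 := by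
      filter_upwards [h2] with ω hω
      rw [hω]; simp
    rw [integral_congr_ae h3]
    simp
  · set t := 2 / l * Real.log (4 / A) with ht
    have hlog : 0 ≤ Real.log (4 / A) := Real.log_nonneg (by rw [le_div_iff₀ hApos]; linarith)
    have hexpt : Real.exp (-(l * t / 2)) = A / 4 := by
      have : l * t / 2 = Real.log (4 / A) := by
        rw [ht]; field_simp
      rw [this, Real.exp_neg, Real.exp_log (by positivity)]
      field_simp
    have hbound : ∀ᵐ ω ∂P, X ω * Z ω ≤ t * X ω + 2 * A / l * Real.exp (l * Z ω) := by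
      filter_upwards [hX04, hZ0] with ω h1 h2
      by_cases h3 : Z ω ≤ t
      · have h4 : X ω * Z ω ≤ t * X ω := by nlinarith [h1.1]
        have h5 : 0 ≤ 2 * A / l * Real.exp (l * Z ω) := by positivity
        linarith
      · push Not at h3
        have h4 : l * Z ω / 2 ≤ Real.exp (l * Z ω / 2) := by
          have := Real.add_one_le_exp (l * Z ω / 2)
          linarith
        have h5 : Real.exp (l * Z ω / 2) ≤ Real.exp (-(l * t / 2)) * Real.exp (l * Z ω) := by
          rw [← Real.exp_add]
          apply Real.exp_le_exp.2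
          nlinarith
        have h6 : Z ω ≤ 2 / l * (A / 4 * Real.exp (l * Z ω)) := by
          rw [← hexpt, div_mul_eq_mul_div, le_div_iff₀ hl]
          linarith
        have h7 : X ω * Z ω ≤ 4 * (2 / l * (A / 4 * Real.exp (l * Z ω))) :=
          mul_le_mul h1.2 h6 h2 (by norm_num)
        have h8 : 4 * (2 / l * (A / 4 * Real.exp (l * Z ω))) = 2 * A / l * Real.exp (l * Z ω) := by
          ring
        have h9 : 0 ≤ t * X ω := mul_nonneg (by positivity) h1.1
        linarith
    calc ∫ ω, X ω * Z ω ∂P ≤ ∫ ω, (t * X ω + 2 * A / l * Real.exp (l * Z ω)) ∂P :=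
          integral_mono_ae hprod ((hXint.const_mul t).add (hexp.const_mul _)) hbound
      _ = t * ∫ ω, X ω ∂P + 2 * A / l * ∫ ω, Real.exp (l * Z ω) ∂P := by
          rw [integral_add (hXint.const_mul t) (hexp.const_mul _), integral_const_mul,
            integral_const_mul]
      _ ≤ t * A + 2 * A / l * B := by
          gcongr
      _ ≤ (2 + 2 * B) / l * ((1 + Real.log (4 / A)) * A) := by
          rw [ht]
          have e : (2 + 2 * B) / l * ((1 + Real.log (4 / A)) * A)
              - (2 / l * Real.log (4 / A) * A + 2 * A / l * B)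
              = (2 * A + 2 * B * Real.log (4 / A) * A) / l := by
            field_simp
            ring
          have : 0 ≤ (2 * A + 2 * B * Real.log (4 / A) * A) / l := by positivity
          linarith

end P161C
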