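import Vale.Agent.P161C.Base

/-!
# P161 at the critical point, module EQF: equivariance in finite volume
-/

open MeasureTheory Set Filter Topology

namespace P161C

open P161

universe u

variable {V : Type u} {G : SimpleGraph V} {θ : ℝ} {μ : Measure (V → Bool)}

namespace Eqf

/-- action of an automorphism on events -/
def em (g : G ≃g G) (e : V × ℤ) : V × ℤ := (g e.1, e.2)

theorem em_inj (g : G ≃g G) : Function.Injective (em g) := by
  intro e f h
  simp only [em, Prod.mk.injEq] at h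
  exact Prod.ext (g.injective h.1) h.2

theorem shc_em (g : G ≃g G) (U : Cfg V) (e : V × ℤ) : shc g U (em g e) = U e := by
  simp [shc, em]

theorem tm_em (g : G ≃g G) (o : Cfg V) (e : V × ℤ) : tm (shc g o) (em g e) = tm o e := by
  unfold tm
  rw [shc_em]
  rfl

theorem dn_loc (μ : Measure (V → Bool)) (U : Cfg V) (l : List (V × ℤ)) : Loc (dn μ U l) := by
  induction l with
  | nil => exact Loc.const 1
  | cons e l ih =>
    exact ih.mul ((Loc.const 1).add (((Loc.coord e.1).sub (Loc.const _)).const_mul _))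

theorem dn_map (hG : G.Connected) (hμ : IsFreeIsing G θ μ) (g : G ≃g G) (l : List (V × ℤ))
    (U : Cfg V) (s : V → Bool) :
    dn μ (shc g U) (l.map (em g)) s = dn μ U l (fun v => s (g v)) := by
  induction l generalizing s with
  | nil => rfl
  | cons e l ih =>
    rw [List.map_cons]
    simp only [dn, upd]
    have hm : mean μ (dn μ (shc g U) (l.map (em g))) (em g e).1 = mean μ (dn μ U l) e.1 := by
      unfold mean
      rw [← int_map_aut hG hμ g ((dn_loc μ U l).mul (Loc.coord e.1))]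
      simp_rw [ih]
      rfl
    rw [hm, ih, shc_em]
    rfl

theorem mean_map (hG : G.Connected) (hμ : IsFreeIsing G θ μ) (g : G ≃g G) (l : List (V × ℤ))
    (U : Cfg V) (v : V) :
    mean μ (dn μ (shc g U) (l.map (em g))) (g v) = mean μ (dn μ U l) v := by
  unfold mean
  rw [← int_map_aut hG hμ g ((dn_loc μ U l).mul (Loc.coord v))]
  simp_rw [dn_map hG hμ g]

theorem mem_evs_em (g : G ≃g G) {Λ Λ' : Finset V} (hΛ : ∀ y, g y ∈ Λ' ↔ y ∈ Λ) (k : ℕ) (t : ℝ)
    (o : Cfg V) (e : V × ℤ) : em g e ∈ evs Λ' k t (shc g o) ↔ e ∈ evs Λ k t o := by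
  rw [mem_evs, mem_evs]
  unfold act
  rw [shc_em]
  simp only [em]
  rw [hΛ]

theorem srt_map (g : G ≃g G) {Λ Λ' : Finset V} (hΛ : ∀ y, g y ∈ Λ' ↔ y ∈ Λ) (k : ℕ) (t : ℝ)
    {o : Cfg V} (ho : Function.Injective (tm o)) :
    srt (shc g o) (evs Λ' k t (shc g o)) = (srt o (evs Λ k t o)).map (em g) := by
  classical
  have hsurj : ∀ e : V × ℤ, ∃ f, em g f = e := fun e => ⟨(g.symm e.1, e.2), by simp [em]⟩
  apply eq_srt
  · intro e _ f _ h
    obtain ⟨e', rfl⟩ := hsurj e
    obtain ⟨f', rfl⟩ := hsurj f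
    rw [tm_em, tm_em] at h
    rw [ho h]
  · rw [List.perm_ext_iff_of_nodup ((nodup_srt o _).map (em_inj g)) (Finset.nodup_toList _)]
    intro e
    obtain ⟨e', rfl⟩ := hsurj e
    rw [Finset.mem_toList, mem_evs_em g hΛ, List.mem_map]
    constructor
    · rintro ⟨f, hf, hfe⟩
      rw [← em_inj g hfe]
      exact mem_srt.1 hf
    · intro h
      exact ⟨e', mem_srt.2 h, rfl⟩
  · rw [List.pairwise_map]
    refine (srt_pairwise o _).imp ?_
    intro a b hab
    rw [tm_em, tm_em]
    exact hab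

end Eqf

open Eqf

theorem eqf_proof : EQF.{u} := by
  intro V _ G _ D θ μ hE hI g x v R k t
  have hG := hE.tree.connected
  have h1 : ∀ᵐ ω ∂(Pm V), Function.Injective (tm ω.1) := by
    unfold Pm
    exact Measure.quasiMeasurePreserving_fst.ae ae_tm_inj
  filter_upwards [h1] with ω hω
  have hΛ : ∀ y, g y ∈ ballF G hG (g x) R ↔ y ∈ ballF G hG x R := by
    intro y
    rw [mem_ballF, mem_ballF, dist_map_eq hG]
  unfold mk stt
  rw [evl_eq, evl_eq]
  show mean μ (dn μ (shc g ω.2) (srt (shc g ω.1) (evs _ k t (shc g ω.1)))) (g v) = _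
  rw [srt_map g hΛ k t hω]
  exact mean_map hG hI.ising g _ _ v

end P161C
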