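import Vale.Agent.P161C.Base

/-!
# P161 at the critical point: assembly (module FIN)
-/

open MeasureTheory Set Filter Topology

namespace P161C

open P161

universe u

namespace Asm

section L2

variable {Ω : Type*} {mΩ : MeasurableSpace Ω} {P : Measure Ω} [IsProbabilityMeasure P]

theorem memLp_bdd {f : Ω → ℝ} (hf : Measurable f) (hb : ∀ ω, |f ω| ≤ 1) : MemLp f 2 P :=
  MemLp.of_bound hf.aestronglyMeasurable 1 (Eventually.of_forall fun ω => by simpa using hb ω)

theorem int_bdd {f : Ω → ℝ} (hf : Measurable f) {C : ℝ} (hb : ∀ ω, |f ω| ≤ C) :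
    Integrable f P :=
  Integrable.of_bound hf.aestronglyMeasurable C (Eventually.of_forall fun ω => by simpa using hb ω)

theorem exists_lim {Y : ℕ → Ω → ℝ} (hY : ∀ k, Measurable (Y k)) (hb : ∀ k ω, |Y k ω| ≤ 1)
    (h : ∀ ε : ℝ, 0 < ε → ∃ N : ℕ, ∀ k l, N ≤ k → k ≤ l → ∫ x, (Y k x - Y l x) ^ 2 ∂P ≤ ε) :
    ∃ X : Ω → ℝ, Measurable X ∧ (∀ ω, |X ω| ≤ 1) ∧ TendL2 P Y X := by
  have hbd4 : ∀ k l, ∫ x, (Y k x - Y l x) ^ 2 ∂P ≤ 4 := by
    intro k l
    calc ∫ x, (Y k x - Y l x) ^ 2 ∂P ≤ ∫ _x, (4 : ℝ) ∂P := by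
          refine integral_mono_of_nonneg (Eventually.of_forall fun _ => sq_nonneg _)
            (integrable_const _) (Eventually.of_forall fun ω => ?_)
          have h1 := abs_le.mp (hb k ω)
          have h2 := abs_le.mp (hb l ω)
          simp only
          nlinarith
      _ = 4 := by simp
  set ε : ℕ → ℝ := fun k => ⨆ m : ℕ, if k ≤ m then ∫ x, (Y k x - Y m x) ^ 2 ∂P else 0 with hε
  have hbdd : ∀ k, BddAbove (Set.range fun m : ℕ =>
      if k ≤ m then ∫ x, (Y k x - Y m x) ^ 2 ∂P else 0) := by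
    intro k
    refine ⟨4, ?_⟩
    rintro _ ⟨m, rfl⟩
    simp only
    split_ifs
    · exact hbd4 k m
    · norm_num
  have hε1 : ∀ k m, 0 ≤ k → k ≤ m → ∫ x, (Y k x - Y m x) ^ 2 ∂P ≤ ε k := by
    intro k m _ hkm
    have := le_ciSup (hbdd k) m
    simp only [hkm, if_true] at this
    exact this
  have hε2 : Tendsto ε atTop (𝓝 0) := by
    rw [Metric.tendsto_atTop]
    intro e he
    obtain ⟨N, hN⟩ := h (e / 2) (by linarith)
    refine ⟨N, fun k hk => ?_⟩
    have h0 : 0 ≤ ε k := by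
      have := hε1 k k (Nat.zero_le _) le_rfl
      exact le_trans (integral_nonneg fun _ => sq_nonneg _) this
    have h1 : ε k ≤ e / 2 := by
      refine ciSup_le fun m => ?_
      split_ifs with hkm
      · exact hN k m hk hkm
      · linarith
    rw [Real.dist_eq, sub_zero, abs_of_nonneg h0]
    linarith
  obtain ⟨X, hX1, hX2, hX3⟩ := exists_L2_limit (fun k => memLp_bdd (P := P) (hY k) (hb k)) hε2
    (k₀ := 0) hε1
  refine ⟨fun ω => max (-1) (min (X ω) 1), ?_, ?_, ?_⟩
  · exact measurable_const.max (hX1.min measurable_const)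
  · intro ω
    rw [abs_le]
    exact ⟨le_max_left _ _, max_le (by norm_num) (min_le_right _ _)⟩
  · refine squeeze_zero (fun k => integral_nonneg fun _ => sq_nonneg _) (fun k => ?_) hX3
    refine integral_mono_of_nonneg (Eventually.of_forall fun _ => sq_nonneg _)
      ((memLp_bdd (P := P) (hY k) (hb k)).sub hX2).integrable_sq
      (Eventually.of_forall fun ω => ?_)
    simp only
    have h1 := abs_le.mp (hb k ω)
    rw [sq_le_sq]
    rcases le_total (X ω) 1 with ha | ha
    · rw [min_eq_left ha]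
      rcases le_total (-1) (X ω) with hc | hc
      · rw [max_eq_right hc]
      · rw [max_eq_left hc, abs_of_nonneg (by linarith), abs_of_nonneg (by linarith)]
        linarith
    · rw [min_eq_right ha, max_eq_right (by norm_num), abs_of_nonpos (by linarith),
        abs_of_nonpos (by linarith)]
      linarith

theorem int_abs_sq {f : Ω → ℝ} (hf : MemLp f 2 P) :
    ∫ x, |f x| ∂P ≤ √(∫ x, f x ^ 2 ∂P) := by
  refine Real.le_sqrt_of_sq_le ?_
  set c := ∫ x, |f x| ∂P with hc
  have hi : Integrable (fun x => |f x|) P := (hf.integrable one_le_two).abs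
  have h0 : 0 ≤ ∫ x, (|f x| - c) ^ 2 ∂P := integral_nonneg fun _ => sq_nonneg _
  have e : ∫ x, (|f x| - c) ^ 2 ∂P = ∫ x, f x ^ 2 ∂P - c ^ 2 := by
    have e1 : ∀ x, (|f x| - c) ^ 2 = f x ^ 2 - 2 * c * |f x| + c ^ 2 := by
      intro x
      rw [sub_sq, sq_abs]
      ring
    simp_rw [e1]
    rw [integral_add, integral_sub, integral_const_mul, ← hc]
    · simp
      ring
    · exact hf.integrable_sq
    · exact hi.const_mul _
    · exact hf.integrable_sq.sub (hi.const_mul _)
    · exact integrable_const _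
  rw [e] at h0
  linarith

theorem tend_L1 {Y : ℕ → Ω → ℝ} {X : Ω → ℝ} (hY : ∀ k, Measurable (Y k))
    (hb : ∀ k ω, |Y k ω| ≤ 1) (hX : Measurable X) (hbX : ∀ ω, |X ω| ≤ 1) (h : TendL2 P Y X) :
    Tendsto (fun k => ∫ x, |Y k x - X x| ∂P) atTop (𝓝 0) := by
  have h1 : Tendsto (fun k => √(∫ x, (Y k x - X x) ^ 2 ∂P)) atTop (𝓝 0) := by
    have := (Real.continuous_sqrt.tendsto 0).comp h
    rwa [Real.sqrt_zero] at this
  refine squeeze_zero (fun k => integral_nonneg fun _ => abs_nonneg _) (fun k => ?_) h1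
  exact int_abs_sq ((memLp_bdd (P := P) (hY k) (hb k)).sub (memLp_bdd hX hbX))

theorem int_absd {f g : Ω → ℝ} (hf : Measurable f) (hbf : ∀ ω, |f ω| ≤ 1) (hg : Measurable g)
    (hbg : ∀ ω, |g ω| ≤ 1) : Integrable (fun ω => |f ω - g ω|) P := by
  refine int_bdd (C := 2) (hf.sub hg).abs (fun ω => ?_)
  rw [abs_abs]
  exact (abs_sub _ _).trans (by linarith [hbf ω, hbg ω])

theorem tend_sq_sub {Y Y' : ℕ → Ω → ℝ} {X X' : Ω → ℝ} (hY : ∀ k, Measurable (Y k))
    (hb : ∀ k ω, |Y k ω| ≤ 1) (hX : Measurable X) (hbX : ∀ ω, |X ω| ≤ 1) (h : TendL2 P Y X)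
    (hY' : ∀ k, Measurable (Y' k)) (hb' : ∀ k ω, |Y' k ω| ≤ 1) (hX' : Measurable X')
    (hbX' : ∀ ω, |X' ω| ≤ 1) (h' : TendL2 P Y' X') :
    Tendsto (fun k => ∫ x, (Y k x - Y' k x) ^ 2 ∂P) atTop (𝓝 (∫ x, (X x - X' x) ^ 2 ∂P)) := by
  rw [tendsto_iff_dist_tendsto_zero]
  have h1 := tend_L1 hY hb hX hbX h
  have h2 := tend_L1 hY' hb' hX' hbX' h'
  have h3 : Tendsto (fun k => 4 * (∫ x, |Y k x - X x| ∂P + ∫ x, |Y' k x - X' x| ∂P)) atTop
      (𝓝 0) := by
    have := (h1.add h2).const_mul 4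
    simpa using this
  refine squeeze_zero (fun k => dist_nonneg) (fun k => ?_) h3
  have i1 : Integrable (fun x => (Y k x - Y' k x) ^ 2) P :=
    ((memLp_bdd (P := P) (hY k) (hb k)).sub (memLp_bdd (hY' k) (hb' k))).integrable_sq
  have i2 : Integrable (fun x => (X x - X' x) ^ 2) P :=
    ((memLp_bdd (P := P) hX hbX).sub (memLp_bdd hX' hbX')).integrable_sq
  have i3 := int_absd (P := P) (hY k) (hb k) hX hbX
  have i4 := int_absd (P := P) (hY' k) (hb' k) hX' hbX'
  rw [Real.dist_eq, ← integral_sub i1 i2, ← integral_add i3 i4, ← integral_const_mul]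
  refine abs_integral_le_integral_abs.trans ?_
  refine integral_mono_of_nonneg (Eventually.of_forall fun _ => abs_nonneg _)
    ((i3.add i4).const_mul 4) (Eventually.of_forall fun ω => ?_)
  simp only
  have e : (Y k ω - Y' k ω) ^ 2 - (X ω - X' ω) ^ 2
      = ((Y k ω - X ω) - (Y' k ω - X' ω)) * ((Y k ω - Y' k ω) + (X ω - X' ω)) := by ring
  rw [e, abs_mul]
  have b1 : |(Y k ω - X ω) - (Y' k ω - X' ω)| ≤ |Y k ω - X ω| + |Y' k ω - X' ω| := abs_sub _ _
  have b2 : |(Y k ω - Y' k ω) + (X ω - X' ω)| ≤ 4 := by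
    have c1 := abs_le.mp (hb k ω)
    have c2 := abs_le.mp (hb' k ω)
    have c3 := abs_le.mp (hbX ω)
    have c4 := abs_le.mp (hbX' ω)
    rw [abs_le]
    constructor <;> linarith
  calc |(Y k ω - X ω) - (Y' k ω - X' ω)| * |(Y k ω - Y' k ω) + (X ω - X' ω)|
      ≤ (|Y k ω - X ω| + |Y' k ω - X' ω|) * 4 :=
        mul_le_mul b1 b2 (abs_nonneg _) (by positivity)
    _ = _ := by ring

theorem tend_sq {Y : ℕ → Ω → ℝ} {X : Ω → ℝ} (hY : ∀ k, Measurable (Y k))
    (hb : ∀ k ω, |Y k ω| ≤ 1) (hX : Measurable X) (hbX : ∀ ω, |X ω| ≤ 1) (h : TendL2 P Y X) :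
    Tendsto (fun k => ∫ x, Y k x ^ 2 ∂P) atTop (𝓝 (∫ x, X x ^ 2 ∂P)) := by
  have h0 : TendL2 P (fun _ : ℕ => fun _ : Ω => (0 : ℝ)) (fun _ => 0) := by
    unfold TendL2
    simp
  have := tend_sq_sub hY hb hX hbX h (fun _ => measurable_const) (fun _ _ => by simp)
    measurable_const (fun _ => by simp) h0
  simpa using this

theorem abs_one {X : Ω → ℝ} (hX : Measurable X) (hbX : ∀ ω, |X ω| ≤ 1)
    (h : 1 ≤ ∫ x, X x ^ 2 ∂P) : ∀ᵐ ω ∂P, |X ω| = 1 := by
  have i1 : Integrable (fun x => X x ^ 2) P := (memLp_bdd (P := P) hX hbX).integrable_sq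
  have hn : ∀ ω, 0 ≤ 1 - X ω ^ 2 := by
    intro ω
    have := hbX ω
    have h2 : X ω ^ 2 ≤ 1 := (sq_le_one_iff_abs_le_one _).mpr this
    linarith
  have e : ∫ x, (1 - X x ^ 2) ∂P = 0 := by
    refine le_antisymm ?_ (integral_nonneg hn)
    rw [integral_sub (integrable_const _) i1]
    simp
    linarith
  have := (integral_eq_zero_iff_of_nonneg hn ((integrable_const _).sub i1)).1 e
  filter_upwards [this] with ω hω
  have h1 : 1 - X ω ^ 2 = 0 := by simpa using hω
  have h2 : |X ω| ^ 2 = 1 := by rw [sq_abs]; linarith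
  have h3 : 0 ≤ |X ω| := abs_nonneg _
  nlinarith

theorem lim_ae {s : Ω → Ω} (hs : MeasurePreserving s P P) {Y Y' : ℕ → Ω → ℝ} {X X' : Ω → ℝ}
    (hY : ∀ k, Measurable (Y k)) (hb : ∀ k ω, |Y k ω| ≤ 1) (hX : Measurable X)
    (hbX : ∀ ω, |X ω| ≤ 1) (h : TendL2 P Y X)
    (hY' : ∀ k, Measurable (Y' k)) (hb' : ∀ k ω, |Y' k ω| ≤ 1) (hX' : Measurable X')
    (hbX' : ∀ ω, |X' ω| ≤ 1) (h' : TendL2 P Y' X') (hE : ∀ k, ∀ᵐ ω ∂P, Y k (s ω) = Y' k ω) :
    ∀ᵐ ω ∂P, X (s ω) = X' ω := by
  have h1 : TendL2 P (fun k ω => Y k (s ω)) (fun ω => X (s ω)) := by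
    unfold TendL2
    refine h.congr fun k => ?_
    have hm : Measurable fun ω => (Y k ω - X ω) ^ 2 := ((hY k).sub hX).pow_const 2
    conv_lhs => rw [← hs.map_eq]
    rw [integral_map hs.measurable.aemeasurable hm.aestronglyMeasurable]
  have hd : Tendsto (fun k => ∫ x, (Y k (s x) - Y' k x) ^ 2 ∂P) atTop (𝓝 0) := by
    have e : ∀ k, ∫ x, (Y k (s x) - Y' k x) ^ 2 ∂P = 0 := by
      intro k
      have : (fun x => (Y k (s x) - Y' k x) ^ 2) =ᵐ[P] fun _ => (0 : ℝ) := by
        filter_upwards [hE k] with x hx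
        rw [hx]
        simp
      rw [integral_congr_ae this]
      simp
    simp_rw [e]
    exact tendsto_const_nhds
  exact TendL2.unique
    (fun k => memLp_bdd ((hY k).comp hs.measurable) fun ω => hb k (s ω))
    (fun k => memLp_bdd (hY' k) (hb' k))
    (memLp_bdd (hX.comp hs.measurable) fun ω => hbX (s ω)) (memLp_bdd hX' hbX') h1 h' hd

/-! ### patterns -/

variable {V : Type u}

theorem h01 (a : Bool) {x : ℝ} (hx : |x| ≤ 1) :
    0 ≤ (1 + spin a * x) / 2 ∧ (1 + spin a * x) / 2 ≤ 1 := by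
  have h1 := abs_le.1 hx
  cases a <;> simp only [spin] <;> norm_num <;> constructor <;> linarith

theorem prod_sub_le (D' : Finset V) (a b : V → ℝ) (ha : ∀ v, 0 ≤ a v ∧ a v ≤ 1)
    (hb : ∀ v, 0 ≤ b v ∧ b v ≤ 1) :
    |∏ v ∈ D', a v - ∏ v ∈ D', b v| ≤ ∑ v ∈ D', |a v - b v| := by
  classical
  induction D' using Finset.induction_on with
  | empty => simp
  | insert w D' hw ih =>
      rw [Finset.prod_insert hw, Finset.prod_insert hw, Finset.sum_insert hw]
      have hp0 : 0 ≤ ∏ v ∈ D', a v := Finset.prod_nonneg fun v _ => (ha v).1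
      have hp1 : ∏ v ∈ D', a v ≤ 1 := Finset.prod_le_one (fun v _ => (ha v).1)
        fun v _ => (ha v).2
      have e : a w * ∏ v ∈ D', a v - b w * ∏ v ∈ D', b v
          = (a w - b w) * ∏ v ∈ D', a v + b w * (∏ v ∈ D', a v - ∏ v ∈ D', b v) := by ring
      rw [e]
      calc _ ≤ |(a w - b w) * ∏ v ∈ D', a v|
            + |b w * (∏ v ∈ D', a v - ∏ v ∈ D', b v)| := abs_add_le _ _
        _ = |a w - b w| * ∏ v ∈ D', a v + b w * |∏ v ∈ D', a v - ∏ v ∈ D', b v| := by
            rw [abs_mul, abs_mul, abs_of_nonneg hp0, abs_of_nonneg (hb w).1]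
        _ ≤ |a w - b w| * 1 + 1 * ∑ v ∈ D', |a v - b v| := by
            gcongr
            exact (hb w).2
        _ = _ := by ring

/-- expected pattern weight -/
noncomputable def Pf (P : Measure Ω) (D : Finset V) (η : V → Bool) (Y : V → Ω → ℝ) : ℝ :=
  ∫ ω, ∏ v ∈ D, (1 + spin (η v) * Y v ω) / 2 ∂P

theorem Pf_meas (D : Finset V) (η : V → Bool) {Y : V → Ω → ℝ} (hY : ∀ v, Measurable (Y v)) :
    Measurable fun ω => ∏ v ∈ D, (1 + spin (η v) * Y v ω) / 2 := by
  refine Finset.measurable_fun_prod _ fun v _ => ?_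
  exact ((measurable_const.add ((hY v).const_mul _)).div_const _)

theorem Pf_int (D : Finset V) (η : V → Bool) {Y : V → Ω → ℝ} (hY : ∀ v, Measurable (Y v))
    (hb : ∀ v ω, |Y v ω| ≤ 1) :
    Integrable (fun ω => ∏ v ∈ D, (1 + spin (η v) * Y v ω) / 2) P := by
  refine int_bdd (C := 1) (Pf_meas D η hY) fun ω => ?_
  rw [abs_of_nonneg (Finset.prod_nonneg fun v _ => (h01 _ (hb v ω)).1)]
  exact Finset.prod_le_one (fun v _ => (h01 _ (hb v ω)).1) fun v _ => (h01 _ (hb v ω)).2

theorem Pf_diff (D : Finset V) (η : V → Bool) {Y Z : V → Ω → ℝ} (hY : ∀ v, Measurable (Y v))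
    (hb : ∀ v ω, |Y v ω| ≤ 1) (hZ : ∀ v, Measurable (Z v)) (hc : ∀ v ω, |Z v ω| ≤ 1) :
    |Pf P D η Y - Pf P D η Z| ≤ ∑ v ∈ D, ∫ ω, |Y v ω - Z v ω| ∂P := by
  unfold Pf
  rw [← integral_sub (Pf_int D η hY hb) (Pf_int D η hZ hc),
    ← integral_finsetSum _ fun v _ => int_absd (hY v) (hb v) (hZ v) (hc v)]
  refine abs_integral_le_integral_abs.trans ?_
  refine integral_mono_of_nonneg (Eventually.of_forall fun _ => abs_nonneg _)
    (integrable_finsetSum _ fun v _ => int_absd (hY v) (hb v) (hZ v) (hc v))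
    (Eventually.of_forall fun ω => ?_)
  simp only
  refine (prod_sub_le D (fun v => (1 + spin (η v) * Y v ω) / 2)
    (fun v => (1 + spin (η v) * Z v ω) / 2) (fun v => h01 _ (hb v ω))
    (fun v => h01 _ (hc v ω))).trans ?_
  refine Finset.sum_le_sum fun v _ => ?_
  have : (1 + spin (η v) * Y v ω) / 2 - (1 + spin (η v) * Z v ω) / 2
      = spin (η v) * (Y v ω - Z v ω) / 2 := by ring
  rw [this, abs_div, abs_mul, abs_spin, one_mul, abs_two]
  have := abs_nonneg (Y v ω - Z v ω)
  linarith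

theorem Pf_tend (D : Finset V) (η : V → Bool) {Y : ℕ → V → Ω → ℝ} {Z : V → Ω → ℝ}
    (hY : ∀ k v, Measurable (Y k v)) (hb : ∀ k v ω, |Y k v ω| ≤ 1) (hZ : ∀ v, Measurable (Z v))
    (hc : ∀ v ω, |Z v ω| ≤ 1) (h : ∀ v, TendL2 P (fun k => Y k v) (Z v)) :
    Tendsto (fun k => Pf P D η (Y k)) atTop (𝓝 (Pf P D η Z)) := by
  rw [tendsto_iff_dist_tendsto_zero]
  have h3 : Tendsto (fun k => ∑ v ∈ D, ∫ ω, |Y k v ω - Z v ω| ∂P) atTop (𝓝 0) := by
    have := tendsto_finsetSum D fun v _ =>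
      tend_L1 (P := P) (fun k => hY k v) (fun k => hb k v) (hZ v) (hc v) (h v)
    simpa using this
  refine squeeze_zero (fun k => dist_nonneg) (fun k => ?_) h3
  rw [Real.dist_eq]
  exact Pf_diff D η (hY k) (hb k) hZ hc

end L2

/-! ### posterior pattern bound -/

section post

variable {V : Type u} {G : SimpleGraph V} {μ : Measure (V → Bool)}

theorem loc_pat (η : V → Bool) (D : Finset V) :
    Loc fun s : V → Bool => ∏ v ∈ D, (1 + spin (η v) * spin (s v)) / 2 := by
  refine ⟨D, fun x y hxy => Finset.prod_congr rfl fun v hv => ?_⟩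
  rw [hxy v (by simpa using hv)]

theorem post_pattern [IsProbabilityMeasure μ] {ρ : (V → Bool) → ℝ} (hP : Post G μ ρ)
    (η : V → Bool) (D : Finset V) :
    |∫ s, ρ s * (∏ v ∈ D, (1 + spin (η v) * spin (s v)) / 2) ∂μ
        - ∏ v ∈ D, (1 + spin (η v) * mean μ ρ v) / 2|
      ≤ ∑ v ∈ D, (1 - mean μ ρ v ^ 2) / 2 := by
  classical
  have hloc : ∀ D : Finset V, Loc fun s : V → Bool =>
      ∏ v ∈ D, (1 + spin (η v) * spin (s v)) / 2 := loc_pat η
  have g01 : ∀ (a b : Bool), 0 ≤ (1 + spin a * spin b) / 2 ∧ (1 + spin a * spin b) / 2 ≤ 1 := by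
    intro a b
    cases a <;> cases b <;> norm_num [spin]
  have hp01 : ∀ v, 0 ≤ (1 + spin (η v) * mean μ ρ v) / 2 ∧
      (1 + spin (η v) * mean μ ρ v) / 2 ≤ 1 := fun v => h01 _ (hP.abs_mean_le v)
  induction D using Finset.induction_on with
  | empty => simp [hP.mass]
  | insert a D ha ih =>
      rw [Finset.sum_insert ha, Finset.prod_insert ha]
      simp only [Finset.prod_insert ha]
      set pa := (1 + spin (η a) * mean μ ρ a) / 2 with hpa
      set A : (V → Bool) → ℝ := fun s => (1 + spin (η a) * spin (s a)) / 2 with hA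
      set B : (V → Bool) → ℝ := fun s => ∏ v ∈ D, (1 + spin (η v) * spin (s v)) / 2 with hB
      set b := ∏ v ∈ D, (1 + spin (η v) * mean μ ρ v) / 2 with hb
      have hAl : Loc A := ((Loc.const 1).add ((Loc.coord a).const_mul _)).op₁ (fun x => x / 2)
      have hB01 : ∀ s, 0 ≤ B s ∧ B s ≤ 1 := fun s =>
        ⟨Finset.prod_nonneg fun v _ => (g01 _ _).1, Finset.prod_le_one (fun v _ => (g01 _ _).1)
          fun v _ => (g01 _ _).2⟩
      have e1 : ∫ s, ρ s * (A s * B s) ∂μ - pa * b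
          = ∫ s, ρ s * ((A s - pa) * B s) ∂μ
            + pa * (∫ s, ρ s * B s ∂μ - b) := by
        have i1 : Integrable (fun s => ρ s * ((A s - pa) * B s)) μ :=
          (hP.loc.mul ((hAl.sub (Loc.const pa)).mul (hloc D))).integrable μ
        have i2 : Integrable (fun s => pa * (ρ s * B s)) μ :=
          ((hP.loc.mul (hloc D)).const_mul pa).integrable μ
        have : ∀ s, ρ s * (A s * B s)
            = ρ s * ((A s - pa) * B s) + pa * (ρ s * B s) := fun s => by
          ring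
        simp_rw [this]
        rw [integral_add i1 i2, integral_const_mul]
        ring
      have e2 : |∫ s, ρ s * ((A s - pa) * B s) ∂μ| ≤ (1 - mean μ ρ a ^ 2) / 2 := by
        have hbnd : ∀ s, |ρ s * ((A s - pa) * B s)|
            ≤ ρ s * (A s * (1 - pa) + (1 - A s) * pa) := by
          intro s
          rw [abs_mul, abs_of_pos (hP.pos s)]
          refine mul_le_mul_of_nonneg_left ?_ (hP.pos s).le
          rw [abs_mul, abs_of_nonneg (hB01 s).1]
          have hA01 : A s = 0 ∨ A s = 1 := by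
            simp only [hA]
            cases η a <;> cases s a <;> norm_num [spin]
          have hpa01 := hp01 a
          rw [← hpa] at hpa01
          calc |A s - pa| * B s ≤ |A s - pa| * 1 := by
                gcongr; exact (hB01 s).2
            _ ≤ _ := by
                rcases hA01 with h | h <;> rw [h] <;> simp only [mul_one] <;>
                  refine abs_le.2 ⟨?_, ?_⟩ <;> linarith
        calc _ ≤ ∫ s, |ρ s * ((A s - pa) * B s)| ∂μ := abs_integral_le_integral_abs
          _ ≤ ∫ s, ρ s * (A s * (1 - pa) + (1 - A s) * pa) ∂μ := by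
              refine integral_mono ((hP.loc.mul ((hAl.sub (Loc.const pa)).mul
                (hloc D))).abs.integrable μ) ?_ hbnd
              exact (hP.loc.mul ((hAl.mul (Loc.const _)).add
                (((Loc.const 1).sub hAl).mul (Loc.const _)))).integrable μ
          _ = (1 - mean μ ρ a ^ 2) / 2 := by
              have : ∀ s, ρ s * (A s * (1 - pa) + (1 - A s) * pa)
                  = ((1 - pa) / 2 + pa / 2) * ρ s
                    + ((1 - 2 * pa) * spin (η a) / 2) * (ρ s * spin (s a)) := by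
                intro s
                simp only [hA]; ring
              simp_rw [this]
              have i1 : Integrable (fun s => ((1 - pa) / 2 + pa / 2) * ρ s) μ :=
                (hP.loc.const_mul _).integrable μ
              have i2 : Integrable (fun s => ((1 - 2 * pa) * spin (η a) / 2)
                  * (ρ s * spin (s a))) μ :=
                ((hP.loc.mul (Loc.coord a)).const_mul _).integrable μ
              rw [integral_add i1 i2, integral_const_mul, integral_const_mul, hP.mass]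
              have hm : ∫ s, ρ s * spin (s a) ∂μ = mean μ ρ a := rfl
              rw [hm, hpa]
              have := spin_sq (η a)
              linear_combination (- mean μ ρ a ^ 2 / 2) * this
      rw [e1]
      have hpa01 := hp01 a
      rw [← hpa] at hpa01
      calc _ ≤ |∫ s, ρ s * ((A s - pa) * B s) ∂μ|
            + |pa * (∫ s, ρ s * B s ∂μ - b)| := abs_add_le _ _
        _ ≤ (1 - mean μ ρ a ^ 2) / 2 + 1 * ∑ v ∈ D, (1 - mean μ ρ v ^ 2) / 2 := by
            rw [abs_mul, abs_of_nonneg hpa01.1]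
            gcongr
            exact hpa01.2
        _ = _ := by ring

end post

section main

variable {V : Type u} [Countable V] {G : SimpleGraph V} [G.LocallyFinite] {D : ℕ}

theorem thc_facts (hD : 2 ≤ D) : 0 ≤ thc D ∧ thc D ^ 2 * D = 1 ∧ thc D < 1 := by
  have hD' : (2 : ℝ) ≤ D := by exact_mod_cast hD
  have hs : 0 < √(D : ℝ) := Real.sqrt_pos.mpr (by linarith)
  have h1 : thc D ^ 2 * D = 1 := by
    unfold thc
    rw [div_pow, Real.sq_sqrt (by linarith)]
    field_simp
  have h0 : 0 ≤ thc D := by unfold thc; positivity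
  refine ⟨h0, h1, ?_⟩
  by_contra hcon
  rw [not_lt] at hcon
  nlinarith

theorem thk_facts (hD : 2 ≤ D) (k : ℕ) :
    0 ≤ thk D k ∧ thk D k ^ 2 * D < 1 ∧ thk D k < 1 := by
  obtain ⟨h0, h1, h2⟩ := thc_facts hD
  have e : thk D k = thc D * (1 - 1 / 8 ^ k) := rfl
  have p1 : (0 : ℝ) < 1 / 8 ^ k := by positivity
  have p2 : (1 : ℝ) / 8 ^ k ≤ 1 := by
    rw [div_le_one (by positivity)]
    exact one_le_pow₀ (by norm_num)
  have p3 : (1 - 1 / 8 ^ k : ℝ) ^ 2 < 1 := by nlinarith
  refine ⟨?_, ?_, ?_⟩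
  · rw [e]; exact mul_nonneg h0 (by linarith)
  · rw [e, mul_pow, mul_right_comm, h1, one_mul]; exact p3
  · rw [e]; nlinarith

theorem thk_tendsto (D : ℕ) : Tendsto (fun k => thk D k) atTop (𝓝 (thc D)) := by
  have h1 : Tendsto (fun k : ℕ => ((1 : ℝ) / 8) ^ k) atTop (𝓝 0) :=
    tendsto_pow_atTop_nhds_zero_of_lt_one (by norm_num) (by norm_num)
  have h2 : Tendsto (fun k : ℕ => thc D * (1 - (1 / 8 : ℝ) ^ k)) atTop (𝓝 (thc D * (1 - 0))) :=
    (h1.const_sub 1).const_mul _
  rw [sub_zero, mul_one] at h2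
  refine h2.congr fun k => ?_
  unfold thk thc
  rw [div_pow, one_pow]

omit [Countable V] in
theorem abs_pairSpin (η : V → Bool) (e : Sym2 V) : |pairSpin η e| = 1 := by
  induction e using Sym2.inductionOn with
  | hf a b =>
    unfold pairSpin
    rw [Sym2.lift_mk, abs_mul, abs_spin, abs_spin, one_mul]

/-- probability of a pattern on a connected set as a function of the edge parameter -/
noncomputable def cw (G : SimpleGraph V) (E : Finset V) (η : V → Bool) (θ : ℝ) : ℝ :=
  1 / 2 * ∏ e ∈ edgesIn G E, (1 + θ * pairSpin η e) / 2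

omit [Countable V] [G.LocallyFinite] in
theorem cw_pos (E : Finset V) (η : V → Bool) {θ : ℝ} (h0 : 0 ≤ θ) (h1 : θ < 1) :
    0 < cw G E η θ := by
  unfold cw
  refine mul_pos (by norm_num) (Finset.prod_pos fun e _ => ?_)
  have h := abs_pairSpin η e
  have h2 : |θ * pairSpin η e| < 1 := by
    rw [abs_mul, h, mul_one, abs_of_nonneg h0]; exact h1
  have := (abs_lt.mp h2).1
  linarith

omit [Countable V] [G.LocallyFinite] in
theorem cw_tendsto (E : Finset V) (η : V → Bool) (D : ℕ) :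
    Tendsto (fun k => cw G E η (thk D k)) atTop (𝓝 (cw G E η (thc D))) := by
  unfold cw
  refine Tendsto.const_mul _ (tendsto_finsetProd _ fun e _ => ?_)
  exact (((thk_tendsto D).mul_const _).const_add 1).div_const 2

/-- the spin field -/
noncomputable def Sf (X : V → Om V → ℝ) (ω : Om V) : V → Bool :=
  fun v => @decide (0 < X v ω) (Classical.dec _)

omit [Countable V] [G.LocallyFinite] in
theorem measurable_Sf {X : V → Om V → ℝ} (hX : ∀ v, Measurable (X v)) : Measurable (Sf X) := by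
  refine measurable_pi_lambda _ fun v => ?_
  have : MeasurableSet {ω | 0 < X v ω} := measurableSet_lt measurable_const (hX v)
  unfold Sf
  exact measurable_to_bool (by
    convert this using 1
    ext ω; simp)

omit [Countable V] [G.LocallyFinite] in
theorem spin_Sf {X : V → Om V → ℝ} {v : V} {ω : Om V} (h : |X v ω| = 1) :
    spin (Sf X ω v) = X v ω := by
  unfold Sf spin
  rcases eq_or_eq_neg_of_abs_eq h with h | h <;> rw [h] <;> norm_num

end main

end Asm

open Asm in
theorem fin_proof (hCONV : CONV.{u}) (hLIM : LIM.{u}) (hLIMQ : LIMQ.{u}) (hSTT : STT.{u})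
    (hSTARM : STARM.{u}) (hVAR : VAR.{u}) (hSHP : SHP.{u}) : FIN.{u} := by
  intro V _ G _ D hE μ hμ
  classical
  have hD := hE.hD
  have hμp := hμ.isProb
  obtain ⟨o⟩ := hE.tree.connected.nonempty
  obtain ⟨-, hsh, F, hFm, hFlaw, hFsh⟩ := hSHP V G
  obtain ⟨C, hC0, hVAR'⟩ := hVAR
  -- the sequence of measures
  have hex : ∀ k, ∃ ν : Measure (V → Bool), IsFreeIsing G (thk D k) ν := fun k =>
    exists_isFreeIsing hE.tree (thk_facts hD k).1 (thk_facts hD k).2.2.le
  choose μs hμs using hex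
  have hIsg : ∀ k, Isg G D (thk D k) (μs k) := fun k =>
    ⟨hμs k, (thk_facts hD k).1, (thk_facts hD k).2.1.le⟩
  have hlt : ∀ k, thk D k ^ 2 * D < 1 := fun k => (thk_facts hD k).2.1
  have hμsp : ∀ k, IsProbabilityMeasure (μs k) := fun k => (hμs k).isProb
  set M : ℕ → ℝ → V → Om V → ℝ := fun k t v => Mi G hE.tree.connected (μs k) k t v with hM
  have hMm : ∀ k t v, Measurable (M k t v) := fun k t v =>
    (hLIM V G D (thk D k) (μs k) hE (hIsg k) (hlt k) k t v).1
  have hMb : ∀ k t v ω, |M k t v ω| ≤ 1 := fun k t v =>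
    (hLIM V G D (thk D k) (μs k) hE (hIsg k) (hlt k) k t v).2.1
  have hMl : ∀ k t v x, TendL2 (Pm V)
      (fun R => mk (μs k) (ballF G hE.tree.connected x R) k t v) (M k t v) := fun k t v =>
    (hLIM V G D (thk D k) (μs k) hE (hIsg k) (hlt k) k t v).2.2
  have hmkm : ∀ k (Λ : Finset V) t v, Measurable (mk (μs k) Λ k t v) := fun k Λ t v =>
    (hSTT V G D (thk D k) (μs k) hE (hIsg k) Λ k).2.2.2.1 t v
  have hmkb : ∀ k (Λ : Finset V) t v ω, |mk (μs k) Λ k t v ω| ≤ 1 := fun k Λ t v =>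
    (hSTT V G D (thk D k) (μs k) hE (hIsg k) Λ k).2.2.2.2.2.1 t v
  have hpost : ∀ k (Λ : Finset V) t ω, Post G (μs k) (stt (μs k) Λ k t ω) := fun k Λ t ω =>
    (hSTT V G D (thk D k) (μs k) hE (hIsg k) Λ k).1 t ω
  -- (A) limits in k
  have hA : ∀ (J : ℕ) (v : V), ∃ X : Om V → ℝ, Measurable X ∧ (∀ ω, |X ω| ≤ 1) ∧
      TendL2 (Pm V) (fun k => M k J v) X := fun J v =>
    exists_lim (fun k => hMm k J v) (fun k => hMb k J v)
      (fun ε hε => hCONV D J hD V G hE μs hIsg v ε hε)
  choose XJ hXJm hXJb hXJl using hA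
  -- (B) variance
  have hB : ∀ (k J : ℕ) (v : V), 1 - C / (J + 1) ≤ ∫ ω, M k J v ω ^ 2 ∂(Pm V) := by
    intro k J v
    refine ge_of_tendsto (tend_sq (fun R => hmkm k _ J v) (fun R => hmkb k _ J v) (hMm k J v)
      (hMb k J v) (hMl k J v v)) (Eventually.of_forall fun R => ?_)
    exact hVAR' V G D (thk D k) (μs k) hE (hIsg k) _ k J v (by
      rw [mem_ballF, SimpleGraph.dist_self]; exact Nat.zero_le _)
  have hB' : ∀ (J : ℕ) (v : V), 1 - C / (J + 1) ≤ ∫ ω, XJ J v ω ^ 2 ∂(Pm V) := by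
    intro J v
    exact ge_of_tendsto (tend_sq (fun k => hMm k J v) (fun k => hMb k J v) (hXJm J v) (hXJb J v)
      (hXJl J v)) (Eventually.of_forall fun k => hB k J v)
  -- (C) martingale
  have hsq1 : ∀ {f : Om V → ℝ}, Measurable f → (∀ ω, |f ω| ≤ 1) →
      ∫ ω, f ω ^ 2 ∂(Pm V) ≤ 1 := by
    intro f hf hb
    calc ∫ ω, f ω ^ 2 ∂(Pm V) ≤ ∫ _ω, (1 : ℝ) ∂(Pm V) := by
          refine integral_mono_of_nonneg (Eventually.of_forall fun _ => sq_nonneg _)
            (integrable_const _) (Eventually.of_forall fun ω => ?_)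
          exact (sq_le_one_iff_abs_le_one _).mpr (hb ω)
      _ = 1 := by simp
  have hCm : ∀ (k J J' : ℕ) (v : V), J ≤ J' →
      ∫ ω, (M k J v ω - M k J' v ω) ^ 2 ∂(Pm V) ≤ C / (J + 1) := by
    intro k J J' v hJ
    have h1 := (hLIMQ V G D (thk D k) (thk D k) (μs k) (μs k) hE (hIsg k) (hIsg k) (hlt k)
      (hlt k) k k v).2.2.2 J J' (by exact_mod_cast hJ)
    have h2 : ∫ ω, (M k J v ω - M k J' v ω) ^ 2 ∂(Pm V)
        = ∫ ω, (M k J' v ω - M k J v ω) ^ 2 ∂(Pm V) := by
      congr 1; ext ω; ring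
    rw [h2, h1]
    have h3 := hB k J v
    have h4 := hsq1 (hMm k J' v) (hMb k J' v)
    simp only [hM] at h3 h4
    linarith
  have hD' : ∀ (J J' : ℕ) (v : V), J ≤ J' →
      ∫ ω, (XJ J v ω - XJ J' v ω) ^ 2 ∂(Pm V) ≤ C / (J + 1) := by
    intro J J' v hJ
    exact le_of_tendsto (tend_sq_sub (fun k => hMm k J v) (fun k => hMb k J v) (hXJm J v)
      (hXJb J v) (hXJl J v) (fun k => hMm k J' v) (fun k => hMb k J' v) (hXJm J' v)
      (hXJb J' v) (hXJl J' v)) (Eventually.of_forall fun k => hCm k J J' v hJ)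
  have hCJ : Tendsto (fun J : ℕ => C / ((J : ℝ) + 1)) atTop (𝓝 0) := by
    have := (tendsto_one_div_add_atTop_nhds_zero_nat (𝕜 := ℝ)).const_mul C
    rw [mul_zero] at this
    refine this.congr fun J => ?_
    rw [mul_one_div]
  -- (E) limits in J
  have hX : ∀ v : V, ∃ X : Om V → ℝ, Measurable X ∧ (∀ ω, |X ω| ≤ 1) ∧
      TendL2 (Pm V) (fun J => XJ J v) X := by
    intro v
    refine exists_lim (fun J => hXJm J v) (fun J => hXJb J v) (fun ε hε => ?_)
    have h1 : ∀ᶠ J : ℕ in atTop, C / ((J : ℝ) + 1) < ε := (tendsto_order.1 hCJ).2 ε hε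
    obtain ⟨N, hN⟩ := eventually_atTop.mp h1
    exact ⟨N, fun k l hk hkl => (hD' k l v hkl).trans (hN k hk).le⟩
  choose X hXm hXb hXl using hX
  -- (F) values
  have habs : ∀ᵐ ω ∂(Pm V), ∀ v, |X v ω| = 1 := by
    rw [ae_all_iff]
    intro v
    refine abs_one (hXm v) (hXb v) ?_
    have h1 := tend_sq (fun J => hXJm J v) (fun J => hXJb J v) (hXm v) (hXb v) (hXl v)
    have h2 : Tendsto (fun J : ℕ => 1 - C / ((J : ℝ) + 1)) atTop (𝓝 (1 - 0)) :=
      hCJ.const_sub 1
    rw [sub_zero] at h2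
    exact le_of_tendsto_of_tendsto' h2 h1 fun J => hB' J v
  -- (G) the law
  have hΦm : Measurable (Sf X) := measurable_Sf hXm
  have hΦp : IsProbabilityMeasure ((Pm V).map (Sf X)) :=
    Measure.isProbabilityMeasure_map hΦm.aemeasurable
  have hlaw : (Pm V).map (Sf X) = μ := by
    refine IsFreeIsing.unique hE.tree.connected (θ := thc D) ⟨hΦp, fun E hEc η => ?_⟩ hμ
    have e1 : ((Pm V).map (Sf X)).real {s | ∀ v ∈ E, s v = η v} = Pf (Pm V) E η X := by
      have e0 := real_pattern ((Pm V).map (Sf X)) id measurable_id E η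
      simp only [id] at e0
      rw [e0, integral_map hΦm.aemeasurable (loc_pat η E).measurable.aestronglyMeasurable]
      unfold Pf
      refine integral_congr_ae ?_
      filter_upwards [habs] with ω hω
      refine Finset.prod_congr rfl fun v _ => ?_
      rw [spin_Sf (hω v)]
    have hck : ∀ k, ∫ s, ∏ v ∈ E, (1 + spin (η v) * spin (s v)) / 2 ∂(μs k)
        = cw G E η (thk D k) := by
      intro k
      have := real_pattern (μs k) id measurable_id E η
      simp only [id] at this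
      rw [← this, (hμs k).cylinder E hEc η]
      rfl
    -- claim 1
    have cl1 : ∀ k J : ℕ, |Pf (Pm V) E η (M k J) - cw G E η (thk D k)|
        ≤ E.card * (C / (J + 1) / 2) := by
      intro k J
      have hmem : ∀ᶠ R : ℕ in atTop, ∀ v ∈ E, v ∈ ballF G hE.tree.connected o R := by
        rw [Finset.eventually_all]
        intro v _
        filter_upwards [eventually_ge_atTop (G.dist o v)] with R hR
        rw [mem_ballF]; exact hR
      have htend : Tendsto (fun R : ℕ => |Pf (Pm V) E η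
          (fun v => mk (μs k) (ballF G hE.tree.connected o R) k J v) - cw G E η (thk D k)|)
          atTop (𝓝 |Pf (Pm V) E η (M k J) - cw G E η (thk D k)|) := by
        refine Tendsto.abs (Tendsto.sub_const ?_ _)
        exact Pf_tend E η (fun R v => hmkm k _ J v) (fun R v => hmkb k _ J v)
          (fun v => hMm k J v) (fun v => hMb k J v) (fun v => hMl k J v o)
      refine le_of_tendsto htend ?_
      filter_upwards [hmem] with R hR
      set Λ := ballF G hE.tree.connected o R with hΛ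
      set g : Om V → ℝ := fun ω => ∫ σ, stt (μs k) Λ k J ω σ *
        ∏ v ∈ E, (1 + spin (η v) * spin (σ v)) / 2 ∂(μs k) with hg
      have hgint : ∫ ω, g ω ∂(Pm V) = cw G E η (thk D k) := by
        rw [← hck k]
        exact (hSTARM V G D (thk D k) (thk D k) (μs k) (μs k) hE (hIsg k) (hIsg k) Λ Λ k k o
          J J le_rfl).2.2 _ (loc_pat η E)
      have hgi : Integrable g (Pm V) := by
        by_contra hcon
        have h1 := integral_undef hcon
        rw [hgint] at h1
        have h2 := cw_pos (G := G) E η (thk_facts hD k).1 (thk_facts hD k).2.2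
        linarith
      have i2 : ∀ v, Integrable (fun ω => (1 - mk (μs k) Λ k J v ω ^ 2) / 2) (Pm V) := fun v =>
        ((integrable_const _).sub
          (memLp_bdd (hmkm k Λ J v) (hmkb k Λ J v)).integrable_sq).div_const 2
      have i3 := Pf_int (P := Pm V) E η (Y := fun v => mk (μs k) Λ k J v)
        (fun v => hmkm k Λ J v) (fun v => hmkb k Λ J v)
      rw [← hgint]
      unfold Pf
      rw [← integral_sub i3 hgi]
      refine abs_integral_le_integral_abs.trans ?_
      calc ∫ ω, |(∏ v ∈ E, (1 + spin (η v) * mk (μs k) Λ k J v ω) / 2) - g ω| ∂(Pm V)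
          ≤ ∫ ω, ∑ v ∈ E, (1 - mk (μs k) Λ k J v ω ^ 2) / 2 ∂(Pm V) := by
            refine integral_mono_of_nonneg (Eventually.of_forall fun _ => abs_nonneg _)
              (integrable_finsetSum _ fun v _ => i2 v) (Eventually.of_forall fun ω => ?_)
            simp only
            rw [abs_sub_comm]
            exact post_pattern (hpost k Λ J ω) η E
        _ = ∑ v ∈ E, ∫ ω, (1 - mk (μs k) Λ k J v ω ^ 2) / 2 ∂(Pm V) :=
            integral_finsetSum _ fun v _ => i2 v
        _ ≤ ∑ _v ∈ E, C / (J + 1) / 2 := by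
            refine Finset.sum_le_sum fun v hv => ?_
            rw [integral_div, integral_sub (integrable_const _)
              (memLp_bdd (hmkm k Λ J v) (hmkb k Λ J v)).integrable_sq]
            have := hVAR' V G D (thk D k) (μs k) hE (hIsg k) Λ k J v (hR v hv)
            simp only [integral_const, probReal_univ, one_smul]
            linarith
        _ = E.card * (C / (J + 1) / 2) := by rw [Finset.sum_const, nsmul_eq_mul]
    -- claim 2
    have cl2 : ∀ J : ℕ, |Pf (Pm V) E η (XJ J) - cw G E η (thc D)|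
        ≤ E.card * (C / (J + 1) / 2) := by
      intro J
      have htend : Tendsto (fun k : ℕ => |Pf (Pm V) E η (M k J) - cw G E η (thk D k)|)
          atTop (𝓝 |Pf (Pm V) E η (XJ J) - cw G E η (thc D)|) := by
        refine Tendsto.abs (Tendsto.sub ?_ (cw_tendsto E η D))
        exact Pf_tend E η (fun k v => hMm k J v) (fun k v => hMb k J v)
          (fun v => hXJm J v) (fun v => hXJb J v) (fun v => hXJl J v)
      exact le_of_tendsto htend (Eventually.of_forall fun k => cl1 k J)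
    -- claim 3
    have cl3 : Pf (Pm V) E η X = cw G E η (thc D) := by
      have htend : Tendsto (fun J : ℕ => |Pf (Pm V) E η (XJ J) - cw G E η (thc D)|)
          atTop (𝓝 |Pf (Pm V) E η X - cw G E η (thc D)|) := by
        refine Tendsto.abs (Tendsto.sub_const ?_ _)
        exact Pf_tend E η (fun J v => hXJm J v) (fun J v => hXJb J v)
          (fun v => hXm v) (fun v => hXb v) (fun v => hXl v)
      have h0 : Tendsto (fun J : ℕ => (E.card : ℝ) * (C / ((J : ℝ) + 1) / 2)) atTop (𝓝 0) := by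
        have := (hCJ.div_const 2).const_mul (E.card : ℝ)
        simpa using this
      have h1 := le_of_tendsto_of_tendsto' htend h0 cl2
      have h2 := abs_eq_zero.1 (le_antisymm h1 (abs_nonneg _))
      linarith
    rw [e1, cl3]
    rfl
  -- (H) equivariance
  have hmp : ∀ g : G ≃g G, MeasurePreserving (sh g) (Pm V) (Pm V) := fun g =>
    ⟨(hsh g).1, (hsh g).2⟩
  have heqJ : ∀ (g : G ≃g G) (J : ℕ) (v : V),
      ∀ᵐ ω ∂(Pm V), XJ J (g v) (sh g ω) = XJ J v ω := by
    intro g J v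
    exact lim_ae (hmp g) (fun k => hMm k J (g v)) (fun k => hMb k J (g v)) (hXJm J (g v))
      (hXJb J (g v)) (hXJl J (g v)) (fun k => hMm k J v) (fun k => hMb k J v) (hXJm J v)
      (hXJb J v) (hXJl J v) (fun k => (hLIMQ V G D (thk D k) (thk D k) (μs k) (μs k) hE (hIsg k)
        (hIsg k) (hlt k) (hlt k) k k v).1 J g)
  have heq : ∀ (g : G ≃g G) (v : V), ∀ᵐ ω ∂(Pm V), X (g v) (sh g ω) = X v ω := by
    intro g v
    exact lim_ae (hmp g) (fun J => hXJm J (g v)) (fun J => hXJb J (g v)) (hXm (g v))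
      (hXb (g v)) (hXl (g v)) (fun J => hXJm J v) (fun J => hXJb J v) (hXm v)
      (hXb v) (hXl v) (fun J => heqJ g J v)
  refine ⟨fun U => Sf X (F U), hΦm.comp hFm, ?_, ?_⟩
  · intro g
    have hae : ∀ᵐ ω ∂(Pm V), ∀ v, X (g v) (sh g ω) = X v ω := by
      rw [ae_all_iff]
      exact fun v => heq g v
    rw [← hFlaw] at hae
    have hae' := ae_of_ae_map (p := fun ω => ∀ v, X (g v) (sh g ω) = X v ω)
      hFm.aemeasurable hae
    filter_upwards [hae'] with U hU
    funext v
    have h2 := hU (g.symm v)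
    rw [RelIso.apply_symm_apply] at h2
    unfold Sf
    rw [hFsh g U]
    simp only [h2]
  · have : (fun U : V → unitInterval => Sf X (F U)) = Sf X ∘ F := rfl
    rw [this, ← Measure.map_map hΦm hFm, hFlaw, hlaw]

end P161C
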