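import Vale.Agent.P161C.BT

/-! # P161 at the critical point, module FLDX -/

open MeasureTheory Set Filter Topology

namespace P161C

open P161

universe u

/-! ### parameters -/

theorem thk_nonneg (D k : ℕ) : 0 ≤ thk D k := by
  unfold thk
  have h : (1 : ℝ) / 8 ^ k ≤ 1 := by
    rw [div_le_one (by positivity)]
    exact one_le_pow₀ (by norm_num)
  have : 0 ≤ 1 - (1 : ℝ) / 8 ^ k := by linarith
  positivity

theorem thk_sq {D : ℕ} (hD : 2 ≤ D) (k : ℕ) : thk D k ^ 2 * D = (1 - 1 / 8 ^ k) ^ 2 := by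
  unfold thk
  have hDr : (0 : ℝ) < D := by positivity
  rw [mul_pow, div_pow, one_pow, Real.sq_sqrt hDr.le]
  field_simp

theorem eighth_le {k : ℕ} (hk : 1 ≤ k) : (1 : ℝ) / 8 ^ k ≤ 1 / 8 := by
  apply one_div_le_one_div_of_le (by norm_num)
  calc (8 : ℝ) = 8 ^ 1 := by norm_num
    _ ≤ 8 ^ k := pow_le_pow_right₀ (by norm_num) hk

theorem thk_lt {D : ℕ} (hD : 2 ≤ D) (k : ℕ) : thk D k ^ 2 * D < 1 := by
  rw [thk_sq hD]
  have h1 : (0 : ℝ) < 1 / 8 ^ k := by positivity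
  have h2 : (1 : ℝ) / 8 ^ k ≤ 1 := by
    rw [div_le_one (by positivity)]
    exact one_le_pow₀ (by norm_num)
  nlinarith

theorem thk_half {D : ℕ} (hD : 2 ≤ D) {k : ℕ} (hk : 1 ≤ k) : 1 / 2 ≤ thk D k ^ 2 * D := by
  rw [thk_sq hD]
  have := eighth_le hk
  nlinarith

theorem thk_sq_half {D : ℕ} (hD : 2 ≤ D) (k : ℕ) : thk D k ^ 2 ≤ 1 / 2 := by
  have h1 := thk_lt hD k
  have hDr : (2 : ℝ) ≤ D := by exact_mod_cast hD
  nlinarith [sq_nonneg (thk D k)]

/-! ### the limit of the fields -/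

variable {V : Type u}

theorem field_BT (hL : LIM.{u}) (hst : STT.{u}) [Countable V] {G : SimpleGraph V}
    [G.LocallyFinite] {D : ℕ} {θ : ℝ} {μ : Measure (V → Bool)} (hE : Env G D)
    (hI : Isg G D θ μ) (hθ : θ ^ 2 * D < 1) (k : ℕ) (t : ℝ) (p v : V) :
    BT (Pm V) 1 (fun R => mk μ (ballF G hE.tree.connected p R) k t v)
      (Mi G hE.tree.connected μ k t v) := by
  obtain ⟨h1, h2, h3⟩ := hL V G D θ μ hE hI hθ k t v
  refine BT.ofL2 (fun R => ?_) h1 (fun R ω => ?_) h2 (h3 p)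
  · exact (hst V G D θ μ hE hI _ k).2.2.2.1 t v
  · exact (hst V G D θ μ hE hI _ k).2.2.2.2.2.1 t v ω

theorem fx_kt_le {r y α : ℝ} (hr : 0 ≤ r) (hy : 0 < y) : |kt r y α| ≤ r := by
  unfold kt
  rw [abs_mul, abs_of_nonneg hr, abs_of_pos (Real.exp_pos _)]
  have h1 : Real.exp (-(α ^ 2 / y)) ≤ 1 := by
    rw [Real.exp_le_one_iff]
    have : 0 ≤ α ^ 2 / y := by positivity
    linarith
  nlinarith

theorem fx_kt_lip {r y B α β : ℝ} (hr : 0 ≤ r) (hy : 0 < y) (hα : |α| ≤ B) (hβ : |β| ≤ B) :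
    |kt r y α - kt r y β| ≤ (r * (2 * B / y)) * |α - β| := by
  unfold kt
  rw [← mul_sub, abs_mul, abs_of_nonneg hr, mul_assoc]
  apply mul_le_mul_of_nonneg_left _ hr
  have h1 : -(α ^ 2 / y) ≤ 0 := by
    have : 0 ≤ α ^ 2 / y := by positivity
    linarith
  have h2 : -(β ^ 2 / y) ≤ 0 := by
    have : 0 ≤ β ^ 2 / y := by positivity
    linarith
  refine (bt_exp_lip h1 h2).trans ?_
  rw [Real.exp_zero, one_mul]
  have e : -(α ^ 2 / y) - -(β ^ 2 / y) = -((α ^ 2 - β ^ 2) / y) := by ring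
  rw [e, abs_neg, abs_div, abs_of_pos hy, div_mul_eq_mul_div]
  exact div_le_div_of_nonneg_right (bt_sq_lip hα hβ) hy.le

/-- convergence of the path averages -/
theorem Zf_BT {Ω : Type*} [MeasurableSpace Ω] {P : Measure Ω} [IsProbabilityMeasure P]
    (hM : MSG) {G : SimpleGraph V} [G.LocallyFinite] {D : ℕ} (hE : Env G D)
    {θ r r' r₀ y : ℝ} (h0 : 0 ≤ θ) (h1 : θ ^ 2 ≤ 1 / 2) (hr : r ≤ 1)
    (hb : ∀ x y, |x| ≤ r → |y| ≤ r → |msg θ x y| ≤ r') (hr₀ : 0 ≤ r₀) (hy : 0 < y)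
    {Mn : ℕ → V → Ω → ℝ} {M : V → Ω → ℝ} (h : ∀ v, BT P r (fun n => Mn n v) (M v)) (l : ℕ) :
    ∀ p x, BT P ((((D : ℝ) + 1) / D * r₀) ^ l)
      (fun n ω => Zf G D θ r₀ y (fun v => Mn n v ω) l p x)
      (fun ω => Zf G D θ r₀ y (fun v => M v ω) l p x) := by
  induction l with
  | zero =>
    intro p x
    have := BT.const (P := P) (Ω := Ω) 1
    simpa [Zf] using this
  | succ l ih =>
    intro p x
    classical
    obtain ⟨B, hB⟩ : ∃ B : ℝ, B = (((D : ℝ) + 1) / D * r₀) ^ l := ⟨_, rfl⟩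
    have hB0 : 0 ≤ B := by rw [hB]; positivity
    have hDpos : (0 : ℝ) < D := by have := hE.hD; positivity
    have hterm : ∀ c : V, BT P (r₀ * B)
        (fun n ω => kt r₀ y (ms θ (fun v => Mn n v ω) c x)
          * Zf G D θ r₀ y (fun v => Mn n v ω) l x c)
        (fun ω => kt r₀ y (ms θ (fun v => M v ω) c x)
          * Zf G D θ r₀ y (fun v => M v ω) l x c) := by
      intro c
      have h2 := BT.ms hM h0 h1 hr hb h c x
      have h3 := h2.comp (φ := kt r₀ y) (bt_meas_kt r₀ y) (fun z _ => fx_kt_le hr₀ hy)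
        (fun z z' hz hz' => fx_kt_lip hr₀ hy hz hz')
      have h4 := ih x c
      rw [← hB] at h4
      exact h3.mul h4 hr₀ hB0
    simp only [Zf]
    have h5 := (BT.sum _ (fun c (_ : c ∈ (G.neighborFinset x).erase p) => hterm c)).smul (1 / D)
    have e : ∀ f : V → ℝ, (∑ c ∈ (G.neighborFinset x).erase p, f c) / (D : ℝ)
        = 1 / D * ∑ c ∈ (G.neighborFinset x).erase p, f c := fun f => by ring
    simp only [e]
    refine h5.mono ?_
    rw [abs_of_pos (by positivity), pow_succ, ← hB]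
    have hc : (((G.neighborFinset x).erase p).card : ℝ) ≤ D + 1 := by
      have h6 : ((G.neighborFinset x).erase p).card ≤ (G.neighborFinset x).card :=
        Finset.card_erase_le
      rw [G.card_neighborFinset_eq_degree, hE.reg x] at h6
      exact_mod_cast h6
    calc 1 / (D : ℝ) * ((((G.neighborFinset x).erase p).card : ℝ) * (r₀ * B))
        ≤ 1 / (D : ℝ) * ((D + 1) * (r₀ * B)) := by
          apply mul_le_mul_of_nonneg_left _ (by positivity)
          exact mul_le_mul_of_nonneg_right hc (by positivity)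
      _ = B * ((D + 1) / D * r₀) := by ring

/-! ### the laws -/

/-- the pair of the message and the path average is measurable in finite volume -/
theorem measurable_ms_fin (hst : STT.{u}) [Countable V] {G : SimpleGraph V}
    [G.LocallyFinite] {D : ℕ} {θ : ℝ} {μ : Measure (V → Bool)} (hE : Env G D)
    (hI : Isg G D θ μ) (Λ : Finset V) (k : ℕ) (t : ℝ) (a b : V) :
    Measurable (fun ω => ms θ (fun v => mk μ Λ k t v ω) a b) :=
  (bt_meas_msg θ).comp (((hst V G D θ μ hE hI Λ k).2.2.2.1 t a).prodMk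
    ((hst V G D θ μ hE hI Λ k).2.2.2.1 t b))

theorem measurable_Zf_fin (hst : STT.{u}) [Countable V] {G : SimpleGraph V}
    [G.LocallyFinite] {D : ℕ} {θ r y : ℝ} {μ : Measure (V → Bool)} (hE : Env G D)
    (hI : Isg G D θ μ) (Λ : Finset V) (k : ℕ) (t : ℝ) (l : ℕ) : ∀ p x,
    Measurable (fun ω => Zf G D θ r y (fun v => mk μ Λ k t v ω) l p x) := by
  induction l with
  | zero => intro p x; simp only [Zf]; exact measurable_const
  | succ l ih =>
    intro p x
    simp only [Zf]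
    refine Measurable.div_const (Finset.measurable_sum _ fun c _ => ?_) _
    exact ((bt_meas_kt r y).comp (measurable_ms_fin hst hE hI Λ k t c x)).mul (ih x c)

/-- law of a message in finite volume -/
theorem law_ms (hP : PROCLAW.{u}) (hst : STT.{u}) [Countable V] {G : SimpleGraph V}
    [G.LocallyFinite] {D : ℕ} {θ : ℝ} {μ : Measure (V → Bool)} (hE : Env G D)
    (hI : Isg G D θ μ) (k : ℕ) (t : ℝ) (R : ℕ) {p x : V} (hpx : G.Adj p x) :
    (Pm V).map (fun ω => ms θ (fun v => mk μ (ballF G hE.tree.connected p R) k t v ω) x p)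
      = lawR θ D (sigL k t) R := by
  have h := hP V G D θ 1 1 μ hE hI one_pos one_pos k t 0 R (Nat.zero_le _) p x hpx
  have h2 := congrArg (Measure.map (Prod.fst : ℝ × ℝ → ℝ)) h
  rw [Measure.map_map measurable_fst
    ((measurable_ms_fin hst hE hI _ k t x p).prodMk (measurable_Zf_fin hst hE hI _ k t 0 p x))]
    at h2
  rw [jlaw, Measure.map_map measurable_fst (by fun_prop)] at h2
  have e : (Prod.fst ∘ fun α : ℝ => (α, (1 : ℝ))) = id := rfl
  rw [e, Measure.map_id] at h2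
  exact h2

theorem int_ms (hP : PROCLAW.{u}) (hst : STT.{u}) [Countable V] {G : SimpleGraph V}
    [G.LocallyFinite] {D : ℕ} {θ : ℝ} {μ : Measure (V → Bool)} (hE : Env G D)
    (hI : Isg G D θ μ) (k : ℕ) (t : ℝ) (R : ℕ) {p x : V} (hpx : G.Adj p x) {φ : ℝ → ℝ}
    (hφ : Measurable φ) :
    ∫ ω, φ (ms θ (fun v => mk μ (ballF G hE.tree.connected p R) k t v ω) x p) ∂(Pm V)
      = ∫ α, φ α ∂(lawR θ D (sigL k t) R) := by
  rw [← law_ms hP hst hE hI k t R hpx,
    integral_map (measurable_ms_fin hst hE hI _ k t x p).aemeasurable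
      hφ.aestronglyMeasurable]

theorem msg_le_one (hM : MSG) : ∀ r : ℝ, r < 1 → ∃ r' : ℝ, 0 < r' ∧ r' < 1 ∧ ∀ θ : ℝ, 0 ≤ θ →
    θ ^ 2 ≤ 1 / 2 → ∀ x y : ℝ, |x| ≤ r → |y| ≤ r → |msg θ x y| ≤ r' := by
  intro r hr
  obtain ⟨r', h0, h1, h⟩ := hM.lt_one r hr
  exact ⟨r', h0, h1, fun θ a b x y hx hy => h θ x y a b hx (hy.trans hr.le)⟩

theorem fldx_proof (hL : LIM.{u}) (hQ : LIMQ.{u}) (hP : PROCLAW.{u}) (hX : LAWX) (hZ : LAWZ)
    (hS : SIGF) (hb : BND.{u}) (hM : MSG) (hst : STT.{u}) : FLDX.{u} := by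
  intro D J hD
  obtain ⟨c₁, C₁, r₁, hc₁, hC₁, h0, h1, hyp⟩ := hS.hyp J
  obtain ⟨c, C, hc, hC, hlx⟩ := hX D c₁ C₁ r₁ hD hc₁ hC₁ h0 h1
  obtain ⟨r₀, l₀, κ, hr₀, hl₀, hκ, hlz⟩ := hZ D c₁ C₁ r₁ hD hc₁ hC₁ h0 h1
  obtain ⟨r, hr0, hr1, hbd⟩ := hb D J hD
  obtain ⟨r', hr'0, hr'1, hmsg⟩ := msg_le_one hM r hr1
  obtain ⟨k₁, hk₁⟩ : ∃ k₁ : ℕ, (1 / 4 : ℝ) ^ k₁ < κ / 2 :=
    exists_pow_lt_of_lt_one (by positivity) (by norm_num)
  refine ⟨r, r₀, c, C, l₀, k₁ + 1, hr0, hr1, hr₀, hc, hC, hl₀, by omega, ?_⟩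
  intro V _ G _ hE k μ hk hI j t hj1 hj2 hjt htj
  have hk1 : 1 ≤ k := by omega
  have hθ0 := thk_nonneg D k
  have hθ1 := thk_lt hD k
  have hθ2 := thk_half hD hk1
  have hθ3 := thk_sq_half hD k
  have hyp' := hyp k j t hj1 hj2 hjt (by linarith)
  have hy := scal_pos j
  have hy1 := scal_le_one j
  have hκy : 1 - κ * scal j ≤ thk D k ^ 2 * D := by
    rw [thk_sq hD]
    have h2 : (1 / 2 : ℝ) ^ k ≤ scal j := by
      unfold scal
      have h3 : (1 / 2 : ℝ) ^ k = (2 : ℝ) ^ (-(k : ℤ)) := by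
        rw [zpow_neg, zpow_natCast, one_div, inv_pow]
      rw [h3]
      apply zpow_le_zpow_right₀ (by norm_num)
      apply le_min (by omega) (by omega)
    have h4 : (1 / 4 : ℝ) ^ k ≤ (1 / 4 : ℝ) ^ k₁ :=
      pow_le_pow_of_le_one (by norm_num) (by norm_num) (by omega)
    have h5 : (1 : ℝ) / 8 ^ k = (1 / 4) ^ k * (1 / 2) ^ k := by
      rw [← mul_pow, one_div, ← inv_pow]; norm_num
    have h6 : (1 : ℝ) / 8 ^ k ≤ κ / 2 * scal j := by
      rw [h5]
      exact mul_le_mul (h4.trans hk₁.le) h2 (by positivity) (by positivity)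
    nlinarith [sq_nonneg ((1 : ℝ) / 8 ^ k)]
  have hle1 : thk D k ^ 2 * D ≤ 1 := hθ1.le
  have htJ : t ≤ J + 1 := by
    have : (j : ℝ) ≤ J := by exact_mod_cast hj2
    linarith
  have hBT : ∀ p v, BT (Pm V) r (fun R => mk μ (ballF G hE.tree.connected p R) k t v)
      (Mi G hE.tree.connected μ k t v) := fun p v =>
    (field_BT hL hst hE hI hθ1 k t p v).rebound
      (fun R ω => hbd V G (thk D k) μ hE hI _ k t htJ v ω)
  have hms : ∀ p a b, BT (Pm V) r'
      (fun R ω => ms (thk D k) (fun v => mk μ (ballF G hE.tree.connected p R) k t v ω) a b)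
      (fun ω => ms (thk D k) (fun v => Mi G hE.tree.connected μ k t v ω) a b) := fun p a b =>
    BT.ms hM hθ0 hθ3 hr1.le (hmsg _ hθ0 hθ3) (hBT p) a b
  refine ⟨fun v => (hL V G D _ μ hE hI hθ1 k t v).1, fun v => ?_, fun g v => ?_, ?_, ?_⟩
  · exact (hBT v v).bX
  · exact (hQ V G D _ _ μ μ hE hI hI hθ1 hθ1 k k v).1 t g
  · intro a b hab
    obtain ⟨B', hB'⟩ := (hms b a b).expsq (c / scal j)
    have h3 := hB'.integral
    have e : ∀ z : ℝ, c * (z ^ 2 / scal j) = c / scal j * z ^ 2 := fun z => by ring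
    simp only [e]
    refine le_of_tendsto' h3 (fun R => ?_)
    have h4 := int_ms hP hst hE hI k t R hab.symm (φ := fun z => Real.exp (c / scal j * z ^ 2))
      (by fun_prop)
    rw [h4]
    have h5 := hlx (scal j) (thk D k) (sigL k t) hy hy1 hyp' hθ0 hle1 hθ2 R
    simp only [e] at h5
    exact h5
  · intro l p x hpx
    obtain ⟨n₀, hn₀⟩ := hlz (scal j) (thk D k) (sigL k t) hy hy1 hyp' hθ0 hle1 hθ2 hκy l
    have hZb := Zf_BT hM hE hθ0 hθ3 hr1.le (hmsg _ hθ0 hθ3) (by linarith : (0 : ℝ) ≤ r₀) hy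
      (hBT p) l p x
    obtain ⟨B, hB⟩ : ∃ B : ℝ, B = (((D : ℝ) + 1) / D * r₀) ^ l := ⟨_, rfl⟩
    rw [← hB] at hZb
    have h6 : BT (Pm V) (Real.exp (l₀ * B))
        (fun R ω => Real.exp (l₀ * Zf G D (thk D k) r₀ (scal j)
          (fun v => mk μ (ballF G hE.tree.connected p R) k t v ω) l p x))
        (fun ω => Real.exp (l₀ * Zf G D (thk D k) r₀ (scal j)
          (fun v => Mi G hE.tree.connected μ k t v ω) l p x)) := by
      refine hZb.comp (φ := fun z => Real.exp (l₀ * z)) (K := Real.exp (l₀ * B) * l₀)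
        (by fun_prop) (fun z hz => ?_) (fun z z' hz hz' => ?_)
      · rw [abs_of_pos (Real.exp_pos _)]
        exact Real.exp_le_exp.mpr (mul_le_mul_of_nonneg_left ((le_abs_self z).trans hz) hl₀.le)
      · refine (bt_exp_lip (B := l₀ * B)
          (mul_le_mul_of_nonneg_left ((le_abs_self z).trans hz) hl₀.le)
          (mul_le_mul_of_nonneg_left ((le_abs_self z').trans hz') hl₀.le)).trans ?_
        rw [← mul_sub, abs_mul, abs_of_pos hl₀, mul_assoc]
    refine le_of_tendsto h6.integral ?_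
    filter_upwards [eventually_ge_atTop (max l n₀)] with R hR
    have hRl : l ≤ R := (le_max_left _ _).trans hR
    have hRn : n₀ ≤ R := (le_max_right _ _).trans hR
    have h7 := hP V G D (thk D k) r₀ (scal j) μ hE hI (by linarith) hy k t l R hRl p x hpx
    have h8 : ∫ ω, Real.exp (l₀ * Zf G D (thk D k) r₀ (scal j)
          (fun v => mk μ (ballF G hE.tree.connected p R) k t v ω) l p x) ∂(Pm V)
        = ∫ q, Real.exp (l₀ * q.2) ∂(jlaw (thk D k) D (sigL k t) r₀ (scal j) R l) := by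
      rw [← h7, integral_map]
      · exact ((measurable_ms_fin hst hE hI _ k t x p).prodMk
          (measurable_Zf_fin hst hE hI _ k t l p x)).aemeasurable
      · exact Measurable.aestronglyMeasurable (by fun_prop)
    rw [h8]
    exact hn₀ R hRn

end P161C
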