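import Vale.Agent.P161C.Mods

/-!
# P161 at the critical point, module FMU: pointwise facts on `Fw`
-/

open MeasureTheory Set Filter Topology

namespace P161C

open P161

namespace Fmu

lemma mem_Ioo {x : ℝ} (hx : |x| < 1) : x ∈ Ioo (-1 : ℝ) 1 := by
  rw [abs_lt] at hx; exact ⟨hx.1, hx.2⟩

lemma artanh_eq {x : ℝ} (hx : |x| < 1) :
    Real.artanh x = 1 / 2 * (Real.log (1 + x) - Real.log (1 - x)) := by
  have h := mem_Ioo hx
  rw [Real.artanh_eq_half_log ⟨h.1.le, h.2.le⟩, Real.log_div]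
  · linarith [h.1]
  · linarith [h.2]

lemma cosh_sq_mul {x : ℝ} (hx : |x| < 1) :
    Real.cosh (Real.artanh x) ^ 2 * (1 - x ^ 2) = 1 := by
  have h := mem_Ioo hx
  have h1 : 0 < 1 - x ^ 2 := by nlinarith [h.1, h.2]
  rw [Real.cosh_artanh h, div_pow, Real.sq_sqrt h1.le]
  field_simp

lemma sinh_eq {x : ℝ} (hx : |x| < 1) :
    Real.sinh (Real.artanh x) = x * Real.cosh (Real.artanh x) := by
  have h := mem_Ioo hx
  rw [Real.sinh_artanh h, Real.cosh_artanh h]
  ring

lemma artanh_odd {x : ℝ} (hx : |x| < 1) : Real.artanh (-x) = -Real.artanh x := by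
  rw [artanh_eq hx, artanh_eq (by rwa [abs_neg])]
  ring_nf

lemma hasDerivAt_artanh {x : ℝ} (hx : |x| < 1) :
    HasDerivAt Real.artanh (Real.cosh (Real.artanh x) ^ 2) x := by
  have h := mem_Ioo hx
  have h1 : (0 : ℝ) < 1 + x := by linarith [h.1]
  have h2 : (0 : ℝ) < 1 - x := by linarith [h.2]
  have e : Real.cosh (Real.artanh x) ^ 2 = 1 / 2 * (1 / (1 + x) - (-1) / (1 - x)) := by
    have := cosh_sq_mul hx
    have h3 : 1 - x ^ 2 ≠ 0 := by nlinarith
    have h4 : Real.cosh (Real.artanh x) ^ 2 = 1 / (1 - x ^ 2) := by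
      field_simp; linarith
    rw [h4]
    field_simp
    ring
  rw [e]
  have d1 : HasDerivAt (fun y : ℝ => 1 / 2 * (Real.log (1 + y) - Real.log (1 - y)))
      (1 / 2 * (1 / (1 + x) - (-1) / (1 - x))) x := by
    apply HasDerivAt.const_mul
    apply HasDerivAt.sub
    · exact ((hasDerivAt_id x).const_add 1).log h1.ne'
    · exact ((hasDerivAt_id x).const_sub 1).log h2.ne'
  apply d1.congr_of_eventuallyEq
  have : Ioo (-1 : ℝ) 1 ∈ 𝓝 x := isOpen_Ioo.mem_nhds h
  filter_upwards [this] with y hy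
  exact artanh_eq (abs_lt.2 ⟨hy.1, hy.2⟩)

lemma sq_s {w : ℝ} (hw : 0 ≤ w) : Real.sqrt (1 + w) ^ 2 = 1 + w := Real.sq_sqrt (by linarith)

lemma one_le_s {w : ℝ} (hw : 0 ≤ w) : 1 ≤ Real.sqrt (1 + w) :=
  Real.one_le_sqrt.2 (by linarith)

lemma Fw_pos (w α : ℝ) : 0 < Fw w α := div_pos (Real.cosh_pos _) (Real.cosh_pos _)

lemma Fw_zero (w : ℝ) : Fw w 0 = 1 := by simp [Fw, Real.artanh_zero]

lemma Fw_neg (w : ℝ) {α : ℝ} (h : |α| < 1) : Fw w (-α) = Fw w α := by
  unfold Fw
  rw [artanh_odd h, mul_neg, Real.cosh_neg, Real.cosh_neg]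

/-- the derivative of `Fw w` -/
noncomputable def Pw (w α : ℝ) : ℝ :=
  Real.sqrt (1 + w) * Real.sinh (Real.sqrt (1 + w) * Real.artanh α) * Real.cosh (Real.artanh α)
    - Real.cosh (Real.sqrt (1 + w) * Real.artanh α) * Real.sinh (Real.artanh α)

lemma hasDerivAt_Fw (w : ℝ) {α : ℝ} (h : |α| < 1) : HasDerivAt (Fw w) (Pw w α) α := by
  have d0 := hasDerivAt_artanh h
  have d1 : HasDerivAt (fun x => Real.cosh (Real.sqrt (1 + w) * Real.artanh x))
      (Real.sinh (Real.sqrt (1 + w) * Real.artanh α)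
        * (Real.sqrt (1 + w) * Real.cosh (Real.artanh α) ^ 2)) α :=
    (d0.const_mul _).cosh
  have d2 : HasDerivAt (fun x => Real.cosh (Real.artanh x))
      (Real.sinh (Real.artanh α) * Real.cosh (Real.artanh α) ^ 2) α := d0.cosh
  have hc : Real.cosh (Real.artanh α) ≠ 0 := (Real.cosh_pos _).ne'
  have d3 := d1.div d2 hc
  have e : Pw w α = (Real.sinh (Real.sqrt (1 + w) * Real.artanh α)
        * (Real.sqrt (1 + w) * Real.cosh (Real.artanh α) ^ 2) * Real.cosh (Real.artanh α)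
      - Real.cosh (Real.sqrt (1 + w) * Real.artanh α)
        * (Real.sinh (Real.artanh α) * Real.cosh (Real.artanh α) ^ 2))
      / Real.cosh (Real.artanh α) ^ 2 := by
    unfold Pw
    field_simp
  rw [e]
  exact d3

lemma hasDerivAt_Pw {w : ℝ} (hw : 0 ≤ w) {α : ℝ} (h : |α| < 1) :
    HasDerivAt (Pw w) (w * Real.cosh (Real.artanh α) ^ 4 * Fw w α) α := by
  have d0 := hasDerivAt_artanh h
  have d1 : HasDerivAt (fun x => Real.cosh (Real.sqrt (1 + w) * Real.artanh x))
      (Real.sinh (Real.sqrt (1 + w) * Real.artanh α)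
        * (Real.sqrt (1 + w) * Real.cosh (Real.artanh α) ^ 2)) α :=
    (d0.const_mul _).cosh
  have d1' : HasDerivAt (fun x => Real.sinh (Real.sqrt (1 + w) * Real.artanh x))
      (Real.cosh (Real.sqrt (1 + w) * Real.artanh α)
        * (Real.sqrt (1 + w) * Real.cosh (Real.artanh α) ^ 2)) α :=
    (d0.const_mul _).sinh
  have d2 : HasDerivAt (fun x => Real.cosh (Real.artanh x))
      (Real.sinh (Real.artanh α) * Real.cosh (Real.artanh α) ^ 2) α := d0.cosh
  have d2' : HasDerivAt (fun x => Real.sinh (Real.artanh x))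
      (Real.cosh (Real.artanh α) * Real.cosh (Real.artanh α) ^ 2) α := d0.sinh
  have d3 := ((d1'.const_mul (Real.sqrt (1 + w))).mul d2).sub (d1.mul d2')
  have e : w * Real.cosh (Real.artanh α) ^ 4 * Fw w α =
      Real.sqrt (1 + w) * (Real.cosh (Real.sqrt (1 + w) * Real.artanh α)
        * (Real.sqrt (1 + w) * Real.cosh (Real.artanh α) ^ 2)) * Real.cosh (Real.artanh α)
      + Real.sqrt (1 + w) * Real.sinh (Real.sqrt (1 + w) * Real.artanh α)
        * (Real.sinh (Real.artanh α) * Real.cosh (Real.artanh α) ^ 2)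
      - (Real.sinh (Real.sqrt (1 + w) * Real.artanh α)
        * (Real.sqrt (1 + w) * Real.cosh (Real.artanh α) ^ 2) * Real.sinh (Real.artanh α)
      + Real.cosh (Real.sqrt (1 + w) * Real.artanh α)
        * (Real.cosh (Real.artanh α) * Real.cosh (Real.artanh α) ^ 2)) := by
    have hc : Real.cosh (Real.artanh α) ≠ 0 := (Real.cosh_pos _).ne'
    have hs := sq_s hw
    have hF : Fw w α * Real.cosh (Real.artanh α)
        = Real.cosh (Real.sqrt (1 + w) * Real.artanh α) := by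
      unfold Fw; field_simp
    rw [← hF]
    set c := Real.cosh (Real.artanh α)
    set s := Real.sqrt (1 + w)
    have : w = s ^ 2 - 1 := by rw [hs]; ring
    rw [this]
    ring
  rw [e]
  exact d3

lemma contr_nonneg {w θ α : ℝ} (hw : 0 ≤ w) (hθ0 : 0 ≤ θ) (hθ1 : θ ≤ 1) (hα0 : 0 ≤ α)
    (hα : α < 1) : Fw w (θ * α) ≤ Fw (θ ^ 2 * w) α := by
  have hw' : 0 ≤ θ ^ 2 * w := by positivity
  have hmem : ∀ t ∈ Icc 0 α, |t| < 1 ∧ |θ * t| < 1 := by
    intro t ht
    have h1 : |t| < 1 := by rw [abs_of_nonneg ht.1]; linarith [ht.2]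
    refine ⟨h1, ?_⟩
    rw [abs_mul, abs_of_nonneg hθ0]
    calc θ * |t| ≤ 1 * |t| := mul_le_mul_of_nonneg_right hθ1 (abs_nonneg t)
      _ < 1 := by linarith
  -- derivatives
  have dK : ∀ t ∈ Icc 0 α, HasDerivAt (Fw (θ ^ 2 * w)) (Pw (θ ^ 2 * w) t) t :=
    fun t ht => hasDerivAt_Fw _ (hmem t ht).1
  have dPK : ∀ t ∈ Icc 0 α, HasDerivAt (Pw (θ ^ 2 * w))
      (θ ^ 2 * w * Real.cosh (Real.artanh t) ^ 4 * Fw (θ ^ 2 * w) t) t :=
    fun t ht => hasDerivAt_Pw hw' (hmem t ht).1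
  have dlin : ∀ t : ℝ, HasDerivAt (fun t => θ * t) θ t := fun t => by
    simpa using (hasDerivAt_id t).const_mul θ
  have dH : ∀ t ∈ Icc 0 α, HasDerivAt (fun t => Fw w (θ * t)) (Pw w (θ * t) * θ) t :=
    fun t ht => (hasDerivAt_Fw w (hmem t ht).2).comp t (dlin t)
  have dPH : ∀ t ∈ Icc 0 α, HasDerivAt (fun t => Pw w (θ * t))
      (w * Real.cosh (Real.artanh (θ * t)) ^ 4 * Fw w (θ * t) * θ) t :=
    fun t ht => (hasDerivAt_Pw hw (hmem t ht).2).comp t (dlin t)
  set W : ℝ → ℝ := fun t => Pw (θ ^ 2 * w) t * Fw w (θ * t)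
    - Fw (θ ^ 2 * w) t * (Pw w (θ * t) * θ) with hW
  have dW : ∀ t ∈ Icc 0 α, HasDerivAt W
      (θ ^ 2 * w * Real.cosh (Real.artanh t) ^ 4 * Fw (θ ^ 2 * w) t * Fw w (θ * t)
        + Pw (θ ^ 2 * w) t * (Pw w (θ * t) * θ)
        - (Pw (θ ^ 2 * w) t * (Pw w (θ * t) * θ)
          + Fw (θ ^ 2 * w) t * (w * Real.cosh (Real.artanh (θ * t)) ^ 4 * Fw w (θ * t) * θ * θ)))
      t := fun t ht =>
    ((dPK t ht).mul (dH t ht)).sub ((dK t ht).mul ((dPH t ht).mul_const θ))
  have hWd : ∀ t ∈ Icc 0 α, 0 ≤ θ ^ 2 * w * Real.cosh (Real.artanh t) ^ 4 * Fw (θ ^ 2 * w) t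
        * Fw w (θ * t)
        + Pw (θ ^ 2 * w) t * (Pw w (θ * t) * θ)
        - (Pw (θ ^ 2 * w) t * (Pw w (θ * t) * θ)
          + Fw (θ ^ 2 * w) t * (w * Real.cosh (Real.artanh (θ * t)) ^ 4 * Fw w (θ * t)
            * θ * θ)) := by
    intro t ht
    have h1 : Real.cosh (Real.artanh (θ * t)) ≤ Real.cosh (Real.artanh t) := by
      rw [Real.cosh_le_cosh]
      have a0 : 0 ≤ θ * t := mul_nonneg hθ0 ht.1
      rw [abs_of_nonneg (Real.artanh_nonneg a0), abs_of_nonneg (Real.artanh_nonneg ht.1)]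
      apply Real.artanh_le_artanh
      · linarith
      · linarith [ht.2]
      · nlinarith [ht.1]
    have h2 : Real.cosh (Real.artanh (θ * t)) ^ 4 ≤ Real.cosh (Real.artanh t) ^ 4 :=
      pow_le_pow_left₀ (Real.cosh_pos _).le h1 4
    have h3 : 0 ≤ θ ^ 2 * w * Fw (θ ^ 2 * w) t * Fw w (θ * t) := by
      have := (Fw_pos (θ ^ 2 * w) t).le
      have := (Fw_pos w (θ * t)).le
      positivity
    have h4 := mul_le_mul_of_nonneg_left h2 h3
    nlinarith [h4]
  have hWmono : MonotoneOn W (Icc 0 α) := by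
    apply monotoneOn_of_deriv_nonneg (convex_Icc 0 α)
    · intro t ht
      exact (dW t ht).continuousAt.continuousWithinAt
    · intro t ht
      rw [interior_Icc] at ht
      exact (dW t ⟨ht.1.le, ht.2.le⟩).differentiableAt.differentiableWithinAt
    · intro t ht
      rw [interior_Icc] at ht
      rw [(dW t ⟨ht.1.le, ht.2.le⟩).deriv]
      exact hWd t ⟨ht.1.le, ht.2.le⟩
  have hP0 : ∀ w' : ℝ, Pw w' 0 = 0 := by
    intro w'; simp [Pw, Real.artanh_zero]
  have hW0 : W 0 = 0 := by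
    simp [hW, hP0]
  have hWnn : ∀ t ∈ Icc 0 α, 0 ≤ W t := by
    intro t ht
    rw [← hW0]
    exact hWmono ⟨le_refl _, hα0⟩ ht ht.1
  set R : ℝ → ℝ := fun t => Fw (θ ^ 2 * w) t / Fw w (θ * t) with hR
  have dR : ∀ t ∈ Icc 0 α, HasDerivAt R (W t / Fw w (θ * t) ^ 2) t := fun t ht =>
    (dK t ht).div (dH t ht) (Fw_pos _ _).ne'
  have hRmono : MonotoneOn R (Icc 0 α) := by
    apply monotoneOn_of_deriv_nonneg (convex_Icc 0 α)
    · intro t ht
      exact (dR t ht).continuousAt.continuousWithinAt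
    · intro t ht
      rw [interior_Icc] at ht
      exact (dR t ⟨ht.1.le, ht.2.le⟩).differentiableAt.differentiableWithinAt
    · intro t ht
      rw [interior_Icc] at ht
      rw [(dR t ⟨ht.1.le, ht.2.le⟩).deriv]
      exact div_nonneg (hWnn t ⟨ht.1.le, ht.2.le⟩) (sq_nonneg _)
  have h1 := hRmono ⟨le_refl _, hα0⟩ ⟨hα0, le_refl _⟩ hα0
  have h2 : R 0 = 1 := by simp [hR, Fw_zero]
  rw [h2] at h1
  rw [hR] at h1
  simp only at h1
  rwa [one_le_div (Fw_pos _ _)] at h1

lemma sinh_le {x : ℝ} (hx : 0 ≤ x) : Real.sinh x ≤ x * Real.cosh x := by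
  have hm : MonotoneOn (fun x : ℝ => x * Real.cosh x - Real.sinh x) (Ici 0) := by
    apply monotoneOn_of_deriv_nonneg (convex_Ici 0)
    · exact ((continuous_id.mul Real.continuous_cosh).sub Real.continuous_sinh).continuousOn
    · intro t _
      exact ((differentiableAt_id.mul Real.differentiableAt_cosh).sub
        Real.differentiableAt_sinh).differentiableWithinAt
    · intro t ht
      rw [interior_Ici] at ht
      have d : HasDerivAt (fun x : ℝ => x * Real.cosh x - Real.sinh x)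
          (1 * Real.cosh t + t * Real.sinh t - Real.cosh t) t :=
        ((hasDerivAt_id t).mul (Real.hasDerivAt_cosh t)).sub (Real.hasDerivAt_sinh t)
      rw [d.deriv]
      have : 0 ≤ t * Real.sinh t := mul_nonneg (le_of_lt ht) (Real.sinh_nonneg_iff.2 (le_of_lt ht))
      linarith
  have := hm (mem_Ici.2 (le_refl (0 : ℝ))) (mem_Ici.2 hx) hx
  simp at this
  linarith

lemma cosh_gauss {x y : ℝ} (hx : 0 ≤ x) (hxy : x ≤ y) :
    Real.cosh y ≤ Real.cosh x * Real.exp ((y ^ 2 - x ^ 2) / 2) := by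
  have hm : AntitoneOn (fun x : ℝ => Real.cosh x * Real.exp (-(x ^ 2 / 2))) (Ici 0) := by
    have d : ∀ t : ℝ, HasDerivAt (fun x : ℝ => Real.cosh x * Real.exp (-(x ^ 2 / 2)))
          (Real.sinh t * Real.exp (-(t ^ 2 / 2))
            + Real.cosh t * (Real.exp (-(t ^ 2 / 2)) * (-t))) t := by
      intro t
      have e1 : HasDerivAt (fun x : ℝ => -(x ^ 2 / 2)) (-t) t := by
        have h := ((hasDerivAt_pow 2 t).div_const 2).fun_neg
        have e0 : -(((2 : ℕ) : ℝ) * t ^ (2 - 1) / 2) = -t := by norm_num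
        rw [e0] at h
        exact h
      exact (Real.hasDerivAt_cosh t).mul e1.exp
    apply antitoneOn_of_deriv_nonpos (convex_Ici 0)
    · exact fun t _ => (d t).continuousAt.continuousWithinAt
    · exact fun t _ => (d t).differentiableAt.differentiableWithinAt
    · intro t ht
      rw [interior_Ici] at ht
      rw [(d t).deriv]
      have h1 := sinh_le (le_of_lt ht)
      have h2 := Real.exp_pos (-(t ^ 2 / 2))
      nlinarith [mul_le_mul_of_nonneg_right h1 h2.le]
  have h1 := hm (mem_Ici.2 hx) (mem_Ici.2 (hx.trans hxy)) hxy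
  simp only at h1
  have h2 : Real.exp ((y ^ 2 - x ^ 2) / 2)
      = Real.exp (-(x ^ 2 / 2)) * Real.exp (y ^ 2 / 2) := by
    rw [← Real.exp_add]; congr 1; ring
  have h3 : Real.exp (-(y ^ 2 / 2)) * Real.exp (y ^ 2 / 2) = 1 := by
    rw [← Real.exp_add]; simp
  have h4 := mul_le_mul_of_nonneg_right h1 (Real.exp_pos (y ^ 2 / 2)).le
  rw [mul_assoc, h3, mul_one] at h4
  rw [h2, ← mul_assoc]
  exact h4

lemma abs_artanh_ge {α : ℝ} (h : |α| < 1) : |α| ≤ |Real.artanh α| := by
  wlog hα : 0 ≤ α generalizing α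
  · have := this (α := -α) (by rwa [abs_neg]) (by linarith)
    rwa [artanh_odd h, abs_neg, abs_neg] at this
  rw [abs_of_nonneg hα, abs_of_nonneg (Real.artanh_nonneg hα)]
  have h1 := sinh_le (Real.artanh_nonneg hα)
  rw [sinh_eq h] at h1
  exact le_of_mul_le_mul_right h1 (Real.cosh_pos _)

lemma abs_artanh_le {α : ℝ} (h : |α| < 1) : |Real.artanh α| ≤ |α| / (1 - α ^ 2) := by
  wlog hα : 0 ≤ α generalizing α
  · have := this (α := -α) (by rwa [abs_neg]) (by linarith)
    rwa [artanh_odd h, abs_neg, abs_neg, neg_sq] at this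
  rw [abs_of_nonneg hα, abs_of_nonneg (Real.artanh_nonneg hα)]
  have h1 : Real.artanh α ≤ Real.sinh (Real.artanh α) :=
    Real.self_le_sinh_iff.2 (Real.artanh_nonneg hα)
  have h2 := sinh_eq h
  have h3 := cosh_sq_mul h
  have h4 := Real.one_le_cosh (Real.artanh α)
  have h5 : 0 < 1 - α ^ 2 := by
    have := mem_Ioo h
    nlinarith [this.1, this.2]
  rw [le_div_iff₀ h5]
  set c := Real.cosh (Real.artanh α)
  have h6 : Real.artanh α ≤ α * c ^ 2 := by
    calc Real.artanh α ≤ α * c := by rw [← h2]; exact h1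
      _ ≤ α * c ^ 2 := by
        apply mul_le_mul_of_nonneg_left _ hα
        nlinarith
  calc Real.artanh α * (1 - α ^ 2) ≤ α * c ^ 2 * (1 - α ^ 2) :=
        mul_le_mul_of_nonneg_right h6 h5.le
    _ = α * (c ^ 2 * (1 - α ^ 2)) := by ring
    _ = α := by rw [h3, mul_one]

lemma artanh_opl {x y : ℝ} (hx : |x| < 1) (hy : |y| < 1) :
    Real.artanh (opl x y) = Real.artanh x + Real.artanh y := by
  rw [← Real.artanh_tanh (Real.artanh x + Real.artanh y)]
  congr 1
  rw [Real.tanh_eq_sinh_div_cosh, Real.sinh_add, Real.cosh_add, sinh_eq hx, sinh_eq hy]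
  unfold opl
  have h1 := (Real.cosh_pos (Real.artanh x)).ne'
  have h2 := (Real.cosh_pos (Real.artanh y)).ne'
  have h3 : 1 + x * y ≠ 0 := by
    have := mem_Ioo hx
    have := mem_Ioo hy
    have : |x * y| < 1 := by
      rw [abs_mul]
      nlinarith [abs_nonneg x, abs_nonneg y]
    have := (abs_lt.1 this).1
    linarith
  rw [div_eq_div_iff h3]
  · ring
  · have : Real.cosh (Real.artanh x) * Real.cosh (Real.artanh y)
        + x * Real.cosh (Real.artanh x) * (y * Real.cosh (Real.artanh y))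
        = (1 + x * y) * (Real.cosh (Real.artanh x) * Real.cosh (Real.artanh y)) := by ring
    rw [this]
    exact mul_ne_zero h3 (mul_ne_zero h1 h2)

lemma comb_one (w : ℝ) {x y : ℝ} (hx : |x| < 1) (hy : |y| < 1) :
    (1 + x * y) * Fw w (opl x y)
      = Real.cosh (Real.sqrt (1 + w) * (Real.artanh x + Real.artanh y))
        / (Real.cosh (Real.artanh x) * Real.cosh (Real.artanh y)) := by
  unfold Fw
  rw [artanh_opl hx hy, Real.cosh_add, sinh_eq hx, sinh_eq hy]
  have h1 := (Real.cosh_pos (Real.artanh x)).ne'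
  have h2 := (Real.cosh_pos (Real.artanh y)).ne'
  have h3 : 1 + x * y ≠ 0 := by
    have : |x * y| < 1 := by
      rw [abs_mul]
      nlinarith [abs_nonneg x, abs_nonneg y]
    have := (abs_lt.1 this).1
    linarith
  have e : Real.cosh (Real.artanh x) * Real.cosh (Real.artanh y)
        + x * Real.cosh (Real.artanh x) * (y * Real.cosh (Real.artanh y))
        = (1 + x * y) * (Real.cosh (Real.artanh x) * Real.cosh (Real.artanh y)) := by ring
  rw [e]
  field_simp

end Fmu

open Fmu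

theorem fmu_proof : FMU where
  one_le := by
    intro w α hw _
    unfold Fw
    rw [one_le_div (Real.cosh_pos _), Real.cosh_le_cosh, abs_mul,
      abs_of_nonneg (Real.sqrt_nonneg _)]
    have := one_le_s hw
    nlinarith [abs_nonneg (Real.artanh α)]
  contr := by
    intro w θ α hw h0 h1 hα
    rcases le_total 0 α with h | h
    · exact contr_nonneg hw h0 h1 h (by rw [abs_of_nonneg h] at hα; exact hα)
    · have h2 := contr_nonneg (α := -α) hw h0 h1 (by linarith)
        (by rw [abs_of_nonpos h] at hα; exact hα)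
      have h3 : |θ * α| < 1 := by
        rw [abs_mul, abs_of_nonneg h0]
        calc θ * |α| ≤ 1 * |α| := mul_le_mul_of_nonneg_right h1 (abs_nonneg _)
          _ < 1 := by linarith
      rwa [mul_neg, Fw_neg w h3, Fw_neg _ hα] at h2
  le_exp := by
    intro w α hw hα
    unfold Fw
    rw [div_le_iff₀ (Real.cosh_pos _)]
    set h := Real.artanh α with hh
    set s := Real.sqrt (1 + w) with hs
    have hs1 : 1 ≤ s := one_le_s hw
    have h1 : Real.cosh (s * |h|) ≤ Real.cosh |h| * Real.exp (((s * |h|) ^ 2 - |h| ^ 2) / 2) :=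
      cosh_gauss (abs_nonneg h) (by nlinarith [abs_nonneg h])
    have h2 : Real.cosh (s * |h|) = Real.cosh (s * h) := by
      rw [← Real.cosh_abs (s * h), abs_mul, abs_of_nonneg (by linarith : 0 ≤ s)]
    rw [h2, Real.cosh_abs] at h1
    refine h1.trans ?_
    rw [mul_comm]
    apply mul_le_mul_of_nonneg_right _ (Real.cosh_pos _).le
    apply Real.exp_le_exp.2
    have h3 := abs_artanh_le hα
    rw [← hh] at h3
    have h5 : 0 < 1 - α ^ 2 := by
      have := mem_Ioo hα
      nlinarith [this.1, this.2]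
    have h6 : |h| ^ 2 ≤ α ^ 2 / (1 - α ^ 2) ^ 2 := by
      calc |h| ^ 2 ≤ (|α| / (1 - α ^ 2)) ^ 2 := pow_le_pow_left₀ (abs_nonneg _) h3 2
        _ = α ^ 2 / (1 - α ^ 2) ^ 2 := by rw [div_pow, sq_abs]
    have e : ((s * |h|) ^ 2 - |h| ^ 2) / 2 = w / 2 * |h| ^ 2 := by
      rw [mul_pow, hs, sq_s hw]; ring
    rw [e]
    calc w / 2 * |h| ^ 2 ≤ w / 2 * (α ^ 2 / (1 - α ^ 2) ^ 2) :=
          mul_le_mul_of_nonneg_left h6 (by positivity)
      _ = w * α ^ 2 / (2 * (1 - α ^ 2) ^ 2) := by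
          field_simp
  ge_cosh := by
    intro w α hw hα
    unfold Fw
    rw [Real.cosh_artanh (mem_Ioo hα), div_div_eq_mul_div, div_one, mul_comm]
    apply mul_le_mul_of_nonneg_right _ (Real.sqrt_nonneg _)
    rw [Real.cosh_le_cosh, abs_mul, abs_mul]
    exact mul_le_mul_of_nonneg_left (abs_artanh_ge hα) (abs_nonneg _)
  mono := by
    intro w w' α hw hww _
    unfold Fw
    apply div_le_div_of_nonneg_right _ (Real.cosh_pos _).le
    rw [Real.cosh_le_cosh, abs_mul, abs_mul]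
    apply mul_le_mul_of_nonneg_right _ (abs_nonneg _)
    rw [abs_of_nonneg (Real.sqrt_nonneg _), abs_of_nonneg (Real.sqrt_nonneg _)]
    exact Real.sqrt_le_sqrt (by linarith)
  cont := by
    intro w _ x hx
    exact (hasDerivAt_Fw w (abs_lt.2 ⟨hx.1, hx.2⟩)).continuousAt.continuousWithinAt
  comb := by
    intro w x y _ hx hy
    have hy' : |(-y)| < 1 := by rwa [abs_neg]
    have h1 := comb_one w hx hy
    have h2 := comb_one w hx hy'
    rw [show 1 + x * -y = 1 - x * y by ring] at h2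
    rw [h1, h2, artanh_odd hy, Real.cosh_neg]
    unfold Fw
    set a := Real.artanh x
    set b := Real.artanh y
    set s := Real.sqrt (1 + w)
    have e : Real.cosh (s * (a + b)) + Real.cosh (s * (a + -b))
        = 2 * (Real.cosh (s * a) * Real.cosh (s * b)) := by
      rw [mul_add, mul_add, Real.cosh_add, Real.cosh_add, mul_neg, Real.cosh_neg, Real.sinh_neg]
      ring
    rw [← add_div, e]
    have h1 := (Real.cosh_pos a).ne'
    have h2 := (Real.cosh_pos b).ne'
    field_simp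

end P161C
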