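import Mathlib

/-!
# Hoeffding decomposition for a commuting family of projections
-/

open Finset

namespace P161C

namespace Hoef

variable {ι : Type*} [DecidableEq ι] {H : Type*} [NormedAddCommGroup H] [InnerProductSpace ℝ H]

/-- alternating sum over the subsets of `S` -/
def alt (F : Finset ι → H) (S : Finset ι) : H :=
  ∑ A ∈ S.powerset, ((-1 : ℝ) ^ (S.card + A.card)) • F A

theorem alt_insert (F : Finset ι → H) {x : ι} {S : Finset ι} (hx : x ∉ S) :
    alt F (insert x S) = alt (fun A => F (insert x A)) S - alt F S := by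
  unfold alt
  rw [Finset.sum_powerset_insert hx]
  have e1 : ∀ A ∈ S.powerset, ((-1 : ℝ) ^ ((insert x S).card + A.card)) • F A
      = - (((-1 : ℝ) ^ (S.card + A.card)) • F A) := by
    intro A _
    rw [Finset.card_insert_of_notMem hx, show S.card + 1 + A.card = (S.card + A.card) + 1 by ring,
      pow_succ, mul_neg, mul_one, neg_smul]
  have e2 : ∀ A ∈ S.powerset, ((-1 : ℝ) ^ ((insert x S).card + (insert x A).card))
      • F (insert x A) = ((-1 : ℝ) ^ (S.card + A.card)) • F (insert x A) := by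
    intro A hA
    have hxA : x ∉ A := fun h => hx (Finset.mem_powerset.1 hA h)
    rw [Finset.card_insert_of_notMem hx, Finset.card_insert_of_notMem hxA,
      show S.card + 1 + (A.card + 1) = (S.card + A.card) + 2 by ring, pow_add]
    norm_num
  rw [Finset.sum_congr rfl e1, Finset.sum_congr rfl e2, Finset.sum_neg_distrib]
  abel

theorem sum_alt (B : Finset ι) : ∀ F : Finset ι → H, ∑ S ∈ B.powerset, alt F S = F B := by
  induction B using Finset.induction_on with
  | empty => intro F; simp [alt]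
  | insert x B hx ih =>
    intro F
    rw [Finset.sum_powerset_insert hx]
    have e : ∀ S ∈ B.powerset, alt F (insert x S) = alt (fun A => F (insert x A)) S - alt F S :=
      fun S hS => alt_insert F (fun h => hx (Finset.mem_powerset.1 hS h))
    rw [Finset.sum_congr rfl e, Finset.sum_sub_distrib, ih F, ih fun A => F (insert x A)]
    abel

/-- a commuting family of orthogonal projections indexed by finite sets -/
structure PF (P : Finset ι → H →ₗ[ℝ] H) : Prop where
  symm : ∀ A f h, inner ℝ (P A f) h = inner ℝ f (P A h)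
  mul : ∀ A B f, P A (P B f) = P (A ∩ B) f

variable {P : Finset ι → H →ₗ[ℝ] H}

/-- the component of `f` -/
def Q (P : Finset ι → H →ₗ[ℝ] H) (S : Finset ι) (f : H) : H := alt (fun A => P A f) S

theorem sum_Q (B : Finset ι) (f : H) : ∑ S ∈ B.powerset, Q P S f = P B f := sum_alt B _

theorem PF.P_Q_zero (hP : PF P) {x : ι} {S T : Finset ι} (hS : x ∈ S) (hT : x ∉ T) (f : H) :
    P T (Q P S f) = 0 := by
  have h1 : S = insert x (S.erase x) := (Finset.insert_erase hS).symm
  have hx : x ∉ S.erase x := by simp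
  rw [h1]
  unfold Q
  rw [alt_insert _ hx, map_sub]
  have e : P T (alt (fun A => P (insert x A) f) (S.erase x))
      = P T (alt (fun A => P A f) (S.erase x)) := by
    unfold alt
    rw [map_sum, map_sum]
    refine Finset.sum_congr rfl fun A _ => ?_
    rw [map_smul, map_smul, hP.mul, hP.mul]
    congr 3
    ext y
    simp only [Finset.mem_inter, Finset.mem_insert]
    constructor
    · rintro ⟨k1, k2⟩
      rcases k2 with k2 | k2
      · rw [k2] at k1
        exact absurd k1 hT
      · exact ⟨k1, k2⟩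
    · rintro ⟨k1, k2⟩
      exact ⟨k1, Or.inr k2⟩
  rw [e, sub_self]

theorem PF.P_Q_self (hP : PF P) {S T : Finset ι} (h : S ⊆ T) (f : H) :
    P T (Q P S f) = Q P S f := by
  unfold Q alt
  rw [map_sum]
  refine Finset.sum_congr rfl fun A hA => ?_
  rw [map_smul, hP.mul, Finset.inter_eq_right.2 ((Finset.mem_powerset.1 hA).trans h)]

theorem PF.Q_orth (hP : PF P) {S T : Finset ι} (h : S ≠ T) (f g : H) :
    inner ℝ (Q P S f) (Q P T g) = 0 := by
  have key : ∀ (S T : Finset ι) (f g : H), ¬ S ⊆ T → inner ℝ (Q P S f) (Q P T g) = (0 : ℝ) := by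
    intro S T f g h
    obtain ⟨x, hxS, hxT⟩ := Finset.not_subset.1 h
    rw [← hP.P_Q_self (Finset.Subset.refl T) g, ← hP.symm, hP.P_Q_zero hxS hxT, inner_zero_left]
  by_cases h1 : S ⊆ T
  · have h2 : ¬ T ⊆ S := fun h3 => h (Finset.Subset.antisymm h1 h3)
    rw [real_inner_comm]
    exact key T S g f h2
  · exact key S T f g h1

theorem PF.inner_P (hP : PF P) (B : Finset ι) (f g : H) :
    inner ℝ (P B f) g = ∑ S ∈ B.powerset, inner ℝ (Q P S f) (Q P S g) := by
  have h1 : inner ℝ (P B f) g = inner ℝ (P B f) (P B g) := by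
    rw [← hP.symm, hP.mul, Finset.inter_self]
  rw [h1, ← sum_Q (P := P) B f, ← sum_Q (P := P) B g, sum_inner]
  refine Finset.sum_congr rfl fun S hS => ?_
  rw [inner_sum, Finset.sum_eq_single S]
  · intro T _ hT
    exact hP.Q_orth (Ne.symm hT) f g
  · intro h
    exact absurd hS h

theorem PF.norm_P_sq (hP : PF P) (B : Finset ι) (f : H) :
    ‖P B f‖ ^ 2 = ∑ S ∈ B.powerset, ‖Q P S f‖ ^ 2 := by
  have h1 : ‖P B f‖ ^ 2 = inner ℝ (P B f) f := by
    rw [← real_inner_self_eq_norm_sq, hP.symm, hP.mul, Finset.inter_self, real_inner_comm]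
  rw [h1, hP.inner_P]
  refine Finset.sum_congr rfl fun S _ => ?_
  rw [real_inner_self_eq_norm_sq]

theorem PF.norm_P_le (hP : PF P) (B : Finset ι) (f : H) : ‖P B f‖ ≤ ‖f‖ := by
  have h1 : ‖P B f‖ * ‖P B f‖ ≤ ‖P B f‖ * ‖f‖ := by
    have : ‖P B f‖ * ‖P B f‖ = inner ℝ (P B f) f := by
      rw [← real_inner_self_eq_norm_mul_norm, hP.symm, hP.mul, Finset.inter_self, real_inner_comm]
    rw [this]
    exact real_inner_le_norm _ _
  rcases (norm_nonneg (P B f)).eq_or_lt with h | h
  · rw [← h]; exact norm_nonneg _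
  · exact le_of_mul_le_mul_left h1 h

theorem PF.sum_sq_le (hP : PF P) (f : H) (𝒮 : Finset (Finset ι)) :
    ∑ S ∈ 𝒮, ‖Q P S f‖ ^ 2 ≤ ‖f‖ ^ 2 := by
  have h1 : 𝒮 ⊆ (𝒮.biUnion id).powerset := by
    intro S hS
    rw [Finset.mem_powerset]
    exact Finset.subset_biUnion_of_mem id hS
  calc ∑ S ∈ 𝒮, ‖Q P S f‖ ^ 2 ≤ ∑ S ∈ (𝒮.biUnion id).powerset, ‖Q P S f‖ ^ 2 :=
        Finset.sum_le_sum_of_subset_of_nonneg h1 fun _ _ _ => sq_nonneg _
    _ = ‖P (𝒮.biUnion id) f‖ ^ 2 := (hP.norm_P_sq _ _).symm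
    _ ≤ ‖f‖ ^ 2 := by
        have := hP.norm_P_le (𝒮.biUnion id) f
        gcongr

theorem PF.summable_sq (hP : PF P) (f : H) : Summable fun S => ‖Q P S f‖ ^ 2 :=
  summable_of_sum_le (fun _ => sq_nonneg _) (hP.sum_sq_le f)

open Classical in
/-- the proportion of `S` in `R` -/
noncomputable def wt (R : Set ι) (S : Finset ι) : ℝ :=
  ((S.filter fun x => x ∈ R).card : ℝ) / S.card

omit [DecidableEq ι] in
theorem wt_nonneg (R : Set ι) (S : Finset ι) : 0 ≤ wt R S := by
  unfold wt; positivity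

omit [DecidableEq ι] in
theorem wt_le_one (R : Set ι) (S : Finset ι) : wt R S ≤ 1 := by
  classical
  unfold wt
  apply div_le_one_of_le₀ _ (by positivity)
  exact_mod_cast Finset.card_filter_le _ _

omit [DecidableEq ι] in
theorem wt_mono {R R' : Set ι} (h : R ⊆ R') (S : Finset ι) : wt R S ≤ wt R' S := by
  classical
  unfold wt
  gcongr

omit [DecidableEq ι] in
theorem wt_union_le {R R' : Set ι} (h : Disjoint R R') (S : Finset ι) :
    wt R S + wt R' S ≤ wt (R ∪ R') S := by
  classical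
  unfold wt
  rw [← add_div]
  apply div_le_div_of_nonneg_right _ (by positivity)
  norm_cast
  rw [← Finset.card_union_of_disjoint]
  · apply Finset.card_le_card
    intro x hx
    simp only [Finset.mem_union, Finset.mem_filter, Set.mem_union] at hx ⊢
    tauto
  · rw [Finset.disjoint_filter]
    intro x _ h1 h2
    exact Set.disjoint_left.1 h h1 h2

omit [DecidableEq ι] in
theorem one_le_sum_wt {κ : Type*} (I : Finset κ) (R : κ → Set ι) (hR : ∀ x, ∃ i ∈ I, x ∈ R i)
    {S : Finset ι} (hS : S.Nonempty) : 1 ≤ ∑ i ∈ I, wt (R i) S := by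
  classical
  unfold wt
  rw [← Finset.sum_div, le_div_iff₀ (by exact_mod_cast hS.card_pos), one_mul]
  have : S.card ≤ ∑ i ∈ I, (S.filter fun x => x ∈ R i).card := by
    refine le_trans (Finset.card_le_card ?_) Finset.card_biUnion_le
    intro x hx
    obtain ⟨i, hi, hxi⟩ := hR x
    exact Finset.mem_biUnion.2 ⟨i, hi, Finset.mem_filter.2 ⟨hx, hxi⟩⟩
  exact_mod_cast this

/-- the mass of `f` in the set `R` -/
noncomputable def mass (P : Finset ι → H →ₗ[ℝ] H) (f : H) (R : Set ι) : ℝ :=
  ∑' S : Finset ι, wt R S * ‖Q P S f‖ ^ 2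

theorem PF.summable_mass (hP : PF P) (f : H) (R : Set ι) :
    Summable fun S : Finset ι => wt R S * ‖Q P S f‖ ^ 2 := by
  refine Summable.of_nonneg_of_le (fun S => mul_nonneg (wt_nonneg _ _) (sq_nonneg _)) (fun S => ?_)
    (hP.summable_sq f)
  exact mul_le_of_le_one_left (sq_nonneg _) (wt_le_one _ _)

theorem mass_nonneg (f : H) (R : Set ι) : 0 ≤ mass P f R :=
  tsum_nonneg fun _ => mul_nonneg (wt_nonneg _ _) (sq_nonneg _)

theorem PF.mass_mono (hP : PF P) (f : H) {R R' : Set ι} (h : R ⊆ R') :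
    mass P f R ≤ mass P f R' := by
  unfold mass
  refine (hP.summable_mass f R).tsum_le_tsum (fun S => ?_) (hP.summable_mass f R')
  exact mul_le_mul_of_nonneg_right (wt_mono h S) (sq_nonneg _)

theorem PF.mass_union (hP : PF P) (f : H) {R R' : Set ι} (h : Disjoint R R') :
    mass P f R + mass P f R' ≤ mass P f (R ∪ R') := by
  unfold mass
  rw [← (hP.summable_mass f R).tsum_add (hP.summable_mass f R')]
  refine ((hP.summable_mass f R).add (hP.summable_mass f R')).tsum_le_tsum (fun S => ?_)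
    (hP.summable_mass f (R ∪ R'))
  rw [← add_mul]
  exact mul_le_mul_of_nonneg_right (wt_union_le h S) (sq_nonneg _)

theorem PF.mass_le (hP : PF P) (f : H) (R : Set ι) : mass P f R ≤ ‖f‖ ^ 2 := by
  unfold mass
  refine (hP.summable_mass f R).tsum_le_of_sum_le fun 𝒮 => ?_
  refine le_trans (Finset.sum_le_sum fun S _ => ?_) (hP.sum_sq_le f 𝒮)
  exact mul_le_of_le_one_left (sq_nonneg _) (wt_le_one _ _)

/-- masses of finitely many disjoint sets -/
theorem PF.mass_biUnion (hP : PF P) (f : H) {κ : Type*} [DecidableEq κ] (I : Finset κ)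
    (R : κ → Set ι) (hd : ∀ i ∈ I, ∀ j ∈ I, i ≠ j → Disjoint (R i) (R j)) {T : Set ι}
    (hT : ∀ i ∈ I, R i ⊆ T) : ∑ i ∈ I, mass P f (R i) ≤ mass P f T := by
  have key : ∀ J : Finset κ, J ⊆ I → ∑ i ∈ J, mass P f (R i) ≤ mass P f (⋃ i ∈ J, R i) := by
    intro J
    induction J using Finset.induction_on with
    | empty => intro _; simpa using mass_nonneg f _
    | insert x J hx ih =>
      intro hJ
      rw [Finset.sum_insert hx, Finset.set_biUnion_insert]
      have h1 := ih ((Finset.subset_insert x J).trans hJ)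
      refine le_trans (add_le_add le_rfl h1) (hP.mass_union f ?_)
      rw [Set.disjoint_iUnion₂_right]
      intro j hj
      refine hd x (hJ (Finset.mem_insert_self _ _)) j (hJ (Finset.mem_insert_of_mem hj)) ?_
      rintro rfl
      exact hx hj
  exact (key I (Finset.Subset.refl I)).trans (hP.mass_mono f (Set.iUnion₂_subset hT))

/-- the main inequality -/
theorem PF.abs_inner_le (hP : PF P) (f g : H) (h0 : P ∅ f = 0)
    (hd : ∀ ε : ℝ, 0 < ε → ∃ B : Finset ι, ‖P B f - f‖ ≤ ε)
    {κ : Type*} (I : Finset κ) (R : κ → Set ι) (hR : ∀ x, ∃ i ∈ I, x ∈ R i) :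
    |inner ℝ f g| ≤ ∑ i ∈ I, √(mass P f (R i)) * √(mass P g (R i)) := by
  have hQ0 : Q P ∅ f = 0 := by
    unfold Q alt
    simp [h0]
  have key : ∀ B : Finset ι, |inner ℝ (P B f) g|
      ≤ ∑ i ∈ I, √(mass P f (R i)) * √(mass P g (R i)) := by
    intro B
    rw [hP.inner_P]
    calc |∑ S ∈ B.powerset, inner ℝ (Q P S f) (Q P S g)|
        ≤ ∑ S ∈ B.powerset, |inner ℝ (Q P S f) (Q P S g)| := Finset.abs_sum_le_sum_abs _ _
      _ ≤ ∑ S ∈ B.powerset, ∑ i ∈ I, wt (R i) S * (‖Q P S f‖ * ‖Q P S g‖) := by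
          refine Finset.sum_le_sum fun S _ => ?_
          rw [← Finset.sum_mul]
          rcases S.eq_empty_or_nonempty with h | h
          · rw [h, hQ0]
            simp
          · calc |inner ℝ (Q P S f) (Q P S g)| ≤ ‖Q P S f‖ * ‖Q P S g‖ :=
                  abs_real_inner_le_norm _ _
              _ ≤ _ := le_mul_of_one_le_left (by positivity) (one_le_sum_wt I R hR h)
      _ = ∑ i ∈ I, ∑ S ∈ B.powerset, wt (R i) S * (‖Q P S f‖ * ‖Q P S g‖) := Finset.sum_comm
      _ ≤ _ := by
          refine Finset.sum_le_sum fun i _ => ?_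
          have e : ∀ S ∈ B.powerset, wt (R i) S * (‖Q P S f‖ * ‖Q P S g‖)
              = (√(wt (R i) S) * ‖Q P S f‖) * (√(wt (R i) S) * ‖Q P S g‖) := by
            intro S _
            have := Real.mul_self_sqrt (wt_nonneg (R i) S)
            calc wt (R i) S * (‖Q P S f‖ * ‖Q P S g‖)
                = (√(wt (R i) S) * √(wt (R i) S)) * (‖Q P S f‖ * ‖Q P S g‖) := by rw [this]
              _ = _ := by ring
          rw [Finset.sum_congr rfl e]
          have b1 : ∀ h : H, ∑ S ∈ B.powerset, (√(wt (R i) S) * ‖Q P S h‖) ^ 2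
              ≤ mass P h (R i) := by
            intro h
            have : ∀ S ∈ B.powerset, (√(wt (R i) S) * ‖Q P S h‖) ^ 2
                = wt (R i) S * ‖Q P S h‖ ^ 2 := by
              intro S _
              rw [mul_pow, Real.sq_sqrt (wt_nonneg _ _)]
            rw [Finset.sum_congr rfl this]
            exact (hP.summable_mass h (R i)).sum_le_tsum _
              fun S _ => mul_nonneg (wt_nonneg _ _) (sq_nonneg _)
          refine le_trans (Real.sum_mul_le_sqrt_mul_sqrt _ _ _) ?_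
          exact mul_le_mul (Real.sqrt_le_sqrt (b1 f)) (Real.sqrt_le_sqrt (b1 g))
            (Real.sqrt_nonneg _) (Real.sqrt_nonneg _)
  refine le_of_forall_pos_le_add fun ε hε => ?_
  obtain ⟨B, hB⟩ := hd (ε / (‖g‖ + 1)) (by positivity)
  have h1 : inner ℝ f g = inner ℝ (P B f) g - inner ℝ (P B f - f) g := by
    rw [inner_sub_left]; ring
  have h2 : |inner ℝ (P B f - f) g| ≤ ε := by
    calc |inner ℝ (P B f - f) g| ≤ ‖P B f - f‖ * ‖g‖ := abs_real_inner_le_norm _ _
      _ ≤ ε / (‖g‖ + 1) * (‖g‖ + 1) := by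
          gcongr
          linarith
      _ = ε := by field_simp
  rw [h1]
  calc |inner ℝ (P B f) g - inner ℝ (P B f - f) g|
      ≤ |inner ℝ (P B f) g| + |inner ℝ (P B f - f) g| := abs_sub _ _
    _ ≤ _ := add_le_add (key B) h2

end Hoef

end P161C
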