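import Vale.Agent.P161C.Base

/-!
# P161 at the critical point: independence of functions of disjoint blocks of labels
-/

open MeasureTheory ProbabilityTheory Set Filter Topology

namespace P161C

open P161

universe u

variable {V : Type u}

/-- all labels as one family -/
def allLab (ω : Om V) : Bool × (V × ℤ) → unitInterval :=
  fun p => if p.1 then ω.1 p.2 else ω.2 p.2

theorem measurable_allLab : Measurable (allLab : Om V → _) := by
  refine measurable_pi_lambda _ fun p => ?_
  unfold allLab
  cases p.1
  · have : Measurable fun c : Om V => c.2 p.2 := (measurable_pi_apply p.2).comp measurable_snd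
    simpa using this
  · have : Measurable fun c : Om V => c.1 p.2 := (measurable_pi_apply p.2).comp measurable_fst
    simpa using this

/-- inverse of `allLab` -/
def unLab (x : Bool × (V × ℤ) → unitInterval) : Om V := (fun e => x (true, e), fun e => x (false, e))

theorem measurable_unLab : Measurable (unLab : _ → Om V) := by
  unfold unLab
  refine Measurable.prodMk ?_ ?_ <;>
  exact measurable_pi_lambda _ fun e => measurable_pi_apply _

theorem unLab_allLab (ω : Om V) : unLab (allLab ω) = ω := by
  unfold unLab allLab
  simp

theorem map_allLab : (Pm V).map allLab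
    = Measure.infinitePi fun _ : Bool × (V × ℤ) => (volume : Measure unitInterval) := by
  classical
  refine Measure.eq_infinitePi _ fun s t ht => ?_
  rw [Measure.map_apply measurable_allLab (MeasurableSet.pi s.countable_toSet fun i _ => ht i)]
  set s1 : Finset (V × ℤ) := (s.filter fun p => p.1 = true).image Prod.snd with hs1
  set s2 : Finset (V × ℤ) := (s.filter fun p => p.1 = false).image Prod.snd with hs2
  have h1 : allLab ⁻¹' ((s : Set (Bool × (V × ℤ))).pi t)
      = ((s1 : Set (V × ℤ)).pi fun e => t (true, e)) ×ˢ
        ((s2 : Set (V × ℤ)).pi fun e => t (false, e)) := by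
    ext ω
    simp only [mem_preimage, Set.mem_pi, Finset.mem_coe, mem_prod, hs1, hs2, Finset.mem_image,
      Finset.mem_filter, allLab]
    constructor
    · intro h
      constructor
      · rintro e ⟨⟨b, e'⟩, ⟨h1, rfl⟩, rfl⟩
        simpa using h _ h1
      · rintro e ⟨⟨b, e'⟩, ⟨h1, rfl⟩, rfl⟩
        simpa using h _ h1
    · rintro ⟨h1, h2⟩ ⟨b, e⟩ hb
      cases b
      · simpa using h2 e ⟨(false, e), ⟨hb, rfl⟩, rfl⟩
      · simpa using h1 e ⟨(true, e), ⟨hb, rfl⟩, rfl⟩
  rw [h1]
  unfold Pm
  rw [Measure.prod_prod]
  unfold Pc
  rw [Measure.infinitePi_pi _ fun i _ => ht _, Measure.infinitePi_pi _ fun i _ => ht _]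
  have h3 : ∏ i ∈ s, (volume : Measure unitInterval) (t i)
      = (∏ i ∈ s.filter (fun p => p.1 = true), (volume : Measure unitInterval) (t i))
        * ∏ i ∈ s.filter (fun p => p.1 = false), (volume : Measure unitInterval) (t i) := by
    rw [← Finset.prod_filter_mul_prod_filter_not s (fun p => p.1 = true)]
    congr 1
    refine Finset.prod_congr ?_ fun _ _ => rfl
    ext p
    simp
  rw [h3, hs1, hs2, Finset.prod_image, Finset.prod_image]
  · congr 1
    · refine Finset.prod_congr rfl ?_
      rintro ⟨b, e⟩ hp
      rw [Finset.mem_filter] at hp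
      obtain ⟨_, hb⟩ := hp
      simp only at hb
      subst hb
      rfl
    · refine Finset.prod_congr rfl ?_
      rintro ⟨b, e⟩ hp
      rw [Finset.mem_filter] at hp
      obtain ⟨_, hb⟩ := hp
      simp only at hb
      subst hb
      rfl
  · rintro ⟨b, e⟩ hp ⟨b', e'⟩ hp' h
    simp only [Finset.coe_filter, Set.mem_ofPred_eq] at hp hp'
    simp only at h
    rw [hp.2, hp'.2, h]
  · rintro ⟨b, e⟩ hp ⟨b', e'⟩ hp' h
    simp only [Finset.coe_filter, Set.mem_ofPred_eq] at hp hp'
    simp only at h
    rw [hp.2, hp'.2, h]

/-- `f` depends only on the labels (order and signal) of the events in `A` -/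
def DepO {γ : Type*} (f : Om V → γ) (A : Set (V × ℤ)) : Prop :=
  ∀ η η' : Om V, (∀ e ∈ A, η.1 e = η'.1 e ∧ η.2 e = η'.2 e) → f η = f η'

theorem DepO.mono {γ : Type*} {f : Om V → γ} {A B : Set (V × ℤ)} (h : DepO f A) (hAB : A ⊆ B) :
    DepO f B := fun η η' hη => h η η' fun e he => hη e (hAB he)

/-- functions of disjoint blocks of labels are independent -/
theorem indep_blocks {J : Type*} {γ : J → Type*} [∀ j, MeasurableSpace (γ j)]
    (A : J → Set (V × ℤ)) (hA : Pairwise fun i j => Disjoint (A i) (A j))
    (F : ∀ j, Om V → γ j) (hF : ∀ j, Measurable (F j)) (hd : ∀ j, DepO (F j) (A j)) :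
    iIndepFun F (Pm V) := by
  classical
  -- the coordinates of the block `j`
  let κ : J → Type _ := fun j => {p : Bool × (V × ℤ) // p.2 ∈ A j}
  let inj : (Σ j, κ j) → Bool × (V × ℤ) := fun q => q.2.1
  have hinj : Function.Injective inj := by
    rintro ⟨j, ⟨p, hp⟩⟩ ⟨j', ⟨p', hp'⟩⟩ h
    simp only [inj] at h
    subst h
    have : j = j' := by
      by_contra hne
      exact Set.disjoint_left.1 (hA hne) hp hp'
    subst this
    rfl
  have h1 := Measure.map_infinitePi_infinitePi_of_inj
    (P := fun _ : Bool × (V × ℤ) => (volume : Measure unitInterval)) hinj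
  have h2 := Measure.infinitePi_map_piCurry
    (X := fun (j : J) (_ : κ j) => unitInterval) (fun j (_ : κ j) => (volume : Measure unitInterval))
  -- extension of a block by zero
  let ext : ∀ j, (κ j → unitInterval) → Om V := fun j x =>
    unLab fun p => if h : p.2 ∈ A j then x ⟨p, h⟩ else 0
  have hext : ∀ j, Measurable (ext j) := by
    intro j
    refine measurable_unLab.comp (measurable_pi_lambda _ fun p => ?_)
    by_cases h : p.2 ∈ A j
    · simp only [h, dite_true]
      exact measurable_pi_apply (⟨p, h⟩ : κ j)
    · simp only [h, dite_false]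
      exact measurable_const
  let T : Om V → (j : J) → κ j → unitInterval := fun ω j c => allLab ω c.1
  have hT : Measurable T := measurable_pi_lambda _ fun j => measurable_pi_lambda _ fun c =>
    (measurable_pi_apply c.1).comp measurable_allLab
  have hTm : (Pm V).map T = Measure.infinitePi fun j : J =>
      Measure.infinitePi fun _ : κ j => (volume : Measure unitInterval) := by
    have e : T = (MeasurableEquiv.piCurry (fun (j : J) (_ : κ j) => unitInterval)) ∘
        (fun (x : Bool × (V × ℤ) → unitInterval) (q : Σ j, κ j) => x (inj q)) ∘ allLab := rfl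
    rw [e, ← Measure.map_map (MeasurableEquiv.measurable _)
      ((measurable_pi_lambda _ fun q => measurable_pi_apply _).comp measurable_allLab),
      ← Measure.map_map (measurable_pi_lambda _ fun q => measurable_pi_apply _)
      measurable_allLab, map_allLab, h1]
    exact h2
  have hFe : ∀ j ω, F j ω = F j (ext j (T ω j)) := by
    intro j ω
    refine hd j _ _ fun e he => ?_
    simp only [ext, T, unLab, he, dite_true, allLab]
    simp
  have h3 : iIndepFun (fun j (x : (j : J) → κ j → unitInterval) => F j (ext j (x j)))
      (Measure.infinitePi fun j : J =>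
        Measure.infinitePi fun _ : κ j => (volume : Measure unitInterval)) :=
    iIndepFun_infinitePi (X := fun j x => F j (ext j x)) fun j => (hF j).comp (hext j)
  have hm : ∀ j, Measurable fun (x : (j : J) → κ j → unitInterval) => F j (ext j (x j)) :=
    fun j => (hF j).comp ((hext j).comp (measurable_pi_apply j))
  have : F = fun j ω => F j (ext j (T ω j)) := by
    funext j ω
    exact hFe j ω
  have hmT : ∀ j, Measurable fun ω => F j (ext j (T ω j)) := fun j => (hm j).comp hT
  rw [this, iIndepFun_iff_map_fun_eq_infinitePi_map hmT]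
  rw [iIndepFun_iff_map_fun_eq_infinitePi_map hm] at h3
  have e1 : (fun ω j => F j (ext j (T ω j)))
      = (fun (x : (j : J) → κ j → unitInterval) j => F j (ext j (x j))) ∘ T := rfl
  rw [e1, ← Measure.map_map (measurable_pi_lambda _ hm) hT, hTm, h3]
  congr 1
  funext j
  rw [← hTm, Measure.map_map (hm j) hT]
  rfl

end P161C
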