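import Vale.Agent.P161C.Fldx

/-! # P161 at the critical point, module INIT -/

open MeasureTheory Set Filter Topology

namespace P161C

open P161

universe u

variable {V : Type u}

/-- second moment of a message in infinite volume -/
theorem ms_second (hL : LIM.{u}) (hP : PROCLAW.{u}) (hA : LAWA) (hS : SIGF) (hM : MSG)
    (hst : STT.{u}) {D J : ℕ} (hD : 2 ≤ D) : ∃ C : ℝ, 0 < C ∧
    ∀ (V : Type u) [Countable V] (G : SimpleGraph V) [G.LocallyFinite] (hE : Env G D)
    (k : ℕ) (μ : Measure (V → Bool)), 1 ≤ k → Isg G D (thk D k) μ →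
    ∀ (j : ℤ) (t : ℝ) (a b : V), G.Adj a b → j ≤ J → (j : ℝ) ≤ t → t ≤ j + 1 →
      (∀ n, ∫ α, α ^ 2 ∂(lawR (thk D k) D (sigL k t) n) ≤ C * scal j) ∧
      ∫ ω, ms (thk D k) (fun v => Mi G hE.tree.connected μ k t v ω) a b ^ 2 ∂(Pm V)
        ≤ C * scal j := by
  obtain ⟨C₁, hC₁, hhi⟩ := hS.hi J
  obtain ⟨r₁, h0, h1, hsym⟩ := hS.sym J
  obtain ⟨Cl, hCl, hlip⟩ := hM.lip
  refine ⟨2 * D * √C₁, by have : (0 : ℝ) < D := by positivity
                          positivity, ?_⟩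
  intro V _ G _ hE k μ hk hI j t a b hab hj2 hjt htj
  have hθ0 := thk_nonneg D k
  have hθ1 := thk_lt hD k
  have hθ2 := thk_half hD hk
  have hθ3 := thk_sq_half hD k
  have hy := scal_pos j
  have htJ : t ≤ J + 1 := by
    have : (j : ℝ) ≤ J := by exact_mod_cast hj2
    linarith
  have hbound : ∀ n, ∫ α, α ^ 2 ∂(lawR (thk D k) D (sigL k t) n) ≤ 2 * D * √C₁ * scal j := by
    intro n
    refine (hA D r₁ (thk D k) (sigL k t) hD h0 h1 (hsym k t htJ) hθ0 hθ1.le hθ2 n).trans ?_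
    have h3 : √(∫ s, s ^ 2 ∂(sigL k t)) ≤ √C₁ * scal j := by
      conv_rhs => rw [← Real.sqrt_sq hy.le, ← Real.sqrt_mul hC₁.le]
      exact Real.sqrt_le_sqrt (hhi k j t hj2 hjt htj)
    have h4 : (0 : ℝ) ≤ 2 * D := by positivity
    calc 2 * (D : ℝ) * √(∫ s, s ^ 2 ∂(sigL k t)) ≤ 2 * D * (√C₁ * scal j) :=
          mul_le_mul_of_nonneg_left h3 h4
      _ = 2 * D * √C₁ * scal j := by ring
  refine ⟨hbound, ?_⟩
  -- the messages are bounded by `2 Cl`
  have hmsgb : ∀ x y : ℝ, |x| ≤ 1 → |y| ≤ 1 → |msg (thk D k) x y| ≤ 2 * Cl := by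
    intro x y hx hy'
    have h5 := hlip (thk D k) x y 0 0 hθ0 hθ3 hx hy' (by simp) (by simp)
    have h6 : msg (thk D k) 0 0 = 0 := by unfold msg; simp
    rw [h6, sub_zero, sub_zero, sub_zero] at h5
    nlinarith
  have hms := BT.ms hM hθ0 hθ3 le_rfl hmsgb
    (fun v => field_BT hL hst hE hI hθ1 k t b v) a b
  have hsq := hms.comp (φ := fun z => z ^ 2) (K := 2 * (2 * Cl)) (B' := (2 * Cl) ^ 2)
    (by fun_prop)
    (fun z hz => by rw [abs_of_nonneg (sq_nonneg z), ← sq_abs z]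
                    exact pow_le_pow_left₀ (abs_nonneg _) hz 2)
    (fun z z' hz hz' => bt_sq_lip hz hz')
  refine le_of_tendsto' hsq.integral (fun R => ?_)
  have h4 := int_ms hP hst hE hI k t R hab.symm (φ := fun z => z ^ 2) (by fun_prop)
  rw [h4]
  exact hbound R

/-- a vertex of the tree has a neighbour -/
theorem exists_adj {G : SimpleGraph V} [G.LocallyFinite] {D : ℕ} (hE : Env G D) (v : V) :
    ∃ p, G.Adj v p := by
  have h1 : 0 < G.degree v := by rw [hE.reg v]; omega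
  rw [SimpleGraph.degree_pos_iff_exists_adj] at h1
  exact h1

theorem init_proof (hL : LIM.{u}) (hP : PROCLAW.{u}) (hA : LAWA) (hS : SIGF) (hM : MSG)
    (hst : STT.{u}) : INIT.{u} := by
  intro D J hD
  obtain ⟨C, hC, hms⟩ := ms_second (J := J) hL hP hA hS hM hst hD
  obtain ⟨Cm, hCm, hmean⟩ := hM.mean_le
  obtain ⟨Cl, hCl, hlip⟩ := hM.lip
  refine ⟨Cm ^ 2 * (4 * C), by positivity, ?_⟩
  intro V _ G _ hE k μ hk hI j t v hj2 hjt htj
  obtain ⟨p, hp⟩ := exists_adj hE v
  have hθ0 := thk_nonneg D k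
  have hθ1 := thk_lt hD k
  have hθ3 := thk_sq_half hD k
  have h1 := (hms V G hE k μ hk hI j t v p hp hj2 hjt htj).2
  have h2 := (hms V G hE k μ hk hI j t p v hp.symm hj2 hjt htj).2
  have hmsgb : ∀ x y : ℝ, |x| ≤ 1 → |y| ≤ 1 → |msg (thk D k) x y| ≤ 2 * Cl := by
    intro x y hx hy'
    have h5 := hlip (thk D k) x y 0 0 hθ0 hθ3 hx hy' (by simp) (by simp)
    have h6 : msg (thk D k) 0 0 = 0 := by unfold msg; simp
    rw [h6, sub_zero, sub_zero, sub_zero] at h5
    nlinarith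
  have hint : ∀ a b, Integrable (fun ω =>
      ms (thk D k) (fun v => Mi G hE.tree.connected μ k t v ω) a b ^ 2) (Pm V) := by
    intro a b
    have hms' := BT.ms hM hθ0 hθ3 le_rfl hmsgb
      (fun v => field_BT hL hst hE hI hθ1 k t b v) a b
    have hsq := hms'.comp (φ := fun z => z ^ 2) (K := 2 * (2 * Cl)) (B' := (2 * Cl) ^ 2)
      (by fun_prop)
      (fun z hz => by rw [abs_of_nonneg (sq_nonneg z), ← sq_abs z]
                      exact pow_le_pow_left₀ (abs_nonneg _) hz 2)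
      (fun z z' hz hz' => bt_sq_lip hz hz')
    exact hsq.intX
  have hbd : ∀ v ω, |Mi G hE.tree.connected μ k t v ω| ≤ 1 := fun v ω =>
    (hL V G D _ μ hE hI hθ1 k t v).2.1 ω
  have hmeas : ∀ v, Measurable (Mi G hE.tree.connected μ k t v) := fun v =>
    (hL V G D _ μ hE hI hθ1 k t v).1
  have hintM : Integrable (fun ω => Mi G hE.tree.connected μ k t v ω ^ 2) (Pm V) := by
    refine Integrable.of_bound (by have := hmeas v; fun_prop) 1 (ae_of_all _ fun ω => ?_)
    rw [Real.norm_eq_abs, abs_of_nonneg (sq_nonneg _), ← sq_abs]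
    exact pow_le_one₀ (abs_nonneg _) (hbd v ω)
  calc ∫ ω, Mi G hE.tree.connected μ k t v ω ^ 2 ∂(Pm V)
      ≤ ∫ ω, (2 * Cm ^ 2) * (ms (thk D k) (fun v => Mi G hE.tree.connected μ k t v ω) v p ^ 2
          + ms (thk D k) (fun v => Mi G hE.tree.connected μ k t v ω) p v ^ 2) ∂(Pm V) := by
        refine integral_mono hintM (((hint v p).add (hint p v)).const_mul _) (fun ω => ?_)
        have h5 := hmean (thk D k) (Mi G hE.tree.connected μ k t v ω)
          (Mi G hE.tree.connected μ k t p ω) hθ0 hθ3 (hbd v ω) (hbd p ω)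
        simp only [ms]
        set a := msg (thk D k) (Mi G hE.tree.connected μ k t v ω)
          (Mi G hE.tree.connected μ k t p ω)
        set b := msg (thk D k) (Mi G hE.tree.connected μ k t p ω)
          (Mi G hE.tree.connected μ k t v ω)
        calc Mi G hE.tree.connected μ k t v ω ^ 2
            = |Mi G hE.tree.connected μ k t v ω| ^ 2 := (sq_abs _).symm
          _ ≤ (Cm * (|a| + |b|)) ^ 2 := pow_le_pow_left₀ (abs_nonneg _) h5 2
          _ ≤ (2 * Cm ^ 2) * (a ^ 2 + b ^ 2) := by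
              rw [mul_pow, ← sq_abs a, ← sq_abs b]
              nlinarith [sq_nonneg (|a| - |b|), sq_nonneg Cm,
                mul_nonneg (sq_nonneg Cm) (sq_nonneg (|a| - |b|))]
    _ = (2 * Cm ^ 2) * (∫ ω, ms (thk D k) (fun v => Mi G hE.tree.connected μ k t v ω) v p ^ 2
          ∂(Pm V)
          + ∫ ω, ms (thk D k) (fun v => Mi G hE.tree.connected μ k t v ω) p v ^ 2 ∂(Pm V)) := by
        rw [integral_const_mul, integral_add (hint v p) (hint p v)]
    _ ≤ (2 * Cm ^ 2) * (C * scal j + C * scal j) :=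
        mul_le_mul_of_nonneg_left (add_le_add h1 h2) (by positivity)
    _ = Cm ^ 2 * (4 * C) * scal j := by ring

end P161C
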