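import Vale.Agent.P161C.Mods

/-! # P161C, module JLB: basic facts on the joint law of the message and the path average -/

open MeasureTheory Set Filter Topology

namespace P161C

open P161

namespace JL

/-! ### general measure lemmas -/

/-- push-forward of a density which factors through the map -/
lemma map_wd {A B : Type*} [MeasurableSpace A] [MeasurableSpace B] (P : Measure A) {F : A → B}
    (hF : Measurable F) {w : B → ENNReal} (hw : Measurable w) :
    (P.withDensity (fun q => w (F q))).map F = (P.map F).withDensity w := by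
  ext s hs
  rw [Measure.map_apply hF hs, withDensity_apply _ (hF hs), withDensity_apply _ hs,
    setLIntegral_map hs hw hF]

/-- integral with respect to an image of a density -/
lemma int_map_wd {A B : Type*} [MeasurableSpace A] [MeasurableSpace B] (P : Measure A)
    {F : A → B} (hF : Measurable F) {w : A → ℝ} (hw : Measurable w) (hw0 : ∀ᵐ q ∂P, 0 ≤ w q)
    {f : B → ℝ} (hf : Measurable f) :
    ∫ z, f z ∂((P.withDensity (fun q => ENNReal.ofReal (w q))).map F)
      = ∫ q, w q * f (F q) ∂P := by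
  rw [integral_map hF.aemeasurable hf.aestronglyMeasurable,
    integral_withDensity_eq_integral_toReal_smul hw.ennreal_ofReal
      (ae_of_all _ fun _ => ENNReal.ofReal_lt_top)]
  refine integral_congr_ae ?_
  filter_upwards [hw0] with q hq
  rw [ENNReal.toReal_ofReal hq, smul_eq_mul]

lemma ae_pi {D : ℕ} {A : Type*} [MeasurableSpace A] (J : Measure A) [IsProbabilityMeasure J]
    {p : A → Prop} (h : ∀ᵐ x ∂J, p x) :
    ∀ᵐ x ∂(Measure.pi fun _ : Fin D => J), ∀ i, p (x i) := by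
  rw [ae_all_iff]
  intro i
  exact (Measure.tendsto_eval_ae_ae (μ := fun _ : Fin D => J) (i := i)).eventually h

lemma ae_prod {A B : Type*} [MeasurableSpace A] [MeasurableSpace B] (P : Measure A)
    (Q : Measure B) [SFinite P] [SFinite Q] {p : A → Prop} {r : B → Prop} (h : ∀ᵐ x ∂P, p x)
    (h' : ∀ᵐ y ∂Q, r y) : ∀ᵐ q ∂(P.prod Q), p q.1 ∧ r q.2 := by
  filter_upwards [Measure.quasiMeasurePreserving_fst.ae h,
    Measure.quasiMeasurePreserving_snd.ae h'] with q h1 h2
  exact ⟨h1, h2⟩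

lemma int_of_bd {A : Type*} [MeasurableSpace A] (P : Measure A) [IsFiniteMeasure P] {f : A → ℝ}
    (hf : Measurable f) (B : ℝ) (hB : ∀ᵐ x ∂P, |f x| ≤ B) : Integrable f P :=
  Integrable.mono' (integrable_const B) hf.aestronglyMeasurable
    (by filter_upwards [hB] with x hx; simpa using hx)

/-! ### the density and the two maps -/

variable {D : ℕ}

/-- density, in terms of the messages only -/
noncomputable def w1 (θ : ℝ) (q : ℝ × (Fin D → ℝ)) : ℝ :=
  ((1 + q.1) * ∏ i, (1 + θ * q.2 i) + (1 - q.1) * ∏ i, (1 - θ * q.2 i)) / 2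

/-- message, in terms of the messages only -/
noncomputable def al1 (θ : ℝ) (q : ℝ × (Fin D → ℝ)) : ℝ :=
  ((1 + q.1) * ∏ i, (1 + θ * q.2 i) - (1 - q.1) * ∏ i, (1 - θ * q.2 i))
    / ((1 + q.1) * ∏ i, (1 + θ * q.2 i) + (1 - q.1) * ∏ i, (1 - θ * q.2 i))

/-- forget the path averages -/
def fg (q : ℝ × (Fin D → ℝ × ℝ)) : ℝ × (Fin D → ℝ) := (q.1, fun i => (q.2 i).1)

/-- path average -/
noncomputable def zz (r y : ℝ) (q : ℝ × (Fin D → ℝ × ℝ)) : ℝ :=
  (∑ i, kt r y (q.2 i).1 * (q.2 i).2) / D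

lemma w1_meas (θ : ℝ) : Measurable (w1 (D := D) θ) := by
  unfold w1
  fun_prop

lemma al1_meas (θ : ℝ) : Measurable (al1 (D := D) θ) := by
  unfold al1
  fun_prop

lemma fg_meas : Measurable (fg (D := D)) := by
  unfold fg
  fun_prop

lemma kt_meas (r y : ℝ) : Measurable (kt r y) := by
  unfold kt
  fun_prop

lemma kt_pos {r y α : ℝ} (hr : 0 < r) : 0 < kt r y α := by
  unfold kt; positivity

lemma kt_le {r y α : ℝ} (hr : 0 < r) (hy : 0 < y) : kt r y α ≤ r := by
  unfold kt
  have : Real.exp (-(α ^ 2 / y)) ≤ 1 := Real.exp_le_one_iff.2 (by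
    have : 0 ≤ α ^ 2 / y := by positivity
    linarith)
  nlinarith

lemma kt_neg (r y α : ℝ) : kt r y (-α) = kt r y α := by
  unfold kt; rw [neg_sq]

lemma zz_meas (r y : ℝ) : Measurable (zz (D := D) r y) := by
  unfold zz kt
  fun_prop

lemma jlaw_succ (θ : ℝ) (D : ℕ) (S : Measure ℝ) (r y : ℝ) (n l : ℕ) :
    jlaw θ D S r y (n + 1) (l + 1)
      = ((S.prod (Measure.pi fun _ : Fin D => jlaw θ D S r y n l)).withDensity fun q =>
          ENNReal.ofReal (w1 θ (fg q))).map fun q => (al1 θ (fg q), zz r y q) := rfl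

lemma jlaw_zero (θ : ℝ) (D : ℕ) (S : Measure ℝ) (r y : ℝ) (n : ℕ) :
    jlaw θ D S r y n 0 = (lawR θ D S n).map fun α => (α, 1) := by
  cases n <;> rfl

/-- bounds on the product -/
lemma prod_bd {θ : ℝ} (h0 : 0 ≤ θ) (h1 : θ ≤ 1) {x : Fin D → ℝ} (hx : ∀ i, |x i| ≤ 1) :
    (0 ≤ ∏ i, (1 + θ * x i) ∧ ∏ i, (1 + θ * x i) ≤ 2 ^ D) ∧
    (0 ≤ ∏ i, (1 - θ * x i) ∧ ∏ i, (1 - θ * x i) ≤ 2 ^ D) := by
  have key : ∀ i, -1 ≤ θ * x i ∧ θ * x i ≤ 1 := by
    intro i
    have h2 := abs_le.1 (hx i)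
    constructor <;> nlinarith
  refine ⟨⟨Finset.prod_nonneg fun i _ => by linarith [(key i).1], ?_⟩,
    ⟨Finset.prod_nonneg fun i _ => by linarith [(key i).2], ?_⟩⟩
  · calc ∏ i, (1 + θ * x i) ≤ ∏ _i : Fin D, (2 : ℝ) :=
        Finset.prod_le_prod (fun i _ => by linarith [(key i).1]) fun i _ => by
          linarith [(key i).2]
      _ = 2 ^ D := by simp
  · calc ∏ i, (1 - θ * x i) ≤ ∏ _i : Fin D, (2 : ℝ) :=
        Finset.prod_le_prod (fun i _ => by linarith [(key i).2]) fun i _ => by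
          linarith [(key i).1]
      _ = 2 ^ D := by simp

lemma w1_bd {θ : ℝ} (h0 : 0 ≤ θ) (h1 : θ ≤ 1) {q : ℝ × (Fin D → ℝ)} (hs : |q.1| ≤ 1)
    (hx : ∀ i, |q.2 i| ≤ 1) : 0 ≤ w1 θ q ∧ w1 θ q ≤ 2 ^ D := by
  obtain ⟨⟨a0, a1⟩, ⟨b0, b1⟩⟩ := prod_bd h0 h1 hx
  have h2 := abs_le.1 hs
  unfold w1
  constructor
  · have := mul_nonneg (by linarith [h2.1] : 0 ≤ 1 + q.1) a0
    have := mul_nonneg (by linarith [h2.2] : 0 ≤ 1 - q.1) b0
    linarith
  · have := mul_le_mul_of_nonneg_left a1 (by linarith [h2.1] : 0 ≤ 1 + q.1)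
    have := mul_le_mul_of_nonneg_left b1 (by linarith [h2.2] : 0 ≤ 1 - q.1)
    linarith

lemma ae_one {r : ℝ} {L : Measure ℝ} (h1 : r < 1) (hL : Sym r L) : ∀ᵐ x ∂L, |x| ≤ 1 := by
  filter_upwards [hL.supp] with x hx
  linarith

/-- the root law in product form, as an identity of measures -/
lemma prod_law (hB : LAWB) {r θ : ℝ} {S L : Measure ℝ} (h0 : 0 ≤ r) (h1 : r < 1)
    (t0 : 0 ≤ θ) (t1 : θ ≤ 1) (hS : Sym r S) (hL : Sym r L) :
    ((S.prod (Measure.pi fun _ : Fin D => L)).withDensity fun q =>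
        ENNReal.ofReal (w1 θ q)).map (al1 θ) = comb S (combN (scl θ L) D) := by
  have := hS.prob
  have := hL.prob
  obtain ⟨r', r0, r1, hr'⟩ := hB.s_combN (θ * r) D (mul_nonneg t0 h0) (by nlinarith)
  have hN : Sym r' (combN (scl θ L) D) := hr' _ (hB.s_scl θ r L t0 hL)
  have hC := hB.s_comb r r' S _ h0 r0 h1 r1 hS hN
  have := hC.prob
  have hae : ∀ᵐ q ∂(S.prod (Measure.pi fun _ : Fin D => L)),
      |q.1| ≤ 1 ∧ ∀ i, |q.2 i| ≤ 1 := ae_prod _ _ (ae_one h1 hS) (ae_pi L (ae_one h1 hL))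
  have hw0 : ∀ᵐ q ∂(S.prod (Measure.pi fun _ : Fin D => L)), 0 ≤ w1 θ q := by
    filter_upwards [hae] with q hq
    exact (w1_bd t0 t1 hq.1 hq.2).1
  have hint : Integrable (w1 θ) (S.prod (Measure.pi fun _ : Fin D => L)) := by
    refine int_of_bd _ (w1_meas θ) (2 ^ D) ?_
    filter_upwards [hae] with q hq
    have := w1_bd t0 t1 hq.1 hq.2
    rw [abs_of_nonneg this.1]; exact this.2
  have : IsFiniteMeasure ((S.prod (Measure.pi fun _ : Fin D => L)).withDensity fun q =>
      ENNReal.ofReal (w1 θ q)) := isFiniteMeasure_withDensity_ofReal hint.2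
  refine ext_of_forall_integral_eq_of_IsFiniteMeasure (fun f => ?_)
  rw [int_map_wd _ (al1_meas θ) (w1_meas θ) hw0 f.continuous.measurable,
    hB.prodform D r θ S L h0 h1 t0 t1 hS hL f f.continuous.continuousOn, integral_prod]
  · rfl
  · refine int_of_bd _ ((w1_meas θ).mul (f.continuous.measurable.comp (al1_meas θ)))
      (2 ^ D * ‖f‖) ?_
    filter_upwards [hae] with q hq
    have := w1_bd t0 t1 hq.1 hq.2
    rw [abs_mul, abs_of_nonneg this.1]
    exact mul_le_mul this.2 (f.norm_coe_le_norm _) (abs_nonneg _) (by positivity)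

/-- the measure before the push-forward -/
lemma fg_map (S : Measure ℝ) [IsProbabilityMeasure S] (J : Measure (ℝ × ℝ))
    [IsProbabilityMeasure J] :
    (S.prod (Measure.pi fun _ : Fin D => J)).map (fg (D := D))
      = S.prod (Measure.pi fun _ : Fin D => J.map Prod.fst) := by
  have hJ : IsProbabilityMeasure (J.map Prod.fst) :=
    Measure.isProbabilityMeasure_map measurable_fst.aemeasurable
  have e : (fg (D := D)) = Prod.map id (fun (x : Fin D → ℝ × ℝ) i => (x i).1) := rfl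
  have hm : Measurable (fun (x : Fin D → ℝ × ℝ) i => (x i).1) := by fun_prop
  rw [e, ← Measure.map_prod_map _ _ measurable_id hm,
    Measure.pi_map_pi (f := fun _ : Fin D => (Prod.fst : ℝ × ℝ → ℝ))
      (fun _ => measurable_fst.aemeasurable)]
  rw [Measure.map_id]

/-- sign flip -/
def fl (q : ℝ × (Fin D → ℝ × ℝ)) : ℝ × (Fin D → ℝ × ℝ) :=
  (-q.1, fun i => (-(q.2 i).1, (q.2 i).2))

lemma fl_meas : Measurable (fl (D := D)) := by
  unfold fl
  fun_prop

lemma fl_map (S : Measure ℝ) [IsProbabilityMeasure S] (J : Measure (ℝ × ℝ))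
    [IsProbabilityMeasure J] (hS : S.map (fun x => -x) = S)
    (hJ : J.map (fun p => (-p.1, p.2)) = J) :
    (S.prod (Measure.pi fun _ : Fin D => J)).map (fl (D := D))
      = S.prod (Measure.pi fun _ : Fin D => J) := by
  have hm1 : Measurable (fun p : ℝ × ℝ => (-p.1, p.2)) := by fun_prop
  have hJ' : IsProbabilityMeasure (J.map (fun p => (-p.1, p.2))) := by rw [hJ]; infer_instance
  have e : (fl (D := D)) = Prod.map (fun s : ℝ => -s)
      (fun (x : Fin D → ℝ × ℝ) i => (-(x i).1, (x i).2)) := rfl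
  have hm : Measurable (fun (x : Fin D → ℝ × ℝ) i => (-(x i).1, (x i).2)) := by fun_prop
  rw [e, ← Measure.map_prod_map _ _ measurable_neg hm, hS,
    Measure.pi_map_pi (f := fun _ : Fin D => (fun p : ℝ × ℝ => (-p.1, p.2)))
      (fun _ => hm1.aemeasurable)]
  simp_rw [hJ]

lemma w1_fl (θ : ℝ) (q : ℝ × (Fin D → ℝ × ℝ)) : w1 θ (fg (fl q)) = w1 θ (fg q) := by
  unfold w1 fg fl
  simp only [mul_neg, sub_neg_eq_add, ← sub_eq_add_neg]
  ring

lemma al1_fl (θ : ℝ) (q : ℝ × (Fin D → ℝ × ℝ)) : al1 θ (fg (fl q)) = -al1 θ (fg q) := by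
  unfold al1 fg fl
  simp only [mul_neg, sub_neg_eq_add, ← sub_eq_add_neg]
  rw [← neg_div]
  congr 1 <;> ring

lemma zz_fl (r y : ℝ) (q : ℝ × (Fin D → ℝ × ℝ)) : zz r y (fl q) = zz r y q := by
  unfold zz fl
  simp only [kt_neg]

lemma pow_r {r : ℝ} (l : ℕ) : r * r ^ l = r ^ (l + 1) := by rw [pow_succ]; ring

end JL

open JL in
/-- JLB -/
theorem jlb_proof (hB : LAWB) : JLB := by
  intro D θ r₁ r y S hD t0 tD h0 h1 hS hr hy l
  have hD0 : (0 : ℝ) < D := by exact_mod_cast (by omega : 0 < D)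
  have t1 : θ ≤ 1 := by
    have hD1 : (1 : ℝ) ≤ D := by exact_mod_cast (by omega : 1 ≤ D)
    nlinarith
  have := hS.prob
  obtain ⟨r', r0', r1', hR⟩ := hB.s_lawR D r₁ hD h0 h1
  have hL : ∀ n, Sym r' (lawR θ D S n) := fun n => hR θ S n t0 tD hS
  induction l with
  | zero =>
    intro n _
    have hm : Measurable (fun α : ℝ => (α, (1 : ℝ))) := by fun_prop
    have := (hL n).prob
    rw [jlaw_zero]
    refine ⟨Measure.isProbabilityMeasure_map hm.aemeasurable, ?_, ?_, ?_⟩
    · rw [Measure.map_map measurable_fst hm]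
      exact Measure.map_id
    · have hm1 : Measurable (fun p : ℝ × ℝ => (-p.1, p.2)) := by fun_prop
      rw [Measure.map_map hm1 hm]
      conv_rhs => rw [← (hL n).symm, Measure.map_map hm measurable_neg]
      rfl
    · rw [ae_map_iff hm.aemeasurable (by measurability)]
      refine ae_of_all _ (fun α => ?_)
      simp
  | succ l ih =>
    intro n hn
    obtain ⟨m, rfl⟩ : ∃ m, n = m + 1 := ⟨n - 1, by omega⟩
    obtain ⟨i1, i2, i3, i4⟩ := ih m (by omega)
    rw [jlaw_succ]
    set J := jlaw θ D S r y m l with hJ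
    set P := S.prod (Measure.pi fun _ : Fin D => J) with hP
    have hT : Measurable (fun q : ℝ × (Fin D → ℝ × ℝ) => (al1 θ (fg q), zz r y q)) :=
      ((al1_meas θ).comp fg_meas).prodMk (zz_meas r y)
    have hw : Measurable (fun q : ℝ × (Fin D → ℝ) => ENNReal.ofReal (w1 θ q)) :=
      (w1_meas θ).ennreal_ofReal
    have hfst : ((P.withDensity fun q => ENNReal.ofReal (w1 θ (fg q))).map
        fun q => (al1 θ (fg q), zz r y q)).map Prod.fst = lawR θ D S (m + 1) := by
      rw [Measure.map_map measurable_fst hT]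
      have e : (Prod.fst ∘ fun q : ℝ × (Fin D → ℝ × ℝ) => (al1 θ (fg q), zz r y q))
          = (al1 θ) ∘ fg := rfl
      rw [e, ← Measure.map_map (al1_meas θ) fg_meas,
        map_wd P fg_meas (w := fun q => ENNReal.ofReal (w1 θ q)) hw, hP, fg_map S J, i2]
      have hs : 0 ≤ max r₁ r' := le_max_of_le_left h0
      exact prod_law hB hs (max_lt h1 r1') t0 t1
        (hB.s_mono _ _ _ (le_max_left _ _) hS) (hB.s_mono _ _ _ (le_max_right _ _) (hL m))
    refine ⟨?_, hfst, ?_, ?_⟩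
    · constructor
      have hp := (hL (m + 1)).prob.measure_univ
      rw [← hfst, Measure.map_apply measurable_fst MeasurableSet.univ, preimage_univ] at hp
      exact hp
    · have hm1 : Measurable (fun p : ℝ × ℝ => (-p.1, p.2)) := by fun_prop
      rw [Measure.map_map hm1 hT]
      have e : ((fun p : ℝ × ℝ => (-p.1, p.2)) ∘
          fun q : ℝ × (Fin D → ℝ × ℝ) => (al1 θ (fg q), zz r y q))
          = (fun q : ℝ × (Fin D → ℝ × ℝ) => (al1 θ (fg q), zz r y q)) ∘ fl := by
        funext q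
        simp only [Function.comp_apply, al1_fl, zz_fl]
      rw [e, ← Measure.map_map hT fl_meas]
      have e2 : (fun q : ℝ × (Fin D → ℝ × ℝ) => ENNReal.ofReal (w1 θ (fg q)))
          = fun q => (fun q' : ℝ × (Fin D → ℝ × ℝ) => ENNReal.ofReal (w1 θ (fg q'))) (fl q) := by
        funext q
        simp only [w1_fl]
      rw [e2, map_wd P fl_meas (w := fun q' => ENNReal.ofReal (w1 θ (fg q'))) (hw.comp fg_meas),
        hP, fl_map S J hS.symm i3]
      simp only [w1_fl]
    · rw [ae_map_iff hT.aemeasurable (by measurability)]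
      refine (withDensity_absolutelyContinuous P _).ae_le ?_
      filter_upwards [ae_prod S (Measure.pi fun _ : Fin D => J) (p := fun _ => True)
        (ae_of_all _ fun _ => trivial) (ae_pi J i4)] with q hq
      unfold zz
      constructor
      · exact div_nonneg (Finset.sum_nonneg fun i _ => mul_nonneg (kt_pos hr).le (hq.2 i).1)
          hD0.le
      · rw [div_le_iff₀ hD0, pow_succ]
        calc ∑ i, kt r y (q.2 i).1 * (q.2 i).2 ≤ ∑ _i : Fin D, r * r ^ l :=
            Finset.sum_le_sum fun i _ => mul_le_mul (kt_le hr hy) (hq.2 i).2 (hq.2 i).1 hr.le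
          _ = r ^ l * r * D := by simp; ring

end P161C
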