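import Vale.Agent.P161C.LawB

/-!
# LAWA, LAWL: bounds on the second moment of the messages
-/

open MeasureTheory Set Filter Topology

namespace P161C

namespace LawA

open LawB

/-- integrand of the second moment -/
noncomputable def sf (p : ℝ × ℝ) : ℝ :=
  (p.1 ^ 2 + p.2 ^ 2 - 2 * (p.1 * p.2) ^ 2) / (1 - (p.1 * p.2) ^ 2)

lemma den2_pos {x y : ℝ} (hx : |x| < 1) (hy : |y| < 1) : 0 < 1 - (x * y) ^ 2 := by
  have h := mul_abs_lt hx hy
  have : (x * y) ^ 2 < 1 := by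
    rw [← sq_abs]
    have := abs_nonneg (x * y)
    nlinarith
  linarith

lemma second_prod {r r' : ℝ} {L L' : Measure ℝ} (hr : r < 1) (hr' : r' < 1) (h : Sym r L)
    (h' : Sym r' L') : Integrable sf (L.prod L') ∧
      ∫ z, z ^ 2 ∂(comb L L') = ∫ p, sf p ∂(L.prod L') := by
  have := h.prob
  have := h'.prob
  have hI : Integrable sf (L.prod L') := by
    refine integrable_of_ae_mem (isCompact_Icc.prod isCompact_Icc) (ae_prod h h') ?_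
    unfold sf
    refine ContinuousOn.div (by fun_prop) (by fun_prop) ?_
    intro p hp
    exact (den2_pos (lt_of_le_of_lt (abs_le.2 hp.1) hr)
      (lt_of_le_of_lt (abs_le.2 hp.2) hr')).ne'
  refine ⟨hI, ?_⟩
  rw [second (max r r') L L' (max_lt hr hr') (s_mono _ _ _ (le_max_left _ _) h)
    (s_mono _ _ _ (le_max_right _ _) h'), integral_prod _ hI]
  rfl

lemma integrable_cont {r r' : ℝ} {L L' : Measure ℝ} (h : Sym r L) (h' : Sym r' L')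
    {F : ℝ × ℝ → ℝ} (hF : Continuous F) : Integrable F (L.prod L') := by
  have := h.prob
  have := h'.prob
  exact integrable_of_ae_mem (isCompact_Icc.prod isCompact_Icc) (ae_prod h h') hF.continuousOn

lemma sq_comb_le {r r' : ℝ} {L L' : Measure ℝ} (hr : r < 1) (hr' : r' < 1) (h : Sym r L)
    (h' : Sym r' L') {F : ℝ × ℝ → ℝ} (hF : Continuous F)
    (hle : ∀ x y : ℝ, |x| ≤ r → |y| ≤ r' → sf (x, y) ≤ F (x, y)) :
    ∫ z, z ^ 2 ∂(comb L L') ≤ ∫ p, F p ∂(L.prod L') := by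
  obtain ⟨h1, h2⟩ := second_prod hr hr' h h'
  rw [h2]
  refine integral_mono_ae h1 (integrable_cont h h' hF) ?_
  filter_upwards [ae_prod h h'] with p hp
  exact hle p.1 p.2 (abs_le.2 hp.1) (abs_le.2 hp.2)

lemma sq_comb_ge {r r' : ℝ} {L L' : Measure ℝ} (hr : r < 1) (hr' : r' < 1) (h : Sym r L)
    (h' : Sym r' L') {F : ℝ × ℝ → ℝ} (hF : Continuous F)
    (hle : ∀ x y : ℝ, |x| ≤ r → |y| ≤ r' → F (x, y) ≤ sf (x, y)) :
    ∫ p, F p ∂(L.prod L') ≤ ∫ z, z ^ 2 ∂(comb L L') := by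
  obtain ⟨h1, h2⟩ := second_prod hr hr' h h'
  rw [h2]
  refine integral_mono_ae (integrable_cont h h' hF) h1 ?_
  filter_upwards [ae_prod h h'] with p hp
  exact hle p.1 p.2 (abs_le.2 hp.1) (abs_le.2 hp.2)

lemma int_quad {r r' : ℝ} {L L' : Measure ℝ} (h : Sym r L) (h' : Sym r' L') (a b c : ℝ) :
    ∫ p : ℝ × ℝ, (a * p.1 ^ 2 + b * p.2 ^ 2 - c * (p.1 ^ 2 * p.2 ^ 2)) ∂(L.prod L')
      = a * ∫ x, x ^ 2 ∂L + b * ∫ x, x ^ 2 ∂L' - c * ((∫ x, x ^ 2 ∂L) * ∫ x, x ^ 2 ∂L') := by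
  have := h.prob
  have := h'.prob
  have i1 : Integrable (fun p : ℝ × ℝ => a * p.1 ^ 2) (L.prod L') :=
    integrable_cont h h' (by fun_prop)
  have i2 : Integrable (fun p : ℝ × ℝ => b * p.2 ^ 2) (L.prod L') :=
    integrable_cont h h' (by fun_prop)
  have i3 : Integrable (fun p : ℝ × ℝ => c * (p.1 ^ 2 * p.2 ^ 2)) (L.prod L') :=
    integrable_cont h h' (by fun_prop)
  have i12 : Integrable (fun p : ℝ × ℝ => a * p.1 ^ 2 + b * p.2 ^ 2) (L.prod L') := i1.add i2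
  rw [integral_sub i12 i3, integral_add i1 i2, integral_const_mul, integral_const_mul,
    integral_const_mul]
  have e1 : ∫ p : ℝ × ℝ, p.1 ^ 2 ∂(L.prod L') = ∫ x, x ^ 2 ∂L := by
    have := integral_prod_mul (μ := L) (ν := L') (fun x : ℝ => x ^ 2) (fun _ : ℝ => (1 : ℝ))
    simpa using this
  have e2 : ∫ p : ℝ × ℝ, p.2 ^ 2 ∂(L.prod L') = ∫ x, x ^ 2 ∂L' := by
    have := integral_prod_mul (μ := L) (ν := L') (fun _ : ℝ => (1 : ℝ)) (fun x : ℝ => x ^ 2)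
    simpa using this
  have e3 : ∫ p : ℝ × ℝ, p.1 ^ 2 * p.2 ^ 2 ∂(L.prod L')
      = (∫ x, x ^ 2 ∂L) * ∫ x, x ^ 2 ∂L' :=
    integral_prod_mul (μ := L) (ν := L') (fun x : ℝ => x ^ 2) (fun x : ℝ => x ^ 2)
  rw [e1, e2, e3]

lemma sq_le_of_abs {x r : ℝ} (h : |x| ≤ r) : x ^ 2 ≤ r ^ 2 := by
  rw [← sq_abs]
  have := abs_nonneg x
  nlinarith

/-- `E (x ⊕ y)² ≤ E x² + E y²` -/
lemma sq_sub {r r' : ℝ} {L L' : Measure ℝ} (hr : r < 1) (hr' : r' < 1) (h : Sym r L)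
    (h' : Sym r' L') : ∫ z, z ^ 2 ∂(comb L L') ≤ ∫ x, x ^ 2 ∂L + ∫ x, x ^ 2 ∂L' := by
  have := sq_comb_le hr hr' h h' (F := fun p => 1 * p.1 ^ 2 + 1 * p.2 ^ 2
    - 0 * (p.1 ^ 2 * p.2 ^ 2)) (by fun_prop) ?_
  · rw [int_quad h h'] at this
    linarith
  · intro x y hx hy
    have hx1 : |x| < 1 := lt_of_le_of_lt hx hr
    have hy1 : |y| < 1 := lt_of_le_of_lt hy hr'
    have hd := den2_pos hx1 hy1
    have a1 := sq_le_of_abs hx1.le
    have a2 := sq_le_of_abs hy1.le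
    unfold sf
    simp only
    rw [div_le_iff₀ hd]
    have e : (x * y) ^ 2 = x ^ 2 * y ^ 2 := by ring
    rw [e]
    have p1 : 0 ≤ x ^ 2 * y ^ 2 := by positivity
    nlinarith [mul_nonneg p1 (by linarith : 0 ≤ 2 - (x ^ 2 + y ^ 2))]

/-- `E (x ⊕ y)² ≤ E x² + E y² - E x² E y²` for small messages -/
lemma sq_sub' {r r' : ℝ} {L L' : Measure ℝ} (hr : r ^ 2 ≤ 1 / 2) (hr' : r' ^ 2 ≤ 1 / 2)
    (h : Sym r L) (h' : Sym r' L') : ∫ z, z ^ 2 ∂(comb L L')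
      ≤ ∫ x, x ^ 2 ∂L + ∫ x, x ^ 2 ∂L' - (∫ x, x ^ 2 ∂L) * ∫ x, x ^ 2 ∂L' := by
  have b1 : r < 1 := by nlinarith
  have b2 : r' < 1 := by nlinarith
  have := sq_comb_le b1 b2 h h' (F := fun p => 1 * p.1 ^ 2 + 1 * p.2 ^ 2
    - 1 * (p.1 ^ 2 * p.2 ^ 2)) (by fun_prop) ?_
  · rw [int_quad h h'] at this
    linarith
  · intro x y hx hy
    have hx1 : |x| < 1 := lt_of_le_of_lt hx b1
    have hy1 : |y| < 1 := lt_of_le_of_lt hy b2
    have hd := den2_pos hx1 hy1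
    have a1 := sq_le_of_abs hx
    have a2 := sq_le_of_abs hy
    unfold sf
    simp only
    rw [div_le_iff₀ hd]
    have e : (x * y) ^ 2 = x ^ 2 * y ^ 2 := by ring
    rw [e]
    have p1 : 0 ≤ x ^ 2 * y ^ 2 := by positivity
    nlinarith [mul_nonneg p1 (by linarith : 0 ≤ 1 - (x ^ 2 + y ^ 2)), mul_nonneg p1 p1]

/-- `E (x ⊕ y)² ≥ E x² + E y² - K E x² E y²` -/
lemma sq_super {r r' K : ℝ} {L L' : Measure ℝ} (hr : r < 1) (hr' : r' < 1)
    (hK : 2 ≤ K * (1 - r ^ 2)) (h : Sym r L) (h' : Sym r' L') :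
    ∫ x, x ^ 2 ∂L + ∫ x, x ^ 2 ∂L' - K * ((∫ x, x ^ 2 ∂L) * ∫ x, x ^ 2 ∂L')
      ≤ ∫ z, z ^ 2 ∂(comb L L') := by
  have := sq_comb_ge hr hr' h h' (F := fun p => 1 * p.1 ^ 2 + 1 * p.2 ^ 2
    - K * (p.1 ^ 2 * p.2 ^ 2)) (by fun_prop) ?_
  · rw [int_quad h h'] at this
    linarith
  · intro x y hx hy
    have hx1 : |x| < 1 := lt_of_le_of_lt hx hr
    have hy1 : |y| < 1 := lt_of_le_of_lt hy hr'
    have hd := den2_pos hx1 hy1
    have a1 := sq_le_of_abs hx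
    have a2 := sq_le_of_abs hy1.le
    have hr0 := nonneg_of_sym h
    have hr2 : 0 < 1 - r ^ 2 := by nlinarith
    have hK0 : 0 ≤ K := by
      by_contra hneg
      push Not at hneg
      nlinarith
    unfold sf
    simp only
    rw [le_div_iff₀ hd]
    have e : (x * y) ^ 2 = x ^ 2 * y ^ 2 := by ring
    rw [e] at hd ⊢
    have p1 : 0 ≤ x ^ 2 * y ^ 2 := by positivity
    have p2 : x ^ 2 * y ^ 2 ≤ r ^ 2 := by nlinarith [sq_nonneg x, sq_nonneg y]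
    have p3 : 2 ≤ K * (1 - x ^ 2 * y ^ 2) := by nlinarith
    have p4 : 0 ≤ x ^ 2 + y ^ 2 := by positivity
    nlinarith [mul_nonneg p1 (by linarith : 0 ≤ K * (1 - x ^ 2 * y ^ 2) - 2),
      mul_nonneg p1 p4]

/-- `E (x ⊕ y)² ≥ E y²` -/
lemma sq_max {r r' : ℝ} {L L' : Measure ℝ} (hr : r < 1) (hr' : r' < 1) (h : Sym r L)
    (h' : Sym r' L') (a b : ℝ) (hab : a = 0 ∧ b = 1 ∨ a = 1 ∧ b = 0) :
    a * ∫ x, x ^ 2 ∂L + b * ∫ x, x ^ 2 ∂L' ≤ ∫ z, z ^ 2 ∂(comb L L') := by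
  have := sq_comb_ge hr hr' h h' (F := fun p => a * p.1 ^ 2 + b * p.2 ^ 2
    - 0 * (p.1 ^ 2 * p.2 ^ 2)) (by fun_prop) ?_
  · rw [int_quad h h'] at this
    linarith
  · intro x y hx hy
    have hx1 : |x| < 1 := lt_of_le_of_lt hx hr
    have hy1 : |y| < 1 := lt_of_le_of_lt hy hr'
    have hd := den2_pos hx1 hy1
    unfold sf
    simp only
    rw [le_div_iff₀ hd]
    rcases hab with ⟨rfl, rfl⟩ | ⟨rfl, rfl⟩
    · nlinarith [mul_nonneg (sq_nonneg x) (sq_nonneg (1 - y ^ 2))]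
    · nlinarith [mul_nonneg (sq_nonneg y) (sq_nonneg (1 - x ^ 2))]

lemma sq_scl (θ : ℝ) (L : Measure ℝ) : ∫ z, z ^ 2 ∂(scl θ L) = θ ^ 2 * ∫ x, x ^ 2 ∂L := by
  unfold scl
  rw [integral_map (by fun_prop) (by fun_prop)]
  simp only [mul_pow]
  rw [integral_const_mul]

lemma sq_nonneg' (L : Measure ℝ) : 0 ≤ ∫ x, x ^ 2 ∂L := integral_nonneg fun x => sq_nonneg x

lemma sq_le_one {r : ℝ} {L : Measure ℝ} (hr : r < 1) (h : Sym r L) : ∫ x, x ^ 2 ∂L ≤ 1 := by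
  have := h.prob
  have h1 : ∫ x, x ^ 2 ∂L ≤ ∫ _, (1 : ℝ) ∂L := by
    refine integral_mono_ae (int_cont r L hr h _ (by fun_prop)) (integrable_const _) ?_
    filter_upwards [ae_lt hr h] with x hx
    have := sq_le_of_abs hx.le
    simpa using this
  simpa using h1

lemma combN_one {r : ℝ} {L : Measure ℝ} (h : Sym r L) : combN L 1 = L := by
  have : combN L 1 = comb L (Measure.dirac 0) := rfl
  rw [this, comm L (Measure.dirac 0) h (s_dirac 0 le_rfl), dirac_comb r L h]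

/-- upper bound for the sum of messages -/
lemma combN_up {L : Measure ℝ} {r : ℝ} (hr0 : 0 ≤ r) (hr : r ^ 2 ≤ 1 / 2) (h : Sym r L) (n : ℕ) :
    ∫ z, z ^ 2 ∂(combN L (n + 2)) ≤ (n + 2) * ∫ x, x ^ 2 ∂L - (∫ x, x ^ 2 ∂L) ^ 2 := by
  have b1 : r < 1 := by nlinarith
  induction n with
  | zero =>
    have e : combN L (0 + 2) = comb L (combN L 1) := rfl
    rw [e, combN_one h]
    have := sq_sub' hr hr h h
    push_cast
    linarith
  | succ n ih =>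
    have e : combN L (n + 1 + 2) = comb L (combN L (n + 2)) := rfl
    obtain ⟨rn, a0, a1, a2⟩ := s_combN r (n + 2) hr0 b1
    have := sq_sub b1 a1 h (a2 L h)
    rw [e]
    push_cast
    linarith

lemma combN_up' {L : Measure ℝ} {r : ℝ} (hr0 : 0 ≤ r) (hr : r < 1) (h : Sym r L) (n : ℕ) :
    ∫ z, z ^ 2 ∂(combN L n) ≤ n * ∫ x, x ^ 2 ∂L := by
  induction n with
  | zero =>
    have e : combN L 0 = Measure.dirac 0 := rfl
    rw [e]
    simp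
  | succ n ih =>
    have e : combN L (n + 1) = comb L (combN L n) := rfl
    obtain ⟨rn, a0, a1, a2⟩ := s_combN r n hr0 hr
    have := sq_sub hr a1 h (a2 L h)
    rw [e]
    push_cast
    linarith

lemma combN_lo {L : Measure ℝ} {r K : ℝ} (hr0 : 0 ≤ r) (hr : r < 1) (hK : 2 ≤ K * (1 - r ^ 2))
    (h : Sym r L) (n : ℕ) :
    n * ∫ x, x ^ 2 ∂L - K * n ^ 2 * (∫ x, x ^ 2 ∂L) ^ 2 ≤ ∫ z, z ^ 2 ∂(combN L n) := by
  have hr2 : 0 < 1 - r ^ 2 := by nlinarith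
  have hK0 : 0 ≤ K := by
    by_contra hneg
    push Not at hneg
    nlinarith
  induction n with
  | zero =>
    have e : combN L 0 = Measure.dirac 0 := rfl
    rw [e]
    simp
  | succ n ih =>
    have e : combN L (n + 1) = comb L (combN L n) := rfl
    obtain ⟨rn, a0, a1, a2⟩ := s_combN r n hr0 hr
    have h1 := sq_super hr a1 hK h (a2 L h)
    have h2 := combN_up' hr0 hr h n
    have h3 := sq_nonneg' L
    rw [e]
    push_cast
    have h4 : K * ((∫ x, x ^ 2 ∂L) * ∫ x, x ^ 2 ∂(combN L n))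
        ≤ K * ((∫ x, x ^ 2 ∂L) * (n * ∫ x, x ^ 2 ∂L)) :=
      mul_le_mul_of_nonneg_left (mul_le_mul_of_nonneg_left h2 h3) hK0
    have h5 : 0 ≤ K * (n + 1) * (∫ x, x ^ 2 ∂L) ^ 2 := by positivity
    nlinarith

lemma th_le {D : ℕ} {θ : ℝ} (hD : 2 ≤ D) (h1 : θ ^ 2 * D ≤ 1) : θ ^ 2 ≤ 1 / 2 := by
  have hD' : (2 : ℝ) ≤ D := by exact_mod_cast hD
  nlinarith [sq_nonneg θ]

lemma combN_pred {D m : ℕ} (L : Measure ℝ) (h : D = m + 1) :
    combN L D = comb L (combN L m) := by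
  subst h
  rfl

lemma lo_step {D c y x K ε C₁ c₁ x' : ℝ} (hD : 2 ≤ D) (hy0 : 0 < y) (hy1 : y ≤ 1) (hK : 0 < K)
    (hC : 0 < C₁) (hc0 : 0 < c) (hc1 : c ≤ 1)
    (hcB : c * (4 * D * (1 + K * C₁ + 2 * D * K)) ≤ c₁) (hεlo : c₁ * y ^ 2 ≤ ε)
    (hεhi : ε ≤ C₁ * y ^ 2) (hx : 0 ≤ x) (hb : x < 2 * D * c * y)
    (k1 : ε + (1 - y) * x - K * x ^ 2 - K * ε * x ≤ x') : x + c₁ * y ^ 2 / 2 ≤ x' := by
  have hD0 : 0 < D := by linarith
  have l1 : y * x ≤ 2 * D * c * y ^ 2 := by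
    have := mul_le_mul_of_nonneg_left hb.le hy0.le
    nlinarith
  have l2 : K * x ^ 2 ≤ K * (4 * D ^ 2 * c * y ^ 2) := by
    refine mul_le_mul_of_nonneg_left ?_ hK.le
    have h1 : x ^ 2 ≤ (2 * D * c * y) ^ 2 := pow_le_pow_left₀ hx hb.le 2
    have h2 : (2 * D * c * y) ^ 2 = 4 * D ^ 2 * c * y ^ 2 * c := by ring
    have h3 : 4 * D ^ 2 * c * y ^ 2 * c ≤ 4 * D ^ 2 * c * y ^ 2 * 1 :=
      mul_le_mul_of_nonneg_left hc1 (by positivity)
    linarith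
  have l3 : K * ε * x ≤ K * (C₁ * (2 * D * c * y ^ 2)) := by
    rw [mul_assoc]
    refine mul_le_mul_of_nonneg_left ?_ hK.le
    have s1 : ε * x ≤ (C₁ * y ^ 2) * (2 * D * c * y) :=
      mul_le_mul hεhi hb.le hx (by positivity)
    have s2 : (C₁ * y ^ 2) * (2 * D * c * y) = (C₁ * (2 * D * c * y ^ 2)) * y := by ring
    have s3 : (C₁ * (2 * D * c * y ^ 2)) * y ≤ (C₁ * (2 * D * c * y ^ 2)) * 1 :=
      mul_le_mul_of_nonneg_left hy1 (by positivity)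
    linarith
  have l4 : 2 * D * c * y ^ 2 + K * (4 * D ^ 2 * c * y ^ 2) + K * (C₁ * (2 * D * c * y ^ 2))
      = (c * (4 * D * (1 + K * C₁ + 2 * D * K))) * (y ^ 2 / 2) := by
    ring
  have l5 : (c * (4 * D * (1 + K * C₁ + 2 * D * K))) * (y ^ 2 / 2) ≤ c₁ * (y ^ 2 / 2) :=
    mul_le_mul_of_nonneg_right hcB (by positivity)
  linarith

lemma seq_lower {D c y K ε C₁ c₁ θ : ℝ} (hD : 2 ≤ D) (hy0 : 0 < y) (hy1 : y ≤ 1) (hK : 0 < K)
    (hC : 0 < C₁) (hc₁ : 0 < c₁) (hc0 : 0 < c) (hc1 : c ≤ 1)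
    (hcB : c * (4 * D * (1 + K * C₁ + 2 * D * K)) ≤ c₁)
    (hεlo : c₁ * y ^ 2 ≤ ε) (hεhi : ε ≤ C₁ * y ^ 2) (h2 : 1 / 2 ≤ θ ^ 2 * D) (x : ℕ → ℝ)
    (hx : ∀ n, 0 ≤ x n)
    (k1 : ∀ n, ε + (1 - y) * x n - K * x n ^ 2 - K * ε * x n ≤ x (n + 1))
    (k2 : ∀ n, θ ^ 2 * x n ≤ x (n + 1)) : ∃ n₀ : ℕ, ∀ n, n₀ ≤ n → c * y ≤ x n := by
  have w : 0 < c₁ * y ^ 2 / 2 := by positivity
  have main : ∀ n : ℕ, min (c * y) (n * (c₁ * y ^ 2 / 2)) ≤ x n := by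
    intro n
    induction n with
    | zero =>
      refine (min_le_right _ _).trans ?_
      simp only [Nat.cast_zero, zero_mul]
      exact hx 0
    | succ n ih =>
      by_cases hb : 2 * D * c * y ≤ x n
      · refine (min_le_left _ _).trans (le_trans ?_ (k2 n))
        have e0 : θ ^ 2 * (2 * D * c * y) ≤ θ ^ 2 * x n :=
          mul_le_mul_of_nonneg_left hb (sq_nonneg θ)
        have e : θ ^ 2 * (2 * D * c * y) = (θ ^ 2 * D) * (2 * (c * y)) := by ring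
        have e1 : 1 / 2 * (2 * (c * y)) ≤ (θ ^ 2 * D) * (2 * (c * y)) :=
          mul_le_mul_of_nonneg_right h2 (by positivity)
        linarith
      · push Not at hb
        have l6 : x n + c₁ * y ^ 2 / 2 ≤ x (n + 1) :=
          lo_step hD hy0 hy1 hK hC hc0 hc1 hcB hεlo hεhi (hx n) hb (k1 n)
        have l7 : min (c * y) ((↑(n + 1) : ℝ) * (c₁ * y ^ 2 / 2))
            ≤ min (c * y) (n * (c₁ * y ^ 2 / 2)) + c₁ * y ^ 2 / 2 := by
          push_cast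
          rcases min_cases (c * y) ((n : ℝ) * (c₁ * y ^ 2 / 2)) with ⟨h, _⟩ | ⟨h, _⟩
          · rw [h]
            refine (min_le_left _ _).trans (by linarith)
          · rw [h]
            refine (min_le_right _ _).trans (by linarith)
        linarith
  obtain ⟨n₀, hn₀⟩ := exists_nat_ge (c * y / (c₁ * y ^ 2 / 2))
  refine ⟨n₀, fun n hn => ?_⟩
  have h5 : c * y ≤ n * (c₁ * y ^ 2 / 2) := by
    rw [div_le_iff₀ w] at hn₀
    have : (n₀ : ℝ) ≤ n := by exact_mod_cast hn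
    nlinarith
  have := main n
  rwa [min_eq_left h5] at this

end LawA

open LawB LawA

/-- LAWA -/
theorem lawa_proof : LAWA := by
  intro D r₁ θ S hD hr0 hr hS hθ h1 h2 n
  obtain ⟨r', b0, b1, b2⟩ := s_lawR D r₁ hD hr0 hr
  have hθ2 := th_le hD h1
  have hθ1 : θ ≤ 1 := by nlinarith
  have hDp : (0 : ℝ) < D := by
    have : (2 : ℝ) ≤ D := by exact_mod_cast hD
    linarith
  set ε := ∫ s, s ^ 2 ∂S with hε
  have hε0 : 0 ≤ ε := sq_nonneg' S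
  have hθpos : 0 < θ ^ 2 := by
    by_contra hneg
    push Not at hneg
    have : θ ^ 2 = 0 := le_antisymm hneg (sq_nonneg θ)
    rw [this] at h2
    norm_num at h2
  -- the recursion
  have hrec : ∀ n, ∫ α, α ^ 2 ∂(lawR θ D S (n + 1)) ≤ ε + ∫ α, α ^ 2 ∂(lawR θ D S n)
      - θ ^ 4 * (∫ α, α ^ 2 ∂(lawR θ D S n)) ^ 2 := by
    intro n
    have hL := b2 θ S n hθ h1 hS
    have hX : Sym θ (scl θ (lawR θ D S n)) :=
      s_mono _ _ _ (by nlinarith) (s_scl θ r' _ hθ hL)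
    obtain ⟨m, hm⟩ : ∃ m, D = m + 2 := ⟨D - 2, by omega⟩
    obtain ⟨rn, a0, a1, a2⟩ := s_combN θ D hθ (by nlinarith)
    have e : lawR θ D S (n + 1) = comb S (combN (scl θ (lawR θ D S n)) D) := rfl
    have c1 := sq_sub hr a1 hS (a2 _ hX)
    have c2 := combN_up hθ hθ2 hX m
    rw [e]
    have c3 : ((m : ℝ) + 2) = D := by rw [hm]; push_cast; ring
    rw [c3, ← hm, sq_scl] at c2
    have c4 := sq_nonneg' (lawR θ D S n)
    have c5 : (D : ℝ) * (θ ^ 2 * ∫ α, α ^ 2 ∂(lawR θ D S n)) ≤ ∫ α, α ^ 2 ∂(lawR θ D S n) := by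
      have : (D : ℝ) * (θ ^ 2 * ∫ α, α ^ 2 ∂(lawR θ D S n))
          = (θ ^ 2 * D) * ∫ α, α ^ 2 ∂(lawR θ D S n) := by ring
      rw [this]
      nlinarith
    have c6 : (θ ^ 2 * ∫ α, α ^ 2 ∂(lawR θ D S n)) ^ 2
        = θ ^ 4 * (∫ α, α ^ 2 ∂(lawR θ D S n)) ^ 2 := by ring
    rw [c6] at c2
    linarith
  have hq : √ε ^ 2 = ε := Real.sq_sqrt hε0
  have hq0 : 0 ≤ √ε := Real.sqrt_nonneg ε
  have main : ∀ n, θ ^ 2 * ∫ α, α ^ 2 ∂(lawR θ D S n) ≤ √ε := by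
    intro n
    induction n with
    | zero =>
      have e : lawR θ D S 0 = Measure.dirac 0 := rfl
      rw [e]
      simp
    | succ n ih =>
      have c := hrec n
      have x0 := sq_nonneg' (lawR θ D S n)
      have x1 := sq_le_one b1 (b2 θ S n hθ h1 hS)
      have x2 := sq_le_one b1 (b2 θ S (n + 1) hθ h1 hS)
      set x := ∫ α, α ^ 2 ∂(lawR θ D S n) with hx
      set x' := ∫ α, α ^ 2 ∂(lawR θ D S (n + 1)) with hx'
      by_cases hb : θ ^ 2 ≤ √ε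
      · nlinarith
      · push Not at hb
        -- u = θ² x ≤ √ε < θ² ≤ 1/2
        have hu : θ ^ 2 * x' ≤ θ ^ 2 * ε + θ ^ 2 * x - θ ^ 2 * (θ ^ 2 * x) ^ 2 := by
          have := mul_le_mul_of_nonneg_left c hθpos.le
          nlinarith
        have hu0 : 0 ≤ θ ^ 2 * x := by positivity
        set u := θ ^ 2 * x with hu'
        have : θ ^ 2 * (√ε - u) * (√ε + u) ≤ √ε - u := by
          have t1 : θ ^ 2 * (√ε + u) ≤ 1 := by nlinarith
          have t2 : 0 ≤ √ε - u := by linarith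
          nlinarith
        nlinarith
  have hm := main n
  have x0 := sq_nonneg' (lawR θ D S n)
  have hfin : ∫ α, α ^ 2 ∂(lawR θ D S n) ≤ (2 * D) * (θ ^ 2 * ∫ α, α ^ 2 ∂(lawR θ D S n)) := by
    nlinarith
  calc ∫ α, α ^ 2 ∂(lawR θ D S n) ≤ (2 * D) * (θ ^ 2 * ∫ α, α ^ 2 ∂(lawR θ D S n)) := hfin
    _ ≤ (2 * D) * √ε := mul_le_mul_of_nonneg_left hm (by positivity)

/-- LAWL -/
theorem lawl_proof : LAWL := by
  intro D c₁ C₁ r₁ hD hc₁ hC₁ hr0 hr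
  have hDp : (2 : ℝ) ≤ D := by exact_mod_cast hD
  have hr2 : 0 < 1 - r₁ ^ 2 := by nlinarith
  set K : ℝ := 5 + 2 / (1 - r₁ ^ 2) with hK
  have hK0 : 0 < K := by positivity
  have hK1 : 2 ≤ K * (1 - r₁ ^ 2) := by
    rw [hK, add_mul, div_mul_cancel₀ _ hr2.ne']
    nlinarith
  have hK5 : 5 ≤ K := by
    rw [hK]
    have : 0 ≤ 2 / (1 - r₁ ^ 2) := by positivity
    linarith
  have hK2 : 2 ≤ K * (1 - (3 / 4 : ℝ) ^ 2) := by nlinarith
  set B : ℝ := 4 * D * (1 + K * C₁ + 2 * D * K) with hB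
  have hB0 : 0 < B := by positivity
  set c : ℝ := min 1 (c₁ / B) with hc
  have hc0 : 0 < c := lt_min one_pos (by positivity)
  have hc1 : c ≤ 1 := min_le_left _ _
  have hcB : c * B ≤ c₁ := by
    have : c ≤ c₁ / B := min_le_right _ _
    rwa [le_div_iff₀ hB0] at this
  refine ⟨c, 1, hc0, one_pos, ?_⟩
  intro y θ S hy0 hy1 hS hθ h1 h2 h3
  obtain ⟨r', b0, b1, b2⟩ := s_lawR D r₁ hD hr0 hr
  have hθ2 := th_le hD h1
  have hθ1 : θ ≤ 3 / 4 := by nlinarith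
  set ε := ∫ s, s ^ 2 ∂S with hε
  have hεlo : c₁ * y ^ 2 ≤ ε := hS.lo
  have hεhi : ε ≤ C₁ * y ^ 2 := hS.hi
  have hε0 : 0 ≤ ε := sq_nonneg' S
  have hX : ∀ n, Sym (3 / 4) (scl θ (lawR θ D S n)) := fun n =>
    s_mono _ _ _ (by nlinarith) (s_scl θ r' _ hθ (b2 θ S n hθ h1 hS.sym))
  obtain ⟨rD, a0, a1, a2⟩ := s_combN (3 / 4) D (by norm_num) (by norm_num)
  -- recursion 1
  have hrec1 : ∀ n, ε + (1 - y) * ∫ α, α ^ 2 ∂(lawR θ D S n)
      - K * (∫ α, α ^ 2 ∂(lawR θ D S n)) ^ 2 - K * ε * ∫ α, α ^ 2 ∂(lawR θ D S n)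
      ≤ ∫ α, α ^ 2 ∂(lawR θ D S (n + 1)) := by
    intro n
    have e : lawR θ D S (n + 1) = comb S (combN (scl θ (lawR θ D S n)) D) := rfl
    have c1 := sq_super hr a1 hK1 hS.sym (a2 _ (hX n))
    have c2 := combN_lo (by norm_num) (by norm_num) hK2 (hX n) D
    have c3 := combN_up' (by norm_num) (by norm_num) (hX n) D
    have c4 := sq_nonneg' (lawR θ D S n)
    rw [e]
    rw [sq_scl] at c2 c3
    set x := ∫ α, α ^ 2 ∂(lawR θ D S n) with hx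
    set m := ∫ z, z ^ 2 ∂(combN (scl θ (lawR θ D S n)) D) with hm
    have d1 : m ≤ x := by
      have : (D : ℝ) * (θ ^ 2 * x) = (θ ^ 2 * D) * x := by ring
      rw [this] at c3
      nlinarith
    have d2 : (1 - y) * x - K * x ^ 2 ≤ m := by
      have e1 : (D : ℝ) * (θ ^ 2 * x) = (θ ^ 2 * D) * x := by ring
      have e2 : K * (D : ℝ) ^ 2 * (θ ^ 2 * x) ^ 2 = K * ((θ ^ 2 * D) ^ 2 * x ^ 2) := by ring
      rw [e1, e2] at c2
      have f1 : (1 - y) * x ≤ (θ ^ 2 * D) * x := by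
        refine mul_le_mul_of_nonneg_right (by linarith) c4
      have f2 : K * ((θ ^ 2 * D) ^ 2 * x ^ 2) ≤ K * (1 * x ^ 2) := by
        refine mul_le_mul_of_nonneg_left (mul_le_mul_of_nonneg_right ?_ (sq_nonneg x)) hK0.le
        have g0 : 0 ≤ θ ^ 2 * D := by positivity
        nlinarith
      linarith
    have d3 : K * (ε * m) ≤ K * ε * x := by
      rw [mul_assoc]
      exact mul_le_mul_of_nonneg_left (mul_le_mul_of_nonneg_left d1 hε0) hK0.le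
    linarith
  -- recursion 2
  have hrec2 : ∀ n, θ ^ 2 * ∫ α, α ^ 2 ∂(lawR θ D S n) ≤ ∫ α, α ^ 2 ∂(lawR θ D S (n + 1)) := by
    intro n
    have e : lawR θ D S (n + 1) = comb S (combN (scl θ (lawR θ D S n)) D) := rfl
    have c1 := sq_max hr a1 hS.sym (a2 _ (hX n)) 0 1 (Or.inl ⟨rfl, rfl⟩)
    obtain ⟨m, hm⟩ : ∃ m, D = m + 1 := ⟨D - 1, by omega⟩
    obtain ⟨rm, q0, q1, q2⟩ := s_combN (3 / 4) m (by norm_num) (by norm_num)
    have e2 : combN (scl θ (lawR θ D S n)) D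
        = comb (scl θ (lawR θ D S n)) (combN (scl θ (lawR θ D S n)) m) :=
      combN_pred _ hm
    have c2 := sq_max (by norm_num : (3 / 4 : ℝ) < 1) q1 (hX n) (q2 _ (hX n)) 1 0
      (Or.inr ⟨rfl, rfl⟩)
    rw [← e2, sq_scl] at c2
    rw [e]
    linarith
  exact seq_lower hDp hy0 hy1 hK0 hC₁ hc₁ hc0 hc1 hcB hεlo hεhi h2
    (fun n => ∫ α, α ^ 2 ∂(lawR θ D S n)) (fun n => sq_nonneg' _) hrec1 hrec2

end P161C
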