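import Vale.Agent.P161C.Mods

/-!
# LAWB: basic algebra of symmetric laws
-/

open MeasureTheory Set Filter Topology

namespace P161C

namespace LawB

/-! ### real algebra -/

lemma mul_abs_lt {x y : ℝ} (hx : |x| < 1) (hy : |y| < 1) : |x * y| < 1 := by
  rw [abs_mul]
  calc |x| * |y| ≤ |x| * 1 := mul_le_mul_of_nonneg_left hy.le (abs_nonneg x)
    _ < 1 := by linarith

lemma den_pos {x y : ℝ} (hx : |x| < 1) (hy : |y| < 1) : 0 < 1 + x * y := by
  have := (abs_lt.1 (mul_abs_lt hx hy)).1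
  linarith

lemma opl_neg (x y : ℝ) : opl (-x) (-y) = -opl x y := by
  unfold opl
  rw [neg_mul_neg, ← neg_add, neg_div]

lemma opl_comm (x y : ℝ) : opl x y = opl y x := by
  unfold opl
  rw [add_comm, mul_comm]

lemma opl_le {x y r s : ℝ} (hx : |x| ≤ r) (hy : |y| ≤ s) (hr : r < 1) (hs : s < 1) :
    opl x y ≤ opl r s := by
  have hr0 : 0 ≤ r := (abs_nonneg x).trans hx
  have hs0 : 0 ≤ s := (abs_nonneg y).trans hy
  have h1 : 0 < 1 + x * y := den_pos (lt_of_le_of_lt hx hr) (lt_of_le_of_lt hy hs)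
  have h2 : 0 < 1 + r * s := by positivity
  have h3 : s * y ≤ 1 := by
    have := (abs_lt.1 (mul_abs_lt (x := s) (y := y) (by rwa [abs_of_nonneg hs0])
      (lt_of_le_of_lt hy hs))).2
    exact this.le
  have h4 : r * x ≤ 1 := by
    have := (abs_lt.1 (mul_abs_lt (x := r) (y := x) (by rwa [abs_of_nonneg hr0])
      (lt_of_le_of_lt hx hr))).2
    exact this.le
  unfold opl
  rw [div_le_div_iff₀ h1 h2]
  have h5 := mul_nonneg (sub_nonneg.2 ((le_abs_self x).trans hx)) (sub_nonneg.2 h3)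
  have h6 := mul_nonneg (sub_nonneg.2 ((le_abs_self y).trans hy)) (sub_nonneg.2 h4)
  nlinarith

lemma opl_abs_le {x y r s : ℝ} (hx : |x| ≤ r) (hy : |y| ≤ s) (hr : r < 1) (hs : s < 1) :
    |opl x y| ≤ opl r s := by
  rw [abs_le]
  refine ⟨?_, opl_le hx hy hr hs⟩
  have := opl_le (x := -x) (y := -y) (by rwa [abs_neg]) (by rwa [abs_neg]) hr hs
  rw [opl_neg] at this
  linarith

lemma opl_lt_one {r s : ℝ} (hr0 : 0 ≤ r) (hs0 : 0 ≤ s) (hr : r < 1) (hs : s < 1) :
    opl r s < 1 := by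
  unfold opl
  rw [div_lt_one (by positivity)]
  nlinarith [mul_pos (sub_pos.2 hr) (sub_pos.2 hs)]

lemma opl_nonneg {r s : ℝ} (hr0 : 0 ≤ r) (hs0 : 0 ≤ s) : 0 ≤ opl r s := by
  unfold opl
  positivity

lemma opl_abs_lt {x y : ℝ} (hx : |x| < 1) (hy : |y| < 1) : |opl x y| < 1 :=
  lt_of_le_of_lt (opl_abs_le le_rfl le_rfl hx hy)
    (opl_lt_one (abs_nonneg _) (abs_nonneg _) hx hy)

lemma den_mul {x y : ℝ} (h : 1 + x * y ≠ 0) (w : ℝ) :
    (1 + x * y) * (1 + opl x y * w) = 1 + x * y + x * w + y * w := by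
  unfold opl
  field_simp
  ring

lemma den_mul' {x y : ℝ} (h : 1 + x * y ≠ 0) (w : ℝ) :
    (1 + x * y) * (1 + w * opl x y) = 1 + x * y + x * w + y * w := by
  rw [mul_comm w]
  exact den_mul h w

lemma opl_assoc {x y w : ℝ} (hx : |x| < 1) (hy : |y| < 1) (hw : |w| < 1) :
    opl (opl x y) w = opl x (opl y w) := by
  have h1 := (den_pos hx hy).ne'
  have h2 := (den_pos hy hw).ne'
  have h3 := (den_pos (opl_abs_lt hx hy) hw).ne'
  have h4 := (den_pos hx (opl_abs_lt hy hw)).ne'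
  have e1 : opl (opl x y) w = (x + y + w + x * y * w) / (1 + x * y + x * w + y * w) := by
    have : opl (opl x y) w = ((1 + x * y) * (opl x y + w)) / ((1 + x * y) * (1 + opl x y * w)) := by
      rw [mul_div_mul_left _ _ h1]
      rfl
    rw [this, den_mul h1]
    congr 1
    unfold opl
    field_simp
    ring
  have e2 : opl x (opl y w) = (x + y + w + x * y * w) / (1 + x * y + x * w + y * w) := by
    have : opl x (opl y w) = ((1 + y * w) * (x + opl y w)) / ((1 + y * w) * (1 + x * opl y w)) := by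
      rw [mul_div_mul_left _ _ h2]
      rfl
    rw [this, den_mul' h2]
    congr 1
    · unfold opl
      field_simp
      ring
    · ring
  rw [e1, e2]

lemma measurable_opl : Measurable fun p : ℝ × ℝ => opl p.1 p.2 := by
  unfold opl
  fun_prop

lemma measurable_opl_left (x : ℝ) : Measurable fun y : ℝ => opl x y := by
  unfold opl
  fun_prop

lemma continuousOn_opl : ContinuousOn (fun p : ℝ × ℝ => opl p.1 p.2)
    (Ioo (-1) 1 ×ˢ Ioo (-1) 1) := by
  unfold opl
  refine ContinuousOn.div (by fun_prop) (by fun_prop) ?_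
  intro p hp
  exact (den_pos (abs_lt.2 hp.1) (abs_lt.2 hp.2)).ne'

/-! ### compact supports -/

lemma integrable_of_ae_mem {α : Type*} [TopologicalSpace α] [MeasurableSpace α] [BorelSpace α]
    [T2Space α] {μ : Measure α} [IsFiniteMeasure μ] {K : Set α} (hK : IsCompact K)
    (hμ : ∀ᵐ x ∂μ, x ∈ K) {f : α → ℝ} (hf : ContinuousOn f K) : Integrable f μ := by
  have h := hf.integrableOn_compact hK (μ := μ)
  rwa [IntegrableOn, Measure.restrict_eq_self_of_ae_mem hμ] at h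

lemma Icc_sub {r : ℝ} (hr : r < 1) : Icc (-r) r ⊆ Ioo (-1) 1 := fun x hx =>
  ⟨by linarith [hx.1], by linarith [hx.2]⟩

lemma ae_Icc {r : ℝ} {L : Measure ℝ} (h : Sym r L) : ∀ᵐ x ∂L, x ∈ Icc (-r) r := by
  filter_upwards [h.supp] with x hx
  exact abs_le.1 hx

lemma ae_lt {r : ℝ} {L : Measure ℝ} (hr : r < 1) (h : Sym r L) : ∀ᵐ x ∂L, |x| < 1 := by
  filter_upwards [h.supp] with x hx
  linarith

lemma nonneg_of_sym {r : ℝ} {L : Measure ℝ} (h : Sym r L) : 0 ≤ r := by
  have := h.prob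
  have : (ae L).NeBot := inferInstance
  obtain ⟨x, hx⟩ := h.supp.exists
  exact (abs_nonneg x).trans hx

lemma int_cont (r : ℝ) (L : Measure ℝ) (hr : r < 1) (h : Sym r L) (φ : ℝ → ℝ)
    (hφ : ContinuousOn φ (Ioo (-1) 1)) : Integrable φ L := by
  have := h.prob
  exact integrable_of_ae_mem isCompact_Icc (ae_Icc h) (hφ.mono (Icc_sub hr))

lemma ae_prod {r r' : ℝ} {L L' : Measure ℝ} (h : Sym r L) (h' : Sym r' L') :
    ∀ᵐ p ∂(L.prod L'), p ∈ Icc (-r) r ×ˢ Icc (-r') r' := by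
  have := h.prob
  have := h'.prob
  have h1 := (Measure.quasiMeasurePreserving_fst (μ := L) (ν := L')).ae (ae_Icc h)
  have h2 := (Measure.quasiMeasurePreserving_snd (μ := L) (ν := L')).ae (ae_Icc h')
  filter_upwards [h1, h2] with p a b
  exact ⟨a, b⟩

lemma integral_id {r : ℝ} {L : Measure ℝ} (h : Sym r L) : ∫ x, x ∂L = 0 := by
  have h1 : ∫ x, x ∂L = ∫ x, -x ∂L := by
    conv_lhs => rw [← h.symm]
    exact integral_map (measurable_neg.aemeasurable) aestronglyMeasurable_id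
  rw [integral_neg] at h1
  linarith

/-- symmetry of the product -/
lemma map_neg_prod {r r' : ℝ} {L L' : Measure ℝ} (h : Sym r L) (h' : Sym r' L') :
    (L.prod L').map (fun p => (-p.1, -p.2)) = L.prod L' := by
  have := h.prob
  have := h'.prob
  have := Measure.map_prod_map L L' (f := fun x : ℝ => -x) (g := fun x : ℝ => -x)
    measurable_neg measurable_neg
  rw [h.symm, h'.symm] at this
  exact this.symm

lemma lintegral_comb (L L' : Measure ℝ) {f : ℝ → ENNReal} (hf : Measurable f) :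
    ∫⁻ z, f z ∂(comb L L')
      = ∫⁻ p, ENNReal.ofReal (1 + p.1 * p.2) * f (opl p.1 p.2) ∂(L.prod L') := by
  unfold comb
  have hg : Measurable fun p : ℝ × ℝ => f (opl p.1 p.2) := hf.comp measurable_opl
  rw [lintegral_map hf measurable_opl, lintegral_withDensity_eq_lintegral_mul _ (by fun_prop) hg]
  rfl

lemma lintegral_comb' (L L' : Measure ℝ) [SFinite L'] {f : ℝ → ENNReal} (hf : Measurable f) :
    ∫⁻ z, f z ∂(comb L L')
      = ∫⁻ x, ∫⁻ y, ENNReal.ofReal (1 + x * y) * f (opl x y) ∂L' ∂L := by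
  rw [lintegral_comb L L' hf, lintegral_prod]
  exact (Measurable.mul (by fun_prop) (hf.comp measurable_opl)).aemeasurable

lemma comb_univ {r r' : ℝ} {L L' : Measure ℝ} (hr : r < 1) (hr' : r' < 1) (h : Sym r L)
    (h' : Sym r' L') : comb L L' univ = 1 := by
  have := h.prob
  have := h'.prob
  have h0 : comb L L' univ = ∫⁻ _, 1 ∂(comb L L') := by simp
  rw [h0, lintegral_comb L L' measurable_const]
  simp only [mul_one]
  have hint : Integrable (fun p : ℝ × ℝ => 1 + p.1 * p.2) (L.prod L') :=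
    integrable_of_ae_mem (isCompact_Icc.prod isCompact_Icc) (ae_prod h h') (by fun_prop)
  rw [← ofReal_integral_eq_lintegral_ofReal hint]
  · have hint2 : Integrable (fun p : ℝ × ℝ => p.1 * p.2) (L.prod L') :=
      integrable_of_ae_mem (isCompact_Icc.prod isCompact_Icc) (ae_prod h h') (by fun_prop)
    rw [integral_add (integrable_const _) hint2, integral_prod_mul (fun x : ℝ => x)
      (fun y : ℝ => y), integral_id h]
    simp
  · filter_upwards [ae_prod h h'] with p hp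
    exact (den_pos (lt_of_le_of_lt (abs_le.2 hp.1) hr) (lt_of_le_of_lt (abs_le.2 hp.2) hr')).le

lemma s_comb (r r' : ℝ) (L L' : Measure ℝ) (hr : r < 1) (hr' : r' < 1) (h : Sym r L)
    (h' : Sym r' L') : Sym (opl r r') (comb L L') := by
  have := h.prob
  have := h'.prob
  refine ⟨⟨comb_univ hr hr' h h'⟩, ?_, ?_⟩
  · unfold comb
    rw [ae_map_iff measurable_opl.aemeasurable (measurableSet_le (by fun_prop) (by fun_prop))]
    refine (withDensity_absolutelyContinuous _ _).ae_le ?_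
    filter_upwards [ae_prod h h'] with p hp
    exact opl_abs_le (abs_le.2 hp.1) (abs_le.2 hp.2) hr hr'
  · refine Measure.ext_of_lintegral _ fun f hf => ?_
    have hfn : Measurable fun z : ℝ => f (-z) := hf.comp measurable_neg
    rw [lintegral_map hf measurable_neg, lintegral_comb _ _ hfn, lintegral_comb _ _ hf]
    have hm : Measurable fun p : ℝ × ℝ =>
        ENNReal.ofReal (1 + p.1 * p.2) * f (-opl p.1 p.2) :=
      Measurable.mul (by fun_prop) ((hf.comp measurable_neg).comp measurable_opl)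
    conv_lhs => rw [← map_neg_prod h h']
    rw [lintegral_map hm (by fun_prop)]
    refine lintegral_congr fun p => ?_
    simp only [neg_mul_neg, opl_neg, neg_neg]

lemma s_mono (r r' : ℝ) (L : Measure ℝ) (hrr : r ≤ r') (h : Sym r L) : Sym r' L :=
  ⟨h.prob, by filter_upwards [h.supp] with x hx using hx.trans hrr, h.symm⟩

lemma s_dirac (r : ℝ) (hr : 0 ≤ r) : Sym r (Measure.dirac 0) := by
  refine ⟨inferInstance, ?_, ?_⟩
  · rw [ae_dirac_iff (measurableSet_le (by fun_prop) (by fun_prop))]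
    simpa using hr
  · rw [Measure.map_dirac' measurable_neg]
    simp

lemma s_scl (θ r : ℝ) (L : Measure ℝ) (hθ : 0 ≤ θ) (h : Sym r L) : Sym (θ * r) (scl θ L) := by
  have := h.prob
  have hm : Measurable fun x : ℝ => θ * x := by fun_prop
  refine ⟨Measure.isProbabilityMeasure_map hm.aemeasurable, ?_, ?_⟩
  · unfold scl
    rw [ae_map_iff hm.aemeasurable (measurableSet_le (by fun_prop) (by fun_prop))]
    filter_upwards [h.supp] with x hx
    rw [abs_mul, abs_of_nonneg hθ]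
    exact mul_le_mul_of_nonneg_left hx hθ
  · unfold scl
    rw [Measure.map_map measurable_neg hm]
    conv_rhs => rw [← h.symm]
    rw [Measure.map_map hm measurable_neg]
    congr 1
    funext x
    simp

lemma s_combN (r : ℝ) (n : ℕ) (hr0 : 0 ≤ r) (hr : r < 1) : ∃ r', 0 ≤ r' ∧ r' < 1 ∧
    ∀ L : Measure ℝ, Sym r L → Sym r' (combN L n) := by
  induction n with
  | zero => exact ⟨0, le_rfl, one_pos, fun L _ => s_dirac 0 le_rfl⟩
  | succ n ih =>
    obtain ⟨r', h0, h1, h2⟩ := ih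
    exact ⟨opl r r', opl_nonneg hr0 h0, opl_lt_one hr0 h0 hr h1,
      fun L hL => s_comb r r' L _ hr h1 hL (h2 L hL)⟩

lemma s_lawR (D : ℕ) (r : ℝ) (hD : 2 ≤ D) (hr0 : 0 ≤ r) (hr : r < 1) : ∃ r', 0 ≤ r' ∧ r' < 1 ∧
    ∀ (θ : ℝ) (S : Measure ℝ) (n : ℕ), 0 ≤ θ → θ ^ 2 * D ≤ 1 → Sym r S →
      Sym r' (lawR θ D S n) := by
  have hq0 : (0 : ℝ) ≤ 3 / 4 := by norm_num
  have hq1 : (3 / 4 : ℝ) < 1 := by norm_num
  obtain ⟨r₂, h0, h1, h2⟩ := s_combN (3 / 4) D hq0 hq1
  refine ⟨opl r r₂, opl_nonneg hr0 h0, opl_lt_one hr0 h0 hr h1, ?_⟩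
  intro θ S n hθ hθD hS
  have hθ1 : θ ≤ 3 / 4 := by
    have hD' : (2 : ℝ) ≤ D := by exact_mod_cast hD
    nlinarith [sq_nonneg (θ - 3 / 4)]
  induction n with
  | zero => exact s_dirac _ (opl_nonneg hr0 h0)
  | succ n ih =>
    refine s_comb r r₂ S _ hr h1 hS (h2 _ ?_)
    refine s_mono (θ * opl r r₂) _ _ ?_ (s_scl θ _ _ hθ ih)
    have := opl_lt_one hr0 h0 hr h1
    have := opl_nonneg hr0 h0
    nlinarith

/-! ### the integral formula -/

lemma sym_comb' (r : ℝ) (L L' : Measure ℝ) (hr : r < 1) (h : Sym r L) (h' : Sym r L') :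
    Sym (opl r r) (comb L L') := s_comb r r L L' hr hr h h'

lemma int_comb_prod {r r' : ℝ} {L L' : Measure ℝ} (hr : r < 1) (hr' : r' < 1) (h : Sym r L)
    (h' : Sym r' L') {φ : ℝ → ℝ} (hφ : ContinuousOn φ (Ioo (-1) 1)) :
    Integrable (fun p : ℝ × ℝ => (1 + p.1 * p.2) * φ (opl p.1 p.2)) (L.prod L') ∧
    ∫ z, φ z ∂(comb L L') = ∫ p, (1 + p.1 * p.2) * φ (opl p.1 p.2) ∂(L.prod L') := by
  have := h.prob
  have := h'.prob
  have hr0 := nonneg_of_sym h
  have hr0' := nonneg_of_sym h'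
  have hI : Integrable (fun p : ℝ × ℝ => (1 + p.1 * p.2) * φ (opl p.1 p.2)) (L.prod L') := by
    refine integrable_of_ae_mem (isCompact_Icc.prod isCompact_Icc) (ae_prod h h') ?_
    refine ContinuousOn.mul (by fun_prop) ?_
    refine hφ.comp (continuousOn_opl.mono (prod_mono (Icc_sub hr) (Icc_sub hr'))) ?_
    intro p hp
    exact abs_lt.1 (opl_abs_lt (lt_of_le_of_lt (abs_le.2 hp.1) hr)
      (lt_of_le_of_lt (abs_le.2 hp.2) hr'))
  refine ⟨hI, ?_⟩
  have hS := s_comb r r' L L' hr hr' h h'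
  have h1 := int_cont _ _ (opl_lt_one hr0 hr0' hr hr') hS φ hφ
  unfold comb at h1 ⊢
  rw [integral_map measurable_opl.aemeasurable h1.aestronglyMeasurable,
    integral_withDensity_eq_integral_toReal_smul (by fun_prop)
      (Eventually.of_forall fun _ => ENNReal.ofReal_lt_top)]
  refine integral_congr_ae ?_
  filter_upwards [ae_prod h h'] with p hp
  rw [ENNReal.toReal_ofReal (den_pos (lt_of_le_of_lt (abs_le.2 hp.1) hr)
    (lt_of_le_of_lt (abs_le.2 hp.2) hr')).le, smul_eq_mul]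

lemma int_comb {r r' : ℝ} {L L' : Measure ℝ} (hr : r < 1) (hr' : r' < 1) (h : Sym r L)
    (h' : Sym r' L') {φ : ℝ → ℝ} (hφ : ContinuousOn φ (Ioo (-1) 1)) :
    ∫ z, φ z ∂(comb L L') = ∫ x, ∫ y, (1 + x * y) * φ (opl x y) ∂L' ∂L := by
  have := h.prob
  have := h'.prob
  obtain ⟨h1, h2⟩ := int_comb_prod hr hr' h h' hφ
  rw [h2, integral_prod _ h1]

/-! ### algebra -/

lemma dirac_comb (r : ℝ) (L : Measure ℝ) (h : Sym r L) : comb (Measure.dirac 0) L = L := by
  have := h.prob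
  refine Measure.ext_of_lintegral _ fun f hf => ?_
  rw [lintegral_comb' _ _ hf, lintegral_dirac]
  refine lintegral_congr fun y => ?_
  simp [opl]

lemma comm {r r' : ℝ} (L L' : Measure ℝ) (h : Sym r L) (h' : Sym r' L') :
    comb L L' = comb L' L := by
  have := h.prob
  have := h'.prob
  refine Measure.ext_of_lintegral _ fun f hf => ?_
  rw [lintegral_comb _ _ hf, lintegral_comb _ _ hf, ← lintegral_prod_swap]
  refine lintegral_congr fun p => ?_
  simp only [Prod.fst_swap, Prod.snd_swap, opl_comm p.1 p.2, mul_comm p.1 p.2]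

lemma assoc {r r' r'' : ℝ} (L L' L'' : Measure ℝ) (hr : r < 1) (hr' : r' < 1) (hr'' : r'' < 1)
    (h : Sym r L) (h' : Sym r' L') (h'' : Sym r'' L'') :
    comb (comb L L') L'' = comb L (comb L' L'') := by
  have := h.prob
  have := h'.prob
  have := h''.prob
  have := (s_comb r r' L L' hr hr' h h').prob
  have := (s_comb r' r'' L' L'' hr' hr'' h' h'').prob
  refine Measure.ext_of_lintegral _ fun f hf => ?_
  have hg : Measurable fun p : ℝ × ℝ => ENNReal.ofReal (1 + p.1 * p.2) * f (opl p.1 p.2) :=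
    Measurable.mul (by fun_prop) (hf.comp measurable_opl)
  rw [lintegral_comb' _ _ hf, lintegral_comb' _ _ hf]
  rw [lintegral_comb' L L' (f := fun x => ∫⁻ y, ENNReal.ofReal (1 + x * y) * f (opl x y) ∂L'')
    hg.lintegral_prod_right']
  refine lintegral_congr_ae ?_
  filter_upwards [ae_lt hr h] with x hx
  have hgx : Measurable fun v : ℝ => ENNReal.ofReal (1 + x * v) * f (opl x v) :=
    Measurable.mul (by fun_prop) (hf.comp (measurable_opl_left x))
  rw [lintegral_comb' L' L'' hgx]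
  refine lintegral_congr_ae ?_
  filter_upwards [ae_lt hr' h'] with y hy
  rw [← lintegral_const_mul _ (by
    exact Measurable.mul (by fun_prop) (hf.comp (measurable_opl_left _)))]
  refine lintegral_congr_ae ?_
  filter_upwards [ae_lt hr'' h''] with w hw
  have p1 := den_pos hx hy
  have p2 := den_pos hy hw
  have p3 := den_pos (opl_abs_lt hx hy) hw
  have p4 := den_pos hx (opl_abs_lt hy hw)
  rw [← mul_assoc, ← mul_assoc, ← ENNReal.ofReal_mul p1.le, ← ENNReal.ofReal_mul p2.le,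
    opl_assoc hx hy hw, den_mul p1.ne', den_mul' p2.ne']
  congr 2
  ring

lemma second_aux {r : ℝ} {L : Measure ℝ} (hr : r < 1) (h : Sym r L) {x : ℝ} (hx : |x| < 1) :
    ∫ y, (1 + x * y) * (opl x y) ^ 2 ∂L
      = ∫ y, (x ^ 2 + y ^ 2 - 2 * (x * y) ^ 2) / (1 - (x * y) ^ 2) ∂L := by
  have := h.prob
  have hc : ContinuousOn (fun y => (1 + x * y) * (opl x y) ^ 2) (Ioo (-1) 1) := by
    refine ContinuousOn.mul (by fun_prop) (ContinuousOn.pow ?_ 2)
    unfold opl
    refine ContinuousOn.div (by fun_prop) (by fun_prop) ?_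
    intro y hy
    exact (den_pos hx (abs_lt.2 hy)).ne'
  have hc' : ContinuousOn (fun y => (1 + x * (-y)) * (opl x (-y)) ^ 2) (Ioo (-1) 1) := by
    refine hc.comp (continuous_neg.continuousOn) ?_
    intro y hy
    exact ⟨by linarith [hy.2], by linarith [hy.1]⟩
  have i1 := int_cont r L hr h _ hc
  have i2 := int_cont r L hr h _ hc'
  have e1 : ∫ y, (1 + x * y) * (opl x y) ^ 2 ∂L
      = ∫ y, (1 + x * (-y)) * (opl x (-y)) ^ 2 ∂L := by
    conv_lhs => rw [← h.symm]
    rw [integral_map measurable_neg.aemeasurable]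
    rw [h.symm]
    exact i1.aestronglyMeasurable
  have e2 : 2 * ∫ y, (1 + x * y) * (opl x y) ^ 2 ∂L
      = ∫ y, ((1 + x * y) * (opl x y) ^ 2 + (1 + x * (-y)) * (opl x (-y)) ^ 2) ∂L := by
    rw [integral_add i1 i2, ← e1, two_mul]
  have e3 : ∫ y, ((1 + x * y) * (opl x y) ^ 2 + (1 + x * (-y)) * (opl x (-y)) ^ 2) ∂L
      = ∫ y, 2 * ((x ^ 2 + y ^ 2 - 2 * (x * y) ^ 2) / (1 - (x * y) ^ 2)) ∂L := by
    refine integral_congr_ae ?_
    filter_upwards [ae_lt hr h] with y hy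
    have p1 := den_pos hx hy
    have p2 : 0 < 1 + x * (-y) := den_pos hx (by rwa [abs_neg])
    have p3 : 1 - (x * y) ^ 2 ≠ 0 := by
      have : 1 - (x * y) ^ 2 = (1 + x * y) * (1 + x * (-y)) := by ring
      rw [this]
      exact (mul_pos p1 p2).ne'
    have q2 : 1 - x * y ≠ 0 := by
      have : 1 - x * y = 1 + x * (-y) := by ring
      rw [this]
      exact p2.ne'
    simp only [opl]
    have q1 := p1.ne'
    have q3 : 1 + x * -y ≠ 0 := p2.ne'
    rw [div_pow, div_pow]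
    have a1 : (1 + x * y) * ((x + y) ^ 2 / (1 + x * y) ^ 2) = (x + y) ^ 2 / (1 + x * y) := by
      field_simp
    have a2 : (1 + x * -y) * ((x + -y) ^ 2 / (1 + x * -y) ^ 2)
        = (x + -y) ^ 2 / (1 + x * -y) := by
      field_simp
    rw [a1, a2, div_add_div _ _ q1 q3, ← mul_div_assoc, div_eq_div_iff (mul_ne_zero q1 q3) p3]
    ring
  rw [e3, integral_const_mul] at e2
  linarith

lemma second (r : ℝ) (L L' : Measure ℝ) (hr : r < 1) (h : Sym r L) (h' : Sym r L') :
    ∫ z, z ^ 2 ∂(comb L L')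
      = ∫ x, ∫ y, (x ^ 2 + y ^ 2 - 2 * (x * y) ^ 2) / (1 - (x * y) ^ 2) ∂L' ∂L := by
  rw [int_comb hr hr h h' (φ := fun z => z ^ 2) (by fun_prop)]
  refine integral_congr_ae ?_
  filter_upwards [ae_lt hr h] with x hx
  exact second_aux hr h' hx

/-! ### product formula -/

/-- density of the message -/
noncomputable def WW (θ s : ℝ) {n : ℕ} (x : Fin n → ℝ) : ℝ :=
  ((1 + s) * ∏ i, (1 + θ * x i) + (1 - s) * ∏ i, (1 - θ * x i)) / 2

/-- the message -/
noncomputable def RR (θ s : ℝ) {n : ℕ} (x : Fin n → ℝ) : ℝ :=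
  ((1 + s) * ∏ i, (1 + θ * x i) - (1 - s) * ∏ i, (1 - θ * x i))
    / ((1 + s) * ∏ i, (1 + θ * x i) + (1 - s) * ∏ i, (1 - θ * x i))

lemma plus_eq {s a : ℝ} (h : 1 + s * a ≠ 0) : (1 + s * a) * (1 + opl s a) = (1 + s) * (1 + a) := by
  unfold opl
  field_simp
  ring

lemma minus_eq {s a : ℝ} (h : 1 + s * a ≠ 0) :
    (1 + s * a) * (1 - opl s a) = (1 - s) * (1 - a) := by
  unfold opl
  field_simp
  ring

lemma WW_cons (θ s a : ℝ) {n : ℕ} (x : Fin n → ℝ) (h : 1 + s * (θ * a) ≠ 0) :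
    WW θ s (Fin.cons a x : Fin (n + 1) → ℝ) = (1 + s * (θ * a)) * WW θ (opl s (θ * a)) x := by
  unfold WW
  rw [Fin.prod_univ_succ, Fin.prod_univ_succ]
  simp only [Fin.cons_zero, Fin.cons_succ]
  rw [← mul_assoc, ← mul_assoc, ← plus_eq h, ← minus_eq h]
  ring

lemma RR_cons (θ s a : ℝ) {n : ℕ} (x : Fin n → ℝ) (h : 1 + s * (θ * a) ≠ 0) :
    RR θ s (Fin.cons a x : Fin (n + 1) → ℝ) = RR θ (opl s (θ * a)) x := by
  unfold RR
  rw [Fin.prod_univ_succ, Fin.prod_univ_succ]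
  simp only [Fin.cons_zero, Fin.cons_succ]
  rw [← mul_assoc, ← mul_assoc, ← plus_eq h, ← minus_eq h, mul_assoc, mul_assoc, ← mul_sub,
    ← mul_add, mul_div_mul_left _ _ h]

lemma prods_pos {θ r : ℝ} (h0 : 0 ≤ θ) (h1 : θ ≤ 1) (hr : r < 1) {n : ℕ} {x : Fin n → ℝ}
    (hx : ∀ i, |x i| ≤ r) : 0 < ∏ i, (1 + θ * x i) ∧ 0 < ∏ i, (1 - θ * x i) := by
  have h : ∀ i, |θ * x i| < 1 := fun i => by
    rw [abs_mul, abs_of_nonneg h0]
    have := hx i
    have := abs_nonneg (x i)
    nlinarith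
  constructor
  · exact Finset.prod_pos fun i _ => by linarith [(abs_lt.1 (h i)).1]
  · exact Finset.prod_pos fun i _ => by linarith [(abs_lt.1 (h i)).2]

lemma RR_mem {θ r s : ℝ} (h0 : 0 ≤ θ) (h1 : θ ≤ 1) (hr : r < 1) (hs : |s| < 1) {n : ℕ}
    {x : Fin n → ℝ} (hx : ∀ i, |x i| ≤ r) : RR θ s x ∈ Ioo (-1 : ℝ) 1 := by
  obtain ⟨p, q⟩ := prods_pos h0 h1 hr hx
  obtain ⟨s1, s2⟩ := abs_lt.1 hs
  have a := mul_pos (by linarith : 0 < 1 + s) p
  have b := mul_pos (by linarith : 0 < 1 - s) q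
  unfold RR
  constructor
  · rw [lt_div_iff₀ (by linarith)]
    linarith
  · rw [div_lt_one (by linarith)]
    linarith

lemma continuousOn_F {θ r s : ℝ} (h0 : 0 ≤ θ) (h1 : θ ≤ 1) (hr : r < 1) (hs : |s| < 1) {n : ℕ}
    {φ : ℝ → ℝ} (hφ : ContinuousOn φ (Ioo (-1) 1)) :
    ContinuousOn (fun x : Fin n → ℝ => WW θ s x * φ (RR θ s x))
      (Set.pi univ fun _ => Icc (-r) r) := by
  refine ContinuousOn.mul ?_ (hφ.comp ?_ ?_)
  · unfold WW
    fun_prop
  · unfold RR
    refine ContinuousOn.div (by fun_prop) (by fun_prop) ?_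
    intro x hx
    obtain ⟨p, q⟩ := prods_pos (x := x) h0 h1 hr fun i => abs_le.2 (hx i (mem_univ i))
    obtain ⟨s1, s2⟩ := abs_lt.1 hs
    have a := mul_pos (by linarith : 0 < 1 + s) p
    have b := mul_pos (by linarith : 0 < 1 - s) q
    exact (by linarith : _ < _).ne'
  · intro x hx
    exact RR_mem h0 h1 hr hs fun i => abs_le.2 (hx i (mem_univ i))

lemma integrable_F {θ r s : ℝ} (h0 : 0 ≤ θ) (h1 : θ ≤ 1) (hr : r < 1) (hs : |s| < 1) {n : ℕ}
    {L : Measure ℝ} (hL : Sym r L) {φ : ℝ → ℝ} (hφ : ContinuousOn φ (Ioo (-1) 1)) :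
    Integrable (fun x : Fin n → ℝ => WW θ s x * φ (RR θ s x)) (Measure.pi fun _ => L) := by
  have := hL.prob
  refine integrable_of_ae_mem (isCompact_univ_pi fun _ => isCompact_Icc) ?_
    (continuousOn_F h0 h1 hr hs hφ)
  have : ∀ i : Fin n, ∀ᵐ x ∂(Measure.pi fun _ : Fin n => L), x i ∈ Icc (-r) r := fun i =>
    (Measure.quasiMeasurePreserving_eval (fun _ : Fin n => L) i).ae (ae_Icc hL)
  filter_upwards [ae_all_iff.2 this] with x hx
  exact fun i _ => hx i

lemma integral_cons {n : ℕ} {L : Measure ℝ} [IsProbabilityMeasure L] {F : (Fin (n + 1) → ℝ) → ℝ}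
    (hF : Integrable F (Measure.pi fun _ : Fin (n + 1) => L)) :
    ∫ x, F x ∂(Measure.pi fun _ : Fin (n + 1) => L)
      = ∫ a, ∫ x : Fin n → ℝ, F (Fin.cons a x) ∂(Measure.pi fun _ : Fin n => L) ∂L := by
  have mp := (measurePreserving_piFinSuccAbove (fun _ : Fin (n + 1) => L) 0).symm
  have e : ∀ p : ℝ × (Fin n → ℝ), (MeasurableEquiv.piFinSuccAbove (fun _ : Fin (n + 1) => ℝ)
      0).symm p = Fin.cons p.1 p.2 := by
    intro p
    simp [MeasurableEquiv.piFinSuccAbove_symm_apply, Fin.insertNthEquiv]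
  have h1 := mp.integral_comp' F
  have h2 : Integrable (fun p : ℝ × (Fin n → ℝ) => F (Fin.cons p.1 p.2))
      (L.prod (Measure.pi fun _ : Fin n => L)) := by
    have := (mp.integrable_comp_emb (MeasurableEquiv.measurableEmbedding _)).2 hF
    simpa only [Function.comp_def, e] using this
  simp only [e] at h1
  rw [← h1]
  exact integral_prod _ h2

lemma key {θ r : ℝ} (h0 : 0 ≤ θ) (h1 : θ ≤ 1) (hr : r < 1) {L : Measure ℝ} (hL : Sym r L)
    {φ : ℝ → ℝ} (hφ : ContinuousOn φ (Ioo (-1) 1)) (n : ℕ) : ∀ s : ℝ, |s| < 1 →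
    ∫ v, (1 + s * v) * φ (opl s v) ∂(combN (scl θ L) n)
      = ∫ x : Fin n → ℝ, WW θ s x * φ (RR θ s x) ∂(Measure.pi fun _ => L) := by
  have hLp := hL.prob
  have hr0 := nonneg_of_sym hL
  have hsc : Sym r (scl θ L) := s_mono (θ * r) r _ (by nlinarith) (s_scl θ r L h0 hL)
  induction n with
  | zero =>
    intro s hs
    have e1 : combN (scl θ L) 0 = Measure.dirac 0 := rfl
    rw [e1, integral_dirac, Measure.pi_of_empty, integral_dirac]
    simp [WW, RR, opl]
    rw [show (s + s) / (1 + 1) = s by ring]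
  | succ n ih =>
    intro s hs
    obtain ⟨rn, a0, a1, a2⟩ := s_combN r n hr0 hr
    have hcn := a2 _ hsc
    have hcnp := hcn.prob
    have hscp := hsc.prob
    have hg : ContinuousOn (fun v => (1 + s * v) * φ (opl s v)) (Ioo (-1) 1) := by
      refine ContinuousOn.mul (by fun_prop) (hφ.comp ?_ ?_)
      · unfold opl
        refine ContinuousOn.div (by fun_prop) (by fun_prop) ?_
        intro y hy
        exact (den_pos hs (abs_lt.2 hy)).ne'
      · intro y hy
        exact abs_lt.1 (opl_abs_lt hs (abs_lt.2 hy))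
    have e1 : combN (scl θ L) (n + 1) = comb (scl θ L) (combN (scl θ L) n) := rfl
    rw [e1, int_comb hr a1 hsc hcn hg]
    have hI := (int_comb_prod hr a1 hsc hcn hg).1.integral_prod_left
    have e2 : ∫ x, ∫ y, (1 + x * y) * ((1 + s * opl x y) * φ (opl s (opl x y)))
          ∂(combN (scl θ L) n) ∂(scl θ L)
        = ∫ a, ∫ y, (1 + (θ * a) * y) * ((1 + s * opl (θ * a) y) * φ (opl s (opl (θ * a) y)))
          ∂(combN (scl θ L) n) ∂L := by
      conv_lhs => rw [scl]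
      refine integral_map (by fun_prop) ?_
      exact hI.aestronglyMeasurable
    rw [e2, integral_cons (integrable_F h0 h1 hr hs hL hφ)]
    refine integral_congr_ae ?_
    filter_upwards [hL.supp] with a ha
    have ha1 : |θ * a| < 1 := by
      rw [abs_mul, abs_of_nonneg h0]
      have := abs_nonneg a
      nlinarith
    have hd := (den_pos hs ha1).ne'
    have e3 : ∀ x : Fin n → ℝ, WW θ s (Fin.cons a x : Fin (n + 1) → ℝ)
        * φ (RR θ s (Fin.cons a x : Fin (n + 1) → ℝ))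
        = (1 + s * (θ * a)) * (WW θ (opl s (θ * a)) x * φ (RR θ (opl s (θ * a)) x)) := by
      intro x
      rw [WW_cons _ _ _ _ hd, RR_cons _ _ _ _ hd, mul_assoc]
    simp only [e3]
    rw [integral_const_mul, ← ih _ (opl_abs_lt hs ha1), ← integral_const_mul]
    refine integral_congr_ae ?_
    filter_upwards [ae_lt a1 hcn] with y hy
    rw [← opl_assoc hs ha1 hy, ← mul_assoc, ← mul_assoc, den_mul' (den_pos ha1 hy).ne',
      den_mul hd]
    congr 1
    ring

lemma prodform (D : ℕ) (r θ : ℝ) (S L : Measure ℝ) (hr : r < 1) (h0 : 0 ≤ θ)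
    (h1 : θ ≤ 1) (hS : Sym r S) (hL : Sym r L) (φ : ℝ → ℝ) (hφ : ContinuousOn φ (Ioo (-1) 1)) :
    ∫ z, φ z ∂(comb S (combN (scl θ L) D))
      = ∫ s, ∫ x : Fin D → ℝ, ((1 + s) * ∏ i, (1 + θ * x i) + (1 - s) * ∏ i, (1 - θ * x i)) / 2
          * φ (((1 + s) * ∏ i, (1 + θ * x i) - (1 - s) * ∏ i, (1 - θ * x i))
            / ((1 + s) * ∏ i, (1 + θ * x i) + (1 - s) * ∏ i, (1 - θ * x i)))
          ∂(Measure.pi fun _ : Fin D => L) ∂S := by
  have hr0 := nonneg_of_sym hL
  have hsc : Sym r (scl θ L) := s_mono (θ * r) r _ (by nlinarith) (s_scl θ r L h0 hL)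
  obtain ⟨rn, a0, a1, a2⟩ := s_combN r D hr0 hr
  rw [int_comb hr a1 hS (a2 _ hsc) hφ]
  refine integral_congr_ae ?_
  filter_upwards [ae_lt hr hS] with s hs
  exact key h0 h1 hr hL hφ D s hs

end LawB

/-- LAWB -/
theorem lawb_proof : LAWB where
  s_dirac := LawB.s_dirac
  s_mono := LawB.s_mono
  s_scl := LawB.s_scl
  s_comb := fun r r' L L' _ _ h1 h1' h h' => LawB.s_comb r r' L L' h1 h1' h h'
  s_combN := fun r n h0 h1 => LawB.s_combN r n h0 h1
  s_lawR := fun D r hD h0 h1 => LawB.s_lawR D r hD h0 h1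
  int_comb := fun _ _ _ _ hr h h' _ hφ => LawB.int_comb hr hr h h' hφ
  int_cont := LawB.int_cont
  dirac_comb := fun r L _ h => LawB.dirac_comb r L h
  comm := fun _ L L' _ _ h h' => LawB.comm L L' h h'
  assoc := fun _ L L' L'' _ hr h h' h'' => LawB.assoc L L' L'' hr hr hr h h' h''
  second := fun r L L' _ hr h h' => LawB.second r L L' hr h h'
  prodform := fun D r θ S L _ hr h0 h1 hS hL φ hφ => LawB.prodform D r θ S L hr h0 h1 hS hL φ hφ

end P161C
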