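import Vale.Agent.P161C.Mods

/-! # P161 at the critical point, module LAWX: Gaussian tail of the messages -/

open MeasureTheory Set Filter Topology

namespace P161C

namespace LawX

theorem Fw_zero (w : ℝ) : Fw w 0 = 1 := by
  unfold Fw
  rw [Real.artanh_zero]
  simp

theorem one_add_pos {x y : ℝ} (hx : |x| < 1) (hy : |y| < 1) : 0 < 1 + x * y := by
  have h : |x * y| < 1 := by
    rw [abs_mul]
    nlinarith [abs_nonneg x, abs_nonneg y]
  linarith [(abs_lt.mp h).1]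

theorem opl_mem {x y : ℝ} (hx : |x| < 1) (hy : |y| < 1) : |opl x y| < 1 := by
  have h := one_add_pos hx hy
  obtain ⟨hx1, hx2⟩ := abs_lt.mp hx
  obtain ⟨hy1, hy2⟩ := abs_lt.mp hy
  unfold opl
  rw [abs_lt, lt_div_iff₀ h, div_lt_iff₀ h]
  constructor <;> nlinarith

theorem cont_opl {φ : ℝ → ℝ} (hφ : ContinuousOn φ (Ioo (-1) 1)) {x : ℝ} (hx : |x| < 1) :
    ContinuousOn (fun y => (1 + x * y) * φ (opl x y)) (Ioo (-1) 1) := by
  have h1 : ContinuousOn (fun y => opl x y) (Ioo (-1 : ℝ) 1) := by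
    unfold opl
    refine ContinuousOn.div (by fun_prop) (by fun_prop) ?_
    intro y hy
    exact (one_add_pos hx (abs_lt.mpr hy)).ne'
  refine ContinuousOn.mul (by fun_prop) (hφ.comp h1 ?_)
  intro y hy
  exact abs_lt.mp (opl_mem hx (abs_lt.mpr hy))

theorem sym_int {r : ℝ} {L : Measure ℝ} (h : Sym r L) (g : ℝ → ℝ) :
    ∫ x, g x ∂L = ∫ x, g (-x) ∂L := by
  conv_lhs => rw [← h.symm]
  exact (MeasurableEquiv.neg ℝ).measurableEmbedding.integral_map g

theorem mult (hB : LAWB) (hF : FMU) {r : ℝ} {L L' : Measure ℝ} (h0 : 0 ≤ r) (h1 : r < 1)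
    (hL : Sym r L) (hL' : Sym r L') {w : ℝ} (hw : 0 ≤ w) :
    ∫ z, Fw w z ∂(comb L L') = (∫ x, Fw w x ∂L) * ∫ y, Fw w y ∂L' := by
  rw [hB.int_comb r L L' h0 h1 hL hL' (Fw w) (hF.cont w hw)]
  have inner : ∀ᵐ x ∂L, ∫ y, (1 + x * y) * Fw w (opl x y) ∂L' = Fw w x * ∫ y, Fw w y ∂L' := by
    filter_upwards [hL.supp] with x hx
    have hx1 : |x| < 1 := lt_of_le_of_lt hx h1
    have hc := cont_opl (hF.cont w hw) hx1
    have hi : Integrable (fun y => (1 + x * y) * Fw w (opl x y)) L' :=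
      hB.int_cont r L' h1 hL' _ hc
    have hi2 : Integrable (fun y => (1 + x * -y) * Fw w (opl x (-y))) L' := by
      refine hB.int_cont r L' h1 hL' _ ?_
      refine hc.comp (by fun_prop) ?_
      intro y hy
      simp only [mem_Ioo] at hy ⊢
      constructor <;> linarith [hy.1, hy.2]
    have e1 := sym_int hL' (fun y => (1 + x * y) * Fw w (opl x y))
    have e2 : ∫ y, ((1 + x * y) * Fw w (opl x y) + (1 + x * -y) * Fw w (opl x (-y))) ∂L'
        = ∫ y, (2 * Fw w x) * Fw w y ∂L' := by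
      refine integral_congr_ae ?_
      filter_upwards [hL'.supp] with y hy
      have := hF.comb w x y hw hx1 (lt_of_le_of_lt hy h1)
      have e3 : (1 + x * -y) = 1 - x * y := by ring
      rw [e3, this]
      ring
    rw [integral_add hi hi2, ← e1, integral_const_mul] at e2
    linarith
  rw [integral_congr_ae inner, integral_mul_const]

theorem multN (hB : LAWB) (hF : FMU) {r : ℝ} {L : Measure ℝ} (h0 : 0 ≤ r) (h1 : r < 1)
    (hL : Sym r L) {w : ℝ} (hw : 0 ≤ w) (n : ℕ) :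
    ∫ z, Fw w z ∂(combN L n) = (∫ x, Fw w x ∂L) ^ n := by
  induction n with
  | zero =>
    rw [combN, integral_dirac, Fw_zero, pow_zero]
  | succ n ih =>
    obtain ⟨r', h0', h1', hs⟩ := hB.s_combN r n h0 h1
    have := mult hB hF (le_max_of_le_left h0) (max_lt h1 h1')
      (hB.s_mono r _ L (le_max_left r r') hL)
      (hB.s_mono r' _ _ (le_max_right r r') (hs L hL)) hw
    rw [combN, this, ih, pow_succ']

theorem Fw_int (hB : LAWB) (hF : FMU) {r : ℝ} {L : Measure ℝ} (h1 : r < 1)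
    (hL : Sym r L) {w : ℝ} (hw : 0 ≤ w) : Integrable (Fw w) L :=
  hB.int_cont r L h1 hL _ (hF.cont w hw)

theorem one_le_int (hB : LAWB) (hF : FMU) {r : ℝ} {L : Measure ℝ} (h1 : r < 1)
    (hL : Sym r L) {w : ℝ} (hw : 0 ≤ w) : 1 ≤ ∫ x, Fw w x ∂L := by
  have := hL.prob
  have h := integral_mono_ae (integrable_const (1 : ℝ)) (Fw_int hB hF h1 hL hw) (by
    filter_upwards [hL.supp] with x hx
    exact hF.one_le w x hw (lt_of_le_of_lt hx h1))
  simpa using h

theorem scl_le (hB : LAWB) (hF : FMU) {r θ : ℝ} {L : Measure ℝ} (h0 : 0 ≤ r) (h1 : r < 1)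
    (hθ : 0 ≤ θ) (hθ1 : θ ≤ 1) (hL : Sym r L) {w : ℝ} (hw : 0 ≤ w) :
    ∫ z, Fw w z ∂(scl θ L) ≤ ∫ x, Fw (θ ^ 2 * w) x ∂L := by
  have hsy : Sym (θ * r) (scl θ L) := hB.s_scl θ r L hθ hL
  have hr : θ * r < 1 := by nlinarith
  have hm : AEStronglyMeasurable (Fw w) (scl θ L) := (Fw_int hB hF hr hsy hw).1
  have e : ∫ z, Fw w z ∂(scl θ L) = ∫ x, Fw w (θ * x) ∂L := by
    unfold scl at hm ⊢
    exact integral_map (by fun_prop) hm
  have hint : Integrable (fun x => Fw w (θ * x)) L := by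
    refine hB.int_cont r L h1 hL _ ((hF.cont w hw).comp (by fun_prop) ?_)
    intro x hx
    simp only [mem_Ioo] at hx ⊢
    have : |θ * x| < 1 := by
      rw [abs_mul, abs_of_nonneg hθ]
      have hx' : |x| < 1 := abs_lt.mpr hx
      nlinarith [abs_nonneg x]
    exact abs_lt.mp this
  rw [e]
  refine integral_mono_ae hint (Fw_int hB hF h1 hL (by positivity)) ?_
  filter_upwards [hL.supp] with x hx
  exact hF.contr w θ x hw hθ hθ1 (lt_of_le_of_lt hx h1)

/-- the recursion for the transforms -/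
theorem step (hB : LAWB) (hF : FMU) {D : ℕ} {r θ C₁ c₁ y : ℝ} {S : Measure ℝ} (h0 : 0 ≤ r)
    (h1 : r < 1) (hS : SigHyp c₁ C₁ y r S) (hθ : 0 ≤ θ) (hθ1 : θ ≤ 1) {n : ℕ}
    (hL : Sym r (lawR θ D S n)) {w : ℝ} (hw : 0 ≤ w) :
    ∫ z, Fw w z ∂(lawR θ D S (n + 1))
      ≤ Real.exp (C₁ * y ^ 2 * w) * (∫ x, Fw (θ ^ 2 * w) x ∂(lawR θ D S n)) ^ D := by
  have hsy : Sym (θ * r) (scl θ (lawR θ D S n)) := hB.s_scl θ r _ hθ hL
  have hr : θ * r < 1 := by nlinarith
  have hr0 : 0 ≤ θ * r := by positivity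
  obtain ⟨r', h0', h1', hs⟩ := hB.s_combN (θ * r) D hr0 hr
  rw [lawR, mult hB hF (le_max_of_le_left h0) (max_lt h1 h1')
    (hB.s_mono r _ S (le_max_left r r') hS.sym)
    (hB.s_mono r' _ _ (le_max_right r r') (hs _ hsy)) hw, multN hB hF hr0 hr hsy hw]
  have h2 : 1 ≤ ∫ z, Fw w z ∂(scl θ (lawR θ D S n)) := one_le_int hB hF hr hsy hw
  exact mul_le_mul (hS.fw w hw)
    (pow_le_pow_left₀ (by linarith) (scl_le hB hF h0 h1 hθ hθ1 hL hw) D)
    (by positivity) (Real.exp_pos _).le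

/-- small `w` -/
theorem small (hB : LAWB) (hF : FMU) (hA : LAWA) {D : ℕ} {r r₁ θ C₁ c₁ y : ℝ} {S : Measure ℝ}
    (hD : 2 ≤ D) (hC₁ : 0 < C₁) (hy : 0 < y)
    (h0 : 0 ≤ r) (h1 : r < 1) (hr0 : 0 ≤ r₁) (hr1 : r₁ < 1) (hS : SigHyp c₁ C₁ y r₁ S)
    (hθ : 0 ≤ θ) (hθ1 : θ ^ 2 * D ≤ 1)
    (hθ2 : 1 / 2 ≤ θ ^ 2 * D) {n : ℕ}
    (hL : Sym r (lawR θ D S n)) {w : ℝ} (hw : 0 ≤ w) (hw1 : w ≤ 1) :
    ∫ z, Fw w z ∂(lawR θ D S n)
      ≤ Real.exp (w * ((1 / (2 * (1 - r ^ 2) ^ 2)) * Real.exp (1 / (2 * (1 - r ^ 2) ^ 2))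
          * (2 * D * √C₁) * y)) := by
  have := hL.prob
  have hr2 : 0 < 1 - r ^ 2 := by nlinarith
  obtain ⟨B, hBdef⟩ : ∃ B : ℝ, B = 1 / (2 * (1 - r ^ 2) ^ 2) := ⟨_, rfl⟩
  rw [← hBdef]
  have hBpos : 0 < B := by rw [hBdef]; positivity
  have hα : ∫ α, α ^ 2 ∂(lawR θ D S n) ≤ 2 * D * √C₁ * y := by
    refine (hA D r₁ θ S hD hr0 hr1 hS.sym hθ hθ1 hθ2 n).trans ?_
    have h3 : √(∫ s, s ^ 2 ∂S) ≤ √C₁ * y := by
      conv_rhs => rw [← Real.sqrt_sq hy.le, ← Real.sqrt_mul hC₁.le]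
      exact Real.sqrt_le_sqrt (by simpa [Real.sqrt_sq hy.le] using hS.hi)
    have h4 : (0 : ℝ) ≤ 2 * D := by positivity
    calc 2 * (D : ℝ) * √(∫ s, s ^ 2 ∂S) ≤ 2 * D * (√C₁ * y) := mul_le_mul_of_nonneg_left h3 h4
      _ = 2 * D * √C₁ * y := by ring
  have hsq : Integrable (fun α : ℝ => α ^ 2) (lawR θ D S n) :=
    hB.int_cont r _ h1 hL _ (by fun_prop)
  have hpt : ∀ᵐ α ∂(lawR θ D S n), Fw w α ≤ 1 + (w * (B * Real.exp B)) * α ^ 2 := by
    filter_upwards [hL.supp] with α hα'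
    have h5 := hF.le_exp w α hw (lt_of_le_of_lt hα' h1)
    have h6 : α ^ 2 ≤ r ^ 2 := by
      rw [← sq_abs α]; exact pow_le_pow_left₀ (abs_nonneg _) hα' 2
    have h7 : 0 < 1 - α ^ 2 := by linarith
    have h8 : w * α ^ 2 / (2 * (1 - α ^ 2) ^ 2) ≤ w * α ^ 2 * B := by
      rw [hBdef, mul_one_div]
      apply div_le_div_of_nonneg_left (by positivity) (by positivity)
      have : (1 - r ^ 2) ^ 2 ≤ (1 - α ^ 2) ^ 2 := pow_le_pow_left₀ hr2.le (by linarith) 2
      linarith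
    have hu0 : 0 ≤ w * α ^ 2 * B := by positivity
    have hu1 : w * α ^ 2 * B ≤ B := by
      have : α ^ 2 ≤ 1 := by nlinarith
      have h9 : w * α ^ 2 ≤ 1 := by nlinarith [sq_nonneg α]
      nlinarith
    have h10 : Real.exp (w * α ^ 2 * B) ≤ 1 + (w * α ^ 2 * B) * Real.exp B := by
      -- `exp u - 1 ≤ u exp u`
      have h11 : 1 - (w * α ^ 2 * B) ≤ Real.exp (-(w * α ^ 2 * B)) := by
        have := Real.add_one_le_exp (-(w * α ^ 2 * B)); linarith
      have h12 : Real.exp (w * α ^ 2 * B) * (1 - w * α ^ 2 * B) ≤ 1 := by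
        calc Real.exp (w * α ^ 2 * B) * (1 - w * α ^ 2 * B)
            ≤ Real.exp (w * α ^ 2 * B) * Real.exp (-(w * α ^ 2 * B)) :=
              mul_le_mul_of_nonneg_left h11 (Real.exp_pos _).le
          _ = 1 := by rw [← Real.exp_add]; simp
      have h13 : (w * α ^ 2 * B) * Real.exp (w * α ^ 2 * B) ≤ (w * α ^ 2 * B) * Real.exp B :=
        mul_le_mul_of_nonneg_left (Real.exp_le_exp.mpr hu1) hu0
      linarith
    calc Fw w α ≤ Real.exp (w * α ^ 2 / (2 * (1 - α ^ 2) ^ 2)) := h5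
      _ ≤ Real.exp (w * α ^ 2 * B) := Real.exp_le_exp.mpr h8
      _ ≤ 1 + (w * α ^ 2 * B) * Real.exp B := h10
      _ = 1 + (w * (B * Real.exp B)) * α ^ 2 := by ring
  calc ∫ z, Fw w z ∂(lawR θ D S n)
      ≤ ∫ α, (1 + (w * (B * Real.exp B)) * α ^ 2) ∂(lawR θ D S n) :=
        integral_mono_ae (Fw_int hB hF h1 hL hw)
          ((integrable_const _).add (hsq.const_mul _)) hpt
    _ = 1 + (w * (B * Real.exp B)) * ∫ α, α ^ 2 ∂(lawR θ D S n) := by
        rw [integral_add (integrable_const _) (hsq.const_mul _), integral_const_mul]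
        simp
    _ ≤ 1 + w * (B * Real.exp B * (2 * D * √C₁) * y) := by
        have h14 : 0 ≤ w * (B * Real.exp B) := by positivity
        have := mul_le_mul_of_nonneg_left hα h14
        linarith
    _ ≤ Real.exp (w * (B * Real.exp B * (2 * D * √C₁) * y)) := by
        have := Real.add_one_le_exp (w * (B * Real.exp B * (2 * D * √C₁) * y))
        linarith

/-- bound of the transforms for all `w` -/
theorem all (hB : LAWB) (hF : FMU) {D : ℕ} {r θ C₁ c₁ y K C' : ℝ} {S : Measure ℝ}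
    (hD : 2 ≤ D) (h0 : 0 ≤ r) (h1 : r < 1) (hS : SigHyp c₁ C₁ y r S)
    (hθ : 0 ≤ θ) (hθ1 : θ ^ 2 * D ≤ 1) (hK : 0 ≤ K) (hy : 0 < y)
    (hL : ∀ n, Sym r (lawR θ D S n)) (hC' : C' * Real.log (4 / 3) = C₁) (hC'0 : 0 ≤ C')
    (hsmall : ∀ n, ∀ w : ℝ, 0 ≤ w → w ≤ 1 →
      ∫ z, Fw w z ∂(lawR θ D S n) ≤ Real.exp (w * (K * y))) (n : ℕ) :
    ∀ w : ℝ, 0 ≤ w → ∫ z, Fw w z ∂(lawR θ D S n)
      ≤ Real.exp (w * (K * y + C' * y ^ 2 * Real.log (1 + w))) := by
  have hDr : (2 : ℝ) ≤ D := by exact_mod_cast hD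
  have hθh : θ ^ 2 ≤ 1 / 2 := by nlinarith [sq_nonneg θ]
  have hθ1' : θ ≤ 1 := by nlinarith
  have hsm : ∀ n, ∀ w : ℝ, 0 ≤ w → w ≤ 1 →
      ∫ z, Fw w z ∂(lawR θ D S n) ≤ Real.exp (w * (K * y + C' * y ^ 2 * Real.log (1 + w))) := by
    intro n w hw hw1
    refine (hsmall n w hw hw1).trans (Real.exp_le_exp.mpr ?_)
    have hl : 0 ≤ Real.log (1 + w) := Real.log_nonneg (by linarith)
    have : 0 ≤ C' * y ^ 2 * Real.log (1 + w) := by positivity
    nlinarith
  induction n with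
  | zero =>
    intro w hw
    rw [lawR, integral_dirac, Fw_zero]
    have hl : 0 ≤ Real.log (1 + w) := Real.log_nonneg (by linarith)
    exact Real.one_le_exp (by positivity)
  | succ n ih =>
    intro w hw
    rcases le_total w 1 with hw1 | hw1
    · exact hsm (n + 1) w hw hw1
    have hw2 : 0 ≤ θ ^ 2 * w := by positivity
    have h2 := step hB hF h0 h1 hS hθ hθ1' (hL n) hw
    have h3 := ih (θ ^ 2 * w) hw2
    have h4 : 0 ≤ ∫ x, Fw (θ ^ 2 * w) x ∂(lawR θ D S n) := by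
      have := one_le_int hB hF h1 (hL n) hw2
      linarith
    refine h2.trans ?_
    calc Real.exp (C₁ * y ^ 2 * w) * (∫ x, Fw (θ ^ 2 * w) x ∂(lawR θ D S n)) ^ D
        ≤ Real.exp (C₁ * y ^ 2 * w)
          * (Real.exp (θ ^ 2 * w * (K * y + C' * y ^ 2 * Real.log (1 + θ ^ 2 * w)))) ^ D :=
          mul_le_mul_of_nonneg_left (pow_le_pow_left₀ h4 h3 D) (Real.exp_pos _).le
      _ = Real.exp (C₁ * y ^ 2 * w
          + D * (θ ^ 2 * w * (K * y + C' * y ^ 2 * Real.log (1 + θ ^ 2 * w)))) := by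
          rw [← Real.exp_nat_mul, ← Real.exp_add]
      _ ≤ Real.exp (w * (K * y + C' * y ^ 2 * Real.log (1 + w))) := by
          apply Real.exp_le_exp.mpr
          have h5 : Real.log (1 + θ ^ 2 * w) ≤ Real.log (1 + w / 2) := by
            apply Real.log_le_log (by positivity)
            nlinarith
          have h6 : Real.log (1 + w / 2) + Real.log (4 / 3) ≤ Real.log (1 + w) := by
            rw [← Real.log_mul (by positivity) (by norm_num)]
            apply Real.log_le_log (by positivity)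
            nlinarith
          have h7 : 0 ≤ Real.log (1 + θ ^ 2 * w) := Real.log_nonneg (by linarith)
          have h8 : 0 ≤ K * y + C' * y ^ 2 * Real.log (1 + θ ^ 2 * w) := by positivity
          have h9 : (D : ℝ) * (θ ^ 2 * w * (K * y + C' * y ^ 2 * Real.log (1 + θ ^ 2 * w)))
              ≤ w * (K * y + C' * y ^ 2 * Real.log (1 + θ ^ 2 * w)) := by
            have : (D : ℝ) * θ ^ 2 ≤ 1 := by linarith
            have h10 : 0 ≤ w * (K * y + C' * y ^ 2 * Real.log (1 + θ ^ 2 * w)) := by positivity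
            nlinarith
          have h11 : C' * y ^ 2 * Real.log (1 + θ ^ 2 * w)
              ≤ C' * y ^ 2 * (Real.log (1 + w) - Real.log (4 / 3)) :=
            mul_le_mul_of_nonneg_left (by linarith) (by positivity)
          have h12 : C' * y ^ 2 * (Real.log (1 + w) - Real.log (4 / 3))
              = C' * y ^ 2 * Real.log (1 + w) - C₁ * y ^ 2 := by
            rw [← hC']; ring
          have h13 : w * (C' * y ^ 2 * Real.log (1 + θ ^ 2 * w))
              ≤ w * (C' * y ^ 2 * Real.log (1 + w) - C₁ * y ^ 2) :=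
            mul_le_mul_of_nonneg_left (by linarith) hw
          nlinarith

/-- the transform `E cosh (μ α)` -/
theorem coshb (hB : LAWB) (hF : FMU) {r y K C' : ℝ} {L : Measure ℝ}
    (h0 : 0 ≤ r) (h1 : r < 1) (hK : 0 ≤ K) (hC'0 : 0 ≤ C') (hy : 0 < y) (hy1 : y ≤ 1)
    (hL : Sym r L)
    (hall : ∀ w : ℝ, 0 ≤ w → ∫ z, Fw w z ∂L
      ≤ Real.exp (w * (K * y + C' * y ^ 2 * Real.log (1 + w)))) (μ : ℝ) (hμ : 0 ≤ μ) :
    ∫ α, Real.cosh (μ * α) ∂L
      ≤ (1 / √(1 - r ^ 2) + Real.cosh 1) * Real.exp ((K + C' + 1) * y * μ ^ 2) := by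
  have := hL.prob
  have hr2 : 0 < 1 - r ^ 2 := by nlinarith
  have hsq : 0 < √(1 - r ^ 2) := Real.sqrt_pos.mpr hr2
  have hco : ContinuousOn (fun α : ℝ => Real.cosh (μ * α)) (Ioo (-1) 1) :=
    (Real.continuous_cosh.comp (by fun_prop)).continuousOn
  have hint : Integrable (fun α => Real.cosh (μ * α)) L := hB.int_cont r L h1 hL _ hco
  have hcosh1 : 1 ≤ Real.cosh 1 := Real.one_le_cosh 1
  have hsqi : 0 < 1 / √(1 - r ^ 2) := by positivity
  have hexp : 1 ≤ Real.exp ((K + C' + 1) * y * μ ^ 2) := Real.one_le_exp (by positivity)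
  rcases le_total μ 1 with hμ1 | hμ1
  · -- small μ
    calc ∫ α, Real.cosh (μ * α) ∂L ≤ ∫ _α, Real.cosh 1 ∂L := by
          refine integral_mono_ae hint (integrable_const _) ?_
          filter_upwards [hL.supp] with α hα
          apply Real.cosh_le_cosh.mpr
          rw [abs_mul, abs_of_nonneg hμ, abs_one]
          have : |α| ≤ 1 := hα.trans h1.le
          nlinarith [abs_nonneg α]
      _ = Real.cosh 1 := by simp
      _ ≤ (1 / √(1 - r ^ 2) + Real.cosh 1) * 1 := by linarith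
      _ ≤ _ := mul_le_mul_of_nonneg_left hexp (by positivity)
  rcases le_total (μ * y) 1 with hμy | hμy
  · -- middle range
    have hw0 : 0 ≤ μ ^ 2 - 1 := by nlinarith
    have hpt : ∀ᵐ α ∂L, Real.cosh (μ * α) ≤ (1 / √(1 - r ^ 2)) * Fw (μ ^ 2 - 1) α := by
      filter_upwards [hL.supp] with α hα
      have h2 := hF.ge_cosh (μ ^ 2 - 1) α hw0 (lt_of_le_of_lt hα h1)
      have h3 : √(1 + (μ ^ 2 - 1)) = μ := by
        rw [show 1 + (μ ^ 2 - 1) = μ ^ 2 by ring, Real.sqrt_sq hμ]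
      rw [h3] at h2
      have h4 : √(1 - r ^ 2) ≤ √(1 - α ^ 2) := by
        apply Real.sqrt_le_sqrt
        have : α ^ 2 ≤ r ^ 2 := by
          rw [← sq_abs α]; exact pow_le_pow_left₀ (abs_nonneg _) hα 2
        linarith
      have h5 : √(1 - r ^ 2) * Real.cosh (μ * α) ≤ Fw (μ ^ 2 - 1) α :=
        (mul_le_mul_of_nonneg_right h4 (Real.cosh_pos _).le).trans h2
      rw [one_div, inv_mul_eq_div, le_div_iff₀ hsq]
      linarith
    have h6 : ∫ α, Real.cosh (μ * α) ∂L ≤ (1 / √(1 - r ^ 2)) *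
        Real.exp ((μ ^ 2 - 1) * (K * y + C' * y ^ 2 * Real.log (1 + (μ ^ 2 - 1)))) := by
      calc ∫ α, Real.cosh (μ * α) ∂L ≤ ∫ α, (1 / √(1 - r ^ 2)) * Fw (μ ^ 2 - 1) α ∂L :=
            integral_mono_ae hint ((Fw_int hB hF h1 hL hw0).const_mul _) hpt
        _ = (1 / √(1 - r ^ 2)) * ∫ α, Fw (μ ^ 2 - 1) α ∂L := integral_const_mul _ _
        _ ≤ _ := mul_le_mul_of_nonneg_left (hall _ hw0) hsqi.le
    refine h6.trans ?_
    have h7 : Real.exp ((μ ^ 2 - 1) * (K * y + C' * y ^ 2 * Real.log (1 + (μ ^ 2 - 1))))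
        ≤ Real.exp ((K + C' + 1) * y * μ ^ 2) := by
      apply Real.exp_le_exp.mpr
      have hμpos : 0 < μ := by linarith
      have h8 : Real.log (1 + (μ ^ 2 - 1)) = 2 * Real.log μ := by
        rw [show 1 + (μ ^ 2 - 1) = μ ^ 2 by ring, Real.log_pow]; norm_num
      have h9 : y * Real.log (1 + (μ ^ 2 - 1)) ≤ 1 := by
        rw [h8]
        have h10 : μ ≤ 1 / y := by rw [le_div_iff₀ hy]; exact hμy
        have h11 : Real.log μ ≤ Real.log (1 / y) := Real.log_le_log hμpos h10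
        have h12 : 0 < √(1 / y) := Real.sqrt_pos.mpr (by positivity)
        have h13 : Real.log (1 / y) = 2 * Real.log (√(1 / y)) := by
          conv_lhs => rw [← Real.sq_sqrt (show (0 : ℝ) ≤ 1 / y by positivity)]
          rw [Real.log_pow]; norm_num
        have h14 : Real.log (√(1 / y)) ≤ √(1 / y) - 1 := Real.log_le_sub_one_of_pos h12
        have h15 : 4 * (√(1 / y) - 1) ≤ 1 / y := by
          have h16 := Real.sq_sqrt (show (0 : ℝ) ≤ 1 / y by positivity)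
          nlinarith [sq_nonneg (√(1 / y) - 2)]
        have h17 : 2 * Real.log μ ≤ 1 / y := by linarith
        calc y * (2 * Real.log μ) ≤ y * (1 / y) := mul_le_mul_of_nonneg_left h17 hy.le
          _ = 1 := by field_simp
      have h18 : C' * y ^ 2 * Real.log (1 + (μ ^ 2 - 1)) ≤ C' * y := by
        have : C' * y * (y * Real.log (1 + (μ ^ 2 - 1))) ≤ C' * y * 1 :=
          mul_le_mul_of_nonneg_left h9 (by positivity)
        nlinarith
      have h19 : K * y + C' * y ^ 2 * Real.log (1 + (μ ^ 2 - 1)) ≤ (K + C' + 1) * y := by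
        nlinarith
      have h20 : (μ ^ 2 - 1) * (K * y + C' * y ^ 2 * Real.log (1 + (μ ^ 2 - 1)))
          ≤ (μ ^ 2 - 1) * ((K + C' + 1) * y) := mul_le_mul_of_nonneg_left h19 hw0
      have h21 : 0 ≤ (K + C' + 1) * y := by positivity
      nlinarith
    calc (1 / √(1 - r ^ 2)) *
          Real.exp ((μ ^ 2 - 1) * (K * y + C' * y ^ 2 * Real.log (1 + (μ ^ 2 - 1))))
        ≤ (1 / √(1 - r ^ 2) + Real.cosh 1) *
          Real.exp ((μ ^ 2 - 1) * (K * y + C' * y ^ 2 * Real.log (1 + (μ ^ 2 - 1)))) :=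
          mul_le_mul_of_nonneg_right (by linarith) (Real.exp_pos _).le
      _ ≤ _ := mul_le_mul_of_nonneg_left h7 (by positivity)
  · -- large μ
    have h2 : ∀ α : ℝ, Real.cosh α ≤ Real.exp |α| := by
      intro α
      rw [← Real.cosh_abs, Real.cosh_eq]
      have : Real.exp (-|α|) ≤ Real.exp |α| := Real.exp_le_exp.mpr (by linarith [abs_nonneg α])
      linarith
    calc ∫ α, Real.cosh (μ * α) ∂L ≤ ∫ _α, Real.exp ((K + C' + 1) * y * μ ^ 2) ∂L := by
          refine integral_mono_ae hint (integrable_const _) ?_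
          filter_upwards [hL.supp] with α hα
          refine (h2 _).trans (Real.exp_le_exp.mpr ?_)
          rw [abs_mul, abs_of_nonneg hμ]
          have h3 : |α| ≤ 1 := hα.trans h1.le
          have h4 : μ * |α| ≤ μ := by nlinarith [abs_nonneg α]
          have h5 : μ ≤ y * μ ^ 2 := by nlinarith
          have h6 : 0 ≤ (K + C') * (y * μ ^ 2) := by positivity
          nlinarith
      _ = Real.exp ((K + C' + 1) * y * μ ^ 2) := by simp
      _ ≤ _ := by
        have h3 : 1 ≤ 1 / √(1 - r ^ 2) + Real.cosh 1 := by linarith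
        have h4 := Real.exp_pos ((K + C' + 1) * y * μ ^ 2)
        nlinarith

/-- from the transform `E cosh (μ α)` to the Gaussian tail -/
theorem tail {r y K' C₂ : ℝ} {L : Measure ℝ} (hB : LAWB)
    (h1 : r < 1) (hK : 0 < K') (hC₂ : 0 < C₂) (hy : 0 < y)
    (hL : Sym r L)
    (hco : ∀ μ : ℝ, 0 ≤ μ → ∫ α, Real.cosh (μ * α) ∂L ≤ C₂ * Real.exp (K' * y * μ ^ 2)) :
    ∫ α, Real.exp (1 / (8 * K') * (α ^ 2 / y)) ∂L
      ≤ 2 * C₂ * Real.exp (1 / (8 * K')) * (1 - Real.exp (-(1 / (8 * K'))))⁻¹ := by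
  have := hL.prob
  obtain ⟨c, hc⟩ : ∃ c : ℝ, c = 1 / (8 * K') := ⟨_, rfl⟩
  rw [← hc]
  have hcpos : 0 < c := by rw [hc]; positivity
  set N : ℕ := ⌊1 / y⌋₊ with hN
  set μ : ℕ → ℝ := fun n => √((n : ℝ) / y) / (2 * K') with hμ
  have hμ0 : ∀ n, 0 ≤ μ n := fun n => by simp only [hμ]; positivity
  have hμ2 : ∀ n, K' * y * μ n ^ 2 = n / (4 * K') := by
    intro n
    simp only [hμ]
    rw [div_pow, Real.sq_sqrt (by positivity)]
    field_simp
    norm_num
  have hcont : ∀ m : ℝ, ContinuousOn (fun α : ℝ => Real.cosh (m * α)) (Ioo (-1) 1) := fun m =>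
    (Real.continuous_cosh.comp (by fun_prop)).continuousOn
  have hint : ∀ m : ℝ, Integrable (fun α => Real.cosh (m * α)) L := fun m =>
    hB.int_cont r L h1 hL _ (hcont m)
  have hpt : ∀ᵐ α ∂L, Real.exp (c * (α ^ 2 / y)) ≤
      ∑ n ∈ Finset.range (N + 1),
        (Real.exp (c * (n + 1)) / Real.cosh (n / (2 * K'))) * Real.cosh (μ n * α) := by
    filter_upwards [hL.supp] with α hα
    have ha1 : |α| ≤ 1 := hα.trans h1.le
    have hz0 : 0 ≤ α ^ 2 / y := by positivity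
    set n : ℕ := ⌊α ^ 2 / y⌋₊ with hn
    have hn1 : (n : ℝ) ≤ α ^ 2 / y := Nat.floor_le hz0
    have hn2 : α ^ 2 / y < n + 1 := Nat.lt_floor_add_one _
    have hnN : n ∈ Finset.range (N + 1) := by
      rw [Finset.mem_range, Nat.lt_succ_iff]
      apply Nat.floor_le_floor
      apply div_le_div_of_nonneg_right _ hy.le
      have : |α| ^ 2 ≤ 1 := pow_le_one₀ (abs_nonneg _) ha1
      rwa [sq_abs] at this
    have hterm : Real.exp (c * (α ^ 2 / y)) ≤
        (Real.exp (c * (n + 1)) / Real.cosh (n / (2 * K'))) * Real.cosh (μ n * α) := by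
      have h2 : Real.cosh (n / (2 * K')) ≤ Real.cosh (μ n * α) := by
        apply Real.cosh_le_cosh.mpr
        rw [abs_of_nonneg (by positivity), abs_mul, abs_of_nonneg (hμ0 n)]
        simp only [hμ]
        rw [div_mul_eq_mul_div]
        apply div_le_div_of_nonneg_right _ (by positivity)
        rw [← Real.sqrt_sq_eq_abs, ← Real.sqrt_mul (by positivity)]
        apply Real.le_sqrt_of_sq_le
        have h3 : (n : ℝ) / y * α ^ 2 = n * (α ^ 2 / y) := by ring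
        rw [h3, sq]
        exact mul_le_mul_of_nonneg_left hn1 (Nat.cast_nonneg n)
      have h4 : Real.exp (c * (α ^ 2 / y)) ≤ Real.exp (c * (n + 1)) :=
        Real.exp_le_exp.mpr (mul_le_mul_of_nonneg_left hn2.le hcpos.le)
      have h5 : 0 < Real.cosh ((n : ℝ) / (2 * K')) := Real.cosh_pos _
      rw [div_mul_eq_mul_div, le_div_iff₀ h5]
      exact mul_le_mul h4 h2 h5.le (Real.exp_pos _).le
    refine hterm.trans ?_
    exact Finset.single_le_sum (f := fun n : ℕ =>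
      (Real.exp (c * (n + 1)) / Real.cosh (n / (2 * K'))) * Real.cosh (μ n * α))
      (fun i _ => by have := Real.cosh_pos ((i : ℝ) / (2 * K')); have := Real.cosh_pos (μ i * α); positivity) hnN
  have hexpint : Integrable (fun α : ℝ => Real.exp (c * (α ^ 2 / y))) L :=
    hB.int_cont r L h1 hL _ (by fun_prop)
  have hterm2 : ∀ n : ℕ, (Real.exp (c * (n + 1)) / Real.cosh (n / (2 * K'))) *
      ∫ α, Real.cosh (μ n * α) ∂L ≤ 2 * C₂ * Real.exp c * Real.exp (-c) ^ n := by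
    intro n
    have h2 := hco (μ n) (hμ0 n)
    rw [hμ2] at h2
    have h3 : Real.exp (n / (2 * K')) / 2 ≤ Real.cosh (n / (2 * K')) := by
      rw [Real.cosh_eq]
      have := Real.exp_pos (-((n : ℝ) / (2 * K')))
      linarith
    have h4 : 0 < Real.exp ((n : ℝ) / (2 * K')) / 2 := by positivity
    have h5 : 0 < Real.cosh ((n : ℝ) / (2 * K')) := Real.cosh_pos _
    calc (Real.exp (c * (n + 1)) / Real.cosh (n / (2 * K'))) * ∫ α, Real.cosh (μ n * α) ∂L
        ≤ (Real.exp (c * (n + 1)) / (Real.exp (n / (2 * K')) / 2))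
            * (C₂ * Real.exp (n / (4 * K'))) := by
          apply mul_le_mul _ h2 _ (by positivity)
          · exact div_le_div_of_nonneg_left (Real.exp_pos _).le h4 h3
          · exact integral_nonneg (fun α => (Real.cosh_pos _).le)
      _ = 2 * C₂ * (Real.exp (c * (n + 1)) * Real.exp (n / (4 * K'))
            * (Real.exp (n / (2 * K')))⁻¹) := by
          field_simp
      _ = 2 * C₂ * Real.exp c * Real.exp (-c) ^ n := by
          rw [← Real.exp_neg, ← Real.exp_add, ← Real.exp_add, ← Real.exp_nat_mul, mul_assoc (2 * C₂),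
            ← Real.exp_add]
          congr 2
          rw [hc]
          field_simp
          ring
  have hlt : Real.exp (-c) < 1 := by
    rw [Real.exp_lt_one_iff]; linarith
  calc ∫ α, Real.exp (c * (α ^ 2 / y)) ∂L
      ≤ ∫ α, ∑ n ∈ Finset.range (N + 1),
        (Real.exp (c * (n + 1)) / Real.cosh (n / (2 * K'))) * Real.cosh (μ n * α) ∂L :=
        integral_mono_ae hexpint
          (integrable_finsetSum _ (fun n _ => (hint _).const_mul _)) hpt
    _ = ∑ n ∈ Finset.range (N + 1), (Real.exp (c * (n + 1)) / Real.cosh (n / (2 * K'))) *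
        ∫ α, Real.cosh (μ n * α) ∂L := by
        rw [integral_finsetSum _ (fun n _ => (hint _).const_mul _)]
        exact Finset.sum_congr rfl (fun n _ => integral_const_mul _ _)
    _ ≤ ∑ n ∈ Finset.range (N + 1), 2 * C₂ * Real.exp c * Real.exp (-c) ^ n :=
        Finset.sum_le_sum (fun n _ => hterm2 n)
    _ = 2 * C₂ * Real.exp c * ∑ n ∈ Finset.range (N + 1), Real.exp (-c) ^ n := by
        rw [Finset.mul_sum]
    _ ≤ 2 * C₂ * Real.exp c * (1 - Real.exp (-c))⁻¹ := by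
        apply mul_le_mul_of_nonneg_left _ (by positivity)
        rw [← tsum_geometric_of_lt_one (Real.exp_pos _).le hlt]
        exact (summable_geometric_of_lt_one (Real.exp_pos _).le hlt).sum_le_tsum _
          (fun i _ => by positivity)

end LawX

open LawX

theorem lawx_proof (hB : LAWB) (hF : FMU) (hA : LAWA) : LAWX := by
  intro D c₁ C₁ r₁ hD _hc₁ hC₁ hr0 hr1
  obtain ⟨r', hr'0, hr'1, hsym⟩ := hB.s_lawR D r₁ hD hr0 hr1
  obtain ⟨r, hr⟩ : ∃ r : ℝ, r = max r₁ r' := ⟨_, rfl⟩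
  have h0 : 0 ≤ r := by rw [hr]; exact le_max_of_le_left hr0
  have h1 : r < 1 := by rw [hr]; exact max_lt hr1 hr'1
  have hr2 : 0 < 1 - r ^ 2 := by nlinarith
  obtain ⟨K, hK⟩ : ∃ K : ℝ, K = (1 / (2 * (1 - r ^ 2) ^ 2)) * Real.exp (1 / (2 * (1 - r ^ 2) ^ 2))
          * (2 * D * √C₁) := ⟨_, rfl⟩
  have hK0 : 0 ≤ K := by rw [hK]; positivity
  have hlog : 0 < Real.log (4 / 3) := Real.log_pos (by norm_num)
  obtain ⟨C', hC'⟩ : ∃ C' : ℝ, C' = C₁ / Real.log (4 / 3) := ⟨_, rfl⟩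
  have hC'0 : 0 ≤ C' := by rw [hC']; positivity
  have hC'e : C' * Real.log (4 / 3) = C₁ := by rw [hC']; field_simp
  obtain ⟨K', hK'⟩ : ∃ K' : ℝ, K' = K + C' + 1 := ⟨_, rfl⟩
  have hK'0 : 0 < K' := by rw [hK']; positivity
  obtain ⟨C₂, hC₂⟩ : ∃ C₂ : ℝ, C₂ = 1 / √(1 - r ^ 2) + Real.cosh 1 := ⟨_, rfl⟩
  have hC₂0 : 0 < C₂ := by
    rw [hC₂]
    have := Real.cosh_pos 1
    positivity
  have hlt : Real.exp (-(1 / (8 * K'))) < 1 := by
    rw [Real.exp_lt_one_iff]
    have : 0 < 1 / (8 * K') := by positivity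
    linarith
  refine ⟨1 / (8 * K'), 2 * C₂ * Real.exp (1 / (8 * K')) * (1 - Real.exp (-(1 / (8 * K'))))⁻¹,
    by positivity, ?_, ?_⟩
  · have : 0 < 1 - Real.exp (-(1 / (8 * K'))) := by linarith
    positivity
  intro y θ S hy hy1 hS hθ hθ1 hθ2 n
  have hL : ∀ n, Sym r (lawR θ D S n) := fun n =>
    hB.s_mono r' r _ (by rw [hr]; exact le_max_right _ _) (hsym θ S n hθ hθ1 hS.sym)
  have hS' : SigHyp c₁ C₁ y r S :=
    ⟨hB.s_mono r₁ r S (by rw [hr]; exact le_max_left _ _) hS.sym, hS.lo, hS.hi, hS.fw⟩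
  have hsmall : ∀ n, ∀ w : ℝ, 0 ≤ w → w ≤ 1 →
      ∫ z, Fw w z ∂(lawR θ D S n) ≤ Real.exp (w * (K * y)) := by
    intro n w hw hw1
    rw [hK]
    exact small hB hF hA hD hC₁ hy h0 h1 hr0 hr1 hS hθ hθ1 hθ2 (hL n) hw hw1
  have hall := all hB hF hD h0 h1 hS' hθ hθ1 hK0 hy hL hC'e hC'0 hsmall n
  have hco := coshb hB hF h0 h1 hK0 hC'0 hy hy1 (hL n) hall
  rw [← hC₂, ← hK'] at hco
  exact tail hB h1 hK'0 hC₂0 hy (hL n) hco

end P161C
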