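import Vale.Agent.P161C.JLaw

/-! # P161C, module LAWZ: exponential moment of the path averages -/

open MeasureTheory Set Filter Topology

namespace P161C

open P161

namespace LZ

open JL

/-! ### elementary inequalities -/

lemma exp_quad {t X : ℝ} (t0 : 0 ≤ t) (t1 : t ≤ 1) (hX : 0 ≤ X) :
    Real.exp (t * X) - 1 - t * X ≤ t ^ 2 * (Real.exp X - 1 - X) := by
  let g : ℝ → ℝ := fun x => t ^ 2 * (Real.exp x - 1 - x) - (Real.exp (t * x) - 1 - t * x)
  have hd : ∀ x, HasDerivAt g (t ^ 2 * (Real.exp x - 1) - (Real.exp (t * x) * t - t)) x := by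
    intro x
    have h1 : HasDerivAt (fun x => t * x) t x := by
      simpa using (hasDerivAt_id x).const_mul t
    have h2 : HasDerivAt (fun x => Real.exp (t * x)) (Real.exp (t * x) * t) x := h1.exp
    exact (((Real.hasDerivAt_exp x).sub_const 1).sub (hasDerivAt_id x)).const_mul (t ^ 2)
      |>.sub ((h2.sub_const 1).sub h1)
  have hmono : MonotoneOn g (Ici 0) := by
    refine monotoneOn_of_deriv_nonneg (convex_Ici 0)
      (fun x _ => (hd x).continuousAt.continuousWithinAt)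
      (fun x _ => (hd x).differentiableAt.differentiableWithinAt) ?_
    intro x hx
    rw [interior_Ici] at hx
    rw [(hd x).deriv]
    have hc := convexOn_exp.2 (mem_univ x) (mem_univ (0 : ℝ)) t0 (by linarith : 0 ≤ 1 - t)
      (by ring)
    simp only [smul_eq_mul, mul_zero, add_zero, Real.exp_zero, mul_one] at hc
    nlinarith
  have h := hmono (mem_Ici.2 le_rfl) (mem_Ici.2 hX) hX
  simp only [g, Real.exp_zero, mul_zero, sub_self] at h
  linarith

lemma one_sub_exp {t ε : ℝ} (ht : 0 ≤ t) (e0 : 0 ≤ ε) (e1 : ε ≤ 1) :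
    ε * t - ε ^ 2 * t ^ 2 / 2 ≤ 1 - Real.exp (-t) := by
  have h1 : Real.exp (-t) ≤ Real.exp (-(ε * t)) := Real.exp_le_exp.2 (by nlinarith)
  have hu : 0 ≤ ε * t := mul_nonneg e0 ht
  have h2 : Real.exp (-(ε * t)) ≤ 1 - ε * t + (ε * t) ^ 2 / 2 := by
    have h3 := Real.quadratic_le_exp_of_nonneg hu
    have h4 : Real.exp (-(ε * t)) * Real.exp (ε * t) = 1 := by
      rw [← Real.exp_add]; simp
    set u := ε * t
    have h5 : 0 < Real.exp (-u) := Real.exp_pos _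
    have h6 : Real.exp (-u) * (1 + u + u ^ 2 / 2) ≤ 1 :=
      (mul_le_mul_of_nonneg_left h3 h5.le).trans h4.le
    have h7 : (1 : ℝ) ≤ (1 - u + u ^ 2 / 2) * (1 + u + u ^ 2 / 2) := by nlinarith [sq_nonneg (u ^ 2)]
    have h8 : 0 < 1 + u + u ^ 2 / 2 := by positivity
    have h9 : Real.exp (-u) * (1 + u + u ^ 2 / 2) ≤ (1 - u + u ^ 2 / 2) * (1 + u + u ^ 2 / 2) :=
      h6.trans h7
    exact le_of_mul_le_mul_right h9 h8
  nlinarith

/-- for arguments of the same sign the combination is larger -/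
lemma opl_sq {x ρ : ℝ} (hx : |x| ≤ 1) (hρ : |ρ| < 1) (h : 0 ≤ x * ρ) :
    ρ ^ 2 ≤ opl x ρ ^ 2 := by
  unfold opl
  have h1 : 0 < 1 + x * ρ := by linarith
  rw [div_pow, le_div_iff₀ (by positivity)]
  have hρ2 : ρ ^ 2 ≤ 1 := by
    have := abs_lt.1 hρ
    nlinarith
  have hx2 : x ^ 2 ≤ 1 := by
    have := abs_le.1 hx
    nlinarith
  have e : (x + ρ) ^ 2 - ρ ^ 2 * (1 + x * ρ) ^ 2
      = x ^ 2 * (1 - ρ ^ 4) + 2 * (x * ρ) * (1 - ρ ^ 2) := by ring
  have h2 : 0 ≤ x ^ 2 * (1 - ρ ^ 4) := mul_nonneg (sq_nonneg _) (by nlinarith [sq_nonneg ρ])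
  have h3 : 0 ≤ 2 * (x * ρ) * (1 - ρ ^ 2) :=
    mul_nonneg (by linarith) (by linarith)
  linarith

lemma opl_cont {x : ℝ} (hx : |x| ≤ 1) : ContinuousOn (opl x) (Ioo (-1) 1) := by
  unfold opl
  refine ContinuousOn.div (by fun_prop) (by fun_prop) ?_
  intro ρ hρ
  have h1 := abs_le.1 hx
  rcases hρ with ⟨h2, h3⟩
  have : 0 < 1 + x * ρ := by
    rcases le_total 0 x with h | h
    · nlinarith
    · nlinarith
  exact this.ne'

lemma one_add_pos {x ρ : ℝ} (hx : |x| ≤ 1) (hρ : |ρ| < 1) : 0 < 1 + x * ρ := by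
  have h1 : |x * ρ| < 1 := by
    rw [abs_mul]
    calc |x| * |ρ| ≤ 1 * |ρ| := mul_le_mul_of_nonneg_right hx (abs_nonneg _)
      _ < 1 := by linarith
  have := (abs_lt.1 h1).1
  linarith

/-- the damping bound -/
lemma K_le (hB : LAWB) {r' r y c x : ℝ} {ν : Measure ℝ} (h1 : r' < 1)
    (hν : Sym r' ν) (hy : 0 < y) (hx : |x| ≤ 1) (hr : 0 < r)
    (hc : c ≤ ∫ ρ, (1 - Real.exp (-(ρ ^ 2 / y))) ∂ν) (hrc : r * (1 - c / 2) ≤ 1) :
    ∫ ρ, (1 + x * ρ) * kt r y (opl x ρ) ∂ν ≤ 1 := by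
  have := hν.prob
  let h : ℝ → ℝ := fun ρ => (1 + x * ρ) * (1 - Real.exp (-(opl x ρ ^ 2 / y)))
  have hcont : ContinuousOn h (Ioo (-1) 1) := by
    have := opl_cont hx
    have h2 : Continuous (fun z : ℝ => 1 - Real.exp (-(z ^ 2 / y))) := by fun_prop
    exact ContinuousOn.mul (by fun_prop) (h2.comp_continuousOn this)
  have hi : Integrable h ν := hB.int_cont r' ν h1 hν h hcont
  have hi' : Integrable (fun ρ => h (-ρ)) ν := by
    refine hB.int_cont r' ν h1 hν _ (hcont.comp (by fun_prop) ?_)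
    intro ρ hρ
    exact ⟨by linarith [hρ.2], by linarith [hρ.1]⟩
  have hg : Integrable (fun ρ => 1 - Real.exp (-(ρ ^ 2 / y))) ν :=
    hB.int_cont r' ν h1 hν _ (by fun_prop)
  have hid : Integrable (fun ρ : ℝ => ρ) ν := hB.int_cont r' ν h1 hν _ (by fun_prop)
  have hsym : ∫ ρ, h (-ρ) ∂ν = ∫ ρ, h ρ ∂ν := by
    conv_rhs => rw [← hν.symm]
    rw [integral_map measurable_neg.aemeasurable]
    rw [hν.symm]
    exact hi.aestronglyMeasurable
  have hodd : ∫ ρ, ρ ∂ν = 0 := by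
    have : ∫ ρ, ρ ∂ν = ∫ ρ, -ρ ∂ν := by
      conv_lhs => rw [← hν.symm]
      rw [integral_map measurable_neg.aemeasurable (by fun_prop)]
    rw [integral_neg] at this
    linarith
  have hnn : ∀ ρ : ℝ, |ρ| < 1 → 0 ≤ h ρ := by
    intro ρ hρ
    have h2 : Real.exp (-(opl x ρ ^ 2 / y)) ≤ 1 := Real.exp_le_one_iff.2 (by
      have : 0 ≤ opl x ρ ^ 2 / y := by positivity
      linarith)
    exact mul_nonneg (one_add_pos hx hρ).le (by linarith)
  have hge : ∀ ρ : ℝ, |ρ| < 1 → 0 ≤ x * ρ → 1 - Real.exp (-(ρ ^ 2 / y)) ≤ h ρ := by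
    intro ρ hρ hxr
    have h2 : Real.exp (-(opl x ρ ^ 2 / y)) ≤ Real.exp (-(ρ ^ 2 / y)) :=
      Real.exp_le_exp.2 (neg_le_neg (div_le_div_of_nonneg_right (opl_sq hx hρ hxr) hy.le))
    have h3 : Real.exp (-(ρ ^ 2 / y)) ≤ 1 := Real.exp_le_one_iff.2 (by
      have : 0 ≤ ρ ^ 2 / y := by positivity
      linarith)
    have h4 : 0 ≤ (x * ρ) * (1 - Real.exp (-(opl x ρ ^ 2 / y))) :=
      mul_nonneg hxr (by linarith)
    show _ ≤ (1 + x * ρ) * (1 - Real.exp (-(opl x ρ ^ 2 / y)))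
    nlinarith
  have hkey : c / 2 ≤ ∫ ρ, h ρ ∂ν := by
    have h5 : ∫ ρ, (1 - Real.exp (-(ρ ^ 2 / y))) ∂ν ≤ ∫ ρ, (h ρ + h (-ρ)) ∂ν := by
      refine integral_mono_ae hg (hi.add hi') ?_
      filter_upwards [hν.supp] with ρ hρ
      have hρ1 : |ρ| < 1 := by linarith
      have hρ2 : |-ρ| < 1 := by rw [abs_neg]; exact hρ1
      rcases le_total 0 (x * ρ) with h6 | h6
      · have := hge ρ hρ1 h6
        have := hnn (-ρ) hρ2
        show 1 - Real.exp (-(ρ ^ 2 / y)) ≤ h ρ + h (-ρ)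
        linarith
      · have h7 := hge (-ρ) hρ2 (by nlinarith)
        rw [neg_sq] at h7
        have := hnn ρ hρ1
        show 1 - Real.exp (-(ρ ^ 2 / y)) ≤ h ρ + h (-ρ)
        linarith
    rw [integral_add hi hi', hsym] at h5
    linarith
  have hK : ∫ ρ, (1 + x * ρ) * kt r y (opl x ρ) ∂ν = r * (1 - ∫ ρ, h ρ ∂ν) := by
    have e : ∀ ρ : ℝ, (1 + x * ρ) * kt r y (opl x ρ) = r * ((1 + x * ρ) - h ρ) := by
      intro ρ
      simp only [h, kt]
      ring
    have i1 : Integrable (fun ρ => 1 + x * ρ) ν := (integrable_const 1).add (hid.const_mul x)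
    simp_rw [e]
    rw [integral_const_mul, integral_sub i1 hi,
      integral_add (integrable_const 1) (hid.const_mul x), integral_const_mul, hodd]
    simp
  rw [hK]
  nlinarith

/-- lower bound of the damping from the second and fourth moments -/
lemma damp_ge (hB : LAWB) {r' y c C ε : ℝ} {ν : Measure ℝ} (h1 : r' < 1) (hν : Sym r' ν)
    (hy : 0 < y) (h2 : c * y ≤ ∫ ρ, ρ ^ 2 ∂ν) (h4 : ∫ ρ, ρ ^ 4 ∂ν ≤ C * y ^ 2) (e0 : 0 ≤ ε)
    (e1 : ε ≤ 1) (e2 : ε * C ≤ c) :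
    ε * c / 2 ≤ ∫ ρ, (1 - Real.exp (-(ρ ^ 2 / y))) ∂ν := by
  have := hν.prob
  have i2 : Integrable (fun ρ : ℝ => ρ ^ 2) ν := hB.int_cont r' ν h1 hν _ (by fun_prop)
  have i4 : Integrable (fun ρ : ℝ => ρ ^ 4) ν := hB.int_cont r' ν h1 hν _ (by fun_prop)
  have hg : Integrable (fun ρ => 1 - Real.exp (-(ρ ^ 2 / y))) ν :=
    hB.int_cont r' ν h1 hν _ (by fun_prop)
  have h5 : ∫ ρ, (ε / y * ρ ^ 2 - ε ^ 2 / (2 * y ^ 2) * ρ ^ 4) ∂ν
      ≤ ∫ ρ, (1 - Real.exp (-(ρ ^ 2 / y))) ∂ν := by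
    refine integral_mono_ae ((i2.const_mul _).sub (i4.const_mul _)) hg (ae_of_all _ fun ρ => ?_)
    have := one_sub_exp (t := ρ ^ 2 / y) (by positivity) e0 e1
    have e : ε * (ρ ^ 2 / y) - ε ^ 2 * (ρ ^ 2 / y) ^ 2 / 2
        = ε / y * ρ ^ 2 - ε ^ 2 / (2 * y ^ 2) * ρ ^ 4 := by
      field_simp
    show ε / y * ρ ^ 2 - ε ^ 2 / (2 * y ^ 2) * ρ ^ 4 ≤ _
    rw [← e]; exact this
  rw [integral_sub (i2.const_mul _) (i4.const_mul _), integral_const_mul,
    integral_const_mul] at h5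
  have h6 : ε * c ≤ ε / y * ∫ ρ, ρ ^ 2 ∂ν := by
    rw [div_mul_eq_mul_div, le_div_iff₀ hy]
    have := mul_le_mul_of_nonneg_left h2 e0
    linarith
  have h7 : ε ^ 2 / (2 * y ^ 2) * ∫ ρ, ρ ^ 4 ∂ν ≤ ε * c / 2 := by
    rw [div_mul_eq_mul_div, div_le_iff₀ (by positivity)]
    have h8 := mul_le_mul_of_nonneg_left h4 (sq_nonneg ε)
    have h9 : ε ^ 2 * (C * y ^ 2) = ε * (ε * C) * y ^ 2 := by ring
    have h10 : ε * (ε * C) * y ^ 2 ≤ ε * c * y ^ 2 :=
      mul_le_mul_of_nonneg_right (mul_le_mul_of_nonneg_left e2 e0) (by positivity)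
    have h11 : ε * c / 2 * (2 * y ^ 2) = ε * c * y ^ 2 := by ring
    rw [h11]; linarith
  linarith

/-! ### convex order -/

lemma cx_refl (L : Measure ℝ) : Cx L L := fun _ _ _ => le_rfl

lemma cx_trans {L L' L'' : Measure ℝ} (h : Cx L L') (h' : Cx L' L'') : Cx L L'' :=
  fun φ h1 h2 => (h φ h1 h2).trans (h' φ h1 h2)

lemma comb_dirac (hB : LAWB) {r : ℝ} {L : Measure ℝ} (h0 : 0 ≤ r) (h1 : r < 1)
    (hL : Sym r L) : comb L (Measure.dirac 0) = L := by
  rw [hB.comm r L _ h0 h1 hL (hB.s_dirac r h0), hB.dirac_comb r L h1 hL]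

lemma cx_combN_succ (hB : LAWB) (hC : CVX) {r : ℝ} {L : Measure ℝ} (h0 : 0 ≤ r) (h1 : r < 1)
    (hL : Sym r L) (k : ℕ) : Cx (combN L k) (combN L (k + 1)) := by
  obtain ⟨r', r0, r1, hr'⟩ := hB.s_combN r k h0 h1
  have hN := hr' L hL
  have hs0 : 0 ≤ max r r' := le_max_of_le_left h0
  have hs1 : max r r' < 1 := max_lt h1 r1
  have := hC.c_comb (max r r') (Measure.dirac 0) (combN L k) L (combN L k) hs0 hs1
    (hB.s_dirac _ hs0) (hB.s_mono _ _ _ (le_max_right _ _) hN)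
    (hB.s_mono _ _ _ (le_max_left _ _) hL) (hB.s_mono _ _ _ (le_max_right _ _) hN)
    (hC.c_dirac r L h1 hL) (cx_refl _)
  rwa [hB.dirac_comb r' _ r1 hN] at this

lemma cx_combN (hB : LAWB) (hC : CVX) {r : ℝ} {L : Measure ℝ} (h0 : 0 ≤ r) (h1 : r < 1)
    (hL : Sym r L) (k : ℕ) : Cx L (combN L (k + 1)) := by
  induction k with
  | zero =>
    show Cx L (comb L (Measure.dirac 0))
    rw [comb_dirac hB h0 h1 hL]
    exact cx_refl _
  | succ k ih => exact cx_trans ih (cx_combN_succ hB hC h0 h1 hL (k + 1))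

lemma cx_nu (hB : LAWB) (hC : CVX) {r : ℝ} {S L : Measure ℝ} (h0 : 0 ≤ r) (h1 : r < 1)
    (hS : Sym r S) (hL : Sym r L) (k : ℕ) :
    Cx L (comb S (combN L (k + 1))) ∧
      Cx (comb S (combN L (k + 1))) (comb S (combN L (k + 2))) := by
  obtain ⟨r', r0, r1, hr'⟩ := hB.s_combN r (k + 1) h0 h1
  obtain ⟨r'', r0', r1', hr''⟩ := hB.s_combN r (k + 2) h0 h1
  have hN := hr' L hL
  have hN' := hr'' L hL
  set s := max r (max r' r'') with hs
  have hs0 : 0 ≤ s := le_max_of_le_left h0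
  have hs1 : s < 1 := max_lt h1 (max_lt r1 r1')
  have sS : Sym s S := hB.s_mono _ _ _ (le_max_left _ _) hS
  have sN : Sym s (combN L (k + 1)) :=
    hB.s_mono _ _ _ ((le_max_left _ _).trans (le_max_right _ _)) hN
  have sN' : Sym s (combN L (k + 2)) :=
    hB.s_mono _ _ _ ((le_max_right _ _).trans (le_max_right _ _)) hN'
  constructor
  · refine cx_trans (cx_combN hB hC h0 h1 hL k) ?_
    have := hC.c_comb s (Measure.dirac 0) (combN L (k + 1)) S (combN L (k + 1)) hs0 hs1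
      (hB.s_dirac _ hs0) sN sS sN (hC.c_dirac r S h1 hS) (cx_refl _)
    rwa [hB.dirac_comb s _ hs1 sN] at this
  · exact hC.c_comb s S _ S _ hs0 hs1 sS sN sS sN' (cx_refl _)
      (cx_combN_succ hB hC h0 h1 hL (k + 1))

/-! ### the two recursions -/

variable {D : ℕ}

lemma odd_zero {J : Measure (ℝ × ℝ)} (hJ : J.map (fun p => (-p.1, p.2)) = J)
    {e : ℝ × ℝ → ℝ} (he : Measurable e) (hev : ∀ p, e (-p.1, p.2) = e p) :
    ∫ p, p.1 * e p ∂J = 0 := by
  have hm : Measurable (fun p : ℝ × ℝ => (-p.1, p.2)) := by fun_prop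
  have h : ∫ p, p.1 * e p ∂J = ∫ p, -(p.1 * e p) ∂J := by
    conv_lhs => rw [← hJ]
    rw [integral_map hm.aemeasurable (by
      rw [hJ]; exact (measurable_fst.mul he).aestronglyMeasurable)]
    refine integral_congr_ae (ae_of_all _ fun p => ?_)
    show -p.1 * e (-p.1, p.2) = -(p.1 * e p)
    rw [hev]; ring
  rw [integral_neg] at h
  linarith

lemma int_one_add {J : Measure (ℝ × ℝ)} [IsProbabilityMeasure J]
    (hJ : J.map (fun p => (-p.1, p.2)) = J) (h1 : ∀ᵐ p ∂J, |p.1| ≤ 1) {e : ℝ × ℝ → ℝ}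
    (he : Measurable e) (hev : ∀ p, e (-p.1, p.2) = e p) {B : ℝ} (hb : ∀ᵐ p ∂J, |e p| ≤ B)
    (θ : ℝ) : ∫ p, (1 + θ * p.1) * e p ∂J = ∫ p, e p ∂J := by
  have i1 : Integrable e J := int_of_bd J he B hb
  have i2 : Integrable (fun p : ℝ × ℝ => p.1 * e p) J := by
    refine int_of_bd J (measurable_fst.mul he) B ?_
    filter_upwards [h1, hb] with p hp hp'
    show |p.1 * e p| ≤ B
    rw [abs_mul]
    calc |p.1| * |e p| ≤ 1 * |e p| := mul_le_mul_of_nonneg_right hp (abs_nonneg _)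
      _ ≤ B := by rw [one_mul]; exact hp'
  have e1 : ∀ p : ℝ × ℝ, (1 + θ * p.1) * e p = e p + θ * (p.1 * e p) := by intro p; ring
  simp_rw [e1]
  rw [integral_add i1 (i2.const_mul θ), integral_const_mul, odd_zero hJ he hev]
  ring

/-- product form of the expectation of a product -/
lemma prod_step {S : Measure ℝ} [IsProbabilityMeasure S] {J : Measure (ℝ × ℝ)}
    [IsProbabilityMeasure J] (hS : S.map (fun x => -x) = S) (hS1 : ∀ᵐ x ∂S, |x| ≤ 1)
    (hJ : J.map (fun p => (-p.1, p.2)) = J) (h1 : ∀ᵐ p ∂J, |p.1| ≤ 1) {e : ℝ × ℝ → ℝ}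
    (he : Measurable e) (hev : ∀ p, e (-p.1, p.2) = e p) {B : ℝ} (hb : ∀ᵐ p ∂J, |e p| ≤ B)
    {θ : ℝ} :
    ∫ q, w1 θ (fg q) * ∏ i, e (q.2 i) ∂(S.prod (Measure.pi fun _ : Fin D => J))
      = (∫ p, e p ∂J) ^ D := by
  have e1 : ∀ q : ℝ × (Fin D → ℝ × ℝ), w1 θ (fg q) * ∏ i, e (q.2 i)
      = ((1 + q.1) / 2) * ∏ i, ((1 + θ * (q.2 i).1) * e (q.2 i))
        + ((1 - q.1) / 2) * ∏ i, ((1 + (-θ) * (q.2 i).1) * e (q.2 i)) := by
    intro q
    rw [Finset.prod_mul_distrib, Finset.prod_mul_distrib]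
    have e2 : ∀ i, 1 + (-θ) * (q.2 i).1 = 1 - θ * (q.2 i).1 := fun i => by ring
    simp_rw [e2]
    unfold w1 fg
    ring
  have iid : Integrable (fun x : ℝ => x) S := int_of_bd S measurable_id 1 hS1
  have hS0 : ∫ x, x ∂S = 0 := by
    have : ∫ x, x ∂S = ∫ x, -x ∂S := by
      conv_lhs => rw [← hS]
      rw [integral_map measurable_neg.aemeasurable (by fun_prop)]
    rw [integral_neg] at this
    linarith
  have hp : ∀ θ' : ℝ, ∫ x : Fin D → ℝ × ℝ, ∏ i, ((1 + θ' * (x i).1) * e (x i))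
      ∂(Measure.pi fun _ : Fin D => J) = (∫ p, e p ∂J) ^ D := by
    intro θ'
    rw [integral_fintype_prod_eq_pow (fun p : ℝ × ℝ => (1 + θ' * p.1) * e p),
      int_one_add hJ h1 he hev hb, Fintype.card_fin]
  have ii : ∀ θ' : ℝ, Integrable (fun x : Fin D → ℝ × ℝ => ∏ i, ((1 + θ' * (x i).1) * e (x i)))
      (Measure.pi fun _ : Fin D => J) := by
    intro θ'
    refine Integrable.fintype_prod (f := fun _ p => (1 + θ' * p.1) * e p) (fun _ => ?_)
    refine int_of_bd J (by fun_prop) ((1 + |θ'|) * B) ?_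
    filter_upwards [h1, hb] with p hp hp'
    rw [abs_mul]
    refine mul_le_mul ?_ hp' (abs_nonneg _) (by positivity)
    calc |1 + θ' * p.1| ≤ |(1 : ℝ)| + |θ' * p.1| := abs_add_le _ _
      _ ≤ 1 + |θ'| := by
        rw [abs_one, abs_mul]
        have := mul_le_mul_of_nonneg_left hp (abs_nonneg θ')
        linarith
  simp_rw [e1]
  rw [integral_add, integral_prod_mul (fun s : ℝ => (1 + s) / 2)
      (fun x : Fin D → ℝ × ℝ => ∏ i, ((1 + θ * (x i).1) * e (x i))),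
    integral_prod_mul (fun s : ℝ => (1 - s) / 2)
      (fun x : Fin D → ℝ × ℝ => ∏ i, ((1 + (-θ) * (x i).1) * e (x i))), hp, hp,
    integral_div, integral_div, integral_add (integrable_const 1) iid,
    integral_sub (integrable_const 1) iid, hS0]
  · simp
    ring
  · exact Integrable.mul_prod (f := fun s : ℝ => (1 + s) / 2)
      (((integrable_const 1).add iid).div_const 2) (ii θ)
  · exact Integrable.mul_prod (f := fun s : ℝ => (1 - s) / 2)
      (((integrable_const 1).sub iid).div_const 2) (ii (-θ))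

lemma w1fg (θ : ℝ) : Measurable (fun q : ℝ × (Fin D → ℝ × ℝ) => w1 θ (fg q)) :=
  (w1_meas θ).comp fg_meas

lemma al1fg (θ : ℝ) : Measurable (fun q : ℝ × (Fin D → ℝ × ℝ) => al1 θ (fg q)) :=
  (al1_meas θ).comp fg_meas

/-- the law of the message computed from `S.prod (pi J)` -/
lemma law_fg (hB : LAWB) {r' θ : ℝ} {S L : Measure ℝ} {J : Measure (ℝ × ℝ)}
    [IsProbabilityMeasure J] (h0 : 0 ≤ r') (h1 : r' < 1) (t0 : 0 ≤ θ) (t1 : θ ≤ 1)
    (hS : Sym r' S) (hL : Sym r' L) (hJL : J.map Prod.fst = L) :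
    ((S.prod (Measure.pi fun _ : Fin D => J)).withDensity fun q =>
        ENNReal.ofReal (w1 θ (fg q))).map (fun q => al1 θ (fg q))
      = comb S (combN (scl θ L) D) := by
  have := hS.prob
  have hw : Measurable (fun q : ℝ × (Fin D → ℝ) => ENNReal.ofReal (w1 θ q)) :=
    (w1_meas θ).ennreal_ofReal
  have e : (fun q : ℝ × (Fin D → ℝ × ℝ) => al1 θ (fg q)) = (al1 θ) ∘ fg := rfl
  rw [e, ← Measure.map_map (al1_meas θ) fg_meas,
    map_wd _ fg_meas (w := fun q => ENNReal.ofReal (w1 θ q)) hw, fg_map S J, hJL]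
  exact prod_law hB h0 h1 t0 t1 hS hL

/-- insert the coordinate `i` -/
def ins (i : Fin (D + 1)) (u : (ℝ × ℝ) × (ℝ × (Fin D → ℝ × ℝ))) :
    ℝ × (Fin (D + 1) → ℝ × ℝ) :=
  (u.2.1, (MeasurableEquiv.piFinSuccAbove (fun _ => ℝ × ℝ) i).symm (u.1, u.2.2))

lemma ins_mp (S : Measure ℝ) [IsProbabilityMeasure S] (J : Measure (ℝ × ℝ))
    [IsProbabilityMeasure J] (i : Fin (D + 1)) :
    MeasurePreserving (ins i) (J.prod (S.prod (Measure.pi fun _ : Fin D => J)))
      (S.prod (Measure.pi fun _ : Fin (D + 1) => J)) := by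
  have a1 : MeasurePreserving (MeasurableEquiv.prodAssoc.symm :
      (ℝ × ℝ) × (ℝ × (Fin D → ℝ × ℝ)) ≃ᵐ ((ℝ × ℝ) × ℝ) × (Fin D → ℝ × ℝ))
      (J.prod (S.prod (Measure.pi fun _ : Fin D => J)))
      ((J.prod S).prod (Measure.pi fun _ : Fin D => J)) :=
    (measurePreserving_prodAssoc J S (Measure.pi fun _ : Fin D => J)).symm
  have a2 : MeasurePreserving (Prod.map (Prod.swap : (ℝ × ℝ) × ℝ → ℝ × (ℝ × ℝ)) id)
      ((J.prod S).prod (Measure.pi fun _ : Fin D => J))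
      ((S.prod J).prod (Measure.pi fun _ : Fin D => J)) :=
    (Measure.measurePreserving_swap (μ := J) (ν := S)).prod (MeasurePreserving.id _)
  have a3 := measurePreserving_prodAssoc S J (Measure.pi fun _ : Fin D => J)
  have a4 : MeasurePreserving (Prod.map (id : ℝ → ℝ)
      (MeasurableEquiv.piFinSuccAbove (fun _ => ℝ × ℝ) i).symm)
      (S.prod (J.prod (Measure.pi fun _ : Fin D => J)))
      (S.prod (Measure.pi fun _ : Fin (D + 1) => J)) :=
    (MeasurePreserving.id S).prod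
      ((measurePreserving_piFinSuccAbove (fun _ : Fin (D + 1) => J) i).symm)
  exact a4.comp (a3.comp (a2.comp a1))

lemma ins_fst (i : Fin (D + 1)) (p : ℝ × ℝ) (u : ℝ × (Fin D → ℝ × ℝ)) :
    (ins i (p, u)).2 i = p := by
  show (i.insertNth p u.2 : Fin (D + 1) → ℝ × ℝ) i = p
  exact Fin.insertNth_apply_same (α := fun _ => ℝ × ℝ) i p u.2

lemma ins_succ (i : Fin (D + 1)) (p : ℝ × ℝ) (u : ℝ × (Fin D → ℝ × ℝ)) (j : Fin D) :
    (ins i (p, u)).2 (i.succAbove j) = u.2 j := by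
  show (i.insertNth p u.2 : Fin (D + 1) → ℝ × ℝ) (i.succAbove j) = u.2 j
  exact Fin.insertNth_apply_succAbove (α := fun _ => ℝ × ℝ) i p u.2 j

lemma prods_ins (θ : ℝ) (i : Fin (D + 1)) (p : ℝ × ℝ) (u : ℝ × (Fin D → ℝ × ℝ)) :
    ∏ j, (1 + θ * (fg (ins i (p, u))).2 j) = (1 + θ * p.1) * ∏ j, (1 + θ * (fg u).2 j) ∧
    ∏ j, (1 - θ * (fg (ins i (p, u))).2 j) = (1 - θ * p.1) * ∏ j, (1 - θ * (fg u).2 j) := by
  constructor
  · rw [Fin.prod_univ_succAbove _ i]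
    unfold fg
    simp only [ins_fst, ins_succ]
  · rw [Fin.prod_univ_succAbove _ i]
    unfold fg
    simp only [ins_fst, ins_succ]

lemma w1_ins {θ : ℝ} (i : Fin (D + 1)) (p : ℝ × ℝ) (u : ℝ × (Fin D → ℝ × ℝ))
    (h : 0 < w1 θ (fg u)) (h' : 0 < 1 + θ * p.1 * al1 θ (fg u)) :
    w1 θ (fg (ins i (p, u))) = w1 θ (fg u) * (1 + θ * p.1 * al1 θ (fg u)) ∧
    al1 θ (fg (ins i (p, u))) = opl (θ * p.1) (al1 θ (fg u)) := by
  obtain ⟨e1, e2⟩ := prods_ins θ i p u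
  set A := (1 + u.1) * ∏ j, (1 + θ * (fg u).2 j) with hA
  set B := (1 - u.1) * ∏ j, (1 - θ * (fg u).2 j) with hB
  have hw : w1 θ (fg u) = (A + B) / 2 := rfl
  have ha : al1 θ (fg u) = (A - B) / (A + B) := rfl
  have hAB : 0 < A + B := by rw [hw] at h; linarith
  have f1 : (1 + (fg (ins i (p, u))).1) * ∏ j, (1 + θ * (fg (ins i (p, u))).2 j)
      = (1 + θ * p.1) * A := by
    rw [e1, hA]
    show (1 + u.1) * _ = _
    ring
  have f2 : (1 - (fg (ins i (p, u))).1) * ∏ j, (1 - θ * (fg (ins i (p, u))).2 j)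
      = (1 - θ * p.1) * B := by
    rw [e2, hB]
    show (1 - u.1) * _ = _
    ring
  constructor
  · rw [hw, ha]
    unfold w1
    rw [f1, f2]
    field_simp
    ring
  · rw [ha] at h' ⊢
    unfold al1 opl
    rw [f1, f2]
    have h2 : 0 < (1 + θ * p.1) * A + (1 - θ * p.1) * B := by
      have : (1 + θ * p.1) * A + (1 - θ * p.1) * B
          = (A + B) * (1 + θ * p.1 * ((A - B) / (A + B))) := by
        field_simp
        ring
      rw [this]; positivity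
    rw [div_eq_div_iff h2.ne' h'.ne']
    field_simp
    ring

lemma w1_pos {r' θ : ℝ} (h1 : r' < 1) (t0 : 0 ≤ θ) (t1 : θ ≤ 1) {q : ℝ × (Fin D → ℝ)}
    (hs : |q.1| ≤ r') (hx : ∀ i, |q.2 i| ≤ r') : 0 < w1 θ q ∧ |al1 θ q| < 1 := by
  have key : ∀ i, -1 < θ * q.2 i ∧ θ * q.2 i < 1 := by
    intro i
    have h2 := abs_le.1 (hx i)
    have h3 : |θ * q.2 i| < 1 := by
      rw [abs_mul, abs_of_nonneg t0]
      calc θ * |q.2 i| ≤ 1 * |q.2 i| := mul_le_mul_of_nonneg_right t1 (abs_nonneg _)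
        _ < 1 := by linarith [hx i]
    exact abs_lt.1 h3
  have p1 : 0 < ∏ i, (1 + θ * q.2 i) := Finset.prod_pos fun i _ => by linarith [(key i).1]
  have p2 : 0 < ∏ i, (1 - θ * q.2 i) := Finset.prod_pos fun i _ => by linarith [(key i).2]
  have h2 := abs_le.1 hs
  have hA : 0 < (1 + q.1) * ∏ i, (1 + θ * q.2 i) := mul_pos (by linarith [h2.1]) p1
  have hB : 0 < (1 - q.1) * ∏ i, (1 - θ * q.2 i) := mul_pos (by linarith [h2.2]) p2
  unfold w1 al1
  refine ⟨by linarith, ?_⟩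
  rw [abs_div, abs_of_pos (by linarith : 0 < (1 + q.1) * ∏ i, (1 + θ * q.2 i)
    + (1 - q.1) * ∏ i, (1 - θ * q.2 i)), div_lt_one (by linarith), abs_lt]
  constructor <;> linarith

/-- one term of the recursion of the damped mean -/
lemma mu_term (hB : LAWB) {r' θ r y B : ℝ} {S L : Measure ℝ} {J : Measure (ℝ × ℝ)}
    [IsProbabilityMeasure J] (h0 : 0 ≤ r') (h1 : r' < 1) (t0 : 0 ≤ θ) (t1 : θ ≤ 1)
    (hr : 0 < r) (hy : 0 < y) (hS : Sym r' S) (hL : Sym r' L) (hJL : J.map Prod.fst = L)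
    (hJb : ∀ᵐ p ∂J, 0 ≤ p.2 ∧ p.2 ≤ B)
    (hK : ∀ x : ℝ, |x| ≤ 1 →
      ∫ ρ, (1 + x * ρ) * kt r y (opl x ρ) ∂(comb S (combN (scl θ L) D)) ≤ 1)
    (i : Fin (D + 1)) :
    Integrable (fun q => w1 θ (fg q) * kt r y (al1 θ (fg q))
        * (kt r y (q.2 i).1 * (q.2 i).2)) (S.prod (Measure.pi fun _ : Fin (D + 1) => J)) ∧
    ∫ q, w1 θ (fg q) * kt r y (al1 θ (fg q)) * (kt r y (q.2 i).1 * (q.2 i).2)
        ∂(S.prod (Measure.pi fun _ : Fin (D + 1) => J))
      ≤ ∫ p, kt r y p.1 * p.2 ∂J := by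
  have := hS.prob
  have hJ1 : ∀ᵐ p ∂J, |p.1| ≤ r' := by
    have := hL.supp
    rw [← hJL] at this
    exact ae_of_ae_map measurable_fst.aemeasurable this
  have hkm : Measurable (kt r y) := kt_meas r y
  have hG : Measurable (fun q : ℝ × (Fin (D + 1) → ℝ × ℝ) => w1 θ (fg q)
      * kt r y (al1 θ (fg q)) * (kt r y (q.2 i).1 * (q.2 i).2)) := by
    have a1 := (w1_meas (D := D + 1) θ).comp fg_meas
    have a2 := hkm.comp ((al1_meas (D := D + 1) θ).comp fg_meas)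
    have a3 : Measurable (fun q : ℝ × (Fin (D + 1) → ℝ × ℝ) => kt r y (q.2 i).1 * (q.2 i).2) := by
      fun_prop
    exact (a1.mul a2).mul a3
  have hint : Integrable (fun q => w1 θ (fg q) * kt r y (al1 θ (fg q))
        * (kt r y (q.2 i).1 * (q.2 i).2)) (S.prod (Measure.pi fun _ : Fin (D + 1) => J)) := by
    refine int_of_bd _ hG (2 ^ (D + 1) * r * (r * B)) ?_
    filter_upwards [ae_prod S (Measure.pi fun _ : Fin (D + 1) => J) hS.supp
      (ae_pi J (hJ1.and hJb))] with q hq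
    have b1 := w1_bd (q := fg q) t0 t1 (by show |q.1| ≤ 1; linarith [hq.1])
      (fun j => by show |(q.2 j).1| ≤ 1; linarith [(hq.2 j).1])
    have b2 := kt_le (α := al1 θ (fg q)) hr hy
    have b2' := kt_pos (y := y) (α := al1 θ (fg q)) hr
    have b3 := kt_le (α := (q.2 i).1) hr hy
    have b3' := kt_pos (y := y) (α := (q.2 i).1) hr
    obtain ⟨-, b4, b5⟩ := hq.2 i
    rw [abs_of_nonneg (mul_nonneg (mul_nonneg b1.1 b2'.le) (mul_nonneg b3'.le b4))]
    exact mul_le_mul (mul_le_mul b1.2 b2 b2'.le (by positivity))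
      (mul_le_mul b3 b5 b4 hr.le) (mul_nonneg b3'.le b4) (by positivity)
  refine ⟨hint, ?_⟩
  have hmp := ins_mp S J i
  have hint' : Integrable (fun u => w1 θ (fg (ins i u)) * kt r y (al1 θ (fg (ins i u)))
        * (kt r y ((ins i u).2 i).1 * ((ins i u).2 i).2))
      (J.prod (S.prod (Measure.pi fun _ : Fin D => J))) := hmp.integrable_comp_of_integrable hint
  rw [← hmp.map_eq, integral_map hmp.measurable.aemeasurable hG.aestronglyMeasurable]
  rw [integral_prod _ hint']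
  have hsm : ∀ᵐ u ∂(S.prod (Measure.pi fun _ : Fin D => J)), |u.1| ≤ r' ∧ ∀ j, |(u.2 j).1| ≤ r' :=
    ae_prod S _ hS.supp (ae_pi J hJ1)
  have ikt : Integrable (fun p : ℝ × ℝ => kt r y p.1 * p.2) J := by
    refine int_of_bd J (by fun_prop) (r * B) ?_
    filter_upwards [hJb] with p hp
    rw [abs_of_nonneg (mul_nonneg (kt_pos hr).le hp.1)]
    exact mul_le_mul (kt_le hr hy) hp.2 hp.1 hr.le
  refine integral_mono_ae hint'.integral_prod_left ikt ?_
  filter_upwards [hJ1, hJb] with p hp hpb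
  have hx : |θ * p.1| ≤ 1 := by
    rw [abs_mul, abs_of_nonneg t0]
    calc θ * |p.1| ≤ 1 * |p.1| := mul_le_mul_of_nonneg_right t1 (abs_nonneg _)
      _ ≤ 1 := by linarith
  have hφ : Measurable (fun ρ : ℝ => (1 + θ * p.1 * ρ) * kt r y (opl (θ * p.1) ρ)) := by
    unfold opl
    fun_prop
  have hkey : ∫ u, w1 θ (fg (ins i (p, u))) * kt r y (al1 θ (fg (ins i (p, u))))
      ∂(S.prod (Measure.pi fun _ : Fin D => J)) ≤ 1 := by
    refine le_trans (le_of_eq ?_) (hK (θ * p.1) hx)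
    rw [← law_fg hB h0 h1 t0 t1 hS hL hJL, int_map_wd _ (al1fg θ)
      (w1fg θ) ?_ hφ]
    · refine integral_congr_ae ?_
      filter_upwards [hsm] with u hu
      obtain ⟨c1, c2⟩ := w1_pos (q := fg u) h1 t0 t1 hu.1 hu.2
      obtain ⟨d1, d2⟩ := w1_ins i p u c1 (one_add_pos hx c2)
      show _ = w1 θ (fg u) * ((1 + θ * p.1 * al1 θ (fg u)) * kt r y (opl (θ * p.1) (al1 θ (fg u))))
      rw [d1, d2]
      ring
    · filter_upwards [hsm] with u hu
      exact (w1_pos (q := fg u) h1 t0 t1 hu.1 hu.2).1.le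
  have e : ∀ u : ℝ × (Fin D → ℝ × ℝ), w1 θ (fg (ins i (p, u)))
      * kt r y (al1 θ (fg (ins i (p, u))))
      * (kt r y ((ins i (p, u)).2 i).1 * ((ins i (p, u)).2 i).2)
      = w1 θ (fg (ins i (p, u))) * kt r y (al1 θ (fg (ins i (p, u))))
        * (kt r y p.1 * p.2) := by
    intro u
    rw [ins_fst]
  simp_rw [e]
  rw [integral_mul_const]
  have : 0 ≤ kt r y p.1 * p.2 := mul_nonneg (kt_pos hr).le hpb.1
  nlinarith

/-- recursion of the exponential moment -/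
lemma M_rec {θ r y l₀ B r' : ℝ} {S : Measure ℝ} (n l : ℕ)
    (hJp : IsProbabilityMeasure (jlaw θ D S r y n l)) (hD : D ≠ 0)
    (hJs : (jlaw θ D S r y n l).map (fun p => (-p.1, p.2)) = jlaw θ D S r y n l)
    (h1 : r' < 1) (t0 : 0 ≤ θ) (t1 : θ ≤ 1)
    (hr : 0 < r) (hy : 0 < y) (hS : Sym r' S) (hl0 : 0 ≤ l₀)
    (hJ1 : ∀ᵐ p ∂(jlaw θ D S r y n l), |p.1| ≤ 1)
    (hJb : ∀ᵐ p ∂(jlaw θ D S r y n l), 0 ≤ p.2 ∧ p.2 ≤ B) :
    ∫ p, Real.exp (l₀ * p.2) ∂(jlaw θ D S r y (n + 1) (l + 1))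
      = (∫ p, Real.exp (l₀ / D * (kt r y p.1 * p.2)) ∂(jlaw θ D S r y n l)) ^ D := by
  have := hS.prob
  rw [jlaw_succ]
  set J := jlaw θ D S r y n l with hJ
  have hT : Measurable (fun q : ℝ × (Fin D → ℝ × ℝ) => (al1 θ (fg q), zz r y q)) :=
    ((al1_meas θ).comp fg_meas).prodMk (zz_meas r y)
  have hkm : Measurable (kt r y) := kt_meas r y
  rw [int_map_wd _ hT (w1fg θ) ?_ (by fun_prop)]
  · rw [← prod_step (S := S) (θ := θ) (B := Real.exp (l₀ / D * (r * B))) hS.symm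
      (ae_one h1 hS) hJs hJ1 (by fun_prop) (fun p => by simp only [kt_neg]) ?_]
    · refine integral_congr_ae (ae_of_all _ fun q => ?_)
      show w1 θ (fg q) * Real.exp (l₀ * zz r y q)
        = w1 θ (fg q) * ∏ i, Real.exp (l₀ / D * (kt r y (q.2 i).1 * (q.2 i).2))
      rw [← Real.exp_sum, ← Finset.mul_sum]
      congr 2
      unfold zz
      ring
    · filter_upwards [hJb] with p hp
      rw [abs_of_pos (Real.exp_pos _)]
      refine Real.exp_le_exp.2 (mul_le_mul_of_nonneg_left ?_ (by positivity))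
      exact mul_le_mul (kt_le hr hy) hp.2 hp.1 hr.le
  · filter_upwards [ae_prod S (Measure.pi fun _ : Fin D => J) (ae_one h1 hS)
      (ae_pi J hJ1)] with q hq
    exact (w1_bd (q := fg q) t0 t1 hq.1 hq.2).1

/-- recursion of the damped mean -/
lemma mu_rec (hB : LAWB) {θ r y B r' : ℝ} {S L : Measure ℝ} (n l : ℕ)
    (hJp : IsProbabilityMeasure (jlaw θ (D + 1) S r y n l))
    (h0 : 0 ≤ r') (h1 : r' < 1) (t0 : 0 ≤ θ) (t1 : θ ≤ 1)
    (hr : 0 < r) (hy : 0 < y) (hS : Sym r' S) (hL : Sym r' L)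
    (hJL : (jlaw θ (D + 1) S r y n l).map Prod.fst = L)
    (hJb : ∀ᵐ p ∂(jlaw θ (D + 1) S r y n l), 0 ≤ p.2 ∧ p.2 ≤ B)
    (hK : ∀ x : ℝ, |x| ≤ 1 →
      ∫ ρ, (1 + x * ρ) * kt r y (opl x ρ) ∂(comb S (combN (scl θ L) D)) ≤ 1) :
    ∫ p, kt r y p.1 * p.2 ∂(jlaw θ (D + 1) S r y (n + 1) (l + 1))
      ≤ ∫ p, kt r y p.1 * p.2 ∂(jlaw θ (D + 1) S r y n l) := by
  have := hS.prob
  rw [jlaw_succ]
  set J := jlaw θ (D + 1) S r y n l with hJ
  have hJ1 : ∀ᵐ p ∂J, |p.1| ≤ 1 := by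
    have := ae_one h1 hL
    rw [← hJL] at this
    exact ae_of_ae_map measurable_fst.aemeasurable this
  have hT : Measurable (fun q : ℝ × (Fin (D + 1) → ℝ × ℝ) => (al1 θ (fg q), zz r y q)) :=
    ((al1_meas θ).comp fg_meas).prodMk (zz_meas r y)
  have hkm : Measurable (kt r y) := kt_meas r y
  rw [int_map_wd _ hT (w1fg θ) ?_ (by fun_prop)]
  · have e : ∀ q : ℝ × (Fin (D + 1) → ℝ × ℝ),
        w1 θ (fg q) * (kt r y (al1 θ (fg q)) * zz r y q)
        = (∑ i, w1 θ (fg q) * kt r y (al1 θ (fg q)) * (kt r y (q.2 i).1 * (q.2 i).2))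
          / ((D + 1 : ℕ) : ℝ) := by
      intro q
      rw [← Finset.mul_sum]
      unfold zz
      ring
    show ∫ q, w1 θ (fg q) * (kt r y (al1 θ (fg q)) * zz r y q)
      ∂(S.prod (Measure.pi fun _ : Fin (D + 1) => J)) ≤ _
    simp_rw [e]
    rw [integral_div, integral_finsetSum _
      (fun i _ => (mu_term hB h0 h1 t0 t1 hr hy hS hL hJL hJb hK i).1)]
    have hD0 : (0 : ℝ) < ((D + 1 : ℕ) : ℝ) := by positivity
    rw [div_le_iff₀ hD0]
    calc _ ≤ ∑ _i : Fin (D + 1), ∫ p, kt r y p.1 * p.2 ∂J :=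
        Finset.sum_le_sum fun i _ => (mu_term hB h0 h1 t0 t1 hr hy hS hL hJL hJb hK i).2
      _ = _ := by simp; ring
  · filter_upwards [ae_prod S (Measure.pi fun _ : Fin (D + 1) => J) (ae_one h1 hS)
      (ae_pi J hJ1)] with q hq
    exact (w1_bd (q := fg q) t0 t1 hq.1 hq.2).1

/-- numerical step -/
lemma num_step {D : ℕ} (hD : 2 ≤ D) {r : ℝ} (hr0 : 0 < r) (hr : r ≤ 11 / 10) :
    (1 + (7 / 100) / D * r + (r / D) ^ 2) ^ D ≤ 2 := by
  have hD0 : (2 : ℝ) ≤ D := by exact_mod_cast hD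
  have hD1 : (0 : ℝ) < D := by linarith
  have h1 : 1 + (7 / 100) / (D : ℝ) * r + (r / D) ^ 2
      ≤ Real.exp ((7 / 100) / D * r + (r / D) ^ 2) := by
    have := Real.add_one_le_exp ((7 / 100) / (D : ℝ) * r + (r / D) ^ 2)
    linarith
  have h2 : (1 + (7 / 100) / (D : ℝ) * r + (r / D) ^ 2) ^ D
      ≤ (Real.exp ((7 / 100) / D * r + (r / D) ^ 2)) ^ D :=
    pow_le_pow_left₀ (by positivity) h1 D
  refine h2.trans ?_
  rw [← Real.exp_nat_mul]
  have e : (D : ℝ) * ((7 / 100) / D * r + (r / D) ^ 2) = 7 / 100 * r + r ^ 2 / D := by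
    field_simp
  rw [e]
  have h3 : r ^ 2 / D ≤ (121 / 100) / 2 := by
    have : r ^ 2 ≤ 121 / 100 := by nlinarith
    exact div_le_div₀ (by norm_num) this (by norm_num) hD0
  have h4 : 7 / 100 * r + r ^ 2 / D ≤ Real.log 2 := by
    have := Real.log_two_gt_d9
    linarith
  calc Real.exp (7 / 100 * r + r ^ 2 / D) ≤ Real.exp (Real.log 2) := Real.exp_le_exp.2 h4
    _ = 2 := Real.exp_log (by norm_num)

/-- one step of the bound of the exponential moment -/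
lemma M_bd {J : Measure (ℝ × ℝ)} [IsProbabilityMeasure J] {r y B : ℝ} {D : ℕ} (hD : 2 ≤ D)
    (hr : 0 < r) (hr1 : r ≤ 11 / 10) (hy : 0 < y) (hJb : ∀ᵐ p ∂J, 0 ≤ p.2 ∧ p.2 ≤ B)
    (hM : ∫ p, Real.exp (7 / 100 * p.2) ∂J ≤ 2) (hmu : ∫ p, kt r y p.1 * p.2 ∂J ≤ r) :
    (∫ p, Real.exp ((7 / 100) / D * (kt r y p.1 * p.2)) ∂J) ^ D ≤ 2 := by
  have hD0 : (2 : ℝ) ≤ D := by exact_mod_cast hD
  have hD1 : (0 : ℝ) < D := by linarith
  have hkm : Measurable (kt r y) := kt_meas r y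
  have i1 : Integrable (fun p : ℝ × ℝ => Real.exp (7 / 100 * p.2)) J := by
    refine int_of_bd J (by fun_prop) (Real.exp (7 / 100 * B)) ?_
    filter_upwards [hJb] with p hp
    rw [abs_of_pos (Real.exp_pos _)]
    exact Real.exp_le_exp.2 (by linarith [hp.2])
  have i2 : Integrable (fun p : ℝ × ℝ => kt r y p.1 * p.2) J := by
    refine int_of_bd J (by fun_prop) (r * B) ?_
    filter_upwards [hJb] with p hp
    rw [abs_of_nonneg (mul_nonneg (kt_pos hr).le hp.1)]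
    exact mul_le_mul (kt_le hr hy) hp.2 hp.1 hr.le
  have i3 : Integrable (fun p : ℝ × ℝ => Real.exp ((7 / 100) / D * (kt r y p.1 * p.2))) J := by
    refine int_of_bd J (by fun_prop) (Real.exp ((7 / 100) / D * (r * B))) ?_
    filter_upwards [hJb] with p hp
    rw [abs_of_pos (Real.exp_pos _)]
    refine Real.exp_le_exp.2 (mul_le_mul_of_nonneg_left ?_ (by positivity))
    exact mul_le_mul (kt_le hr hy) hp.2 hp.1 hr.le
  have hle : ∫ p, Real.exp ((7 / 100) / D * (kt r y p.1 * p.2)) ∂J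
      ≤ ∫ p, (1 + (7 / 100) / D * (kt r y p.1 * p.2)
        + (r / D) ^ 2 * (Real.exp (7 / 100 * p.2) - 1)) ∂J := by
    refine integral_mono_ae i3 (((integrable_const 1).add (i2.const_mul _)).add
      ((i1.sub (integrable_const 1)).const_mul _)) ?_
    filter_upwards [hJb] with p hp
    have k0 := kt_pos (y := y) (α := p.1) hr
    have k1 := kt_le (α := p.1) hr hy
    have hX : 0 ≤ 7 / 100 * p.2 := by linarith [hp.1]
    have ht0 : 0 ≤ kt r y p.1 / D := by positivity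
    have ht1 : kt r y p.1 / D ≤ r / D := div_le_div_of_nonneg_right k1 hD1.le
    have ht2 : r / D ≤ 1 := by rw [div_le_one hD1]; linarith
    have h3 := exp_quad ht0 (ht1.trans ht2) hX
    have h4 : 0 ≤ Real.exp (7 / 100 * p.2) - 1 - 7 / 100 * p.2 := by
      linarith [Real.add_one_le_exp (7 / 100 * p.2)]
    have h5 : (kt r y p.1 / D) ^ 2 ≤ (r / D) ^ 2 := pow_le_pow_left₀ ht0 ht1 2
    have h6 := mul_le_mul_of_nonneg_right h5 h4
    have h7 : (r / D) ^ 2 * (Real.exp (7 / 100 * p.2) - 1 - 7 / 100 * p.2)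
        ≤ (r / D) ^ 2 * (Real.exp (7 / 100 * p.2) - 1) :=
      mul_le_mul_of_nonneg_left (by linarith) (by positivity)
    have e : kt r y p.1 / D * (7 / 100 * p.2) = (7 / 100) / D * (kt r y p.1 * p.2) := by ring
    rw [e] at h3
    show Real.exp ((7 / 100) / D * (kt r y p.1 * p.2)) ≤ 1 + (7 / 100) / D * (kt r y p.1 * p.2)
        + (r / D) ^ 2 * (Real.exp (7 / 100 * p.2) - 1)
    linarith
  have i4 : Integrable (fun p : ℝ × ℝ => 1 + (7 / 100) / D * (kt r y p.1 * p.2)) J :=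
    (integrable_const 1).add (i2.const_mul _)
  have i5 : Integrable (fun p : ℝ × ℝ => (r / D) ^ 2 * (Real.exp (7 / 100 * p.2) - 1)) J :=
    (i1.sub (integrable_const 1)).const_mul _
  rw [integral_add i4 i5, integral_add (integrable_const 1) (i2.const_mul _),
    integral_const_mul, integral_const_mul, integral_sub i1 (integrable_const 1)] at hle
  simp only [integral_const, probReal_univ, smul_eq_mul, mul_one] at hle
  have h8 : (7 / 100) / (D : ℝ) * ∫ p, kt r y p.1 * p.2 ∂J ≤ (7 / 100) / D * r :=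
    mul_le_mul_of_nonneg_left hmu (by positivity)
  have h9 : (r / D) ^ 2 * ((∫ p, Real.exp (7 / 100 * p.2) ∂J) - 1) ≤ (r / D) ^ 2 := by
    have := mul_le_mul_of_nonneg_left (by linarith : (∫ p, Real.exp (7 / 100 * p.2) ∂J) - 1 ≤ 1)
      (sq_nonneg (r / (D : ℝ)))
    linarith
  have h10 : 0 ≤ ∫ p, Real.exp ((7 / 100) / D * (kt r y p.1 * p.2)) ∂J :=
    integral_nonneg fun p => (Real.exp_pos _).le
  refine (pow_le_pow_left₀ h10 (hle.trans ?_) D).trans (num_step hD hr hr1)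
  linarith

lemma scl_sq (θ : ℝ) (L : Measure ℝ) : ∫ x, x ^ 2 ∂(scl θ L) = θ ^ 2 * ∫ x, x ^ 2 ∂L := by
  unfold scl
  rw [integral_map (by fun_prop) (by fun_prop), ← integral_const_mul]
  refine integral_congr_ae (ae_of_all _ fun x => ?_)
  show (θ * x) ^ 2 = θ ^ 2 * x ^ 2
  ring

end LZ

open JL LZ in
/-- LAWZ -/
theorem lawz_proof (hB : LAWB) (hJb : JLB) (hC : CVX) (hL : LAWL) (hX : LAWX) : LAWZ := by
  intro D c₁ C₁ r₁ hD hc1 hC1 h0 h1
  obtain ⟨cL, κ, hcL, hκ, HL⟩ := hL D c₁ C₁ r₁ hD hc1 hC1 h0 h1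
  obtain ⟨cX, CX, hcX, hCX, HX⟩ := hX D c₁ C₁ r₁ hD hc1 hC1 h0 h1
  have hD0 : (2 : ℝ) ≤ D := by exact_mod_cast hD
  have hD1 : (0 : ℝ) < D := by linarith
  set a : ℝ := cL / (2 * D) with ha
  set b : ℝ := 2 * CX / cX ^ 2 with hb
  have ha0 : 0 < a := by positivity
  have hb0 : 0 < b := by positivity
  set ε : ℝ := min 1 (a / b) with hε
  have e0 : 0 < ε := lt_min one_pos (by positivity)
  have e1 : ε ≤ 1 := min_le_left _ _
  have e2 : ε * b ≤ a := by
    have : ε ≤ a / b := min_le_right _ _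
    rwa [le_div_iff₀ hb0] at this
  set cc : ℝ := ε * a / 2 with hcc
  have hcc0 : 0 < cc := by positivity
  set r : ℝ := 1 + min (1 / 10) (cc / 2) with hr
  have hr1 : 1 < r := by
    have : 0 < min (1 / 10) (cc / 2) := lt_min (by norm_num) (by positivity)
    linarith
  have hr0 : 0 < r := by linarith
  have hr2 : r ≤ 11 / 10 := by
    have : min (1 / 10) (cc / 2) ≤ 1 / 10 := min_le_left _ _
    linarith
  have hr3 : r ≤ 1 + cc / 2 := by
    have : min (1 / 10) (cc / 2) ≤ cc / 2 := min_le_right _ _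
    linarith
  have hrc : r * (1 - cc / 2) ≤ 1 := by
    rcases le_total (cc / 2) 1 with h | h
    · have := mul_le_mul_of_nonneg_right hr3 (by linarith : 0 ≤ 1 - cc / 2)
      nlinarith
    · nlinarith
  refine ⟨r, 7 / 100, κ, hr1, by norm_num, hκ, ?_⟩
  intro y θ S hy hy1 hS t0 tD tD' tκ
  have t1 : θ ≤ 1 := by nlinarith
  obtain ⟨N, hN⟩ := HL y θ S hy hy1 hS t0 tD tD' tκ
  have hX' := HX y θ S hy hy1 hS t0 tD tD'
  obtain ⟨r', r0', r1', hR⟩ := hB.s_lawR D r₁ hD h0 h1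
  have hLs : ∀ n, Sym r' (lawR θ D S n) := fun n => hR θ S n t0 tD hS.sym
  set s := max r₁ r' with hs
  have s0 : 0 ≤ s := le_max_of_le_left h0
  have s1 : s < 1 := max_lt h1 r1'
  have sS : Sym s S := hB.s_mono _ _ _ (le_max_left _ _) hS.sym
  have sL : ∀ n, Sym s (lawR θ D S n) := fun n => hB.s_mono _ _ _ (le_max_right _ _) (hLs n)
  obtain ⟨k, rfl⟩ : ∃ k, D = k + 1 + 1 := ⟨D - 2, by omega⟩
  -- fourth moment
  have h4 : ∀ n, ∫ α, α ^ 4 ∂(lawR θ (k + 1 + 1) S n) ≤ b * y ^ 2 := by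
    intro n
    have i4 : Integrable (fun ρ : ℝ => ρ ^ 4) (lawR θ (k + 1 + 1) S n) :=
      hB.int_cont s _ s1 (sL n) _ (by fun_prop)
    have ie : Integrable (fun α : ℝ => Real.exp (cX * (α ^ 2 / y))) (lawR θ (k + 1 + 1) S n) :=
      hB.int_cont s _ s1 (sL n) _ (by fun_prop)
    have h5 : ∫ α, cX ^ 2 / (2 * y ^ 2) * α ^ 4 ∂(lawR θ (k + 1 + 1) S n)
        ≤ ∫ α, Real.exp (cX * (α ^ 2 / y)) ∂(lawR θ (k + 1 + 1) S n) := by
      refine integral_mono_ae (i4.const_mul _) ie (ae_of_all _ fun α => ?_)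
      have hu : 0 ≤ cX * (α ^ 2 / y) := by positivity
      have := Real.quadratic_le_exp_of_nonneg hu
      have e : cX ^ 2 / (2 * y ^ 2) * α ^ 4 = (cX * (α ^ 2 / y)) ^ 2 / 2 := by
        field_simp
      show cX ^ 2 / (2 * y ^ 2) * α ^ 4 ≤ Real.exp (cX * (α ^ 2 / y))
      rw [e]; linarith
    rw [integral_const_mul] at h5
    have h6 := h5.trans (hX' n)
    rw [div_mul_eq_mul_div, div_le_iff₀ (by positivity)] at h6
    rw [hb, div_mul_eq_mul_div, le_div_iff₀ (by positivity)]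
    linarith
  -- the damping bound
  have hK : ∀ n, N ≤ n → ∀ x : ℝ, |x| ≤ 1 → ∫ ρ, (1 + x * ρ) * kt r y (opl x ρ)
      ∂(comb S (combN (scl θ (lawR θ (k + 1 + 1) S n)) (k + 1))) ≤ 1 := by
    intro n hn x hx
    have sc : Sym s (scl θ (lawR θ (k + 1 + 1) S n)) :=
      hB.s_mono _ _ _ (by nlinarith) (hB.s_scl θ s _ t0 (sL n))
    obtain ⟨s', s0', s1', hs'⟩ := hB.s_combN s (k + 1) s0 s1
    have sN := hs' _ sc
    have sν := hB.s_comb s s' S _ s0 s0' s1 s1' sS sN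
    have hlt : opl s s' < 1 := by
      unfold opl
      rw [div_lt_one (by positivity)]
      nlinarith
    obtain ⟨x1, x2⟩ := cx_nu hB hC s0 s1 sS sc k
    have m2 : a * y ≤ ∫ ρ, ρ ^ 2
        ∂(comb S (combN (scl θ (lawR θ (k + 1 + 1) S n)) (k + 1))) := by
      have c2 := x1 (fun x => x ^ 2) (by fun_prop)
        ((Even.convexOn_pow (𝕜 := ℝ) (n := 2) (by decide)).subset (subset_univ _)
          (convex_Ioo _ _))
      · have h7 : ∫ x, x ^ 2 ∂(scl θ (lawR θ (k + 1 + 1) S n))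
            ≤ ∫ x, x ^ 2 ∂(comb S (combN (scl θ (lawR θ (k + 1 + 1) S n)) (k + 1))) := c2
        rw [scl_sq] at h7
        refine le_trans ?_ h7
        have h8 := hN n hn
        have h9 : 1 / (2 * ((k + 1 + 1 : ℕ) : ℝ)) ≤ θ ^ 2 := by
          rw [div_le_iff₀ (by positivity)]
          linarith
        have h10 : a * y = 1 / (2 * ((k + 1 + 1 : ℕ) : ℝ)) * (cL * y) := by rw [ha]; ring
        rw [h10]
        exact mul_le_mul h9 h8 (by positivity) (sq_nonneg θ)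
    have m4 : ∫ ρ, ρ ^ 4 ∂(comb S (combN (scl θ (lawR θ (k + 1 + 1) S n)) (k + 1)))
        ≤ b * y ^ 2 := by
      have c4 := x2 (fun x => x ^ 4) (by fun_prop)
        ((Even.convexOn_pow (𝕜 := ℝ) (n := 4) (by decide)).subset (subset_univ _)
          (convex_Ioo _ _))
      exact le_trans c4 (h4 (n + 1))
    exact K_le hB hlt sν hy hx hr0
      (damp_ge hB hlt sν hy m2 m4 e0.le e1 e2) hrc
  -- induction
  have hmain : ∀ l n : ℕ, N + l ≤ n →
      ∫ p, Real.exp (7 / 100 * p.2) ∂(jlaw θ (k + 1 + 1) S r y n l) ≤ 2 ∧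
      ∫ p, kt r y p.1 * p.2 ∂(jlaw θ (k + 1 + 1) S r y n l) ≤ r := by
    intro l
    induction l with
    | zero =>
      intro n _
      obtain ⟨j1, j2, j3, j4⟩ := hJb (k + 1 + 1) θ r₁ r y S hD t0 tD h0 h1 hS.sym hr0 hy 0 n
        (Nat.zero_le _)
      have hkm : Measurable (kt r y) := kt_meas r y
      have := (sL n).prob
      have hm : Measurable (fun α : ℝ => (α, (1 : ℝ))) := by fun_prop
      rw [jlaw_zero, integral_map hm.aemeasurable
        (Measurable.aestronglyMeasurable (by fun_prop)), integral_map hm.aemeasurable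
        (Measurable.aestronglyMeasurable (by fun_prop))]
      constructor
      · simp only [mul_one, integral_const, probReal_univ, smul_eq_mul, one_mul]
        have h4 : (7 / 100 : ℝ) ≤ Real.log 2 := by
          have := Real.log_two_gt_d9
          linarith
        calc Real.exp (7 / 100) ≤ Real.exp (Real.log 2) := Real.exp_le_exp.2 h4
          _ = 2 := Real.exp_log (by norm_num)
      · have : ∫ α, kt r y α * 1 ∂(lawR θ (k + 1 + 1) S n)
            ≤ ∫ _α, r ∂(lawR θ (k + 1 + 1) S n) := by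
          refine integral_mono_ae ?_ (integrable_const r) (ae_of_all _ fun α => ?_)
          · refine int_of_bd _ (by fun_prop) r (ae_of_all _ fun α => ?_)
            rw [mul_one, abs_of_pos (kt_pos hr0)]
            exact kt_le hr0 hy
          · show kt r y α * 1 ≤ r
            rw [mul_one]; exact kt_le hr0 hy
        simpa using this
    | succ l ih =>
      intro n hn
      obtain ⟨m, rfl⟩ : ∃ m, n = m + 1 := ⟨n - 1, by omega⟩
      obtain ⟨i1, i2⟩ := ih m (by omega)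
      obtain ⟨j1, j2, j3, j4⟩ := hJb (k + 1 + 1) θ r₁ r y S hD t0 tD h0 h1 hS.sym hr0 hy l m
        (by omega)
      have hJ1 : ∀ᵐ p ∂(jlaw θ (k + 1 + 1) S r y m l), |p.1| ≤ 1 := by
        have := ae_one s1 (sL m)
        rw [← j2] at this
        exact ae_of_ae_map measurable_fst.aemeasurable this
      constructor
      · rw [M_rec m l j1 (by omega) j3 s1 t0 t1 hr0 hy sS (by norm_num) hJ1 j4]
        exact M_bd hD hr0 hr2 hy j4 i1 i2
      · exact (mu_rec hB m l j1 s0 s1 t0 t1 hr0 hy sS (sL m) j2 j4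
          (hK m (by omega))).trans i2
  intro l
  exact ⟨N + l, fun n hn => (hmain l n hn).1⟩

end P161C
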