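import Vale.Agent.P161C.Base

/-!
# P161 at the critical point: LIM, the infinite volume limit
-/

open MeasureTheory Set Filter Topology

namespace P161C

open P161

universe u

variable {V : Type u} {G : SimpleGraph V} {θ : ℝ} {μ : Measure (V → Bool)}

/-- squared difference of the processes in two volumes -/
noncomputable def Dt (μ : Measure (V → Bool)) (Λ Λ' : Finset V) (k : ℕ) (τ : ℝ) (v : V) : ℝ :=
  ∫ ω, (mk μ Λ k τ v ω - mk μ Λ' k τ v ω) ^ 2 ∂(Pm V)

section cvd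

variable [Countable V] [G.LocallyFinite] {D : ℕ}

omit [Countable V] in
theorem int_of_bdd {f : Om V → ℝ} (hf : Measurable f) {B : ℝ} (hb : ∀ ω, |f ω| ≤ B) :
    Integrable f (Pm V) :=
  Integrable.of_bound hf.aestronglyMeasurable B (Filter.Eventually.of_forall hb)

theorem ck_abs (hS : STT.{u}) (hE : Env G D) (hI : Isg G D θ μ) (Λ : Finset V) (k : ℕ) (τ : ℝ)
    (v w : V) (ω : Om V) : |ck μ Λ k τ v w ω| ≤ θ ^ (G.dist v w) := by
  have := hI.ising.isProb
  have h2 : (2 : ℝ) ≤ D := by exact_mod_cast hE.hD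
  have hθ1 : θ < 1 := by nlinarith [hI.h1, hI.h0, sq_nonneg θ]
  exact ((hS V G D θ μ hE hI Λ k).1 τ ω).cov_bounds hE.tree hI.ising hI.h0 hθ1 _ v w rfl

theorem Dt_le (hS : STT.{u}) (hE : Env G D) (hI : Isg G D θ μ) (Λ Λ' : Finset V) (k : ℕ)
    (τ : ℝ) (v : V) : Dt μ Λ Λ' k τ v ≤ 4 := by
  have s1 := hS V G D θ μ hE hI Λ k
  have s2 := hS V G D θ μ hE hI Λ' k
  have b1 := s1.2.2.2.2.2.1 τ v
  have b2 := s2.2.2.2.2.2.1 τ v
  have m1 := s1.2.2.2.1 τ v
  have m2 := s2.2.2.2.1 τ v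
  have hb : ∀ ω, |(mk μ Λ k τ v ω - mk μ Λ' k τ v ω) ^ 2| ≤ 4 := by
    intro ω
    rw [abs_pow]
    have : |mk μ Λ k τ v ω - mk μ Λ' k τ v ω| ≤ 2 := (abs_sub _ _).trans (by linarith [b1 ω, b2 ω])
    calc |mk μ Λ k τ v ω - mk μ Λ' k τ v ω| ^ 2 ≤ 2 ^ 2 := pow_le_pow_left₀ (abs_nonneg _) this 2
      _ = 4 := by norm_num
  calc Dt μ Λ Λ' k τ v ≤ ∫ _, (4 : ℝ) ∂(Pm V) :=
        integral_mono (int_of_bdd ((m1.sub m2).pow_const 2) hb) (integrable_const _)
          fun ω => (le_abs_self _).trans (hb ω)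
    _ = 4 := by simp

/-- integrated comparison of covariances -/
theorem ck_diff_int (hS : STT.{u}) (hE : Env G D) (hI : Isg G D θ μ)
    (h1 : θ ^ 2 < 1 / 2) {t s r K : ℝ} (ht : 1 < t) (hr : 0 < r)
    (hs : t * t * θ ^ 2 ≤ s * r) (hs1 : s < 1) (hK4 : 4 ≤ K)
    (hK : Cst θ t * (1 + t) ≤ (1 - s) * K)
    {Ψ : V → ℝ} (hΨ : ∀ v, 0 < Ψ v) (hΨt : ∀ v w, G.Adj v w → Ψ w ≤ t * Ψ v)
    (Λ Λ' : Finset V) (k : ℕ) (τ : ℝ) {X : ℝ} (hX : 0 ≤ X)
    (hD : ∀ w, Dt μ Λ Λ' k τ w ≤ X * Ψ w) :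
    ∀ (n : ℕ) (v w : V), G.dist v w = n →
      ∫ ω, (ck μ Λ k τ v w ω - ck μ Λ' k τ v w ω) ^ 2 ∂(Pm V) ≤ K * r ^ n * (X * Ψ v) := by
  have := hI.ising.isProb
  have hG := hE.tree
  have hθr : θ ^ 2 ≤ r := by
    have htt : 1 ≤ t * t := by nlinarith
    have : θ ^ 2 ≤ t * t * θ ^ 2 := le_mul_of_one_le_left (sq_nonneg θ) htt
    nlinarith
  have s1 := hS V G D θ μ hE hI Λ k
  have s2 := hS V G D θ μ hE hI Λ' k
  have im : ∀ v, Integrable (fun ω => (mk μ Λ k τ v ω - mk μ Λ' k τ v ω) ^ 2) (Pm V) := by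
    intro v
    refine int_of_bdd (((s1.2.2.2.1 τ v).sub (s2.2.2.2.1 τ v)).pow_const 2) (B := 4) fun ω => ?_
    rw [abs_pow]
    have : |mk μ Λ k τ v ω - mk μ Λ' k τ v ω| ≤ 2 :=
      (abs_sub _ _).trans (by linarith [s1.2.2.2.2.2.1 τ v ω, s2.2.2.2.2.2.1 τ v ω])
    calc |mk μ Λ k τ v ω - mk μ Λ' k τ v ω| ^ 2 ≤ 2 ^ 2 := pow_le_pow_left₀ (abs_nonneg _) this 2
      _ = 4 := by norm_num
  have ic : ∀ v w, Integrable (fun ω => (ck μ Λ k τ v w ω - ck μ Λ' k τ v w ω) ^ 2) (Pm V) := by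
    intro v w
    have h2 : (2 : ℝ) ≤ D := by exact_mod_cast hE.hD
    have hθ1 : θ < 1 := by nlinarith [hI.h1, hI.h0, sq_nonneg θ]
    have hp : θ ^ (G.dist v w) ≤ 1 := pow_le_one₀ hI.h0 hθ1.le
    refine int_of_bdd (((s1.2.2.2.2.1 τ v w).sub (s2.2.2.2.2.1 τ v w)).pow_const 2) (B := 4)
      fun ω => ?_
    rw [abs_pow]
    have : |ck μ Λ k τ v w ω - ck μ Λ' k τ v w ω| ≤ 2 :=
      (abs_sub _ _).trans (by
        linarith [ck_abs hS hE hI Λ k τ v w ω, ck_abs hS hE hI Λ' k τ v w ω])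
    calc |ck μ Λ k τ v w ω - ck μ Λ' k τ v w ω| ^ 2 ≤ 2 ^ 2 :=
          pow_le_pow_left₀ (abs_nonneg _) this 2
      _ = 4 := by norm_num
  intro n
  induction n with
  | zero =>
      intro v w hvw
      have : v = w := (hG.connected v w).dist_eq_zero_iff.1 hvw
      subst this
      rw [pow_zero, mul_one]
      calc ∫ ω, (ck μ Λ k τ v v ω - ck μ Λ' k τ v v ω) ^ 2 ∂(Pm V)
          ≤ ∫ ω, 4 * (mk μ Λ k τ v ω - mk μ Λ' k τ v ω) ^ 2 ∂(Pm V) := by
            refine integral_mono (ic v v) ((im v).const_mul 4) fun ω => ?_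
            simp only
            have e1 : ck μ Λ k τ v v ω = 1 - mk μ Λ k τ v ω ^ 2 := cov_self (s1.1 τ ω) v
            have e2 : ck μ Λ' k τ v v ω = 1 - mk μ Λ' k τ v ω ^ 2 := cov_self (s2.1 τ ω) v
            rw [e1, e2]
            have b1 := abs_le.1 (s1.2.2.2.2.2.1 τ v ω)
            have b2 := abs_le.1 (s2.2.2.2.2.2.1 τ v ω)
            have : (1 - mk μ Λ k τ v ω ^ 2 - (1 - mk μ Λ' k τ v ω ^ 2)) ^ 2
                = (mk μ Λ k τ v ω + mk μ Λ' k τ v ω) ^ 2
                  * (mk μ Λ k τ v ω - mk μ Λ' k τ v ω) ^ 2 := by ring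
            rw [this]
            apply mul_le_mul_of_nonneg_right _ (sq_nonneg _)
            nlinarith
        _ = 4 * Dt μ Λ Λ' k τ v := integral_const_mul _ _
        _ ≤ 4 * (X * Ψ v) := by gcongr; exact hD v
        _ ≤ K * (X * Ψ v) := by
            apply mul_le_mul_of_nonneg_right hK4 (mul_nonneg hX (hΨ v).le)
  | succ n ih =>
      intro v w hvw
      have hne : v ≠ w := by
        rintro rfl
        simp at hvw
      obtain ⟨z, hz, hzd⟩ := exists_next hG.connected hne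
      have hzw : G.dist z w = n := by omega
      have ht0 : 0 < t := by linarith
      have hC := Cst_nonneg (θ := θ) ht
      calc ∫ ω, (ck μ Λ k τ v w ω - ck μ Λ' k τ v w ω) ^ 2 ∂(Pm V)
          ≤ ∫ ω, (t * θ ^ 2 * (ck μ Λ k τ z w ω - ck μ Λ' k τ z w ω) ^ 2
              + Cst θ t * (θ ^ 2) ^ (G.dist v w) *
              ((mk μ Λ k τ v ω - mk μ Λ' k τ v ω) ^ 2
                + (mk μ Λ k τ z ω - mk μ Λ' k τ z ω) ^ 2)) ∂(Pm V) := by
            refine integral_mono (ic v w)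
              (((ic z w).const_mul _).add (((im v).add (im z)).const_mul _)) fun ω => ?_
            exact (s1.1 τ ω).cov_diff hG hI.ising hI.h0 h1 (s2.1 τ ω) ht hz hzd
        _ = t * θ ^ 2 * ∫ ω, (ck μ Λ k τ z w ω - ck μ Λ' k τ z w ω) ^ 2 ∂(Pm V)
              + Cst θ t * (θ ^ 2) ^ (G.dist v w) * (Dt μ Λ Λ' k τ v + Dt μ Λ Λ' k τ z) := by
            have a1 : Integrable (fun ω => t * θ ^ 2 *
              (ck μ Λ k τ z w ω - ck μ Λ' k τ z w ω) ^ 2) (Pm V) := (ic z w).const_mul _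
            have a2 : Integrable (fun ω => (mk μ Λ k τ v ω - mk μ Λ' k τ v ω) ^ 2
                + (mk μ Λ k τ z ω - mk μ Λ' k τ z ω) ^ 2) (Pm V) := (im v).add (im z)
            rw [integral_add a1 (a2.const_mul _), integral_const_mul, integral_const_mul,
              integral_add (im v) (im z)]
            rfl
        _ ≤ t * θ ^ 2 * (K * r ^ n * (X * Ψ z))
              + Cst θ t * (θ ^ 2) ^ (n + 1) * (X * Ψ v + X * Ψ z) := by
            rw [hvw]
            gcongr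
            · exact ih z w hzw
            · exact hD v
            · exact hD z
        _ ≤ t * θ ^ 2 * (K * r ^ n * (X * (t * Ψ v)))
              + Cst θ t * r ^ (n + 1) * (X * Ψ v + X * (t * Ψ v)) := by
            have := hΨt v z hz
            have hK0 : 0 ≤ K := by linarith
            have hΨv := (hΨ v).le
            have hΨz := (hΨ z).le
            gcongr
        _ = (t * t * θ ^ 2 * K + Cst θ t * (1 + t) * r) * r ^ n * (X * Ψ v) := by ring
        _ ≤ (s * r * K + (1 - s) * K * r) * r ^ n * (X * Ψ v) := by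
            have hK0 : 0 ≤ K := by linarith
            have hΨv := (hΨ v).le
            gcongr
        _ = K * r ^ (n + 1) * (X * Ψ v) := by ring

/-- numerical hypotheses -/
structure Nu (G : SimpleGraph V) (θ t s r K S : ℝ) : Prop where
  θ1 : θ ^ 2 < 1 / 2
  ht : 1 < t
  hr : 0 < r
  hs : t * t * θ ^ 2 ≤ s * r
  hs1 : s < 1
  hK4 : 4 ≤ K
  hK : Cst θ t * (1 + t) ≤ (1 - s) * K
  hS : ∀ (v : V) (F : Finset V), ∑ w ∈ F, r ^ (G.dist v w) ≤ S

omit [Countable V] in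
theorem exists_nu (hE : Env G D) (h1 : θ ^ 2 * D < 1) : ∃ t s r K S : ℝ, Nu G θ t s r K S := by
  have hD2 : (2 : ℝ) ≤ D := by exact_mod_cast hE.hD
  have hD : (0 : ℝ) < D := by linarith
  have hθ2 : θ ^ 2 < 1 / (D : ℝ) := by rw [lt_div_iff₀ hD]; exact h1
  set r := (θ ^ 2 + 1 / (D : ℝ)) / 2 with hr
  have hr1 : θ ^ 2 < r := by rw [hr]; linarith
  have hr2 : r < 1 / (D : ℝ) := by rw [hr]; linarith
  have hr0 : 0 < r := lt_of_le_of_lt (sq_nonneg θ) hr1
  have hrD : r * (((D + 1 : ℕ) : ℝ) - 1) < 1 := by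
    push_cast
    rw [add_sub_cancel_right]
    rwa [lt_div_iff₀ hD] at hr2
  set q := θ ^ 2 / r with hq
  have hq0 : 0 ≤ q := by positivity
  have hq1 : q < 1 := by rw [hq, div_lt_one hr0]; exact hr1
  set t := 1 + (1 - q) / 4 with ht
  have ht1 : 1 < t := by rw [ht]; linarith
  set s := t * t * q with hs
  have hs1 : s < 1 := by
    rw [hs, ht]
    nlinarith [mul_nonneg hq0 (sq_nonneg (1 - q)), mul_pos (sub_pos.2 hq1) (sub_pos.2 hq1)]
  obtain ⟨S, hS0, hS⟩ := sum_pow_dist_le (G := G) hE.tree.connected hE.reg hr0.le hrD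
  set K := max 4 (Cst θ t * (1 + t) / (1 - s)) with hK
  have hKC : Cst θ t * (1 + t) ≤ (1 - s) * K := by
    have h2 : Cst θ t * (1 + t) / (1 - s) ≤ K := le_max_right _ _
    rw [div_le_iff₀ (by linarith)] at h2
    linarith
  refine ⟨t, s, r, K, S, ?_, ht1, hr0, ?_, hs1, le_max_left _ _, hKC, hS⟩
  · have : 1 / (D : ℝ) ≤ 1 / 2 := one_div_le_one_div_of_le (by norm_num) hD2
    linarith
  · rw [hs, hq]
    rw [mul_assoc (t * t), div_mul_cancel₀ _ hr0.ne']

omit [Countable V] [G.LocallyFinite] in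
theorem psi_dist (hG : G.IsTree) {t : ℝ} (ht : 1 < t) {Ψ : V → ℝ}
    (hΨt : ∀ v w, G.Adj v w → Ψ w ≤ t * Ψ v) :
    ∀ (n : ℕ) (v w : V), G.dist v w = n → Ψ w ≤ t ^ n * Ψ v := by
  intro n
  induction n with
  | zero =>
    intro v w hvw
    have : v = w := (hG.connected v w).dist_eq_zero_iff.1 hvw
    subst this
    simp
  | succ n ih =>
    intro v w hvw
    have hne : v ≠ w := by
      rintro rfl
      simp at hvw
    obtain ⟨z, hz, hzd⟩ := exists_next hG.connected hne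
    have h1 := ih z w (by omega)
    have h2 := hΨt v z hz
    have ht0 : 0 ≤ t ^ n := by positivity
    calc Ψ w ≤ t ^ n * Ψ z := h1
      _ ≤ t ^ n * (t * Ψ v) := mul_le_mul_of_nonneg_left h2 ht0
      _ = t ^ (n + 1) * Ψ v := by ring

theorem jump_sq_le (hC : CHAN) {a C C' m m' x c : ℝ} (ha : 0 ≤ a) (ha' : a ≤ 1 / 8)
    (hc : |C'| ≤ c) (hm : |m| ≤ 1) (hm' : |m'| ≤ 1) (h0 : 0 ≤ x) (h1 : x ≤ 1) :
    (C * Ig a m x - C' * Ig a m' x) ^ 2 ≤ (C - C') ^ 2 + c ^ 2 * (m - m') ^ 2 := by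
  have i1 : |Ig a m x| ≤ 1 / 4 := (hC.Ig_le a m x ha ha' hm h0 h1).trans (by linarith)
  have i2 : |Ig a m x - Ig a m' x| ≤ 1 / 8 * |m - m'| := by
    refine (hC.Ig_lip a m m' x ha ha' hm hm' h0 h1).trans ?_
    apply mul_le_mul_of_nonneg_right _ (abs_nonneg _)
    nlinarith
  have j1 : (Ig a m x) ^ 2 ≤ 1 / 4 := by
    rw [← sq_abs]; nlinarith [abs_nonneg (Ig a m x)]
  have j2 : (Ig a m x - Ig a m' x) ^ 2 ≤ 1 / 4 * (m - m') ^ 2 := by
    rw [← sq_abs, ← sq_abs (m - m')]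
    nlinarith [abs_nonneg (Ig a m x - Ig a m' x), abs_nonneg (m - m')]
  have j3 : C' ^ 2 ≤ c ^ 2 := by rw [← sq_abs]; exact pow_le_pow_left₀ (abs_nonneg _) hc 2
  have e : C * Ig a m x - C' * Ig a m' x
      = (C - C') * Ig a m x + C' * (Ig a m x - Ig a m' x) := by ring
  rw [e]
  have k1 : ((C - C') * Ig a m x) ^ 2 ≤ 1 / 4 * (C - C') ^ 2 := by
    rw [mul_pow]; nlinarith [sq_nonneg (C - C')]
  have k2 : (C' * (Ig a m x - Ig a m' x)) ^ 2 ≤ 1 / 4 * (c ^ 2 * (m - m') ^ 2) := by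
    rw [mul_pow]
    calc C' ^ 2 * (Ig a m x - Ig a m' x) ^ 2 ≤ c ^ 2 * (1 / 4 * (m - m') ^ 2) :=
          mul_le_mul j3 j2 (sq_nonneg _) (sq_nonneg _)
      _ = _ := by ring
  nlinarith [sq_nonneg ((C - C') * Ig a m x - C' * (Ig a m x - Ig a m' x)),
    mul_nonneg (sq_nonneg c) (sq_nonneg (m - m')), sq_nonneg (C - C')]

open Classical in
theorem incr (hC : CHAN) (hS : STT.{u}) (hSt : STAR.{u}) (hM : STARM.{u}) (hE : Env G D)
    (hI : Isg G D θ μ) {t s r K S : ℝ} (hN : Nu G θ t s r K S)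
    {Ψ : V → ℝ} (hΨ : ∀ v, 0 < Ψ v) (hΨt : ∀ v w, G.Adj v w → Ψ w ≤ t * Ψ v)
    {Λ Λ' : Finset V} (hΛ : Λ ⊆ Λ')
    (hp : ∀ v w, w ∉ Λ → (θ ^ 2) ^ (G.dist v w) ≤ r ^ (G.dist v w) * Ψ v)
    (k : ℕ) {j : ℤ} {t₁ t₂ : ℝ} (hj : (j : ℝ) ≤ t₁) (h12 : t₁ ≤ t₂) (hj2 : t₂ ≤ j + 1 / 2)
    {X : ℝ} (hX : 0 ≤ X) (hD : ∀ w, Dt μ Λ Λ' k t₂ w ≤ X * Ψ w) (v : V) :
    Dt μ Λ Λ' k t₂ v ≤ Dt μ Λ Λ' k t₁ v
      + 2 * (t₂ - t₁) * (S * ((K + 1) * X + 1)) * Ψ v := by
  have hst := hSt V G D θ θ μ μ hE hI hI Λ Λ' k k v j t₁ t₂ hj h12 hj2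
  have hK0 : 0 ≤ K := by linarith [hN.hK4]
  have hr0 := hN.hr.le
  have hΨv := (hΨ v).le
  have hS0 : 0 ≤ S := le_trans (by simp) (hN.hS v ∅)
  set c := (K + 1) * X + 1 with hc
  have hc0 : 0 ≤ c := by positivity
  have hterm : ∀ τ ∈ Set.uIoc t₁ t₂, ‖∑ w ∈ Λ ∪ Λ', ∫ ω, (∫ x : unitInterval,
        ((if w ∈ Λ ∧ -(k : ℤ) ≤ j then
            ck μ Λ k τ v w ω * Ig (amp j) (mk μ Λ k τ w ω) x else 0)
          - (if w ∈ Λ' ∧ -(k : ℤ) ≤ j then
            ck μ Λ' k τ v w ω * Ig (amp j) (mk μ Λ' k τ w ω) x else 0)) ^ 2) ∂(Pm V)‖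
      ≤ S * c * Ψ v := by
    intro τ hτ
    rw [uIoc_of_le h12] at hτ
    have hDτ : ∀ w, Dt μ Λ Λ' k τ w ≤ X * Ψ w := fun w =>
      ((hM V G D θ θ μ μ hE hI hI Λ Λ' k k w τ t₂ hτ.2).1).trans (hD w)
    have s1 := hS V G D θ μ hE hI Λ k
    have s2 := hS V G D θ μ hE hI Λ' k
    have hone : ∀ w ∈ Λ ∪ Λ', ∫ ω, (∫ x : unitInterval,
        ((if w ∈ Λ ∧ -(k : ℤ) ≤ j then
            ck μ Λ k τ v w ω * Ig (amp j) (mk μ Λ k τ w ω) x else 0)
          - (if w ∈ Λ' ∧ -(k : ℤ) ≤ j then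
            ck μ Λ' k τ v w ω * Ig (amp j) (mk μ Λ' k τ w ω) x else 0)) ^ 2) ∂(Pm V)
        ≤ c * Ψ v * r ^ (G.dist v w) := by
      intro w hw
      have hw' : w ∈ Λ' := by
        rcases Finset.mem_union.1 hw with h | h
        · exact hΛ h
        · exact h
      have hcr : 0 ≤ c * Ψ v * r ^ (G.dist v w) := by positivity
      by_cases hkj : -(k : ℤ) ≤ j
      · by_cases hwΛ : w ∈ Λ
        · simp only [hwΛ, hw', hkj, and_self, if_true]
          have him : Integrable (fun ω => (mk μ Λ k τ w ω - mk μ Λ' k τ w ω) ^ 2) (Pm V) := by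
            refine int_of_bdd (((s1.2.2.2.1 τ w).sub (s2.2.2.2.1 τ w)).pow_const 2)
              (B := 4) fun ω => ?_
            rw [abs_pow]
            have : |mk μ Λ k τ w ω - mk μ Λ' k τ w ω| ≤ 2 :=
              (abs_sub _ _).trans (by linarith [s1.2.2.2.2.2.1 τ w ω, s2.2.2.2.2.2.1 τ w ω])
            calc |mk μ Λ k τ w ω - mk μ Λ' k τ w ω| ^ 2 ≤ 2 ^ 2 :=
                  pow_le_pow_left₀ (abs_nonneg _) this 2
              _ = 4 := by norm_num
          have hic : Integrable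
              (fun ω => (ck μ Λ k τ v w ω - ck μ Λ' k τ v w ω) ^ 2) (Pm V) := by
            have h2 : (2 : ℝ) ≤ D := by exact_mod_cast hE.hD
            have hθ1 : θ < 1 := by nlinarith [hI.h1, hI.h0, sq_nonneg θ]
            have hp1 : θ ^ (G.dist v w) ≤ 1 := pow_le_one₀ hI.h0 hθ1.le
            refine int_of_bdd (((s1.2.2.2.2.1 τ v w).sub (s2.2.2.2.2.1 τ v w)).pow_const 2)
              (B := 4) fun ω => ?_
            rw [abs_pow]
            have : |ck μ Λ k τ v w ω - ck μ Λ' k τ v w ω| ≤ 2 :=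
              (abs_sub _ _).trans (by
                linarith [ck_abs hS hE hI Λ k τ v w ω, ck_abs hS hE hI Λ' k τ v w ω])
            calc |ck μ Λ k τ v w ω - ck μ Λ' k τ v w ω| ^ 2 ≤ 2 ^ 2 :=
                  pow_le_pow_left₀ (abs_nonneg _) this 2
              _ = 4 := by norm_num
          have hptw : ∀ ω, (∫ x : unitInterval,
              (ck μ Λ k τ v w ω * Ig (amp j) (mk μ Λ k τ w ω) x
                - ck μ Λ' k τ v w ω * Ig (amp j) (mk μ Λ' k τ w ω) x) ^ 2)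
              ≤ (ck μ Λ k τ v w ω - ck μ Λ' k τ v w ω) ^ 2
                + (θ ^ (G.dist v w)) ^ 2 * (mk μ Λ k τ w ω - mk μ Λ' k τ w ω) ^ 2 := by
            intro ω
            set B := (ck μ Λ k τ v w ω - ck μ Λ' k τ v w ω) ^ 2
                + (θ ^ (G.dist v w)) ^ 2 * (mk μ Λ k τ w ω - mk μ Λ' k τ w ω) ^ 2
            have hB0 : 0 ≤ B := by positivity
            have := norm_integral_le_of_norm_le_const (μ := (volume : Measure unitInterval))
              (f := fun x : unitInterval => (ck μ Λ k τ v w ω * Ig (amp j) (mk μ Λ k τ w ω) x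
                - ck μ Λ' k τ v w ω * Ig (amp j) (mk μ Λ' k τ w ω) x) ^ 2) (C := B)
              (Filter.Eventually.of_forall fun x => by
                rw [Real.norm_eq_abs, abs_of_nonneg (sq_nonneg _)]
                exact jump_sq_le hC (amp_pos j).le (amp_le j) (ck_abs hS hE hI Λ' k τ v w ω)
                  (s1.2.2.2.2.2.1 τ w ω) (s2.2.2.2.2.2.1 τ w ω) x.2.1 x.2.2)
            rw [Real.norm_eq_abs] at this
            exact (le_abs_self _).trans (by simpa using this)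
          calc _ ≤ ∫ ω, ((ck μ Λ k τ v w ω - ck μ Λ' k τ v w ω) ^ 2
                + (θ ^ (G.dist v w)) ^ 2 * (mk μ Λ k τ w ω - mk μ Λ' k τ w ω) ^ 2) ∂(Pm V) := by
                refine integral_mono_of_nonneg (Filter.Eventually.of_forall fun ω =>
                  integral_nonneg fun x => sq_nonneg _) (hic.add (him.const_mul _))
                  (Filter.Eventually.of_forall hptw)
            _ = ∫ ω, (ck μ Λ k τ v w ω - ck μ Λ' k τ v w ω) ^ 2 ∂(Pm V)
                + (θ ^ (G.dist v w)) ^ 2 * Dt μ Λ Λ' k τ w := by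
                rw [integral_add hic (him.const_mul _), integral_const_mul]
                rfl
            _ ≤ K * r ^ (G.dist v w) * (X * Ψ v)
                + (θ ^ (G.dist v w)) ^ 2 * (X * (t ^ (G.dist v w) * Ψ v)) := by
                gcongr
                · exact ck_diff_int hS hE hI hN.θ1 hN.ht hN.hr hN.hs hN.hs1 hN.hK4 hN.hK hΨ hΨt
                    Λ Λ' k τ hX hDτ _ v w rfl
                · refine (hDτ w).trans ?_
                  exact mul_le_mul_of_nonneg_left (psi_dist hE.tree hN.ht hΨt _ v w rfl) hX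
            _ ≤ K * r ^ (G.dist v w) * (X * Ψ v) + r ^ (G.dist v w) * (X * Ψ v) := by
                have h3 : (θ ^ (G.dist v w)) ^ 2 * t ^ (G.dist v w) ≤ r ^ (G.dist v w) := by
                  rw [← pow_mul, mul_comm (G.dist v w) 2, pow_mul, ← mul_pow]
                  have ht0 : 0 < t := by linarith [hN.ht]
                  refine pow_le_pow_left₀ (by positivity) ?_ _
                  have h4 : t * θ ^ 2 ≤ t * t * θ ^ 2 := by
                    have : t ≤ t * t := by nlinarith [hN.ht]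
                    exact mul_le_mul_of_nonneg_right this (sq_nonneg _)
                  have h5 : s * r ≤ r := by nlinarith [hN.hs1, hN.hr]
                  linarith [hN.hs]
                have h6 : 0 ≤ X * Ψ v := by positivity
                have h7 := mul_le_mul_of_nonneg_right h3 h6
                have h8 : (θ ^ (G.dist v w)) ^ 2 * (X * (t ^ (G.dist v w) * Ψ v))
                    = (θ ^ (G.dist v w)) ^ 2 * t ^ (G.dist v w) * (X * Ψ v) := by ring
                rw [h8]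
                linarith
            _ ≤ c * Ψ v * r ^ (G.dist v w) := by
                rw [hc]
                have : 0 ≤ Ψ v * r ^ (G.dist v w) := by positivity
                nlinarith
        · simp only [hwΛ, hw', hkj, and_true, if_false, if_true]
          have hptw : ∀ ω, (∫ x : unitInterval,
              (0 - ck μ Λ' k τ v w ω * Ig (amp j) (mk μ Λ' k τ w ω) x) ^ 2)
              ≤ (θ ^ 2) ^ (G.dist v w) := by
            intro ω
            have := norm_integral_le_of_norm_le_const (μ := (volume : Measure unitInterval))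
              (f := fun x : unitInterval =>
                (0 - ck μ Λ' k τ v w ω * Ig (amp j) (mk μ Λ' k τ w ω) x) ^ 2)
              (C := (θ ^ 2) ^ (G.dist v w))
              (Filter.Eventually.of_forall fun x => by
                rw [Real.norm_eq_abs, abs_of_nonneg (sq_nonneg _), zero_sub, neg_sq, mul_pow]
                have i1 : |Ig (amp j) (mk μ Λ' k τ w ω) x| ≤ 1 / 4 :=
                  (hC.Ig_le _ _ x (amp_pos j).le (amp_le j) (s2.2.2.2.2.2.1 τ w ω)
                    x.2.1 x.2.2).trans (by linarith [amp_le j])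
                have i2 : Ig (amp j) (mk μ Λ' k τ w ω) x ^ 2 ≤ 1 := by
                  rw [← sq_abs]; nlinarith [abs_nonneg (Ig (amp j) (mk μ Λ' k τ w ω) x)]
                have i3 : ck μ Λ' k τ v w ω ^ 2 ≤ (θ ^ 2) ^ (G.dist v w) := by
                  rw [← sq_abs, ← pow_mul, mul_comm 2, pow_mul]
                  exact pow_le_pow_left₀ (abs_nonneg _) (ck_abs hS hE hI Λ' k τ v w ω) 2
                calc _ ≤ (θ ^ 2) ^ (G.dist v w) * 1 :=
                      mul_le_mul i3 i2 (sq_nonneg _) (by positivity)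
                  _ = _ := mul_one _)
            rw [Real.norm_eq_abs] at this
            exact (le_abs_self _).trans (by simpa using this)
          calc _ ≤ ∫ _, (θ ^ 2) ^ (G.dist v w) ∂(Pm V) :=
                integral_mono_of_nonneg (Filter.Eventually.of_forall fun ω =>
                  integral_nonneg fun x => sq_nonneg _) (integrable_const _)
                  (Filter.Eventually.of_forall hptw)
            _ = (θ ^ 2) ^ (G.dist v w) := by simp
            _ ≤ r ^ (G.dist v w) * Ψ v := hp v w hwΛ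
            _ ≤ c * Ψ v * r ^ (G.dist v w) := by
                rw [hc]
                have h1 : 0 ≤ (K + 1) * X * (Ψ v * r ^ (G.dist v w)) := by positivity
                nlinarith
      · simp only [hkj, and_false, if_false]
        simpa using hcr
    rw [Real.norm_eq_abs, abs_of_nonneg (Finset.sum_nonneg fun w _ =>
      integral_nonneg fun ω => integral_nonneg fun x => sq_nonneg _)]
    calc _ ≤ ∑ w ∈ Λ ∪ Λ', c * Ψ v * r ^ (G.dist v w) := Finset.sum_le_sum hone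
      _ = c * Ψ v * ∑ w ∈ Λ ∪ Λ', r ^ (G.dist v w) := by rw [Finset.mul_sum]
      _ ≤ c * Ψ v * S := by
          apply mul_le_mul_of_nonneg_left (hN.hS v _); positivity
      _ = S * c * Ψ v := by ring
  have hint := intervalIntegral.norm_integral_le_of_norm_le_const hterm
  rw [Real.norm_eq_abs, abs_of_nonneg (by linarith : (0 : ℝ) ≤ t₂ - t₁)] at hint
  have h9 := (le_abs_self _).trans hint
  have h10 : Dt μ Λ Λ' k t₂ v - Dt μ Λ Λ' k t₁ v ≤ 2 * (S * c * Ψ v * (t₂ - t₁)) := by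
    refine le_trans hst ?_
    exact mul_le_mul_of_nonneg_left h9 (by norm_num)
  nlinarith

/-- common data of the comparison of a ball with a larger set -/
structure Cmp (G : SimpleGraph V) (θ t r : ℝ) (Λ Λ' : Finset V) (Ψ : V → ℝ) (b : ℝ) : Prop where
  b0 : 0 < b
  bΨ : ∀ v, b ≤ Ψ v
  hΨt : ∀ v w, G.Adj v w → Ψ w ≤ t * Ψ v
  hΛ : Λ ⊆ Λ'
  hp : ∀ v w, w ∉ Λ → (θ ^ 2) ^ (G.dist v w) ≤ r ^ (G.dist v w) * Ψ v

theorem short_step (hC : CHAN) (hS : STT.{u}) (hSt : STAR.{u}) (hM : STARM.{u}) (hE : Env G D)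
    (hI : Isg G D θ μ) {t s r K S : ℝ} (hN : Nu G θ t s r K S) {Λ Λ' : Finset V} {Ψ : V → ℝ}
    {b : ℝ} (hc : Cmp G θ t r Λ Λ' Ψ b) (k : ℕ) {j : ℤ} {t₁ t₂ : ℝ} (hj : (j : ℝ) ≤ t₁)
    (h12 : t₁ ≤ t₂) (hj2 : t₂ ≤ j + 1 / 2)
    (hsmall : 2 * (t₂ - t₁) * (S * (K + 1)) ≤ 1 / 2) {Y : ℝ} (hY : 0 ≤ Y)
    (hD : ∀ w, Dt μ Λ Λ' k t₁ w ≤ Y * Ψ w) :
    ∀ w, Dt μ Λ Λ' k t₂ w ≤ (2 * Y + 1) * Ψ w := by
  classical
  have hΨ : ∀ v, 0 < Ψ v := fun v => hc.b0.trans_le (hc.bΨ v)
  have hK0 : 0 ≤ K := by linarith [hN.hK4]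
  intro v₀
  have : Nonempty V := ⟨v₀⟩
  have hS0 : 0 ≤ S := le_trans (by simp) (hN.hS v₀ ∅)
  have hbdd : BddAbove (Set.range fun w => Dt μ Λ Λ' k t₂ w / Ψ w) := by
    refine ⟨4 / b, ?_⟩
    rintro _ ⟨w, rfl⟩
    exact div_le_div₀ (by norm_num) (Dt_le hS hE hI Λ Λ' k t₂ w) hc.b0 (hc.bΨ w)
  set X := ⨆ w, Dt μ Λ Λ' k t₂ w / Ψ w with hXdef
  have hXle : ∀ w, Dt μ Λ Λ' k t₂ w ≤ X * Ψ w := fun w => by
    rw [← div_le_iff₀ (hΨ w)]
    exact le_ciSup hbdd w
  have hDn : ∀ w, 0 ≤ Dt μ Λ Λ' k t₂ w := fun w => integral_nonneg fun ω => sq_nonneg _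
  have hX : 0 ≤ X := le_trans (div_nonneg (hDn v₀) (hΨ v₀).le) (le_ciSup hbdd v₀)
  have hround : ∀ v, Dt μ Λ Λ' k t₂ v ≤ (Y + (X / 2 + 1 / 2)) * Ψ v := by
    intro v
    have h1 := incr hC hS hSt hM hE hI hN hΨ hc.hΨt hc.hΛ hc.hp k hj h12 hj2 hX hXle v
    have h2 := hD v
    have h3 : 2 * (t₂ - t₁) * (S * ((K + 1) * X + 1)) ≤ X / 2 + 1 / 2 := by
      have h4 : 2 * (t₂ - t₁) * S ≤ 1 / 2 := by
        refine le_trans ?_ hsmall
        have : S ≤ S * (K + 1) := by nlinarith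
        exact mul_le_mul_of_nonneg_left this (by linarith)
      have h5 : 2 * (t₂ - t₁) * (S * ((K + 1) * X + 1))
          = (2 * (t₂ - t₁) * (S * (K + 1))) * X + 2 * (t₂ - t₁) * S := by ring
      rw [h5]
      nlinarith
    have h6 := mul_le_mul_of_nonneg_right h3 (hΨ v).le
    nlinarith
  have hXX : X ≤ Y + (X / 2 + 1 / 2) := by
    refine ciSup_le fun w => ?_
    rw [div_le_iff₀ (hΨ w)]
    exact hround w
  have hfin : X ≤ 2 * Y + 1 := by linarith
  exact (hXle v₀).trans (mul_le_mul_of_nonneg_right hfin (hΨ v₀).le)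

/-- growth over half a round -/
theorem half_round (hC : CHAN) (hS : STT.{u}) (hSt : STAR.{u}) (hM : STARM.{u}) (hE : Env G D)
    (hI : Isg G D θ μ) {t s r K S : ℝ} (hN : Nu G θ t s r K S) {M : ℕ} (hM0 : 0 < M)
    (hMS : S * (K + 1) ≤ M / 2) {Λ Λ' : Finset V} {Ψ : V → ℝ}
    {b : ℝ} (hc : Cmp G θ t r Λ Λ' Ψ b) (k : ℕ) {j : ℤ} {τ : ℝ} (hj : (j : ℝ) ≤ τ)
    (hj2 : τ ≤ j + 1 / 2) {Y : ℝ} (hY : 0 ≤ Y)
    (hD : ∀ w, Dt μ Λ Λ' k j w ≤ Y * Ψ w) :
    ∀ w, Dt μ Λ Λ' k τ w ≤ (2 ^ M * (Y + 1)) * Ψ w := by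
  have hΨ : ∀ v, 0 < Ψ v := fun v => hc.b0.trans_le (hc.bΨ v)
  have hMr : (0 : ℝ) < M := by exact_mod_cast hM0
  set h : ℝ := (τ - j) / M with hh
  have hh0 : 0 ≤ h := div_nonneg (by linarith) hMr.le
  have hMh : (M : ℝ) * h = τ - j := by rw [hh]; field_simp
  have key : ∀ n : ℕ, n ≤ M → ∀ w, Dt μ Λ Λ' k (j + n * h) w ≤ (2 ^ n * (Y + 1) - 1) * Ψ w := by
    intro n
    induction n with
    | zero =>
      intro _ w
      simpa using hD w
    | succ n ih =>
      intro hn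
      have ih' := ih (by omega)
      have hnr : ((n + 1 : ℕ) : ℝ) ≤ M := by exact_mod_cast hn
      have hle : (n + 1 : ℕ) * h ≤ M * h := mul_le_mul_of_nonneg_right hnr hh0
      have h2n : (1 : ℝ) ≤ 2 ^ n := one_le_pow₀ (by norm_num)
      have hst := short_step hC hS hSt hM hE hI hN hc k (j := j)
        (t₁ := j + n * h) (t₂ := j + (n + 1 : ℕ) * h) (by have := mul_nonneg (Nat.cast_nonneg (α := ℝ) n) hh0; linarith)
        (by push_cast; nlinarith) (by linarith)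
        (by
          have e : (j : ℝ) + (n + 1 : ℕ) * h - (j + n * h) = h := by push_cast; ring
          rw [e]
          have h1 : h * (S * (K + 1)) ≤ h * (M / 2) := mul_le_mul_of_nonneg_left hMS hh0
          nlinarith) (Y := 2 ^ n * (Y + 1) - 1) (by nlinarith) ih'
      intro w
      refine (hst w).trans (le_of_eq ?_)
      rw [pow_succ]; ring
  intro w
  have h1 := key M le_rfl w
  have e : (j : ℝ) + M * h = τ := by rw [hMh]; ring
  rw [e] at h1
  refine h1.trans ?_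
  exact mul_le_mul_of_nonneg_right (by linarith) (hΨ w).le

omit [Countable V] in
theorem mk_early (μ : Measure (V → Bool)) (Λ : Finset V) (k : ℕ) {τ : ℝ} (hτ : τ ≤ -(k : ℝ))
    (v : V) (ω : Om V) : mk μ Λ k τ v ω = mean μ (fun _ => 1) v := by
  have h1 : evs Λ k τ ω.1 = ∅ := by
    ext e
    simp only [mem_evs, act_iff, Finset.notMem_empty, iff_false, not_and]
    rintro - h2 h3 h4
    unfold tm at h4
    have h5 := (ω.1 e).2.1
    have h6 : (-(k : ℤ) : ℝ) ≤ (e.2 : ℝ) := by exact_mod_cast h2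
    push_cast at h6
    linarith
  unfold mk stt
  rw [evl_eq, h1]
  simp [srt, dn]

/-- growth over rounds -/
theorem rounds_growth (hC : CHAN) (hS : STT.{u}) (hSt : STAR.{u}) (hM : STARM.{u})
    (hE : Env G D)
    (hI : Isg G D θ μ) {t s r K S : ℝ} (hN : Nu G θ t s r K S) {M : ℕ} (hM0 : 0 < M)
    (hMS : S * (K + 1) ≤ M / 2) {Λ Λ' : Finset V} {Ψ : V → ℝ}
    {b : ℝ} (hc : Cmp G θ t r Λ Λ' Ψ b) (k : ℕ) :
    ∀ (n : ℕ) (τ : ℝ), τ ≤ -(k : ℝ) + n → ∀ w, Dt μ Λ Λ' k τ w ≤ (2 ^ (M + 1)) ^ n * Ψ w := by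
  have hΨ : ∀ v, 0 < Ψ v := fun v => hc.b0.trans_le (hc.bΨ v)
  have h2M : (1 : ℝ) ≤ 2 ^ M := one_le_pow₀ (by norm_num)
  intro n
  induction n with
  | zero =>
    intro τ hτ w
    have : Dt μ Λ Λ' k τ w = 0 := by
      unfold Dt
      simp only [mk_early μ _ k (by simpa using hτ : τ ≤ -(k : ℝ)) w, sub_self]
      simp
    rw [this]
    have := (hΨ w).le
    positivity
  | succ n ih =>
    intro τ hτ w
    by_cases hτn : τ ≤ -(k : ℝ) + n
    · refine (ih τ hτn w).trans ?_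
      apply mul_le_mul_of_nonneg_right _ (hΨ w).le
      exact pow_le_pow_right₀ (by rw [pow_succ]; linarith) (Nat.le_succ n)
    · rw [not_le] at hτn
      set j : ℤ := -(k : ℤ) + n with hjdef
      have hjr : (j : ℝ) = -(k : ℝ) + n := by rw [hjdef]; push_cast; ring
      have hY : (0 : ℝ) ≤ (2 ^ (M + 1)) ^ n := by positivity
      have hY1 : (1 : ℝ) ≤ (2 ^ (M + 1)) ^ n := one_le_pow₀ (by rw [pow_succ]; linarith)
      have hD : ∀ w, Dt μ Λ Λ' k j w ≤ (2 ^ (M + 1)) ^ n * Ψ w := fun w => by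
        rw [hjr]; exact ih _ le_rfl w
      have hfin : (2 : ℝ) ^ M * ((2 ^ (M + 1)) ^ n + 1) ≤ (2 ^ (M + 1)) ^ (n + 1) := by
        rw [pow_succ (2 ^ (M + 1) : ℝ) n, pow_succ (2 : ℝ) M]
        rw [pow_succ (2 : ℝ) M] at hY1
        nlinarith
      by_cases hτ2 : τ ≤ j + 1 / 2
      · refine (half_round hC hS hSt hM hE hI hN hM0 hMS hc k (j := j) (by rw [hjr]; exact hτn.le)
          hτ2 hY hD w).trans ?_
        exact mul_le_mul_of_nonneg_right hfin (hΨ w).le
      · rw [not_le] at hτ2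
        have hτ3 : τ ≤ j + 1 := by rw [hjr]; push_cast at hτ; linarith
        have s1 := hS V G D θ μ hE hI Λ k
        have s2 := hS V G D θ μ hE hI Λ' k
        have e : Dt μ Λ Λ' k τ w = Dt μ Λ Λ' k (j + 1 / 2) w := by
          unfold Dt
          simp only [s1.2.2.2.2.2.2 j τ w _ hτ2.le hτ3, s2.2.2.2.2.2.2 j τ w _ hτ2.le hτ3]
        rw [e]
        refine (half_round hC hS hSt hM hE hI hN hM0 hMS hc k (j := j) (by linarith)
          le_rfl hY hD w).trans ?_
        exact mul_le_mul_of_nonneg_right hfin (hΨ w).le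

theorem exists_ball_bound (hC : CHAN) (hS : STT.{u}) (hSt : STAR.{u}) (hM : STARM.{u})
    (hE : Env G D) (hI : Isg G D θ μ) (h1 : θ ^ 2 * D < 1) (k : ℕ) (τ : ℝ) :
    ∃ t C : ℝ, 1 < t ∧ 0 < C ∧ ∀ (x : V) (n : ℕ) (Λ' : Finset V),
      ballF G hE.tree.connected x n ⊆ Λ' → ∀ v,
        Dt μ (ballF G hE.tree.connected x n) Λ' k τ v ≤ C * (t ^ (G.dist x v) / t ^ n) := by
  obtain ⟨t, s, r, K, S, hN⟩ := exists_nu (θ := θ) hE h1
  obtain ⟨M, hM1⟩ := exists_nat_gt (max 1 (2 * (S * (K + 1))))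
  have hM0 : 0 < M := by
    have : (1 : ℝ) < M := (le_max_left _ _).trans_lt hM1
    have h2 : (0 : ℝ) < M := by linarith
    exact_mod_cast h2
  have hMS : S * (K + 1) ≤ M / 2 := by
    have : 2 * (S * (K + 1)) < M := (le_max_right _ _).trans_lt hM1
    linarith
  obtain ⟨N, hN1⟩ := exists_nat_ge (τ + k)
  have ht0 : 0 < t := by linarith [hN.ht]
  have ht1 : 1 ≤ t := hN.ht.le
  have hθr : t * θ ^ 2 ≤ r := by
    have h1 : t * θ ^ 2 ≤ t * t * θ ^ 2 := by
      have : t ≤ t * t := by nlinarith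
      exact mul_le_mul_of_nonneg_right this (sq_nonneg _)
    have h2 : s * r ≤ r := by nlinarith [hN.hs1, hN.hr]
    linarith [hN.hs]
  refine ⟨t, (2 ^ (M + 1)) ^ N, hN.ht, by positivity, fun x n Λ' hΛ' v => ?_⟩
  have hc : Cmp G θ t r (ballF G hE.tree.connected x n) Λ'
      (fun w => t ^ (G.dist x w) / t ^ n) (1 / t ^ n) := by
    refine ⟨by positivity, fun w => ?_, fun a w haw => ?_, hΛ', fun a w hw => ?_⟩
    · gcongr
      exact one_le_pow₀ ht1
    · have hd : G.dist x w ≤ G.dist x a + 1 := by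
        have := hE.tree.connected.dist_triangle (u := x) (v := a) (w := w)
        rw [SimpleGraph.dist_eq_one_iff_adj.2 haw] at this
        exact this
      calc t ^ (G.dist x w) / t ^ n ≤ t ^ (G.dist x a + 1) / t ^ n := by
            gcongr
        _ = t * (t ^ (G.dist x a) / t ^ n) := by rw [pow_succ]; ring
    · rw [mem_ballF, not_le] at hw
      have htri := hE.tree.connected.dist_triangle (u := x) (v := a) (w := w)
      have h1 : (θ ^ 2) ^ (G.dist a w) * t ^ (G.dist a w) ≤ r ^ (G.dist a w) := by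
        rw [← mul_pow]
        have : θ ^ 2 * t ≤ r := by linarith
        exact pow_le_pow_left₀ (by positivity) this _
      have h2 : t ^ n ≤ t ^ (G.dist a w) * t ^ (G.dist x a) := by
        rw [← pow_add]
        exact pow_le_pow_right₀ ht1 (by omega)
      rw [mul_div_assoc', le_div_iff₀ (by positivity)]
      calc (θ ^ 2) ^ (G.dist a w) * t ^ n
          ≤ (θ ^ 2) ^ (G.dist a w) * (t ^ (G.dist a w) * t ^ (G.dist x a)) := by gcongr
        _ = ((θ ^ 2) ^ (G.dist a w) * t ^ (G.dist a w)) * t ^ (G.dist x a) := by ring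
        _ ≤ _ := by gcongr
  exact rounds_growth hC hS hSt hM hE hI hN hM0 hMS hc k N τ (by linarith) v

/-- existence of the limit -/
theorem exists_limit (hC : CHAN) (hS : STT.{u}) (hSt : STAR.{u}) (hM : STARM.{u})
    (hE : Env G D) (hI : Isg G D θ μ) (h1 : θ ^ 2 * D < 1) (k : ℕ) (τ : ℝ) (v : V) :
    ∃ X : Om V → ℝ, Measurable X ∧ (∀ ω, |X ω| ≤ 1) ∧
      ∀ x, TendL2 (Pm V) (fun R => mk μ (ballF G hE.tree.connected x R) k τ v) X := by
  obtain ⟨t, C, ht, hC0, hb⟩ := exists_ball_bound hC hS hSt hM hE hI h1 k τ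
  have ht0 : 0 < t := by linarith
  have hmem : ∀ (Λ : Finset V), MemLp (mk μ Λ k τ v) 2 (Pm V) := fun Λ =>
    MemLp.of_bound ((hS V G D θ μ hE hI Λ k).2.2.2.1 τ v).aestronglyMeasurable 1
      (Filter.Eventually.of_forall fun ω => (hS V G D θ μ hE hI Λ k).2.2.2.2.2.1 τ v ω)
  have hlim0 : ∀ (A : ℝ), Tendsto (fun n : ℕ => A / t ^ n) atTop (𝓝 0) := fun A =>
    tendsto_const_nhds.div_atTop (tendsto_pow_atTop_atTop_of_one_lt ht)
  obtain ⟨X, hXm, hX2, hXt⟩ := exists_L2_limit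
    (Y := fun R => mk μ (ballF G hE.tree.connected v R) k τ v) (P := Pm V)
    (fun R => hmem _) (ε := fun n => C / t ^ n) (hlim0 C) (k₀ := 0) (by
      intro n m _ hnm
      have := hb v n (ballF G hE.tree.connected v m) (fun y hy => by
        rw [mem_ballF] at hy ⊢; exact hy.trans hnm) v
      simpa [Dt, SimpleGraph.dist_self, div_eq_mul_inv] using this)
  set X' : Om V → ℝ := fun ω => max (-1) (min 1 (X ω)) with hX'
  have hX'm : Measurable X' := measurable_const.max (measurable_const.min hXm)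
  have hX'b : ∀ ω, |X' ω| ≤ 1 := fun ω => by
    rw [abs_le]
    exact ⟨le_max_left _ _, max_le (by norm_num) (min_le_left _ _)⟩
  have hclamp : ∀ (m y : ℝ), |m| ≤ 1 → (m - max (-1) (min 1 y)) ^ 2 ≤ (m - y) ^ 2 := by
    intro m y hm
    rw [abs_le] at hm
    rw [sq_le_sq, abs_le]
    rcases le_total y 1 with h | h
    · rw [min_eq_right h]
      rcases le_total (-1) y with h' | h'
      · rw [max_eq_right h']
        exact ⟨neg_abs_le _, le_abs_self _⟩
      · rw [max_eq_left h']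
        have : |m - y| = m - y := abs_of_nonneg (by linarith)
        rw [this]
        constructor <;> linarith
    · rw [min_eq_left h, max_eq_right (by norm_num)]
      have : |m - y| = -(m - y) := abs_of_nonpos (by linarith)
      rw [this]
      constructor <;> linarith
  have hX'2 : MemLp X' 2 (Pm V) := MemLp.of_bound hX'm.aestronglyMeasurable 1
    (Filter.Eventually.of_forall hX'b)
  have hX't : TendL2 (Pm V) (fun R => mk μ (ballF G hE.tree.connected v R) k τ v) X' := by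
    unfold TendL2 at hXt ⊢
    refine squeeze_zero (fun R => integral_nonneg fun ω => sq_nonneg _) (fun R => ?_) hXt
    refine integral_mono_of_nonneg (Filter.Eventually.of_forall fun ω => sq_nonneg _)
      ((hmem _).sub hX2).integrable_sq (Filter.Eventually.of_forall fun ω => ?_)
    exact hclamp _ _ ((hS V G D θ μ hE hI _ k).2.2.2.2.2.1 τ v ω)
  refine ⟨X', hX'm, hX'b, fun x => ?_⟩
  unfold TendL2 at hX't ⊢
  -- compare the ball around `x` of radius `R` with the ball around `v` of radius `R - dist`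
  set δ := G.dist v x with hδ
  have hshift : Tendsto (fun R : ℕ => R - δ) atTop atTop := tendsto_sub_atTop_nat δ
  have hlim := (hX't.comp hshift)
  have hlim2 := ((hlim0 C).comp hshift)
  have hsum := ((hlim2.const_mul 2).add (hlim.const_mul 2))
  simp only [mul_zero, add_zero] at hsum
  refine squeeze_zero' (Filter.Eventually.of_forall fun R => integral_nonneg fun ω => sq_nonneg _)
    ?_ hsum
  filter_upwards [eventually_ge_atTop δ] with R hR
  have h2 := int_sq_sub_le (hmem (ballF G hE.tree.connected x R))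
    (hmem (ballF G hE.tree.connected v (R - δ))) hX'2
  refine h2.trans ?_
  have h3 := hb v (R - δ) (ballF G hE.tree.connected x R) (fun y hy => by
    rw [mem_ballF] at hy ⊢
    have := hE.tree.connected.dist_triangle (u := x) (v := v) (w := y)
    have e : G.dist x v = δ := by rw [hδ, SimpleGraph.dist_comm]
    omega) v
  rw [SimpleGraph.dist_self, pow_zero] at h3
  have h4 : ∫ ω, (mk μ (ballF G hE.tree.connected x R) k τ v ω
      - mk μ (ballF G hE.tree.connected v (R - δ)) k τ v ω) ^ 2 ∂(Pm V)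
      ≤ C / t ^ (R - δ) := by
    refine le_trans (le_of_eq ?_) (h3.trans (le_of_eq (by ring)))
    unfold Dt
    congr 1
    ext ω
    ring
  simp only [Function.comp]
  linarith

end cvd

/-- LIM -/
theorem lim_proof (hC : CHAN) (hS : STT.{u}) (hSt : STAR.{u}) (hM : STARM.{u}) : LIM.{u} := by
  intro V _ G _ D θ μ hE hI h1 k t v
  have h := exists_limit hC hS hSt hM hE hI h1 k t v
  unfold Mi
  rw [dif_pos h]
  exact h.choose_spec

end P161C
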