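import Vale.Agent.P161C.Base

/-!
# P161 at the critical point: LIMQ, properties of the infinite volume limit
-/

open MeasureTheory Set Filter Topology

namespace P161C

open P161

universe u

section gen

variable {Ω : Type*} {mΩ : MeasurableSpace Ω} {P : Measure Ω} [IsProbabilityMeasure P]

theorem intg_bdd {f : Ω → ℝ} (hf : Measurable f) {B : ℝ} (hb : ∀ ω, |f ω| ≤ B) :
    Integrable f P :=
  Integrable.of_bound hf.aestronglyMeasurable B (Filter.Eventually.of_forall hb)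

theorem intg_sq {f g : Ω → ℝ} (hf : Measurable f) (hg : Measurable g) (bf : ∀ ω, |f ω| ≤ 1)
    (bg : ∀ ω, |g ω| ≤ 1) : Integrable (fun ω => (f ω - g ω) ^ 2) P := by
  refine intg_bdd ((hf.sub hg).pow_const 2) (B := 4) fun ω => ?_
  rw [abs_pow]
  have : |f ω - g ω| ≤ 2 := (abs_sub _ _).trans (by linarith [bf ω, bg ω])
  calc |f ω - g ω| ^ 2 ≤ 2 ^ 2 := pow_le_pow_left₀ (abs_nonneg _) this 2
    _ = 4 := by norm_num

/-- squared differences pass to the limit -/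
theorem tend_sq {Y Z : ℕ → Ω → ℝ} {X W : Ω → ℝ} (mY : ∀ k, Measurable (Y k))
    (mZ : ∀ k, Measurable (Z k)) (mX : Measurable X) (mW : Measurable W)
    (bY : ∀ k ω, |Y k ω| ≤ 1) (bZ : ∀ k ω, |Z k ω| ≤ 1) (bX : ∀ ω, |X ω| ≤ 1)
    (bW : ∀ ω, |W ω| ≤ 1) (hY : TendL2 P Y X) (hZ : TendL2 P Z W) :
    Tendsto (fun k => ∫ ω, (Y k ω - Z k ω) ^ 2 ∂P) atTop (𝓝 (∫ ω, (X ω - W ω) ^ 2 ∂P)) := by
  rw [Metric.tendsto_atTop]
  intro ε he
  set η := ε / 2 with hη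
  have hη0 : 0 < η := by positivity
  have key : ∀ k, |∫ ω, (Y k ω - Z k ω) ^ 2 ∂P - ∫ ω, (X ω - W ω) ^ 2 ∂P|
      ≤ η + 8 / η * (∫ ω, (Y k ω - X ω) ^ 2 ∂P + ∫ ω, (Z k ω - W ω) ^ 2 ∂P) := by
    intro k
    have i1 := intg_sq (P := P) (mY k) (mZ k) (bY k) (bZ k)
    have i2 := intg_sq (P := P) mX mW bX bW
    have i3 := intg_sq (P := P) (mY k) mX (bY k) bX
    have i4 := intg_sq (P := P) (mZ k) mW (bZ k) bW
    rw [← integral_sub i1 i2]
    have h1 : ∀ ω, |(Y k ω - Z k ω) ^ 2 - (X ω - W ω) ^ 2|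
        ≤ η + 8 / η * ((Y k ω - X ω) ^ 2 + (Z k ω - W ω) ^ 2) := by
      intro ω
      have hs : |Y k ω - Z k ω + (X ω - W ω)| ≤ 4 := by
        have a1 := abs_le.1 (bY k ω)
        have a2 := abs_le.1 (bZ k ω)
        have a3 := abs_le.1 (bX ω)
        have a4 := abs_le.1 (bW ω)
        rw [abs_le]
        constructor <;> linarith
      have e : (Y k ω - Z k ω) ^ 2 - (X ω - W ω) ^ 2
          = (Y k ω - Z k ω - (X ω - W ω)) * (Y k ω - Z k ω + (X ω - W ω)) := by ring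
      rw [e, abs_mul]
      set u := Y k ω - Z k ω - (X ω - W ω) with hu
      have h2 : |u| * |Y k ω - Z k ω + (X ω - W ω)| ≤ |u| * 4 :=
        mul_le_mul_of_nonneg_left hs (abs_nonneg _)
      have h3 : |u| * 4 ≤ η + 4 / η * u ^ 2 := by
        have : 0 ≤ (η - 2 * |u|) ^ 2 / η := by positivity
        have e2 : (η - 2 * |u|) ^ 2 / η = η - 4 * |u| + 4 / η * |u| ^ 2 := by
          field_simp
          ring
        rw [e2, sq_abs] at this
        linarith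
      have h4 : u ^ 2 ≤ 2 * ((Y k ω - X ω) ^ 2 + (Z k ω - W ω) ^ 2) := by
        have e3 : u = (Y k ω - X ω) - (Z k ω - W ω) := by rw [hu]; ring
        rw [e3]
        nlinarith [sq_nonneg ((Y k ω - X ω) + (Z k ω - W ω))]
      have h5 : 4 / η * u ^ 2 ≤ 4 / η * (2 * ((Y k ω - X ω) ^ 2 + (Z k ω - W ω) ^ 2)) :=
        mul_le_mul_of_nonneg_left h4 (by positivity)
      have e4 : 4 / η * (2 * ((Y k ω - X ω) ^ 2 + (Z k ω - W ω) ^ 2))
          = 8 / η * ((Y k ω - X ω) ^ 2 + (Z k ω - W ω) ^ 2) := by ring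
      linarith
    calc |∫ ω, ((Y k ω - Z k ω) ^ 2 - (X ω - W ω) ^ 2) ∂P|
        ≤ ∫ ω, |(Y k ω - Z k ω) ^ 2 - (X ω - W ω) ^ 2| ∂P := abs_integral_le_integral_abs
      _ ≤ ∫ ω, (η + 8 / η * ((Y k ω - X ω) ^ 2 + (Z k ω - W ω) ^ 2)) ∂P :=
          integral_mono (i1.sub i2).abs ((integrable_const _).add ((i3.add i4).const_mul _)) h1
      _ = η + 8 / η * (∫ ω, (Y k ω - X ω) ^ 2 ∂P + ∫ ω, (Z k ω - W ω) ^ 2 ∂P) := by
          have i5 : Integrable (fun ω => (Y k ω - X ω) ^ 2 + (Z k ω - W ω) ^ 2) P := i3.add i4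
          rw [integral_add (integrable_const _) (i5.const_mul _), integral_const_mul,
            integral_add i3 i4]
          simp
  have ht : Tendsto (fun k => 8 / η * (∫ ω, (Y k ω - X ω) ^ 2 ∂P
      + ∫ ω, (Z k ω - W ω) ^ 2 ∂P)) atTop (𝓝 0) := by
    have := (Tendsto.add hY hZ).const_mul (8 / η)
    simpa using this
  obtain ⟨N, hN⟩ := (Metric.tendsto_atTop.1 ht) η hη0
  refine ⟨N, fun n hn => ?_⟩
  have h1 := hN n hn
  rw [Real.dist_eq, sub_zero] at h1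
  rw [Real.dist_eq]
  calc _ ≤ _ := key n
    _ < η + η := by linarith [le_abs_self (8 / η * (∫ ω, (Y n ω - X ω) ^ 2 ∂P
      + ∫ ω, (Z n ω - W ω) ^ 2 ∂P))]
    _ = ε := by rw [hη]; ring

theorem memLp_bdd {f : Ω → ℝ} (hf : Measurable f) {B : ℝ} (hb : ∀ ω, |f ω| ≤ B) :
    MemLp f 2 P :=
  MemLp.of_bound hf.aestronglyMeasurable B (Filter.Eventually.of_forall hb)

theorem tend_unique {Y Y' : ℕ → Ω → ℝ} {X X' : Ω → ℝ} (mY : ∀ k, Measurable (Y k))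
    (mY' : ∀ k, Measurable (Y' k)) (mX : Measurable X) (mX' : Measurable X')
    (bY : ∀ k ω, |Y k ω| ≤ 1) (bY' : ∀ k ω, |Y' k ω| ≤ 1) (bX : ∀ ω, |X ω| ≤ 1)
    (bX' : ∀ ω, |X' ω| ≤ 1) (h : TendL2 P Y X) (h' : TendL2 P Y' X')
    (he : ∀ k, Y k =ᵐ[P] Y' k) : X =ᵐ[P] X' := by
  refine TendL2.unique (fun k => memLp_bdd (mY k) (bY k)) (fun k => memLp_bdd (mY' k) (bY' k))
    (memLp_bdd mX bX) (memLp_bdd mX' bX') h h' ?_
  have : ∀ k, ∫ x, (Y k x - Y' k x) ^ 2 ∂P = 0 := by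
    intro k
    have h1 : (fun x => (Y k x - Y' k x) ^ 2) =ᵐ[P] fun _ => (0 : ℝ) := by
      filter_upwards [he k] with x hx
      rw [hx, sub_self]
      norm_num
    rw [integral_congr_ae h1]
    simp
  simp only [this]
  exact tendsto_const_nhds

end gen

/-- module LIMQ -/
theorem limq_proof (hE' : EQF.{u}) (hS : STT.{u}) (hM : STARM.{u}) (hSh : SHP.{u})
    (hL : LIM.{u}) : LIMQ.{u} := by
  intro V _ G _ D θ₁ θ₂ μ₁ μ₂ hE h₁ h₂ hc₁ hc₂ k₁ k₂ v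
  have l1 := fun t v => hL V G D θ₁ μ₁ hE h₁ hc₁ k₁ t v
  have l2 := fun t v => hL V G D θ₂ μ₂ hE h₂ hc₂ k₂ t v
  have s1 := fun Λ => hS V G D θ₁ μ₁ hE h₁ Λ k₁
  have s2 := fun Λ => hS V G D θ₂ μ₂ hE h₂ Λ k₂
  have m1 := fun Λ t v => (s1 Λ).2.2.2.1 t v
  have m2 := fun Λ t v => (s2 Λ).2.2.2.1 t v
  have b1 := fun Λ t v ω => (s1 Λ).2.2.2.2.2.1 t v ω
  have b2 := fun Λ t v ω => (s2 Λ).2.2.2.2.2.1 t v ω
  have c1 := fun Λ j t v ω => (s1 Λ).2.2.2.2.2.2 j t v ω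
  refine ⟨fun t g => ?_, fun j t hj1 hj2 => ?_, fun s t hst => ?_, fun t₁ t₂ h12 => ?_⟩
  · obtain ⟨-, hsh, -⟩ := hSh V G
    obtain ⟨hgm, hgp⟩ := hsh g
    have hmp : MeasurePreserving (sh g) (Pm V) (Pm V) := ⟨hgm, hgp⟩
    refine tend_unique
      (Y := fun R ω => mk μ₁ (ballF G hE.tree.connected (g v) R) k₁ t (g v) (sh g ω))
      (Y' := fun R => mk μ₁ (ballF G hE.tree.connected v R) k₁ t v)
      (fun R => (m1 _ t (g v)).comp hgm) (fun R => m1 _ t v)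
      ((l1 t (g v)).1.comp hgm) (l1 t v).1 (fun R ω => b1 _ t (g v) _) (fun R ω => b1 _ t v ω)
      (fun ω => (l1 t (g v)).2.1 _) (fun ω => (l1 t v).2.1 ω) ?_ ((l1 t v).2.2 v) ?_
    · unfold TendL2
      refine ((l1 t (g v)).2.2 (g v)).congr fun R => ?_
      have hf : Measurable fun ω => (mk μ₁ (ballF G hE.tree.connected (g v) R) k₁ t (g v) ω
          - Mi G hE.tree.connected μ₁ k₁ t (g v) ω) ^ 2 :=
        ((m1 _ t (g v)).sub (l1 t (g v)).1).pow_const 2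
      conv_lhs => rw [← hgp]
      rw [integral_map hgm.aemeasurable hf.aestronglyMeasurable]
    · intro R
      exact hE' V G D θ₁ μ₁ hE h₁ g v v R k₁ t
  · refine tend_unique
      (Y := fun R => mk μ₁ (ballF G hE.tree.connected v R) k₁ t v)
      (Y' := fun R => mk μ₁ (ballF G hE.tree.connected v R) k₁ (j + 1 / 2) v)
      (fun R => m1 _ _ v) (fun R => m1 _ _ v) (l1 t v).1 (l1 _ v).1
      (fun R ω => b1 _ _ v ω) (fun R ω => b1 _ _ v ω) (fun ω => (l1 t v).2.1 ω)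
      (fun ω => (l1 _ v).2.1 ω) ((l1 t v).2.2 v) ((l1 _ v).2.2 v) ?_
    intro R
    exact Filter.Eventually.of_forall fun ω => c1 _ j t v ω hj1 hj2
  · have T := fun t => tend_sq (fun R => m1 (ballF G hE.tree.connected v R) t v)
      (fun R => m2 (ballF G hE.tree.connected v R) t v) (l1 t v).1 (l2 t v).1
      (fun R ω => b1 _ t v ω) (fun R ω => b2 _ t v ω) (l1 t v).2.1 (l2 t v).2.1
      ((l1 t v).2.2 v) ((l2 t v).2.2 v)
    exact le_of_tendsto_of_tendsto' (T s) (T t) fun R =>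
      (hM V G D θ₁ θ₂ μ₁ μ₂ hE h₁ h₂ _ _ k₁ k₂ v s t hst).1
  · have T1 := tend_sq (fun R => m1 (ballF G hE.tree.connected v R) t₂ v)
      (fun R => m1 (ballF G hE.tree.connected v R) t₁ v) (l1 t₂ v).1 (l1 t₁ v).1
      (fun R ω => b1 _ t₂ v ω) (fun R ω => b1 _ t₁ v ω) (l1 t₂ v).2.1 (l1 t₁ v).2.1
      ((l1 t₂ v).2.2 v) ((l1 t₁ v).2.2 v)
    have T2 := fun t => tend_sq (P := Pm V) (Z := fun _ _ => (0 : ℝ)) (W := fun _ => (0 : ℝ))
      (fun R => m1 (ballF G hE.tree.connected v R) t v)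
      (fun R => measurable_const) (l1 t v).1 measurable_const
      (fun R ω => b1 _ t v ω) (fun R ω => by simp) (l1 t v).2.1 (fun ω => by simp)
      ((l1 t v).2.2 v) (by unfold TendL2; simp)
    simp only [sub_zero] at T2
    refine tendsto_nhds_unique T1 (((T2 t₂).sub (T2 t₁)).congr fun R => ?_)
    exact (hM V G D θ₁ θ₁ μ₁ μ₁ hE h₁ h₁ _ (ballF G hE.tree.connected v R) k₁ k₁ v
      t₁ t₂ h12).2.1.symm

end P161C
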