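import Vale.Agent.P161C.Mb

/-!
# MAIN: the main inequality
-/

open MeasureTheory Set Filter Topology

namespace P161C

open P161

universe u

namespace MainI

variable {V : Type u} {G : SimpleGraph V}

theorem geom_sum_sq {ρ : ℝ} (h0 : 0 ≤ ρ) (h1 : ρ < 1) (N : ℕ) :
    ∑ k ∈ Finset.range N, ((k : ℝ) + 1) ^ 2 * ρ ^ k ≤ 2 / (1 - ρ) ^ 3 := by
  have key : ∀ N : ℕ, (1 - ρ) ^ 3 * ∑ k ∈ Finset.range N, ((k : ℝ) + 1) * (k + 2) * ρ ^ k
      = 2 - ρ ^ N * (2 + 2 * N * (1 - ρ) + N * (N + 1) * (1 - ρ) ^ 2) := by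
    intro N
    induction N with
    | zero => simp
    | succ N ih =>
      rw [Finset.sum_range_succ, mul_add, ih]
      push_cast
      ring
  have hpos : 0 < (1 - ρ) ^ 3 := by
    have : 0 < 1 - ρ := by linarith
    positivity
  have h2 : ∑ k ∈ Finset.range N, ((k : ℝ) + 1) ^ 2 * ρ ^ k
      ≤ ∑ k ∈ Finset.range N, ((k : ℝ) + 1) * (k + 2) * ρ ^ k := by
    refine Finset.sum_le_sum fun k _ => ?_
    apply mul_le_mul_of_nonneg_right _ (by positivity)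
    have : (0 : ℝ) ≤ k := Nat.cast_nonneg _
    nlinarith
  refine h2.trans ?_
  rw [le_div_iff₀ hpos, mul_comm, key]
  have h3 : 0 ≤ 1 - ρ := by linarith
  have h4 : 0 ≤ ρ ^ N * (2 + 2 * N * (1 - ρ) + N * (N + 1) * (1 - ρ) ^ 2) := by positivity
  linarith

theorem geom_sum_one {ρ : ℝ} (h0 : 0 ≤ ρ) (h1 : ρ < 1) (N : ℕ) :
    ∑ k ∈ Finset.range N, ρ ^ k ≤ 1 / (1 - ρ) := by
  have h2 : 0 < 1 - ρ := by linarith
  rw [le_div_iff₀ h2, geom_sum_mul_neg]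
  have : 0 ≤ ρ ^ N := by positivity
  linarith

theorem sum_ball [G.LocallyFinite] {D : ℕ} (hE : Env G D) (v : V) (N : ℕ) (f : ℕ → ℝ)
    (hf : ∀ n, 0 ≤ f n) : ∑ w ∈ ballF G hE.tree.connected v N, f (G.dist v w)
      ≤ ∑ n ∈ Finset.range (N + 1), 2 * (D : ℝ) ^ n * f n := by
  classical
  rw [← Finset.sum_fiberwise_of_maps_to (s := ballF G hE.tree.connected v N)
    (t := Finset.range (N + 1)) (g := fun w => G.dist v w) (fun w hw => by
      rw [mem_ballF] at hw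
      rw [Finset.mem_range]
      omega)]
  refine Finset.sum_le_sum fun n hn => ?_
  rw [Finset.mem_range] at hn
  have h1 : ((ballF G hE.tree.connected v N).filter fun w => G.dist v w = n)
      = (ballF G hE.tree.connected v n).filter fun w => G.dist v w = n := by
    ext w
    simp only [Finset.mem_filter, mem_ballF]
    constructor
    · rintro ⟨_, h⟩; exact ⟨h.le, h⟩
    · rintro ⟨_, h⟩; exact ⟨by omega, h⟩
  rw [h1]
  have h2 : ∑ w ∈ (ballF G hE.tree.connected v n).filter (fun w => G.dist v w = n),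
      f (G.dist v w) = ∑ _w ∈ (ballF G hE.tree.connected v n).filter (fun w => G.dist v w = n),
      f n := Finset.sum_congr rfl fun w hw => by rw [(Finset.mem_filter.1 hw).2]
  rw [h2, Finset.sum_const, nsmul_eq_mul]
  have h3 := sph_proof V G D hE v n
  exact mul_le_mul_of_nonneg_right (by convert h3) (hf n)

theorem hk_eq_exp {θ r₀ y : ℝ} {M : V → ℝ} (x w : V) :
    hk G θ r₀ y M x w = r₀ ^ (G.dist x w) * Real.exp (-(hs G θ M x w / y)) := by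
  unfold hk hs kt
  rw [Finset.prod_mul_distrib, Finset.prod_const, Finset.card_range, ← Real.exp_sum,
    Finset.sum_neg_distrib, Finset.sum_div]

/-- good/bad decomposition -/
theorem exp_hs_le [Countable V] [G.LocallyFinite] {θ r₀ y : ℝ} (hr₀ : 1 < r₀) (hy : 0 < y) {M : V → ℝ} (x z : V) :
    Real.exp (-(hs G θ M x z)) ≤ Real.exp (-(Real.log r₀ / 2 * y * G.dist x z))
      + Real.exp (-(Real.log r₀ / 2 * G.dist x z)) * hk G θ r₀ y M x z := by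
  have hr0 : 0 < r₀ := by linarith
  have hlog : 0 < Real.log r₀ := Real.log_pos hr₀
  have hhk := hk_nonneg (G := G) (θ := θ) (y := y) hr0.le (M := M) (x := x) (w := z)
  by_cases h : Real.log r₀ / 2 * y * G.dist x z ≤ hs G θ M x z
  · have h1 : Real.exp (-(hs G θ M x z)) ≤ Real.exp (-(Real.log r₀ / 2 * y * G.dist x z)) :=
      Real.exp_le_exp.2 (by linarith)
    have h2 : 0 ≤ Real.exp (-(Real.log r₀ / 2 * G.dist x z)) * hk G θ r₀ y M x z := by positivity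
    linarith
  · push Not at h
    have h1 : Real.exp (-(hs G θ M x z)) ≤ 1 := Real.exp_le_one_iff.2 (by
      have : 0 ≤ hs G θ M x z := by
        unfold hs
        exact Finset.sum_nonneg fun i _ => sq_nonneg _
      linarith)
    have h2 : 1 ≤ Real.exp (-(Real.log r₀ / 2 * G.dist x z)) * hk G θ r₀ y M x z := by
      rw [hk_eq_exp]
      have h3 : r₀ ^ (G.dist x z) = Real.exp (Real.log r₀ * G.dist x z) := by
        rw [mul_comm, Real.exp_nat_mul, Real.exp_log hr0]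
      rw [h3, ← Real.exp_add, ← Real.exp_add]
      apply Real.one_le_exp
      have h4 : hs G θ M x z / y ≤ Real.log r₀ / 2 * G.dist x z := by
        rw [div_le_iff₀ hy]
        linarith
      linarith
    have h3 := Real.exp_pos (-(Real.log r₀ / 2 * y * G.dist x z))
    linarith

theorem exp_len {a y : ℝ} (ha : 0 ≤ a) (hy : 0 < y) (hy1 : y ≤ 1) {l n : ℕ} (h : n ≤ 2 * l + 1) :
    Real.exp (-(a * y * l)) ≤ Real.exp a * Real.exp (-(a * y / 2)) ^ n := by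
  rw [← Real.exp_nat_mul, ← Real.exp_add]
  apply Real.exp_le_exp.2
  have h1 : (n : ℝ) ≤ 2 * l + 1 := by exact_mod_cast h
  have h2 : a * y ≤ a := by nlinarith
  have h3 : 0 ≤ a * y := by positivity
  nlinarith

theorem int_bdd {X : Om V → ℝ} {B : ℝ} (hX : Measurable X) (hb : ∀ᵐ ω ∂(Pm V), |X ω| ≤ B) :
    Integrable X (Pm V) :=
  Integrable.mono' (integrable_const B) hX.aestronglyMeasurable (by
    filter_upwards [hb] with ω h
    rw [Real.norm_eq_abs]; exact h)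

theorem measurable_hs {θ : ℝ} {M : V → Om V → ℝ} (hM : ∀ v, Measurable (M v)) (x w : V) :
    Measurable fun ω => hs G θ (fun v => M v ω) x w := by
  unfold hs
  exact Finset.measurable_fun_sum _ fun i _ => (measurable_ms hM θ _ _).pow_const 2

theorem measurable_hN {θ : ℝ} {M : V → Om V → ℝ} (hM : ∀ v, Measurable (M v)) (x w : V) :
    Measurable fun ω => hN G θ (fun v => M v ω) x w := by
  unfold hN
  exact Finset.measurable_fun_sum _ fun i _ => (measurable_Nf θ).comp (measurable_ms hM θ _ _)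

theorem hs_nonneg {θ : ℝ} {M : V → ℝ} (x w : V) : 0 ≤ hs G θ M x w := by
  unfold hs
  exact Finset.sum_nonneg fun i _ => sq_nonneg _

/-- integrated good/bad decomposition -/
theorem half_bound [Countable V] [G.LocallyFinite] {D : ℕ} {θ r r₀ y c C l₀ : ℝ}
    {M : V → Om V → ℝ} (hF : Fld G D θ r r₀ y c C l₀ M) (hr₀ : 1 < r₀) (hy : 0 < y)
    (hy1 : y ≤ 1) {X : Om V → ℝ} {B A1 A2 : ℝ} (hX : Measurable X)
    (hX0 : ∀ᵐ ω ∂(Pm V), 0 ≤ X ω) (hXB : ∀ᵐ ω ∂(Pm V), X ω ≤ B) (x z : V)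
    (h1 : ∫ ω, X ω ∂(Pm V) ≤ A1)
    (h2 : ∫ ω, X ω * hk G θ r₀ y (fun v => M v ω) x z ∂(Pm V) ≤ A2) {n : ℕ}
    (hn : n ≤ 2 * G.dist x z + 1) :
    Integrable (fun ω => X ω * Real.exp (-(hs G θ (fun v => M v ω) x z))) (Pm V) ∧
    ∫ ω, X ω * Real.exp (-(hs G θ (fun v => M v ω) x z)) ∂(Pm V)
      ≤ Real.exp (Real.log r₀ / 2) * (Real.exp (-(Real.log r₀ / 2 * y / 2)) ^ n * A1
        + Real.exp (-(Real.log r₀ / 2 / 2)) ^ n * A2) := by
  obtain ⟨a, ha⟩ : ∃ a, a = Real.log r₀ / 2 := ⟨_, rfl⟩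
  have ha0 : 0 ≤ a := by
    rw [ha]
    have := Real.log_pos hr₀
    positivity
  have hr0 : 0 ≤ r₀ := by linarith
  have hXi : Integrable X (Pm V) := int_bdd (B := B) hX (by
    filter_upwards [hX0, hXB] with ω u1 u2
    rw [abs_of_nonneg u1]; exact u2)
  have hB0 : 0 ≤ B := by
    obtain ⟨ω, hω⟩ := (hX0.and hXB).exists
    exact hω.1.trans hω.2
  have hi1 : Integrable (fun ω => X ω * Real.exp (-(hs G θ (fun v => M v ω) x z))) (Pm V) := by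
    refine int_bdd (B := B) (hX.mul (measurable_hs hF.meas x z).neg.exp) ?_
    filter_upwards [hX0, hXB] with ω u1 u2
    rw [abs_mul, abs_of_nonneg u1, abs_of_pos (Real.exp_pos _)]
    have h3 : Real.exp (-(hs G θ (fun v => M v ω) x z)) ≤ 1 := Real.exp_le_one_iff.2 (by
      have := hs_nonneg (G := G) (θ := θ) (M := fun v => M v ω) x z
      linarith)
    calc X ω * Real.exp (-(hs G θ (fun v => M v ω) x z)) ≤ B * 1 :=
          mul_le_mul u2 h3 (Real.exp_pos _).le hB0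
      _ = B := mul_one _
  have hi2 : Integrable (fun ω => X ω * hk G θ r₀ y (fun v => M v ω) x z) (Pm V) := by
    refine int_bdd (B := B * r₀ ^ (G.dist x z)) (hX.mul (measurable_hk hF.meas x z)) ?_
    filter_upwards [hX0, hXB] with ω u1 u2
    rw [abs_mul, abs_of_nonneg u1, abs_of_nonneg (hk_nonneg hr0)]
    exact mul_le_mul u2 (hk_le hr0 hy) (hk_nonneg hr0) hB0
  refine ⟨hi1, ?_⟩
  have hA1 : 0 ≤ A1 := (integral_nonneg_of_ae hX0).trans h1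
  have hA2 : 0 ≤ A2 := by
    refine (integral_nonneg_of_ae ?_).trans h2
    filter_upwards [hX0] with ω u1
    exact mul_nonneg u1 (hk_nonneg hr0)
  have hpt : ∀ᵐ ω ∂(Pm V), X ω * Real.exp (-(hs G θ (fun v => M v ω) x z))
      ≤ Real.exp (-(a * y * G.dist x z)) * X ω
        + Real.exp (-(a * G.dist x z)) * (X ω * hk G θ r₀ y (fun v => M v ω) x z) := by
    filter_upwards [hX0] with ω u1
    have u2 := mul_le_mul_of_nonneg_left (exp_hs_le (G := G) (θ := θ) hr₀ hy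
      (M := fun v => M v ω) x z) u1
    rw [← ha] at u2
    refine u2.trans (le_of_eq ?_)
    ring
  have i1 : Integrable (fun ω => Real.exp (-(a * y * G.dist x z)) * X ω) (Pm V) := hXi.const_mul _
  have i2 : Integrable (fun ω => Real.exp (-(a * G.dist x z))
      * (X ω * hk G θ r₀ y (fun v => M v ω) x z)) (Pm V) := hi2.const_mul _
  have i3 := i1.add i2
  refine (integral_mono_ae hi1 i3 hpt).trans ?_
  have e1 : ∫ ω, ((fun ω => Real.exp (-(a * y * G.dist x z)) * X ω)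
      + fun ω => Real.exp (-(a * G.dist x z)) * (X ω * hk G θ r₀ y (fun v => M v ω) x z)) ω
        ∂(Pm V) = Real.exp (-(a * y * G.dist x z)) * ∫ ω, X ω ∂(Pm V)
        + Real.exp (-(a * G.dist x z)) * ∫ ω, X ω * hk G θ r₀ y (fun v => M v ω) x z ∂(Pm V) := by
    rw [integral_add' i1 i2, integral_const_mul, integral_const_mul]
  rw [e1, ← ha]
  have f1 := exp_len (n := n) (l := G.dist x z) ha0 hy hy1 hn
  have f2 := exp_len (n := n) (l := G.dist x z) ha0 one_pos le_rfl hn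
  rw [mul_one] at f2
  calc Real.exp (-(a * y * G.dist x z)) * ∫ ω, X ω ∂(Pm V)
        + Real.exp (-(a * G.dist x z)) * ∫ ω, X ω * hk G θ r₀ y (fun v => M v ω) x z ∂(Pm V)
      ≤ Real.exp (-(a * y * G.dist x z)) * A1 + Real.exp (-(a * G.dist x z)) * A2 := by
        gcongr
    _ ≤ (Real.exp a * Real.exp (-(a * y / 2)) ^ n) * A1
        + (Real.exp a * Real.exp (-(a / 2)) ^ n) * A2 := by gcongr
    _ = _ := by ring

/-- between -/
theorem dist_between (hG : G.IsTree) {x z z' : V} (h : G.dist z z' = G.dist z x + G.dist x z')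
    {i : ℕ} (hi : i ≤ G.dist x z) :
    G.dist (geo G x z i) z' = G.dist (geo G x z i) x + G.dist x z' := by
  have h1 := geo_dist_left hG hi
  have h2 := geo_dist_right hG hi
  have h3 : G.dist z z' ≤ G.dist z (geo G x z i) + G.dist (geo G x z i) z' :=
    hG.connected.dist_triangle
  have h4 : G.dist (geo G x z i) z' ≤ G.dist (geo G x z i) x + G.dist x z' :=
    hG.connected.dist_triangle
  have s1 : G.dist z (geo G x z i) = G.dist (geo G x z i) z := SimpleGraph.dist_comm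
  have s2 : G.dist (geo G x z i) x = G.dist x (geo G x z i) := SimpleGraph.dist_comm
  have s3 : G.dist z x = G.dist x z := SimpleGraph.dist_comm
  omega

theorem Δ_le_W {Δ : ℝ} (h0 : 0 ≤ Δ) (h4 : Δ ≤ 4) : Δ ≤ (1 + Real.log (4 / Δ)) * Δ := by
  rcases h0.eq_or_lt with h | h
  · rw [← h]; simp
  · have : 0 ≤ Real.log (4 / Δ) := Real.log_nonneg (by rw [le_div_iff₀ h]; linarith)
    nlinarith

/-- the bound at distance `n` -/
noncomputable def Rn (a y W E τ : ℝ) (n : ℕ) : ℝ :=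
  Real.exp a * (Real.exp (-(a * y / 2)) ^ n * ((n + 1) * y * W + (n + 1) ^ 2 * E + W)
    + Real.exp (-(a / 2)) ^ n * ((n + 1) ^ 2 * (W + τ ^ 2)))

theorem le_Rn {a y W E τ A1 A2 k : ℝ} {n : ℕ} (hA1 : A1 ≤ k * ((n + 1) * y * W + (n + 1) ^ 2 * E + W))
    (hA2 : A2 ≤ k * ((n + 1) ^ 2 * (W + τ ^ 2))) :
    Real.exp a * (Real.exp (-(a * y / 2)) ^ n * A1 + Real.exp (-(a / 2)) ^ n * A2)
      ≤ k * Rn a y W E τ n := by
  unfold Rn
  have h1 : Real.exp a * (Real.exp (-(a * y / 2)) ^ n * A1 + Real.exp (-(a / 2)) ^ n * A2)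
      ≤ Real.exp a * (Real.exp (-(a * y / 2)) ^ n * (k * ((n + 1) * y * W + (n + 1) ^ 2 * E + W))
        + Real.exp (-(a / 2)) ^ n * (k * ((n + 1) ^ 2 * (W + τ ^ 2)))) := by gcongr
  refine h1.trans (le_of_eq ?_)
  ring

/-- the four terms of one process -/
theorem S_bound [Countable V] [G.LocallyFinite] {D : ℕ} {θ₁ θ₂ r r₀ y c C l₀ : ℝ}
    {M₁ M₂ : V → Om V → ℝ} {Δ e τ : ℝ} (hE : Env G D) (hr1 : r < 1)
    (h : Pair G D θ₁ θ₂ r r₀ y c C l₀ M₁ M₂ Δ e τ) (hr₀ : 1 < r₀) {θ : ℝ} {M : V → Om V → ℝ}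
    (hF : Fld G D θ r r₀ y c C l₀ M) {KP KG KB : ℝ} (hKP : 0 < KP) (hKG : 0 < KG) (hKB : 0 < KB)
    (hMG : ∀ x w, ∫ ω, (hN G θ₁ (fun v => M₁ v ω) x w - hN G θ₂ (fun v => M₂ v ω) x w) ^ 2 ∂(Pm V)
        ≤ KG * (G.dist x w * y * ((1 + Real.log (4 / Δ)) * Δ)
          + (G.dist x w : ℝ) ^ 2 * (e ^ 2 + τ ^ 2)))
    (hMB : ∀ x w u, G.dist u w = G.dist u x + G.dist x w →
      ∫ ω, (M₁ u ω - M₂ u ω) ^ 2 * hk G θ r₀ y (fun v => M v ω) x w ∂(Pm V)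
        ≤ KB * ((1 + Real.log (4 / Δ)) * Δ))
    (hMB1 : ∀ x w, ∫ ω, hk G θ r₀ y (fun v => M v ω) x w ∂(Pm V) ≤ KB)
    {n : ℕ} {x z z' : V} (hb : G.dist z z' = G.dist z x + G.dist x z') (hz : G.dist x z ≤ n)
    (hz' : n ≤ 2 * G.dist x z' + 1)
    (hHz : ∀ᵐ ω ∂(Pm V), (hN G θ₁ (fun v => M₁ v ω) x z - hN G θ₂ (fun v => M₂ v ω) x z) ^ 2
      ≤ KP * (n + 1) * (∑ i ∈ Finset.range (G.dist x z + 1),
        (M₁ (geo G x z i) ω - M₂ (geo G x z i) ω) ^ 2 + n * (θ₁ - θ₂) ^ 2)) :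
    Integrable (fun ω => (hN G θ₁ (fun v => M₁ v ω) x z - hN G θ₂ (fun v => M₂ v ω) x z) ^ 2
      * Real.exp (-(hs G θ (fun v => M v ω) x z'))) (Pm V) ∧
    ∫ ω, (hN G θ₁ (fun v => M₁ v ω) x z - hN G θ₂ (fun v => M₂ v ω) x z) ^ 2
      * Real.exp (-(hs G θ (fun v => M v ω) x z')) ∂(Pm V)
      ≤ (KG + KP * KB) * Rn (Real.log r₀ / 2) y ((1 + Real.log (4 / Δ)) * Δ) (e ^ 2 + τ ^ 2) τ n := by
  have hr0 : 0 ≤ r₀ := by linarith
  have hy := h.y0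
  obtain ⟨W, hW⟩ : ∃ W, W = (1 + Real.log (4 / Δ)) * Δ := ⟨_, rfl⟩
  have hW0 : 0 ≤ W := by rw [hW]; exact omega_nonneg (h.Δ0 x) h.d4
  rw [← hW] at hMB ⊢
  have hln : (G.dist x z : ℝ) ≤ n := by exact_mod_cast hz
  have hl0 : (0 : ℝ) ≤ G.dist x z := Nat.cast_nonneg _
  have hn0 : (0 : ℝ) ≤ n := Nat.cast_nonneg _
  have hτ2 : (θ₁ - θ₂) ^ 2 ≤ τ ^ 2 := by
    rw [← sq_abs]
    exact pow_le_pow_left₀ (abs_nonneg _) h.dθ 2
  have hm : Measurable fun ω =>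
      (hN G θ₁ (fun v => M₁ v ω) x z - hN G θ₂ (fun v => M₂ v ω) x z) ^ 2 :=
    ((measurable_hN h.f₁.meas x z).sub (measurable_hN h.f₂.meas x z)).pow_const 2
  have hall : ∀ᵐ ω ∂(Pm V), ∀ v, (M₁ v ω - M₂ v ω) ^ 2 ≤ 4 :=
    ae_all_iff.2 fun v => (h.sq_le hr1.le v).mono fun ω hω => hω.2
  have hHB : ∀ᵐ ω ∂(Pm V), (hN G θ₁ (fun v => M₁ v ω) x z - hN G θ₂ (fun v => M₂ v ω) x z) ^ 2
      ≤ KP * (n + 1) * (∑ i ∈ Finset.range (G.dist x z + 1), 4 + n * (θ₁ - θ₂) ^ 2) := by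
    filter_upwards [hHz, hall] with ω h1 h2
    refine h1.trans ?_
    gcongr with i hi
    exact h2 _
  -- second bound
  have hkm : Measurable fun ω => hk G θ r₀ y (fun v => M v ω) x z' := measurable_hk hF.meas x z'
  have hki : Integrable (fun ω => hk G θ r₀ y (fun v => M v ω) x z') (Pm V) :=
    int_bdd (B := r₀ ^ (G.dist x z')) hkm (Eventually.of_forall fun ω => by
      rw [abs_of_nonneg (hk_nonneg hr0)]
      exact hk_le hr0 hy)
  have hdi : ∀ u, Integrable (fun ω => (M₁ u ω - M₂ u ω) ^ 2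
      * hk G θ r₀ y (fun v => M v ω) x z') (Pm V) := by
    intro u
    refine int_bdd (B := 4 * r₀ ^ (G.dist x z'))
      ((((h.f₁.meas u).sub (h.f₂.meas u)).pow_const 2).mul hkm) ?_
    filter_upwards [hall] with ω h1
    rw [abs_mul, abs_of_nonneg (sq_nonneg _), abs_of_nonneg (hk_nonneg hr0)]
    exact mul_le_mul (h1 u) (hk_le hr0 hy) (hk_nonneg hr0) (by norm_num)
  have hA2 : ∫ ω, (hN G θ₁ (fun v => M₁ v ω) x z - hN G θ₂ (fun v => M₂ v ω) x z) ^ 2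
      * hk G θ r₀ y (fun v => M v ω) x z' ∂(Pm V)
      ≤ (KP * KB) * ((n + 1) ^ 2 * (W + τ ^ 2)) := by
    have hpt : ∀ᵐ ω ∂(Pm V),
        (hN G θ₁ (fun v => M₁ v ω) x z - hN G θ₂ (fun v => M₂ v ω) x z) ^ 2
          * hk G θ r₀ y (fun v => M v ω) x z'
        ≤ KP * (n + 1) * (∑ i ∈ Finset.range (G.dist x z + 1),
          (M₁ (geo G x z i) ω - M₂ (geo G x z i) ω) ^ 2 * hk G θ r₀ y (fun v => M v ω) x z'
          + n * (θ₁ - θ₂) ^ 2 * hk G θ r₀ y (fun v => M v ω) x z') := by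
      filter_upwards [hHz] with ω h1
      refine (mul_le_mul_of_nonneg_right h1 (hk_nonneg hr0)).trans (le_of_eq ?_)
      rw [← Finset.sum_mul]
      ring
    have j1 : Integrable (fun ω => ∑ i ∈ Finset.range (G.dist x z + 1),
          (M₁ (geo G x z i) ω - M₂ (geo G x z i) ω) ^ 2 * hk G θ r₀ y (fun v => M v ω) x z')
          (Pm V) := integrable_finsetSum _ fun i _ => hdi _
    have j2 : Integrable (fun ω => n * (θ₁ - θ₂) ^ 2 * hk G θ r₀ y (fun v => M v ω) x z')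
        (Pm V) := hki.const_mul _
    have j3 : Integrable (fun ω => ∑ i ∈ Finset.range (G.dist x z + 1),
          (M₁ (geo G x z i) ω - M₂ (geo G x z i) ω) ^ 2 * hk G θ r₀ y (fun v => M v ω) x z'
          + n * (θ₁ - θ₂) ^ 2 * hk G θ r₀ y (fun v => M v ω) x z') (Pm V) := j1.add j2
    have j4 := j3.const_mul (KP * ((n : ℝ) + 1))
    have hpos : 0 ≤ᵐ[Pm V] fun ω =>
        (hN G θ₁ (fun v => M₁ v ω) x z - hN G θ₂ (fun v => M₂ v ω) x z) ^ 2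
          * hk G θ r₀ y (fun v => M v ω) x z' :=
      Eventually.of_forall fun ω => mul_nonneg (sq_nonneg _) (hk_nonneg hr0)
    refine (integral_mono_of_nonneg hpos j4 hpt).trans ?_
    rw [integral_const_mul, integral_add j1 j2, integral_finsetSum _ (fun i _ => hdi _),
      integral_const_mul]
    have k1 : ∑ i ∈ Finset.range (G.dist x z + 1), ∫ ω,
          (M₁ (geo G x z i) ω - M₂ (geo G x z i) ω) ^ 2 * hk G θ r₀ y (fun v => M v ω) x z'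
          ∂(Pm V) ≤ (n + 1) * (KB * W) := by
      refine (Finset.sum_le_card_nsmul _ _ (KB * W) fun i hi => ?_).trans ?_
      · rw [Finset.mem_range] at hi
        exact hMB x z' _ (dist_between hE.tree hb (by omega))
      · rw [Finset.card_range, nsmul_eq_mul]
        push_cast
        gcongr
    have k2 : n * (θ₁ - θ₂) ^ 2 * ∫ ω, hk G θ r₀ y (fun v => M v ω) x z' ∂(Pm V)
        ≤ (n + 1) * (KB * τ ^ 2) := by
      calc n * (θ₁ - θ₂) ^ 2 * ∫ ω, hk G θ r₀ y (fun v => M v ω) x z' ∂(Pm V)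
          ≤ ((n + 1) * τ ^ 2) * KB := by
            apply mul_le_mul _ (hMB1 x z') (integral_nonneg fun ω => hk_nonneg hr0)
              (by positivity)
            gcongr
            linarith
        _ = _ := by ring
    calc KP * (n + 1) * (_ + _) ≤ KP * (n + 1) * ((n + 1) * (KB * W) + (n + 1) * (KB * τ ^ 2)) := by
          gcongr
      _ = _ := by ring
  have hres := half_bound hF hr₀ hy h.y1 hm (Eventually.of_forall fun ω => sq_nonneg _) hHB x z'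
    (hMG x z) hA2 hz'
  refine ⟨hres.1, hres.2.trans ?_⟩
  rw [← hW]
  apply le_Rn
  · have h1 : (G.dist x z : ℝ) * y * W ≤ (n + 1) * y * W := by
      gcongr
      linarith
    have h2 : (G.dist x z : ℝ) ^ 2 * (e ^ 2 + τ ^ 2) ≤ (n + 1) ^ 2 * (e ^ 2 + τ ^ 2) := by
      gcongr
      linarith
    have h3 : 0 ≤ KP * KB := by positivity
    calc KG * (G.dist x z * y * W + (G.dist x z : ℝ) ^ 2 * (e ^ 2 + τ ^ 2))
        ≤ (KG + KP * KB) * (G.dist x z * y * W + (G.dist x z : ℝ) ^ 2 * (e ^ 2 + τ ^ 2)) := by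
          apply mul_le_mul_of_nonneg_right (by linarith)
          positivity
      _ ≤ _ := by
          apply mul_le_mul_of_nonneg_left _ (by positivity)
          linarith
  · apply mul_le_mul_of_nonneg_right (by linarith)
    positivity

/-- a squared difference against the damping -/
theorem T_bound [Countable V] [G.LocallyFinite] {D : ℕ} {θ₁ θ₂ r r₀ y c C l₀ : ℝ}
    {M₁ M₂ : V → Om V → ℝ} {Δ e τ : ℝ} (hr1 : r < 1)
    (h : Pair G D θ₁ θ₂ r r₀ y c C l₀ M₁ M₂ Δ e τ) (hr₀ : 1 < r₀) {θ : ℝ} {M : V → Om V → ℝ}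
    (hF : Fld G D θ r r₀ y c C l₀ M) {KB : ℝ} (hKB : 0 < KB)
    {n : ℕ} {x z' u : V}
    (hMB : ∫ ω, (M₁ u ω - M₂ u ω) ^ 2 * hk G θ r₀ y (fun v => M v ω) x z' ∂(Pm V)
        ≤ KB * ((1 + Real.log (4 / Δ)) * Δ)) (hz' : n ≤ 2 * G.dist x z' + 1) :
    Integrable (fun ω => (M₁ u ω - M₂ u ω) ^ 2
      * Real.exp (-(hs G θ (fun v => M v ω) x z'))) (Pm V) ∧
    ∫ ω, (M₁ u ω - M₂ u ω) ^ 2 * Real.exp (-(hs G θ (fun v => M v ω) x z')) ∂(Pm V)
      ≤ (1 + KB) * Rn (Real.log r₀ / 2) y ((1 + Real.log (4 / Δ)) * Δ) (e ^ 2 + τ ^ 2) τ n := by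
  have hy := h.y0
  have hn0 : (0 : ℝ) ≤ n := Nat.cast_nonneg _
  have hW0 : 0 ≤ (1 + Real.log (4 / Δ)) * Δ := omega_nonneg (h.Δ0 x) h.d4
  have hΔW := Δ_le_W (h.Δ0 x) h.d4
  have hres := half_bound hF hr₀ hy h.y1 (((h.f₁.meas u).sub (h.f₂.meas u)).pow_const 2)
    (Eventually.of_forall fun ω => sq_nonneg _) ((h.sq_le hr1.le u).mono fun ω hω => hω.2) x z'
    (h.dl u) hMB hz'
  refine ⟨hres.1, hres.2.trans ?_⟩
  generalize (1 + Real.log (4 / Δ)) * Δ = W at *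
  apply le_Rn
  · have h1 : 0 ≤ (n + 1) * y * W + (n + 1) ^ 2 * (e ^ 2 + τ ^ 2) := by positivity
    have h2 : 0 ≤ KB * ((n + 1) * y * W + (n + 1) ^ 2 * (e ^ 2 + τ ^ 2) + W) := by positivity
    linarith
  · have h1 : W ≤ (n + 1) ^ 2 * (W + τ ^ 2) := by
      have h3 : (1 : ℝ) ≤ (n + 1) ^ 2 := by nlinarith
      have h4 : 0 ≤ W + τ ^ 2 := by positivity
      nlinarith [mul_le_mul_of_nonneg_right h3 h4, sq_nonneg τ]
    calc KB * W ≤ (1 + KB) * W := by nlinarith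
      _ ≤ _ := by gcongr

/-- a constant against the damping -/
theorem C_bound [Countable V] [G.LocallyFinite] {D : ℕ} {θ₁ θ₂ r r₀ y c C l₀ : ℝ}
    {M₁ M₂ : V → Om V → ℝ} {Δ e τ : ℝ}
    (h : Pair G D θ₁ θ₂ r r₀ y c C l₀ M₁ M₂ Δ e τ) (hr₀ : 1 < r₀) {θ : ℝ} {M : V → Om V → ℝ}
    (hF : Fld G D θ r r₀ y c C l₀ M) {KB : ℝ} (hKB : 0 < KB)
    {n : ℕ} {x z' : V}
    (hMB1 : ∫ ω, hk G θ r₀ y (fun v => M v ω) x z' ∂(Pm V) ≤ KB)
    (hz' : n ≤ 2 * G.dist x z' + 1) :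
    Integrable (fun ω => (n : ℝ) ^ 2 * (θ₁ - θ₂) ^ 2
      * Real.exp (-(hs G θ (fun v => M v ω) x z'))) (Pm V) ∧
    ∫ ω, (n : ℝ) ^ 2 * (θ₁ - θ₂) ^ 2 * Real.exp (-(hs G θ (fun v => M v ω) x z')) ∂(Pm V)
      ≤ (1 + KB) * Rn (Real.log r₀ / 2) y ((1 + Real.log (4 / Δ)) * Δ) (e ^ 2 + τ ^ 2) τ n := by
  have hy := h.y0
  have hn0 : (0 : ℝ) ≤ n := Nat.cast_nonneg _
  have hW0 : 0 ≤ (1 + Real.log (4 / Δ)) * Δ := omega_nonneg (h.Δ0 x) h.d4
  have hτ2 : (θ₁ - θ₂) ^ 2 ≤ τ ^ 2 := by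
    rw [← sq_abs]
    exact pow_le_pow_left₀ (abs_nonneg _) h.dθ 2
  have hT0 : 0 ≤ (n : ℝ) ^ 2 * (θ₁ - θ₂) ^ 2 := by positivity
  have hT : (n : ℝ) ^ 2 * (θ₁ - θ₂) ^ 2 ≤ (n + 1) ^ 2 * τ ^ 2 := by
    gcongr
    linarith
  have hres := half_bound hF hr₀ hy h.y1 (X := fun _ => (n : ℝ) ^ 2 * (θ₁ - θ₂) ^ 2)
    (B := (n : ℝ) ^ 2 * (θ₁ - θ₂) ^ 2) measurable_const
    (Eventually.of_forall fun ω => hT0) (Eventually.of_forall fun ω => le_rfl) x z'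
    (A1 := (n + 1) ^ 2 * τ ^ 2) (A2 := (n + 1) ^ 2 * τ ^ 2 * KB)
    (by rw [integral_const]; simpa using hT)
    (by
      rw [integral_const_mul]
      apply mul_le_mul hT hMB1 (integral_nonneg fun ω => hk_nonneg (by linarith)) (by positivity))
    hz'
  refine ⟨hres.1, hres.2.trans ?_⟩
  generalize (1 + Real.log (4 / Δ)) * Δ = W at *
  apply le_Rn
  · have h1 : 0 ≤ (n + 1) * y * W + (n + 1) ^ 2 * e ^ 2 + W := by positivity
    have h2 : 0 ≤ KB * ((n + 1) * y * W + (n + 1) ^ 2 * (e ^ 2 + τ ^ 2) + W) := by positivity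
    linarith
  · have h1 : 0 ≤ ((n : ℝ) + 1) ^ 2 * τ ^ 2 := by positivity
    have h2 : 0 ≤ (1 + KB) * ((n + 1) ^ 2 * W) := by positivity
    nlinarith

/-- pointwise algebra -/
theorem pt_alg {KP t₁ t₂ a1 b1 a2 b2 Hv Hw δx T δw p1 p2 F : ℝ} (hKP : 0 ≤ KP) (ht₁ : 0 ≤ t₁)
    (ht₂ : 0 ≤ t₂) (ha1 : 0 ≤ a1) (ha1' : a1 ≤ 1) (hb1 : 0 ≤ b1) (hb1' : b1 ≤ 1)
    (ha2 : 0 ≤ a2) (ha2' : a2 ≤ 1) (hb2 : 0 ≤ b2) (hb2' : b2 ≤ 1) (hHv : 0 ≤ Hv) (hHw : 0 ≤ Hw)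
    (hδx : 0 ≤ δx) (hT : 0 ≤ T) (hδw : 0 ≤ δw)
    (h1 : (p1 - p2) ^ 2 ≤ KP * (t₁ * (a1 * b1) + t₂ * (a2 * b2)) * (Hv + Hw + δx + T))
    (h2 : p2 ^ 2 ≤ t₂ * (a2 * b2)) (hF : F = (p1 - p2) ^ 2 + p2 ^ 2 * δw) :
    F ≤ KP * (t₁ * (((Hv * b1 + Hw * a1) + δx * b1) + T * b1)
      + t₂ * (((Hv * b2 + Hw * a2) + δx * b2) + T * b2)) + t₂ * (δw * a2) := by
  have key : ∀ a b : ℝ, 0 ≤ a → a ≤ 1 → 0 ≤ b → b ≤ 1 →
      (a * b) * (Hv + Hw + δx + T) ≤ ((Hv * b + Hw * a) + δx * b) + T * b := by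
    intro a b h0 h1 h2 h3
    have e1 : a * b ≤ b := mul_le_of_le_one_left h2 h1
    have e2 : a * b ≤ a := mul_le_of_le_one_right h0 h3
    have f1 := mul_le_mul_of_nonneg_right e1 hHv
    have f2 := mul_le_mul_of_nonneg_right e2 hHw
    have f3 := mul_le_mul_of_nonneg_right e1 hδx
    have f4 := mul_le_mul_of_nonneg_right e1 hT
    linarith
  have k1 := mul_le_mul_of_nonneg_left (key a1 b1 ha1 ha1' hb1 hb1') ht₁
  have k2 := mul_le_mul_of_nonneg_left (key a2 b2 ha2 ha2' hb2 hb2') ht₂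
  have k3 := mul_le_mul_of_nonneg_left (add_le_add k1 k2) hKP
  have k4 : p2 ^ 2 * δw ≤ t₂ * (δw * a2) := by
    have e1 : a2 * b2 ≤ a2 := mul_le_of_le_one_right ha2 hb2'
    calc p2 ^ 2 * δw ≤ (t₂ * (a2 * b2)) * δw := mul_le_mul_of_nonneg_right h2 hδw
      _ ≤ (t₂ * a2) * δw := by gcongr
      _ = _ := by ring
  rw [hF]
  linarith

theorem int_four_add {Ω : Type*} [MeasurableSpace Ω] {P : Measure Ω} {f1 f2 f3 f4 : Ω → ℝ}
    {B1 B2 B3 B4 : ℝ}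
    (h1 : Integrable f1 P ∧ ∫ ω, f1 ω ∂P ≤ B1) (h2 : Integrable f2 P ∧ ∫ ω, f2 ω ∂P ≤ B2)
    (h3 : Integrable f3 P ∧ ∫ ω, f3 ω ∂P ≤ B3) (h4 : Integrable f4 P ∧ ∫ ω, f4 ω ∂P ≤ B4) :
    Integrable (fun ω => ((f1 ω + f2 ω) + f3 ω) + f4 ω) P ∧
      ∫ ω, (((f1 ω + f2 ω) + f3 ω) + f4 ω) ∂P ≤ ((B1 + B2) + B3) + B4 := by
  have i12 : Integrable (fun ω => f1 ω + f2 ω) P := h1.1.add h2.1
  have i123 : Integrable (fun ω => (f1 ω + f2 ω) + f3 ω) P := i12.add h3.1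
  refine ⟨i123.add h4.1, ?_⟩
  rw [integral_add i123 h4.1, integral_add i12 h3.1, integral_add h1.1 h2.1]
  linarith [h1.2, h2.2, h3.2, h4.2]

theorem int_comb {Ω : Type*} [MeasurableSpace Ω] {P : Measure Ω} {f1 f2 f3 : Ω → ℝ}
    {k t₁ t₂ B1 B2 B3 : ℝ} (hk : 0 ≤ k) (ht₁ : 0 ≤ t₁) (ht₂ : 0 ≤ t₂)
    (h1 : Integrable f1 P ∧ ∫ ω, f1 ω ∂P ≤ B1) (h2 : Integrable f2 P ∧ ∫ ω, f2 ω ∂P ≤ B2)
    (h3 : Integrable f3 P ∧ ∫ ω, f3 ω ∂P ≤ B3) :
    Integrable (fun ω => k * (t₁ * f1 ω + t₂ * f2 ω) + t₂ * f3 ω) P ∧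
      ∫ ω, (k * (t₁ * f1 ω + t₂ * f2 ω) + t₂ * f3 ω) ∂P ≤ k * (t₁ * B1 + t₂ * B2) + t₂ * B3 := by
  have i1 : Integrable (fun ω => t₁ * f1 ω) P := h1.1.const_mul _
  have i2 : Integrable (fun ω => t₂ * f2 ω) P := h2.1.const_mul _
  have i12 : Integrable (fun ω => t₁ * f1 ω + t₂ * f2 ω) P := i1.add i2
  have i4 : Integrable (fun ω => k * (t₁ * f1 ω + t₂ * f2 ω)) P := i12.const_mul _
  have i3 : Integrable (fun ω => t₂ * f3 ω) P := h3.1.const_mul _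
  refine ⟨i4.add i3, ?_⟩
  rw [integral_add i4 i3, integral_const_mul, integral_add i1 i2, integral_const_mul,
    integral_const_mul, integral_const_mul]
  have e1 := mul_le_mul_of_nonneg_left h1.2 ht₁
  have e2 := mul_le_mul_of_nonneg_left h2.2 ht₂
  have e3 := mul_le_mul_of_nonneg_left h3.2 ht₂
  have e4 := mul_le_mul_of_nonneg_left (add_le_add e1 e2) hk
  linarith

theorem pair_bound (hM : MSG) (hS : SHP.{u}) {D : ℕ} {r r₀ c C l₀ : ℝ} (hD : 2 ≤ D)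
    (hr0 : 0 < r) (hr1 : r < 1) (hr₀ : 1 < r₀) (hc : 0 < c) (hC : 0 < C) (hl₀ : 0 < l₀) :
    ∃ K : ℝ, 0 < K ∧ ∀ (V : Type u) [Countable V] (G : SimpleGraph V) [G.LocallyFinite]
      (θ₁ θ₂ y : ℝ) (M₁ M₂ : V → Om V → ℝ) (Δ e τ : ℝ), Env G D →
      Pair G D θ₁ θ₂ r r₀ y c C l₀ M₁ M₂ Δ e τ → ∀ v w,
      ∫ ω, ((cvp G θ₁ (fun x => M₁ x ω) v w - cvp G θ₂ (fun x => M₂ x ω) v w) ^ 2
          + cvp G θ₂ (fun x => M₂ x ω) v w ^ 2 * (M₁ w ω - M₂ w ω) ^ 2) ∂(Pm V)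
      ≤ K * (θ₁ ^ (2 * G.dist v w) + θ₂ ^ (2 * G.dist v w))
        * Rn (Real.log r₀ / 2) y ((1 + Real.log (4 / Δ)) * Δ) (e ^ 2 + τ ^ 2) τ (G.dist v w) := by
  obtain ⟨KP, hKP, hmp⟩ := mp_proof.{u} hM D r hD hr0.le hr1
  obtain ⟨KG, hKG, hmg⟩ := mg_proof.{u} hM hS D r r₀ c C l₀ hD hr0 hr1 hr₀ hc hC hl₀
  obtain ⟨KB, hKB, hmb⟩ := mb_proof.{u} hS D r r₀ c C l₀ hD hr0 hr1 hr₀ hc hC hl₀
  obtain ⟨K2, hK2⟩ : ∃ K2, K2 = (((KG + KP * KB) + (KG + KP * KB)) + (1 + KB)) + (1 + KB) :=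
    ⟨_, rfl⟩
  have hK2p : 0 < K2 := by rw [hK2]; positivity
  refine ⟨(KP + 1) * K2, by positivity, ?_⟩
  intro V _ G _ θ₁ θ₂ y M₁ M₂ Δ e τ hE h v w
  have hG := hE.tree
  obtain ⟨n, hn⟩ : ∃ n, n = G.dist v w := ⟨_, rfl⟩
  obtain ⟨x, hx⟩ : ∃ x, x = geo G v w (n / 2) := ⟨_, rfl⟩
  have hkn : n / 2 ≤ G.dist v w := by rw [← hn]; exact Nat.div_le_self n 2
  have hxv : G.dist x v = n / 2 := by rw [hx]; exact dist_half_left hG hkn
  have hxw : G.dist x w = n - n / 2 := by rw [hx, dist_half_right hG hkn, ← hn]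
  have hvx : G.dist v x = n / 2 := by rw [SimpleGraph.dist_comm]; exact hxv
  have hwx : G.dist w x = n - n / 2 := by rw [SimpleGraph.dist_comm]; exact hxw
  have hwv : G.dist w v = n := by rw [SimpleGraph.dist_comm, ← hn]
  have hb1 : G.dist v w = G.dist v x + G.dist x w := by omega
  have hb2 : G.dist w v = G.dist w x + G.dist x v := by omega
  have hB := hmb V G θ₁ θ₂ y M₁ M₂ Δ e τ hE h
  have hGg := hmg V G θ₁ θ₂ y M₁ M₂ Δ e τ hE h
  have hBx : ∀ x w, G.dist x w = G.dist x x + G.dist x w := fun x w => by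
    rw [SimpleGraph.dist_self, zero_add]
  have hmp1 := fun (ω : Om V) (hω : (∀ v, |M₁ v ω| ≤ r) ∧ ∀ v, |M₂ v ω| ≤ r) =>
    hmp V G θ₁ θ₂ (fun v => M₁ v ω) (fun v => M₂ v ω) hE h.a₁ h.b₁ h.c₁ h.a₂ h.b₂ h.c₂
      hω.1 hω.2 v w x n hn hx
  have hmp2 := fun (ω : Om V) (hω : (∀ v, |M₁ v ω| ≤ r) ∧ ∀ v, |M₂ v ω| ≤ r) =>
    hmp V G θ₂ θ₁ (fun v => M₂ v ω) (fun v => M₁ v ω) hE h.a₂ h.b₂ h.c₂ h.a₁ h.b₁ h.c₁
      hω.2 hω.1 v w x n hn hx
  have hHv : ∀ᵐ ω ∂(Pm V),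
      (hN G θ₁ (fun v => M₁ v ω) x v - hN G θ₂ (fun v => M₂ v ω) x v) ^ 2
      ≤ KP * (n + 1) * (∑ i ∈ Finset.range (G.dist x v + 1),
        (M₁ (geo G x v i) ω - M₂ (geo G x v i) ω) ^ 2 + n * (θ₁ - θ₂) ^ 2) := by
    filter_upwards [h.ae] with ω hω using (hmp1 ω hω).2.2.2
  have hHw : ∀ᵐ ω ∂(Pm V),
      (hN G θ₁ (fun v => M₁ v ω) x w - hN G θ₂ (fun v => M₂ v ω) x w) ^ 2
      ≤ KP * (n + 1) * (∑ i ∈ Finset.range (G.dist x w + 1),
        (M₁ (geo G x w i) ω - M₂ (geo G x w i) ω) ^ 2 + n * (θ₁ - θ₂) ^ 2) := by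
    filter_upwards [h.ae] with ω hω using (hmp1 ω hω).2.2.1
  have hpt : ∀ᵐ ω ∂(Pm V),
      ((cvp G θ₁ (fun x => M₁ x ω) v w - cvp G θ₂ (fun x => M₂ x ω) v w) ^ 2
          + cvp G θ₂ (fun x => M₂ x ω) v w ^ 2 * (M₁ w ω - M₂ w ω) ^ 2)
      ≤ KP * (θ₁ ^ (2 * n)
          * ((((hN G θ₁ (fun v => M₁ v ω) x v - hN G θ₂ (fun v => M₂ v ω) x v) ^ 2
              * Real.exp (-(hs G θ₁ (fun v => M₁ v ω) x w))
            + (hN G θ₁ (fun v => M₁ v ω) x w - hN G θ₂ (fun v => M₂ v ω) x w) ^ 2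
              * Real.exp (-(hs G θ₁ (fun v => M₁ v ω) x v)))
            + (M₁ x ω - M₂ x ω) ^ 2 * Real.exp (-(hs G θ₁ (fun v => M₁ v ω) x w)))
            + n ^ 2 * (θ₁ - θ₂) ^ 2 * Real.exp (-(hs G θ₁ (fun v => M₁ v ω) x w)))
        + θ₂ ^ (2 * n)
          * ((((hN G θ₁ (fun v => M₁ v ω) x v - hN G θ₂ (fun v => M₂ v ω) x v) ^ 2
              * Real.exp (-(hs G θ₂ (fun v => M₂ v ω) x w))
            + (hN G θ₁ (fun v => M₁ v ω) x w - hN G θ₂ (fun v => M₂ v ω) x w) ^ 2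
              * Real.exp (-(hs G θ₂ (fun v => M₂ v ω) x v)))
            + (M₁ x ω - M₂ x ω) ^ 2 * Real.exp (-(hs G θ₂ (fun v => M₂ v ω) x w)))
            + n ^ 2 * (θ₁ - θ₂) ^ 2 * Real.exp (-(hs G θ₂ (fun v => M₂ v ω) x w))))
        + θ₂ ^ (2 * n) * ((M₁ w ω - M₂ w ω) ^ 2
            * Real.exp (-(hs G θ₂ (fun v => M₂ v ω) x v))) := by
    filter_upwards [h.ae] with ω hω
    have hexp1 : ∀ (θ : ℝ) (M : V → ℝ) (z : V), Real.exp (-(hs G θ M x z)) ≤ 1 := fun θ M z =>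
      Real.exp_le_one_iff.2 (by
        have := hs_nonneg (G := G) (θ := θ) (M := M) x z
        linarith)
    exact pt_alg hKP.le (by rw [pow_mul']; exact sq_nonneg _) (by rw [pow_mul']; exact sq_nonneg _)
      (Real.exp_pos _).le (hexp1 _ _ _) (Real.exp_pos _).le (hexp1 _ _ _)
      (Real.exp_pos _).le (hexp1 _ _ _) (Real.exp_pos _).le (hexp1 _ _ _)
      (sq_nonneg _) (sq_nonneg _) (sq_nonneg _) (by positivity) (sq_nonneg _)
      (hmp1 ω hω).2.1 (hmp2 ω hω).1 rfl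
  have S1 := int_four_add
    (S_bound hE hr1 h hr₀ h.f₁ hKP hKG hKB hGg (fun x w u hu => (hB x w u hu).1)
      (fun x w => (hB x w x (hBx x w)).2.2.1) (n := n) (x := x) (z := v) (z' := w) hb1
      (by omega) (by omega) hHv)
    (S_bound hE hr1 h hr₀ h.f₁ hKP hKG hKB hGg (fun x w u hu => (hB x w u hu).1)
      (fun x w => (hB x w x (hBx x w)).2.2.1) (n := n) (x := x) (z := w) (z' := v) hb2
      (by omega) (by omega) hHw)
    (T_bound hr1 h hr₀ h.f₁ hKB (n := n) (hB x w x (hBx x w)).1 (by omega))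
    (C_bound h hr₀ h.f₁ hKB (n := n) (hB x w x (hBx x w)).2.2.1 (by omega))
  have S2 := int_four_add
    (S_bound hE hr1 h hr₀ h.f₂ hKP hKG hKB hGg (fun x w u hu => (hB x w u hu).2.1)
      (fun x w => (hB x w x (hBx x w)).2.2.2) (n := n) (x := x) (z := v) (z' := w) hb1
      (by omega) (by omega) hHv)
    (S_bound hE hr1 h hr₀ h.f₂ hKP hKG hKB hGg (fun x w u hu => (hB x w u hu).2.1)
      (fun x w => (hB x w x (hBx x w)).2.2.2) (n := n) (x := x) (z := w) (z' := v) hb2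
      (by omega) (by omega) hHw)
    (T_bound hr1 h hr₀ h.f₂ hKB (n := n) (hB x w x (hBx x w)).2.1 (by omega))
    (C_bound h hr₀ h.f₂ hKB (n := n) (hB x w x (hBx x w)).2.2.2 (by omega))
  have U := T_bound hr1 h hr₀ h.f₂ hKB (n := n) (hB x v w hb2).2.1 (by omega)
  have ht₁ : 0 ≤ θ₁ ^ (2 * n) := by rw [pow_mul']; exact sq_nonneg _
  have ht₂ : 0 ≤ θ₂ ^ (2 * n) := by rw [pow_mul']; exact sq_nonneg _
  have hfin := int_comb hKP.le ht₁ ht₂ S1 S2 U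
  rw [← hn]
  have hpos : 0 ≤ᵐ[Pm V] fun ω =>
      ((cvp G θ₁ (fun x => M₁ x ω) v w - cvp G θ₂ (fun x => M₂ x ω) v w) ^ 2
          + cvp G θ₂ (fun x => M₂ x ω) v w ^ 2 * (M₁ w ω - M₂ w ω) ^ 2) :=
    Eventually.of_forall fun ω => by positivity
  refine ((integral_mono_of_nonneg hpos hfin.1 hpt).trans hfin.2).trans ?_
  have hR : 0 ≤ Rn (Real.log r₀ / 2) y ((1 + Real.log (4 / Δ)) * Δ) (e ^ 2 + τ ^ 2) τ n := by
    have hW0 : 0 ≤ (1 + Real.log (4 / Δ)) * Δ := omega_nonneg (h.Δ0 x) h.d4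
    have hy := h.y0
    unfold Rn
    positivity
  generalize Rn (Real.log r₀ / 2) y ((1 + Real.log (4 / Δ)) * Δ) (e ^ 2 + τ ^ 2) τ n = R at *
  generalize θ₁ ^ (2 * n) = t₁ at *
  generalize θ₂ ^ (2 * n) = t₂ at *
  have e1 : (KG + KP * KB) * R + (KG + KP * KB) * R + (1 + KB) * R + (1 + KB) * R = K2 * R := by
    rw [hK2]; ring
  rw [e1]
  have e2 : (1 + KB) * R ≤ K2 * R := by
    apply mul_le_mul_of_nonneg_right _ hR
    rw [hK2]
    have : 0 ≤ KG + KP * KB := by positivity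
    linarith
  have e3 := mul_le_mul_of_nonneg_left e2 ht₂
  have e4 : 0 ≤ t₁ * (K2 * R) := by positivity
  have e5 : (KP + 1) * K2 * (t₁ + t₂) * R
      = KP * (t₁ * (K2 * R) + t₂ * (K2 * R)) + t₁ * (K2 * R) + t₂ * (K2 * R) := by ring
  rw [e5]
  linarith

/-- sum over the distances -/
theorem sum_Rn {a : ℝ} (ha : 0 < a) : ∃ K : ℝ, 0 < K ∧ ∀ (y W E τ : ℝ), 0 < y → y ≤ 1 → 0 ≤ W →
    τ ^ 2 ≤ E → ∀ N, ∑ n ∈ Finset.range N, Rn a y W E τ n ≤ K * (W / y + E / y ^ 3) := by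
  obtain ⟨κ, hκ⟩ : ∃ κ, κ = a / 2 * Real.exp (-(a / 2)) := ⟨_, rfl⟩
  have hκ0 : 0 < κ := by rw [hκ]; positivity
  refine ⟨Real.exp a * (1 / κ ^ 2 + 2 / κ ^ 3 + 1 / κ + 2 / κ ^ 3), by positivity, ?_⟩
  intro y W E τ hy hy1 hW hE N
  have hE0 : 0 ≤ E := (sq_nonneg τ).trans hE
  have low : ∀ z : ℝ, 0 < z → z ≤ 1 → κ * z ≤ 1 - Real.exp (-(a * z / 2)) := by
    intro z hz hz1
    have h1 : a * z / 2 + 1 ≤ Real.exp (a * z / 2) := Real.add_one_le_exp _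
    have h2 : Real.exp (-(a / 2)) ≤ Real.exp (-(a * z / 2)) := Real.exp_le_exp.2 (by nlinarith)
    have h3 : Real.exp (-(a * z / 2)) * Real.exp (a * z / 2) = 1 := by
      rw [← Real.exp_add]; simp
    have h4 := Real.exp_pos (-(a * z / 2))
    calc κ * z = (a * z / 2) * Real.exp (-(a / 2)) := by rw [hκ]; ring
      _ ≤ (a * z / 2) * Real.exp (-(a * z / 2)) := by gcongr
      _ ≤ 1 - Real.exp (-(a * z / 2)) := by nlinarith
  have exp_lt : ∀ z : ℝ, 0 < z → Real.exp (-(a * z / 2)) < 1 := fun z hz => by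
    rw [← Real.exp_zero]
    apply Real.exp_lt_exp.2
    have : 0 < a * z / 2 := by positivity
    linarith
  obtain ⟨ρ, hρ⟩ : ∃ ρ, ρ = Real.exp (-(a * y / 2)) := ⟨_, rfl⟩
  obtain ⟨σ, hσ⟩ : ∃ σ, σ = Real.exp (-(a / 2)) := ⟨_, rfl⟩
  have hρ0 : 0 ≤ ρ := by rw [hρ]; positivity
  have hσ0 : 0 ≤ σ := by rw [hσ]; positivity
  have hρ1 : ρ < 1 := by rw [hρ]; exact exp_lt y hy
  have hσ1 : σ < 1 := by
    have := exp_lt 1 one_pos
    rw [mul_one] at this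
    rw [hσ]; exact this
  have hρl : κ * y ≤ 1 - ρ := by rw [hρ]; exact low y hy hy1
  have hσl : κ ≤ 1 - σ := by
    have := low 1 one_pos le_rfl
    rw [mul_one, mul_one] at this
    rw [hσ]; exact this
  have g1 := geom_sum_bound hρ0 hρ1 N
  have g2 := geom_sum_sq hρ0 hρ1 N
  have g3 := geom_sum_one hρ0 hρ1 N
  have g4 := geom_sum_sq hσ0 hσ1 N
  have p1 : 1 / (1 - ρ) ^ 2 ≤ 1 / (κ * y) ^ 2 := by gcongr
  have p2 : 2 / (1 - ρ) ^ 3 ≤ 2 / (κ * y) ^ 3 := by gcongr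
  have p3 : 1 / (1 - ρ) ≤ 1 / (κ * y) := by gcongr
  have p4 : 2 / (1 - σ) ^ 3 ≤ 2 / κ ^ 3 := by gcongr
  have e1 : ∑ n ∈ Finset.range N, Rn a y W E τ n
      = Real.exp a * (y * W * ∑ n ∈ Finset.range N, ((n : ℝ) + 1) * ρ ^ n
        + E * ∑ n ∈ Finset.range N, ((n : ℝ) + 1) ^ 2 * ρ ^ n
        + W * ∑ n ∈ Finset.range N, ρ ^ n
        + (W + τ ^ 2) * ∑ n ∈ Finset.range N, ((n : ℝ) + 1) ^ 2 * σ ^ n) := by
    simp only [Rn, ← hρ, ← hσ, Finset.mul_sum, ← Finset.sum_add_distrib]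
    refine Finset.sum_congr rfl fun n _ => ?_
    ring
  rw [e1]
  have q1 : y * W * ∑ n ∈ Finset.range N, ((n : ℝ) + 1) * ρ ^ n ≤ 1 / κ ^ 2 * (W / y) := by
    calc y * W * ∑ n ∈ Finset.range N, ((n : ℝ) + 1) * ρ ^ n ≤ y * W * (1 / (κ * y) ^ 2) := by
          apply mul_le_mul_of_nonneg_left (g1.trans p1)
          positivity
      _ = _ := by field_simp
  have q2 : E * ∑ n ∈ Finset.range N, ((n : ℝ) + 1) ^ 2 * ρ ^ n ≤ 2 / κ ^ 3 * (E / y ^ 3) := by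
    calc E * ∑ n ∈ Finset.range N, ((n : ℝ) + 1) ^ 2 * ρ ^ n ≤ E * (2 / (κ * y) ^ 3) := by
          apply mul_le_mul_of_nonneg_left (g2.trans p2) hE0
      _ = _ := by field_simp
  have q3 : W * ∑ n ∈ Finset.range N, ρ ^ n ≤ 1 / κ * (W / y) := by
    calc W * ∑ n ∈ Finset.range N, ρ ^ n ≤ W * (1 / (κ * y)) := by
          apply mul_le_mul_of_nonneg_left (g3.trans p3) hW
      _ = _ := by field_simp
  have hWy : W ≤ W / y := by
    rw [le_div_iff₀ hy]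
    nlinarith
  have hEy : E ≤ E / y ^ 3 := by
    rw [le_div_iff₀ (by positivity)]
    have : y ^ 3 ≤ 1 := pow_le_one₀ hy.le hy1
    nlinarith
  have q4 : (W + τ ^ 2) * ∑ n ∈ Finset.range N, ((n : ℝ) + 1) ^ 2 * σ ^ n
      ≤ 2 / κ ^ 3 * (W / y + E / y ^ 3) := by
    calc (W + τ ^ 2) * ∑ n ∈ Finset.range N, ((n : ℝ) + 1) ^ 2 * σ ^ n
        ≤ (W + τ ^ 2) * (2 / κ ^ 3) := by
          apply mul_le_mul_of_nonneg_left (g4.trans p4)
          positivity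
      _ ≤ (W / y + E / y ^ 3) * (2 / κ ^ 3) := by
          apply mul_le_mul_of_nonneg_right _ (by positivity)
          linarith
      _ = _ := mul_comm _ _
  have x1 : 0 ≤ W / y := by positivity
  have x2 : 0 ≤ E / y ^ 3 := by positivity
  have y1 : 0 ≤ 1 / κ ^ 2 * (E / y ^ 3) := by positivity
  have y2 : 0 ≤ 2 / κ ^ 3 * (W / y) := by positivity
  have y3 : 0 ≤ 1 / κ * (E / y ^ 3) := by positivity
  rw [mul_assoc (Real.exp a)]
  apply mul_le_mul_of_nonneg_left _ (Real.exp_pos a).le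
  generalize W / y = X at *
  generalize E / y ^ 3 = Z at *
  linarith

end MainI

theorem main_proof (hM : MSG) (hS : SHP.{u}) : MAIN.{u} := by
  intro D r r₀ c C l₀ hD hr0 hr1 hr₀ hc hC hl₀
  obtain ⟨K, hK, hpb⟩ := MainI.pair_bound.{u} hM hS hD hr0 hr1 hr₀ hc hC hl₀
  obtain ⟨K', hK', hsum⟩ := MainI.sum_Rn (a := Real.log r₀ / 2) (by
    have := Real.log_pos hr₀
    positivity)
  refine ⟨4 * K * K', by positivity, ?_⟩
  intro V _ G _ θ₁ θ₂ y M₁ M₂ Δ e τ hE h v N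
  have hy := h.y0
  have hW0 : 0 ≤ (1 + Real.log (4 / Δ)) * Δ := omega_nonneg (h.Δ0 v) h.d4
  have hD0 : (0 : ℝ) ≤ D := Nat.cast_nonneg _
  have h1 : ∑ w ∈ ballF G hE.tree.connected v N, ∫ ω,
        ((cvp G θ₁ (fun x => M₁ x ω) v w - cvp G θ₂ (fun x => M₂ x ω) v w) ^ 2
          + cvp G θ₂ (fun x => M₂ x ω) v w ^ 2 * (M₁ w ω - M₂ w ω) ^ 2) ∂(Pm V)
      ≤ ∑ w ∈ ballF G hE.tree.connected v N,
        (fun n => K * (θ₁ ^ (2 * n) + θ₂ ^ (2 * n))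
        * MainI.Rn (Real.log r₀ / 2) y ((1 + Real.log (4 / Δ)) * Δ) (e ^ 2 + τ ^ 2) τ n)
          (G.dist v w) :=
    Finset.sum_le_sum fun w _ => hpb V G θ₁ θ₂ y M₁ M₂ Δ e τ hE h v w
  have hR : ∀ n, 0 ≤ MainI.Rn (Real.log r₀ / 2) y ((1 + Real.log (4 / Δ)) * Δ)
      (e ^ 2 + τ ^ 2) τ n := by
    intro n
    unfold MainI.Rn
    positivity
  have ht : ∀ (θ : ℝ) (n : ℕ), 0 ≤ θ ^ (2 * n) := fun θ n => by
    rw [pow_mul']; exact sq_nonneg _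
  refine h1.trans ((MainI.sum_ball hE v N (fun n => K * (θ₁ ^ (2 * n) + θ₂ ^ (2 * n))
        * MainI.Rn (Real.log r₀ / 2) y ((1 + Real.log (4 / Δ)) * Δ) (e ^ 2 + τ ^ 2) τ n)
        fun n => ?_).trans ?_)
  · have := hR n
    have := ht θ₁ n
    have := ht θ₂ n
    positivity
  · have h2 : ∀ n, 2 * (D : ℝ) ^ n * (K * (θ₁ ^ (2 * n) + θ₂ ^ (2 * n))
        * MainI.Rn (Real.log r₀ / 2) y ((1 + Real.log (4 / Δ)) * Δ) (e ^ 2 + τ ^ 2) τ n)
        ≤ 4 * K * MainI.Rn (Real.log r₀ / 2) y ((1 + Real.log (4 / Δ)) * Δ)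
          (e ^ 2 + τ ^ 2) τ n := by
      intro n
      have e1 : ∀ θ : ℝ, θ ^ 2 * D ≤ 1 → (D : ℝ) ^ n * θ ^ (2 * n) ≤ 1 := by
        intro θ hθ
        rw [pow_mul, ← mul_pow, mul_comm]
        exact pow_le_one₀ (by positivity) hθ
      have e2 := e1 θ₁ h.b₁
      have e3 := e1 θ₂ h.b₂
      calc 2 * (D : ℝ) ^ n * (K * (θ₁ ^ (2 * n) + θ₂ ^ (2 * n))
            * MainI.Rn (Real.log r₀ / 2) y ((1 + Real.log (4 / Δ)) * Δ) (e ^ 2 + τ ^ 2) τ n)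
          = (2 * K * ((D : ℝ) ^ n * θ₁ ^ (2 * n) + (D : ℝ) ^ n * θ₂ ^ (2 * n)))
            * MainI.Rn (Real.log r₀ / 2) y ((1 + Real.log (4 / Δ)) * Δ) (e ^ 2 + τ ^ 2) τ n := by
            ring
        _ ≤ (2 * K * (1 + 1))
            * MainI.Rn (Real.log r₀ / 2) y ((1 + Real.log (4 / Δ)) * Δ) (e ^ 2 + τ ^ 2) τ n := by
            apply mul_le_mul_of_nonneg_right _ (hR n)
            gcongr
        _ = _ := by ring
    refine (Finset.sum_le_sum fun n _ => h2 n).trans ?_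
    rw [← Finset.mul_sum]
    have h3 := hsum y ((1 + Real.log (4 / Δ)) * Δ) (e ^ 2 + τ ^ 2) τ hy h.y1 hW0
      (by nlinarith [sq_nonneg e]) (N + 1)
    calc _ ≤ 4 * K * (K' * ((1 + Real.log (4 / Δ)) * Δ / y + (e ^ 2 + τ ^ 2) / y ^ 3)) := by
          apply mul_le_mul_of_nonneg_left h3 (by positivity)
      _ = _ := by ring

end P161C
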