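import Vale.Agent.P161C.Mg
import Vale.Agent.P161C.Col

/-!
# MB: bad paths
-/

open MeasureTheory Set Filter Topology

namespace P161C

open P161

universe u

variable {V : Type u} {G : SimpleGraph V}

theorem kt_nonneg {r y α : ℝ} (hr : 0 ≤ r) : 0 ≤ kt r y α := by unfold kt; positivity

theorem kt_le {r y α : ℝ} (hr : 0 ≤ r) (hy : 0 < y) : kt r y α ≤ r := by
  unfold kt
  have h1 : Real.exp (-(α ^ 2 / y)) ≤ 1 := Real.exp_le_one_iff.2 (by
    have : 0 ≤ α ^ 2 / y := by positivity
    linarith)
  calc r * Real.exp (-(α ^ 2 / y)) ≤ r * 1 := by gcongr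
    _ = r := mul_one r

theorem measurable_kt (r y : ℝ) : Measurable (kt r y) := by
  unfold kt
  fun_prop

section Zf

variable [G.LocallyFinite] {D : ℕ} {θ r y : ℝ}

theorem nbr_card [DecidableEq V] (hE : Env G D) {p x : V} (h : G.Adj p x) :
    (((G.neighborFinset x).erase p).card : ℕ) = D := by
  rw [Finset.card_erase_of_mem ((SimpleGraph.mem_neighborFinset _ _ _).2 h.symm),
    SimpleGraph.card_neighborFinset_eq_degree, hE.reg x]
  rfl

theorem Zf_bounds (hE : Env G D) (hr : 0 ≤ r) (hy : 0 < y) (M : V → ℝ) : ∀ (l : ℕ) (p x : V),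
    G.Adj p x → 0 ≤ Zf G D θ r y M l p x ∧ Zf G D θ r y M l p x ≤ r ^ l := by
  classical
  have hD0 : (0 : ℝ) < D := by
    have := hE.hD
    exact_mod_cast (by omega : 0 < D)
  intro l
  induction l with
  | zero => intro p x _; simp [Zf]
  | succ l ih =>
    intro p x hpx
    have hadj : ∀ c ∈ (G.neighborFinset x).erase p, G.Adj x c := fun c hc =>
      (SimpleGraph.mem_neighborFinset _ _ _).1 (Finset.mem_of_mem_erase hc)
    unfold Zf
    constructor
    · apply div_nonneg _ hD0.le
      exact Finset.sum_nonneg fun c hc => mul_nonneg (kt_nonneg hr) (ih x c (hadj c hc)).1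
    · rw [div_le_iff₀ hD0]
      refine (Finset.sum_le_card_nsmul _ _ (r * r ^ l) fun c hc => ?_).trans ?_
      · exact mul_le_mul (kt_le hr hy) (ih x c (hadj c hc)).2 (ih x c (hadj c hc)).1 hr
      · rw [nbr_card hE hpx, nsmul_eq_mul, pow_succ]
        exact le_of_eq (by ring)

theorem measurable_Zf {M : V → Om V → ℝ} (hM : ∀ v, Measurable (M v)) : ∀ (l : ℕ) (p x : V),
    Measurable fun ω => Zf G D θ r y (fun v => M v ω) l p x := by
  classical
  intro l
  induction l with
  | zero => intro p x; simp only [Zf]; exact measurable_const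
  | succ l ih =>
    intro p x
    simp only [Zf]
    apply Measurable.div_const
    exact Finset.measurable_fun_sum _ fun c _ =>
      ((measurable_kt r y).comp (measurable_ms hM θ c x)).mul (ih x c)

theorem Zf_aut (g : G ≃g G) {M M' : V → ℝ} (h : ∀ v, M' (g v) = M v) : ∀ (l : ℕ) (p x : V),
    Zf G D θ r y M' l (g p) (g x) = Zf G D θ r y M l p x := by
  classical
  intro l
  induction l with
  | zero => intro p x; simp [Zf]
  | succ l ih =>
    intro p x
    unfold Zf
    congr 1
    symm
    refine Finset.sum_bij' (fun c _ => g c) (fun c _ => g.symm c) ?_ ?_ ?_ ?_ ?_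
    · intro c hc
      rw [Finset.mem_erase, SimpleGraph.mem_neighborFinset] at hc ⊢
      exact ⟨fun h => hc.1 (g.injective h), g.map_adj_iff.2 hc.2⟩
    · intro c hc
      rw [Finset.mem_erase, SimpleGraph.mem_neighborFinset] at hc ⊢
      refine ⟨fun h => hc.1 ?_, ?_⟩
      · rw [← h]; simp
      · rw [← g.map_adj_iff]; simpa using hc.2
    · intro c _; simp
    · intro c _; simp
    · intro c _
      rw [ih]
      unfold ms
      rw [h, h]

end Zf

section main

variable [Countable V] [G.LocallyFinite] {D : ℕ} {θ r r₀ y c C l₀ : ℝ} {M : V → Om V → ℝ}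

theorem Fld.ae_eqv (h : Fld G D θ r r₀ y c C l₀ M) (g : G ≃g G) :
    ∀ᵐ ω ∂(Pm V), ∀ v, M (g v) (sh g ω) = M v ω := ae_all_iff.2 (h.eqv g)

theorem hk_succ (hG : G.IsTree) {M : V → ℝ} {x w : V} {l : ℕ} (h : G.dist x w = l + 1) :
    hk G θ r₀ y M x w = kt r₀ y (ms θ M (geo G x w 1) x) * hk G θ r₀ y M (geo G x w 1) w := by
  have h1 : G.dist (geo G x w 1) w = l := by
    have := geo_dist_right hG (v := x) (w := w) (i := 1) (by omega)
    omega
  unfold hk
  rw [h, h1, Finset.prod_range_succ', mul_comm]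
  congr 1
  · rw [geo_zero hG]
  · refine Finset.prod_congr rfl fun i hi => ?_
    rw [Finset.mem_range] at hi
    rw [geo_sub hG (by omega) (by omega), geo_sub hG (by omega) (by omega)]
    have a1 : 1 + (i + 1) = i + 1 + 1 := by omega
    have a2 : 1 + i = i + 1 := by omega
    rw [a1, a2]

theorem hk_nonneg (hr : 0 ≤ r₀) {M : V → ℝ} {x w : V} : 0 ≤ hk G θ r₀ y M x w := by
  unfold hk
  exact Finset.prod_nonneg fun i _ => kt_nonneg hr

theorem hk_le (hr : 0 ≤ r₀) (hy : 0 < y) {M : V → ℝ} {x w : V} :
    hk G θ r₀ y M x w ≤ r₀ ^ (G.dist x w) := by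
  unfold hk
  refine (Finset.prod_le_prod (fun i _ => kt_nonneg hr) fun i _ => kt_le hr hy).trans ?_
  rw [Finset.prod_const, Finset.card_range]

theorem measurable_hk (hM : ∀ v, Measurable (M v)) (x w : V) :
    Measurable fun ω => hk G θ r₀ y (fun v => M v ω) x w := by
  unfold hk
  exact Finset.measurable_fun_prod _ fun i _ => (measurable_kt r₀ y).comp (measurable_ms hM θ _ _)

/-- averaging over the directions -/
theorem int_hk_eq (hS : SHP.{u}) (hE : Env G D) (hF : Fld G D θ r r₀ y c C l₀ M) (hr0 : 0 ≤ r₀)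
    (hy : 0 < y) :
    ∀ (l : ℕ) (p x w : V) (Y : Om V → ℝ) (B : ℝ), G.Adj p x → w ∈ Cone G p x → G.dist x w = l →
      Measurable Y → (∀ᵐ ω ∂(Pm V), |Y ω| ≤ B) →
      (∀ g : G ≃g G, (∀ z, z ∉ Cone G p x ∨ z = x → g z = z) →
        ∀ᵐ ω ∂(Pm V), Y (sh g ω) = Y ω) →
      ∫ ω, Y ω * hk G θ r₀ y (fun v => M v ω) x w ∂(Pm V)
        = ∫ ω, Y ω * Zf G D θ r₀ y (fun v => M v ω) l p x ∂(Pm V) := by
  classical
  have hG := hE.tree
  have hD0 : (D : ℝ) ≠ 0 := by
    have := hE.hD
    exact_mod_cast (by omega : D ≠ 0)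
  intro l
  induction l with
  | zero =>
    intro p x w Y B hpx hw hl hY hB hinv
    refine integral_congr_ae (Eventually.of_forall fun ω => ?_)
    simp [hk, Zf, hl]
  | succ l ih =>
    intro p x w Y B hpx hw hl hY hB hinv
    obtain ⟨c₀, hc₀⟩ : ∃ c₀, c₀ = geo G x w 1 := ⟨_, rfl⟩
    have hxc : G.Adj x c₀ := by
      have := geo_adj hG (v := x) (w := w) (i := 0) (by omega)
      rw [geo_zero hG] at this
      rw [hc₀]; exact this
    have hcw : G.dist c₀ w = l := by
      have := geo_dist_right hG (v := x) (w := w) (i := 1) (by omega)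
      rw [hc₀]
      omega
    have hwc : w ∈ Cone G x c₀ := by
      show G.dist w c₀ < G.dist w x
      rw [SimpleGraph.dist_comm, hcw, SimpleGraph.dist_comm, hl]
      omega
    have hcp : c₀ ≠ p := by
      rintro rfl
      have h1 : G.dist w x < G.dist w c₀ := hw
      have h2 : G.dist w c₀ < G.dist w x := hwc
      omega
    have hmem : c₀ ∈ (G.neighborFinset x).erase p := by
      rw [Finset.mem_erase, SimpleGraph.mem_neighborFinset]
      exact ⟨hcp, hxc⟩
    have hmc : ∀ c, Measurable fun ω => kt r₀ y (ms θ (fun v => M v ω) c x) := fun c =>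
      (measurable_kt r₀ y).comp (measurable_ms hF.meas θ c x)
    have hZm : ∀ c, Measurable fun ω => Zf G D θ r₀ y (fun v => M v ω) l x c := fun c =>
      measurable_Zf hF.meas l x c
    -- all children are equivalent
    have hsym : ∀ c ∈ (G.neighborFinset x).erase p,
        ∫ ω, Y ω * (kt r₀ y (ms θ (fun v => M v ω) c x)
          * Zf G D θ r₀ y (fun v => M v ω) l x c) ∂(Pm V)
        = ∫ ω, Y ω * (kt r₀ y (ms θ (fun v => M v ω) c₀ x)
          * Zf G D θ r₀ y (fun v => M v ω) l x c₀) ∂(Pm V) := by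
      intro c hc
      rw [Finset.mem_erase, SimpleGraph.mem_neighborFinset] at hc
      obtain ⟨g, hgc, hgfix⟩ := Col.exists_swap hG hE.reg hxc hc.2
      have hgx : g x = x := hgfix x (by rw [SimpleGraph.dist_self]; exact Nat.zero_le _)
        (by rw [SimpleGraph.dist_self]; exact Nat.zero_le _)
      have hginv := hinv g (by
        rintro z (hz | hz)
        · apply hgfix
          · by_contra h
            exact hz (cone_sub hG hpx hxc hcp (by
              show G.dist z c₀ < G.dist z x
              omega))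
          · by_contra h
            exact hz (cone_sub hG hpx hc.2 hc.1 (by
              show G.dist z c < G.dist z x
              omega))
        · rw [hz]; exact hgx)
      have hmap := (hS V G).2.1 g
      have hmeas : Measurable fun ω => Y ω * (kt r₀ y (ms θ (fun v => M v ω) c x)
          * Zf G D θ r₀ y (fun v => M v ω) l x c) := hY.mul ((hmc c).mul (hZm c))
      conv_lhs => rw [← hmap.2]
      rw [integral_map hmap.1.aemeasurable (by rw [hmap.2]; exact hmeas.aestronglyMeasurable)]
      refine integral_congr_ae ?_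
      filter_upwards [hginv, hF.ae_eqv g] with ω h1 h2
      have h3 := Zf_aut (D := D) (θ := θ) (r := r₀) (y := y) g (M := fun v => M v ω)
        (M' := fun v => M v (sh g ω)) h2 l x c₀
      rw [hgx, hgc] at h3
      have h4 : ms θ (fun v => M v (sh g ω)) c x = ms θ (fun v => M v ω) c₀ x := by
        unfold ms
        have h5 := h2 c₀
        have h6 := h2 x
        rw [hgc] at h5
        rw [hgx] at h6
        simp only [h5, h6]
      rw [h1, h3, h4]
    have hYB : 0 ≤ B := by
      obtain ⟨ω, hω⟩ := hB.exists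
      exact (abs_nonneg _).trans hω
    have hint : ∀ c, G.Adj x c → Integrable (fun ω => Y ω * (kt r₀ y (ms θ (fun v => M v ω) c x)
          * Zf G D θ r₀ y (fun v => M v ω) l x c)) (Pm V) := by
      intro c hc
      refine Integrable.mono' (integrable_const (B * (r₀ * r₀ ^ l)))
        (hY.mul ((hmc c).mul (hZm c))).aestronglyMeasurable ?_
      filter_upwards [hB] with ω h1
      rw [norm_mul, norm_mul, Real.norm_eq_abs, Real.norm_eq_abs, Real.norm_eq_abs]
      have h2 := Zf_bounds (θ := θ) hE hr0 hy (fun v => M v ω) l x c hc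
      rw [abs_of_nonneg (kt_nonneg hr0), abs_of_nonneg h2.1]
      exact mul_le_mul h1 (mul_le_mul (kt_le hr0 hy) h2.2 h2.1 hr0)
        (mul_nonneg (kt_nonneg hr0) h2.1) hYB
    have e1 : ∫ ω, Y ω * Zf G D θ r₀ y (fun v => M v ω) (l + 1) p x ∂(Pm V)
        = ∫ ω, (Y ω * kt r₀ y (ms θ (fun v => M v ω) c₀ x))
          * Zf G D θ r₀ y (fun v => M v ω) l x c₀ ∂(Pm V) := by
      have e2 : ∀ ω, Y ω * Zf G D θ r₀ y (fun v => M v ω) (l + 1) p x
          = (∑ c ∈ (G.neighborFinset x).erase p, Y ω * (kt r₀ y (ms θ (fun v => M v ω) c x)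
          * Zf G D θ r₀ y (fun v => M v ω) l x c)) / D := by
        intro ω
        rw [Zf, mul_div_assoc', Finset.mul_sum]
      simp only [e2]
      rw [integral_div, integral_finsetSum _ (fun c hc => hint c
        ((SimpleGraph.mem_neighborFinset _ _ _).1 (Finset.mem_of_mem_erase hc))),
        Finset.sum_congr rfl hsym, Finset.sum_const, nbr_card hE hpx, nsmul_eq_mul,
        mul_div_cancel_left₀ _ hD0]
      refine integral_congr_ae (Eventually.of_forall fun ω => ?_)
      simp only
      ring
    rw [e1]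
    have e3 : ∀ ω, Y ω * hk G θ r₀ y (fun v => M v ω) x w
        = (Y ω * kt r₀ y (ms θ (fun v => M v ω) c₀ x)) * hk G θ r₀ y (fun v => M v ω) c₀ w := by
      intro ω
      rw [hk_succ hG hl, ← hc₀]
      ring
    simp only [e3]
    refine ih x c₀ w (fun ω => Y ω * kt r₀ y (ms θ (fun v => M v ω) c₀ x)) (B * r₀) hxc hwc hcw
      (hY.mul (hmc c₀)) ?_ ?_
    · filter_upwards [hB] with ω h1
      rw [abs_mul, abs_of_nonneg (kt_nonneg hr0)]
      exact mul_le_mul h1 (kt_le hr0 hy) (kt_nonneg hr0) hYB
    · intro g hg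
      have hgx : g x = x := by
        apply hg
        left
        intro h
        have h1 : G.dist x c₀ < G.dist x x := h
        rw [SimpleGraph.dist_self] at h1
        omega
      have hgc : g c₀ = c₀ := hg c₀ (Or.inr rfl)
      have hginv := hinv g (by
        rintro z (hz | hz)
        · exact hg z (Or.inl fun h => hz (cone_sub hG hpx hxc hcp h))
        · rw [hz]; exact hgx)
      filter_upwards [hginv, hF.ae_eqv g] with ω h1 h2
      have h4 : ms θ (fun v => M v (sh g ω)) c₀ x = ms θ (fun v => M v ω) c₀ x := by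
        unfold ms
        have h5 := h2 c₀
        have h6 := h2 x
        rw [hgc] at h5
        rw [hgx] at h6
        simp only [h5, h6]
      rw [h1, h4]

/-- choice of the edge into `x` -/
theorem exists_edge (hE : Env G D) {x w u : V} (h : G.dist u w = G.dist u x + G.dist x w) :
    ∃ p, G.Adj p x ∧ w ∈ Cone G p x ∧ (u ∉ Cone G p x ∨ u = x) := by
  classical
  have hG := hE.tree
  by_cases hux : u = x
  · subst hux
    by_cases hw : w = u
    · subst hw
      have hcard : 0 < (G.neighborFinset w).card := by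
        rw [SimpleGraph.card_neighborFinset_eq_degree, hE.reg w]
        omega
      obtain ⟨p, hp⟩ := Finset.card_pos.1 hcard
      rw [SimpleGraph.mem_neighborFinset] at hp
      refine ⟨p, hp.symm, ?_, Or.inr rfl⟩
      show G.dist w w < G.dist w p
      rw [SimpleGraph.dist_self, SimpleGraph.dist_eq_one_iff_adj.2 hp]
      exact Nat.one_pos
    · obtain ⟨c₀, hc₀⟩ : ∃ c₀, c₀ = geo G u w 1 := ⟨_, rfl⟩
      have hpos : 0 < G.dist u w := (hG.connected u w).pos_dist_of_ne (fun h => hw h.symm)
      have hcard : 0 < ((G.neighborFinset u).erase c₀).card := by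
        have h1 := Finset.pred_card_le_card_erase (s := G.neighborFinset u) (a := c₀)
        rw [SimpleGraph.card_neighborFinset_eq_degree, hE.reg u] at h1
        have := hE.hD
        omega
      obtain ⟨p, hp⟩ := Finset.card_pos.1 hcard
      rw [Finset.mem_erase, SimpleGraph.mem_neighborFinset] at hp
      refine ⟨p, hp.2.symm, ?_, Or.inr rfl⟩
      rcases cone_or hG hp.2.symm w with h1 | h1
      · exact h1
      · exfalso
        have hxc : G.Adj u c₀ := by
          have := geo_adj hG (v := u) (w := w) (i := 0) hpos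
          rw [geo_zero hG] at this
          rw [hc₀]; exact this
        have hwc : w ∈ Cone G u c₀ := by
          show G.dist w c₀ < G.dist w u
          have := geo_dist_right hG (v := u) (w := w) (i := 1) (by omega)
          rw [hc₀, SimpleGraph.dist_comm, SimpleGraph.dist_comm (u := w)]
          omega
        exact hp.1 (cone_unique hG hp.2 hxc h1 hwc)
  · have hpos : 0 < G.dist x u := (hG.connected x u).pos_dist_of_ne (fun h => hux h.symm)
    obtain ⟨p, hp⟩ : ∃ p, p = geo G x u 1 := ⟨_, rfl⟩
    have hxp : G.Adj x p := by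
      have := geo_adj hG (v := x) (w := u) (i := 0) hpos
      rw [geo_zero hG] at this
      rw [hp]; exact this
    have hpu : G.dist p u + 1 = G.dist x u := by
      rw [hp]
      exact geo_dist_right hG (by omega)
    have s1 : G.dist u x = G.dist x u := SimpleGraph.dist_comm
    have s2 : G.dist u p = G.dist p u := SimpleGraph.dist_comm
    have s3 : G.dist w p = G.dist p w := SimpleGraph.dist_comm
    have s4 : G.dist w x = G.dist x w := SimpleGraph.dist_comm
    refine ⟨p, hxp.symm, ?_, Or.inl ?_⟩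
    · rcases cone_or hG hxp.symm w with h1 | h1
      · exact h1
      · exfalso
        have h2 : G.dist w p < G.dist w x := h1
        have h3 : G.dist u w ≤ G.dist u p + G.dist p w := hG.connected.dist_triangle
        omega
    · intro h1
      have h2 : G.dist u x < G.dist u p := h1
      omega

end main

theorem mb_proof (hS : SHP.{u}) : MB.{u} := by
  intro D r r₀ c C l₀ hD hr0 hr1 hr₀ hc hC hl₀
  obtain ⟨K, hK, hent⟩ := ent_proof.{u} l₀ 2 hl₀ two_pos
  refine ⟨K + 2 / l₀, by positivity, ?_⟩
  intro V _ G _ θ₁ θ₂ y M₁ M₂ Δ e τ hE h x w u hu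
  have hy := h.y0
  have hr₀0 : 0 ≤ r₀ := by linarith
  obtain ⟨p, hpx, hwc, huc⟩ := exists_edge hE hu
  have hW0 : 0 ≤ (1 + Real.log (4 / Δ)) * Δ := omega_nonneg (h.Δ0 x) h.d4
  have key : ∀ (θ : ℝ) (M : V → Om V → ℝ), Fld G D θ r r₀ y c C l₀ M →
      ∫ ω, (M₁ u ω - M₂ u ω) ^ 2 * hk G θ r₀ y (fun v => M v ω) x w ∂(Pm V)
        ≤ (K + 2 / l₀) * ((1 + Real.log (4 / Δ)) * Δ) ∧
      ∫ ω, hk G θ r₀ y (fun v => M v ω) x w ∂(Pm V) ≤ K + 2 / l₀ := by
    intro θ M hF
    have hZm : Measurable fun ω => Zf G D θ r₀ y (fun v => M v ω) (G.dist x w) p x :=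
      measurable_Zf hF.meas _ p x
    have hZb := fun ω => Zf_bounds (θ := θ) hE hr₀0 hy (fun v => M v ω) (G.dist x w) p x hpx
    have hexp : Integrable (fun ω => Real.exp
        (l₀ * Zf G D θ r₀ y (fun v => M v ω) (G.dist x w) p x)) (Pm V) := by
      refine Integrable.mono' (integrable_const (Real.exp (l₀ * r₀ ^ (G.dist x w))))
        (hZm.const_mul l₀).exp.aestronglyMeasurable (Eventually.of_forall fun ω => ?_)
      rw [Real.norm_eq_abs, abs_of_pos (Real.exp_pos _)]
      apply Real.exp_le_exp.2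
      exact mul_le_mul_of_nonneg_left (hZb ω).2 hl₀.le
    constructor
    · have e1 := int_hk_eq hS hE hF hr₀0 hy (G.dist x w) p x w
        (fun ω => (M₁ u ω - M₂ u ω) ^ 2) 4 hpx hwc rfl
        (((h.f₁.meas u).sub (h.f₂.meas u)).pow_const 2) (by
          filter_upwards [h.sq_le hr1.le u] with ω h1
          rw [abs_of_nonneg h1.1]
          exact h1.2) (by
          intro g hg
          have hgu : g u = u := hg u huc
          filter_upwards [h.f₁.eqv g u, h.f₂.eqv g u] with ω h1 h2
          rw [hgu] at h1 h2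
          rw [h1, h2])
      rw [e1]
      have e2 := (hent (Om V) (Pm V) (fun ω => (M₁ u ω - M₂ u ω) ^ 2)
        (fun ω => Zf G D θ r₀ y (fun v => M v ω) (G.dist x w) p x)
        (((h.f₁.meas u).sub (h.f₂.meas u)).pow_const 2) hZm (h.sq_le hr1.le u)
        (Eventually.of_forall fun ω => (hZb ω).1) hexp (hF.zx _ p x hpx) Δ (h.dl u) h.d4).2
      refine e2.trans (mul_le_mul_of_nonneg_right ?_ hW0)
      have : 0 ≤ 2 / l₀ := by positivity
      linarith
    · have e1 := int_hk_eq hS hE hF hr₀0 hy (G.dist x w) p x w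
        (fun _ => 1) 1 hpx hwc rfl measurable_const (Eventually.of_forall fun ω => by simp)
        (fun g _ => Eventually.of_forall fun ω => rfl)
      simp only [one_mul] at e1
      rw [e1]
      have hZi : Integrable (fun ω => Zf G D θ r₀ y (fun v => M v ω) (G.dist x w) p x) (Pm V) :=
        Integrable.mono' (integrable_const (r₀ ^ (G.dist x w))) hZm.aestronglyMeasurable
          (Eventually.of_forall fun ω => by
            rw [Real.norm_eq_abs, abs_of_nonneg (hZb ω).1]
            exact (hZb ω).2)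
      have e2 : ∫ ω, Zf G D θ r₀ y (fun v => M v ω) (G.dist x w) p x ∂(Pm V)
          ≤ ∫ ω, 1 / l₀ * Real.exp (l₀ * Zf G D θ r₀ y (fun v => M v ω) (G.dist x w) p x)
            ∂(Pm V) := by
        refine integral_mono hZi (hexp.const_mul _) fun ω => ?_
        simp only
        rw [one_div, inv_mul_eq_div, le_div_iff₀ hl₀]
        have := Real.add_one_le_exp (l₀ * Zf G D θ r₀ y (fun v => M v ω) (G.dist x w) p x)
        linarith
      rw [integral_const_mul] at e2
      have e3 := mul_le_mul_of_nonneg_left (hF.zx (G.dist x w) p x hpx)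
        (by positivity : 0 ≤ 1 / l₀)
      have e4 : 1 / l₀ * 2 = 2 / l₀ := by ring
      linarith
  exact ⟨(key θ₁ M₁ h.f₁).1, (key θ₂ M₂ h.f₂).1, (key θ₁ M₁ h.f₁).2, (key θ₂ M₂ h.f₂).2⟩

end P161C
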