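import Vale.Agent.P161C.Mp
import Vale.Agent.P161C.Dec
import Vale.Agent.P161C.Ent
import Vale.Agent.P161C.Base

/-!
# MG: decorrelated bound of a difference of sums along a geodesic
-/

open MeasureTheory Set Filter Topology

namespace P161C

open P161

universe u

variable {V : Type u} {G : SimpleGraph V}

theorem measurable_msg (θ : ℝ) : Measurable fun p : ℝ × ℝ => msg θ p.1 p.2 := by
  unfold msg
  fun_prop

theorem measurable_Nf (θ : ℝ) : Measurable (Nf θ) := by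
  unfold Nf
  fun_prop

theorem measurable_ms {M : V → Om V → ℝ} (hM : ∀ v, Measurable (M v)) (θ : ℝ) (a b : V) :
    Measurable fun ω => ms θ (fun v => M v ω) a b := by
  unfold ms
  exact (measurable_msg θ).comp ((hM a).prodMk (hM b))

theorem geom_sum_bound {ρ : ℝ} (h0 : 0 ≤ ρ) (h1 : ρ < 1) (N : ℕ) :
    ∑ k ∈ Finset.range N, ((k : ℝ) + 1) * ρ ^ k ≤ 1 / (1 - ρ) ^ 2 := by
  have key : ∀ N : ℕ, (1 - ρ) ^ 2 * ∑ k ∈ Finset.range N, ((k : ℝ) + 1) * ρ ^ k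
      = 1 - (N + 1) * ρ ^ N + N * ρ ^ (N + 1) := by
    intro N
    induction N with
    | zero => simp
    | succ N ih =>
      rw [Finset.sum_range_succ, mul_add, ih]
      push_cast
      ring
  have hpos : 0 < (1 - ρ) ^ 2 := by
    have : 0 < 1 - ρ := by linarith
    positivity
  rw [le_div_iff₀ hpos, mul_comm, key]
  have h2 : ρ ^ (N + 1) ≤ ρ ^ N := pow_le_pow_of_le_one h0 h1.le (Nat.le_succ N)
  have h3 : 0 ≤ ρ ^ N := by positivity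
  have h4 : (0 : ℝ) ≤ N := Nat.cast_nonneg _
  have h5 := mul_le_mul_of_nonneg_left h2 h4
  linarith

/-- second moment of a sum of weakly correlated variables -/
theorem sum_sq_le {Ω : Type*} [MeasurableSpace Ω] {P : Measure Ω} {n : ℕ} {F s ρ : ℝ}
    (hs : 0 ≤ s) (hF : 0 ≤ F) (h0 : 0 ≤ ρ) (h1 : ρ < 1) {f : ℕ → Ω → ℝ}
    (hf : ∀ i < n, MemLp (f i) 2 P)
    (hc : ∀ i j, i ≤ j → j < n →
      |∫ ω, f j ω * f i ω ∂P| ≤ ((j - i : ℕ) + 1) * (s * ρ ^ (j - i)) * F) :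
    ∫ ω, (∑ i ∈ Finset.range n, f i ω) ^ 2 ∂P ≤ n * (2 * (s / (1 - ρ) ^ 2) * F) := by
  have key : ∀ m ≤ n, ∫ ω, (∑ i ∈ Finset.range m, f i ω) ^ 2 ∂P
      ≤ m * (2 * (s / (1 - ρ) ^ 2) * F) := by
    intro m
    induction m with
    | zero => intro _; simp
    | succ m ih =>
      intro hm
      have ih' := ih (by omega)
      have hfm := hf m (by omega)
      have hS : MemLp (fun ω => ∑ i ∈ Finset.range m, f i ω) 2 P :=
        memLp_finsetSum _ fun i hi => hf i (by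
          rw [Finset.mem_range] at hi; omega)
      have e1 : ∀ ω, (∑ i ∈ Finset.range (m + 1), f i ω) ^ 2
          = (∑ i ∈ Finset.range m, f i ω) ^ 2
            + (2 * ∑ i ∈ Finset.range m, f m ω * f i ω + f m ω * f m ω) := by
        intro ω
        rw [Finset.sum_range_succ, ← Finset.mul_sum]
        ring
      have i1 : Integrable (fun ω => (∑ i ∈ Finset.range m, f i ω) ^ 2) P := hS.integrable_sq
      have i2 : ∀ i ∈ Finset.range m, Integrable (fun ω => f m ω * f i ω) P := fun i hi =>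
        hfm.integrable_mul (hf i (by rw [Finset.mem_range] at hi; omega))
      have i3 : Integrable (fun ω => f m ω * f m ω) P := hfm.integrable_mul hfm
      have i4 : Integrable (fun ω => 2 * ∑ i ∈ Finset.range m, f m ω * f i ω) P :=
        (integrable_finsetSum _ i2).const_mul 2
      have e2 : ∫ ω, (∑ i ∈ Finset.range (m + 1), f i ω) ^ 2 ∂P
          = ∫ ω, (∑ i ∈ Finset.range m, f i ω) ^ 2 ∂P
            + (2 * ∑ i ∈ Finset.range m, ∫ ω, f m ω * f i ω ∂P + ∫ ω, f m ω * f m ω ∂P) := by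
        have i5 : Integrable (fun ω => 2 * ∑ i ∈ Finset.range m, f m ω * f i ω + f m ω * f m ω) P :=
          i4.add i3
        simp only [e1]
        rw [integral_add i1 i5, integral_add i4 i3, integral_const_mul,
          integral_finsetSum _ i2]
      rw [e2]
      have b1 : ∑ i ∈ Finset.range m, ∫ ω, f m ω * f i ω ∂P + ∫ ω, f m ω * f m ω ∂P
          ≤ s / (1 - ρ) ^ 2 * F := by
        have b2 : ∑ i ∈ Finset.range m, ∫ ω, f m ω * f i ω ∂P + ∫ ω, f m ω * f m ω ∂P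
            = ∑ i ∈ Finset.range (m + 1), ∫ ω, f m ω * f i ω ∂P := by
          rw [Finset.sum_range_succ]
        rw [b2]
        calc ∑ i ∈ Finset.range (m + 1), ∫ ω, f m ω * f i ω ∂P
            ≤ ∑ i ∈ Finset.range (m + 1), ((m - i : ℕ) + 1) * (s * ρ ^ (m - i)) * F := by
              refine Finset.sum_le_sum fun i hi => (le_abs_self _).trans (hc i m ?_ (by omega))
              rw [Finset.mem_range] at hi
              omega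
          _ = ∑ k ∈ Finset.range (m + 1), ((k : ℝ) + 1) * (s * ρ ^ k) * F := by
              rw [← Finset.sum_range_reflect]
              refine Finset.sum_congr rfl fun i hi => ?_
              rw [Finset.mem_range] at hi
              have : m - (m + 1 - 1 - i) = i := by omega
              rw [this]
          _ = s * F * ∑ k ∈ Finset.range (m + 1), ((k : ℝ) + 1) * ρ ^ k := by
              rw [Finset.mul_sum]
              refine Finset.sum_congr rfl fun i _ => by ring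
          _ ≤ s * F * (1 / (1 - ρ) ^ 2) :=
              mul_le_mul_of_nonneg_left (geom_sum_bound h0 h1 _) (by positivity)
          _ = _ := by ring
      have b3 : 0 ≤ ∫ ω, f m ω * f m ω ∂P := integral_nonneg fun ω => mul_self_nonneg _
      push_cast
      linarith
  exact key n le_rfl

theorem rho_lt_one {D : ℕ} (hD : 2 ≤ D) : 1 / √(D : ℝ) < 1 := by
  have hD' : (2 : ℝ) ≤ D := by exact_mod_cast hD
  have h1 : 1 < √(D : ℝ) := by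
    rw [Real.lt_sqrt (by norm_num)]
    linarith
  rw [div_lt_one (by linarith)]
  exact h1

theorem thc_sq {D : ℕ} (hD : 2 ≤ D) : 0 ≤ thc D ∧ thc D ^ 2 ≤ 1 / 2 := by
  have hD' : (2 : ℝ) ≤ D := by exact_mod_cast hD
  unfold thc
  refine ⟨by positivity, ?_⟩
  rw [div_pow, one_pow, Real.sq_sqrt (by linarith)]
  exact one_div_le_one_div_of_le (by norm_num) hD'

theorem le_one_of_sq {θ : ℝ} (h1 : θ ^ 2 ≤ 1 / 2) : θ ≤ 1 := by nlinarith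

theorem omega_nonneg {Δ : ℝ} (h0 : 0 ≤ Δ) (h4 : Δ ≤ 4) : 0 ≤ (1 + Real.log (4 / Δ)) * Δ := by
  rcases h0.eq_or_lt with h | h
  · rw [← h]; simp
  · have : 0 ≤ Real.log (4 / Δ) := Real.log_nonneg (by rw [le_div_iff₀ h]; linarith)
    positivity

section pair

variable [Countable V] [G.LocallyFinite] {D : ℕ} {θ₁ θ₂ r r₀ y c C l₀ : ℝ}
    {M₁ M₂ : V → Om V → ℝ} {Δ e τ : ℝ}

theorem Fld.ae_bd {θ : ℝ} {M : V → Om V → ℝ} (h : Fld G D θ r r₀ y c C l₀ M) :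
    ∀ᵐ ω ∂(Pm V), ∀ v, |M v ω| ≤ r := ae_all_iff.2 h.bd

theorem Pair.ae (h : Pair G D θ₁ θ₂ r r₀ y c C l₀ M₁ M₂ Δ e τ) :
    ∀ᵐ ω ∂(Pm V), (∀ v, |M₁ v ω| ≤ r) ∧ ∀ v, |M₂ v ω| ≤ r := h.f₁.ae_bd.and h.f₂.ae_bd

theorem Pair.dθ (h : Pair G D θ₁ θ₂ r r₀ y c C l₀ M₁ M₂ Δ e τ) : |θ₁ - θ₂| ≤ τ := by
  refine le_trans ?_ h.ht
  have := abs_sub_le θ₁ (thc D) θ₂
  rw [abs_sub_comm (thc D) θ₂] at this
  exact this

theorem Pair.sq_le (h : Pair G D θ₁ θ₂ r r₀ y c C l₀ M₁ M₂ Δ e τ) (hr : r ≤ 1) (v : V) :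
    ∀ᵐ ω ∂(Pm V), 0 ≤ (M₁ v ω - M₂ v ω) ^ 2 ∧ (M₁ v ω - M₂ v ω) ^ 2 ≤ 4 := by
  filter_upwards [h.ae] with ω hω
  refine ⟨sq_nonneg _, ?_⟩
  have h1 : |M₁ v ω - M₂ v ω| ≤ 2 := by
    refine (abs_sub _ _).trans ?_
    have := hω.1 v
    have := hω.2 v
    linarith
  rw [← sq_abs]
  have := abs_nonneg (M₁ v ω - M₂ v ω)
  nlinarith

theorem Pair.Δ0 (h : Pair G D θ₁ θ₂ r r₀ y c C l₀ M₁ M₂ Δ e τ) (v : V) : 0 ≤ Δ :=
  (integral_nonneg fun _ => sq_nonneg _).trans (h.dl v)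

theorem Pair.sq_int (h : Pair G D θ₁ θ₂ r r₀ y c C l₀ M₁ M₂ Δ e τ) (hr : r ≤ 1) (v : V) :
    Integrable (fun ω => (M₁ v ω - M₂ v ω) ^ 2) (Pm V) := by
  refine Integrable.mono' (integrable_const (4 : ℝ))
    (((h.f₁.meas v).sub (h.f₂.meas v)).pow_const 2).aestronglyMeasurable ?_
  filter_upwards [h.sq_le hr v] with ω hω
  rw [Real.norm_eq_abs, abs_of_nonneg hω.1]
  exact hω.2

/-- entropy inequality for the squared messages -/
theorem ent_term (hM : MSG) {r c C : ℝ} (hr1 : r < 1) (hc : 0 < c) (hC : 0 < C) :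
    ∃ K : ℝ, 0 < K ∧ ∀ (V : Type u) [Countable V] (G : SimpleGraph V) [G.LocallyFinite] (D : ℕ)
    (θ₁ θ₂ y r₀ l₀ : ℝ) (M₁ M₂ : V → Om V → ℝ) (Δ e τ : ℝ), 2 ≤ D →
    Pair G D θ₁ θ₂ r r₀ y c C l₀ M₁ M₂ Δ e τ → ∀ v a b, G.Adj a b →
    (Integrable (fun ω => (M₁ v ω - M₂ v ω) ^ 2 * (ms θ₁ (fun v => M₁ v ω) a b ^ 2 / y)) (Pm V) ∧
      ∫ ω, (M₁ v ω - M₂ v ω) ^ 2 * (ms θ₁ (fun v => M₁ v ω) a b ^ 2 / y) ∂(Pm V)
        ≤ K * ((1 + Real.log (4 / Δ)) * Δ)) ∧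
    (Integrable (fun ω => (M₁ v ω - M₂ v ω) ^ 2 * (ms θ₂ (fun v => M₂ v ω) a b ^ 2 / y)) (Pm V) ∧
      ∫ ω, (M₁ v ω - M₂ v ω) ^ 2 * (ms θ₂ (fun v => M₂ v ω) a b ^ 2 / y) ∂(Pm V)
        ≤ K * ((1 + Real.log (4 / Δ)) * Δ)) := by
  obtain ⟨K, hK, hE⟩ := ent_proof.{u} c C hc hC
  obtain ⟨r', hr'0, hr'1, hr'⟩ := hM.lt_one r hr1
  refine ⟨K, hK, ?_⟩
  intro V _ G _ D θ₁ θ₂ y r₀ l₀ M₁ M₂ Δ e τ hD h v a b hab
  have key : ∀ (θ : ℝ) (M : V → Om V → ℝ), 0 ≤ θ → θ ^ 2 ≤ 1 / 2 →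
      Fld G D θ r r₀ y c C l₀ M →
      (Integrable (fun ω => (M₁ v ω - M₂ v ω) ^ 2 * (ms θ (fun v => M v ω) a b ^ 2 / y)) (Pm V) ∧
      ∫ ω, (M₁ v ω - M₂ v ω) ^ 2 * (ms θ (fun v => M v ω) a b ^ 2 / y) ∂(Pm V)
        ≤ K * ((1 + Real.log (4 / Δ)) * Δ)) := by
    intro θ M h0 h1 hF
    have hy := h.y0
    have hmeas : Measurable fun ω => ms θ (fun v => M v ω) a b ^ 2 / y :=
      ((measurable_ms hF.meas θ a b).pow_const 2).div_const y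
    refine hE (Om V) (Pm V) _ _ (((h.f₁.meas v).sub (h.f₂.meas v)).pow_const 2) hmeas
      (h.sq_le hr1.le v) (Eventually.of_forall fun ω => by positivity) ?_ (hF.ex a b hab) Δ
      (h.dl v) h.d4
    refine Integrable.mono' (integrable_const (Real.exp (c * (1 / y))))
      ((hmeas.const_mul c).exp).aestronglyMeasurable ?_
    filter_upwards [hF.ae_bd] with ω hω
    rw [Real.norm_eq_abs, abs_of_pos (Real.exp_pos _)]
    apply Real.exp_le_exp.2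
    have h3 : |ms θ (fun v => M v ω) a b| ≤ 1 :=
      (hr' θ _ _ h0 h1 (hω a) ((hω b).trans hr1.le)).trans hr'1.le
    have h4 : ms θ (fun v => M v ω) a b ^ 2 ≤ 1 := by
      rw [← sq_abs]
      exact pow_le_one₀ (abs_nonneg _) h3
    gcongr
  exact ⟨key θ₁ M₁ h.a₁ (sq_le_half hD h.b₁) h.f₁, key θ₂ M₂ h.a₂ (sq_le_half hD h.b₂) h.f₂⟩

/-- difference of the two `Nf` -/
noncomputable def Fd (θ₁ θ₂ : ℝ) (M₁ M₂ : V → Om V → ℝ) (a b : V) (ω : Om V) : ℝ :=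
  Nf θ₁ (ms θ₁ (fun v => M₁ v ω) a b) - Nf θ₂ (ms θ₂ (fun v => M₂ v ω) a b)

theorem Pair.Fd_meas (h : Pair G D θ₁ θ₂ r r₀ y c C l₀ M₁ M₂ Δ e τ) (a b : V) :
    Measurable (Fd θ₁ θ₂ M₁ M₂ a b) :=
  ((measurable_Nf θ₁).comp (measurable_ms h.f₁.meas θ₁ a b)).sub
    ((measurable_Nf θ₂).comp (measurable_ms h.f₂.meas θ₂ a b))

/-- real algebra for the second moment -/
theorem sq_alg {C1 C2 α β da db T : ℝ} (hα : |α| ≤ 1)
    (hβ : |β| ≤ 1) (h : |α - β| ≤ C2 * (|da| + |db| + |T|)) {f : ℝ}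
    (hf : |f| ≤ C1 * (|α ^ 2 - β ^ 2| + |T| * β ^ 2)) :
    f ^ 2 ≤ 12 * C1 ^ 2 * C2 ^ 2 * ((da ^ 2 * α ^ 2 + da ^ 2 * β ^ 2)
      + (db ^ 2 * α ^ 2 + db ^ 2 * β ^ 2)) + (24 * C1 ^ 2 * C2 ^ 2 + 2 * C1 ^ 2) * T ^ 2 := by
  have hα2 : α ^ 2 ≤ 1 := by rw [← sq_abs]; exact pow_le_one₀ (abs_nonneg _) hα
  have hβ2 : β ^ 2 ≤ 1 := by rw [← sq_abs]; exact pow_le_one₀ (abs_nonneg _) hβ
  have h1 : (α - β) ^ 2 ≤ C2 ^ 2 * (3 * (da ^ 2 + db ^ 2 + T ^ 2)) := by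
    have h5 := pow_le_pow_left₀ (abs_nonneg _) h 2
    rw [sq_abs, mul_pow] at h5
    refine h5.trans (mul_le_mul_of_nonneg_left ?_ (sq_nonneg _))
    rw [← sq_abs da, ← sq_abs db, ← sq_abs T]
    nlinarith [sq_nonneg (|da| - |db|), sq_nonneg (|da| - |T|), sq_nonneg (|db| - |T|)]
  have h2 : (α + β) ^ 2 ≤ 2 * (α ^ 2 + β ^ 2) := by nlinarith [sq_nonneg (α - β)]
  have h3 : f ^ 2 ≤ C1 ^ 2 * (2 * ((α - β) ^ 2 * (α + β) ^ 2) + 2 * T ^ 2) := by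
    have h5 := pow_le_pow_left₀ (abs_nonneg _) hf 2
    rw [sq_abs, mul_pow] at h5
    refine h5.trans (mul_le_mul_of_nonneg_left ?_ (sq_nonneg _))
    have h6 : |T| * β ^ 2 ≤ |T| := mul_le_of_le_one_right (abs_nonneg _) hβ2
    have h7 : 0 ≤ |T| * β ^ 2 := by positivity
    have h8 : (α - β) ^ 2 * (α + β) ^ 2 = |α ^ 2 - β ^ 2| ^ 2 := by rw [sq_abs]; ring
    rw [h8, ← sq_abs T]
    have h9 := abs_nonneg (α ^ 2 - β ^ 2)
    nlinarith [sq_nonneg (|α ^ 2 - β ^ 2| - |T| * β ^ 2), abs_nonneg T]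
  have h4 : (α - β) ^ 2 * (α + β) ^ 2
      ≤ C2 ^ 2 * (3 * (da ^ 2 + db ^ 2)) * (2 * (α ^ 2 + β ^ 2)) + C2 ^ 2 * (12 * T ^ 2) := by
    calc (α - β) ^ 2 * (α + β) ^ 2
        ≤ (C2 ^ 2 * (3 * (da ^ 2 + db ^ 2 + T ^ 2))) * (2 * (α ^ 2 + β ^ 2)) :=
          mul_le_mul h1 h2 (sq_nonneg _) (by positivity)
      _ = C2 ^ 2 * (3 * (da ^ 2 + db ^ 2)) * (2 * (α ^ 2 + β ^ 2))
          + C2 ^ 2 * (3 * T ^ 2) * (2 * (α ^ 2 + β ^ 2)) := by ring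
      _ ≤ C2 ^ 2 * (3 * (da ^ 2 + db ^ 2)) * (2 * (α ^ 2 + β ^ 2))
          + C2 ^ 2 * (3 * T ^ 2) * (2 * (1 + 1)) := by gcongr
      _ = _ := by ring
  calc f ^ 2 ≤ C1 ^ 2 * (2 * ((α - β) ^ 2 * (α + β) ^ 2) + 2 * T ^ 2) := h3
    _ ≤ C1 ^ 2 * (2 * (C2 ^ 2 * (3 * (da ^ 2 + db ^ 2)) * (2 * (α ^ 2 + β ^ 2))
          + C2 ^ 2 * (12 * T ^ 2)) + 2 * T ^ 2) := by gcongr
    _ = _ := by ring

theorem int_four {Ω : Type*} [MeasurableSpace Ω] {P : Measure Ω} [IsProbabilityMeasure P]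
    {f X1 X2 X3 X4 : Ω → ℝ} {k m B : ℝ} (hk : 0 ≤ k) (i1 : Integrable X1 P)
    (i2 : Integrable X2 P) (i3 : Integrable X3 P) (i4 : Integrable X4 P)
    (j1 : ∫ ω, X1 ω ∂P ≤ B) (j2 : ∫ ω, X2 ω ∂P ≤ B) (j3 : ∫ ω, X3 ω ∂P ≤ B)
    (j4 : ∫ ω, X4 ω ∂P ≤ B) (hf : Integrable f P)
    (h : ∀ᵐ ω ∂P, f ω ≤ k * ((X1 ω + X2 ω) + (X3 ω + X4 ω)) + m) :
    ∫ ω, f ω ∂P ≤ k * (4 * B) + m := by
  have i12 : Integrable (fun ω => X1 ω + X2 ω) P := i1.add i2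
  have i34 : Integrable (fun ω => X3 ω + X4 ω) P := i3.add i4
  have i5 : Integrable (fun ω => (X1 ω + X2 ω) + (X3 ω + X4 ω)) P := i12.add i34
  have i6 : Integrable (fun ω => k * ((X1 ω + X2 ω) + (X3 ω + X4 ω))) P := i5.const_mul k
  have i7 : Integrable (fun ω => k * ((X1 ω + X2 ω) + (X3 ω + X4 ω)) + m) P :=
    i6.add (integrable_const _)
  refine (integral_mono_ae hf i7 h).trans ?_
  rw [integral_add i6 (integrable_const _), integral_const_mul, integral_add i12 i34,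
    integral_add i1 i2, integral_add i3 i4, integral_const]
  simp only [probReal_univ, smul_eq_mul, one_mul]
  have : k * ((∫ ω, X1 ω ∂P + ∫ ω, X2 ω ∂P) + (∫ ω, X3 ω ∂P + ∫ ω, X4 ω ∂P)) ≤ k * (4 * B) :=
    mul_le_mul_of_nonneg_left (by linarith) hk
  linarith

/-- second moment of the difference along an edge, and its mean -/
theorem Fd_bounds (hM : MSG) {r c C : ℝ} (hr0 : 0 ≤ r) (hr1 : r < 1) (hc : 0 < c) (hC : 0 < C) :
    ∃ K : ℝ, 0 < K ∧ ∀ (V : Type u) [Countable V] (G : SimpleGraph V) [G.LocallyFinite] (D : ℕ)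
    (θ₁ θ₂ y r₀ l₀ : ℝ) (M₁ M₂ : V → Om V → ℝ) (Δ e τ : ℝ), 2 ≤ D →
    Pair G D θ₁ θ₂ r r₀ y c C l₀ M₁ M₂ Δ e τ → ∀ a b, G.Adj a b →
      (∀ᵐ ω ∂(Pm V), |Fd θ₁ θ₂ M₁ M₂ a b ω| ≤ K) ∧
      (∫ ω, Fd θ₁ θ₂ M₁ M₂ a b ω ^ 2 ∂(Pm V) ≤ K * (y * ((1 + Real.log (4 / Δ)) * Δ) + τ ^ 2)) ∧
      |∫ ω, Fd θ₁ θ₂ M₁ M₂ a b ω ∂(Pm V)| ≤ e + K * τ := by
  obtain ⟨r', C2, hr'0, hr'1, hC2, hlip⟩ := edge_lip.{u} hM hr0 hr1
  obtain ⟨C1, hC1, hNl⟩ := hM.Nf_lip r' hr'1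
  obtain ⟨K1, hK1, hent⟩ := ent_term.{u} hM (r := r) hr1 hc hC
  refine ⟨48 * C1 ^ 2 * C2 ^ 2 * K1 + (24 * C1 ^ 2 * C2 ^ 2 + 2 * C1 ^ 2) + 2 * C1 + 5 * C2,
    by positivity, ?_⟩
  intro V _ G _ D θ₁ θ₂ y r₀ l₀ M₁ M₂ Δ e τ hD h a b hab
  have q1 := sq_le_half hD h.b₁
  have q2 := sq_le_half hD h.b₂
  have hy := h.y0
  have hτ : 0 ≤ τ := (by positivity : (0:ℝ) ≤ |θ₁ - thc D| + |θ₂ - thc D|).trans h.ht
  have hω := omega_nonneg (h.Δ0 a) h.d4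
  have hll : ∀ᵐ ω ∂(Pm V),
      |ms θ₁ (fun v => M₁ v ω) a b| ≤ r' ∧ |ms θ₂ (fun v => M₂ v ω) a b| ≤ r' ∧
      |ms θ₁ (fun v => M₁ v ω) a b - ms θ₂ (fun v => M₂ v ω) a b|
        ≤ C2 * (|M₁ a ω - M₂ a ω| + |M₁ b ω - M₂ b ω| + |θ₁ - θ₂|) ∧
      |Fd θ₁ θ₂ M₁ M₂ a b ω| ≤ C2 * (|M₁ a ω - M₂ a ω| + |M₁ b ω - M₂ b ω| + |θ₁ - θ₂|) := by
    filter_upwards [h.ae] with ω hω
    exact hlip V θ₁ θ₂ (fun v => M₁ v ω) (fun v => M₂ v ω) h.a₁ q1 h.a₂ q2 hω.1 hω.2 a b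
  have hbd : ∀ᵐ ω ∂(Pm V), |Fd θ₁ θ₂ M₁ M₂ a b ω| ≤ 5 * C2 := by
    filter_upwards [h.ae, hll] with ω h1 h2
    refine h2.2.2.2.trans ?_
    have u1 : ∀ v, |M₁ v ω - M₂ v ω| ≤ 2 := fun v => by
      refine (abs_sub _ _).trans ?_
      have := h1.1 v
      have := h1.2 v
      linarith
    have u2 : |θ₁ - θ₂| ≤ 1 := by
      have := le_one_of_sq q1
      have := le_one_of_sq q2
      rw [abs_sub_le_iff]
      constructor <;> linarith [h.a₁, h.a₂]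
    have := u1 a
    have := u1 b
    calc C2 * (|M₁ a ω - M₂ a ω| + |M₁ b ω - M₂ b ω| + |θ₁ - θ₂|) ≤ C2 * (2 + 2 + 1) := by gcongr
      _ = _ := by ring
  have hFi : Integrable (Fd θ₁ θ₂ M₁ M₂ a b) (Pm V) :=
    Integrable.mono' (integrable_const (5 * C2)) (h.Fd_meas a b).aestronglyMeasurable hbd
  refine ⟨?_, ?_, ?_⟩
  · filter_upwards [hbd] with ω h1
    refine h1.trans ?_
    have : 0 ≤ 48 * C1 ^ 2 * C2 ^ 2 * K1 + (24 * C1 ^ 2 * C2 ^ 2 + 2 * C1 ^ 2) + 2 * C1 := by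
      positivity
    linarith
  · obtain ⟨⟨i1, j1⟩, i2, j2⟩ := hent V G D θ₁ θ₂ y r₀ l₀ M₁ M₂ Δ e τ hD h a a b hab
    obtain ⟨⟨i3, j3⟩, i4, j4⟩ := hent V G D θ₁ θ₂ y r₀ l₀ M₁ M₂ Δ e τ hD h b a b hab
    have hpt : ∀ᵐ ω ∂(Pm V), Fd θ₁ θ₂ M₁ M₂ a b ω ^ 2 ≤ 12 * C1 ^ 2 * C2 ^ 2 * y *
        (((M₁ a ω - M₂ a ω) ^ 2 * (ms θ₁ (fun v => M₁ v ω) a b ^ 2 / y)
          + (M₁ a ω - M₂ a ω) ^ 2 * (ms θ₂ (fun v => M₂ v ω) a b ^ 2 / y))
        + ((M₁ b ω - M₂ b ω) ^ 2 * (ms θ₁ (fun v => M₁ v ω) a b ^ 2 / y)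
          + (M₁ b ω - M₂ b ω) ^ 2 * (ms θ₂ (fun v => M₂ v ω) a b ^ 2 / y)))
        + (24 * C1 ^ 2 * C2 ^ 2 + 2 * C1 ^ 2) * τ ^ 2 := by
      filter_upwards [hll] with ω h1
      have h2 := sq_alg (h1.1.trans hr'1.le) (h1.2.1.trans hr'1.le) h1.2.2.1
        (hNl θ₁ θ₂ _ _ h.a₁ q1 h.a₂ q2 h1.1 h1.2.1)
      have h3 : (θ₁ - θ₂) ^ 2 ≤ τ ^ 2 := by
        rw [← sq_abs]
        exact pow_le_pow_left₀ (abs_nonneg _) h.dθ 2
      have h4 : (24 * C1 ^ 2 * C2 ^ 2 + 2 * C1 ^ 2) * (θ₁ - θ₂) ^ 2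
          ≤ (24 * C1 ^ 2 * C2 ^ 2 + 2 * C1 ^ 2) * τ ^ 2 :=
        mul_le_mul_of_nonneg_left h3 (by positivity)
      refine (h2.trans (add_le_add_right h4 _)).trans (le_of_eq ?_)
      field_simp
    have hFsq : Integrable (fun ω => Fd θ₁ θ₂ M₁ M₂ a b ω ^ 2) (Pm V) := by
      refine Integrable.mono' (integrable_const ((5 * C2) ^ 2))
        ((h.Fd_meas a b).pow_const 2).aestronglyMeasurable ?_
      filter_upwards [hbd] with ω h1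
      rw [Real.norm_eq_abs, abs_of_nonneg (sq_nonneg _), ← sq_abs]
      exact pow_le_pow_left₀ (abs_nonneg _) h1 2
    have hI := int_four (by positivity : 0 ≤ 12 * C1 ^ 2 * C2 ^ 2 * y) i1 i2 i3 i4 j1 j2 j3 j4
      hFsq hpt
    refine hI.trans ?_
    have e1 : 0 ≤ y * ((1 + Real.log (4 / Δ)) * Δ) := by positivity
    have e2 : 12 * C1 ^ 2 * C2 ^ 2 * y * (4 * (K1 * ((1 + Real.log (4 / Δ)) * Δ)))
        = 48 * C1 ^ 2 * C2 ^ 2 * K1 * (y * ((1 + Real.log (4 / Δ)) * Δ)) := by ring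
    rw [e2, mul_add]
    apply add_le_add
    · apply mul_le_mul_of_nonneg_right _ e1
      have : 0 ≤ (24 * C1 ^ 2 * C2 ^ 2 + 2 * C1 ^ 2) + 2 * C1 + 5 * C2 := by positivity
      linarith
    · apply mul_le_mul_of_nonneg_right _ (sq_nonneg _)
      have : 0 ≤ 48 * C1 ^ 2 * C2 ^ 2 * K1 + 2 * C1 + 5 * C2 := by positivity
      linarith
  · obtain ⟨t0, t1⟩ := thc_sq hD
    have hN0 : ∀ θ, Nf θ 0 = 0 := fun θ => by simp [Nf]
    have hbn : ∀ θ α, 0 ≤ θ → θ ^ 2 ≤ 1 / 2 → |α| ≤ r' → |Nf θ α| ≤ C1 := by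
      intro θ α a0 a1 hα
      have h1 := hNl θ θ α 0 a0 a1 a0 a1 hα (by rw [abs_zero]; exact hr'0.le)
      rw [hN0, sub_zero, sub_self, abs_zero, zero_mul, add_zero] at h1
      have h2 : |α ^ 2 - 0 ^ 2| ≤ 1 := by
        rw [zero_pow two_ne_zero, sub_zero, abs_of_nonneg (sq_nonneg _), ← sq_abs]
        exact pow_le_one₀ (abs_nonneg _) (hα.trans hr'1.le)
      calc |Nf θ α| ≤ C1 * |α ^ 2 - 0 ^ 2| := h1
        _ ≤ C1 * 1 := by gcongr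
        _ = C1 := mul_one _
    have hint : ∀ θ (X : Om V → ℝ), Measurable X → (∀ᵐ ω ∂(Pm V), |X ω| ≤ r') → 0 ≤ θ →
        θ ^ 2 ≤ 1 / 2 → Integrable (fun ω => Nf θ (X ω)) (Pm V) := by
      intro θ X hX hb a0 a1
      refine Integrable.mono' (integrable_const C1)
        ((measurable_Nf θ).comp hX).aestronglyMeasurable ?_
      filter_upwards [hb] with ω h1
      exact hbn θ _ a0 a1 h1
    have m1 := measurable_ms h.f₁.meas θ₁ a b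
    have m2 := measurable_ms h.f₂.meas θ₂ a b
    have b1 : ∀ᵐ ω ∂(Pm V), |ms θ₁ (fun v => M₁ v ω) a b| ≤ r' := hll.mono fun ω h => h.1
    have b2 : ∀ᵐ ω ∂(Pm V), |ms θ₂ (fun v => M₂ v ω) a b| ≤ r' := hll.mono fun ω h => h.2.1
    have I1 := hint θ₁ _ m1 b1 h.a₁ q1
    have I2 := hint θ₂ _ m2 b2 h.a₂ q2
    have I1' := hint (thc D) _ m1 b1 t0 t1
    have I2' := hint (thc D) _ m2 b2 t0 t1
    have hdiff : ∀ θ (X : Om V → ℝ), (∀ᵐ ω ∂(Pm V), |X ω| ≤ r') → 0 ≤ θ →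
        θ ^ 2 ≤ 1 / 2 → Integrable (fun ω => Nf θ (X ω)) (Pm V) →
        Integrable (fun ω => Nf (thc D) (X ω)) (Pm V) →
        |∫ ω, Nf θ (X ω) ∂(Pm V) - ∫ ω, Nf (thc D) (X ω) ∂(Pm V)| ≤ C1 * |θ - thc D| := by
      intro θ X hb a0 a1 J1 J2
      rw [← integral_sub J1 J2, ← Real.norm_eq_abs]
      have h1 := norm_integral_le_of_norm_le_const (μ := Pm V) (C := C1 * |θ - thc D|)
        (f := fun ω => Nf θ (X ω) - Nf (thc D) (X ω)) ?_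
      · simpa using h1
      · filter_upwards [hb] with ω h2
        rw [Real.norm_eq_abs]
        have h3 := hNl θ (thc D) _ _ a0 a1 t0 t1 h2 h2
        rw [sub_self, abs_zero, zero_add] at h3
        refine h3.trans (mul_le_mul_of_nonneg_left ?_ hC1.le)
        apply mul_le_of_le_one_right (abs_nonneg _)
        rw [← sq_abs]
        exact pow_le_one₀ (abs_nonneg _) (h2.trans hr'1.le)
    have d1 := hdiff θ₁ _ b1 h.a₁ q1 I1 I1'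
    have d2 := hdiff θ₂ _ b2 h.a₂ q2 I2 I2'
    have d3 := h.he a b hab
    have hFd : ∫ ω, Fd θ₁ θ₂ M₁ M₂ a b ω ∂(Pm V)
        = ∫ ω, Nf θ₁ (ms θ₁ (fun v => M₁ v ω) a b) ∂(Pm V)
          - ∫ ω, Nf θ₂ (ms θ₂ (fun v => M₂ v ω) a b) ∂(Pm V) := by
      unfold Fd
      exact integral_sub I1 I2
    rw [hFd]
    have h4 := h.ht
    have h5 : C1 * |θ₁ - thc D| + C1 * |θ₂ - thc D| ≤ C1 * τ := by
      rw [← mul_add]
      exact mul_le_mul_of_nonneg_left h4 hC1.le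
    have h6 : C1 * τ ≤ (48 * C1 ^ 2 * C2 ^ 2 * K1 + (24 * C1 ^ 2 * C2 ^ 2 + 2 * C1 ^ 2) + 2 * C1
        + 5 * C2) * τ := by
      apply mul_le_mul_of_nonneg_right _ hτ
      have : 0 ≤ 48 * C1 ^ 2 * C2 ^ 2 * K1 + (24 * C1 ^ 2 * C2 ^ 2 + 2 * C1 ^ 2) + C1
        + 5 * C2 := by positivity
      linarith
    generalize ∫ ω, Nf θ₁ (ms θ₁ (fun v => M₁ v ω) a b) ∂(Pm V) = p1 at *
    generalize ∫ ω, Nf θ₂ (ms θ₂ (fun v => M₂ v ω) a b) ∂(Pm V) = p2 at *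
    generalize ∫ ω, Nf (thc D) (ms θ₁ (fun v => M₁ v ω) a b) ∂(Pm V) = p3 at *
    generalize ∫ ω, Nf (thc D) (ms θ₂ (fun v => M₂ v ω) a b) ∂(Pm V) = p4 at *
    rw [abs_le] at d1 d2 d3 ⊢
    constructor <;> linarith [d1.1, d1.2, d2.1, d2.2, d3.1, d3.2]

end pair

theorem mg_proof (hM : MSG) (hS : SHP.{u}) : MG.{u} := by
  intro D r r₀ c C l₀ hD hr0 hr1 hr₀ hc hC hl₀
  obtain ⟨K, hK, hb⟩ := Fd_bounds.{u} hM hr0.le hr1 hc hC
  have hρ1 := rho_lt_one hD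
  have hρ0 : 0 ≤ 1 / √(D : ℝ) := by positivity
  obtain ⟨S, hSd⟩ : ∃ S, S = 2 * (√(D : ℝ) / (1 - 1 / √(D : ℝ)) ^ 2) := ⟨_, rfl⟩
  have hS0 : 0 ≤ S := by rw [hSd]; positivity
  refine ⟨2 * S * K + 4 * (1 + K ^ 2), by positivity, ?_⟩
  intro V _ G _ θ₁ θ₂ y M₁ M₂ Δ e τ hE h x w
  have hG := hE.tree
  obtain ⟨n, hn⟩ : ∃ n, n = G.dist x w := ⟨_, rfl⟩
  obtain ⟨W, hW⟩ : ∃ W, W = (1 + Real.log (4 / Δ)) * Δ := ⟨_, rfl⟩
  have hW0 : 0 ≤ W := by rw [hW]; exact omega_nonneg (h.Δ0 x) h.d4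
  have hy := h.y0
  obtain ⟨m, hm⟩ : ∃ m : V → V → ℝ, ∀ a b, m a b = ∫ ω, Fd θ₁ θ₂ M₁ M₂ a b ω ∂(Pm V) :=
    ⟨fun a b => ∫ ω, Fd θ₁ θ₂ M₁ M₂ a b ω ∂(Pm V), fun _ _ => rfl⟩
  obtain ⟨f, hf⟩ : ∃ f : V → V → Om V → ℝ, ∀ a b ω, f a b ω = Fd θ₁ θ₂ M₁ M₂ a b ω - m a b :=
    ⟨fun a b ω => Fd θ₁ θ₂ M₁ M₂ a b ω - m a b, fun _ _ _ => rfl⟩
  have hb' := fun a b (hab : G.Adj a b) => hb V G D θ₁ θ₂ y r₀ l₀ M₁ M₂ Δ e τ hD h a b hab
  have hFdL : ∀ a b, G.Adj a b → MemLp (Fd θ₁ θ₂ M₁ M₂ a b) 2 (Pm V) := fun a b hab =>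
    MemLp.of_bound (h.Fd_meas a b).aestronglyMeasurable K (by
      filter_upwards [(hb' a b hab).1] with ω h1
      rw [Real.norm_eq_abs]; exact h1)
  have hfe : ∀ a b, f a b = fun ω => Fd θ₁ θ₂ M₁ M₂ a b ω - m a b := fun a b => funext (hf a b)
  have hfL : ∀ a b, G.Adj a b → MemLp (f a b) 2 (Pm V) := fun a b hab => by
    rw [hfe]
    exact (hFdL a b hab).sub (memLp_const _)
  have hf0 : ∀ a b, G.Adj a b → ∫ ω, f a b ω ∂(Pm V) = 0 := fun a b hab => by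
    rw [hfe, integral_sub ((hFdL a b hab).integrable one_le_two) (integrable_const _),
      integral_const, ← hm]
    simp
  have hFeq : ∀ (g : G ≃g G) a b, G.Adj a b →
      ∀ᵐ ω ∂(Pm V), Fd θ₁ θ₂ M₁ M₂ (g a) (g b) (sh g ω) = Fd θ₁ θ₂ M₁ M₂ a b ω := by
    intro g a b _
    filter_upwards [h.f₁.eqv g a, h.f₁.eqv g b, h.f₂.eqv g a, h.f₂.eqv g b] with ω e1 e2 e3 e4
    unfold Fd ms
    simp only [e1, e2, e3, e4]
  have hmeq : ∀ (g : G ≃g G) a b, G.Adj a b → m (g a) (g b) = m a b := by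
    intro g a b hab
    rw [hm, hm, ← integral_congr_ae (hFeq g a b hab)]
    have h1 := (hS V G).2.1 g
    conv_lhs => rw [← h1.2]
    rw [integral_map h1.1.aemeasurable]
    rw [h1.2]
    exact (h.Fd_meas _ _).aestronglyMeasurable
  have hfeq : ∀ (g : G ≃g G) a b, G.Adj a b →
      ∀ᵐ ω ∂(Pm V), f (g a) (g b) (sh g ω) = f a b ω := by
    intro g a b hab
    filter_upwards [hFeq g a b hab] with ω e1
    rw [hf, hf, e1, hmeq g a b hab]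
  have hdec := dec_proof hS V G D hE f hfL hf0 hfeq
  have hfsq : ∀ a b, G.Adj a b → ∫ ω, f a b ω ^ 2 ∂(Pm V) ≤ K * (y * W + τ ^ 2) := by
    intro a b hab
    rw [hW]
    refine le_trans ?_ (hb' a b hab).2.1
    have i1 := (hFdL a b hab).integrable_sq
    have i2 := (hFdL a b hab).integrable one_le_two
    have e1 : ∀ ω, f a b ω ^ 2 = Fd θ₁ θ₂ M₁ M₂ a b ω ^ 2
        - (2 * m a b * Fd θ₁ θ₂ M₁ M₂ a b ω - m a b ^ 2) := fun ω => by rw [hf]; ring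
    have i3 : Integrable (fun ω => 2 * m a b * Fd θ₁ θ₂ M₁ M₂ a b ω) (Pm V) := i2.const_mul _
    have i4 : Integrable (fun ω => 2 * m a b * Fd θ₁ θ₂ M₁ M₂ a b ω - m a b ^ 2) (Pm V) :=
      i3.sub (integrable_const _)
    simp only [e1]
    rw [integral_sub i1 i4, integral_sub i3 (integrable_const _), integral_const_mul, ← hm,
      integral_const]
    simp only [probReal_univ, smul_eq_mul, one_mul]
    nlinarith [sq_nonneg (m a b)]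
  -- the path
  have hadj : ∀ i < n, G.Adj (geo G x w (i + 1)) (geo G x w i) := fun i hi =>
    (geo_adj hG (by rw [← hn]; exact hi)).symm
  have hF0 : 0 ≤ K * (y * W + τ ^ 2) := by positivity
  have hsum := sum_sq_le (P := Pm V) (n := n) (F := K * (y * W + τ ^ 2)) (s := √(D : ℝ))
    (ρ := 1 / √(D : ℝ)) (by positivity) hF0 hρ0 hρ1
    (f := fun i => f (geo G x w (i + 1)) (geo G x w i)) (fun i hi => hfL _ _ (hadj i hi)) (by
      intro i j hij hj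
      have h1 := hdec (geo G x w (j + 1)) (geo G x w j) (geo G x w (i + 1)) (geo G x w i)
        (hadj j hj) (hadj i (by omega)) (j - i)
        (by
          rw [SimpleGraph.dist_comm, geo_dist hG (by omega) (by omega)]; omega)
        (by
          rw [SimpleGraph.dist_comm, geo_dist hG (by omega) (by omega)])
        (by
          rw [SimpleGraph.dist_comm, geo_dist hG (by omega) (by omega)]; omega)
      refine h1.trans ?_
      have h2 : 0 ≤ ((j - i : ℕ) + 1 : ℝ) * (√(D : ℝ) * (1 / √(D : ℝ)) ^ (j - i)) := by positivity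
      exact mul_le_mul_of_nonneg_left (hfsq _ _ (hadj j hj)) h2)
  rw [← hSd] at hsum
  have hsplit : ∀ ω, hN G θ₁ (fun v => M₁ v ω) x w - hN G θ₂ (fun v => M₂ v ω) x w
      = ∑ i ∈ Finset.range n, f (geo G x w (i + 1)) (geo G x w i) ω
        + ∑ i ∈ Finset.range n, m (geo G x w (i + 1)) (geo G x w i) := by
    intro ω
    unfold hN
    rw [← hn, ← Finset.sum_sub_distrib, ← Finset.sum_add_distrib]
    refine Finset.sum_congr rfl fun i _ => ?_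
    rw [hf]
    unfold Fd
    ring
  have hmb : (∑ i ∈ Finset.range n, m (geo G x w (i + 1)) (geo G x w i)) ^ 2
      ≤ n ^ 2 * (2 * (e ^ 2 + K ^ 2 * τ ^ 2)) := by
    have h1 : |∑ i ∈ Finset.range n, m (geo G x w (i + 1)) (geo G x w i)| ≤ n * (e + K * τ) := by
      refine (Finset.abs_sum_le_sum_abs _ _).trans ?_
      refine (Finset.sum_le_card_nsmul _ _ (e + K * τ) fun i hi => ?_).trans ?_
      · rw [Finset.mem_range] at hi
        rw [hm]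
        exact (hb' _ _ (hadj i hi)).2.2
      · rw [Finset.card_range, nsmul_eq_mul]
    have h2 := pow_le_pow_left₀ (abs_nonneg _) h1 2
    rw [sq_abs, mul_pow] at h2
    refine h2.trans (mul_le_mul_of_nonneg_left ?_ (sq_nonneg _))
    nlinarith [sq_nonneg (e - K * τ)]
  have hSL : MemLp (fun ω => ∑ i ∈ Finset.range n, f (geo G x w (i + 1)) (geo G x w i) ω) 2
      (Pm V) := memLp_finsetSum _ fun i hi => hfL _ _ (hadj i (by rwa [Finset.mem_range] at hi))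
  have hint : ∫ ω, (hN G θ₁ (fun v => M₁ v ω) x w - hN G θ₂ (fun v => M₂ v ω) x w) ^ 2 ∂(Pm V)
      ≤ 2 * ∫ ω, (∑ i ∈ Finset.range n, f (geo G x w (i + 1)) (geo G x w i) ω) ^ 2 ∂(Pm V)
        + 2 * (∑ i ∈ Finset.range n, m (geo G x w (i + 1)) (geo G x w i)) ^ 2 := by
    simp only [hsplit]
    generalize ∑ i ∈ Finset.range n, m (geo G x w (i + 1)) (geo G x w i) = q
    have i1 := hSL.integrable_sq
    have i2 : Integrable (fun ω =>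
        2 * (∑ i ∈ Finset.range n, f (geo G x w (i + 1)) (geo G x w i) ω) ^ 2) (Pm V) :=
      i1.const_mul 2
    have i3 : Integrable (fun ω =>
        2 * (∑ i ∈ Finset.range n, f (geo G x w (i + 1)) (geo G x w i) ω) ^ 2 + 2 * q ^ 2)
        (Pm V) := i2.add (integrable_const _)
    have h5 := integral_mono (μ := Pm V) (f := fun ω =>
      (∑ i ∈ Finset.range n, f (geo G x w (i + 1)) (geo G x w i) ω + q) ^ 2)
      ((hSL.add (memLp_const q)).integrable_sq) i3 (fun ω => by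
        simp only
        nlinarith [sq_nonneg (∑ i ∈ Finset.range n, f (geo G x w (i + 1)) (geo G x w i) ω - q)])
    refine h5.trans (le_of_eq ?_)
    rw [integral_add i2 (integrable_const _), integral_const_mul, integral_const]
    simp
  rw [← hW, ← hn]
  refine hint.trans ?_
  have hnn : (n : ℝ) ≤ (n : ℝ) ^ 2 := by
    rcases Nat.eq_zero_or_pos n with h0 | h0
    · rw [h0]; simp
    · have : (1 : ℝ) ≤ n := by exact_mod_cast h0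
      nlinarith
  have hn0 : (0 : ℝ) ≤ n := Nat.cast_nonneg _
  have k1 : 2 * (n * (S * (K * (y * W + τ ^ 2))))
      ≤ (2 * S * K) * (n * y * W + n ^ 2 * (e ^ 2 + τ ^ 2)) := by
    have h1 : 2 * (n * (S * (K * (y * W + τ ^ 2)))) = (2 * S * K) * (n * y * W + n * τ ^ 2) := by
      ring
    rw [h1]
    apply mul_le_mul_of_nonneg_left _ (by positivity)
    have h2 := mul_le_mul_of_nonneg_right hnn (sq_nonneg τ)
    have h3 : 0 ≤ (n : ℝ) ^ 2 * e ^ 2 := by positivity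
    linarith
  have k2 : 2 * (n ^ 2 * (2 * (e ^ 2 + K ^ 2 * τ ^ 2)))
      ≤ (4 * (1 + K ^ 2)) * (n * y * W + n ^ 2 * (e ^ 2 + τ ^ 2)) := by
    have h1 : (4 * (1 + K ^ 2)) * (n * y * W + n ^ 2 * (e ^ 2 + τ ^ 2))
        - 2 * (n ^ 2 * (2 * (e ^ 2 + K ^ 2 * τ ^ 2)))
        = (4 * (1 + K ^ 2)) * (n * y * W) + 4 * n ^ 2 * τ ^ 2 + 4 * K ^ 2 * n ^ 2 * e ^ 2 := by
      ring
    have h2 : 0 ≤ (4 * (1 + K ^ 2)) * (n * y * W) + 4 * n ^ 2 * τ ^ 2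
        + 4 * K ^ 2 * n ^ 2 * e ^ 2 := by positivity
    linarith
  calc _ ≤ 2 * (n * (S * (K * (y * W + τ ^ 2)))) + 2 * (n ^ 2 * (2 * (e ^ 2 + K ^ 2 * τ ^ 2))) := by
        gcongr
    _ ≤ (2 * S * K) * (n * y * W + n ^ 2 * (e ^ 2 + τ ^ 2))
        + (4 * (1 + K ^ 2)) * (n * y * W + n ^ 2 * (e ^ 2 + τ ^ 2)) := add_le_add k1 k2
    _ = _ := by ring

end P161C
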