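import Vale.Agent.P161C.Defs

/-!
# P161 at the critical point: the modules

Every `def X : Prop` (or structure) below is a module; a prover proves `theorem x_proof : X`.
-/

open MeasureTheory Set Filter Topology

namespace P161C

open P161

universe u

/-! ## CHAN: the channel (one-variable calculus) -/

/-- facts on the channel, for `0 ≤ a ≤ 1/8`, `|m| ≤ 1`, `u ∈ [0,1]` -/
structure CHAN : Prop where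
  qt_meas : Measurable fun p : ℝ × ℝ => qt p.1 p.2
  qt_mem : ∀ c u : ℝ, |c| ≤ 1 / 8 → 0 ≤ u → u ≤ 1 → 0 ≤ qt c u ∧ qt c u ≤ 1
  qt_eq : ∀ c u : ℝ, |c| ≤ 1 / 8 → 0 ≤ u → u ≤ 1 → qt c u + c * (qt c u ^ 2 - qt c u) = u
  qt_int : ∀ c : ℝ, |c| ≤ 1 / 8 → ∀ f : ℝ → ℝ, Measurable f → (∃ B, ∀ x, |f x| ≤ B) →
    ∫ u : unitInterval, f (qt c u) = ∫ y : unitInterval, f y * (1 + c * (2 * (y : ℝ) - 1))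
  sg_le : ∀ a m u : ℝ, 0 ≤ a → a ≤ 1 / 8 → |m| ≤ 1 → 0 ≤ u → u ≤ 1 → |sg a m u| ≤ a
  Ig_le : ∀ a m u : ℝ, 0 ≤ a → a ≤ 1 / 8 → |m| ≤ 1 → 0 ≤ u → u ≤ 1 → |Ig a m u| ≤ 2 * a
  Ig_int : ∀ a m : ℝ, 0 ≤ a → a ≤ 1 / 8 → |m| ≤ 1 → ∫ u : unitInterval, Ig a m u = 0
  Ig_sq : ∀ a m : ℝ, 0 ≤ a → a ≤ 1 / 8 → |m| ≤ 1 →
    a ^ 2 / 4 ≤ ∫ u : unitInterval, (Ig a m u) ^ 2
  Ig_lip : ∀ a m m' u : ℝ, 0 ≤ a → a ≤ 1 / 8 → |m| ≤ 1 → |m'| ≤ 1 → 0 ≤ u → u ≤ 1 →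
    |Ig a m u - Ig a m' u| ≤ 3 * a ^ 2 * |m - m'|

/-! ## MSG: the message function (real algebra) -/

/-- facts on `msg`, `kap`, `Nf`, for `0 ≤ θ`, `θ² ≤ 1/2` -/
structure MSG : Prop where
  inv : ∀ θ α β : ℝ, 0 ≤ θ → θ ^ 2 ≤ 1 / 2 → |α| < 1 → |β| < 1 →
    msg θ ((α + θ * β) / (1 + θ * α * β)) ((β + θ * α) / (1 + θ * α * β)) = α
  lip : ∃ C : ℝ, 0 < C ∧ ∀ θ x y x' y' : ℝ, 0 ≤ θ → θ ^ 2 ≤ 1 / 2 → |x| ≤ 1 → |y| ≤ 1 →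
    |x'| ≤ 1 → |y'| ≤ 1 → |msg θ x y - msg θ x' y'| ≤ C * (|x - x'| + |y - y'|)
  lipθ : ∃ C : ℝ, 0 < C ∧ ∀ θ θ' x y : ℝ, 0 ≤ θ → θ ^ 2 ≤ 1 / 2 → 0 ≤ θ' → θ' ^ 2 ≤ 1 / 2 →
    |x| ≤ 1 → |y| ≤ 1 → |msg θ x y - msg θ' x y| ≤ C * |θ - θ'|
  lt_one : ∀ r : ℝ, r < 1 → ∃ r' : ℝ, 0 < r' ∧ r' < 1 ∧ ∀ θ x y : ℝ, 0 ≤ θ → θ ^ 2 ≤ 1 / 2 →
    |x| ≤ r → |y| ≤ 1 → |msg θ x y| ≤ r'
  mean_le : ∃ C : ℝ, 0 < C ∧ ∀ θ x y : ℝ, 0 ≤ θ → θ ^ 2 ≤ 1 / 2 → |x| ≤ 1 → |y| ≤ 1 →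
    |x| ≤ C * (|msg θ x y| + |msg θ y x|)
  kap_eq : ∀ θ α : ℝ, 0 ≤ θ → θ ^ 2 ≤ 1 / 2 → |α| < 1 → kap θ α = θ * Real.exp (-(Nf θ α))
  Nf_ge : ∀ θ α : ℝ, 0 ≤ θ → θ ^ 2 ≤ 1 / 2 → |α| < 1 → α ^ 2 / 2 ≤ Nf θ α
  Nf_le : ∀ r : ℝ, r < 1 → ∃ C : ℝ, 0 < C ∧ ∀ θ α : ℝ, 0 ≤ θ → θ ^ 2 ≤ 1 / 2 → |α| ≤ r →
    Nf θ α ≤ C * α ^ 2
  Nf_lip : ∀ r : ℝ, r < 1 → ∃ C : ℝ, 0 < C ∧ ∀ θ θ' α α' : ℝ, 0 ≤ θ → θ ^ 2 ≤ 1 / 2 →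
    0 ≤ θ' → θ' ^ 2 ≤ 1 / 2 → |α| ≤ r → |α'| ≤ r →
    |Nf θ α - Nf θ' α'| ≤ C * (|α ^ 2 - α' ^ 2| + |θ - θ'| * α' ^ 2)
  Nf_cvx : ∀ θ : ℝ, 0 ≤ θ → θ ^ 2 ≤ 1 / 2 → ContinuousOn (Nf θ) (Ioo (-1) 1) ∧
    ConvexOn ℝ (Ioo (-1) 1) (Nf θ)

/-! ## GEO, HOM: geometry of trees -/

/-- geodesics of a tree -/
def GEO : Prop := ∀ (V : Type u) (G : SimpleGraph V), G.IsTree →
  (∀ v w i, i ≤ G.dist v w →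
    G.dist v (geo G v w i) = i ∧ G.dist (geo G v w i) w + i = G.dist v w) ∧
  (∀ v w i x, G.dist v x = i → G.dist x w + i = G.dist v w → geo G v w i = x) ∧
  (∀ v w i, i < G.dist v w → G.Adj (geo G v w i) (geo G v w (i + 1))) ∧
  (∀ v w i j, i ≤ j → j ≤ G.dist v w → G.dist (geo G v w i) (geo G v w j) = j - i) ∧
  (∀ v w i, i ≤ G.dist v w → geo G w v (G.dist v w - i) = geo G v w i) ∧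
  (∀ (g : G ≃g G) v w i, i ≤ G.dist v w → g (geo G v w i) = geo G (g v) (g w) i)

/-- a regular tree is distance transitive -/
def HOM : Prop := ∀ (V : Type u) (G : SimpleGraph V) [G.LocallyFinite] (d : ℕ),
  G.IsTree → G.IsRegularOfDegree d → ∀ v w v' w' : V, G.dist v w = G.dist v' w' →
    ∃ g : G ≃g G, g v = v' ∧ g w = w'

/-- the environment: a `(D+1)`-regular tree, `D ≥ 2` -/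
structure Env {V : Type u} (G : SimpleGraph V) [G.LocallyFinite] (D : ℕ) : Prop where
  tree : G.IsTree
  reg : G.IsRegularOfDegree (D + 1)
  hD : 2 ≤ D

/-- an Ising measure with `0 ≤ θ`, `θ² D ≤ 1` -/
structure Isg {V : Type u} (G : SimpleGraph V) (D : ℕ) (θ : ℝ) (μ : Measure (V → Bool)) :
    Prop where
  ising : IsFreeIsing G θ μ
  h0 : 0 ≤ θ
  h1 : θ ^ 2 * D ≤ 1

/-- number of vertices at distance `n` -/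
def SPH : Prop := ∀ (V : Type u) (G : SimpleGraph V) [G.LocallyFinite] (D : ℕ) (hE : Env G D)
  (v : V) (n : ℕ), (((ballF G hE.tree.connected v n).filter fun w => G.dist v w = n).card : ℝ)
    ≤ 2 * (D : ℝ) ^ n

/-! ## SHP: the label space -/

/-- automorphisms preserve the label law; a common map from one label per vertex -/
def SHP : Prop := ∀ (V : Type u) [Countable V] (G : SimpleGraph V),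
  (IsProbabilityMeasure (Pm V)) ∧
  (∀ g : G ≃g G, Measurable (sh g) ∧ (Pm V).map (sh g) = Pm V) ∧
  (∃ F : (V → unitInterval) → Om V, Measurable F ∧ (labelLaw V).map F = Pm V ∧
    ∀ (g : G ≃g G) (U : V → unitInterval), F (fun v => U (g.symm v)) = sh g (F U))

/-! ## DEC: decorrelation of factors of i.i.d. (Backhausz, Szegedy, Virag)

Proof: Hoeffding decomposition `f_e = ∑_S f_e^S`, `ν_e(u) = ∑_{S ∋ u} ‖f_e^S‖² / |S|`,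
`|E f_e f_e'| ≤ ∑_u √(ν_e(u) ν_e'(u))`, and `ν_e(u)` only depends on the relative position. -/

/-- decorrelation along a geodesic `x 0, x 1, ..., x (k+1)` -/
def DEC : Prop := ∀ (V : Type u) [Countable V] (G : SimpleGraph V) [G.LocallyFinite] (D : ℕ),
  Env G D → ∀ f : V → V → Om V → ℝ,
  (∀ a b, G.Adj a b → MemLp (f a b) 2 (Pm V)) →
  (∀ a b, G.Adj a b → ∫ ω, f a b ω ∂(Pm V) = 0) →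
  (∀ (g : G ≃g G) a b, G.Adj a b → ∀ᵐ ω ∂(Pm V), f (g a) (g b) (sh g ω) = f a b ω) →
  ∀ a b a' b' : V, G.Adj a b → G.Adj a' b' → ∀ k : ℕ, G.dist a a' = k → G.dist b b' = k →
    G.dist a b' = k + 1 →
    |∫ ω, f a b ω * f a' b' ω ∂(Pm V)|
      ≤ (k + 1) * (√D * (1 / √D) ^ k) * ∫ ω, f a b ω ^ 2 ∂(Pm V)

/-! ## ENT, OSG -/

/-- truncation (entropy) inequality -/
def ENT : Prop := ∀ l B : ℝ, 0 < l → 0 < B → ∃ C : ℝ, 0 < C ∧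
  ∀ (Ω : Type u) [MeasurableSpace Ω] (P : Measure Ω) [IsProbabilityMeasure P]
    (X Z : Ω → ℝ), Measurable X → Measurable Z → (∀ᵐ ω ∂P, 0 ≤ X ω ∧ X ω ≤ 4) →
    (∀ᵐ ω ∂P, 0 ≤ Z ω) → Integrable (fun ω => Real.exp (l * Z ω)) P →
    ∫ ω, Real.exp (l * Z ω) ∂P ≤ B →
    ∀ A : ℝ, ∫ ω, X ω ∂P ≤ A → A ≤ 4 →
      Integrable (fun ω => X ω * Z ω) P ∧
      ∫ ω, X ω * Z ω ∂P ≤ C * ((1 + Real.log (4 / A)) * A)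

/-- Osgood lemma with one logarithm -/
def OSG : Prop := ∀ (a b A : ℝ) (f K g : ℝ → ℝ), a ≤ b → MonotoneOn f (Icc a b) →
  (∀ t ∈ Icc a b, 0 ≤ f t ∧ f t ≤ 4) → (∀ t ∈ Icc a b, 0 ≤ K t) → (∀ t ∈ Icc a b, 0 ≤ g t) →
  IntervalIntegrable K volume a b → IntervalIntegrable g volume a b →
  (∀ t ∈ Icc a b, f t ≤ f a + ∫ s in a..t, (K s * ((1 + Real.log (4 / f s)) * f s) + g s)) →
  0 < A → A ≤ 4 → f a + ∫ s in a..b, g s ≤ A →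
  f b ≤ 4 * Real.exp (1 - Real.exp (-(∫ s in a..b, K s)) * (1 + Real.log (4 / A)))

/-! ## Laws of messages -/

/-- FMU: pointwise facts on `Fw`.  (`F = Fw w` solves `F'' = w F / (1-α²)²`; Wronskian.) -/
structure FMU : Prop where
  one_le : ∀ w α : ℝ, 0 ≤ w → |α| < 1 → 1 ≤ Fw w α
  contr : ∀ w θ α : ℝ, 0 ≤ w → 0 ≤ θ → θ ≤ 1 → |α| < 1 → Fw w (θ * α) ≤ Fw (θ ^ 2 * w) α
  le_exp : ∀ w α : ℝ, 0 ≤ w → |α| < 1 →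
    Fw w α ≤ Real.exp (w * α ^ 2 / (2 * (1 - α ^ 2) ^ 2))
  ge_cosh : ∀ w α : ℝ, 0 ≤ w → |α| < 1 →
    √(1 - α ^ 2) * Real.cosh (√(1 + w) * α) ≤ Fw w α
  mono : ∀ w w' α : ℝ, 0 ≤ w → w ≤ w' → |α| < 1 → Fw w α ≤ Fw w' α
  cont : ∀ w : ℝ, 0 ≤ w → ContinuousOn (Fw w) (Ioo (-1) 1)
  comb : ∀ w x y : ℝ, 0 ≤ w → |x| < 1 → |y| < 1 →
    (1 + x * y) * Fw w (opl x y) + (1 - x * y) * Fw w (opl x (-y)) = 2 * (Fw w x * Fw w y)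

/-- LAWB: basic algebra of symmetric laws -/
structure LAWB : Prop where
  s_dirac : ∀ r : ℝ, 0 ≤ r → Sym r (Measure.dirac 0)
  s_mono : ∀ (r r' : ℝ) (L : Measure ℝ), r ≤ r' → Sym r L → Sym r' L
  s_scl : ∀ (θ r : ℝ) (L : Measure ℝ), 0 ≤ θ → Sym r L → Sym (θ * r) (scl θ L)
  s_comb : ∀ (r r' : ℝ) (L L' : Measure ℝ), 0 ≤ r → 0 ≤ r' → r < 1 → r' < 1 → Sym r L →
    Sym r' L' → Sym (opl r r') (comb L L')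
  s_combN : ∀ (r : ℝ) (n : ℕ), 0 ≤ r → r < 1 → ∃ r', 0 ≤ r' ∧ r' < 1 ∧
    ∀ L : Measure ℝ, Sym r L → Sym r' (combN L n)
  s_lawR : ∀ (D : ℕ) (r : ℝ), 2 ≤ D → 0 ≤ r → r < 1 → ∃ r', 0 ≤ r' ∧ r' < 1 ∧
    ∀ (θ : ℝ) (S : Measure ℝ) (n : ℕ), 0 ≤ θ → θ ^ 2 * D ≤ 1 → Sym r S →
      Sym r' (lawR θ D S n)
  int_comb : ∀ (r : ℝ) (L L' : Measure ℝ), 0 ≤ r → r < 1 → Sym r L → Sym r L' →
    ∀ φ : ℝ → ℝ, ContinuousOn φ (Ioo (-1) 1) →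
      ∫ z, φ z ∂(comb L L') = ∫ x, ∫ y, (1 + x * y) * φ (opl x y) ∂L' ∂L
  int_cont : ∀ (r : ℝ) (L : Measure ℝ), r < 1 → Sym r L → ∀ φ : ℝ → ℝ,
    ContinuousOn φ (Ioo (-1) 1) → Integrable φ L
  dirac_comb : ∀ (r : ℝ) (L : Measure ℝ), r < 1 → Sym r L → comb (Measure.dirac 0) L = L
  comm : ∀ (r : ℝ) (L L' : Measure ℝ), 0 ≤ r → r < 1 → Sym r L → Sym r L' →
    comb L L' = comb L' L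
  assoc : ∀ (r : ℝ) (L L' L'' : Measure ℝ), 0 ≤ r → r < 1 → Sym r L → Sym r L' →
    Sym r L'' → comb (comb L L') L'' = comb L (comb L' L'')
  second : ∀ (r : ℝ) (L L' : Measure ℝ), 0 ≤ r → r < 1 → Sym r L → Sym r L' →
    ∫ z, z ^ 2 ∂(comb L L')
      = ∫ x, ∫ y, (x ^ 2 + y ^ 2 - 2 * (x * y) ^ 2) / (1 - (x * y) ^ 2) ∂L' ∂L
  prodform : ∀ (D : ℕ) (r θ : ℝ) (S L : Measure ℝ), 0 ≤ r → r < 1 → 0 ≤ θ → θ ≤ 1 →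
    Sym r S → Sym r L → ∀ φ : ℝ → ℝ, ContinuousOn φ (Ioo (-1) 1) →
      ∫ z, φ z ∂(comb S (combN (scl θ L) D))
        = ∫ s, ∫ x : Fin D → ℝ, ((1 + s) * ∏ i, (1 + θ * x i) + (1 - s) * ∏ i, (1 - θ * x i)) / 2
            * φ (((1 + s) * ∏ i, (1 + θ * x i) - (1 - s) * ∏ i, (1 - θ * x i))
              / ((1 + s) * ∏ i, (1 + θ * x i) + (1 - s) * ∏ i, (1 - θ * x i)))
            ∂(Measure.pi fun _ : Fin D => L) ∂S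

/-- JLB: basic facts on the joint law -/
def JLB : Prop := ∀ (D : ℕ) (θ r₁ r y : ℝ) (S : Measure ℝ), 2 ≤ D → 0 ≤ θ → θ ^ 2 * D ≤ 1 →
  0 ≤ r₁ → r₁ < 1 → Sym r₁ S → 0 < r → 0 < y → ∀ l n : ℕ, l ≤ n →
    IsProbabilityMeasure (jlaw θ D S r y n l) ∧
    (jlaw θ D S r y n l).map Prod.fst = lawR θ D S n ∧
    (jlaw θ D S r y n l).map (fun p => (-p.1, p.2)) = jlaw θ D S r y n l ∧
    (∀ᵐ p ∂(jlaw θ D S r y n l), 0 ≤ p.2 ∧ p.2 ≤ r ^ l)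

/-- CVX: monotonicity in the convex order -/
structure CVX : Prop where
  c_comb : ∀ (r : ℝ) (L₁ L₂ L₁' L₂' : Measure ℝ), 0 ≤ r → r < 1 → Sym r L₁ → Sym r L₂ →
    Sym r L₁' → Sym r L₂' → Cx L₁ L₁' → Cx L₂ L₂' → Cx (comb L₁ L₂) (comb L₁' L₂')
  c_scl : ∀ (r θ θ' : ℝ) (L L' : Measure ℝ), 0 ≤ r → r < 1 → 0 ≤ θ → θ ≤ θ' → θ' ≤ 1 →
    Sym r L → Sym r L' → Cx L L' → Cx (scl θ L) (scl θ' L')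
  c_dirac : ∀ (r : ℝ) (L : Measure ℝ), r < 1 → Sym r L → Cx (Measure.dirac 0) L
  c_lawR : ∀ (D : ℕ) (r θ θ' : ℝ) (S S' : Measure ℝ), 2 ≤ D → 0 ≤ r → r < 1 → 0 ≤ θ → θ ≤ θ' →
    θ' ^ 2 * D ≤ 1 → Sym r S → Sym r S' → Cx S S' → ∀ n,
      Cx (lawR θ D S n) (lawR θ' D S' n) ∧ Cx (lawR θ D S n) (lawR θ D S (n + 1)) ∧
      Cx S (lawR θ D S (n + 1))

/-- hypotheses on the law `S` of the local signal at scale `y` -/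
structure SigHyp (c₁ C₁ y r₁ : ℝ) (S : Measure ℝ) : Prop where
  sym : Sym r₁ S
  lo : c₁ * y ^ 2 ≤ ∫ s, s ^ 2 ∂S
  hi : ∫ s, s ^ 2 ∂S ≤ C₁ * y ^ 2
  fw : ∀ w : ℝ, 0 ≤ w → ∫ s, Fw w s ∂S ≤ Real.exp (C₁ * y ^ 2 * w)

/-- SIGF: facts on the law of the local signals -/
structure SIGF : Prop where
  hyp : ∀ J : ℕ, ∃ c₁ C₁ r₁ : ℝ, 0 < c₁ ∧ 0 < C₁ ∧ 0 ≤ r₁ ∧ r₁ < 1 ∧
    ∀ (k : ℕ) (j : ℤ) (t : ℝ), -(k : ℤ) < j → j ≤ J → (j : ℝ) ≤ t → t ≤ j + 1 →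
      SigHyp c₁ C₁ (scal j) r₁ (sigL k t)
  sym : ∀ J : ℕ, ∃ r₁ : ℝ, 0 ≤ r₁ ∧ r₁ < 1 ∧ ∀ (k : ℕ) (t : ℝ), t ≤ J + 1 →
    Sym r₁ (sigL k t)
  hi : ∀ J : ℕ, ∃ C₁ : ℝ, 0 < C₁ ∧ ∀ (k : ℕ) (j : ℤ) (t : ℝ), j ≤ J → (j : ℝ) ≤ t →
    t ≤ j + 1 → ∫ s, s ^ 2 ∂(sigL k t) ≤ C₁ * scal j ^ 2
  monot : ∀ (k : ℕ) (t t' : ℝ), t ≤ t' → Cx (sigL k t) (sigL k t')
  monok : ∀ (k : ℕ) (t : ℝ), Cx (sigL k t) (sigL (k + 1) t)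
  vr : ∃ C : ℝ, 0 < C ∧ ∀ k J : ℕ, 1 - C / (J + 1) ≤ ∫ s, s ^ 2 ∂(sigL k J)

/-- LAWA: upper bound on the second moment -/
def LAWA : Prop := ∀ (D : ℕ) (r₁ θ : ℝ) (S : Measure ℝ), 2 ≤ D → 0 ≤ r₁ → r₁ < 1 →
  Sym r₁ S → 0 ≤ θ → θ ^ 2 * D ≤ 1 → 1 / 2 ≤ θ ^ 2 * D →
    ∀ n, ∫ α, α ^ 2 ∂(lawR θ D S n) ≤ 2 * D * √(∫ s, s ^ 2 ∂S)

/-- LAWL: lower bound on the second moment -/
def LAWL : Prop := ∀ (D : ℕ) (c₁ C₁ r₁ : ℝ), 2 ≤ D → 0 < c₁ → 0 < C₁ → 0 ≤ r₁ → r₁ < 1 →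
  ∃ c κ : ℝ, 0 < c ∧ 0 < κ ∧ ∀ (y θ : ℝ) (S : Measure ℝ), 0 < y → y ≤ 1 →
    SigHyp c₁ C₁ y r₁ S → 0 ≤ θ → θ ^ 2 * D ≤ 1 → 1 / 2 ≤ θ ^ 2 * D → 1 - κ * y ≤ θ ^ 2 * D →
    ∃ n₀ : ℕ, ∀ n, n₀ ≤ n → c * y ≤ ∫ α, α ^ 2 ∂(lawR θ D S n)

/-- LAWX: Gaussian tail of the messages at scale `√y` -/
def LAWX : Prop := ∀ (D : ℕ) (c₁ C₁ r₁ : ℝ), 2 ≤ D → 0 < c₁ → 0 < C₁ → 0 ≤ r₁ → r₁ < 1 →
  ∃ c C : ℝ, 0 < c ∧ 0 < C ∧ ∀ (y θ : ℝ) (S : Measure ℝ), 0 < y → y ≤ 1 →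
    SigHyp c₁ C₁ y r₁ S → 0 ≤ θ → θ ^ 2 * D ≤ 1 → 1 / 2 ≤ θ ^ 2 * D →
    ∀ n, ∫ α, Real.exp (c * (α ^ 2 / y)) ∂(lawR θ D S n) ≤ C

/-- LAWZ: exponential moment of the path averages -/
def LAWZ : Prop := ∀ (D : ℕ) (c₁ C₁ r₁ : ℝ), 2 ≤ D → 0 < c₁ → 0 < C₁ → 0 ≤ r₁ → r₁ < 1 →
  ∃ r l₀ κ : ℝ, 1 < r ∧ 0 < l₀ ∧ 0 < κ ∧ ∀ (y θ : ℝ) (S : Measure ℝ), 0 < y → y ≤ 1 →
    SigHyp c₁ C₁ y r₁ S → 0 ≤ θ → θ ^ 2 * D ≤ 1 → 1 / 2 ≤ θ ^ 2 * D → 1 - κ * y ≤ θ ^ 2 * D →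
    ∀ l : ℕ, ∃ n₀ : ℕ, ∀ n, n₀ ≤ n →
      ∫ p, Real.exp (l₀ * p.2) ∂(jlaw θ D S r y n l) ≤ 2

end P161C
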