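import Vale.Agent.P161C.Mods

/-!
# P161 at the critical point: second wave of modules (processes)
-/

open MeasureTheory Set Filter Topology

namespace P161C

open P161

universe u

variable {V : Type u}

/-! ## Definitions -/

open Classical in
/-- weight of the signals received at `v` up to time `t` if the spin of `v` is `s`; here `η` is
(order labels, signals) -/
noncomputable def wt (k : ℕ) (t : ℝ) (v : V) (η : Om V) (s : ℝ) : ℝ :=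
  ∏ i ∈ Finset.Icc (-(k : ℤ)) ⌈t⌉,
    if act t η.1 (v, i) then 1 + amp i * s * (2 * (η.2 (v, i) : ℝ) - 1) else 1

/-- planted density -/
noncomputable def Zp (μ : Measure (V → Bool)) (A : Finset V) (k : ℕ) (t : ℝ) (η : Om V) : ℝ :=
  ∫ σ, ∏ v ∈ A, wt k t v η (spin (σ v)) ∂μ

/-- posterior mean of the spin of `a` given the signals in `A` -/
noncomputable def ap (μ : Measure (V → Bool)) (A : Finset V) (k : ℕ) (t : ℝ) (a : V)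
    (η : Om V) : ℝ :=
  (∫ σ, spin (σ a) * ∏ v ∈ A, wt k t v η (spin (σ v)) ∂μ) / Zp μ A k t η

open Classical in
/-- the part of the ball of radius `n` around `p` lying on the side of `x` -/
noncomputable def sd (G : SimpleGraph V) [G.LocallyFinite] (hG : G.Connected) (p x : V) (n : ℕ) :
    Finset V := (ballF G hG p n).filter fun u => G.dist x u < G.dist p u

open Classical in
/-- the path average `Zf` computed from the planted messages -/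
noncomputable def zp (G : SimpleGraph V) [G.LocallyFinite] (hG : G.Connected) (D : ℕ)
    (r y : ℝ) (μ : Measure (V → Bool)) (k : ℕ) (t : ℝ) : ℕ → ℕ → V → V → Om V → ℝ
  | _, 0, _, _, _ => 1
  | 0, _ + 1, _, _, _ => 0
  | n + 1, l + 1, p, x, η => (∑ c ∈ (G.neighborFinset x).erase p,
      kt r y (ap μ (sd G hG x c n) k t c η) * zp G hG D r y μ k t n l x c η) / D

open Classical in
/-- the infinite volume field of means -/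
noncomputable def Mi (G : SimpleGraph V) [G.LocallyFinite] (hG : G.Connected)
    (μ : Measure (V → Bool)) (k : ℕ) (t : ℝ) (v : V) : Om V → ℝ :=
  if h : ∃ X : Om V → ℝ, Measurable X ∧ (∀ ω, |X ω| ≤ 1) ∧
      ∀ x, TendL2 (Pm V) (fun R => mk μ (ballF G hG x R) k t v) X
    then h.choose else fun _ => 0

/-- critical value -/
noncomputable def thc (D : ℕ) : ℝ := 1 / √D

/-- sum of the squares of the messages directed towards `x` along the geodesic from `x` to `w` -/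
noncomputable def hs (G : SimpleGraph V) (θ : ℝ) (M : V → ℝ) (x w : V) : ℝ :=
  ∑ i ∈ Finset.range (G.dist x w), ms θ M (geo G x w (i + 1)) (geo G x w i) ^ 2

/-- sum of `Nf` of the messages directed towards `x` along the geodesic from `x` to `w` -/
noncomputable def hN (G : SimpleGraph V) (θ : ℝ) (M : V → ℝ) (x w : V) : ℝ :=
  ∑ i ∈ Finset.range (G.dist x w), Nf θ (ms θ M (geo G x w (i + 1)) (geo G x w i))

/-- product of `kt` of the messages directed towards `x` along the geodesic from `x` to `w` -/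
noncomputable def hk (G : SimpleGraph V) (θ r y : ℝ) (M : V → ℝ) (x w : V) : ℝ :=
  ∏ i ∈ Finset.range (G.dist x w), kt r y (ms θ M (geo G x w (i + 1)) (geo G x w i))

/-- what is used about one process at one time, at scale `y` -/
structure Fld (G : SimpleGraph V) [G.LocallyFinite] (D : ℕ) (θ r r₀ y c C l₀ : ℝ)
    (M : V → Om V → ℝ) : Prop where
  meas : ∀ v, Measurable (M v)
  bd : ∀ v, ∀ᵐ ω ∂(Pm V), |M v ω| ≤ r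
  eqv : ∀ (g : G ≃g G) v, ∀ᵐ ω ∂(Pm V), M (g v) (sh g ω) = M v ω
  ex : ∀ a b, G.Adj a b → ∫ ω, Real.exp (c * (ms θ (fun v => M v ω) a b ^ 2 / y)) ∂(Pm V) ≤ C
  zx : ∀ l p x, G.Adj p x →
    ∫ ω, Real.exp (l₀ * Zf G D θ r₀ y (fun v => M v ω) l p x) ∂(Pm V) ≤ 2

/-! ## Finite volume modules -/

/-- STT: the state is a posterior density, measurability, locality of the means -/
def STT : Prop := ∀ (V : Type u) [Countable V] (G : SimpleGraph V) [G.LocallyFinite] (D : ℕ)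
  (θ : ℝ) (μ : Measure (V → Bool)), Env G D → Isg G D θ μ → ∀ (Λ : Finset V) (k : ℕ),
    (∀ t ω, Post G μ (stt μ Λ k t ω)) ∧
    (∀ v, Measurable fun p : ℝ × Om V => mk μ Λ k p.1 v p.2) ∧
    (∀ v w, Measurable fun p : ℝ × Om V => ck μ Λ k p.1 v w p.2) ∧
    (∀ t v, Measurable (mk μ Λ k t v)) ∧ (∀ t v w, Measurable (ck μ Λ k t v w)) ∧
    (∀ t v ω, |mk μ Λ k t v ω| ≤ 1) ∧
    (∀ (j : ℤ) (t : ℝ) v ω, (j : ℝ) + 1 / 2 ≤ t → t ≤ j + 1 →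
      mk μ Λ k t v ω = mk μ Λ k (j + 1 / 2) v ω)

/-- EQF: equivariance in finite volume -/
def EQF : Prop := ∀ (V : Type u) [Countable V] (G : SimpleGraph V) [G.LocallyFinite] (D : ℕ)
  (θ : ℝ) (μ : Measure (V → Bool)) (hE : Env G D), Isg G D θ μ →
    ∀ (g : G ≃g G) (x v : V) (R k : ℕ) (t : ℝ), ∀ᵐ ω ∂(Pm V),
      mk μ (ballF G hE.tree.connected (g x) R) k t (g v) (sh g ω)
        = mk μ (ballF G hE.tree.connected x R) k t v ω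

/-- PATHF: the path formula for the covariance -/
def PATHF : Prop := ∀ (V : Type u) [Countable V] (G : SimpleGraph V) [G.LocallyFinite] (D : ℕ)
  (θ : ℝ) (μ : Measure (V → Bool)), Env G D → Isg G D θ μ → ∀ ρ, Post G μ ρ →
    (∀ v, |mean μ ρ v| < 1) ∧ ∀ v w, cov μ ρ v w = cvp G θ (mean μ ρ) v w

/-- PLANT: the law of the signals is exactly the planted law -/
def PLANT : Prop := ∀ (V : Type u) [Countable V] (G : SimpleGraph V) [G.LocallyFinite] (D : ℕ)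
  (θ : ℝ) (μ : Measure (V → Bool)), Env G D → Isg G D θ μ → ∀ (Λ : Finset V) (k : ℕ) (t : ℝ),
    ∃ Yf : Om V → Om V, Measurable Yf ∧ (∀ ω, (Yf ω).1 = ω.1) ∧
      Measurable (Zp μ Λ k t) ∧ (∀ η, 0 < Zp μ Λ k t η) ∧
      (Pm V).map Yf = (Pm V).withDensity (fun η => ENNReal.ofReal (Zp μ Λ k t η)) ∧
      ∀ ω σ, stt μ Λ k t ω σ
        = (∏ v ∈ Λ, wt k t v (Yf ω) (spin (σ v))) / Zp μ Λ k t (Yf ω)

/-- BND: the means stay away from `± 1` -/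
def BND : Prop := ∀ D J : ℕ, 2 ≤ D → ∃ r : ℝ, 0 < r ∧ r < 1 ∧
  ∀ (V : Type u) [Countable V] (G : SimpleGraph V) [G.LocallyFinite]
  (θ : ℝ) (μ : Measure (V → Bool)), Env G D → Isg G D θ μ → ∀ (Λ : Finset V) (k : ℕ) (t : ℝ),
    t ≤ J + 1 → ∀ v ω, |mk μ Λ k t v ω| ≤ r

/-- TREELAW: the planted messages follow the recursion -/
def TREELAW : Prop := ∀ (V : Type u) [Countable V] (G : SimpleGraph V) [G.LocallyFinite]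
  (D : ℕ) (θ r y : ℝ) (μ : Measure (V → Bool)) (hE : Env G D), Isg G D θ μ → 0 < r → 0 < y →
    ∀ (k : ℕ) (t : ℝ) (l n : ℕ), l ≤ n → ∀ p x, G.Adj p x →
      Measurable (ap μ (sd G hE.tree.connected p x n) k t x) ∧
      Measurable (zp G hE.tree.connected D r y μ k t n l p x) ∧
      ((Pm V).withDensity
          (fun η => ENNReal.ofReal (Zp μ (sd G hE.tree.connected p x n) k t η))).map
        (fun η => (ap μ (sd G hE.tree.connected p x n) k t x η,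
          zp G hE.tree.connected D r y μ k t n l p x η))
      = jlaw θ D (sigL k t) r y n l

/-- PROCLAW: law of the messages of the process in a ball, directed to the centre -/
def PROCLAW : Prop := ∀ (V : Type u) [Countable V] (G : SimpleGraph V) [G.LocallyFinite]
  (D : ℕ) (θ r y : ℝ) (μ : Measure (V → Bool)) (hE : Env G D), Isg G D θ μ → 0 < r → 0 < y →
    ∀ (k : ℕ) (t : ℝ) (l R : ℕ), l ≤ R → ∀ p x, G.Adj p x →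
      (Pm V).map (fun ω =>
        (ms θ (fun v => mk μ (ballF G hE.tree.connected p R) k t v ω) x p,
          Zf G D θ r y (fun v => mk μ (ballF G hE.tree.connected p R) k t v ω) l p x))
      = jlaw θ D (sigL k t) r y R l

open Classical in
/-- STAR: increment of the squared difference of two processes (finite volumes) -/
def STAR : Prop := ∀ (V : Type u) [Countable V] (G : SimpleGraph V) [G.LocallyFinite]
  (D : ℕ) (θ₁ θ₂ : ℝ) (μ₁ μ₂ : Measure (V → Bool)), Env G D → Isg G D θ₁ μ₁ →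
    Isg G D θ₂ μ₂ → ∀ (Λ₁ Λ₂ : Finset V) (k₁ k₂ : ℕ) (v : V) (j : ℤ) (t₁ t₂ : ℝ),
    (j : ℝ) ≤ t₁ → t₁ ≤ t₂ → t₂ ≤ j + 1 / 2 →
    ∫ ω, (mk μ₁ Λ₁ k₁ t₂ v ω - mk μ₂ Λ₂ k₂ t₂ v ω) ^ 2 ∂(Pm V)
      - ∫ ω, (mk μ₁ Λ₁ k₁ t₁ v ω - mk μ₂ Λ₂ k₂ t₁ v ω) ^ 2 ∂(Pm V)
    ≤ 2 * ∫ t in t₁..t₂, ∑ w ∈ Λ₁ ∪ Λ₂, ∫ ω, (∫ x : unitInterval,
        ((if w ∈ Λ₁ ∧ -(k₁ : ℤ) ≤ j then
            ck μ₁ Λ₁ k₁ t v w ω * Ig (amp j) (mk μ₁ Λ₁ k₁ t w ω) x else 0)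
          - (if w ∈ Λ₂ ∧ -(k₂ : ℤ) ≤ j then
            ck μ₂ Λ₂ k₂ t v w ω * Ig (amp j) (mk μ₂ Λ₂ k₂ t w ω) x else 0)) ^ 2) ∂(Pm V)

/-- STARM: martingale facts in finite volume -/
def STARM : Prop := ∀ (V : Type u) [Countable V] (G : SimpleGraph V) [G.LocallyFinite]
  (D : ℕ) (θ₁ θ₂ : ℝ) (μ₁ μ₂ : Measure (V → Bool)), Env G D → Isg G D θ₁ μ₁ →
    Isg G D θ₂ μ₂ → ∀ (Λ₁ Λ₂ : Finset V) (k₁ k₂ : ℕ) (v : V) (t₁ t₂ : ℝ), t₁ ≤ t₂ →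
    ∫ ω, (mk μ₁ Λ₁ k₁ t₁ v ω - mk μ₂ Λ₂ k₂ t₁ v ω) ^ 2 ∂(Pm V)
      ≤ ∫ ω, (mk μ₁ Λ₁ k₁ t₂ v ω - mk μ₂ Λ₂ k₂ t₂ v ω) ^ 2 ∂(Pm V) ∧
    ∫ ω, (mk μ₁ Λ₁ k₁ t₂ v ω - mk μ₁ Λ₁ k₁ t₁ v ω) ^ 2 ∂(Pm V)
      = ∫ ω, mk μ₁ Λ₁ k₁ t₂ v ω ^ 2 ∂(Pm V) - ∫ ω, mk μ₁ Λ₁ k₁ t₁ v ω ^ 2 ∂(Pm V) ∧
    ∀ f : (V → Bool) → ℝ, Loc f →
      ∫ ω, ∫ σ, stt μ₁ Λ₁ k₁ t₁ ω σ * f σ ∂μ₁ ∂(Pm V) = ∫ σ, f σ ∂μ₁

/-- VAR: every spin is eventually determined, uniformly in the process -/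
def VAR : Prop := ∃ C : ℝ, 0 < C ∧ ∀ (V : Type u) [Countable V] (G : SimpleGraph V)
  [G.LocallyFinite] (D : ℕ) (θ : ℝ) (μ : Measure (V → Bool)), Env G D → Isg G D θ μ →
    ∀ (Λ : Finset V) (k J : ℕ) (v : V), v ∈ Λ →
      1 - C / (J + 1) ≤ ∫ ω, mk μ Λ k J v ω ^ 2 ∂(Pm V)

/-! ## Infinite volume modules -/

/-- LIM: the infinite volume field exists below the critical value -/
def LIM : Prop := ∀ (V : Type u) [Countable V] (G : SimpleGraph V) [G.LocallyFinite]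
  (D : ℕ) (θ : ℝ) (μ : Measure (V → Bool)) (hE : Env G D), Isg G D θ μ → θ ^ 2 * D < 1 →
    ∀ (k : ℕ) (t : ℝ) (v : V), Measurable (Mi G hE.tree.connected μ k t v) ∧
      (∀ ω, |Mi G hE.tree.connected μ k t v ω| ≤ 1) ∧
      ∀ x, TendL2 (Pm V) (fun R => mk μ (ballF G hE.tree.connected x R) k t v)
        (Mi G hE.tree.connected μ k t v)

/-- LIMQ: equivariance of the infinite volume field, constancy on the second half of a round,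
monotonicity of the squared differences -/
def LIMQ : Prop := ∀ (V : Type u) [Countable V] (G : SimpleGraph V) [G.LocallyFinite]
  (D : ℕ) (θ₁ θ₂ : ℝ) (μ₁ μ₂ : Measure (V → Bool)) (hE : Env G D), Isg G D θ₁ μ₁ →
    Isg G D θ₂ μ₂ → θ₁ ^ 2 * D < 1 → θ₂ ^ 2 * D < 1 → ∀ (k₁ k₂ : ℕ) (v : V),
    (∀ t (g : G ≃g G), ∀ᵐ ω ∂(Pm V), Mi G hE.tree.connected μ₁ k₁ t (g v) (sh g ω)
      = Mi G hE.tree.connected μ₁ k₁ t v ω) ∧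
    (∀ (j : ℤ) (t : ℝ), (j : ℝ) + 1 / 2 ≤ t → t ≤ j + 1 → ∀ᵐ ω ∂(Pm V),
      Mi G hE.tree.connected μ₁ k₁ t v ω = Mi G hE.tree.connected μ₁ k₁ (j + 1 / 2) v ω) ∧
    (Monotone fun t => ∫ ω, (Mi G hE.tree.connected μ₁ k₁ t v ω
      - Mi G hE.tree.connected μ₂ k₂ t v ω) ^ 2 ∂(Pm V)) ∧
    (∀ t₁ t₂, t₁ ≤ t₂ → ∫ ω, (Mi G hE.tree.connected μ₁ k₁ t₂ v ω
        - Mi G hE.tree.connected μ₁ k₁ t₁ v ω) ^ 2 ∂(Pm V)
      = ∫ ω, Mi G hE.tree.connected μ₁ k₁ t₂ v ω ^ 2 ∂(Pm V)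
        - ∫ ω, Mi G hE.tree.connected μ₁ k₁ t₁ v ω ^ 2 ∂(Pm V))

/-- STARI: the increment inequality in infinite volume -/
def STARI : Prop := ∀ (V : Type u) [Countable V] (G : SimpleGraph V) [G.LocallyFinite]
  (D : ℕ) (θ₁ θ₂ : ℝ) (μ₁ μ₂ : Measure (V → Bool)) (hE : Env G D), Isg G D θ₁ μ₁ →
    Isg G D θ₂ μ₂ → θ₁ ^ 2 * D < 1 → θ₂ ^ 2 * D < 1 →
    ∀ (k₁ k₂ : ℕ) (v : V) (j : ℤ) (t₁ t₂ : ℝ), -(k₁ : ℤ) ≤ j → -(k₂ : ℤ) ≤ j →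
    (j : ℝ) ≤ t₁ → t₁ ≤ t₂ → t₂ ≤ j + 1 / 2 →
    ∀ h : ℝ → ℝ, IntervalIntegrable h volume t₁ t₂ →
    (∀ N : ℕ, ∀ s ∈ Icc t₁ t₂, ∑ w ∈ ballF G hE.tree.connected v N, ∫ ω,
      (8 * amp j ^ 2 *
          (cvp G θ₁ (fun x => Mi G hE.tree.connected μ₁ k₁ s x ω) v w
            - cvp G θ₂ (fun x => Mi G hE.tree.connected μ₂ k₂ s x ω) v w) ^ 2
        + 18 * amp j ^ 4 *
          (cvp G θ₂ (fun x => Mi G hE.tree.connected μ₂ k₂ s x ω) v w ^ 2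
            * (Mi G hE.tree.connected μ₁ k₁ s w ω
              - Mi G hE.tree.connected μ₂ k₂ s w ω) ^ 2)) ∂(Pm V) ≤ h s) →
    ∫ ω, (Mi G hE.tree.connected μ₁ k₁ t₂ v ω
        - Mi G hE.tree.connected μ₂ k₂ t₂ v ω) ^ 2 ∂(Pm V)
      - ∫ ω, (Mi G hE.tree.connected μ₁ k₁ t₁ v ω
        - Mi G hE.tree.connected μ₂ k₂ t₁ v ω) ^ 2 ∂(Pm V)
      ≤ 2 * ∫ t in t₁..t₂, h t

/-- FLDX: the single process facts hold near criticality -/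
def FLDX : Prop := ∀ D J : ℕ, 2 ≤ D → ∃ (r r₀ c C l₀ : ℝ) (k₀ : ℕ), 0 < r ∧ r < 1 ∧ 1 < r₀ ∧
  0 < c ∧ 0 < C ∧ 0 < l₀ ∧ 1 ≤ k₀ ∧
  ∀ (V : Type u) [Countable V] (G : SimpleGraph V) [G.LocallyFinite] (hE : Env G D)
    (k : ℕ) (μ : Measure (V → Bool)), k₀ ≤ k → Isg G D (thk D k) μ →
    ∀ (j : ℤ) (t : ℝ), -(k : ℤ) < j → j ≤ J → (j : ℝ) ≤ t → t ≤ j + 1 / 2 →
      Fld G D (thk D k) r r₀ (scal j) c C l₀ (Mi G hE.tree.connected μ k t)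

/-- INIT: upper bound on the variance of the means at scale `scal j` -/
def INIT : Prop := ∀ D J : ℕ, 2 ≤ D → ∃ C : ℝ, 0 < C ∧
  ∀ (V : Type u) [Countable V] (G : SimpleGraph V) [G.LocallyFinite] (hE : Env G D)
    (k : ℕ) (μ : Measure (V → Bool)), 1 ≤ k → Isg G D (thk D k) μ →
    ∀ (j : ℤ) (t : ℝ) (v : V), j ≤ J → (j : ℝ) ≤ t → t ≤ j + 1 →
      ∫ ω, Mi G hE.tree.connected μ k t v ω ^ 2 ∂(Pm V) ≤ C * scal j

/-- MON: the mean of `Nf` is monotone in the time and in the process -/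
def MON : Prop := ∀ D J : ℕ, 2 ≤ D → ∃ C : ℝ, 0 < C ∧
  ∀ (V : Type u) [Countable V] (G : SimpleGraph V) [G.LocallyFinite] (hE : Env G D)
    (μ : ℕ → Measure (V → Bool)), (∀ k, Isg G D (thk D k) (μ k)) →
    ∃ f : ℕ → ℝ → ℝ, (∀ k (t : ℝ) a b, 1 ≤ k → t ≤ J + 1 → G.Adj a b →
      ∫ ω, Nf (thc D) (ms (thk D k) (fun v => Mi G hE.tree.connected (μ k) k t v ω) a b)
        ∂(Pm V) = f k t) ∧
      (∀ k, 1 ≤ k → MonotoneOn (f k) (Iic (J + 1))) ∧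
      (∀ k (t : ℝ), 1 ≤ k → t ≤ J + 1 → f k t ≤ f (k + 1) t) ∧
      (∀ k (j : ℤ) (t : ℝ), 1 ≤ k → j ≤ J → (j : ℝ) ≤ t → t ≤ j + 1 → 0 ≤ f k t ∧
        f k t ≤ C * scal j)

/-! ## The main inequality -/

/-- MP: pointwise bounds on the path products -/
def MP : Prop := ∀ (D : ℕ) (r : ℝ), 2 ≤ D → 0 ≤ r → r < 1 → ∃ K : ℝ, 0 < K ∧
  ∀ (V : Type u) (G : SimpleGraph V) [G.LocallyFinite] (θ₁ θ₂ : ℝ) (M₁ M₂ : V → ℝ),
    Env G D → 0 ≤ θ₁ → θ₁ ^ 2 * D ≤ 1 → 1 / 2 ≤ θ₁ ^ 2 * D →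
    0 ≤ θ₂ → θ₂ ^ 2 * D ≤ 1 → 1 / 2 ≤ θ₂ ^ 2 * D → (∀ v, |M₁ v| ≤ r) → (∀ v, |M₂ v| ≤ r) →
    ∀ (v w x : V) (n : ℕ), n = G.dist v w → x = geo G v w (n / 2) →
      cvp G θ₁ M₁ v w ^ 2
        ≤ θ₁ ^ (2 * n) * (Real.exp (-(hs G θ₁ M₁ x v)) * Real.exp (-(hs G θ₁ M₁ x w))) ∧
      (cvp G θ₁ M₁ v w - cvp G θ₂ M₂ v w) ^ 2 ≤ K *
        (θ₁ ^ (2 * n) * (Real.exp (-(hs G θ₁ M₁ x v)) * Real.exp (-(hs G θ₁ M₁ x w)))
          + θ₂ ^ (2 * n) * (Real.exp (-(hs G θ₂ M₂ x v)) * Real.exp (-(hs G θ₂ M₂ x w)))) *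
        ((hN G θ₁ M₁ x v - hN G θ₂ M₂ x v) ^ 2 + (hN G θ₁ M₁ x w - hN G θ₂ M₂ x w) ^ 2
          + (M₁ x - M₂ x) ^ 2 + n ^ 2 * (θ₁ - θ₂) ^ 2) ∧
      (hN G θ₁ M₁ x w - hN G θ₂ M₂ x w) ^ 2 ≤ K * (n + 1) *
        (∑ i ∈ Finset.range (G.dist x w + 1), (M₁ (geo G x w i) - M₂ (geo G x w i)) ^ 2
          + n * (θ₁ - θ₂) ^ 2) ∧
      (hN G θ₁ M₁ x v - hN G θ₂ M₂ x v) ^ 2 ≤ K * (n + 1) *
        (∑ i ∈ Finset.range (G.dist x v + 1), (M₁ (geo G x v i) - M₂ (geo G x v i)) ^ 2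
          + n * (θ₁ - θ₂) ^ 2)

/-- common hypotheses for a pair of processes at one time -/
structure Pair (G : SimpleGraph V) [G.LocallyFinite] (D : ℕ) (θ₁ θ₂ r r₀ y c C l₀ : ℝ)
    (M₁ M₂ : V → Om V → ℝ) (Δ e τ : ℝ) : Prop where
  f₁ : Fld G D θ₁ r r₀ y c C l₀ M₁
  f₂ : Fld G D θ₂ r r₀ y c C l₀ M₂
  y0 : 0 < y
  y1 : y ≤ 1
  a₁ : 0 ≤ θ₁
  b₁ : θ₁ ^ 2 * D ≤ 1
  c₁ : 1 / 2 ≤ θ₁ ^ 2 * D
  a₂ : 0 ≤ θ₂
  b₂ : θ₂ ^ 2 * D ≤ 1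
  c₂ : 1 / 2 ≤ θ₂ ^ 2 * D
  dl : ∀ v, ∫ ω, (M₁ v ω - M₂ v ω) ^ 2 ∂(Pm V) ≤ Δ
  d4 : Δ ≤ 4
  he : ∀ a b, G.Adj a b → |∫ ω, Nf (thc D) (ms θ₁ (fun v => M₁ v ω) a b) ∂(Pm V)
    - ∫ ω, Nf (thc D) (ms θ₂ (fun v => M₂ v ω) a b) ∂(Pm V)| ≤ e
  ht : |θ₁ - thc D| + |θ₂ - thc D| ≤ τ

/-- MG: decorrelated bound of a difference of sums along a geodesic -/
def MG : Prop := ∀ (D : ℕ) (r r₀ c C l₀ : ℝ), 2 ≤ D → 0 < r → r < 1 → 1 < r₀ → 0 < c → 0 < C →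
  0 < l₀ → ∃ K : ℝ, 0 < K ∧
  ∀ (V : Type u) [Countable V] (G : SimpleGraph V) [G.LocallyFinite] (θ₁ θ₂ y : ℝ)
    (M₁ M₂ : V → Om V → ℝ) (Δ e τ : ℝ), Env G D →
    Pair G D θ₁ θ₂ r r₀ y c C l₀ M₁ M₂ Δ e τ → ∀ x w,
      ∫ ω, (hN G θ₁ (fun v => M₁ v ω) x w - hN G θ₂ (fun v => M₂ v ω) x w) ^ 2 ∂(Pm V)
        ≤ K * (G.dist x w * y * ((1 + Real.log (4 / Δ)) * Δ)
          + (G.dist x w : ℝ) ^ 2 * (e ^ 2 + τ ^ 2))

/-- MB: bad paths -/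
def MB : Prop := ∀ (D : ℕ) (r r₀ c C l₀ : ℝ), 2 ≤ D → 0 < r → r < 1 → 1 < r₀ → 0 < c → 0 < C →
  0 < l₀ → ∃ K : ℝ, 0 < K ∧
  ∀ (V : Type u) [Countable V] (G : SimpleGraph V) [G.LocallyFinite] (θ₁ θ₂ y : ℝ)
    (M₁ M₂ : V → Om V → ℝ) (Δ e τ : ℝ), Env G D →
    Pair G D θ₁ θ₂ r r₀ y c C l₀ M₁ M₂ Δ e τ → ∀ x w u, G.dist u w = G.dist u x + G.dist x w →
      ∫ ω, (M₁ u ω - M₂ u ω) ^ 2 * hk G θ₁ r₀ y (fun v => M₁ v ω) x w ∂(Pm V)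
        ≤ K * ((1 + Real.log (4 / Δ)) * Δ) ∧
      ∫ ω, (M₁ u ω - M₂ u ω) ^ 2 * hk G θ₂ r₀ y (fun v => M₂ v ω) x w ∂(Pm V)
        ≤ K * ((1 + Real.log (4 / Δ)) * Δ) ∧
      ∫ ω, hk G θ₁ r₀ y (fun v => M₁ v ω) x w ∂(Pm V) ≤ K ∧
      ∫ ω, hk G θ₂ r₀ y (fun v => M₂ v ω) x w ∂(Pm V) ≤ K

/-- MAIN: the main inequality -/
def MAIN : Prop := ∀ (D : ℕ) (r r₀ c C l₀ : ℝ), 2 ≤ D → 0 < r → r < 1 → 1 < r₀ → 0 < c →
  0 < C → 0 < l₀ → ∃ K : ℝ, 0 < K ∧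
  ∀ (V : Type u) [Countable V] (G : SimpleGraph V) [G.LocallyFinite] (θ₁ θ₂ y : ℝ)
    (M₁ M₂ : V → Om V → ℝ) (Δ e τ : ℝ) (hE : Env G D),
    Pair G D θ₁ θ₂ r r₀ y c C l₀ M₁ M₂ Δ e τ → ∀ (v : V) (N : ℕ),
      ∑ w ∈ ballF G hE.tree.connected v N, ∫ ω,
        ((cvp G θ₁ (fun x => M₁ x ω) v w - cvp G θ₂ (fun x => M₂ x ω) v w) ^ 2
          + cvp G θ₂ (fun x => M₂ x ω) v w ^ 2 * (M₁ w ω - M₂ w ω) ^ 2) ∂(Pm V)
      ≤ K * (((1 + Real.log (4 / Δ)) * Δ) / y + (e ^ 2 + τ ^ 2) / y ^ 3)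

/-! ## Conclusion -/

/-- DIFF: integral inequality for the difference of two processes -/
def DIFF : Prop := ∀ D J : ℕ, 2 ≤ D → ∃ (K : ℝ) (k₀ : ℕ), 0 < K ∧ 1 ≤ k₀ ∧
  ∀ (V : Type u) [Countable V] (G : SimpleGraph V) [G.LocallyFinite] (hE : Env G D)
    (μ : ℕ → Measure (V → Bool)), (∀ k, Isg G D (thk D k) (μ k)) →
    ∀ f : ℕ → ℝ → ℝ, (∀ k (t : ℝ) a b, 1 ≤ k → t ≤ J + 1 → G.Adj a b →
      ∫ ω, Nf (thc D) (ms (thk D k) (fun v => Mi G hE.tree.connected (μ k) k t v ω) a b)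
        ∂(Pm V) = f k t) → (∀ k, 1 ≤ k → MonotoneOn (f k) (Iic (J + 1))) →
    ∀ (k l : ℕ) (v : V) (t : ℝ), k₀ ≤ k → k ≤ l → -(k : ℝ) + 1 ≤ t → t ≤ J →
      ∫ ω, (Mi G hE.tree.connected (μ k) k t v ω
          - Mi G hE.tree.connected (μ l) l t v ω) ^ 2 ∂(Pm V)
        ≤ ∫ ω, (Mi G hE.tree.connected (μ k) k (-(k : ℝ) + 1) v ω
          - Mi G hE.tree.connected (μ l) l (-(k : ℝ) + 1) v ω) ^ 2 ∂(Pm V)
        + ∫ s in (-(k : ℝ) + 1)..t, (K * scal ⌊s⌋ *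
            ((1 + Real.log (4 / ∫ ω, (Mi G hE.tree.connected (μ k) k s v ω
                - Mi G hE.tree.connected (μ l) l s v ω) ^ 2 ∂(Pm V)))
              * ∫ ω, (Mi G hE.tree.connected (μ k) k s v ω
                - Mi G hE.tree.connected (μ l) l s v ω) ^ 2 ∂(Pm V))
            + K / scal ⌊s⌋ * ((f k s - f l s) ^ 2 + (2 / 8 ^ k) ^ 2))

/-- CONV: the fields of means converge in `L²` at every time -/
def CONV : Prop := ∀ (D J : ℕ), 2 ≤ D →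
  ∀ (V : Type u) [Countable V] (G : SimpleGraph V) [G.LocallyFinite] (hE : Env G D)
    (μ : ℕ → Measure (V → Bool)), (∀ k, Isg G D (thk D k) (μ k)) →
    ∀ (v : V) (ε : ℝ), 0 < ε → ∃ N : ℕ, ∀ k l, N ≤ k → k ≤ l →
      ∫ ω, (Mi G hE.tree.connected (μ k) k J v ω
        - Mi G hE.tree.connected (μ l) l J v ω) ^ 2 ∂(Pm V) ≤ ε

/-- FIN: the final statement -/
def FIN : Prop := ∀ (V : Type u) [Countable V] (G : SimpleGraph V) [G.LocallyFinite] (D : ℕ),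
  Env G D → ∀ μ : Measure (V → Bool), IsFreeIsing G (thc D) μ → IsFactorOfIID G μ

end P161C
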