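import Vale.Agent.P161C.Init

/-! # P161 at the critical point, module MON -/

open MeasureTheory Set Filter Topology

namespace P161C

open P161

universe u

variable {V : Type u}

theorem thc_nonneg (D : ℕ) : 0 ≤ thc D := by unfold thc; positivity

theorem thc_sq_half {D : ℕ} (hD : 2 ≤ D) : thc D ^ 2 ≤ 1 / 2 := by
  unfold thc
  have hDr : (2 : ℝ) ≤ D := by exact_mod_cast hD
  rw [div_pow, one_pow, Real.sq_sqrt (by positivity)]
  exact one_div_le_one_div_of_le (by norm_num) hDr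

theorem thk_mono (D k : ℕ) : thk D k ≤ thk D (k + 1) := by
  unfold thk
  apply mul_le_mul_of_nonneg_left _ (by positivity)
  have : (1 : ℝ) / 8 ^ (k + 1) ≤ 1 / 8 ^ k := by
    apply one_div_le_one_div_of_le (by positivity)
    exact pow_le_pow_right₀ (by norm_num) (by omega)
  linarith

theorem Nf_zero (θ : ℝ) : Nf θ 0 = 0 := by unfold Nf; simp

theorem mon_proof (hL : LIM.{u}) (hP : PROCLAW.{u}) (hC : CVX) (hS : SIGF) (hM : MSG)
    (hA : LAWA) (hst : STT.{u}) (hb : BND.{u}) : MON.{u} := by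
  intro D J hD
  obtain ⟨Cs, hCs, hms2⟩ := ms_second (J := J) hL hP hA hS hM hst hD
  obtain ⟨r, hr0, hr1, hbd⟩ := hb D J hD
  obtain ⟨r', hr'0, hr'1, hmsg⟩ := msg_le_one hM r hr1
  obtain ⟨Cu, hCu, hNle⟩ := hM.Nf_le r' hr'1
  obtain ⟨Cn, hCn, hNlip⟩ := hM.Nf_lip r' hr'1
  obtain ⟨r₁, h0, h1, hsym⟩ := hS.sym J
  have hc0 := thc_nonneg D
  have hc1 := thc_sq_half hD
  refine ⟨Cu * Cs, by positivity, ?_⟩
  intro V _ G _ hE μ hI
  -- an adjacent pair
  obtain ⟨a₀⟩ : Nonempty V := hE.tree.connected.nonempty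
  obtain ⟨b₀, hab₀⟩ := exists_adj hE a₀
  -- convergence of the messages
  have hms : ∀ k t, t ≤ (J : ℝ) + 1 → ∀ a b, BT (Pm V) r'
      (fun R ω => ms (thk D k) (fun v => mk (μ k) (ballF G hE.tree.connected b R) k t v ω) a b)
      (fun ω => ms (thk D k) (fun v => Mi G hE.tree.connected (μ k) k t v ω) a b) := by
    intro k t ht a b
    exact BT.ms hM (thk_nonneg D k) (thk_sq_half hD k) hr1.le
      (hmsg _ (thk_nonneg D k) (thk_sq_half hD k))
      (fun v => (field_BT hL hst hE (hI k) (thk_lt hD k) k t b v).rebound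
        (fun R ω => hbd V G (thk D k) (μ k) hE (hI k) _ k t ht v ω)) a b
  have hNf : ∀ k t, t ≤ (J : ℝ) + 1 → ∀ a b, BT (Pm V) (Cn * r' ^ 2)
      (fun R ω => Nf (thc D)
        (ms (thk D k) (fun v => mk (μ k) (ballF G hE.tree.connected b R) k t v ω) a b))
      (fun ω => Nf (thc D)
        (ms (thk D k) (fun v => Mi G hE.tree.connected (μ k) k t v ω) a b)) := by
    intro k t ht a b
    refine (hms k t ht a b).comp (φ := Nf (thc D)) (K := Cn * (2 * r')) (bt_meas_Nf _)
      (fun z hz => ?_) (fun z z' hz hz' => ?_)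
    · have h2 := hNlip (thc D) (thc D) z 0 hc0 hc1 hc0 hc1 hz (by simpa using hr'0.le)
      rw [Nf_zero, sub_zero, sub_self, abs_zero, zero_mul, add_zero] at h2
      refine h2.trans (mul_le_mul_of_nonneg_left ?_ hCn.le)
      have h3 : z ^ 2 - 0 ^ 2 = z ^ 2 := by ring
      rw [h3, abs_of_nonneg (sq_nonneg z), ← sq_abs z]
      exact pow_le_pow_left₀ (abs_nonneg _) hz 2
    · have h2 := hNlip (thc D) (thc D) z z' hc0 hc1 hc0 hc1 hz hz'
      rw [sub_self, abs_zero, zero_mul, add_zero] at h2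
      refine h2.trans ?_
      rw [mul_assoc]
      exact mul_le_mul_of_nonneg_left (bt_sq_lip hz hz') hCn.le
  have hlim : ∀ k t, t ≤ (J : ℝ) + 1 → ∀ a b, G.Adj a b →
      Tendsto (fun n => ∫ x, Nf (thc D) x ∂(lawR (thk D k) D (sigL k t) n)) atTop
        (𝓝 (∫ ω, Nf (thc D)
          (ms (thk D k) (fun v => Mi G hE.tree.connected (μ k) k t v ω) a b) ∂(Pm V))) := by
    intro k t ht a b hab
    have h2 := (hNf k t ht a b).integral
    have h3 : ∀ R, ∫ ω, Nf (thc D)
        (ms (thk D k) (fun v => mk (μ k) (ballF G hE.tree.connected b R) k t v ω) a b) ∂(Pm V)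
        = ∫ x, Nf (thc D) x ∂(lawR (thk D k) D (sigL k t) R) := fun R =>
      int_ms hP hst hE (hI k) k t R hab.symm (bt_meas_Nf _)
    simp only [h3] at h2
    exact h2
  -- comparison of the laws
  have hcx : ∀ (k k' : ℕ) (t t' : ℝ), thk D k ≤ thk D k' → t ≤ (J : ℝ) + 1 →
      t' ≤ (J : ℝ) + 1 → Cx (sigL k t) (sigL k' t') → ∀ n,
      ∫ x, Nf (thc D) x ∂(lawR (thk D k) D (sigL k t) n)
        ≤ ∫ x, Nf (thc D) x ∂(lawR (thk D k') D (sigL k' t') n) := by
    intro k k' t t' hkk ht ht' hcx n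
    have h2 := (hC.c_lawR D r₁ (thk D k) (thk D k') (sigL k t) (sigL k' t') hD h0 h1
      (thk_nonneg D k) hkk (thk_lt hD k').le (hsym k t ht) (hsym k' t' ht') hcx n).1
    exact h2 (Nf (thc D)) (hM.Nf_cvx (thc D) hc0 hc1).1 (hM.Nf_cvx (thc D) hc0 hc1).2
  refine ⟨fun k t => limUnder atTop
    (fun n => ∫ x, Nf (thc D) x ∂(lawR (thk D k) D (sigL k t) n)), ?_, ?_, ?_, ?_⟩
  · intro k t a b _ ht hab
    exact ((hlim k t ht a b hab).limUnder_eq).symm
  · intro k _ t ht t' ht' htt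
    simp only [mem_Iic] at ht ht'
    simp only
    rw [(hlim k t ht a₀ b₀ hab₀).limUnder_eq, (hlim k t' ht' a₀ b₀ hab₀).limUnder_eq]
    exact le_of_tendsto_of_tendsto' (hlim k t ht a₀ b₀ hab₀) (hlim k t' ht' a₀ b₀ hab₀)
      (hcx k k t t' le_rfl ht ht' (hS.monot k t t' htt))
  · intro k t _ ht
    simp only
    rw [(hlim k t ht a₀ b₀ hab₀).limUnder_eq, (hlim (k + 1) t ht a₀ b₀ hab₀).limUnder_eq]
    exact le_of_tendsto_of_tendsto' (hlim k t ht a₀ b₀ hab₀) (hlim (k + 1) t ht a₀ b₀ hab₀)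
      (hcx k (k + 1) t t (thk_mono D k) ht ht (hS.monok k t))
  · intro k j t hk hj hjt htj
    have ht : t ≤ (J : ℝ) + 1 := by
      have : (j : ℝ) ≤ J := by exact_mod_cast hj
      linarith
    simp only
    rw [(hlim k t ht a₀ b₀ hab₀).limUnder_eq]
    constructor
    · refine integral_nonneg_of_ae ?_
      filter_upwards [(hms k t ht a₀ b₀).bX] with ω hω
      have h2 := hM.Nf_ge (thc D) _ hc0 hc1 (lt_of_le_of_lt hω hr'1)
      have h3 := sq_nonneg (ms (thk D k) (fun v => Mi G hE.tree.connected (μ k) k t v ω) a₀ b₀)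
      simp only [Pi.zero_apply]
      linarith
    · have hsq : Integrable (fun ω =>
          ms (thk D k) (fun v => Mi G hE.tree.connected (μ k) k t v ω) a₀ b₀ ^ 2) (Pm V) := by
        have h4 := (hms k t ht a₀ b₀).comp (φ := fun z => z ^ 2) (K := 2 * r')
          (B' := r' ^ 2) (by fun_prop)
          (fun z hz => by rw [abs_of_nonneg (sq_nonneg z), ← sq_abs z]
                          exact pow_le_pow_left₀ (abs_nonneg _) hz 2)
          (fun z z' hz hz' => bt_sq_lip hz hz')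
        exact h4.intX
      calc ∫ ω, Nf (thc D)
            (ms (thk D k) (fun v => Mi G hE.tree.connected (μ k) k t v ω) a₀ b₀) ∂(Pm V)
          ≤ ∫ ω, Cu * ms (thk D k)
              (fun v => Mi G hE.tree.connected (μ k) k t v ω) a₀ b₀ ^ 2 ∂(Pm V) := by
            refine integral_mono_ae (hNf k t ht a₀ b₀).intX (hsq.const_mul _) ?_
            filter_upwards [(hms k t ht a₀ b₀).bX] with ω hω
            exact hNle (thc D) _ hc0 hc1 hω
        _ = Cu * ∫ ω, ms (thk D k)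
              (fun v => Mi G hE.tree.connected (μ k) k t v ω) a₀ b₀ ^ 2 ∂(Pm V) :=
            integral_const_mul _ _
        _ ≤ Cu * (Cs * scal j) := mul_le_mul_of_nonneg_left
            (hms2 V G hE k (μ k) hk (hI k) j t a₀ b₀ hab₀ hj hjt htj).2 hCu.le
        _ = Cu * Cs * scal j := by ring

end P161C
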