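import Vale.Agent.P161C.Mods2
import Vale.Agent.P161C.Geo

/-!
# MP: pointwise bounds on the path products
-/

open MeasureTheory Set Filter Topology

namespace P161C

open P161

universe u

variable {V : Type u} {G : SimpleGraph V}

/-- the halves of a geodesic -/
theorem half_right (hG : G.IsTree) {v w : V} {k j : ℕ} (hj : k + j ≤ G.dist v w) :
    geo G (geo G v w k) w j = geo G v w (k + j) := geo_sub hG (by omega) hj

theorem half_left (hG : G.IsTree) {v w : V} {k j : ℕ} (hk : k ≤ G.dist v w) (hj : j ≤ k) :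
    geo G (geo G v w k) v j = geo G v w (k - j) := by
  have h1 := geo_dist_left hG hk
  have h2 := geo_dist hG (v := v) (w := w) (i := k - j) (j := k) (by omega) hk
  have h3 := geo_dist_left hG (v := v) (w := w) (i := k - j) (by omega)
  have s1 : G.dist (geo G v w k) (geo G v w (k - j))
      = G.dist (geo G v w (k - j)) (geo G v w k) := SimpleGraph.dist_comm
  have s2 : G.dist (geo G v w (k - j)) v = G.dist v (geo G v w (k - j)) := SimpleGraph.dist_comm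
  have s3 : G.dist (geo G v w k) v = G.dist v (geo G v w k) := SimpleGraph.dist_comm
  exact geo_eq hG (by omega) (by omega)

theorem dist_half_right (hG : G.IsTree) {v w : V} {k : ℕ} (hk : k ≤ G.dist v w) :
    G.dist (geo G v w k) w = G.dist v w - k := by
  have := geo_dist_right hG hk
  omega

theorem dist_half_left (hG : G.IsTree) {v w : V} {k : ℕ} (hk : k ≤ G.dist v w) :
    G.dist (geo G v w k) v = k := by
  have := geo_dist_left hG hk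
  rw [SimpleGraph.dist_comm]
  exact this

/-- the path product in exponential form -/
theorem cvp_eq (hG : G.IsTree) (hM : MSG) {θ : ℝ} (h0 : 0 ≤ θ) (h1 : θ ^ 2 ≤ 1 / 2) {M : V → ℝ}
    (hlt : ∀ a b, |ms θ M a b| < 1) (v w : V) :
    cvp G θ M v w = θ ^ (G.dist v w) * Real.exp (-(hN G θ M (geo G v w (G.dist v w / 2)) v))
      * Real.exp (-(hN G θ M (geo G v w (G.dist v w / 2)) w))
      * (1 - M (geo G v w (G.dist v w / 2)) ^ 2) := by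
  set n := G.dist v w with hn
  set k := n / 2 with hk
  have hkn : k ≤ n := Nat.div_le_self n 2
  set x := geo G v w k with hx
  have hkap : ∀ a b, kap θ (ms θ M a b) = θ * Real.exp (-(Nf θ (ms θ M a b))) := fun a b =>
    hM.kap_eq θ _ h0 h1 (hlt a b)
  have hxv : G.dist x v = k := dist_half_left hG hkn
  have hxw : G.dist x w = n - k := dist_half_right hG hkn
  have e1 : ∏ i ∈ Finset.range k, kap θ (ms θ M (geo G v w i) (geo G v w (i + 1)))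
      = θ ^ k * Real.exp (-(hN G θ M x v)) := by
    unfold hN
    rw [hxv, ← Finset.sum_neg_distrib, Real.exp_sum, ← Finset.prod_range_reflect]
    have : θ ^ k = ∏ _i ∈ Finset.range k, θ := by
      rw [Finset.prod_const, Finset.card_range]
    rw [this, ← Finset.prod_mul_distrib]
    refine Finset.prod_congr rfl fun i hi => ?_
    rw [Finset.mem_range] at hi
    rw [hkap, hx, half_left hG hkn (by omega), half_left hG hkn (by omega)]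
    have a1 : k - 1 - i = k - (i + 1) := by omega
    have a2 : k - 1 - i + 1 = k - i := by omega
    rw [a2, a1]
  have e2 : ∏ i ∈ Finset.Ico k n, kap θ (ms θ M (geo G v w (i + 1)) (geo G v w i))
      = θ ^ (n - k) * Real.exp (-(hN G θ M x w)) := by
    unfold hN
    rw [hxw, ← Finset.sum_neg_distrib, Real.exp_sum, Finset.prod_Ico_eq_prod_range]
    have : θ ^ (n - k) = ∏ _i ∈ Finset.range (n - k), θ := by
      rw [Finset.prod_const, Finset.card_range]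
    rw [this, ← Finset.prod_mul_distrib]
    refine Finset.prod_congr rfl fun i hi => ?_
    rw [Finset.mem_range] at hi
    rw [hkap, hx, half_right hG (by omega), half_right hG (by omega), add_assoc]
  unfold cvp
  rw [← hn, ← hk, ← hx, e1, e2]
  have : θ ^ n = θ ^ k * θ ^ (n - k) := by
    rw [← pow_add]; congr 1; omega
  rw [this]
  ring

theorem sq_le_half {D : ℕ} (hD : 2 ≤ D) {θ : ℝ} (h : θ ^ 2 * D ≤ 1) : θ ^ 2 ≤ 1 / 2 := by
  have hD' : (2 : ℝ) ≤ D := by exact_mod_cast hD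
  nlinarith [sq_nonneg θ]

theorem abs_sub_le_max_log {a b : ℝ} (ha : 0 < a) (hb : 0 < b) :
    |a - b| ≤ max a b * |Real.log a - Real.log b| := by
  have key : ∀ a b : ℝ, 0 < a → a ≤ b → b - a ≤ b * (Real.log b - Real.log a) := by
    intro a b ha hab
    have hb : 0 < b := ha.trans_le hab
    have h1 : 1 - (b / a)⁻¹ ≤ Real.log (b / a) := Real.one_sub_inv_le_log_of_pos (by positivity)
    rw [Real.log_div hb.ne' ha.ne'] at h1
    have h2 : b * (1 - (b / a)⁻¹) = b - a := by field_simp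
    rw [← h2]
    exact mul_le_mul_of_nonneg_left h1 hb.le
  rcases le_total a b with h | h
  · rw [max_eq_right h, abs_sub_comm, abs_of_nonneg (sub_nonneg.2 h), abs_sub_comm,
      abs_of_nonneg (sub_nonneg.2 (Real.log_le_log ha h))]
    exact key a b ha h
  · rw [max_eq_left h, abs_of_nonneg (sub_nonneg.2 h),
      abs_of_nonneg (sub_nonneg.2 (Real.log_le_log hb h))]
    exact key b a hb h

theorem abs_log_sub_le {a b m : ℝ} (hm : 0 < m) (ha : m ≤ a) (hb : m ≤ b) :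
    |Real.log a - Real.log b| ≤ |a - b| / m := by
  have key : ∀ a b : ℝ, m ≤ a → a ≤ b → Real.log b - Real.log a ≤ (b - a) / m := by
    intro a b ha hab
    have ha0 : 0 < a := hm.trans_le ha
    have hb0 : 0 < b := ha0.trans_le hab
    rw [← Real.log_div hb0.ne' ha0.ne']
    have h1 := Real.log_le_sub_one_of_pos (x := b / a) (by positivity)
    have h2 : b / a - 1 = (b - a) / a := by field_simp
    rw [h2] at h1
    refine h1.trans ?_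
    exact div_le_div_of_nonneg_left (by linarith) hm ha
  rcases le_total a b with h | h
  · rw [abs_sub_comm, abs_of_nonneg (sub_nonneg.2 (Real.log_le_log (hm.trans_le ha) h)),
      abs_sub_comm, abs_of_nonneg (sub_nonneg.2 h)]
    exact key a b ha h
  · rw [abs_of_nonneg (sub_nonneg.2 (Real.log_le_log (hm.trans_le hb) h)),
      abs_of_nonneg (sub_nonneg.2 h)]
    exact key b a hb h

/-- the edge-wise Lipschitz bound -/
theorem edge_lip (hM : MSG) {r : ℝ} (hr0 : 0 ≤ r) (hr1 : r < 1) :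
    ∃ (r' C : ℝ), 0 < r' ∧ r' < 1 ∧ 0 < C ∧ ∀ (V : Type u) (θ₁ θ₂ : ℝ) (M₁ M₂ : V → ℝ),
      0 ≤ θ₁ → θ₁ ^ 2 ≤ 1 / 2 → 0 ≤ θ₂ → θ₂ ^ 2 ≤ 1 / 2 → (∀ v, |M₁ v| ≤ r) →
      (∀ v, |M₂ v| ≤ r) → ∀ a b,
      |ms θ₁ M₁ a b| ≤ r' ∧ |ms θ₂ M₂ a b| ≤ r' ∧
      |ms θ₁ M₁ a b - ms θ₂ M₂ a b| ≤ C * (|M₁ a - M₂ a| + |M₁ b - M₂ b| + |θ₁ - θ₂|) ∧
      |Nf θ₁ (ms θ₁ M₁ a b) - Nf θ₂ (ms θ₂ M₂ a b)|
        ≤ C * (|M₁ a - M₂ a| + |M₁ b - M₂ b| + |θ₁ - θ₂|) := by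
  obtain ⟨r', hr'0, hr'1, hr'⟩ := hM.lt_one r hr1
  obtain ⟨C1, hC1, h1⟩ := hM.Nf_lip r' hr'1
  obtain ⟨C2, hC2, h2⟩ := hM.lip
  obtain ⟨C3, hC3, h3⟩ := hM.lipθ
  refine ⟨r', C2 + C3 + C1 * (2 * (C2 + C3) + 1), hr'0, hr'1, by positivity, ?_⟩
  intro V θ₁ θ₂ M₁ M₂ a1 b1 a2 b2 hM1 hM2 a b
  have m1 : ∀ v, |M₁ v| ≤ 1 := fun v => (hM1 v).trans hr1.le
  have m2 : ∀ v, |M₂ v| ≤ 1 := fun v => (hM2 v).trans hr1.le
  have k1 : |ms θ₁ M₁ a b| ≤ r' := hr' θ₁ _ _ a1 b1 (hM1 a) (m1 b)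
  have k2 : |ms θ₂ M₂ a b| ≤ r' := hr' θ₂ _ _ a2 b2 (hM2 a) (m2 b)
  set X := |M₁ a - M₂ a| + |M₁ b - M₂ b| with hX
  set T := |θ₁ - θ₂| with hT
  have hX0 : 0 ≤ X := by positivity
  have hT0 : 0 ≤ T := abs_nonneg _
  have k3 : |ms θ₁ M₁ a b - ms θ₂ M₂ a b| ≤ (C2 + C3) * (X + T) := by
    have e1 := h2 θ₁ (M₁ a) (M₁ b) (M₂ a) (M₂ b) a1 b1 (m1 a) (m1 b) (m2 a) (m2 b)
    have e2 := h3 θ₁ θ₂ (M₂ a) (M₂ b) a1 b1 a2 b2 (m2 a) (m2 b)
    have e3 : |ms θ₁ M₁ a b - ms θ₂ M₂ a b|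
        ≤ |msg θ₁ (M₁ a) (M₁ b) - msg θ₁ (M₂ a) (M₂ b)|
          + |msg θ₁ (M₂ a) (M₂ b) - msg θ₂ (M₂ a) (M₂ b)| := by
      unfold ms
      exact abs_sub_le _ _ _
    nlinarith
  refine ⟨k1, k2, k3.trans ?_, ?_⟩
  · have : 0 ≤ C1 * (2 * (C2 + C3) + 1) * (X + T) := by positivity
    nlinarith
  · have e4 := h1 θ₁ θ₂ (ms θ₁ M₁ a b) (ms θ₂ M₂ a b) a1 b1 a2 b2 k1 k2
    have e5 : |ms θ₁ M₁ a b ^ 2 - ms θ₂ M₂ a b ^ 2| ≤ 2 * |ms θ₁ M₁ a b - ms θ₂ M₂ a b| := by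
      have : ms θ₁ M₁ a b ^ 2 - ms θ₂ M₂ a b ^ 2
          = (ms θ₁ M₁ a b + ms θ₂ M₂ a b) * (ms θ₁ M₁ a b - ms θ₂ M₂ a b) := by ring
      rw [this, abs_mul]
      have h6 : |ms θ₁ M₁ a b + ms θ₂ M₂ a b| ≤ 2 := by
        refine (abs_add_le _ _).trans ?_
        linarith
      exact mul_le_mul_of_nonneg_right h6 (abs_nonneg _)
    have e6 : ms θ₂ M₂ a b ^ 2 ≤ 1 := by
      rw [← sq_abs]
      have := abs_nonneg (ms θ₂ M₂ a b)
      nlinarith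
    have e7 : |θ₁ - θ₂| * ms θ₂ M₂ a b ^ 2 ≤ T := by
      calc T * ms θ₂ M₂ a b ^ 2 ≤ T * 1 := by gcongr
        _ = T := mul_one _
    have hmsg0 := abs_nonneg (ms θ₁ M₁ a b - ms θ₂ M₂ a b)
    calc |Nf θ₁ (ms θ₁ M₁ a b) - Nf θ₂ (ms θ₂ M₂ a b)|
        ≤ C1 * (2 * ((C2 + C3) * (X + T)) + T) := by
          refine e4.trans ?_
          gcongr
          exact e5.trans (by linarith)
      _ ≤ C1 * (2 * (C2 + C3) + 1) * (X + T) := by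
          have : T ≤ X + T := by linarith
          nlinarith
      _ ≤ _ := by
          have : 0 ≤ (C2 + C3) * (X + T) := by positivity
          nlinarith

/-- Cauchy Schwarz for the difference of the `hN` -/
theorem hN_diff {θ₁ θ₂ C : ℝ} {M₁ M₂ : V → ℝ}
    (hl : ∀ a b, |Nf θ₁ (ms θ₁ M₁ a b) - Nf θ₂ (ms θ₂ M₂ a b)|
        ≤ C * (|M₁ a - M₂ a| + |M₁ b - M₂ b| + |θ₁ - θ₂|)) (y z : V) (n : ℕ)
    (hyz : G.dist y z ≤ n) :
    (hN G θ₁ M₁ y z - hN G θ₂ M₂ y z) ^ 2 ≤ 6 * C ^ 2 * (n + 1) *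
      (∑ i ∈ Finset.range (G.dist y z + 1), (M₁ (geo G y z i) - M₂ (geo G y z i)) ^ 2
        + n * (θ₁ - θ₂) ^ 2) := by
  obtain ⟨l, hlen⟩ : ∃ l, l = G.dist y z := ⟨_, rfl⟩
  obtain ⟨δ, hδ⟩ : ∃ δ : ℕ → ℝ, ∀ i, δ i = (M₁ (geo G y z i) - M₂ (geo G y z i)) ^ 2 :=
    ⟨_, fun _ => rfl⟩
  have hδ0 : ∀ i, 0 ≤ δ i := fun i => by rw [hδ]; exact sq_nonneg _
  rw [← hlen] at hyz ⊢
  have e1 : hN G θ₁ M₁ y z - hN G θ₂ M₂ y z
      = ∑ i ∈ Finset.range l, (Nf θ₁ (ms θ₁ M₁ (geo G y z (i + 1)) (geo G y z i))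
        - Nf θ₂ (ms θ₂ M₂ (geo G y z (i + 1)) (geo G y z i))) := by
    unfold hN
    rw [← hlen, Finset.sum_sub_distrib]
  have e2 : ∀ i ∈ Finset.range l, (Nf θ₁ (ms θ₁ M₁ (geo G y z (i + 1)) (geo G y z i))
        - Nf θ₂ (ms θ₂ M₂ (geo G y z (i + 1)) (geo G y z i))) ^ 2
      ≤ 3 * C ^ 2 * (δ (i + 1) + δ i + (θ₁ - θ₂) ^ 2) := by
    intro i _
    have h4 := hl (geo G y z (i + 1)) (geo G y z i)
    have h5 := pow_le_pow_left₀ (abs_nonneg _) h4 2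
    rw [sq_abs] at h5
    refine h5.trans ?_
    rw [hδ, hδ]
    generalize M₁ (geo G y z (i + 1)) - M₂ (geo G y z (i + 1)) = A
    generalize M₁ (geo G y z i) - M₂ (geo G y z i) = B
    generalize θ₁ - θ₂ = T
    have h6 : (|A| + |B| + |T|) ^ 2 ≤ 3 * (A ^ 2 + B ^ 2 + T ^ 2) := by
      rw [← sq_abs A, ← sq_abs B, ← sq_abs T]
      nlinarith [sq_nonneg (|A| - |B|), sq_nonneg (|A| - |T|), sq_nonneg (|B| - |T|)]
    calc (C * (|A| + |B| + |T|)) ^ 2 = C ^ 2 * (|A| + |B| + |T|) ^ 2 := by ring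
      _ ≤ C ^ 2 * (3 * (A ^ 2 + B ^ 2 + T ^ 2)) := mul_le_mul_of_nonneg_left h6 (sq_nonneg _)
      _ = _ := by ring
  have e3 : (hN G θ₁ M₁ y z - hN G θ₂ M₂ y z) ^ 2 ≤ l * ∑ i ∈ Finset.range l,
      3 * C ^ 2 * (δ (i + 1) + δ i + (θ₁ - θ₂) ^ 2) := by
    rw [e1]
    refine (sq_sum_le_card_mul_sum_sq).trans ?_
    rw [Finset.card_range]
    exact mul_le_mul_of_nonneg_left (Finset.sum_le_sum e2) (Nat.cast_nonneg _)
  have e4 : ∑ i ∈ Finset.range l, 3 * C ^ 2 * (δ (i + 1) + δ i + (θ₁ - θ₂) ^ 2)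
      ≤ 3 * C ^ 2 * (2 * ∑ i ∈ Finset.range (l + 1), δ i + l * (θ₁ - θ₂) ^ 2) := by
    rw [← Finset.mul_sum, Finset.sum_add_distrib, Finset.sum_add_distrib, Finset.sum_const,
      Finset.card_range, nsmul_eq_mul]
    have f1 : ∑ i ∈ Finset.range l, δ (i + 1) ≤ ∑ i ∈ Finset.range (l + 1), δ i := by
      rw [Finset.sum_range_succ']
      have := hδ0 0
      linarith
    have f2 : ∑ i ∈ Finset.range l, δ i ≤ ∑ i ∈ Finset.range (l + 1), δ i := by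
      rw [Finset.sum_range_succ]
      have := hδ0 l
      linarith
    have h7 : 0 ≤ 3 * C ^ 2 := by positivity
    apply mul_le_mul_of_nonneg_left _ h7
    linarith
  have hS0 : 0 ≤ ∑ i ∈ Finset.range (l + 1), δ i := Finset.sum_nonneg fun i _ => hδ0 i
  have e5 : ∑ i ∈ Finset.range (l + 1), (M₁ (geo G y z i) - M₂ (geo G y z i)) ^ 2
      = ∑ i ∈ Finset.range (l + 1), δ i := Finset.sum_congr rfl fun i _ => (hδ i).symm
  rw [e5]
  generalize ∑ i ∈ Finset.range (l + 1), δ i = S at *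
  have hln : (l : ℝ) ≤ n := by exact_mod_cast hyz
  have hl0 : (0 : ℝ) ≤ l := Nat.cast_nonneg _
  have hT0 : 0 ≤ (θ₁ - θ₂) ^ 2 := sq_nonneg _
  generalize (θ₁ - θ₂) ^ 2 = T at *
  have g1 : l * T ≤ 2 * (n * T) := by
    have := mul_le_mul_of_nonneg_right hln hT0
    have h8 : 0 ≤ (n : ℝ) * T := by positivity
    linarith
  have g2 : (l : ℝ) ≤ n + 1 := by linarith
  calc (hN G θ₁ M₁ y z - hN G θ₂ M₂ y z) ^ 2
      ≤ l * (3 * C ^ 2 * (2 * S + l * T)) := e3.trans (mul_le_mul_of_nonneg_left e4 hl0)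
    _ ≤ (n + 1) * (3 * C ^ 2 * (2 * S + 2 * (n * T))) := by gcongr
    _ = 6 * C ^ 2 * (n + 1) * (S + n * T) := by ring

/-- `hs ≤ 2 hN` -/
theorem hs_le_hN (hM : MSG) {θ : ℝ} {M : V → ℝ} (h0 : 0 ≤ θ) (h1 : θ ^ 2 ≤ 1 / 2)
    (hlt : ∀ a b, |ms θ M a b| < 1) (y z : V) : hs G θ M y z ≤ 2 * hN G θ M y z := by
  unfold hs hN
  rw [Finset.mul_sum]
  refine Finset.sum_le_sum fun i _ => ?_
  have := hM.Nf_ge θ _ h0 h1 (hlt (geo G y z (i + 1)) (geo G y z i))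
  linarith

theorem prod_sq_le {θ a b s t c : ℝ} (n : ℕ) (h1 : s ≤ 2 * a) (h2 : t ≤ 2 * b)
    (hc0 : 0 < c) (hc1 : c ≤ 1) :
    (θ ^ n * Real.exp (-a) * Real.exp (-b) * c) ^ 2
      ≤ θ ^ (2 * n) * (Real.exp (-s) * Real.exp (-t)) := by
  have e1 : Real.exp (-a) ^ 2 ≤ Real.exp (-s) := by
    rw [← Real.exp_nat_mul]
    apply Real.exp_le_exp.2
    push_cast
    linarith
  have e2 : Real.exp (-b) ^ 2 ≤ Real.exp (-t) := by
    rw [← Real.exp_nat_mul]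
    apply Real.exp_le_exp.2
    push_cast
    linarith
  have e3 : c ^ 2 ≤ 1 := pow_le_one₀ hc0.le hc1
  have e4 : 0 ≤ θ ^ (2 * n) := by rw [pow_mul']; exact sq_nonneg _
  calc (θ ^ n * Real.exp (-a) * Real.exp (-b) * c) ^ 2
      = θ ^ (2 * n) * (Real.exp (-a) ^ 2 * Real.exp (-b) ^ 2) * c ^ 2 := by ring
    _ ≤ θ ^ (2 * n) * (Real.exp (-s) * Real.exp (-t)) * 1 := by gcongr
    _ = _ := mul_one _

/-- the difference of two products in exponential form -/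
theorem prod_diff {D n : ℕ} (hD : 2 ≤ D) {m θ₁ θ₂ A1 A2 B1 B2 y1 y2 P1 P2 Q1 Q2 : ℝ}
    (hm0 : 0 < m) (hθ1 : 0 < θ₁) (hθ2 : 0 < θ₂) (c1 : 1 / 2 ≤ θ₁ ^ 2 * D)
    (c2 : 1 / 2 ≤ θ₂ ^ 2 * D) (hy1 : |y1| ≤ 1) (hy2 : |y2| ≤ 1) (hm1 : m ≤ 1 - y1 ^ 2)
    (hm2 : m ≤ 1 - y2 ^ 2)
    (hP1 : P1 = θ₁ ^ n * Real.exp (-A1) * Real.exp (-B1) * (1 - y1 ^ 2))
    (hP2 : P2 = θ₂ ^ n * Real.exp (-A2) * Real.exp (-B2) * (1 - y2 ^ 2))
    (K1 : P1 ^ 2 ≤ Q1) (K2 : P2 ^ 2 ≤ Q2) :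
    (P1 - P2) ^ 2 ≤ (4 * (2 * D + 4 / m ^ 2 + 1)) * (Q1 + Q2) *
      ((A1 - A2) ^ 2 + (B1 - B2) ^ 2 + (y1 - y2) ^ 2 + n ^ 2 * (θ₁ - θ₂) ^ 2) := by
  have hDr : (2 : ℝ) ≤ D := by exact_mod_cast hD
  have hD0 : (0 : ℝ) < D := by linarith
  have hm1' : 0 < 1 - y1 ^ 2 := hm0.trans_le hm1
  have hm2' : 0 < 1 - y2 ^ 2 := hm0.trans_le hm2
  obtain ⟨t0, ht0pos, ht0sq⟩ : ∃ t0 : ℝ, 0 < t0 ∧ t0 ^ 2 = 1 / (2 * (D : ℝ)) :=
    ⟨√(1 / (2 * (D : ℝ))), Real.sqrt_pos.2 (by positivity), Real.sq_sqrt (by positivity)⟩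
  have hlow : ∀ θ : ℝ, 0 < θ → 1 / 2 ≤ θ ^ 2 * D → t0 ≤ θ := by
    intro θ h0 h1
    apply le_of_sq_le_sq _ h0.le
    rw [ht0sq, div_le_iff₀ (by positivity)]
    linarith
  have hp1 : 0 < P1 := by rw [hP1]; positivity
  have hp2 : 0 < P2 := by rw [hP2]; positivity
  have L1 : Real.log P1 = n * Real.log θ₁ - A1 - B1 + Real.log (1 - y1 ^ 2) := by
    rw [hP1, Real.log_mul (by positivity) hm1'.ne', Real.log_mul (by positivity)
      (Real.exp_pos _).ne', Real.log_mul (by positivity) (Real.exp_pos _).ne', Real.log_exp,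
      Real.log_exp, Real.log_pow]
    ring
  have L2 : Real.log P2 = n * Real.log θ₂ - A2 - B2 + Real.log (1 - y2 ^ 2) := by
    rw [hP2, Real.log_mul (by positivity) hm2'.ne', Real.log_mul (by positivity)
      (Real.exp_pos _).ne', Real.log_mul (by positivity) (Real.exp_pos _).ne', Real.log_exp,
      Real.log_exp, Real.log_pow]
    ring
  have T1 : |Real.log θ₁ - Real.log θ₂| ≤ |θ₁ - θ₂| / t0 :=
    abs_log_sub_le ht0pos (hlow θ₁ hθ1 c1) (hlow θ₂ hθ2 c2)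
  have T2 : |Real.log (1 - y1 ^ 2) - Real.log (1 - y2 ^ 2)|
      ≤ |(1 - y1 ^ 2) - (1 - y2 ^ 2)| / m := abs_log_sub_le hm0 hm1 hm2
  have T3 : |(1 - y1 ^ 2) - (1 - y2 ^ 2)| ≤ 2 * |y1 - y2| := by
    have h5 : (1 - y1 ^ 2) - (1 - y2 ^ 2) = -((y1 + y2) * (y1 - y2)) := by ring
    rw [h5, abs_neg, abs_mul]
    have h6 : |y1 + y2| ≤ 2 := by
      refine (abs_add_le _ _).trans ?_
      linarith
    exact mul_le_mul_of_nonneg_right h6 (abs_nonneg _)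
  have hpp : (n * (Real.log θ₁ - Real.log θ₂)) ^ 2 ≤ 2 * D * (n ^ 2 * (θ₁ - θ₂) ^ 2) := by
    have h7 := pow_le_pow_left₀ (abs_nonneg _) T1 2
    rw [sq_abs, div_pow, sq_abs, ht0sq] at h7
    have h8 : (θ₁ - θ₂) ^ 2 / (1 / (2 * (D : ℝ))) = 2 * D * (θ₁ - θ₂) ^ 2 := by field_simp
    rw [h8] at h7
    rw [mul_pow]
    calc (n : ℝ) ^ 2 * (Real.log θ₁ - Real.log θ₂) ^ 2
        ≤ (n : ℝ) ^ 2 * (2 * D * (θ₁ - θ₂) ^ 2) := mul_le_mul_of_nonneg_left h7 (sq_nonneg _)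
      _ = _ := by ring
  have hqq : (Real.log (1 - y1 ^ 2) - Real.log (1 - y2 ^ 2)) ^ 2 ≤ 4 / m ^ 2 * (y1 - y2) ^ 2 := by
    have h7 := pow_le_pow_left₀ (abs_nonneg _) (T2.trans (div_le_div_of_nonneg_right T3 hm0.le)) 2
    rw [sq_abs, div_pow, mul_pow, sq_abs] at h7
    refine h7.trans (le_of_eq ?_)
    ring
  have hlogd : (Real.log P1 - Real.log P2) ^ 2
      ≤ 4 * ((A1 - A2) ^ 2 + (B1 - B2) ^ 2 + 4 / m ^ 2 * (y1 - y2) ^ 2
        + 2 * D * (n ^ 2 * (θ₁ - θ₂) ^ 2)) := by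
    have e0 : Real.log P1 - Real.log P2 = n * (Real.log θ₁ - Real.log θ₂) - (A1 - A2) - (B1 - B2)
        + (Real.log (1 - y1 ^ 2) - Real.log (1 - y2 ^ 2)) := by
      rw [L1, L2]; ring
    rw [e0]
    clear e0 L1 L2 T1 T2 T3 hP1 hP2 K1 K2
    generalize (n : ℝ) * (Real.log θ₁ - Real.log θ₂) = p at *
    generalize Real.log (1 - y1 ^ 2) - Real.log (1 - y2 ^ 2) = q at *
    generalize A1 - A2 = a at *
    generalize B1 - B2 = b at *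
    have h4 : (p - a - b + q) ^ 2 ≤ 4 * (a ^ 2 + b ^ 2 + q ^ 2 + p ^ 2) := by
      nlinarith [sq_nonneg (p + a), sq_nonneg (p + b), sq_nonneg (p - q),
        sq_nonneg (a - b), sq_nonneg (a + q), sq_nonneg (b + q)]
    linarith
  have hmax := abs_sub_le_max_log hp1 hp2
  have h9 := pow_le_pow_left₀ (abs_nonneg _) hmax 2
  rw [sq_abs, mul_pow, sq_abs] at h9
  have h10 : max P1 P2 ^ 2 ≤ Q1 + Q2 := by
    rcases max_cases P1 P2 with h | h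
    · rw [h.1]; linarith [sq_nonneg P2]
    · rw [h.1]; linarith [sq_nonneg P1]
  have hQ : 0 ≤ Q1 + Q2 := (sq_nonneg _).trans h10
  have h11 : 4 * ((A1 - A2) ^ 2 + (B1 - B2) ^ 2 + 4 / m ^ 2 * (y1 - y2) ^ 2
        + 2 * D * (n ^ 2 * (θ₁ - θ₂) ^ 2))
      ≤ (4 * (2 * D + 4 / m ^ 2 + 1)) *
        ((A1 - A2) ^ 2 + (B1 - B2) ^ 2 + (y1 - y2) ^ 2 + n ^ 2 * (θ₁ - θ₂) ^ 2) := by
    have g0 : 0 ≤ 4 / m ^ 2 := by positivity
    have g1 : (0 : ℝ) ≤ 2 * D := by positivity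
    have u1 := sq_nonneg (A1 - A2)
    have u2 := sq_nonneg (B1 - B2)
    have u3 := sq_nonneg (y1 - y2)
    have u4 : 0 ≤ (n : ℝ) ^ 2 * (θ₁ - θ₂) ^ 2 := by positivity
    generalize (A1 - A2) ^ 2 = a at *
    generalize (B1 - B2) ^ 2 = b at *
    generalize (y1 - y2) ^ 2 = c at *
    generalize (n : ℝ) ^ 2 * (θ₁ - θ₂) ^ 2 = d at *
    generalize 4 / m ^ 2 = f at *
    generalize 2 * (D : ℝ) = g at *
    have v1 : 0 ≤ (g + f) * (a + b) := by positivity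
    have v2 : 0 ≤ (g + 1) * c := by positivity
    have v3 : 0 ≤ (f + 1) * d := by positivity
    linarith
  calc (P1 - P2) ^ 2
      ≤ (Q1 + Q2) * ((4 * (2 * D + 4 / m ^ 2 + 1)) *
        ((A1 - A2) ^ 2 + (B1 - B2) ^ 2 + (y1 - y2) ^ 2 + n ^ 2 * (θ₁ - θ₂) ^ 2)) := by
        refine h9.trans ?_
        exact mul_le_mul h10 (hlogd.trans h11) (sq_nonneg _) hQ
    _ = _ := by ring

theorem mp_proof (hM : MSG) : MP.{u} := by
  intro D r hD hr0 hr1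
  obtain ⟨r', C, hr'0, hr'1, hC, hlip⟩ := edge_lip.{u} hM hr0 hr1
  have hm0 : 0 < 1 - r ^ 2 := by nlinarith
  have hDr : (2 : ℝ) ≤ D := by exact_mod_cast hD
  obtain ⟨m, hm⟩ : ∃ m, m = 1 - r ^ 2 := ⟨_, rfl⟩
  rw [← hm] at hm0
  have hg0 : 0 ≤ 4 / m ^ 2 := by positivity
  have hC20 : 0 ≤ 6 * C ^ 2 := by positivity
  refine ⟨4 * (2 * D + 4 / m ^ 2 + 1) + 6 * C ^ 2, by positivity, ?_⟩
  intro V G _ θ₁ θ₂ M₁ M₂ hE a1 b1 c1 a2 b2 c2 hM1 hM2 v w x n hn hx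
  have hG := hE.tree
  have q1 := sq_le_half hD b1
  have q2 := sq_le_half hD b2
  have hl := hlip V θ₁ θ₂ M₁ M₂ a1 q1 a2 q2 hM1 hM2
  have lt1 : ∀ a b, |ms θ₁ M₁ a b| < 1 := fun a b => (hl a b).1.trans_lt hr'1
  have lt2 : ∀ a b, |ms θ₂ M₂ a b| < 1 := fun a b => (hl a b).2.1.trans_lt hr'1
  have hx' : x = geo G v w (G.dist v w / 2) := by rw [hx, hn]
  have E1 := cvp_eq hG hM a1 q1 lt1 v w
  have E2 := cvp_eq hG hM a2 q2 lt2 v w
  rw [← hx', ← hn] at E1 E2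
  have mem : ∀ z : ℝ, |z| ≤ r → m ≤ 1 - z ^ 2 ∧ 1 - z ^ 2 ≤ 1 := by
    intro z hz
    have h3 : z ^ 2 ≤ r ^ 2 := by
      rw [← sq_abs]
      exact pow_le_pow_left₀ (abs_nonneg _) hz 2
    exact ⟨by linarith, by linarith [sq_nonneg z]⟩
  have mem1 := mem _ (hM1 x)
  have mem2 := mem _ (hM2 x)
  have K1 := prod_sq_le (θ := θ₁) n (hs_le_hN (G := G) hM a1 q1 lt1 x v)
    (hs_le_hN (G := G) hM a1 q1 lt1 x w) (hm0.trans_le mem1.1) mem1.2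
  have K2 := prod_sq_le (θ := θ₂) n (hs_le_hN (G := G) hM a2 q2 lt2 x v)
    (hs_le_hN (G := G) hM a2 q2 lt2 x w) (hm0.trans_le mem2.1) mem2.2
  rw [← E1] at K1
  rw [← E2] at K2
  have key3 : ∀ y z, G.dist y z ≤ n → (hN G θ₁ M₁ y z - hN G θ₂ M₂ y z) ^ 2
      ≤ (4 * (2 * D + 4 / m ^ 2 + 1) + 6 * C ^ 2) * (n + 1) *
      (∑ i ∈ Finset.range (G.dist y z + 1), (M₁ (geo G y z i) - M₂ (geo G y z i)) ^ 2
        + n * (θ₁ - θ₂) ^ 2) := by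
    intro y z hyz
    refine (hN_diff (fun a b => (hl a b).2.2.2) y z n hyz).trans ?_
    have hS0 : 0 ≤ ∑ i ∈ Finset.range (G.dist y z + 1),
        (M₁ (geo G y z i) - M₂ (geo G y z i)) ^ 2 := Finset.sum_nonneg fun i _ => sq_nonneg _
    have h5 : 0 ≤ ∑ i ∈ Finset.range (G.dist y z + 1),
        (M₁ (geo G y z i) - M₂ (geo G y z i)) ^ 2 + n * (θ₁ - θ₂) ^ 2 := by positivity
    have h6 : 6 * C ^ 2 ≤ 4 * (2 * D + 4 / m ^ 2 + 1) + 6 * C ^ 2 := by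
      have : 0 ≤ 4 * (2 * (D : ℝ) + 4 / m ^ 2 + 1) := by positivity
      linarith
    apply mul_le_mul_of_nonneg_right _ h5
    exact mul_le_mul_of_nonneg_right h6 (by positivity)
  have hkn : G.dist v w / 2 ≤ G.dist v w := Nat.div_le_self _ 2
  have dxw : G.dist x w ≤ n := by
    rw [hx', dist_half_right hG hkn, hn]
    omega
  have dxv : G.dist x v ≤ n := by
    rw [hx', dist_half_left hG hkn, hn]
    exact hkn
  refine ⟨K1, ?_, key3 x w dxw, key3 x v dxv⟩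
  have hθ1 : 0 < θ₁ := by
    rcases a1.eq_or_lt with h | h
    · rw [← h] at c1; norm_num at c1
    · exact h
  have hθ2 : 0 < θ₂ := by
    rcases a2.eq_or_lt with h | h
    · rw [← h] at c2; norm_num at c2
    · exact h
  have F := prod_diff (n := n) hD hm0 hθ1 hθ2 c1 c2 ((hM1 x).trans hr1.le) ((hM2 x).trans hr1.le)
    mem1.1 mem2.1 E1 E2 K1 K2
  refine F.trans ?_
  have hQ : 0 ≤ θ₁ ^ (2 * n) * (Real.exp (-(hs G θ₁ M₁ x v)) * Real.exp (-(hs G θ₁ M₁ x w)))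
      + θ₂ ^ (2 * n) * (Real.exp (-(hs G θ₂ M₂ x v)) * Real.exp (-(hs G θ₂ M₂ x w))) := by
    positivity
  have hS : 0 ≤ (hN G θ₁ M₁ x v - hN G θ₂ M₂ x v) ^ 2 + (hN G θ₁ M₁ x w - hN G θ₂ M₂ x w) ^ 2
      + (M₁ x - M₂ x) ^ 2 + n ^ 2 * (θ₁ - θ₂) ^ 2 := by positivity
  apply mul_le_mul_of_nonneg_right _ hS
  apply mul_le_mul_of_nonneg_right _ hQ
  linarith

end P161C
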