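import Vale.Agent.P161C.Mods

/-! # P161C: the message function (module MSG) -/

open MeasureTheory Set Filter Topology

namespace P161C

namespace MsgAux

theorem th_le {θ : ℝ} (h0 : 0 ≤ θ) (h1 : θ ^ 2 ≤ 1 / 2) : θ ≤ 3 / 4 := by
  by_contra h
  push Not at h
  nlinarith

/-- the discriminant -/
noncomputable def dis (θ x y : ℝ) : ℝ :=
  (1 - θ ^ 2) ^ 2 - 4 * (x - θ * y) * (θ * y - θ ^ 2 * x)

theorem msg_eq (θ x y : ℝ) :
    msg θ x y = 2 * (x - θ * y) / ((1 - θ ^ 2) + √(dis θ x y)) := rfl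

theorem abs_mul_le_one {x y : ℝ} (hx : |x| ≤ 1) (hy : |y| ≤ 1) : |x * y| ≤ 1 := by
  rw [abs_mul]
  nlinarith [abs_nonneg x, abs_nonneg y]

theorem dis_ge {θ x y : ℝ} (h0 : 0 ≤ θ) (hx : |x| ≤ 1) (hy : |y| ≤ 1) :
    (1 - θ) ^ 4 ≤ dis θ x y := by
  have hxy := abs_mul_le_one hx hy
  rw [abs_le] at hxy
  have h1 : (x - θ * y) * (y - θ * x) ≤ (1 - θ) ^ 2 := by
    have e : (x - θ * y) * (y - θ * x) = x * y * (1 + θ ^ 2) - θ * (x ^ 2 + y ^ 2) := by ring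
    rw [e]
    rcases le_total 0 (x * y) with h | h
    · have h2 : 2 * (x * y) ≤ x ^ 2 + y ^ 2 := by nlinarith [sq_nonneg (x - y)]
      have h3 : θ * (2 * (x * y)) ≤ θ * (x ^ 2 + y ^ 2) := mul_le_mul_of_nonneg_left h2 h0
      have h4 : (x * y) * (1 - θ) ^ 2 ≤ 1 * (1 - θ) ^ 2 :=
        mul_le_mul_of_nonneg_right hxy.2 (sq_nonneg _)
      nlinarith
    · have h2 : 0 ≤ θ * (x ^ 2 + y ^ 2) := by positivity
      have h3 : x * y * (1 + θ ^ 2) ≤ 0 := mul_nonpos_of_nonpos_of_nonneg h (by positivity)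
      nlinarith [sq_nonneg (1 - θ)]
  have h2 : θ * ((x - θ * y) * (y - θ * x)) ≤ θ * (1 - θ) ^ 2 := mul_le_mul_of_nonneg_left h1 h0
  have e : dis θ x y = (1 - θ ^ 2) ^ 2 - 4 * (θ * ((x - θ * y) * (y - θ * x))) := by
    unfold dis; ring
  rw [e]
  nlinarith

theorem sdis_ge {θ x y : ℝ} (h0 : 0 ≤ θ) (h1 : θ ^ 2 ≤ 1 / 2) (hx : |x| ≤ 1) (hy : |y| ≤ 1) :
    1 / 16 ≤ √(dis θ x y) := by
  apply Real.le_sqrt_of_sq_le
  refine le_trans ?_ (dis_ge h0 hx hy)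
  have h2 := th_le h0 h1
  have h3 : (1 / 4 : ℝ) ≤ 1 - θ := by linarith
  calc (1 / 16 : ℝ) ^ 2 = (1 / 4) ^ 4 := by norm_num
    _ ≤ (1 - θ) ^ 4 := pow_le_pow_left₀ (by norm_num) h3 4

theorem dis_nonneg {θ x y : ℝ} (h0 : 0 ≤ θ) (hx : |x| ≤ 1) (hy : |y| ≤ 1) :
    0 ≤ dis θ x y := le_trans (by positivity) (dis_ge h0 hx hy)

theorem pq_bound {θ x y : ℝ} (h0 : 0 ≤ θ) (h1 : θ ^ 2 ≤ 1 / 2) (hx : |x| ≤ 1) (hy : |y| ≤ 1) :
    |x - θ * y| ≤ 2 ∧ |θ * y - θ ^ 2 * x| ≤ 2 := by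
  have h2 := th_le h0 h1
  rw [abs_le] at hx hy
  constructor
  · rw [abs_le]; constructor <;> nlinarith
  · rw [abs_le]; constructor <;> nlinarith

theorem sdis_le {θ x y : ℝ} (h0 : 0 ≤ θ) (h1 : θ ^ 2 ≤ 1 / 2) (hx : |x| ≤ 1) (hy : |y| ≤ 1) :
    √(dis θ x y) ≤ 5 := by
  obtain ⟨hp, hq⟩ := pq_bound h0 h1 hx hy
  apply Real.sqrt_le_iff.mpr
  refine ⟨by norm_num, ?_⟩
  have h3 : |(x - θ * y) * (θ * y - θ ^ 2 * x)| ≤ 2 * 2 := by
    rw [abs_mul]; exact mul_le_mul hp hq (abs_nonneg _) (by norm_num)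
  have h4 := abs_le.mp h3
  have h5 : (1 - θ ^ 2) ^ 2 ≤ 1 := by nlinarith [sq_nonneg θ]
  unfold dis
  nlinarith [h4.1, h4.2]

theorem sqrt_lip {a b : ℝ} (ha : 0 ≤ a) (hb : 0 ≤ b) (hsa : 1 / 16 ≤ √a) (hsb : 1 / 16 ≤ √b) :
    |√a - √b| ≤ 8 * |a - b| := by
  have e : a - b = (√a - √b) * (√a + √b) := by
    have h1 := Real.mul_self_sqrt ha
    have h2 := Real.mul_self_sqrt hb
    nlinarith
  rw [e, abs_mul]
  have h3 : 1 / 8 ≤ |√a + √b| := by
    rw [abs_of_nonneg (by linarith)]; linarith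
  have h4 := abs_nonneg (√a - √b)
  nlinarith

/-- quotient estimate -/
theorem quot_lip {p p' D D' : ℝ} (hD : 1 / 2 ≤ D) (hD' : 1 / 2 ≤ D') (hp' : |p'| ≤ 2) :
    |2 * p / D - 2 * p' / D'| ≤ 4 * |p - p'| + 16 * |D - D'| := by
  have hD0 : 0 < D := by linarith
  have hD0' : 0 < D' := by linarith
  have e : 2 * p / D - 2 * p' / D' = 2 * (p - p') / D + 2 * p' * (D' - D) / (D * D') := by
    field_simp
    ring
  rw [e]
  refine (abs_add_le _ _).trans ?_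
  have h1 : |2 * (p - p') / D| ≤ 4 * |p - p'| := by
    rw [abs_div, abs_mul, abs_of_pos hD0, abs_of_pos (by norm_num : (0 : ℝ) < 2),
      div_le_iff₀ hD0]
    nlinarith [abs_nonneg (p - p')]
  have h2 : |2 * p' * (D' - D) / (D * D')| ≤ 16 * |D - D'| := by
    have hDD : 0 < D * D' := by positivity
    rw [abs_div, abs_mul, abs_mul, abs_of_pos hDD, abs_of_pos (by norm_num : (0 : ℝ) < 2),
      div_le_iff₀ hDD, abs_sub_comm D' D]
    have h3 : 1 / 4 ≤ D * D' := by nlinarith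
    have h4 : |p'| * |D - D'| ≤ 2 * |D - D'| := mul_le_mul_of_nonneg_right hp' (abs_nonneg _)
    nlinarith [abs_nonneg (D - D')]
  linarith

theorem u_ge {θ : ℝ} (h1 : θ ^ 2 ≤ 1 / 2) : 1 / 2 ≤ 1 - θ ^ 2 := by linarith

/-- facts on the root -/
theorem root {θ x y : ℝ} (h0 : 0 ≤ θ) (h1 : θ ^ 2 ≤ 1 / 2) (hx : |x| ≤ 1) (hy : |y| ≤ 1) :
    (θ * y - θ ^ 2 * x) * msg θ x y ^ 2 - (1 - θ ^ 2) * msg θ x y + (x - θ * y) = 0 ∧
      2 * (θ * y - θ ^ 2 * x) * msg θ x y = (1 - θ ^ 2) - √(dis θ x y) := by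
  rw [msg_eq]
  set s := √(dis θ x y) with hs
  have hs2 : s * s = dis θ x y := Real.mul_self_sqrt (dis_nonneg h0 hx hy)
  have hs1 : 1 / 16 ≤ s := sdis_ge h0 h1 hx hy
  have hu := u_ge h1
  have hD : (1 - θ ^ 2) + s ≠ 0 := by positivity
  unfold dis at hs2
  constructor
  · field_simp
    linear_combination (x - θ * y) * hs2
  · field_simp
    linear_combination hs2

theorem msg_neg (θ x y : ℝ) : msg θ (-x) (-y) = -msg θ x y := by
  unfold msg
  have e : (1 - θ ^ 2) ^ 2 - 4 * (-x - θ * -y) * (θ * -y - θ ^ 2 * -x)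
      = (1 - θ ^ 2) ^ 2 - 4 * (x - θ * y) * (θ * y - θ ^ 2 * x) := by ring
  rw [e]
  ring

/-- the root is below every point where the quadratic polynomial is nonpositive -/
theorem root_le {θ x y a : ℝ} (h0 : 0 ≤ θ) (h1 : θ ^ 2 ≤ 1 / 2) (hx : |x| ≤ 1) (hy : |y| ≤ 1)
    (ha : 0 ≤ a) (hf : (θ * y - θ ^ 2 * x) * a ^ 2 - (1 - θ ^ 2) * a + (x - θ * y) ≤ 0) :
    msg θ x y ≤ a := by
  obtain ⟨e1, e2⟩ := root h0 h1 hx hy
  have hs1 := sdis_ge h0 h1 hx hy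
  have hu := u_ge h1
  by_contra hlt
  push Not at hlt
  set al := msg θ x y with hal
  set q := θ * y - θ ^ 2 * x with hq
  set s := √(dis θ x y) with hs
  -- q (a + al) < u
  have hq2 : q * (a + al) < 1 - θ ^ 2 := by
    rcases le_total q 0 with hq0 | hq0
    · have : q * (a + al) ≤ 0 := mul_nonpos_of_nonpos_of_nonneg hq0 (by linarith)
      linarith
    · have : q * (a + al) ≤ 2 * q * al := by nlinarith
      linarith
  have e3 : (θ * y - θ ^ 2 * x) * a ^ 2 - (1 - θ ^ 2) * a + (x - θ * y)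
      = (al - a) * ((1 - θ ^ 2) - q * (a + al)) := by
    have : (θ * y - θ ^ 2 * x) * a ^ 2 - (1 - θ ^ 2) * a + (x - θ * y)
        = ((θ * y - θ ^ 2 * x) * a ^ 2 - (1 - θ ^ 2) * a + (x - θ * y))
          - (q * al ^ 2 - (1 - θ ^ 2) * al + (x - θ * y)) := by rw [e1]; ring
    rw [this, hq]; ring
  rw [e3] at hf
  have : 0 < (al - a) * ((1 - θ ^ 2) - q * (a + al)) := mul_pos (by linarith) (by linarith)
  linarith

theorem upper {θ x y r : ℝ} (h0 : 0 ≤ θ) (h1 : θ ^ 2 ≤ 1 / 2) (hr0 : 0 ≤ r) (hr1 : r < 1)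
    (hx : |x| ≤ r) (hy : |y| ≤ 1) : msg θ x y ≤ 1 - (1 - r) / 10 := by
  have hx1 : |x| ≤ 1 := hx.trans hr1.le
  have hth := th_le h0 h1
  apply root_le h0 h1 hx1 hy (by linarith)
  set d := (1 - r) / 10 with hd
  have hd0 : 0 ≤ d := by rw [hd]; linarith
  have hd1 : d ≤ 1 / 10 := by rw [hd]; linarith
  have hr : r = 1 - 10 * d := by rw [hd]; ring
  obtain ⟨-, hq⟩ := pq_bound h0 h1 hx1 hy
  rw [abs_le] at hq hx
  have e : (θ * y - θ ^ 2 * x) * (1 - d) ^ 2 - (1 - θ ^ 2) * (1 - d) + (x - θ * y)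
      = -((1 - θ ^ 2) * (1 - x)) + (1 - θ ^ 2) * d
        - (θ * y - θ ^ 2 * x) * (2 * d - d ^ 2) := by ring
  rw [e]
  have hq2 : -((θ * y - θ ^ 2 * x) * (2 * d - d ^ 2)) ≤ 2 * (2 * d - d ^ 2) := by
    have : 0 ≤ 2 * d - d ^ 2 := by nlinarith
    nlinarith [hq.1]
  have h3 : (1 - θ ^ 2) * (10 * d) ≤ (1 - θ ^ 2) * (1 - x) := by
    apply mul_le_mul_of_nonneg_left _ (by linarith)
    rw [hr] at hx; linarith [hx.2]
  have h4 : 1 / 2 * (9 * d) ≤ (1 - θ ^ 2) * (9 * d) :=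
    mul_le_mul_of_nonneg_right (u_ge h1) (by positivity)
  nlinarith [sq_nonneg d]

theorem lipθ_bound {θ θ' x y : ℝ} (h0 : 0 ≤ θ) (h1 : θ ^ 2 ≤ 1 / 2) (h0' : 0 ≤ θ')
    (h1' : θ' ^ 2 ≤ 1 / 2) (hx : |x| ≤ 1) (hy : |y| ≤ 1) :
    |dis θ x y - dis θ' x y| ≤ 40 * |θ - θ'| := by
  have t1 := th_le h0 h1
  have t2 := th_le h0' h1'
  have e : dis θ x y - dis θ' x y = (θ - θ') * ((θ + θ') * (θ ^ 2 + θ' ^ 2 - 2)
      - 4 * (x * y) * (1 + θ ^ 2 + θ * θ' + θ' ^ 2) + 4 * (x ^ 2 + y ^ 2) * (θ + θ')) := by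
    unfold dis; ring
  rw [e, abs_mul, mul_comm]
  apply mul_le_mul_of_nonneg_right _ (abs_nonneg _)
  have hxy := abs_le.mp (abs_mul_le_one hx hy)
  have hx2 : x ^ 2 ≤ 1 := by rw [← sq_abs]; nlinarith [abs_nonneg x]
  have hy2 : y ^ 2 ≤ 1 := by rw [← sq_abs]; nlinarith [abs_nonneg y]
  have hA0 : 0 ≤ 1 + θ ^ 2 + θ * θ' + θ' ^ 2 := by positivity
  have hA1 : 1 + θ ^ 2 + θ * θ' + θ' ^ 2 ≤ 3 := by nlinarith
  have hxx : 0 ≤ x ^ 2 := sq_nonneg x
  have hyy : 0 ≤ y ^ 2 := sq_nonneg y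
  have b1 : |(θ + θ') * (θ ^ 2 + θ' ^ 2 - 2)| ≤ 4 := by
    rw [abs_le]; constructor <;> nlinarith [sq_nonneg θ, sq_nonneg θ']
  have b2 : |4 * (x * y) * (1 + θ ^ 2 + θ * θ' + θ' ^ 2)| ≤ 12 := by
    rw [abs_mul, abs_mul, abs_of_nonneg hA0, abs_of_pos (by norm_num : (0 : ℝ) < 4)]
    have := abs_mul_le_one hx hy
    nlinarith [abs_nonneg (x * y)]
  have b3 : |4 * (x ^ 2 + y ^ 2) * (θ + θ')| ≤ 16 := by
    rw [abs_of_nonneg (by positivity)]
    have : (x ^ 2 + y ^ 2) * (θ + θ') ≤ 2 * 2 :=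
      mul_le_mul (by linarith) (by linarith) (by linarith) (by norm_num)
    linarith
  have c1 := abs_add_le ((θ + θ') * (θ ^ 2 + θ' ^ 2 - 2)
      - 4 * (x * y) * (1 + θ ^ 2 + θ * θ' + θ' ^ 2)) (4 * (x ^ 2 + y ^ 2) * (θ + θ'))
  have c2 := abs_sub ((θ + θ') * (θ ^ 2 + θ' ^ 2 - 2))
      (4 * (x * y) * (1 + θ ^ 2 + θ * θ' + θ' ^ 2))
  linarith

theorem dis_lip {θ x y x' y' : ℝ} (h0 : 0 ≤ θ) (h1 : θ ^ 2 ≤ 1 / 2) (hx : |x| ≤ 1)
    (hy : |y| ≤ 1) (hx' : |x'| ≤ 1) (hy' : |y'| ≤ 1) :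
    |dis θ x y - dis θ x' y'| ≤ 20 * (|x - x'| + |y - y'|) := by
  have t1 := th_le h0 h1
  have e : dis θ x y - dis θ x' y' = (x - x') * (4 * θ * (θ * (x + x')) - 4 * θ * (1 + θ ^ 2) * y)
      + (y - y') * (4 * θ * (θ * (y + y')) - 4 * θ * (1 + θ ^ 2) * x') := by
    unfold dis; ring
  rw [e]
  refine (abs_add_le _ _).trans ?_
  rw [abs_mul, abs_mul]
  rw [abs_le] at hx hy hx' hy'
  have hth2 : θ * θ ≤ 1 / 2 := by nlinarith
  have k1 : 4 * θ * (1 + θ ^ 2) ≤ 5 := by nlinarith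
  have k0 : 0 ≤ 4 * θ * (1 + θ ^ 2) := by positivity
  have b1 : |4 * θ * (θ * (x + x')) - 4 * θ * (1 + θ ^ 2) * y| ≤ 20 := by
    rw [abs_le]
    have m1 : 4 * (θ * θ) * (x + x') ≤ 4 * (θ * θ) * 2 :=
      mul_le_mul_of_nonneg_left (by linarith) (by positivity)
    have m2 : 4 * (θ * θ) * (-2) ≤ 4 * (θ * θ) * (x + x') :=
      mul_le_mul_of_nonneg_left (by linarith) (by positivity)
    have m3 : 4 * θ * (1 + θ ^ 2) * y ≤ 4 * θ * (1 + θ ^ 2) * 1 :=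
      mul_le_mul_of_nonneg_left hy.2 k0
    have m4 : 4 * θ * (1 + θ ^ 2) * (-1) ≤ 4 * θ * (1 + θ ^ 2) * y :=
      mul_le_mul_of_nonneg_left hy.1 k0
    constructor <;> nlinarith
  have b2 : |4 * θ * (θ * (y + y')) - 4 * θ * (1 + θ ^ 2) * x'| ≤ 20 := by
    rw [abs_le]
    have m1 : 4 * (θ * θ) * (y + y') ≤ 4 * (θ * θ) * 2 :=
      mul_le_mul_of_nonneg_left (by linarith) (by positivity)
    have m2 : 4 * (θ * θ) * (-2) ≤ 4 * (θ * θ) * (y + y') :=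
      mul_le_mul_of_nonneg_left (by linarith) (by positivity)
    have m3 : 4 * θ * (1 + θ ^ 2) * x' ≤ 4 * θ * (1 + θ ^ 2) * 1 :=
      mul_le_mul_of_nonneg_left hx'.2 k0
    have m4 : 4 * θ * (1 + θ ^ 2) * (-1) ≤ 4 * θ * (1 + θ ^ 2) * x' :=
      mul_le_mul_of_nonneg_left hx'.1 k0
    constructor <;> nlinarith
  have c1 := mul_le_mul_of_nonneg_left b1 (abs_nonneg (x - x'))
  have c2 := mul_le_mul_of_nonneg_left b2 (abs_nonneg (y - y'))
  linarith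

theorem log_lip {a b m : ℝ} (hm : 0 < m) (ha : m ≤ a) (hb : m ≤ b) :
    |Real.log a - Real.log b| ≤ |a - b| / m := by
  have key : ∀ a b : ℝ, m ≤ a → m ≤ b → Real.log a - Real.log b ≤ |a - b| / m := by
    intro a b ha hb
    have ha0 : 0 < a := hm.trans_le ha
    have hb0 : 0 < b := hm.trans_le hb
    rw [← Real.log_div ha0.ne' hb0.ne']
    have h1 := Real.log_le_sub_one_of_pos (div_pos ha0 hb0)
    have h2 : a / b - 1 = (a - b) / b := by field_simp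
    rw [h2] at h1
    refine h1.trans ?_
    calc (a - b) / b ≤ |a - b| / b := div_le_div_of_nonneg_right (le_abs_self _) hb0.le
      _ ≤ |a - b| / m := div_le_div_of_nonneg_left (abs_nonneg _) hm hb
  rw [abs_le]
  constructor
  · have := key b a hb ha
    rw [abs_sub_comm] at this
    linarith
  · exact key a b ha hb

theorem al2_lt {α : ℝ} (h : |α| < 1) : α ^ 2 < 1 := by
  rw [← sq_abs]; nlinarith [abs_nonneg α]

theorem th_al {θ α : ℝ} (_h0 : 0 ≤ θ) (h1 : θ ^ 2 ≤ 1 / 2) (h : α ^ 2 ≤ 1) :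
    1 / 2 ≤ 1 - θ ^ 2 * α ^ 2 := by
  have : θ ^ 2 * α ^ 2 ≤ 1 / 2 * 1 := mul_le_mul h1 h (sq_nonneg _) (by norm_num)
  linarith

end MsgAux

open MsgAux

theorem msg_proof : MSG where
  inv := by
    intro θ α β h0 h1 hα hβ
    have hth := th_le h0 h1
    have hαβ : |α * β| ≤ 1 := abs_mul_le_one hα.le hβ.le
    rw [abs_le] at hαβ
    have hden : 0 < 1 + θ * α * β := by nlinarith [hαβ.1, hαβ.2]
    have hnum : 0 < 1 - θ * α * β := by nlinarith [hαβ.1, hαβ.2]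
    have hu : 0 < 1 - θ ^ 2 := by linarith
    set D := 1 + θ * α * β with hD
    have e1 : (α + θ * β) / D - θ * ((β + θ * α) / D) = α * (1 - θ ^ 2) / D := by
      field_simp; ring
    have e2 : θ * ((β + θ * α) / D) - θ ^ 2 * ((α + θ * β) / D) = θ * β * (1 - θ ^ 2) / D := by
      field_simp; ring
    unfold msg
    rw [e1, e2]
    have e3 : (1 - θ ^ 2) ^ 2 - 4 * (α * (1 - θ ^ 2) / D) * (θ * β * (1 - θ ^ 2) / D)
        = ((1 - θ ^ 2) * (1 - θ * α * β) / D) ^ 2 := by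
      rw [hD]
      rw [hD] at hden
      field_simp
      ring
    rw [e3, Real.sqrt_sq (by positivity)]
    have e4 : (1 - θ ^ 2) + (1 - θ ^ 2) * (1 - θ * α * β) / D = 2 * (1 - θ ^ 2) / D := by
      rw [hD]
      rw [hD] at hden
      field_simp
      ring
    rw [e4]
    field_simp
  lip := by
    refine ⟨4 * 1 + 16 * (8 * 20) + 4, by norm_num, ?_⟩
    intro θ x y x' y' h0 h1 hx hy hx' hy'
    have hth := th_le h0 h1
    have hu := u_ge h1
    rw [msg_eq, msg_eq]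
    have s1 := sdis_ge h0 h1 hx hy
    have s2 := sdis_ge h0 h1 hx' hy'
    have hq := quot_lip (p := x - θ * y) (p' := x' - θ * y') (D := (1 - θ ^ 2) + √(dis θ x y))
      (D' := (1 - θ ^ 2) + √(dis θ x' y')) (by linarith) (by linarith) (pq_bound h0 h1 hx' hy').1
    refine hq.trans ?_
    have d1 : |(x - θ * y) - (x' - θ * y')| ≤ |x - x'| + |y - y'| := by
      have e : (x - θ * y) - (x' - θ * y') = (x - x') + (-θ) * (y - y') := by ring
      rw [e]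
      refine (abs_add_le _ _).trans ?_
      rw [abs_mul, abs_neg, abs_of_nonneg h0]
      have : θ * |y - y'| ≤ 1 * |y - y'| :=
        mul_le_mul_of_nonneg_right (by linarith) (abs_nonneg _)
      linarith
    have d2 : |((1 - θ ^ 2) + √(dis θ x y)) - ((1 - θ ^ 2) + √(dis θ x' y'))|
        ≤ 8 * (20 * (|x - x'| + |y - y'|)) := by
      have e : ((1 - θ ^ 2) + √(dis θ x y)) - ((1 - θ ^ 2) + √(dis θ x' y'))
          = √(dis θ x y) - √(dis θ x' y') := by ring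
      rw [e]
      refine (sqrt_lip (dis_nonneg h0 hx hy) (dis_nonneg h0 hx' hy') s1 s2).trans ?_
      exact mul_le_mul_of_nonneg_left (dis_lip h0 h1 hx hy hx' hy') (by norm_num)
    have hnn : 0 ≤ |x - x'| + |y - y'| := by positivity
    nlinarith
  lipθ := by
    refine ⟨4 * 1 + 16 * (2 + 8 * 40) + 4, by norm_num, ?_⟩
    intro θ θ' x y h0 h1 h0' h1' hx hy
    have hth := th_le h0 h1
    have hth' := th_le h0' h1'
    have hu := u_ge h1
    have hu' := u_ge h1'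
    rw [msg_eq, msg_eq]
    have s1 := sdis_ge h0 h1 hx hy
    have s2 := sdis_ge h0' h1' hx hy
    have hq := quot_lip (p := x - θ * y) (p' := x - θ' * y) (D := (1 - θ ^ 2) + √(dis θ x y))
      (D' := (1 - θ' ^ 2) + √(dis θ' x y)) (by linarith) (by linarith) (pq_bound h0' h1' hx hy).1
    refine hq.trans ?_
    have d1 : |(x - θ * y) - (x - θ' * y)| ≤ |θ - θ'| := by
      have e : (x - θ * y) - (x - θ' * y) = -((θ - θ') * y) := by ring
      rw [e, abs_neg, abs_mul]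
      have := mul_le_mul_of_nonneg_left hy (abs_nonneg (θ - θ'))
      linarith
    have d2 : |((1 - θ ^ 2) + √(dis θ x y)) - ((1 - θ' ^ 2) + √(dis θ' x y))|
        ≤ 2 * |θ - θ'| + 8 * (40 * |θ - θ'|) := by
      have e : ((1 - θ ^ 2) + √(dis θ x y)) - ((1 - θ' ^ 2) + √(dis θ' x y))
          = (θ - θ') * (-(θ + θ')) + (√(dis θ x y) - √(dis θ' x y)) := by ring
      rw [e]
      refine (abs_add_le _ _).trans (add_le_add ?_ ?_)
      · rw [abs_mul, abs_neg, abs_of_nonneg (by linarith : 0 ≤ θ + θ'), mul_comm]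
        exact mul_le_mul_of_nonneg_right (by linarith) (abs_nonneg _)
      · refine (sqrt_lip (dis_nonneg h0 hx hy) (dis_nonneg h0' hx hy) s1 s2).trans ?_
        exact mul_le_mul_of_nonneg_left (lipθ_bound h0 h1 h0' h1' hx hy) (by norm_num)
    have hnn := abs_nonneg (θ - θ')
    nlinarith
  lt_one := by
    intro r hr
    rcases lt_or_ge r 0 with hr0 | hr0
    · refine ⟨1 / 2, by norm_num, by norm_num, ?_⟩
      intro θ x y _ _ hx _
      exact absurd (hx.trans_lt hr0) (not_lt.mpr (abs_nonneg x))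
    · refine ⟨1 - (1 - r) / 10, by linarith, by linarith, ?_⟩
      intro θ x y h0 h1 hx hy
      rw [abs_le]
      constructor
      · have h2 := upper h0 h1 hr0 hr (x := -x) (y := -y) (by rwa [abs_neg]) (by rwa [abs_neg])
        rw [msg_neg] at h2
        linarith
      · exact upper h0 h1 hr0 hr hx hy
  mean_le := by
    refine ⟨6, by norm_num, ?_⟩
    intro θ x y h0 h1 hx hy
    have hth := th_le h0 h1
    have hu := u_ge h1
    have key : ∀ x y : ℝ, |x| ≤ 1 → |y| ≤ 1 → |x - θ * y| ≤ 3 * |msg θ x y| := by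
      intro x y hx hy
      have s1 := sdis_ge h0 h1 hx hy
      have s2 := sdis_le h0 h1 hx hy
      have hD : 0 < (1 - θ ^ 2) + √(dis θ x y) := by linarith
      have e : x - θ * y = msg θ x y * ((1 - θ ^ 2) + √(dis θ x y)) / 2 := by
        rw [msg_eq]; field_simp
      rw [e, abs_div, abs_mul, abs_of_pos hD, abs_of_pos (by norm_num : (0 : ℝ) < 2)]
      have h3 : (1 - θ ^ 2) + √(dis θ x y) ≤ 6 := by
        have := sq_nonneg θ
        linarith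
      have := mul_le_mul_of_nonneg_left h3 (abs_nonneg (msg θ x y))
      linarith
    have k1 := key x y hx hy
    have k2 := key y x hy hx
    have e : x * (1 - θ ^ 2) = (x - θ * y) + θ * (y - θ * x) := by ring
    have h3 : |x| * (1 - θ ^ 2) ≤ |x - θ * y| + θ * |y - θ * x| := by
      have h4 : |x * (1 - θ ^ 2)| ≤ |x - θ * y| + |θ * (y - θ * x)| := by
        rw [e]; exact abs_add_le _ _
      rw [abs_mul, abs_mul, abs_of_nonneg h0, abs_of_nonneg (by linarith : 0 ≤ 1 - θ ^ 2)] at h4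
      exact h4
    have h5 : θ * |y - θ * x| ≤ 1 * |y - θ * x| :=
      mul_le_mul_of_nonneg_right (by linarith) (abs_nonneg _)
    have h6 : |x| * (1 / 2) ≤ |x| * (1 - θ ^ 2) := mul_le_mul_of_nonneg_left hu (abs_nonneg _)
    linarith
  kap_eq := by
    intro θ α h0 h1 hα
    have h2 := al2_lt hα
    have h3 := th_al h0 h1 h2.le
    have h4 : 0 < 1 - α ^ 2 := by linarith
    have h5 : 0 < 1 - θ ^ 2 * α ^ 2 := by linarith
    unfold kap Nf
    rw [neg_sub, Real.exp_sub, Real.exp_log h4, Real.exp_log h5]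
    ring
  Nf_ge := by
    intro θ α h0 h1 hα
    have h2 := al2_lt hα
    have h3 := th_al h0 h1 h2.le
    have h4 : 0 < 1 - α ^ 2 := by linarith
    have h5 : 0 < 1 - θ ^ 2 * α ^ 2 := by linarith
    unfold Nf
    rw [← Real.log_div h5.ne' h4.ne']
    have h6 := Real.one_sub_inv_le_log_of_pos (div_pos h5 h4)
    refine le_trans ?_ h6
    rw [inv_div]
    have e : 1 - (1 - α ^ 2) / (1 - θ ^ 2 * α ^ 2)
        = α ^ 2 * (1 - θ ^ 2) / (1 - θ ^ 2 * α ^ 2) := by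
      rw [eq_div_iff h5.ne', sub_mul, div_mul_cancel₀ _ h5.ne']; ring
    rw [e, le_div_iff₀ h5]
    have h7 : 0 ≤ α ^ 2 := sq_nonneg α
    have h8 : 0 ≤ θ ^ 2 := sq_nonneg θ
    have h9 : α ^ 2 / 2 * (1 - θ ^ 2 * α ^ 2) ≤ α ^ 2 / 2 * 1 :=
      mul_le_mul_of_nonneg_left (by nlinarith) (by positivity)
    have h10 : α ^ 2 * (1 / 2) ≤ α ^ 2 * (1 - θ ^ 2) :=
      mul_le_mul_of_nonneg_left (u_ge h1) h7
    linarith
  Nf_le := by
    intro r hr
    rcases lt_or_ge r 0 with hr0 | hr0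
    · refine ⟨1, by norm_num, ?_⟩
      intro θ α _ _ hα
      exact absurd (hα.trans_lt hr0) (not_lt.mpr (abs_nonneg α))
    have hr2 : 0 < 1 - r ^ 2 := by nlinarith
    refine ⟨1 / (1 - r ^ 2), by positivity, ?_⟩
    intro θ α h0 h1 hα
    have ha2 : α ^ 2 ≤ r ^ 2 := by
      rw [← sq_abs]; exact pow_le_pow_left₀ (abs_nonneg _) hα 2
    have h2 : α ^ 2 < 1 := by nlinarith
    have h3 := th_al h0 h1 h2.le
    have h4 : 0 < 1 - α ^ 2 := by linarith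
    have h5 : 0 < 1 - θ ^ 2 * α ^ 2 := by linarith
    unfold Nf
    rw [← Real.log_div h5.ne' h4.ne']
    refine (Real.log_le_sub_one_of_pos (div_pos h5 h4)).trans ?_
    have e : (1 - θ ^ 2 * α ^ 2) / (1 - α ^ 2) - 1 = α ^ 2 * (1 - θ ^ 2) / (1 - α ^ 2) := by
      field_simp; ring
    rw [e]
    calc α ^ 2 * (1 - θ ^ 2) / (1 - α ^ 2) ≤ α ^ 2 * 1 / (1 - r ^ 2) := by
          apply div_le_div₀ (by positivity) _ hr2 (by linarith)
          exact mul_le_mul_of_nonneg_left (by nlinarith [sq_nonneg θ]) (sq_nonneg _)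
      _ = 1 / (1 - r ^ 2) * α ^ 2 := by ring
  Nf_lip := by
    intro r hr
    rcases lt_or_ge r 0 with hr0 | hr0
    · refine ⟨1, by norm_num, ?_⟩
      intro θ θ' α α' _ _ _ _ hα _
      exact absurd (hα.trans_lt hr0) (not_lt.mpr (abs_nonneg α))
    have hr2 : 0 < 1 - r ^ 2 := by nlinarith
    refine ⟨4 + 1 / (1 - r ^ 2), by positivity, ?_⟩
    intro θ θ' α α' h0 h1 h0' h1' hα hα'
    have t1 := th_le h0 h1
    have t2 := th_le h0' h1'
    have ha2 : α ^ 2 ≤ r ^ 2 := by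
      rw [← sq_abs]; exact pow_le_pow_left₀ (abs_nonneg _) hα 2
    have ha2' : α' ^ 2 ≤ r ^ 2 := by
      rw [← sq_abs]; exact pow_le_pow_left₀ (abs_nonneg _) hα' 2
    have h2 : α ^ 2 < 1 := by nlinarith
    have h2' : α' ^ 2 < 1 := by nlinarith
    have h3 := th_al h0 h1 h2.le
    have h3' := th_al h0' h1' h2'.le
    unfold Nf
    have l1 := log_lip (by norm_num : (0 : ℝ) < 1 / 2) h3 h3'
    have l2 := log_lip hr2 (by linarith : 1 - r ^ 2 ≤ 1 - α ^ 2)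
      (by linarith : 1 - r ^ 2 ≤ 1 - α' ^ 2)
    have e2 : (1 - α ^ 2) - (1 - α' ^ 2) = -(α ^ 2 - α' ^ 2) := by ring
    rw [e2, abs_neg] at l2
    have e1 : (1 - θ ^ 2 * α ^ 2) - (1 - θ' ^ 2 * α' ^ 2)
        = -(θ ^ 2 * (α ^ 2 - α' ^ 2) + (θ - θ') * ((θ + θ') * α' ^ 2)) := by ring
    have b1 : |(1 - θ ^ 2 * α ^ 2) - (1 - θ' ^ 2 * α' ^ 2)|
        ≤ 1 / 2 * |α ^ 2 - α' ^ 2| + |θ - θ'| * (2 * α' ^ 2) := by
      rw [e1, abs_neg]
      refine (abs_add_le _ _).trans (add_le_add ?_ ?_)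
      · rw [abs_mul, abs_of_nonneg (sq_nonneg θ)]
        exact mul_le_mul_of_nonneg_right h1 (abs_nonneg _)
      · rw [abs_mul, abs_of_nonneg (by positivity : 0 ≤ (θ + θ') * α' ^ 2)]
        apply mul_le_mul_of_nonneg_left _ (abs_nonneg _)
        exact mul_le_mul_of_nonneg_right (by linarith) (sq_nonneg _)
    have e3 : Real.log (1 - θ ^ 2 * α ^ 2) - Real.log (1 - α ^ 2)
        - (Real.log (1 - θ' ^ 2 * α' ^ 2) - Real.log (1 - α' ^ 2))
        = (Real.log (1 - θ ^ 2 * α ^ 2) - Real.log (1 - θ' ^ 2 * α' ^ 2))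
          - (Real.log (1 - α ^ 2) - Real.log (1 - α' ^ 2)) := by ring
    rw [e3]
    refine (abs_sub _ _).trans ?_
    have e4 : |(1 - θ ^ 2 * α ^ 2) - (1 - θ' ^ 2 * α' ^ 2)| / (1 / 2)
        = 2 * |(1 - θ ^ 2 * α ^ 2) - (1 - θ' ^ 2 * α' ^ 2)| := by ring
    rw [e4] at l1
    have e5 : |α ^ 2 - α' ^ 2| / (1 - r ^ 2) = 1 / (1 - r ^ 2) * |α ^ 2 - α' ^ 2| := by ring
    rw [e5] at l2
    have hpos1 : 0 ≤ |θ - θ'| * α' ^ 2 := by positivity
    have hpos2 : 0 ≤ 1 / (1 - r ^ 2) * (|θ - θ'| * α' ^ 2) := by positivity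
    have hpos3 := abs_nonneg (α ^ 2 - α' ^ 2)
    nlinarith
  Nf_cvx := by
    intro θ h0 h1
    have hI : ∀ α ∈ Ioo (-1 : ℝ) 1, α ^ 2 < 1 := by
      intro α hα
      exact al2_lt (abs_lt.mpr ⟨hα.1, hα.2⟩)
    have hder : ∀ α ∈ Ioo (-1 : ℝ) 1,
        HasDerivAt (Nf θ) (2 * (1 - θ ^ 2) * (α / ((1 - α ^ 2) * (1 - θ ^ 2 * α ^ 2)))) α := by
      intro α hα
      have h2 := hI α hα
      have h3 := th_al h0 h1 h2.le
      have h4 : 0 < 1 - α ^ 2 := by linarith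
      have h5 : 0 < 1 - θ ^ 2 * α ^ 2 := by linarith
      have d1 : HasDerivAt (fun x : ℝ => 1 - θ ^ 2 * x ^ 2) (-(θ ^ 2 * (2 * α))) α := by
        have := ((hasDerivAt_pow 2 α).const_mul (θ ^ 2)).const_sub 1
        simpa using this
      have d2 : HasDerivAt (fun x : ℝ => 1 - x ^ 2) (-(2 * α)) α := by
        have := (hasDerivAt_pow 2 α).const_sub 1
        simpa using this
      have d3 := (d1.log h5.ne').sub (d2.log h4.ne')
      have e : -(θ ^ 2 * (2 * α)) / (1 - θ ^ 2 * α ^ 2) - -(2 * α) / (1 - α ^ 2)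
          = 2 * (1 - θ ^ 2) * (α / ((1 - α ^ 2) * (1 - θ ^ 2 * α ^ 2))) := by
        field_simp
        ring
      rw [e] at d3
      exact d3
    have hcont : ContinuousOn (Nf θ) (Ioo (-1) 1) := fun α hα =>
      (hder α hα).continuousAt.continuousWithinAt
    refine ⟨hcont, ?_⟩
    apply MonotoneOn.convexOn_of_deriv (convex_Ioo _ _) hcont
    · rw [interior_Ioo]
      exact fun α hα => (hder α hα).differentiableAt.differentiableWithinAt
    · rw [interior_Ioo]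
      intro α hα β hβ hαβ
      rw [(hder α hα).deriv, (hder β hβ).deriv]
      apply mul_le_mul_of_nonneg_left _ (by nlinarith)
      have a2 := hI α hα
      have b2 := hI β hβ
      have a3 := th_al h0 h1 a2.le
      have b3 := th_al h0 h1 b2.le
      have a4 : 0 < (1 - α ^ 2) * (1 - θ ^ 2 * α ^ 2) := mul_pos (by linarith) (by linarith)
      have b4 : 0 < (1 - β ^ 2) * (1 - θ ^ 2 * β ^ 2) := mul_pos (by linarith) (by linarith)
      rw [div_le_div_iff₀ a4 b4, ← sub_nonneg]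
      have e : β * ((1 - α ^ 2) * (1 - θ ^ 2 * α ^ 2)) - α * ((1 - β ^ 2) * (1 - θ ^ 2 * β ^ 2))
          = (β - α) * (1 + (1 + θ ^ 2) * (α * β)
            - θ ^ 2 * ((α * β) * (α ^ 2 + β ^ 2 + α * β))) := by ring
      rw [e]
      apply mul_nonneg (by linarith)
      set t := α * β with ht
      have ht1 : |t| ≤ 1 := abs_mul_le_one (abs_le.mpr ⟨hα.1.le, hα.2.le⟩)
        (abs_le.mpr ⟨hβ.1.le, hβ.2.le⟩)
      rw [abs_le] at ht1
      have hθ2 : 0 ≤ θ ^ 2 := sq_nonneg θ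
      rcases le_total 0 t with h | h
      · have h6 : α ^ 2 + β ^ 2 ≤ 1 + t ^ 2 := by
          have : 0 ≤ (1 - α ^ 2) * (1 - β ^ 2) := mul_nonneg (by linarith) (by linarith)
          rw [ht]; nlinarith
        have h7 : t * (α ^ 2 + β ^ 2 + t) ≤ t * (1 + t ^ 2 + t) :=
          mul_le_mul_of_nonneg_left (by linarith) h
        have h8 : θ ^ 2 * (t * (α ^ 2 + β ^ 2 + t)) ≤ θ ^ 2 * (t * (1 + t ^ 2 + t)) :=
          mul_le_mul_of_nonneg_left h7 hθ2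
        have h9 : 0 ≤ (1 + t) * (1 - θ ^ 2 * t ^ 2) := by
          apply mul_nonneg (by linarith)
          have : θ ^ 2 * t ^ 2 ≤ 1 / 2 * 1 := by
            apply mul_le_mul h1 _ (sq_nonneg _) (by norm_num)
            nlinarith
          linarith
        nlinarith
      · have h6 : -2 * t ≤ α ^ 2 + β ^ 2 := by
          have : 0 ≤ (α + β) ^ 2 := sq_nonneg _
          rw [ht]; nlinarith
        have h7 : t * (α ^ 2 + β ^ 2 + t) ≤ t * (-t) :=
          mul_le_mul_of_nonpos_left (by linarith) h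
        have h8 : θ ^ 2 * (t * (α ^ 2 + β ^ 2 + t)) ≤ θ ^ 2 * (t * (-t)) :=
          mul_le_mul_of_nonneg_left h7 hθ2
        have h9 : 0 ≤ (1 + t) * (1 + θ ^ 2 * t) := by
          apply mul_nonneg (by linarith)
          nlinarith
        nlinarith

end P161C
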