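import Vale.Agent.P161C.Mods2
import Vale.Agent.P161C.Geo

/-!
# P161 at the critical point: the path formula for the covariance
-/

open MeasureTheory Set Filter Topology

namespace P161C

open P161

universe u

variable {V : Type u} {G : SimpleGraph V} {θ : ℝ} {μ : Measure (V → Bool)}

theorem real_coord_eq (hμ : IsFreeIsing G θ μ) (v : V) (b : Bool) :
    μ.real {σ | σ v = b} = 1 / 2 := by
  classical
  have hconn : (G.induce ((({v} : Finset V)) : Set V)).Connected := by
    have h := (SimpleGraph.Walk.nil : G.Walk v v).connected_induce_support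
    have e : {w | w ∈ (SimpleGraph.Walk.nil : G.Walk v v).support} = (({v} : Finset V) : Set V) := by
      ext w; simp
    rwa [e] at h
  have h := hμ.cylinder {v} hconn (fun _ => b)
  have he : edgesIn G {v} = ∅ := by
    ext e
    induction e using Sym2.ind with
    | _ x y =>
      rw [mem_edgesIn]
      simp only [Finset.mem_singleton, Finset.notMem_empty, iff_false, not_and]
      rintro rfl rfl hxy
      exact (G.loopless.irrefl _ hxy)
  rw [he] at h
  simp only [Finset.mem_singleton, forall_eq, Finset.prod_empty, mul_one] at h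
  exact h

theorem abs_int_spin_lt (hμ : IsFreeIsing G θ μ) {f : (V → Bool) → ℝ} (hf : Loc f)
    (hp : ∀ s, 0 < f s) (v : V) : |∫ s, f s * spin (s v) ∂μ| < ∫ s, f s ∂μ := by
  have := hμ.isProb
  have key : ∀ b : Bool, 0 < ∫ s, f s * (1 + spin b * spin (s v)) ∂μ := by
    intro b
    have hloc : Loc (fun s : V → Bool => f s * (1 + spin b * spin (s v))) :=
      hf.mul ((Loc.const 1).add ((Loc.coord v).const_mul _))
    have hnn : ∀ s : V → Bool, 0 ≤ f s * (1 + spin b * spin (s v)) := by
      intro s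
      refine mul_nonneg (hp s).le ?_
      have h1 : |spin b * spin (s v)| = 1 := by rw [abs_mul, abs_spin, abs_spin, mul_one]
      have := (abs_le.1 h1.le).1
      linarith
    refine (integral_pos_iff_support_of_nonneg hnn (hloc.integrable μ)).2 ?_
    have hsub : {σ : V → Bool | σ v = b}
        ⊆ Function.support (fun s : V → Bool => f s * (1 + spin b * spin (s v))) := by
      intro σ hσ
      simp only [Set.mem_ofPred_eq] at hσ
      simp only [Function.mem_support, hσ, spin_mul_self]
      have := hp σ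
      intro h0
      linarith
    refine lt_of_lt_of_le ?_ (measure_mono hsub)
    have h2 := real_coord_eq hμ v b
    rw [Measure.real] at h2
    by_contra h3
    have h4 : μ {σ : V → Bool | σ v = b} = 0 := le_antisymm (not_lt.1 h3) bot_le
    rw [h4] at h2
    norm_num at h2
  have hexp : ∀ b : Bool, ∫ s, f s * (1 + spin b * spin (s v)) ∂μ
      = ∫ s, f s ∂μ + spin b * ∫ s, f s * spin (s v) ∂μ := by
    intro b
    have e : (fun s : V → Bool => f s * (1 + spin b * spin (s v)))
        = fun s => f s + spin b * (f s * spin (s v)) := by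
      ext s; ring
    rw [e, integral_add (hf.integrable μ)
      (((hf.mul (Loc.coord v)).const_mul _).integrable μ), integral_const_mul]
  have k1 := key true
  have k2 := key false
  rw [hexp] at k1 k2
  simp only [spin, if_true, Bool.false_eq_true, if_false] at k1 k2
  rw [abs_lt]
  constructor
  · have : ∫ s, f s * spin (s v) ∂μ = ∫ s, f s * (if s v = true then 1 else -1) ∂μ := rfl
    rw [this]
    linarith
  · have : ∫ s, f s * spin (s v) ∂μ = ∫ s, f s * (if s v = true then 1 else -1) ∂μ := rfl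
    rw [this]
    linarith

theorem abs_mean_lt (hμ : IsFreeIsing G θ μ) {ρ : (V → Bool) → ℝ} (h : Post G μ ρ) (v : V) :
    |mean μ ρ v| < 1 := by
  have := abs_int_spin_lt hμ h.loc h.pos v
  rw [h.mass] at this
  exact this

/-- the algebra behind the path formula -/
theorem edge_algebra2 {θ A1 Aa B1 Bb : ℝ} (hM : MSG) (h0 : 0 ≤ θ) (h1 : θ ^ 2 ≤ 1 / 2)
    (hA : 0 < A1) (hAa : |Aa| < A1) (hB : 0 < B1) (hBb : |Bb| < B1)
    (hZ : A1 * B1 + θ * Aa * Bb = 1) :
    ∀ h k : ℝ, (Aa * h + θ * A1 * k) - (Aa * B1 + θ * A1 * Bb) * (A1 * h + θ * Aa * k)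
        = kap θ (msg θ (Aa * B1 + θ * A1 * Bb) (A1 * Bb + θ * Aa * B1))
          * ((A1 * k + θ * Aa * h) - (A1 * Bb + θ * Aa * B1) * (A1 * h + θ * Aa * k)) := by
  have hα : |Aa / A1| < 1 := by rw [abs_div, abs_of_pos hA, div_lt_one hA]; exact hAa
  have hβ : |Bb / B1| < 1 := by rw [abs_div, abs_of_pos hB, div_lt_one hB]; exact hBb
  have hms := hM.inv θ (Aa / A1) (Bb / B1) h0 h1 hα hβ
  have hden : 1 + θ * (Aa / A1) * (Bb / B1) = 1 / (A1 * B1) := by
    rw [eq_div_iff (mul_pos hA hB).ne']
    field_simp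
    linarith
  have e1 : (Aa / A1 + θ * (Bb / B1)) / (1 + θ * (Aa / A1) * (Bb / B1))
      = Aa * B1 + θ * A1 * Bb := by
    rw [hden, div_div_eq_mul_div, div_one]
    field_simp
  have e2 : (Bb / B1 + θ * (Aa / A1)) / (1 + θ * (Aa / A1) * (Bb / B1))
      = A1 * Bb + θ * Aa * B1 := by
    rw [hden, div_div_eq_mul_div, div_one]
    field_simp
  rw [e1, e2] at hms
  rw [hms]
  have hAa2 : Aa ^ 2 < A1 ^ 2 := sq_lt_sq' (by linarith [(abs_lt.1 hAa).1]) (abs_lt.1 hAa).2
  have hN : 0 < A1 ^ 2 - θ ^ 2 * Aa ^ 2 := by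
    nlinarith [sq_nonneg Aa, sq_nonneg θ]
  have hkap : kap θ (Aa / A1) = θ * (A1 ^ 2 - Aa ^ 2) / (A1 ^ 2 - θ ^ 2 * Aa ^ 2) := by
    unfold kap
    have hne : (1 : ℝ) - θ ^ 2 * (Aa / A1) ^ 2 ≠ 0 := by
      have : 1 - θ ^ 2 * (Aa / A1) ^ 2 = (A1 ^ 2 - θ ^ 2 * Aa ^ 2) / A1 ^ 2 := by
        field_simp
      rw [this]
      exact (div_pos hN (pow_pos hA 2)).ne'
    rw [div_eq_div_iff hne hN.ne']
    field_simp
  rw [hkap]
  intro h k
  rw [div_mul_eq_mul_div, eq_div_iff hN.ne']
  linear_combination (-(1 - θ ^ 2) * A1 * Aa * (A1 * h + θ * Aa * k)) * hZ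

theorem cov_step [Countable V] (hG : G.IsTree) (hμ : IsFreeIsing G θ μ) (hM : MSG) (h0 : 0 ≤ θ)
    (h1 : θ ^ 2 ≤ 1 / 2) {ρ : (V → Bool) → ℝ} (h : Post G μ ρ) {a b : V} (hab : G.Adj a b)
    {w : V} (hw : G.dist w b < G.dist w a) :
    cov μ ρ a w = kap θ (ms θ (mean μ ρ) a b) * cov μ ρ b w := by
  classical
  have := hμ.isProb
  obtain ⟨ρA, ρB, S, T, hS, hT, hA, hB, hpA, hpB, heq⟩ := h.split a b hab
  have haa : G.dist a a < G.dist a b := by
    rw [SimpleGraph.dist_self]; exact (hG.connected.pos_dist_of_ne hab.ne)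
  have hbb : G.dist b b < G.dist b a := by
    rw [SimpleGraph.dist_self]; exact (hG.connected.pos_dist_of_ne hab.ne.symm)
  have hS' : ∀ x ∈ S ∪ {a}, G.dist x a < G.dist x b := by
    intro x hx
    rcases Finset.mem_union.1 hx with hx | hx
    · exact hS x hx
    · rw [Finset.mem_singleton.1 hx]; exact haa
  have key : ∀ (T' : Finset V), (∀ x ∈ T', G.dist x b < G.dist x a) → T ⊆ T' →
      ∀ fa fb : (V → Bool) → ℝ, DependsOn fa ((S ∪ {a} : Finset V) : Set V) →
      DependsOn fb (T' : Set V) →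
      ∫ s, ρ s * (fa s * fb s) ∂μ = (∫ s, ρA s * fa s ∂μ) * (∫ s, ρB s * fb s ∂μ)
        + θ * (∫ s, ρA s * fa s * spin (s a) ∂μ) * (∫ s, ρB s * fb s * spin (s b) ∂μ) := by
    intro T' hT' hTT' fa fb hfa hfb
    have e := edge_split (F := fun s => ρA s * fa s) (H := fun s => ρB s * fb s) hG hμ hab hS'
      hT' ?_ ?_
    · rw [← e]
      congr 1
      ext s
      rw [heq s]; ring
    · intro x y hxy
      have e1 : ρA x = ρA y := hA fun i hi => hxy i (by simp at hi ⊢; exact Or.inr hi)
      simp only [e1, hfa hxy]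
    · intro x y hxy
      have e1 : ρB x = ρB y := hB fun i hi => hxy i (hTT' hi)
      simp only [e1, hfb hxy]
  have dep1 : ∀ X : Finset V, DependsOn (fun _ : V → Bool => (1 : ℝ)) (X : Set V) :=
    fun X x y _ => rfl
  have depc : ∀ (X : Finset V) (v : V), v ∈ X →
      DependsOn (fun s : V → Bool => spin (s v)) (X : Set V) := by
    intro X v hv x y hxy
    have := hxy v (by simpa using hv)
    simp only [this]
  set A1 := ∫ s, ρA s ∂μ with hA1
  set Aa := ∫ s, ρA s * spin (s a) ∂μ with hAa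
  set B1 := ∫ s, ρB s ∂μ with hB1
  set Bb := ∫ s, ρB s * spin (s b) ∂μ with hBb
  have sq : ∀ (f : (V → Bool) → ℝ) (v : V),
      (fun s : V → Bool => f s * spin (s v) * spin (s v)) = f := by
    intro f v
    ext s
    rw [mul_assoc, spin_mul_self, mul_one]
  have hTb : ∀ x ∈ T ∪ {b}, G.dist x b < G.dist x a := by
    intro x hx
    rcases Finset.mem_union.1 hx with hx | hx
    · exact hT x hx
    · rw [Finset.mem_singleton.1 hx]; exact hbb
  -- mass
  have hZ : A1 * B1 + θ * Aa * Bb = 1 := by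
    have := key (T ∪ {b}) hTb Finset.subset_union_left (fun _ => 1) (fun _ => 1) (dep1 _) (dep1 _)
    simp only [mul_one] at this
    rw [h.mass] at this
    exact this.symm
  have hma : mean μ ρ a = Aa * B1 + θ * A1 * Bb := by
    have := key (T ∪ {b}) hTb Finset.subset_union_left (fun s => spin (s a)) (fun _ => 1)
      (depc _ _ (by simp)) (dep1 _)
    simp only [mul_one, sq ρA a] at this
    exact this
  have hmb : mean μ ρ b = A1 * Bb + θ * Aa * B1 := by
    have := key (T ∪ {b}) hTb Finset.subset_union_left (fun _ => 1) (fun s => spin (s b))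
      (dep1 _) (depc _ _ (by simp))
    simp only [mul_one, one_mul, sq ρB b] at this
    exact this
  have hAabs : |Aa| < A1 := abs_int_spin_lt hμ (Loc.of_dependsOn hA) hpA a
  have hBabs : |Bb| < B1 := abs_int_spin_lt hμ (Loc.of_dependsOn hB) hpB b
  have hApos : 0 < A1 := lt_of_le_of_lt (abs_nonneg _) hAabs
  have hBpos : 0 < B1 := lt_of_le_of_lt (abs_nonneg _) hBabs
  have halg := edge_algebra2 hM h0 h1 hApos hAabs hBpos hBabs hZ
  set h' := ∫ s, ρB s * spin (s w) ∂μ with hh'
  set k' := ∫ s, ρB s * spin (s w) * spin (s b) ∂μ with hk'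
  have hTw : ∀ x ∈ T ∪ {b, w}, G.dist x b < G.dist x a := by
    intro x hx
    rcases Finset.mem_union.1 hx with hx | hx
    · exact hT x hx
    · rcases Finset.mem_insert.1 hx with hx | hx
      · rw [hx]; exact hbb
      · rw [Finset.mem_singleton.1 hx]; exact hw
  have hmw : mean μ ρ w = A1 * h' + θ * Aa * k' := by
    have := key (T ∪ {b, w}) hTw Finset.subset_union_left (fun _ => 1) (fun s => spin (s w))
      (dep1 _) (depc _ _ (by simp))
    simp only [mul_one, one_mul] at this
    exact this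
  have hmaw : ∫ s, ρ s * (spin (s a) * spin (s w)) ∂μ = Aa * h' + θ * A1 * k' := by
    have := key (T ∪ {b, w}) hTw Finset.subset_union_left (fun s => spin (s a))
      (fun s => spin (s w)) (depc _ _ (by simp)) (depc _ _ (by simp))
    simp only [sq ρA a] at this
    exact this
  have hmbw : ∫ s, ρ s * (spin (s b) * spin (s w)) ∂μ = A1 * k' + θ * Aa * h' := by
    have := key (T ∪ {b, w}) hTw Finset.subset_union_left (fun _ => 1)
      (fun s => spin (s b) * spin (s w)) (dep1 _) (by
        intro x y hxy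
        have e1 := depc (T ∪ {b, w}) b (by simp) hxy
        have e2 := depc (T ∪ {b, w}) w (by simp) hxy
        simp only at e1 e2
        simp only [e1, e2])
    simp only [mul_one, one_mul] at this
    rw [this]
    have e1 : (fun s : V → Bool => ρB s * (spin (s b) * spin (s w)))
        = fun s => ρB s * spin (s w) * spin (s b) := by ext s; ring
    have e2 : (fun s : V → Bool => ρB s * (spin (s b) * spin (s w)) * spin (s b))
        = fun s => ρB s * spin (s w) := by
      ext s
      have := spin_mul_self (s b)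
      linear_combination (ρB s * spin (s w)) * this
    rw [e1, e2]
  unfold cov ms
  rw [hmaw, hmbw, hma, hmb, hmw]
  exact halg h' k'

theorem cov_symm (ρ : (V → Bool) → ℝ) (v w : V) : cov μ ρ v w = cov μ ρ w v := by
  unfold cov
  have e : (fun s : V → Bool => ρ s * (spin (s v) * spin (s w)))
      = fun s => ρ s * (spin (s w) * spin (s v)) := by ext s; ring
  rw [e, mul_comm (mean μ ρ v)]

/-- transfer along the first `m` steps of a geodesic -/
theorem cov_walk [Countable V] (hG : G.IsTree) (hμ : IsFreeIsing G θ μ) (hM : MSG) (h0 : 0 ≤ θ)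
    (h1 : θ ^ 2 ≤ 1 / 2) {ρ : (V → Bool) → ℝ} (h : Post G μ ρ) (v w : V) :
    ∀ m ≤ G.dist v w, cov μ ρ v w
      = (∏ i ∈ Finset.range m, kap θ (ms θ (mean μ ρ) (geo G v w i) (geo G v w (i + 1))))
        * cov μ ρ (geo G v w m) w := by
  intro m
  induction m with
  | zero => intro _; simp [geo_zero hG]
  | succ m ih =>
    intro hm
    rw [ih (by omega), Finset.prod_range_succ, mul_assoc]
    congr 1
    refine cov_step hG hμ hM h0 h1 h (geo_adj hG (by omega)) ?_
    have e1 := geo_dist_right hG (v := v) (w := w) (i := m) (by omega)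
    have e2 := geo_dist_right hG (v := v) (w := w) (i := m + 1) hm
    rw [SimpleGraph.dist_comm, SimpleGraph.dist_comm (u := w)]
    omega

theorem cov_back [Countable V] (hG : G.IsTree) (hμ : IsFreeIsing G θ μ) (hM : MSG) (h0 : 0 ≤ θ)
    (h1 : θ ^ 2 ≤ 1 / 2) {ρ : (V → Bool) → ℝ} (h : Post G μ ρ) (v w : V) (i₀ : ℕ) :
    ∀ m : ℕ, i₀ + m ≤ G.dist v w → cov μ ρ (geo G v w i₀) (geo G v w (i₀ + m))
      = (1 - mean μ ρ (geo G v w i₀) ^ 2)
        * ∏ i ∈ Finset.Ico i₀ (i₀ + m),
          kap θ (ms θ (mean μ ρ) (geo G v w (i + 1)) (geo G v w i)) := by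
  intro m
  have := hμ.isProb
  induction m with
  | zero => intro _; simp [cov_self h]
  | succ m ih =>
    intro hm
    have hm' : i₀ + m + 1 ≤ G.dist v w := by omega
    have hs : i₀ + (m + 1) = i₀ + m + 1 := by ring
    rw [hs, cov_symm, Finset.prod_Ico_succ_top (by omega), ← mul_assoc, ← ih (by omega), mul_comm,
      cov_symm (V := V) (μ := μ) ρ (geo G v w i₀) (geo G v w (i₀ + m))]
    have hadj : G.Adj (geo G v w (i₀ + m)) (geo G v w (i₀ + m + 1)) := geo_adj hG (by omega)
    have hd1 := geo_dist hG (v := v) (w := w) (i := i₀) (j := i₀ + m) (by omega) (by omega)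
    have hd2 := geo_dist hG (v := v) (w := w) (i := i₀) (j := i₀ + m + 1) (by omega) hm'
    refine cov_step hG hμ hM h0 h1 h hadj.symm ?_
    rw [hd1, hd2]
    omega

theorem pathf_proof (hM : MSG) : PATHF.{u} := by
  intro V _ G _ D θ μ hE hI ρ hρ
  have hμ := hI.ising
  have := hμ.isProb
  have h0 := hI.h0
  have hD : (2 : ℝ) ≤ D := by exact_mod_cast hE.hD
  have h1 : θ ^ 2 ≤ 1 / 2 := by
    have := hI.h1
    nlinarith [sq_nonneg θ]
  refine ⟨fun v => abs_mean_lt hμ hρ v, fun v w => ?_⟩
  have hG := hE.tree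
  have e1 := cov_walk hG hμ hM h0 h1 hρ v w (G.dist v w / 2) (by omega)
  have e2 := cov_back hG hμ hM h0 h1 hρ v w (G.dist v w / 2) (G.dist v w - G.dist v w / 2)
    (by omega)
  have e3 : G.dist v w / 2 + (G.dist v w - G.dist v w / 2) = G.dist v w := by omega
  rw [e3, geo_last hG] at e2
  rw [e1, e2]
  unfold cvp
  ring

end P161C
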