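import Vale.Agent.P161.Final
import Vale.Agent.P161C.Hoef

/-!
# Conditional expectations on a product space as a commuting family of projections
-/

open MeasureTheory Set Filter Topology ProbabilityTheory
open scoped ENNReal

namespace P161C

open P161

universe u

variable {V : Type u}

instance instProbLabel (V : Type u) : IsProbabilityMeasure (labelLaw V) := by
  unfold labelLaw; infer_instance

/-- σ-algebra generated by the labels in `A` -/
@[reducible] def sg' (V : Type u) (A : Set V) : MeasurableSpace (V → unitInterval) :=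
  ⨆ v ∈ A, MeasurableSpace.comap (fun ω : V → unitInterval => ω v) inferInstance

theorem sg'_le (A : Set V) : sg' V A ≤ (inferInstance : MeasurableSpace (V → unitInterval)) := by
  unfold sg'
  refine iSup₂_le fun v _ => ?_
  exact (measurable_pi_apply v).comap_le

theorem sg'_mono {A B : Set V} (h : A ⊆ B) : sg' V A ≤ sg' V B :=
  biSup_mono fun _ hv => h hv

theorem sg'_union (A B : Set V) : sg' V (A ∪ B) = sg' V A ⊔ sg' V B := by
  unfold sg'
  exact iSup_union

theorem indep_sg' {A B : Set V} (h : Disjoint A B) : Indep (sg' V A) (sg' V B) (labelLaw V) := by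
  have h1 : iIndepFun (fun (v : V) (ω : V → unitInterval) => ω v) (labelLaw V) := by
    unfold labelLaw
    exact iIndepFun_infinitePi (P := fun _ : V => (volume : Measure unitInterval))
      (X := fun _ => id) (fun _ => measurable_id)
  exact indep_iSup_of_disjoint (fun v => (measurable_pi_apply v).comap_le) h1 h

/-- set integrals over a join of σ-algebras -/
theorem setInt_sup {Ω : Type*} [m0 : MeasurableSpace Ω] {μ : Measure Ω} [IsProbabilityMeasure μ]
    {m1 m2 : MeasurableSpace Ω} (h1 : m1 ≤ m0) (h2 : m2 ≤ m0) {r : Ω → ℝ} (hr : Integrable r μ)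
    (h : ∀ s t, MeasurableSet[m1] s → MeasurableSet[m2] t → ∫ x in s ∩ t, r x ∂μ = 0) :
    ∀ s, MeasurableSet[m1 ⊔ m2] s → ∫ x in s, r x ∂μ = 0 := by
  have htot : ∫ x, r x ∂μ = 0 := by
    have := h univ univ MeasurableSet.univ MeasurableSet.univ
    simpa using this
  set C : Set (Set Ω) := {u | ∃ s t, MeasurableSet[m1] s ∧ MeasurableSet[m2] t ∧ u = s ∩ t} with hC
  have hgen : m1 ⊔ m2 = MeasurableSpace.generateFrom C := by
    apply le_antisymm
    · refine sup_le ?_ ?_
      · intro s hs
        exact MeasurableSpace.measurableSet_generateFrom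
          ⟨s, univ, hs, MeasurableSet.univ, by simp⟩
      · intro s hs
        exact MeasurableSpace.measurableSet_generateFrom
          ⟨univ, s, MeasurableSet.univ, hs, by simp⟩
    · refine MeasurableSpace.generateFrom_le ?_
      rintro u ⟨s, t, hs, ht, rfl⟩
      exact MeasurableSet.inter (le_sup_left (a := m1) (b := m2) s hs)
        (le_sup_right (a := m1) (b := m2) t ht)
  have hpi : IsPiSystem C := by
    rintro _ ⟨s, t, hs, ht, rfl⟩ _ ⟨s', t', hs', ht', rfl⟩ _
    exact ⟨s ∩ s', t ∩ t', hs.inter hs', ht.inter ht', by rw [inter_inter_inter_comm]⟩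
  have hle : m1 ⊔ m2 ≤ m0 := sup_le h1 h2
  intro s hs
  induction s, hs using MeasurableSpace.induction_on_inter hgen hpi with
  | empty => simp
  | basic u hu =>
    obtain ⟨s, t, hs, ht, rfl⟩ := hu
    exact h s t hs ht
  | compl u hu ih =>
    have := integral_add_compl (hle u hu) hr
    rw [ih, htot, zero_add] at this
    exact this
  | iUnion f hd hf ih =>
    rw [integral_iUnion (fun i => hle _ (hf i)) hd hr.integrableOn]
    simp [ih]

/-- the space `L²` of the labels -/
noncomputable abbrev HH (V : Type u) := Lp ℝ 2 (labelLaw V)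

/-- conditional expectation given the labels in `A` -/
noncomputable def PE (V : Type u) (A : Finset V) : HH V →ₗ[ℝ] HH V :=
  (lpMeas ℝ ℝ (sg' V A) 2 (labelLaw V)).subtype ∘ₗ
    (condExpL2 ℝ ℝ (sg'_le (A : Set V))).toLinearMap

theorem PE_apply (A : Finset V) (f : HH V) :
    PE V A f = (condExpL2 ℝ ℝ (sg'_le (A : Set V)) f : HH V) := rfl

theorem PE_mem (A : Finset V) (f : HH V) :
    AEStronglyMeasurable[sg' V (A : Set V)] (PE V A f : (V → unitInterval) → ℝ) (labelLaw V) :=
  aestronglyMeasurable_condExpL2 (sg'_le _) _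

theorem PE_int (A : Finset V) (f : HH V) {s : Set (V → unitInterval)}
    (hs : MeasurableSet[sg' V (A : Set V)] s) :
    ∫ x in s, (PE V A f : (V → unitInterval) → ℝ) x ∂(labelLaw V)
      = ∫ x in s, (f : (V → unitInterval) → ℝ) x ∂(labelLaw V) :=
  integral_condExpL2_eq (𝕜 := ℝ) (sg'_le _) f hs (measure_ne_top _ _)

/-- an element of `L²` measurable w.r.t. `A` with vanishing set integrals is zero -/
theorem zero_of_int {A : Set V} (f : HH V)
    (hf : AEStronglyMeasurable[sg' V A] (f : (V → unitInterval) → ℝ) (labelLaw V))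
    (h : ∀ s, MeasurableSet[sg' V A] s → ∫ x in s, (f : (V → unitInterval) → ℝ) x ∂(labelLaw V)
      = 0) : f = 0 := by
  have h1 := Lp.ae_eq_zero_of_forall_setIntegral_eq_zero' ℝ (sg'_le A) f (by norm_num) (by norm_num)
    (fun s _ _ => (Lp.memLp f).integrable (by norm_num) |>.integrableOn) (fun s hs _ => h s hs) hf
  exact (Lp.eq_zero_iff_ae_eq_zero).2 h1

theorem coe_sub_int (f g : HH V) {s : Set (V → unitInterval)} :
    ∫ x in s, ((f - g : HH V) : (V → unitInterval) → ℝ) x ∂(labelLaw V)
      = ∫ x in s, (f : (V → unitInterval) → ℝ) x ∂(labelLaw V)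
        - ∫ x in s, (g : (V → unitInterval) → ℝ) x ∂(labelLaw V) := by
  rw [← integral_sub ((Lp.memLp f).integrable (by norm_num) |>.integrableOn)
    ((Lp.memLp g).integrable (by norm_num) |>.integrableOn)]
  refine integral_congr_ae (ae_restrict_of_ae ?_)
  filter_upwards [Lp.coeFn_sub f g] with x hx
  rw [hx]; rfl

theorem PE_eq {A : Finset V} {f g : HH V}
    (hg : AEStronglyMeasurable[sg' V (A : Set V)] (g : (V → unitInterval) → ℝ) (labelLaw V))
    (h : ∀ s, MeasurableSet[sg' V (A : Set V)] s →
      ∫ x in s, (g : (V → unitInterval) → ℝ) x ∂(labelLaw V)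
      = ∫ x in s, (f : (V → unitInterval) → ℝ) x ∂(labelLaw V)) : PE V A f = g := by
  have h1 : AEStronglyMeasurable[sg' V (A : Set V)]
      ((PE V A f - g : HH V) : (V → unitInterval) → ℝ) (labelLaw V) :=
    ((PE_mem A f).sub hg).congr (Lp.coeFn_sub _ _).symm
  have := zero_of_int (PE V A f - g) h1 (fun s hs => by
    rw [coe_sub_int, PE_int A f hs, h s hs, sub_self])
  exact sub_eq_zero.1 this

theorem PE_self {A : Finset V} {f : HH V}
    (hf : AEStronglyMeasurable[sg' V (A : Set V)] (f : (V → unitInterval) → ℝ) (labelLaw V)) :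
    PE V A f = f := PE_eq hf fun _ _ => rfl

theorem PE_sub_le {A B : Finset V} (h : A ⊆ B) (f : HH V) : PE V A (PE V B f) = PE V A f := by
  refine PE_eq (PE_mem A f) fun s hs => ?_
  rw [PE_int A f hs, PE_int B f (sg'_mono (by exact_mod_cast h) s hs)]

open Classical in
theorem PE_mul (A B : Finset V) (f : HH V) : PE V A (PE V B f) = PE V (A ∩ B) f := by
  -- reduce to the orthogonal part
  set g := PE V B f with hg
  set h := PE V (A ∩ B) g with hh
  have hgB : AEStronglyMeasurable[sg' V (B : Set V)] (g : (V → unitInterval) → ℝ) (labelLaw V) :=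
    PE_mem B f
  have hhAB := PE_mem (A ∩ B) g
  have e1 : PE V (A ∩ B) f = h := by
    rw [hh, hg, PE_sub_le Finset.inter_subset_right]
  rw [e1]
  refine PE_eq (hhAB.mono (sg'_mono (by simp))) ?_
  -- set integrals of `g - h` vanish on `sg' A`
  set r : HH V := g - h with hr
  have hrB : AEStronglyMeasurable[sg' V (B : Set V)] (r : (V → unitInterval) → ℝ) (labelLaw V) :=
    (hgB.sub (hhAB.mono (sg'_mono (by simp)))).congr (Lp.coeFn_sub _ _).symm
  have hrint : Integrable (r : (V → unitInterval) → ℝ) (labelLaw V) :=
    (Lp.memLp r).integrable (by norm_num)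
  have key : ∀ s, MeasurableSet[sg' V (A : Set V)] s →
      ∫ x in s, (r : (V → unitInterval) → ℝ) x ∂(labelLaw V) = 0 := by
    have hA : (A : Set V) = ((A ∩ B : Finset V) : Set V) ∪ ((A \ B : Finset V) : Set V) := by
      rw [← Finset.coe_union, Finset.union_comm, Finset.sdiff_union_inter]
    rw [hA, sg'_union]
    refine setInt_sup (sg'_le _) (sg'_le _) hrint ?_
    intro s t hs ht
    obtain ⟨r', hr'm, hr'e⟩ := hrB
    have hsB : MeasurableSet[sg' V (B : Set V)] s := sg'_mono (by simp) s hs
    have hs0 : MeasurableSet s := sg'_le _ s hs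
    have ht0 : MeasurableSet t := sg'_le _ t ht
    have h1 : StronglyMeasurable[sg' V (B : Set V)] (s.indicator r') := hr'm.indicator hsB
    have hind : Indep (sg' V (B : Set V)) (sg' V ((A \ B : Finset V) : Set V)) (labelLaw V) := by
      apply indep_sg'
      rw [Finset.disjoint_coe]
      exact Finset.disjoint_sdiff
    have h2 := condExp_indep_eq (sg'_le _) (sg'_le _) h1 hind
    have h3 : ∫ x, s.indicator r' x ∂(labelLaw V) = 0 := by
      rw [integral_indicator hs0]
      have : ∫ x in s, r' x ∂(labelLaw V)
          = ∫ x in s, (r : (V → unitInterval) → ℝ) x ∂(labelLaw V) :=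
        integral_congr_ae (ae_restrict_of_ae hr'e.symm)
      rw [this, hr, coe_sub_int, hh, PE_int (A ∩ B) g hs, sub_self]
    have hint' : Integrable (s.indicator r') (labelLaw V) :=
      (hrint.congr hr'e).indicator hs0
    have h4 : ∫ x in t, s.indicator r' x ∂(labelLaw V) = 0 := by
      rw [← setIntegral_condExp (sg'_le _) hint' ht]
      rw [integral_congr_ae (ae_restrict_of_ae h2)]
      simp [h3]
    calc ∫ x in s ∩ t, (r : (V → unitInterval) → ℝ) x ∂(labelLaw V)
        = ∫ x in s ∩ t, r' x ∂(labelLaw V) := integral_congr_ae (ae_restrict_of_ae hr'e)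
      _ = ∫ x in t, s.indicator r' x ∂(labelLaw V) := by
          rw [setIntegral_indicator hs0, inter_comm]
      _ = 0 := h4
  intro s hs
  have := key s hs
  rw [hr, coe_sub_int] at this
  linarith

open Classical in
theorem pf_PE (V : Type u) : Hoef.PF (fun A : Finset V => PE V A) where
  symm A f h := inner_condExpL2_left_eq_right (sg'_le _)
  mul A B f := PE_mul A B f

theorem PE_empty (f : HH V)
    (h0 : ∫ x, (f : (V → unitInterval) → ℝ) x ∂(labelLaw V) = 0) : PE V ∅ f = 0 := by
  have hbot : sg' V ((∅ : Finset V) : Set V) = ⊥ := by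
    unfold sg'
    simp
  have hz : ((0 : HH V) : (V → unitInterval) → ℝ) =ᵐ[labelLaw V] 0 := Lp.coeFn_zero _ _ _
  refine PE_eq ?_ ?_
  · exact (stronglyMeasurable_zero.aestronglyMeasurable).congr hz.symm
  · intro s hs
    have e : ∫ x in s, ((0 : HH V) : (V → unitInterval) → ℝ) x ∂(labelLaw V) = 0 := by
      rw [integral_congr_ae (ae_restrict_of_ae hz)]
      simp
    rw [e]
    rw [hbot, MeasurableSpace.measurableSet_bot_iff] at hs
    rcases hs with rfl | rfl
    · simp
    · simp [h0]

theorem PE_dense (f : HH V) {ε : ℝ} (hε : 0 < ε) : ∃ B : Finset V, ‖PE V B f - f‖ ≤ ε := by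
  classical
  haveI hfact : ∀ B : Finset V, Fact (sg' V (B : Set V)
      ≤ (inferInstance : MeasurableSpace (V → unitInterval))) := fun B => ⟨sg'_le _⟩
  set U : Finset V → Submodule ℝ (HH V) := fun B => lpMeas ℝ ℝ (sg' V (B : Set V)) 2 (labelLaw V)
    with hU
  haveI : ∀ B, (U B).HasOrthogonalProjection := fun B => by
    rw [hU]; infer_instance
  have hmono : Monotone U := by
    intro A B hAB f hf
    rw [hU] at *
    simp only [mem_lpMeas_iff_aestronglyMeasurable] at *
    exact hf.mono (sg'_mono (by exact_mod_cast hAB))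
  have hdense : ⊤ ≤ (⨆ t, U t).topologicalClosure := by
    rw [top_le_iff, Submodule.topologicalClosure_eq_top_iff, Submodule.eq_bot_iff]
    intro k hk
    have hk' : ∀ B (h : HH V), h ∈ U B → inner ℝ h k = (0 : ℝ) := by
      intro B h hh
      exact (Submodule.mem_orthogonal _ _).1 hk h ((le_iSup U B) hh)
    have hint : ∀ B : Finset V, ∀ s, MeasurableSet[sg' V (B : Set V)] s →
        ∫ x in s, (k : (V → unitInterval) → ℝ) x ∂(labelLaw V) = 0 := by
      intro B s hs
      have h1 := hk' B (indicatorConstLp 2 (sg'_le _ s hs) (measure_ne_top _ _) 1)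
        (mem_lpMeas_indicatorConstLp (sg'_le _) hs (measure_ne_top _ _))
      rw [L2.inner_indicatorConstLp_one] at h1
      exact h1
    have hki : Integrable (k : (V → unitInterval) → ℝ) (labelLaw V) :=
      (Lp.memLp k).integrable (by norm_num)
    -- all measurable sets
    have hall : ∀ s, MeasurableSet s →
        ∫ x in s, (k : (V → unitInterval) → ℝ) x ∂(labelLaw V) = 0 := by
      set C : Set (Set (V → unitInterval)) :=
        {s | ∃ B : Finset V, MeasurableSet[sg' V (B : Set V)] s} with hC
      have hgen : (inferInstance : MeasurableSpace (V → unitInterval))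
          = MeasurableSpace.generateFrom C := by
        apply le_antisymm
        · refine iSup_le fun v => ?_
          intro s hs
          refine MeasurableSpace.measurableSet_generateFrom ⟨{v}, ?_⟩
          have : MeasurableSpace.comap (fun ω : V → unitInterval => ω v) inferInstance
              ≤ sg' V (({v} : Finset V) : Set V) := by
            unfold sg'
            simp
          exact this s hs
        · refine MeasurableSpace.generateFrom_le ?_
          rintro s ⟨B, hB⟩
          exact sg'_le _ s hB
      have hpi : IsPiSystem C := by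
        rintro s ⟨B, hB⟩ t ⟨B', hB'⟩ _
        refine ⟨B ∪ B', ?_⟩
        exact (sg'_mono (by simp) s hB).inter (sg'_mono (by simp) t hB')
      intro s hs
      induction s, hs using MeasurableSpace.induction_on_inter hgen hpi with
      | empty => simp
      | basic u hu =>
        obtain ⟨B, hB⟩ := hu
        exact hint B u hB
      | compl u hu ih =>
        have h2 := integral_add_compl hu hki
        have h3 := hint ∅ univ MeasurableSet.univ
        rw [Measure.restrict_univ] at h3
        rw [ih, h3, zero_add] at h2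
        exact h2
      | iUnion f hd hf ih =>
        rw [integral_iUnion hf hd hki.integrableOn]
        simp [ih]
    have h1 := hki.ae_eq_zero_of_forall_setIntegral_eq_zero (fun s hs _ => hall s hs)
    exact (Lp.eq_zero_iff_ae_eq_zero).2 h1
  have hlim := Submodule.starProjection_tendsto_self U hmono f hdense
  have hev := (Metric.tendsto_nhds.1 hlim) ε hε
  obtain ⟨B, hB⟩ := hev.exists
  refine ⟨B, ?_⟩
  rw [dist_eq_norm] at hB
  exact hB.le

end P161C
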