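import Vale.Agent.P161C.Stt

/-!
# P161 at the critical point: module PLANT (the law of the signals is the planted law)
-/

open MeasureTheory Set Filter Topology

namespace P161C

open P161

universe u

variable {V : Type u} {μ : Measure (V → Bool)}

/-! ## The quantile map of the unit interval -/

/-- quantile map with values in the unit interval -/
noncomputable def qI (c : ℝ) (u : unitInterval) : unitInterval :=
  Set.projIcc (0 : ℝ) 1 zero_le_one (qt c u)

theorem qI_coe (hC : CHAN) {c : ℝ} (hc : |c| ≤ 1 / 8) (u : unitInterval) :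
    ((qI c u : unitInterval) : ℝ) = qt c u := by
  have h := hC.qt_mem c u hc u.2.1 u.2.2
  unfold qI
  rw [Set.projIcc_of_mem zero_le_one ⟨h.1, h.2⟩]

theorem measurable_qI (hC : CHAN) : Measurable fun p : ℝ × unitInterval => qI p.1 p.2 := by
  unfold qI
  have h1 : Measurable fun p : ℝ × unitInterval => qt p.1 (p.2 : ℝ) :=
    hC.qt_meas.comp (measurable_fst.prodMk (measurable_subtype_coe.comp measurable_snd))
  exact continuous_projIcc.measurable.comp h1

theorem dens_pos {c y : ℝ} (hc : |c| ≤ 1 / 8) (h0 : 0 ≤ y) (h1 : y ≤ 1) :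
    0 < 1 + c * (2 * y - 1) := by
  have h2 : |c * (2 * y - 1)| ≤ 1 / 8 := by
    rw [abs_mul]
    calc |c| * |2 * y - 1| ≤ 1 / 8 * 1 := by
          refine mul_le_mul hc ?_ (abs_nonneg _) (by norm_num)
          rw [abs_le]
          constructor <;> linarith
      _ = 1 / 8 := by norm_num
  have := (abs_le.1 h2).1
  linarith

theorem qI_map (hC : CHAN) {c : ℝ} (hc : |c| ≤ 1 / 8) :
    (volume : Measure unitInterval).map (qI c)
      = (volume : Measure unitInterval).withDensity
        (fun y => ENNReal.ofReal (1 + c * (2 * (y : ℝ) - 1))) := by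
  have hm : Measurable (qI c) := (measurable_qI hC).comp (measurable_const.prodMk measurable_id)
  ext A hA
  rw [Measure.map_apply hm hA, withDensity_apply _ hA]
  -- the indicator function on the real line
  set f : ℝ → ℝ := fun x => (A.indicator (fun _ => (1 : ℝ))) (Set.projIcc (0 : ℝ) 1 zero_le_one x)
    with hf
  have hfm : Measurable f :=
    (measurable_const.indicator hA).comp continuous_projIcc.measurable
  have hfb : ∃ B, ∀ x, |f x| ≤ B := by
    refine ⟨1, fun x => ?_⟩
    simp only [hf, Set.indicator]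
    split_ifs <;> simp
  have key := hC.qt_int c hc f hfm hfb
  have h1 : ∀ u : unitInterval, f (qt c u) = ((qI c) ⁻¹' A).indicator (fun _ => (1 : ℝ)) u := by
    intro u
    rfl
  have h2 : ∀ y : unitInterval, f y * (1 + c * (2 * (y : ℝ) - 1))
      = A.indicator (fun y : unitInterval => 1 + c * (2 * (y : ℝ) - 1)) y := by
    intro y
    have h3 : Set.projIcc (0 : ℝ) 1 zero_le_one (y : ℝ) = y := Set.projIcc_val zero_le_one y
    have h4 : f y = A.indicator (fun _ => (1 : ℝ)) y := by
      simp only [hf, h3]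
    rw [h4]
    by_cases hy : y ∈ A
    · rw [Set.indicator_of_mem hy, Set.indicator_of_mem hy, one_mul]
    · rw [Set.indicator_of_notMem hy, Set.indicator_of_notMem hy, zero_mul]
  simp only [h1, h2] at key
  rw [integral_indicator (hm hA), integral_indicator hA] at key
  simp only [integral_const, smul_eq_mul, mul_one, MeasurableSet.univ, Measure.real,
    Measure.restrict_apply, univ_inter] at key
  have hint : Integrable (fun y : unitInterval => 1 + c * (2 * (y : ℝ) - 1))
      ((volume : Measure unitInterval).restrict A) := by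
    refine Integrable.of_bound (C := 2) ?_ ?_
    · refine Continuous.aestronglyMeasurable ?_
      fun_prop
    · refine Filter.Eventually.of_forall fun y => ?_
      rw [Real.norm_eq_abs, abs_le]
      have h3 : |c * (2 * (y : ℝ) - 1)| ≤ 1 / 8 := by
        rw [abs_mul]
        calc |c| * |2 * (y : ℝ) - 1| ≤ 1 / 8 * 1 := by
              refine mul_le_mul hc ?_ (abs_nonneg _) (by norm_num)
              rw [abs_le]
              constructor <;> linarith [y.2.1, y.2.2]
          _ = 1 / 8 := by norm_num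
      have h4 := abs_le.1 h3
      constructor <;> linarith
  rw [← ofReal_integral_eq_lintegral_ofReal hint
    (Filter.Eventually.of_forall fun y => (dens_pos hc y.2.1 y.2.2).le), ← key,
    ENNReal.ofReal_toReal (measure_ne_top _ _)]

theorem lintegral_qI (hC : CHAN) {c : ℝ} (hc : |c| ≤ 1 / 8) {g : unitInterval → ENNReal}
    (hg : Measurable g) :
    ∫⁻ u, g (qI c u) = ∫⁻ y, g y * ENNReal.ofReal (1 + c * (2 * (y : ℝ) - 1)) := by
  have hm : Measurable (qI c) := (measurable_qI hC).comp (measurable_const.prodMk measurable_id)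
  have h1 : ∫⁻ u, g (qI c u) = ∫⁻ y, g y ∂((volume : Measure unitInterval).map (qI c)) :=
    (lintegral_map hg hm).symm
  rw [h1, qI_map hC hc, lintegral_withDensity_eq_lintegral_mul _ (by fun_prop) hg]
  refine lintegral_congr fun y => ?_
  simp only [Pi.mul_apply, mul_comm]

/-! ## Weights along a list -/

/-- weight of the signals `Y` of the events of the list -/
noncomputable def wl (Y : Cfg V) (l : List (V × ℤ)) (σ : V → Bool) : ℝ :=
  (l.map fun e => 1 + amp e.2 * spin (σ e.1) * (2 * (Y e : ℝ) - 1)).prod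

/-- partition function of a list -/
noncomputable def zl (μ : Measure (V → Bool)) (Y : Cfg V) (l : List (V × ℤ)) : ℝ :=
  ∫ σ, wl Y l σ ∂μ

/-- posterior mean given the signals of a list -/
noncomputable def ml (μ : Measure (V → Bool)) (Y : Cfg V) (l : List (V × ℤ)) (v : V) : ℝ :=
  (∫ σ, wl Y l σ * spin (σ v) ∂μ) / zl μ Y l

open Classical in
/-- the signals as a function of the labels -/
noncomputable def yl (μ : Measure (V → Bool)) (U : Cfg V) : List (V × ℤ) → Cfg V
  | [] => U
  | e :: l => Function.update (yl μ U l) e (qI (amp e.2 * ml μ (yl μ U l) l e.1) (U e))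

theorem wl_cons (Y : Cfg V) (e : V × ℤ) (l : List (V × ℤ)) (σ : V → Bool) :
    wl Y (e :: l) σ = (1 + amp e.2 * spin (σ e.1) * (2 * (Y e : ℝ) - 1)) * wl Y l σ := by
  simp [wl]

theorem wl_congr {Y Y' : Cfg V} {l : List (V × ℤ)} (h : ∀ e ∈ l, Y e = Y' e) (σ : V → Bool) :
    wl Y l σ = wl Y' l σ := by
  unfold wl
  congr 1
  refine List.map_congr_left fun e he => ?_
  rw [h e he]

theorem zl_congr {Y Y' : Cfg V} {l : List (V × ℤ)} (h : ∀ e ∈ l, Y e = Y' e) :
    zl μ Y l = zl μ Y' l := by
  unfold zl
  simp only [wl_congr h]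

theorem ml_congr {Y Y' : Cfg V} {l : List (V × ℤ)} (h : ∀ e ∈ l, Y e = Y' e) (v : V) :
    ml μ Y l v = ml μ Y' l v := by
  unfold ml
  simp only [wl_congr h, zl_congr (μ := μ) h]

theorem fac_pos (Y : Cfg V) (e : V × ℤ) (σ : V → Bool) :
    0 < 1 + amp e.2 * spin (σ e.1) * (2 * (Y e : ℝ) - 1) := by
  refine dens_pos ?_ (Y e).2.1 (Y e).2.2
  rw [abs_mul, abs_spin, mul_one, abs_of_pos (amp_pos _)]
  exact amp_le _

theorem wl_pos (Y : Cfg V) (l : List (V × ℤ)) (σ : V → Bool) : 0 < wl Y l σ := by
  induction l with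
  | nil => simp [wl]
  | cons e l ih =>
    rw [wl_cons]
    exact mul_pos (fac_pos Y e σ) ih

theorem wl_loc (Y : Cfg V) (l : List (V × ℤ)) : Loc (wl Y l) := by
  induction l with
  | nil =>
    have h1 : wl Y [] = fun _ => (1 : ℝ) := by
      ext σ
      simp [wl]
    rw [h1]
    exact Loc.const 1
  | cons e l ih =>
    have h1 : wl Y (e :: l)
        = fun σ => (1 + amp e.2 * spin (σ e.1) * (2 * (Y e : ℝ) - 1)) * wl Y l σ := by
      ext σ
      exact wl_cons Y e l σ
    rw [h1]
    refine Loc.mul ?_ ih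
    exact Loc.op₁ (fun x => 1 + amp e.2 * x * (2 * (Y e : ℝ) - 1)) (Loc.coord e.1)

theorem zl_pos [IsProbabilityMeasure μ] (Y : Cfg V) (l : List (V × ℤ)) : 0 < zl μ Y l := by
  unfold zl
  refine (integral_pos_iff_support_of_nonneg (fun s => (wl_pos Y l s).le)
    ((wl_loc Y l).integrable μ)).2 ?_
  have : Function.support (wl Y l) = univ := by
    ext s; simp [(wl_pos Y l s).ne']
  rw [this]; simp

theorem ml_abs_le [IsProbabilityMeasure μ] (Y : Cfg V) (l : List (V × ℤ)) (v : V) :
    |ml μ Y l v| ≤ 1 := by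
  unfold ml
  rw [abs_div, abs_of_pos (zl_pos Y l), div_le_one (zl_pos Y l)]
  calc |∫ σ, wl Y l σ * spin (σ v) ∂μ| ≤ ∫ σ, |wl Y l σ * spin (σ v)| ∂μ :=
        abs_integral_le_integral_abs
    _ = zl μ Y l := by
        unfold zl
        congr 1
        ext σ
        rw [abs_mul, abs_spin, mul_one, abs_of_pos (wl_pos Y l σ)]

theorem amp_ml_abs [IsProbabilityMeasure μ] (Y : Cfg V) (e : V × ℤ) (l : List (V × ℤ)) :
    |amp e.2 * ml μ Y l e.1| ≤ 1 / 8 := by
  rw [abs_mul, abs_of_pos (amp_pos _)]
  calc amp e.2 * |ml μ Y l e.1| ≤ 1 / 8 * 1 :=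
        mul_le_mul (amp_le _) (ml_abs_le Y l e.1) (abs_nonneg _) (by norm_num)
    _ = 1 / 8 := by norm_num

/-- the partition function after one more event -/
theorem zl_cons [IsProbabilityMeasure μ] (Y : Cfg V) (e : V × ℤ) (l : List (V × ℤ)) :
    zl μ Y (e :: l) = zl μ Y l * (1 + amp e.2 * ml μ Y l e.1 * (2 * (Y e : ℝ) - 1)) := by
  have h1 : ∀ σ, wl Y (e :: l) σ
      = wl Y l σ + amp e.2 * (2 * (Y e : ℝ) - 1) * (wl Y l σ * spin (σ e.1)) := by
    intro σ
    rw [wl_cons]
    ring
  have hz := (zl_pos (μ := μ) Y l).ne'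
  unfold ml
  rw [zl]
  simp only [h1]
  rw [integral_add ((wl_loc Y l).integrable μ)
    ((((wl_loc Y l).mul (Loc.coord e.1)).const_mul _).integrable μ), integral_const_mul]
  rw [show ∫ σ, wl Y l σ ∂μ = zl μ Y l from rfl]
  field_simp

theorem yl_notMem {U : Cfg V} {l : List (V × ℤ)} {e : V × ℤ} (h : e ∉ l) :
    yl μ U l e = U e := by
  classical
  induction l with
  | nil => rfl
  | cons f l ih =>
    have h1 : e ≠ f := fun h' => h (h' ▸ List.mem_cons_self ..)
    have h2 : e ∉ l := fun h' => h (List.mem_cons_of_mem _ h')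
    simp only [yl]
    rw [Function.update_of_ne h1]
    exact ih h2

/-- the state is the normalised weight of the signals -/
theorem dn_eq [IsProbabilityMeasure μ] (hC : CHAN) (U : Cfg V) :
    ∀ l : List (V × ℤ), l.Nodup → ∀ σ, dn μ U l σ = wl (yl μ U l) l σ / zl μ (yl μ U l) l := by
  classical
  intro l
  induction l with
  | nil =>
    intro _ σ
    simp [dn, wl, zl]
  | cons e l ih =>
    intro hl σ
    rw [List.nodup_cons] at hl
    have ih' := ih hl.2
    set Y := yl μ U l with hY
    have hm : mean μ (dn μ U l) e.1 = ml μ Y l e.1 := by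
      unfold mean ml
      rw [← integral_div]
      congr 1
      ext s
      rw [ih' s]
      ring
    set m := ml μ Y l e.1 with hmdef
    have hc : |amp e.2 * m| ≤ 1 / 8 := amp_ml_abs Y e l
    have hYe : ∀ f ∈ l, (yl μ U (e :: l)) f = Y f := by
      intro f hf
      have : f ≠ e := fun h' => hl.1 (h' ▸ hf)
      simp only [yl]
      rw [Function.update_of_ne this]
    have hy : ((yl μ U (e :: l) e : unitInterval) : ℝ) = qt (amp e.2 * m) (U e) := by
      simp only [yl, Function.update_self]
      exact qI_coe hC hc _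
    have hm1 : |m| ≤ 1 := ml_abs_le Y l e.1
    set b := sg (amp e.2) m (U e) with hb
    have hb' : b = amp e.2 * (2 * ((yl μ U (e :: l) e : unitInterval) : ℝ) - 1) := by
      rw [hb, hy]; rfl
    have hb1 : |b| ≤ 1 / 8 :=
      (hC.sg_le (amp e.2) m (U e) (amp_pos _).le (amp_le _) hm1 (U e).2.1 (U e).2.2).trans
        (amp_le _)
    have hbm : 0 < 1 + b * m := by
      have h2 : |b * m| ≤ 1 / 8 * 1 := by
        rw [abs_mul]
        exact mul_le_mul hb1 hm1 (abs_nonneg _) (by norm_num)
      have := (abs_le.1 h2).1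
      linarith
    rw [zl_cons, wl_cons, zl_congr (μ := μ) hYe, wl_congr hYe, ml_congr (μ := μ) hYe]
    simp only [dn, upd]
    rw [ih' σ, hm]
    have hI : Ig (amp e.2) m (U e) = b / (1 + b * m) := rfl
    rw [hI]
    have hz := (zl_pos (μ := μ) Y l).ne'
    have e1 : 1 + amp e.2 * ml μ Y l e.1 * (2 * ((yl μ U (e :: l) e : unitInterval) : ℝ) - 1)
        = 1 + b * m := by
      rw [hb', ← hmdef]; ring
    have e2 : 1 + amp e.2 * spin (σ e.1) * (2 * ((yl μ U (e :: l) e : unitInterval) : ℝ) - 1)
        = 1 + b * spin (σ e.1) := by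
      rw [hb']; ring
    rw [e1, e2]
    field_simp
    ring

/-! ## The law of the signals for fixed order labels -/

theorem measurable_wl (l : List (V × ℤ)) :
    Measurable fun p : Cfg V × (V → Bool) => wl p.1 l p.2 := by
  induction l with
  | nil => simp only [wl, List.map_nil, List.prod_nil]; exact measurable_const
  | cons e l ih =>
    simp only [wl_cons]
    refine Measurable.mul ?_ ih
    have h1 : Measurable fun p : Cfg V × (V → Bool) => spin (p.2 e.1) :=
      (measurable_of_finite spin).comp ((measurable_pi_apply e.1).comp measurable_snd)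
    have h2 : Measurable fun p : Cfg V × (V → Bool) => ((p.1 e : unitInterval) : ℝ) :=
      measurable_subtype_coe.comp ((measurable_pi_apply e).comp measurable_fst)
    fun_prop

theorem measurable_zl [IsProbabilityMeasure μ] (l : List (V × ℤ)) :
    Measurable fun Y : Cfg V => zl μ Y l := by
  have h1 : StronglyMeasurable fun p : Cfg V × (V → Bool) => wl p.1 l p.2 :=
    (measurable_wl l).stronglyMeasurable
  exact (h1.integral_prod_right (ν := μ)).measurable

theorem measurable_ml [IsProbabilityMeasure μ] (l : List (V × ℤ)) (v : V) :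
    Measurable fun Y : Cfg V => ml μ Y l v := by
  have hsp : Measurable fun p : Cfg V × (V → Bool) => spin (p.2 v) :=
    (measurable_of_finite spin).comp ((measurable_pi_apply v).comp measurable_snd)
  have h1 : StronglyMeasurable fun p : Cfg V × (V → Bool) => wl p.1 l p.2 * spin (p.2 v) :=
    ((measurable_wl l).mul hsp).stronglyMeasurable
  unfold ml
  exact (h1.integral_prod_right (ν := μ)).measurable.div (measurable_zl l)

open Classical in
/-- one step of the signals -/
noncomputable def Ts (μ : Measure (V → Bool)) (e : V × ℤ) (l : List (V × ℤ)) (Y : Cfg V) :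
    Cfg V := Function.update Y e (qI (amp e.2 * ml μ Y l e.1) (Y e))

theorem measurable_Ts [IsProbabilityMeasure μ] (hC : CHAN) (e : V × ℤ) (l : List (V × ℤ)) :
    Measurable (Ts μ e l) := by
  unfold Ts
  refine (measurable_upd2 e).comp (measurable_id.prodMk ?_)
  exact (measurable_qI hC).comp (((measurable_ml l e.1).const_mul _).prodMk
    (measurable_pi_apply e))

theorem yl_cons {U : Cfg V} {e : V × ℤ} {l : List (V × ℤ)} (h : e ∉ l) :
    yl μ U (e :: l) = Ts μ e l (yl μ U l) := by
  simp only [yl, Ts]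
  rw [yl_notMem h]

open Classical in
theorem lintegral_update (e : V × ℤ) {f : Cfg V → ENNReal} (hf : Measurable f) :
    ∫⁻ U, f U ∂(Pc V) = ∫⁻ U, (∫⁻ x : unitInterval, f (Function.update U e x)) ∂(Pc V) := by
  rw [← (mp_update (V := V) e).lintegral_comp hf]
  exact lintegral_prod (fun p : Cfg V × unitInterval => f (Function.update p.1 e p.2))
    (hf.comp (measurable_upd2 e)).aemeasurable

theorem measurable_yl [IsProbabilityMeasure μ] (hC : CHAN) (l : List (V × ℤ)) :
    l.Nodup → Measurable fun U : Cfg V => yl μ U l := by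
  induction l with
  | nil => intro _; exact measurable_id
  | cons e l ih =>
    intro hl
    rw [List.nodup_cons] at hl
    have h1 : (fun U : Cfg V => yl μ U (e :: l)) = fun U => Ts μ e l (yl μ U l) := by
      ext1 U
      exact yl_cons hl.1
    rw [h1]
    exact (measurable_Ts hC e l).comp (ih hl.2)

theorem Ts_map [IsProbabilityMeasure μ] (hC : CHAN) {e : V × ℤ} {l : List (V × ℤ)}
    (h : e ∉ l) {g : Cfg V → ENNReal} (hg : Measurable g) :
    ∫⁻ Y, g (Ts μ e l Y) * ENNReal.ofReal (zl μ Y l) ∂(Pc V)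
      = ∫⁻ Y, g Y * ENNReal.ofReal (zl μ Y (e :: l)) ∂(Pc V) := by
  classical
  have hT := measurable_Ts (μ := μ) hC e l
  have hz := measurable_zl (μ := μ) l
  rw [lintegral_update e (f := fun Y => g (Ts μ e l Y) * ENNReal.ofReal (zl μ Y l))
      ((hg.comp hT).mul hz.ennreal_ofReal),
    lintegral_update e (f := fun Y => g Y * ENNReal.ofReal (zl μ Y (e :: l)))
      (hg.mul (measurable_zl (μ := μ) (e :: l)).ennreal_ofReal)]
  refine lintegral_congr fun Y => ?_
  have hup : ∀ x : unitInterval, ∀ f ∈ l, Function.update Y e x f = Y f := by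
    intro x f hf
    have h' : f ≠ e := by
      rintro rfl
      exact h hf
    exact Function.update_of_ne h' _ _
  have h1 : ∀ x : unitInterval, g (Ts μ e l (Function.update Y e x))
      * ENNReal.ofReal (zl μ (Function.update Y e x) l)
      = ENNReal.ofReal (zl μ Y l)
        * (fun z => g (Function.update Y e z)) (qI (amp e.2 * ml μ Y l e.1) x) := by
    intro x
    rw [zl_congr (μ := μ) (hup x), mul_comm]
    unfold Ts
    rw [ml_congr (μ := μ) (hup x)]
    simp only [Function.update_self, Function.update_idem]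
  have h2 : ∀ x : unitInterval, g (Function.update Y e x)
      * ENNReal.ofReal (zl μ (Function.update Y e x) (e :: l))
      = ENNReal.ofReal (zl μ Y l) * (g (Function.update Y e x)
        * ENNReal.ofReal (1 + amp e.2 * ml μ Y l e.1 * (2 * (x : ℝ) - 1))) := by
    intro x
    rw [zl_cons, zl_congr (μ := μ) (hup x), ml_congr (μ := μ) (hup x), Function.update_self,
      ENNReal.ofReal_mul (zl_pos Y l).le]
    ring
  have hgm : Measurable fun z : unitInterval => g (Function.update Y e z) :=
    hg.comp ((measurable_upd2 e).comp (measurable_const.prodMk measurable_id))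
  simp only [h1, h2]
  rw [lintegral_const_mul' _ _ ENNReal.ofReal_ne_top, lintegral_const_mul' _ _
    ENNReal.ofReal_ne_top, lintegral_qI hC (amp_ml_abs Y e l) hgm]

/-- the law of the signals of a list -/
theorem yl_map [IsProbabilityMeasure μ] (hC : CHAN) (l : List (V × ℤ)) :
    l.Nodup → ∀ g : Cfg V → ENNReal, Measurable g →
      ∫⁻ U, g (yl μ U l) ∂(Pc V) = ∫⁻ Y, g Y * ENNReal.ofReal (zl μ Y l) ∂(Pc V) := by
  induction l with
  | nil =>
    intro _ g _
    simp [yl, zl, wl]
  | cons e l ih =>
    intro hl g hg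
    rw [List.nodup_cons] at hl
    have h1 : ∀ U : Cfg V, g (yl μ U (e :: l)) = (fun Y => g (Ts μ e l Y)) (yl μ U l) := by
      intro U
      rw [yl_cons hl.1]
    rw [lintegral_congr h1, ih hl.2 (fun Y => g (Ts μ e l Y)) (hg.comp (measurable_Ts hC e l))]
    exact Ts_map hC hl.1 hg

/-! ## Random order labels -/

theorem prod_wt (Λ : Finset V) (k : ℕ) (t : ℝ) (η : Om V) (σ : V → Bool) :
    ∏ v ∈ Λ, wt k t v η (spin (σ v)) = wl η.2 (evl Λ k t η.1) σ := by
  classical
  unfold wl wt
  have h1 : ((evl Λ k t η.1).map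
      fun e : V × ℤ => 1 + amp e.2 * spin (σ e.1) * (2 * (η.2 e : ℝ) - 1)).prod
      = (((evs Λ k t η.1).toList).map
      fun e : V × ℤ => 1 + amp e.2 * spin (σ e.1) * (2 * (η.2 e : ℝ) - 1)).prod := by
    rw [evl_eq]
    exact ((srt_perm _ _).map _).prod_eq
  rw [h1, Finset.prod_map_toList]
  unfold evs
  rw [Finset.prod_filter, Finset.prod_product]

theorem Zp_eq (Λ : Finset V) (k : ℕ) (t : ℝ) (η : Om V) :
    Zp μ Λ k t η = zl μ η.2 (evl Λ k t η.1) := by
  unfold Zp zl
  simp only [prod_wt]

section lists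

variable [Countable V]

local instance instMSList' : MeasurableSpace (List (V × ℤ)) := ⊤

local instance instDMSList' : DiscreteMeasurableSpace (List (V × ℤ)) := ⟨fun _ => trivial⟩

theorem measurable_evl' (Λ : Finset V) (k : ℕ) (t : ℝ) :
    Measurable fun o : Cfg V => evl Λ k t o :=
  (measurable_evl Λ k).comp (measurable_const.prodMk measurable_id)

theorem measurable_ZpP [IsProbabilityMeasure μ] (Λ : Finset V) (k : ℕ) (t : ℝ) :
    Measurable (Zp μ Λ k t) := by
  have h1 : Measurable fun q : Cfg V × List (V × ℤ) => zl μ q.1 q.2 :=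
    measurable_from_prod_countable_left fun l => measurable_zl l
  have h2 : Zp μ Λ k t = fun η : Om V => zl μ η.2 (evl Λ k t η.1) := by
    ext η
    exact Zp_eq Λ k t η
  rw [h2]
  exact h1.comp (measurable_snd.prodMk ((measurable_evl' Λ k t).comp measurable_fst))

/-- the signals as a function of the labels -/
noncomputable def Yp (μ : Measure (V → Bool)) (Λ : Finset V) (k : ℕ) (t : ℝ) (ω : Om V) : Om V :=
  (ω.1, yl μ ω.2 (evl Λ k t ω.1))

omit [Countable V] in
theorem nodup_evl (Λ : Finset V) (k : ℕ) (t : ℝ) (o : Cfg V) : (evl Λ k t o).Nodup := by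
  rw [evl_eq]
  exact nodup_srt _ _

open Classical in
theorem measurable_Yp [IsProbabilityMeasure μ] (hC : CHAN) (Λ : Finset V) (k : ℕ) (t : ℝ) :
    Measurable (Yp μ Λ k t) := by
  have h1 : Measurable fun q : Cfg V × List (V × ℤ) => if q.2.Nodup then yl μ q.1 q.2 else q.1 := by
    refine measurable_from_prod_countable_left fun l => ?_
    by_cases hl : l.Nodup
    · simp only [hl, if_true]
      exact measurable_yl hC l hl
    · simp only [hl, if_false]
      exact measurable_id
  have h2 : Yp μ Λ k t = fun ω : Om V => (ω.1, (fun q : Cfg V × List (V × ℤ) =>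
      if q.2.Nodup then yl μ q.1 q.2 else q.1) (ω.2, evl Λ k t ω.1)) := by
    ext1 ω
    simp only [Yp, nodup_evl, if_true]
  rw [h2]
  exact measurable_fst.prodMk (h1.comp (measurable_snd.prodMk
    ((measurable_evl' Λ k t).comp measurable_fst)))

end lists

theorem Yp_map [Countable V] [IsProbabilityMeasure μ] (hC : CHAN) (Λ : Finset V) (k : ℕ) (t : ℝ) :
    (Pm V).map (Yp μ Λ k t)
      = (Pm V).withDensity (fun η => ENNReal.ofReal (Zp μ Λ k t η)) := by
  have hY := measurable_Yp (μ := μ) hC Λ k t
  have hZ := measurable_ZpP (μ := μ) Λ k t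
  refine Measure.ext_of_lintegral _ fun g hg => ?_
  rw [lintegral_map hg hY, lintegral_withDensity_eq_lintegral_mul _ hZ.ennreal_ofReal hg]
  unfold Pm
  rw [lintegral_prod (fun ω : Om V => g (Yp μ Λ k t ω)) (hg.comp hY).aemeasurable,
    lintegral_prod _ (hZ.ennreal_ofReal.mul hg).aemeasurable]
  refine lintegral_congr fun o => ?_
  have h1 : ∀ U : Cfg V, g (Yp μ Λ k t (o, U)) = (fun Y => g (o, Y)) (yl μ U (evl Λ k t o)) :=
    fun U => rfl
  rw [lintegral_congr h1, yl_map hC _ (nodup_evl Λ k t o) (fun Y => g (o, Y))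
    (hg.comp (measurable_const.prodMk measurable_id))]
  refine lintegral_congr fun Y => ?_
  simp only [Pi.mul_apply, Zp_eq, mul_comm]

/-- module PLANT -/
theorem plant_proof (hC : CHAN) : PLANT.{u} := by
  intro V _ G _ D θ μ hE hI Λ k t
  have := hI.ising.isProb
  refine ⟨Yp μ Λ k t, measurable_Yp hC Λ k t, fun ω => rfl, measurable_ZpP Λ k t, ?_,
    Yp_map hC Λ k t, ?_⟩
  · intro η
    rw [Zp_eq]
    exact zl_pos _ _
  · intro ω σ
    rw [prod_wt, Zp_eq]
    exact dn_eq hC ω.2 _ (nodup_evl Λ k t ω.1) σ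

end P161C
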