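import Vale.Agent.P161C.Plant
import Vale.Agent.P161C.Cone

/-!
# P161 at the critical point: module PROCLAW (law of the messages of the process in a ball)
-/

open MeasureTheory Set Filter Topology

namespace P161C

open P161

universe u

variable {V : Type u} {μ : Measure (V → Bool)} {G : SimpleGraph V} {θ : ℝ}

/-! ## Weights of finite sets -/

/-- weight of the signals in `A` -/
noncomputable def wA (A : Finset V) (k : ℕ) (t : ℝ) (η : Om V) (σ : V → Bool) : ℝ :=
  ∏ v ∈ A, wt k t v η (spin (σ v))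

theorem wA_eq (A : Finset V) (k : ℕ) (t : ℝ) (η : Om V) :
    wA A k t η = wl η.2 (evl A k t η.1) := by
  ext σ
  exact prod_wt A k t η σ

theorem wA_pos (A : Finset V) (k : ℕ) (t : ℝ) (η : Om V) (σ : V → Bool) : 0 < wA A k t η σ := by
  rw [wA_eq]
  exact wl_pos _ _ _

theorem wA_loc (A : Finset V) (k : ℕ) (t : ℝ) (η : Om V) : Loc (wA A k t η) := by
  rw [wA_eq]
  exact wl_loc _ _

theorem wA_dep (A : Finset V) (k : ℕ) (t : ℝ) (η : Om V) :
    DependsOn (wA A k t η) (A : Set V) := by
  intro x y h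
  unfold wA
  refine Finset.prod_congr rfl fun v hv => ?_
  rw [h v (Finset.mem_coe.2 hv)]

theorem Zp_def (A : Finset V) (k : ℕ) (t : ℝ) (η : Om V) :
    Zp μ A k t η = ∫ σ, wA A k t η σ ∂μ := rfl

theorem ap_def (A : Finset V) (k : ℕ) (t : ℝ) (a : V) (η : Om V) :
    ap μ A k t a η = (∫ σ, wA A k t η σ * spin (σ a) ∂μ) / Zp μ A k t η := by
  unfold ap wA
  congr 1
  refine integral_congr_ae (Filter.Eventually.of_forall fun σ => ?_)
  simp only
  ring

theorem Zp_pos' [IsProbabilityMeasure μ] (A : Finset V) (k : ℕ) (t : ℝ) (η : Om V) :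
    0 < Zp μ A k t η := by
  rw [Zp_eq]
  exact zl_pos _ _

/-! ## The single spin has full support -/

theorem spin_set_pos (hI : IsFreeIsing G θ μ) (h0 : 0 ≤ θ) (h1 : θ < 1) (v : V) (b : Bool) :
    0 < μ {σ | σ v = b} := by
  classical
  have := hI.isProb
  have hc : (G.induce (({v} : Finset V) : Set V)).Connected := by
    have h2 := (SimpleGraph.Walk.nil : G.Walk v v).connected_induce_support
    have e : {w | w ∈ (SimpleGraph.Walk.nil : G.Walk v v).support} = (({v} : Finset V) : Set V) := by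
      ext w; simp
    rwa [e] at h2
  have h3 := hI.cylinder {v} hc (fun _ => b)
  have h4 : {σ : V → Bool | ∀ w ∈ ({v} : Finset V), σ w = (fun _ => b) w} = {σ | σ v = b} := by
    ext σ; simp
  rw [h4] at h3
  have h5 : 0 < μ.real {σ | σ v = b} := by
    rw [h3]
    refine mul_pos (by norm_num) (Finset.prod_pos fun e _ => ?_)
    have h6 : |pairSpin (fun _ : V => b) e| ≤ 1 := by
      induction e using Sym2.ind with
      | _ x y =>
        simp only [pairSpin, Sym2.lift_mk]
        rw [abs_mul, abs_spin]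
        norm_num
    have h7 := abs_le.1 h6
    have h8 : -θ ≤ θ * pairSpin (fun _ : V => b) e := by nlinarith [h7.1]
    linarith
  by_contra h6
  have h7 : μ {σ | σ v = b} = 0 := by simpa using h6
  rw [Measure.real, h7] at h5
  simp at h5

theorem one_sub_spin_pos (hI : IsFreeIsing G θ μ) (h0 : 0 ≤ θ) (h1 : θ < 1) (v : V)
    {f : (V → Bool) → ℝ} (hf : Loc f) (hpos : ∀ σ, 0 < f σ) (s : ℝ) (hs : s = 1 ∨ s = -1) :
    0 < ∫ σ, f σ * (1 - s * spin (σ v)) ∂μ := by
  have := hI.isProb
  have hloc : Loc fun σ : V → Bool => f σ * (1 - s * spin (σ v)) :=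
    hf.mul ((Loc.const 1).sub ((Loc.coord v).const_mul s))
  refine (integral_pos_iff_support_of_nonneg (fun σ => ?_) (hloc.integrable μ)).2 ?_
  · have h2 := spin_le_one (σ v)
    have h3 := neg_one_le_spin (σ v)
    have h4 : 0 ≤ 1 - s * spin (σ v) := by
      rcases hs with rfl | rfl <;> linarith
    exact mul_nonneg (hpos σ).le h4
  · rcases hs with rfl | rfl
    · refine lt_of_lt_of_le (spin_set_pos hI h0 h1 v false) (measure_mono ?_)
      intro σ hσ
      simp only [Set.mem_ofPred_eq] at hσ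
      simp only [Function.mem_support, hσ, spin]
      exact mul_ne_zero (hpos σ).ne' (by norm_num)
    · refine lt_of_lt_of_le (spin_set_pos hI h0 h1 v true) (measure_mono ?_)
      intro σ hσ
      simp only [Set.mem_ofPred_eq] at hσ
      simp only [Function.mem_support, hσ, spin]
      exact mul_ne_zero (hpos σ).ne' (by norm_num)

theorem ap_lt (hI : IsFreeIsing G θ μ) (h0 : 0 ≤ θ) (h1 : θ < 1) (A : Finset V) (k : ℕ) (t : ℝ)
    (a : V) (η : Om V) : |ap μ A k t a η| < 1 := by
  have := hI.isProb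
  have hz : 0 < Zp μ A k t η := Zp_pos' A k t η
  have hi1 : Integrable (wA A k t η) μ := (wA_loc A k t η).integrable μ
  have hi2 : Integrable (fun σ => wA A k t η σ * spin (σ a)) μ :=
    ((wA_loc A k t η).mul (Loc.coord a)).integrable μ
  have key : ∀ s : ℝ, (s = 1 ∨ s = -1) →
      0 < Zp μ A k t η - s * ∫ σ, wA A k t η σ * spin (σ a) ∂μ := by
    intro s hs
    have h2 := one_sub_spin_pos hI h0 h1 a (wA_loc A k t η) (wA_pos A k t η) s hs
    have h3 : ∀ σ, wA A k t η σ * (1 - s * spin (σ a))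
        = wA A k t η σ - s * (wA A k t η σ * spin (σ a)) := fun σ => by ring
    simp only [h3] at h2
    rwa [integral_sub hi1 (hi2.const_mul s), integral_const_mul] at h2
  have k1 := key 1 (Or.inl rfl)
  have k2 := key (-1) (Or.inr rfl)
  rw [ap_def, abs_div, abs_of_pos hz, div_lt_one hz, abs_lt]
  constructor <;> linarith

/-! ## Splitting at an edge -/

open Classical in
theorem split_ap [Countable V] (hG : G.IsTree) (hI : IsFreeIsing G θ μ) {q z : V} (hqz : G.Adj q z) (Λ : Finset V) (k : ℕ) (t : ℝ) (η : Om V) :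
    ap μ Λ k t z η = (ap μ (Λ.filter fun u => G.dist z u < G.dist q u) k t z η
        + θ * ap μ (Λ.filter fun u => G.dist q u < G.dist z u) k t q η)
      / (1 + θ * ap μ (Λ.filter fun u => G.dist z u < G.dist q u) k t z η
        * ap μ (Λ.filter fun u => G.dist q u < G.dist z u) k t q η) ∧
    ap μ Λ k t q η = (ap μ (Λ.filter fun u => G.dist q u < G.dist z u) k t q η
        + θ * ap μ (Λ.filter fun u => G.dist z u < G.dist q u) k t z η)
      / (1 + θ * ap μ (Λ.filter fun u => G.dist z u < G.dist q u) k t z η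
        * ap μ (Λ.filter fun u => G.dist q u < G.dist z u) k t q η) := by
  have hpr := hI.isProb
  set A := Λ.filter fun u => G.dist z u < G.dist q u with hA
  set B := Λ.filter fun u => G.dist q u < G.dist z u with hB
  have hAB : ∀ σ, wA Λ k t η σ = wA A k t η σ * wA B k t η σ := by
    intro σ
    have hd : Disjoint A B := by
      rw [Finset.disjoint_left]
      intro u hu hu'
      rw [hA, Finset.mem_filter] at hu
      rw [hB, Finset.mem_filter] at hu'
      omega
    have hU : Λ = A ∪ B := by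
      ext u
      rw [Finset.mem_union, hA, hB, Finset.mem_filter, Finset.mem_filter]
      constructor
      · intro hu
        have h2 := hG.dist_ne_of_adj u hqz
        have s1 : G.dist q u = G.dist u q := SimpleGraph.dist_comm
        have s2 : G.dist z u = G.dist u z := SimpleGraph.dist_comm
        rcases lt_or_gt_of_ne h2 with h3 | h3
        · exact Or.inr ⟨hu, by omega⟩
        · exact Or.inl ⟨hu, by omega⟩
      · rintro (h | h) <;> exact h.1
    unfold wA
    rw [hU, Finset.prod_union hd]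
  have hSz : ∀ x ∈ A ∪ {z}, G.dist x z < G.dist x q := by
    intro x hx
    have s1 : G.dist q x = G.dist x q := SimpleGraph.dist_comm
    have s2 : G.dist z x = G.dist x z := SimpleGraph.dist_comm
    rcases Finset.mem_union.1 hx with hx | hx
    · rw [hA, Finset.mem_filter] at hx
      omega
    · rw [Finset.mem_singleton.1 hx, SimpleGraph.dist_self]
      exact hG.connected.pos_dist_of_ne hqz.ne.symm
  have hTq : ∀ x ∈ B ∪ {q}, G.dist x q < G.dist x z := by
    intro x hx
    have s1 : G.dist q x = G.dist x q := SimpleGraph.dist_comm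
    have s2 : G.dist z x = G.dist x z := SimpleGraph.dist_comm
    rcases Finset.mem_union.1 hx with hx | hx
    · rw [hB, Finset.mem_filter] at hx
      omega
    · rw [Finset.mem_singleton.1 hx, SimpleGraph.dist_self]
      exact hG.connected.pos_dist_of_ne hqz.ne
  have depA : DependsOn (wA A k t η) ((A ∪ {z} : Finset V) : Set V) := fun x y h =>
    wA_dep A k t η fun i hi => h i (Finset.mem_coe.2 (Finset.mem_union_left _ hi))
  have depB : DependsOn (wA B k t η) ((B ∪ {q} : Finset V) : Set V) := fun x y h =>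
    wA_dep B k t η fun i hi => h i (Finset.mem_coe.2 (Finset.mem_union_left _ hi))
  have depAz : DependsOn (fun σ : V → Bool => wA A k t η σ * spin (σ z))
      ((A ∪ {z} : Finset V) : Set V) := by
    intro x y h
    have e1 := depA h
    have e2 := h z (by simp)
    simp only [e1, e2]
  have depBq : DependsOn (fun σ : V → Bool => wA B k t η σ * spin (σ q))
      ((B ∪ {q} : Finset V) : Set V) := by
    intro x y h
    have e1 := depB h
    have e2 := h q (by simp)
    simp only [e1, e2]
  have sq : ∀ (f : (V → Bool) → ℝ) (v : V),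
      (fun s : V → Bool => f s * spin (s v) * spin (s v)) = f := by
    intro f v
    ext s
    rw [mul_assoc, spin_mul_self, mul_one]
  set ZA := Zp μ A k t η with hZA
  set ZB := Zp μ B k t η with hZB
  set NA := ∫ σ, wA A k t η σ * spin (σ z) ∂μ with hNA
  set NB := ∫ σ, wA B k t η σ * spin (σ q) ∂μ with hNB
  have e1 : Zp μ Λ k t η = ZA * ZB + θ * NA * NB := by
    rw [Zp_def]
    simp only [hAB]
    exact edge_split hG hI hqz.symm hSz hTq depA depB
  have e2 : ∫ σ, wA Λ k t η σ * spin (σ z) ∂μ = NA * ZB + θ * ZA * NB := by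
    have h2 := edge_split hG hI hqz.symm hSz hTq depAz depB
    rw [sq (wA A k t η) z] at h2
    refine Eq.trans ?_ h2
    refine integral_congr_ae (Filter.Eventually.of_forall fun σ => ?_)
    simp only [hAB]
    ring
  have e3 : ∫ σ, wA Λ k t η σ * spin (σ q) ∂μ = ZA * NB + θ * NA * ZB := by
    have h2 := edge_split hG hI hqz.symm hSz hTq depA depBq
    rw [sq (wA B k t η) q] at h2
    refine Eq.trans ?_ h2
    refine integral_congr_ae (Filter.Eventually.of_forall fun σ => ?_)
    simp only [hAB]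
    ring
  have pZA : 0 < ZA := Zp_pos' A k t η
  have pZB : 0 < ZB := Zp_pos' B k t η
  have pZ : 0 < ZA * ZB + θ * NA * NB := e1 ▸ Zp_pos' Λ k t η
  rw [ap_def Λ k t z, ap_def Λ k t q, ap_def A k t z, ap_def B k t q, e1, e2, e3]
  have hden : 1 + θ * (NA / ZA) * (NB / ZB) = (ZA * ZB + θ * NA * NB) / (ZA * ZB) := by
    field_simp
  rw [← hZA, ← hZB, ← hNA, ← hNB, hden]
  constructor
  · field_simp
  · field_simp

open Classical in
theorem ms_eq [Countable V] (hM : MSG) (hG : G.IsTree) (hI : IsFreeIsing G θ μ) (h0 : 0 ≤ θ)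
    (h1 : θ ^ 2 ≤ 1 / 2) {q z : V} (hqz : G.Adj q z) (Λ : Finset V) (k : ℕ) (t : ℝ) (η : Om V) :
    ms θ (fun v => ap μ Λ k t v η) z q
      = ap μ (Λ.filter fun u => G.dist z u < G.dist q u) k t z η := by
  have hlt : θ < 1 := by nlinarith
  have h2 := split_ap hG hI hqz Λ k t η
  unfold ms
  simp only
  rw [h2.1, h2.2]
  exact hM.inv θ _ _ h0 h1 (ap_lt hI h0 hlt _ k t z η) (ap_lt hI h0 hlt _ k t q η)

/-! ## Geometry -/

theorem step_dist (hG : G.IsTree) {p x c u : V} (hp : G.Adj p x) (hc : G.Adj x c) (hne : c ≠ p)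
    (hu : G.dist c u < G.dist x u) : G.dist x u < G.dist p u ∧ G.dist p u = G.dist x u + 1 := by
  have s1 : G.dist c u = G.dist u c := SimpleGraph.dist_comm
  have s2 : G.dist x u = G.dist u x := SimpleGraph.dist_comm
  have s3 : G.dist p u = G.dist u p := SimpleGraph.dist_comm
  have h1 : u ∈ Cone G x c := by
    simp only [Cone, Set.mem_ofPred_eq]
    omega
  have h2 := cone_sub hG hp hc hne h1
  simp only [Cone, Set.mem_ofPred_eq] at h2
  have h3 := hG.dist_eq_dist_add_one_of_adj u hp
  omega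

theorem mem_sd_iff [G.LocallyFinite] (hG : G.Connected) (p x : V) (n : ℕ) (u : V) :
    u ∈ sd G hG p x n ↔ G.dist p u ≤ n ∧ G.dist x u < G.dist p u := by
  classical
  unfold sd
  rw [Finset.mem_filter, mem_ballF]

theorem sd_sub [G.LocallyFinite] (hG : G.IsTree) {p x c : V} (hp : G.Adj p x) (hc : G.Adj x c)
    (hne : c ≠ p) (n : ℕ) : sd G hG.connected x c n ⊆ sd G hG.connected p x (n + 1) := by
  intro u hu
  rw [mem_sd_iff] at hu ⊢
  have h1 := step_dist hG hp hc hne hu.2
  omega

/-! ## The path averages -/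

theorem Zf_eq [Countable V] [G.LocallyFinite] (hM : MSG) (hG : G.IsTree)
    (hI : IsFreeIsing G θ μ) (h0 : 0 ≤ θ) (h1 : θ ^ 2 ≤ 1 / 2) (D : ℕ) (r y : ℝ)
    (Λ : Finset V) (k : ℕ) (t : ℝ) (η : Om V) :
    ∀ (l n : ℕ), l ≤ n → ∀ q z, G.Adj q z →
      (∀ u, G.dist z u < G.dist q u → (u ∈ Λ ↔ G.dist q u ≤ n)) →
      Zf G D θ r y (fun v => ap μ Λ k t v η) l q z = zp G hG.connected D r y μ k t n l q z η := by
  classical
  intro l
  induction l with
  | zero =>
    intro n _ q z _ _
    cases n <;> simp [Zf, zp]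
  | succ l ih =>
    intro n hn q z hqz hΛ
    obtain ⟨n, rfl⟩ : ∃ m, n = m + 1 := ⟨n - 1, by omega⟩
    simp only [Zf, zp]
    congr 1
    refine Finset.sum_congr rfl fun c hc => ?_
    rw [Finset.mem_erase, SimpleGraph.mem_neighborFinset] at hc
    have hstep : ∀ u, G.dist c u < G.dist z u → (u ∈ Λ ↔ G.dist z u ≤ n) := by
      intro u hu
      have h2 := step_dist hG hqz hc.2 hc.1 hu
      rw [hΛ u h2.1, h2.2]
      omega
    have hms := ms_eq hM hG hI h0 h1 hc.2 Λ k t η
    have hset : Λ.filter (fun u => G.dist c u < G.dist z u) = sd G hG.connected z c n := by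
      ext u
      rw [mem_sd_iff, Finset.mem_filter]
      constructor
      · rintro ⟨h2, h3⟩
        exact ⟨(hstep u h3).1 h2, h3⟩
      · rintro ⟨h2, h3⟩
        exact ⟨(hstep u h3).2 h2, h3⟩
    rw [hms, hset, ih n (by omega) z c hc.2 hstep]

/-! ## Dependence on the labels -/

theorem wt_congr' {k : ℕ} {t : ℝ} {v : V} {η η' : Om V} (h1 : η.1 = η'.1)
    (h2 : ∀ i : ℤ, η.2 (v, i) = η'.2 (v, i)) (s : ℝ) : wt k t v η s = wt k t v η' s := by
  obtain ⟨o, Y⟩ := η
  obtain ⟨o', Y'⟩ := η'
  simp only at h1 h2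
  subst h1
  unfold wt
  simp only [h2]

theorem ap_congr {A : Finset V} {k : ℕ} {t : ℝ} {η η' : Om V} (h1 : η.1 = η'.1)
    (h2 : ∀ e : V × ℤ, e.1 ∈ A → η.2 e = η'.2 e) (a : V) : ap μ A k t a η = ap μ A k t a η' := by
  have h3 : ∀ σ : V → Bool, ∏ v ∈ A, wt k t v η (spin (σ v)) = ∏ v ∈ A, wt k t v η' (spin (σ v)) :=
    fun σ => Finset.prod_congr rfl fun v hv => wt_congr' h1 (fun i => h2 (v, i) hv) _
  unfold ap Zp
  simp only [h3]

theorem zp_congr [G.LocallyFinite] (hG : G.IsTree) (D : ℕ) (r y : ℝ) (k : ℕ) (t : ℝ)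
    {η η' : Om V} (h1 : η.1 = η'.1) :
    ∀ (l n : ℕ) (p x : V), G.Adj p x →
      (∀ e : V × ℤ, e.1 ∈ sd G hG.connected p x n → η.2 e = η'.2 e) →
      zp G hG.connected D r y μ k t n l p x η = zp G hG.connected D r y μ k t n l p x η' := by
  classical
  intro l
  induction l with
  | zero =>
    intro n p x _ _
    cases n <;> simp [zp]
  | succ l ih =>
    intro n p x hpx h2
    cases n with
    | zero => simp [zp]
    | succ n =>
      simp only [zp]
      congr 1
      refine Finset.sum_congr rfl fun c hc => ?_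
      rw [Finset.mem_erase, SimpleGraph.mem_neighborFinset] at hc
      have h3 : ∀ e : V × ℤ, e.1 ∈ sd G hG.connected x c n → η.2 e = η'.2 e := fun e he =>
        h2 e (sd_sub hG hpx hc.2 hc.1 n he)
      rw [ap_congr h1 h3, ih n x c hc.2 h3]

/-! ## Integrating out the other labels -/

theorem lintegral_dens [IsProbabilityMeasure μ] (hC : CHAN) (Y : Cfg V) (e : V × ℤ)
    (l : List (V × ℤ)) :
    ∫⁻ x : unitInterval, ENNReal.ofReal (1 + amp e.2 * ml μ Y l e.1 * (2 * (x : ℝ) - 1)) = 1 := by
  have h := lintegral_qI hC (amp_ml_abs (μ := μ) Y e l) (g := fun _ => 1) measurable_const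
  simp only [one_mul, lintegral_one, measure_univ] at h
  exact h.symm

open Classical in
theorem marg_cons [IsProbabilityMeasure μ] (hC : CHAN) {e : V × ℤ} {l : List (V × ℤ)}
    (h : e ∉ l) {F : Cfg V → ENNReal} (hF : Measurable F)
    (hd : ∀ (Y : Cfg V) (x : unitInterval), F (Function.update Y e x) = F Y) :
    ∫⁻ Y, F Y * ENNReal.ofReal (zl μ Y (e :: l)) ∂(Pc V)
      = ∫⁻ Y, F Y * ENNReal.ofReal (zl μ Y l) ∂(Pc V) := by
  rw [lintegral_update e (f := fun Y => F Y * ENNReal.ofReal (zl μ Y (e :: l)))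
      (hF.mul (measurable_zl (μ := μ) (e :: l)).ennreal_ofReal)]
  refine lintegral_congr fun Y => ?_
  have hup : ∀ x : unitInterval, ∀ f ∈ l, Function.update Y e x f = Y f := by
    intro x f hf
    have h' : f ≠ e := by
      rintro rfl
      exact h hf
    exact Function.update_of_ne h' _ _
  have h2 : ∀ x : unitInterval, F (Function.update Y e x)
      * ENNReal.ofReal (zl μ (Function.update Y e x) (e :: l))
      = (F Y * ENNReal.ofReal (zl μ Y l))
        * ENNReal.ofReal (1 + amp e.2 * ml μ Y l e.1 * (2 * (x : ℝ) - 1)) := by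
    intro x
    rw [zl_cons, zl_congr (μ := μ) (hup x), ml_congr (μ := μ) (hup x), Function.update_self,
      ENNReal.ofReal_mul (zl_pos Y l).le, hd]
    ring
  rw [lintegral_congr h2, lintegral_const_mul _ (by fun_prop), lintegral_dens hC, mul_one]

theorem zl_perm {Y : Cfg V} {l l' : List (V × ℤ)} (h : l.Perm l') : zl μ Y l = zl μ Y l' := by
  unfold zl wl
  refine integral_congr_ae (Filter.Eventually.of_forall fun σ => ?_)
  exact (h.map _).prod_eq

open Classical in
theorem marg_union [IsProbabilityMeasure μ] (hC : CHAN) {F : Cfg V → ENNReal} (hF : Measurable F)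
    (E E₂ : Finset (V × ℤ)) :
    Disjoint E₂ E → (∀ e ∈ E₂, ∀ (Y : Cfg V) (x : unitInterval), F (Function.update Y e x) = F Y) →
    ∫⁻ Y, F Y * ENNReal.ofReal (zl μ Y (E₂ ∪ E).toList) ∂(Pc V)
      = ∫⁻ Y, F Y * ENNReal.ofReal (zl μ Y E.toList) ∂(Pc V) := by
  induction E₂ using Finset.induction_on with
  | empty =>
    intro _ _
    simp
  | insert e E₂ he ih =>
    intro h1 h2
    have h3 : e ∉ E₂ ∪ E := by
      rw [Finset.mem_union]
      rintro (h4 | h4)
      · exact he h4
      · exact Finset.disjoint_left.1 h1 (Finset.mem_insert_self e E₂) h4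
    have h5 : ∀ Y : Cfg V, zl μ Y ((insert e E₂) ∪ E).toList
        = zl μ Y (e :: (E₂ ∪ E).toList) := by
      intro Y
      rw [Finset.insert_union]
      exact zl_perm (Finset.toList_insert h3)
    simp only [h5]
    rw [marg_cons hC (by rwa [Finset.mem_toList]) hF (h2 e (Finset.mem_insert_self e E₂))]
    exact ih (h1.mono_left (Finset.subset_insert e E₂))
      fun f hf => h2 f (Finset.mem_insert_of_mem hf)

theorem Zp_toList (A : Finset V) (k : ℕ) (t : ℝ) (η : Om V) :
    Zp μ A k t η = zl μ η.2 (evs A k t η.1).toList := by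
  rw [Zp_eq, evl_eq]
  exact zl_perm (srt_perm _ _)

open Classical in
/-- integrate out the labels outside `A` -/
theorem marg [Countable V] [IsProbabilityMeasure μ] (hC : CHAN) {A Λ : Finset V} (hA : A ⊆ Λ)
    (k : ℕ) (t : ℝ) {F : Om V → ENNReal} (hF : Measurable F)
    (hd : ∀ η η' : Om V, η.1 = η'.1 → (∀ e : V × ℤ, e.1 ∈ A → η.2 e = η'.2 e) → F η = F η') :
    ∫⁻ η, F η * ENNReal.ofReal (Zp μ Λ k t η) ∂(Pm V)
      = ∫⁻ η, F η * ENNReal.ofReal (Zp μ A k t η) ∂(Pm V) := by
  have h1 : ∀ B : Finset V, Measurable fun η : Om V => F η * ENNReal.ofReal (Zp μ B k t η) :=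
    fun B => hF.mul (measurable_ZpP (μ := μ) B k t).ennreal_ofReal
  unfold Pm
  rw [lintegral_prod _ (h1 Λ).aemeasurable, lintegral_prod _ (h1 A).aemeasurable]
  refine lintegral_congr fun o => ?_
  simp only [Zp_toList]
  have h2 : evs Λ k t o = (evs Λ k t o \ evs A k t o) ∪ evs A k t o := by
    rw [Finset.sdiff_union_of_subset]
    intro e he
    rw [mem_evs] at he ⊢
    exact ⟨hA he.1, he.2⟩
  rw [h2]
  refine marg_union (F := fun Y => F (o, Y)) hC (hF.comp (measurable_const.prodMk measurable_id))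
    (evs A k t o) _ Finset.sdiff_disjoint ?_
  intro e he Y x
  refine hd _ _ rfl ?_
  intro f hf
  simp only
  refine Function.update_of_ne ?_ _ _
  rintro rfl
  rw [Finset.mem_sdiff, mem_evs, mem_evs] at he
  exact he.2 ⟨hf, he.1.2⟩

/-- module PROCLAW -/
theorem proclaw_proof (hC : CHAN) (hM : MSG) (hT : TREELAW.{u}) : PROCLAW.{u} := by
  classical
  intro V _ G _ D θ r y μ hE hI hr hy k t l R hl p x hpx
  have hpr := hI.ising.isProb
  have hθ : θ ^ 2 ≤ 1 / 2 := by
    have h1 := hI.h1
    have h2 : (2 : ℝ) ≤ D := by exact_mod_cast hE.hD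
    nlinarith [sq_nonneg θ]
  obtain ⟨hm1, hm2, hlaw⟩ := hT V G D θ r y μ hE hI hr hy k t l R hl p x hpx
  set Λ := ballF G hE.tree.connected p R with hΛ
  set A := sd G hE.tree.connected p x R with hA
  have hAΛ : A ⊆ Λ := by
    intro u hu
    rw [hA, mem_sd_iff] at hu
    rw [hΛ, mem_ballF]
    exact hu.1
  -- the means are functions of the signals
  have hmk : ∀ v (ω : Om V), mk μ Λ k t v ω = ap μ Λ k t v (Yp μ Λ k t ω) := by
    intro v ω
    unfold mk mean stt
    rw [ap_def, ← integral_div]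
    refine integral_congr_ae (Filter.Eventually.of_forall fun σ => ?_)
    simp only
    rw [dn_eq hC ω.2 _ (nodup_evl Λ k t ω.1) σ, wA_eq, Zp_eq]
    simp only [Yp]
    ring
  have hpair : ∀ ω : Om V,
      (ms θ (fun v => mk μ Λ k t v ω) x p, Zf G D θ r y (fun v => mk μ Λ k t v ω) l p x)
      = (fun η => (ap μ A k t x η, zp G hE.tree.connected D r y μ k t R l p x η))
        (Yp μ Λ k t ω) := by
    intro ω
    simp only [hmk]
    have h3 := ms_eq hM hE.tree hI.ising hI.h0 hθ hpx Λ k t (Yp μ Λ k t ω)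
    have h4 := Zf_eq hM hE.tree hI.ising hI.h0 hθ D r y Λ k t (Yp μ Λ k t ω) l R hl p x hpx
      (fun u _ => by rw [hΛ, mem_ballF])
    rw [h3, h4]
    have h5 : Λ.filter (fun u => G.dist x u < G.dist p u) = A := by
      ext u
      rw [hA, mem_sd_iff, Finset.mem_filter, hΛ, mem_ballF]
    rw [h5]
  have hH : Measurable fun η : Om V =>
      (ap μ A k t x η, zp G hE.tree.connected D r y μ k t R l p x η) := hm1.prodMk hm2
  have hY := measurable_Yp (μ := μ) hC Λ k t
  simp only [hpair]
  rw [show (fun ω : Om V => (fun η => (ap μ A k t x η,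
      zp G hE.tree.connected D r y μ k t R l p x η)) (Yp μ Λ k t ω))
      = (fun η => (ap μ A k t x η, zp G hE.tree.connected D r y μ k t R l p x η))
        ∘ (Yp μ Λ k t) from rfl, ← Measure.map_map hH hY, Yp_map hC, ← hlaw]
  refine Measure.ext_of_lintegral _ fun g hg => ?_
  have hg' : Measurable fun η : Om V => g (ap μ A k t x η,
      zp G hE.tree.connected D r y μ k t R l p x η) := hg.comp hH
  rw [lintegral_map hg hH, lintegral_map hg hH,
    lintegral_withDensity_eq_lintegral_mul _ (measurable_ZpP (μ := μ) Λ k t).ennreal_ofReal hg',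
    lintegral_withDensity_eq_lintegral_mul _ (measurable_ZpP (μ := μ) A k t).ennreal_ofReal hg']
  simp only [Pi.mul_apply]
  have key := marg (μ := μ) hC hAΛ k t
    (F := fun η => g (ap μ A k t x η, zp G hE.tree.connected D r y μ k t R l p x η))
    (hg.comp hH) (by
      intro η η' h1 h2
      rw [ap_congr h1 h2, zp_congr hE.tree D r y k t h1 l R p x hpx h2])
  simp only [mul_comm (ENNReal.ofReal _)]
  exact key

end P161C
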