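import Vale.Agent.P161C.Mods
import Mathlib.Probability.Independence.InfinitePi

/-!
# P161C module SHP: the label space
-/

open MeasureTheory Set Filter Topology

namespace P161C

open P161

universe u

namespace Shp

variable {V : Type u}

local instance : IsProbabilityMeasure (Pc V) := by unfold Pc; infer_instance
local instance : IsProbabilityMeasure (Pm V) := by unfold Pm; infer_instance

/-- merge the two families of labels -/
def merge (ω : Om V) : V × (ℤ × Bool) → unitInterval :=
  fun p => if p.2.2 then ω.1 (p.1, p.2.1) else ω.2 (p.1, p.2.1)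

/-- split -/
def split (x : V × (ℤ × Bool) → unitInterval) : Om V :=
  (fun e => x (e.1, (e.2, true)), fun e => x (e.1, (e.2, false)))

theorem split_merge (ω : Om V) : split (merge ω) = ω := by
  unfold split merge
  simp

theorem measurable_merge : Measurable (merge (V := V)) := by
  refine measurable_pi_lambda _ fun p => ?_
  unfold merge
  by_cases h : p.2.2
  · simp only [h, if_true]
    exact (measurable_pi_apply _).comp measurable_fst
  · simp only [h]
    exact (measurable_pi_apply _).comp measurable_snd

theorem measurable_split : Measurable (split (V := V)) := by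
  unfold split
  refine Measurable.prodMk ?_ ?_
  · exact measurable_pi_lambda _ fun e => measurable_pi_apply _
  · exact measurable_pi_lambda _ fun e => measurable_pi_apply _

theorem merge_law : (Pm V).map merge
    = Measure.infinitePi (fun _ : V × (ℤ × Bool) => (volume : Measure unitInterval)) := by
  classical
  refine Measure.eq_infinitePi _ fun s t ht => ?_
  rw [Measure.map_apply measurable_merge (MeasurableSet.pi s.countable_toSet fun i _ => ht i)]
  set it : V × ℤ → V × (ℤ × Bool) := fun e => (e.1, (e.2, true)) with hit
  set jf : V × ℤ → V × (ℤ × Bool) := fun e => (e.1, (e.2, false)) with hjf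
  have it_inj : Function.Injective it := by
    rintro ⟨a, b⟩ ⟨c, d⟩ h
    simp only [hit, Prod.mk.injEq] at h
    simp [h.1, h.2.1]
  have jf_inj : Function.Injective jf := by
    rintro ⟨a, b⟩ ⟨c, d⟩ h
    simp only [hjf, Prod.mk.injEq] at h
    simp [h.1, h.2.1]
  set s₁ : Finset (V × ℤ) := s.preimage it it_inj.injOn with hs₁
  set s₂ : Finset (V × ℤ) := s.preimage jf jf_inj.injOn with hs₂
  have hpre : merge (V := V) ⁻¹' ((s : Set (V × (ℤ × Bool))).pi t)
      = ((s₁ : Set (V × ℤ)).pi fun e => t (it e)) ×ˢ ((s₂ : Set (V × ℤ)).pi fun e => t (jf e)) := by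
    ext ω
    simp only [mem_preimage, Set.mem_pi, Finset.mem_coe, mem_prod, hs₁, hs₂,
      Finset.mem_preimage]
    constructor
    · intro h
      refine ⟨fun e he => ?_, fun e he => ?_⟩
      · have := h (it e) he
        simpa [merge, hit] using this
      · have := h (jf e) he
        simpa [merge, hjf] using this
    · rintro ⟨h1, h2⟩ ⟨a, b, c⟩ hp
      cases c
      · have := h2 (a, b) hp
        simpa [merge] using this
      · have := h1 (a, b) hp
        simpa [merge] using this
  have e1 : Pc V ((s₁ : Set (V × ℤ)).pi fun e => t (it e)) = ∏ e ∈ s₁, volume (t (it e)) := by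
    unfold Pc
    exact Measure.infinitePi_pi _ fun i _ => ht _
  have e2 : Pc V ((s₂ : Set (V × ℤ)).pi fun e => t (jf e)) = ∏ e ∈ s₂, volume (t (jf e)) := by
    unfold Pc
    exact Measure.infinitePi_pi _ fun i _ => ht _
  rw [hpre]
  unfold Pm
  rw [Measure.prod_prod, e1, e2]
  have h1 : ∏ e ∈ s₁, (volume : Measure unitInterval) (t (it e))
      = ∏ p ∈ s.filter (fun p => p.2.2 = true), (volume : Measure unitInterval) (t p) := by
    rw [← Finset.prod_image (g := it) (f := fun p => (volume : Measure unitInterval) (t p))
      (fun a _ b _ h => it_inj h)]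
    refine Finset.prod_congr ?_ fun _ _ => rfl
    ext ⟨a, b, c⟩
    simp only [Finset.mem_image, hs₁, Finset.mem_preimage, Finset.mem_filter, hit, Prod.mk.injEq]
    constructor
    · rintro ⟨e, he, rfl, rfl, rfl⟩
      exact ⟨he, rfl⟩
    · rintro ⟨h, rfl⟩
      exact ⟨(a, b), h, rfl, rfl, rfl⟩
  have h2 : ∏ e ∈ s₂, (volume : Measure unitInterval) (t (jf e))
      = ∏ p ∈ s.filter (fun p => ¬ p.2.2 = true), (volume : Measure unitInterval) (t p) := by
    rw [← Finset.prod_image (g := jf) (f := fun p => (volume : Measure unitInterval) (t p))
      (fun a _ b _ h => jf_inj h)]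
    refine Finset.prod_congr ?_ fun _ _ => rfl
    ext ⟨a, b, c⟩
    simp only [Finset.mem_image, hs₂, Finset.mem_preimage, Finset.mem_filter, hjf, Prod.mk.injEq]
    constructor
    · rintro ⟨e, he, rfl, rfl, rfl⟩
      exact ⟨he, by simp⟩
    · rintro ⟨h, hc⟩
      have hc' : c = false := by simpa using hc
      subst hc'
      exact ⟨(a, b), h, rfl, rfl, rfl⟩
  rw [h1, h2]
  exact Finset.prod_filter_mul_prod_filter_not s (fun p => p.2.2 = true)
    (fun p => (volume : Measure unitInterval) (t p))

theorem split_law : (Measure.infinitePi
    (fun _ : V × (ℤ × Bool) => (volume : Measure unitInterval))).map split = Pm V := by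
  rw [← merge_law, Measure.map_map measurable_split measurable_merge]
  have : split ∘ merge (V := V) = id := by
    funext ω
    exact split_merge ω
  rw [this, Measure.map_id]

theorem shc_law {G : SimpleGraph V} (g : G ≃g G) :
    Measurable (shc g) ∧ (Pc V).map (shc g) = Pc V := by
  constructor
  · exact measurable_pi_lambda _ fun e => measurable_pi_apply _
  · have hinj : Function.Injective (fun e : V × ℤ => (g.symm e.1, e.2)) := by
      rintro ⟨a, b⟩ ⟨c, d⟩ h
      simp only [Prod.mk.injEq, EmbeddingLike.apply_eq_iff_eq] at h
      simp [h.1, h.2]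
    unfold Pc
    have := Measure.map_infinitePi_infinitePi_of_inj
      (P := fun _ : V × ℤ => (volume : Measure unitInterval)) hinj
    exact this

end Shp

open Shp

theorem shp_proof : SHP.{u} := by
  intro V _ G
  haveI : IsProbabilityMeasure (Pc V) := by unfold Pc; infer_instance
  haveI : IsProbabilityMeasure (Pm V) := by unfold Pm; infer_instance
  refine ⟨inferInstance, fun g => ?_, ?_⟩
  · obtain ⟨h1, h2⟩ := shc_law g
    constructor
    · exact Measurable.prodMk (h1.comp measurable_fst) (h1.comp measurable_snd)
    · have h3 : (sh g : Om V → Om V) = Prod.map (shc g) (shc g) := rfl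
      unfold Pm
      rw [h3, ← Measure.map_prod_map _ _ h1 h1, h2]
  · obtain ⟨f, hf, hflaw⟩ := MeasureTheory.Measure.exists_measurable_map_eq
      (Measure.infinitePi (fun _ : ℤ × Bool => (volume : Measure unitInterval)))
    have hfm : ∀ p : ℤ × Bool, Measurable fun x => f x p := fun p =>
      (measurable_pi_apply p).comp hf
    refine ⟨fun U => (fun e => f (U e.1) (e.2, true), fun e => f (U e.1) (e.2, false)),
      ?_, ?_, fun g U => rfl⟩
    · refine Measurable.prodMk ?_ ?_
      · exact measurable_pi_lambda _ fun e => (hfm _).comp (measurable_pi_apply _)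
      · exact measurable_pi_lambda _ fun e => (hfm _).comp (measurable_pi_apply _)
    · have hF1 : Measurable fun (U : V → unitInterval) (v : V) => f (U v) :=
        measurable_pi_lambda _ fun v => hf.comp (measurable_pi_apply v)
      have h1 : (labelLaw V).map (fun U v => f (U v)) = Measure.infinitePi (fun _ : V =>
          Measure.infinitePi (fun _ : ℤ × Bool => (volume : Measure unitInterval))) := by
        unfold labelLaw
        rw [Measure.infinitePi_map_pi (μ := fun _ : V => (volume : Measure unitInterval))
          (f := fun _ => f) (fun _ => hf)]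
        congr 1
        funext v
        exact hflaw
      have h2 := Measure.infinitePi_map_curry_symm
        (fun (_ : V) (_ : ℤ × Bool) => (volume : Measure unitInterval))
      have hF2 : Measurable fun (x : V → (ℤ × Bool → unitInterval)) (p : V × (ℤ × Bool)) =>
          x p.1 p.2 := measurable_pi_lambda _ fun p =>
            (measurable_pi_apply p.2).comp (measurable_pi_apply p.1)
      have h3 : (Measure.infinitePi (fun _ : V =>
          Measure.infinitePi (fun _ : ℤ × Bool => (volume : Measure unitInterval)))).map
          (fun (x : V → (ℤ × Bool → unitInterval)) (p : V × (ℤ × Bool)) => x p.1 p.2)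
          = Measure.infinitePi (fun _ : V × (ℤ × Bool) => (volume : Measure unitInterval)) := h2
      rw [← split_law, ← h3, ← h1, Measure.map_map hF2 hF1,
        Measure.map_map measurable_split (hF2.comp hF1)]
      rfl

end P161C
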