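import Vale.Agent.P161C.Mods

/-!
# P161 at the critical point: the law of the local signals
-/

open MeasureTheory Set Filter Topology

namespace P161C

open P161

/-! ## Scales -/

theorem sf_scal_pos (j : ℤ) : 0 < scal j := by unfold scal; positivity

theorem sf_scal_le_one (j : ℤ) : scal j ≤ 1 := by
  unfold scal
  calc (2 : ℝ) ^ (min j 0) ≤ 2 ^ (0 : ℤ) := zpow_le_zpow_right₀ (by norm_num) (min_le_right _ _)
    _ = 1 := by simp

theorem sf_amp_pos (j : ℤ) : 0 < amp j := by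
  unfold amp
  have := sf_scal_pos j
  linarith

theorem sf_amp_le (j : ℤ) : amp j ≤ 1 / 8 := by
  unfold amp
  have := sf_scal_le_one j
  linarith

theorem sf_pr_nonneg (i : ℤ) (t : ℝ) : 0 ≤ pr i t := le_max_left _ _

theorem sf_pr_le (i : ℤ) (t : ℝ) : pr i t ≤ 1 / 2 := by
  unfold pr
  exact max_le (by norm_num) (min_le_right _ _)

theorem sf_pr_mono (i : ℤ) {t t' : ℝ} (h : t ≤ t') : pr i t ≤ pr i t' := by
  unfold pr
  exact max_le_max le_rfl (min_le_min (by linarith) le_rfl)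

theorem sf_pr_zero {i : ℤ} {t : ℝ} (h : t ≤ i) : pr i t = 0 := by
  unfold pr
  rw [max_eq_left]
  exact (min_le_left _ _).trans (by linarith)

theorem sf_pr_half {i : ℤ} {t : ℝ} (h : (i : ℝ) + 1 / 2 ≤ t) : pr i t = 1 / 2 := by
  unfold pr
  rw [min_eq_right (by linarith), max_eq_right (by norm_num)]

/-- comparison of scales -/
theorem sf_scal_sq_le {J m j : ℤ} (hj : j ≤ J) (hJ : 0 ≤ J) :
    scal m ^ 2 ≤ (4 : ℝ) ^ J * ((4 : ℝ) ^ (m - j) * scal j ^ 2) := by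
  have h4 : ∀ z : ℤ, (4 : ℝ) ^ z = ((2 : ℝ) ^ z) ^ 2 := by
    intro z
    rw [← zpow_natCast, ← zpow_mul, mul_comm, zpow_mul]
    norm_num
  rw [h4, h4, ← mul_pow, ← mul_pow]
  refine pow_le_pow_left₀ (sf_scal_pos m).le ?_ 2
  unfold scal
  rw [← zpow_add₀ (by norm_num : (2 : ℝ) ≠ 0), ← zpow_add₀ (by norm_num : (2 : ℝ) ≠ 0)]
  refine zpow_le_zpow_right₀ (by norm_num) ?_
  omega

/-! ## Symmetric laws -/

theorem sf_sym_r {r : ℝ} {L : Measure ℝ} (h : Sym r L) : 0 ≤ r := by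
  have := h.prob
  obtain ⟨x, hx⟩ := h.supp.exists
  exact (abs_nonneg x).trans hx

/-- change of variables under the reflection -/
theorem sf_unit_symm (f : ℝ → ℝ) :
    ∫ y : unitInterval, f (-(2 * (y : ℝ) - 1)) = ∫ y : unitInterval, f (2 * (y : ℝ) - 1) := by
  have h := unitInterval.measurePreserving_symm.integral_comp
    unitInterval.symmMeasurableEquiv.measurableEmbedding
    (fun y : unitInterval => f (2 * (y : ℝ) - 1))
  rw [← h]
  congr 1
  ext y
  congr 1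
  simp only [unitInterval.coe_symm_eq]
  ring

theorem sf_map_prob (a : ℝ) : IsProbabilityMeasure
    (Measure.map (fun y : unitInterval => a * (2 * (y : ℝ) - 1)) volume) :=
  Measure.isProbabilityMeasure_map (by fun_prop)

theorem sf_chan_sym {p a : ℝ} (h0 : 0 ≤ p) (h1 : p ≤ 1) (ha : 0 ≤ a) : Sym a (chan p a) where
  prob := by
    have := sf_map_prob a
    refine ⟨?_⟩
    unfold chan
    rw [Measure.add_apply, Measure.smul_apply, Measure.smul_apply, measure_univ, measure_univ,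
      smul_eq_mul, smul_eq_mul, mul_one, mul_one, ← ENNReal.ofReal_add (by linarith) h0]
    simp
  supp := by
    unfold chan
    rw [ae_add_measure_iff]
    constructor
    · refine Measure.ae_smul_measure ?_ _
      rw [ae_dirac_eq]
      simpa using ha
    · refine Measure.ae_smul_measure ?_ _
      have hms : MeasurableSet {x : ℝ | |x| ≤ a} := measurableSet_le (by fun_prop) (by fun_prop)
      rw [ae_map_iff (by fun_prop) hms]
      refine Eventually.of_forall fun y => ?_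
      rw [abs_mul, abs_of_nonneg ha]
      have : |2 * (y : ℝ) - 1| ≤ 1 := by
        rw [abs_le]
        constructor <;> linarith [y.2.1, y.2.2]
      nlinarith
  symm := by
    unfold chan
    rw [Measure.map_add _ _ (by fun_prop), Measure.map_smul, Measure.map_smul,
      Measure.map_dirac' (by fun_prop), neg_zero, Measure.map_map (by fun_prop) (by fun_prop)]
    congr 2
    have h : (fun x : ℝ => -x) ∘ (fun y : unitInterval => a * (2 * (y : ℝ) - 1))
        = (fun y : unitInterval => a * (2 * (y : ℝ) - 1)) ∘ unitInterval.symm := by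
      ext y
      simp only [Function.comp_apply, unitInterval.coe_symm_eq]
      ring
    rw [h, ← Measure.map_map (by fun_prop) (by fun_prop),
      unitInterval.measurePreserving_symm.map_eq]

theorem sf_chan_zero (a : ℝ) : chan 0 a = Measure.dirac 0 := by
  unfold chan
  simp

theorem sf_chan_int (hB : LAWB) {p a : ℝ} (h0 : 0 ≤ p) (h1 : p ≤ 1) (ha : 0 ≤ a) (ha1 : a < 1)
    {φ : ℝ → ℝ} (hφ : ContinuousOn φ (Ioo (-1) 1)) :
    ∫ x, φ x ∂(chan p a)
      = (1 - p) * φ 0 + p * ∫ y : unitInterval, φ (a * (2 * (y : ℝ) - 1)) := by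
  have hI1 : Integrable φ (Measure.map (fun y : unitInterval => a * (2 * (y : ℝ) - 1)) volume) := by
    have := hB.int_cont a (chan 1 a) ha1 (sf_chan_sym zero_le_one le_rfl ha) φ hφ
    unfold chan at this
    simpa using this
  have hI0 : Integrable φ (Measure.dirac 0) := integrable_dirac (by simp)
  unfold chan
  rw [integral_add_measure (hI0.smul_measure ENNReal.ofReal_ne_top)
    (hI1.smul_measure ENNReal.ofReal_ne_top), integral_smul_measure, integral_smul_measure,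
    integral_dirac, integral_map (by fun_prop) hI1.aestronglyMeasurable,
    ENNReal.toReal_ofReal (by linarith), ENNReal.toReal_ofReal h0, smul_eq_mul, smul_eq_mul]

theorem sf_unit_sq : ∫ y : unitInterval, (2 * (y : ℝ) - 1) ^ 2 = 1 / 3 := by
  have h := unitInterval.measurePreserving_coe.integral_comp
    unitInterval.measurableEmbedding_coe (fun y : ℝ => (2 * y - 1) ^ 2)
  rw [h, integral_Icc_eq_integral_Ioc, ← intervalIntegral.integral_of_le (by norm_num)]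
  have e : ∀ y : ℝ, (2 * y - 1) ^ 2 = 4 * y ^ 2 - 4 * y + 1 := fun y => by ring
  simp_rw [e]
  rw [intervalIntegral.integral_add (Continuous.intervalIntegrable (by fun_prop) _ _)
      (Continuous.intervalIntegrable (by fun_prop) _ _),
    intervalIntegral.integral_sub (Continuous.intervalIntegrable (by fun_prop) _ _)
      (Continuous.intervalIntegrable (by fun_prop) _ _),
    intervalIntegral.integral_const_mul, intervalIntegral.integral_const_mul]
  simp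
  norm_num

theorem sf_chan_sq (hB : LAWB) {p a : ℝ} (h0 : 0 ≤ p) (h1 : p ≤ 1) (ha : 0 ≤ a) (ha1 : a < 1) :
    ∫ x, x ^ 2 ∂(chan p a) = p * (a ^ 2 / 3) := by
  rw [sf_chan_int hB h0 h1 ha ha1 (φ := fun x => x ^ 2) (by fun_prop)]
  have e : ∀ y : unitInterval, (a * (2 * (y : ℝ) - 1)) ^ 2 = a ^ 2 * (2 * (y : ℝ) - 1) ^ 2 :=
    fun y => by ring
  simp_rw [e]
  rw [integral_const_mul, sf_unit_sq]
  ring

/-! ## Double integrals -/

theorem sf_dbl_int {r : ℝ} {L L' : Measure ℝ} (hL : Sym r L) (hL' : Sym r L')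
    {g : ℝ × ℝ → ℝ} (hg : Measurable g) {B : ℝ}
    (hb : ∀ x y, |x| ≤ r → |y| ≤ r → |g (x, y)| ≤ B) : Integrable g (L.prod L') := by
  have := hL.prob
  have := hL'.prob
  refine Integrable.of_bound hg.aestronglyMeasurable B ?_
  have h1 : ∀ᵐ p ∂(L.prod L'), |p.1| ≤ r := Measure.quasiMeasurePreserving_fst.ae hL.supp
  have h2 : ∀ᵐ p ∂(L.prod L'), |p.2| ≤ r := Measure.quasiMeasurePreserving_snd.ae hL'.supp
  filter_upwards [h1, h2] with p hp1 hp2
  exact hb p.1 p.2 hp1 hp2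

theorem sf_dbl_mono {r : ℝ} {L L' : Measure ℝ} (hL : Sym r L) (hL' : Sym r L')
    {g h : ℝ × ℝ → ℝ} (hg : Measurable g) (hh : Measurable h) {B : ℝ}
    (hb : ∀ x y, |x| ≤ r → |y| ≤ r → |g (x, y)| ≤ B)
    (hb' : ∀ x y, |x| ≤ r → |y| ≤ r → |h (x, y)| ≤ B)
    (hle : ∀ x y, |x| ≤ r → |y| ≤ r → g (x, y) ≤ h (x, y)) :
    ∫ x, ∫ y, g (x, y) ∂L' ∂L ≤ ∫ x, ∫ y, h (x, y) ∂L' ∂L := by
  have := hL.prob
  have := hL'.prob
  have i1 := sf_dbl_int hL hL' hg hb
  have i2 := sf_dbl_int hL hL' hh hb'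
  rw [← integral_prod _ i1, ← integral_prod _ i2]
  refine integral_mono_ae i1 i2 ?_
  have h1 : ∀ᵐ p ∂(L.prod L'), |p.1| ≤ r := Measure.quasiMeasurePreserving_fst.ae hL.supp
  have h2 : ∀ᵐ p ∂(L.prod L'), |p.2| ≤ r := Measure.quasiMeasurePreserving_snd.ae hL'.supp
  filter_upwards [h1, h2] with p hp1 hp2
  exact hle p.1 p.2 hp1 hp2

/-- the second moment kernel -/
theorem sf_ker {r x y : ℝ} (hr : r < 1) (hx : |x| ≤ r) (hy : |y| ≤ r) :
    0 < 1 - (x * y) ^ 2 ∧ x ^ 2 ≤ 1 ∧ y ^ 2 ≤ 1 ∧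
    (x ^ 2 + y ^ 2 - 2 * (x * y) ^ 2) / (1 - (x * y) ^ 2) ≤ x ^ 2 + y ^ 2 ∧
    x ^ 2 ≤ (x ^ 2 + y ^ 2 - 2 * (x * y) ^ 2) / (1 - (x * y) ^ 2) ∧
    y ^ 2 + x ^ 2 * (1 - y ^ 2) ^ 2 ≤ (x ^ 2 + y ^ 2 - 2 * (x * y) ^ 2) / (1 - (x * y) ^ 2) := by
  have hr0 : 0 ≤ r := (abs_nonneg x).trans hx
  have hx2 : x ^ 2 ≤ r ^ 2 := by rw [← sq_abs]; exact pow_le_pow_left₀ (abs_nonneg _) hx 2
  have hy2 : y ^ 2 ≤ r ^ 2 := by rw [← sq_abs]; exact pow_le_pow_left₀ (abs_nonneg _) hy 2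
  have hr2 : r ^ 2 < 1 := by nlinarith
  have hx1 : x ^ 2 < 1 := by linarith
  have hy1 : y ^ 2 < 1 := by linarith
  have hX := sq_nonneg x
  have hY := sq_nonneg y
  have hxy : (x * y) ^ 2 = x ^ 2 * y ^ 2 := by ring
  rw [hxy]
  generalize x ^ 2 = X at *
  generalize y ^ 2 = Y at *
  have hd : 0 < 1 - X * Y := by nlinarith
  refine ⟨hd, hx1.le, hy1.le, ?_, ?_, ?_⟩
  · rw [div_le_iff₀ hd]
    nlinarith [mul_nonneg hX hY]
  · rw [le_div_iff₀ hd]
    nlinarith [mul_nonneg hY (sq_nonneg (1 - X))]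
  · rw [le_div_iff₀ hd]
    have h1 : X + Y - 2 * (X * Y) - (Y + X * (1 - Y) ^ 2) * (1 - X * Y)
        = X * X * Y * (1 - Y) ^ 2 := by ring
    have h2 : 0 ≤ X * X * Y * (1 - Y) ^ 2 :=
      mul_nonneg (mul_nonneg (mul_nonneg hX hX) hY) (sq_nonneg _)
    linarith

section comb

variable {r : ℝ} {L L' : Measure ℝ}

theorem sf_sq_int (hL : Sym r L) : Integrable (fun x : ℝ => x ^ 2) L := by
  have := hL.prob
  refine Integrable.of_bound (by fun_prop) (r ^ 2) ?_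
  filter_upwards [hL.supp] with x hx
  rw [Real.norm_eq_abs, abs_pow]
  exact pow_le_pow_left₀ (abs_nonneg _) hx 2

theorem sf_comb_le (hB : LAWB) (hr0 : 0 ≤ r) (hr : r < 1) (hL : Sym r L) (hL' : Sym r L') :
    ∫ z, z ^ 2 ∂(comb L L') ≤ ∫ x, x ^ 2 ∂L + ∫ y, y ^ 2 ∂L' := by
  have := hL.prob
  have := hL'.prob
  rw [hB.second r L L' hr0 hr hL hL']
  have h := sf_dbl_mono hL hL' (g := fun p : ℝ × ℝ =>
      (p.1 ^ 2 + p.2 ^ 2 - 2 * (p.1 * p.2) ^ 2) / (1 - (p.1 * p.2) ^ 2))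
    (h := fun p => p.1 ^ 2 + p.2 ^ 2) (by fun_prop) (by fun_prop) (B := 2)
    (fun x y hx hy => by
      obtain ⟨h1, h2, h3, h4, h5, h6⟩ := sf_ker hr hx hy
      rw [abs_of_nonneg ((sq_nonneg x).trans h5)]
      linarith)
    (fun x y hx hy => by
      obtain ⟨h1, h2, h3, h4, h5, h6⟩ := sf_ker hr hx hy
      rw [abs_of_nonneg (by positivity)]
      linarith)
    (fun x y hx hy => (sf_ker hr hx hy).2.2.2.1)
  refine h.trans (le_of_eq ?_)
  have i1 := sf_sq_int hL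
  have i2 := sf_sq_int hL'
  have e : ∀ x : ℝ, ∫ y, (x ^ 2 + y ^ 2) ∂L' = x ^ 2 + ∫ y, y ^ 2 ∂L' := by
    intro x
    rw [integral_add (integrable_const _) i2]
    simp
  simp only [e]
  rw [integral_add i1 (integrable_const _)]
  simp

theorem sf_comb_ge (hB : LAWB) (hr0 : 0 ≤ r) (hr : r < 1) (hL : Sym r L) (hL' : Sym r L') :
    ∫ x, x ^ 2 ∂L ≤ ∫ z, z ^ 2 ∂(comb L L') := by
  have := hL.prob
  have := hL'.prob
  rw [hB.second r L L' hr0 hr hL hL']
  have h := sf_dbl_mono hL hL' (g := fun p : ℝ × ℝ => p.1 ^ 2) (h := fun p : ℝ × ℝ =>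
      (p.1 ^ 2 + p.2 ^ 2 - 2 * (p.1 * p.2) ^ 2) / (1 - (p.1 * p.2) ^ 2))
    (by fun_prop) (by fun_prop) (B := 2)
    (fun x y hx hy => by
      obtain ⟨h1, h2, h3, h4, h5, h6⟩ := sf_ker hr hx hy
      rw [abs_of_nonneg (by positivity)]
      linarith)
    (fun x y hx hy => by
      obtain ⟨h1, h2, h3, h4, h5, h6⟩ := sf_ker hr hx hy
      rw [abs_of_nonneg ((sq_nonneg x).trans h5)]
      linarith)
    (fun x y hx hy => (sf_ker hr hx hy).2.2.2.2.1)
  refine le_trans (le_of_eq ?_) h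
  simp

theorem sf_comb_ge2 (hB : LAWB) (hr0 : 0 ≤ r) (hr : r < 1) (hL : Sym r L) (hL' : Sym r L') :
    ∫ y, y ^ 2 ∂L' + (∫ x, x ^ 2 ∂L) * (1 - ∫ y, y ^ 2 ∂L') ^ 2
      ≤ ∫ z, z ^ 2 ∂(comb L L') := by
  have := hL.prob
  have := hL'.prob
  rw [hB.second r L L' hr0 hr hL hL']
  have h := sf_dbl_mono hL hL' (g := fun p : ℝ × ℝ => p.2 ^ 2 + p.1 ^ 2 * (1 - p.2 ^ 2) ^ 2)
    (h := fun p : ℝ × ℝ =>
      (p.1 ^ 2 + p.2 ^ 2 - 2 * (p.1 * p.2) ^ 2) / (1 - (p.1 * p.2) ^ 2))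
    (by fun_prop) (by fun_prop) (B := 2)
    (fun x y hx hy => by
      obtain ⟨h1, h2, h3, h4, h5, h6⟩ := sf_ker hr hx hy
      rw [abs_of_nonneg (by positivity)]
      linarith)
    (fun x y hx hy => by
      obtain ⟨h1, h2, h3, h4, h5, h6⟩ := sf_ker hr hx hy
      rw [abs_of_nonneg ((sq_nonneg x).trans h5)]
      linarith)
    (fun x y hx hy => (sf_ker hr hx hy).2.2.2.2.2)
  refine le_trans ?_ h
  have i1 := sf_sq_int hL
  have i2 := sf_sq_int hL'
  have i3 : Integrable (fun y : ℝ => (1 - y ^ 2) ^ 2) L' := by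
    refine Integrable.of_bound (by fun_prop) ((1 + r ^ 2) ^ 2) ?_
    filter_upwards [hL'.supp] with x hx
    have hx2 : x ^ 2 ≤ r ^ 2 := by rw [← sq_abs]; exact pow_le_pow_left₀ (abs_nonneg _) hx 2
    rw [Real.norm_eq_abs, abs_pow]
    refine pow_le_pow_left₀ (abs_nonneg _) ?_ 2
    rw [abs_le]
    constructor <;> nlinarith [sq_nonneg x]
  have e : ∀ x : ℝ, ∫ y, (y ^ 2 + x ^ 2 * (1 - y ^ 2) ^ 2) ∂L'
      = ∫ y, y ^ 2 ∂L' + x ^ 2 * ∫ y, (1 - y ^ 2) ^ 2 ∂L' := by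
    intro x
    rw [integral_add i2 (i3.const_mul _), integral_const_mul]
  simp only [e]
  rw [integral_add (integrable_const _) (i1.mul_const _), integral_mul_const]
  simp only [integral_const, probReal_univ, smul_eq_mul, one_mul]
  -- Cauchy Schwarz
  have hcs : (1 - ∫ y, y ^ 2 ∂L') ^ 2 ≤ ∫ y, (1 - y ^ 2) ^ 2 ∂L' := by
    set m := ∫ y, y ^ 2 ∂L' with hm
    have hnn : 0 ≤ ∫ y, ((1 - y ^ 2) - (1 - m)) ^ 2 ∂L' :=
      integral_nonneg fun y => sq_nonneg _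
    have e2 : (fun y : ℝ => ((1 - y ^ 2) - (1 - m)) ^ 2)
        = fun y => (1 - y ^ 2) ^ 2 + ((2 * (1 - m)) * y ^ 2 + ((1 - m) ^ 2 - 2 * (1 - m))) := by
      ext y; ring
    have i4 : Integrable (fun y : ℝ => (2 * (1 - m)) * y ^ 2) L' := i2.const_mul _
    have i5 : Integrable (fun y : ℝ => (2 * (1 - m)) * y ^ 2 + ((1 - m) ^ 2 - 2 * (1 - m))) L' :=
      i4.add (integrable_const _)
    rw [e2, integral_add i3 i5, integral_add i4 (integrable_const _), integral_const_mul,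
      ← hm] at hnn
    simp only [integral_const, probReal_univ, smul_eq_mul, one_mul] at hnn
    nlinarith
  have hx0 : 0 ≤ ∫ x, x ^ 2 ∂L := integral_nonneg fun x => sq_nonneg x
  nlinarith

theorem sf_opl {x y : ℝ} (hx : |x| < 1) (hy : |y| < 1) : 0 < 1 + x * y ∧ |opl x y| < 1 := by
  have h1 := abs_lt.1 hx
  have h2 := abs_lt.1 hy
  have hd : 0 < 1 + x * y := by nlinarith
  refine ⟨hd, ?_⟩
  unfold opl
  rw [abs_lt, lt_div_iff₀ hd, div_lt_iff₀ hd]
  constructor <;> nlinarith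

theorem sf_symm_int (hL : Sym r L) (f : ℝ → ℝ) : ∫ y, f (-y) ∂L = ∫ y, f y ∂L := by
  have h : MeasurableEmbedding (fun x : ℝ => -x) := (MeasurableEquiv.neg ℝ).measurableEmbedding
  have h2 := h.integral_map (μ := L) f
  rw [hL.symm] at h2
  exact h2.symm

theorem sf_comb_fw (hB : LAWB) (hF : FMU) (hr0 : 0 ≤ r) (hr : r < 1) (hL : Sym r L)
    (hL' : Sym r L') {w : ℝ} (hw : 0 ≤ w) :
    ∫ z, Fw w z ∂(comb L L') = (∫ x, Fw w x ∂L) * ∫ y, Fw w y ∂L' := by
  have := hL.prob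
  have := hL'.prob
  rw [hB.int_comb r L L' hr0 hr hL hL' _ (hF.cont w hw), ← integral_mul_const]
  refine integral_congr_ae ?_
  filter_upwards [hL.supp] with x hx
  have hx1 : |x| < 1 := lt_of_le_of_lt hx hr
  have hcont : ContinuousOn (fun y : ℝ => (1 + x * y) * Fw w (opl x y)) (Ioo (-1) 1) := by
    refine ContinuousOn.mul (by fun_prop) ?_
    refine (hF.cont w hw).comp ?_ ?_
    · unfold opl
      refine ContinuousOn.div (by fun_prop) (by fun_prop) ?_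
      intro y hy
      exact (sf_opl hx1 (abs_lt.2 hy)).1.ne'
    · intro y hy
      exact abs_lt.1 (sf_opl hx1 (abs_lt.2 hy)).2
  have i1 := hB.int_cont r L' hr hL' _ hcont
  have hcont2 : ContinuousOn (fun y : ℝ => (1 - x * y) * Fw w (opl x (-y))) (Ioo (-1) 1) := by
    have h2 : ContinuousOn (fun y : ℝ => -y) (Ioo (-1 : ℝ) 1) := by fun_prop
    have h3 := hcont.comp h2 (by
      intro y hy
      exact ⟨by linarith [hy.2], by linarith [hy.1]⟩)
    refine h3.congr ?_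
    intro y hy
    simp only [Function.comp_apply]
    ring
  have i2 := hB.int_cont r L' hr hL' _ hcont2
  have e1 : ∫ y, (1 - x * y) * Fw w (opl x (-y)) ∂L'
      = ∫ y, (1 + x * y) * Fw w (opl x y) ∂L' := by
    rw [← sf_symm_int hL' (fun y => (1 + x * y) * Fw w (opl x y))]
    congr 1
    ext y
    ring
  have e2 : ∫ y, (1 + x * y) * Fw w (opl x y) ∂L' + ∫ y, (1 - x * y) * Fw w (opl x (-y)) ∂L'
      = ∫ y, 2 * (Fw w x * Fw w y) ∂L' := by
    rw [← integral_add i1 i2]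
    refine integral_congr_ae ?_
    filter_upwards [hL'.supp] with y hy
    exact hF.comb w x y hw hx1 (lt_of_le_of_lt hy hr)
  rw [e1, integral_const_mul, integral_const_mul] at e2
  linarith

end comb

/-! ## The laws `sigN` -/

/-- sum of the strengths -/
noncomputable def sfS (k n : ℕ) : ℝ := ∑ i ∈ Finset.range n, amp (-(k : ℤ) + i)

theorem sfS_nonneg (k n : ℕ) : 0 ≤ sfS k n := Finset.sum_nonneg fun _ _ => (sf_amp_pos _).le

theorem sfS_le (k n : ℕ) : sfS k n ≤ (scal (n - k) + ((n - k : ℕ) : ℝ)) / 8 := by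
  induction n with
  | zero =>
    simp only [sfS, Finset.range_zero, Finset.sum_empty]
    have := sf_scal_pos ((0 : ℕ) - k)
    positivity
  | succ n ih =>
    have h1 : sfS k (n + 1) = sfS k n + amp (-(k : ℤ) + n) := Finset.sum_range_succ _ _
    have h2 : (-(k : ℤ) + n) = (n : ℤ) - k := by ring
    rw [h1, h2]
    unfold amp
    rcases lt_or_ge n k with h | h
    · have h3 : scal ((n + 1 : ℕ) - (k : ℤ)) = 2 * scal ((n : ℤ) - k) := by
        unfold scal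
        have e1 : min (((n + 1 : ℕ) : ℤ) - (k : ℤ)) 0 = ((n : ℤ) - k) + 1 := by push_cast; omega
        have e2 : min ((n : ℤ) - (k : ℤ)) 0 = ((n : ℤ) - k) := by omega
        rw [e1, e2, zpow_add₀ (by norm_num), zpow_one, mul_comm]
      have h4 : n - k = 0 := by omega
      have h5 : n + 1 - k = 0 := by omega
      rw [h3, h5]
      rw [h4] at ih
      simp only [Nat.cast_zero, add_zero] at ih ⊢
      linarith
    · have h3 : scal ((n + 1 : ℕ) - (k : ℤ)) = 1 := by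
        unfold scal
        have e1 : min (((n + 1 : ℕ) : ℤ) - (k : ℤ)) 0 = 0 := by push_cast; omega
        rw [e1, zpow_zero]
      have h3' : scal ((n : ℤ) - k) = 1 := by
        unfold scal
        have e1 : min ((n : ℤ) - (k : ℤ)) 0 = 0 := by omega
        rw [e1, zpow_zero]
      have h5 : ((n + 1 - k : ℕ) : ℝ) = ((n - k : ℕ) : ℝ) + 1 := by
        rw [Nat.sub_add_comm h]; push_cast; ring
      rw [h3, h3', h5]
      rw [h3'] at ih
      linarith

theorem sf_exp_le {a : ℝ} (h0 : 0 ≤ a) (h1 : a ≤ 1 / 8) : Real.exp (-(3 * a)) ≤ (1 - a) / (1 + a) := by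
  have h2 : (1 + a) / (1 - a) ≤ Real.exp (3 * a) := by
    have h3 := Real.add_one_le_exp (3 * a)
    refine le_trans ?_ h3
    rw [div_le_iff₀ (by linarith)]
    nlinarith
  rw [Real.exp_neg, inv_eq_one_div, div_le_div_iff₀ (Real.exp_pos _) (by linarith)]
  rw [div_le_iff₀ (by linarith)] at h2
  linarith

theorem sf_sigN_sym (hB : LAWB) (k : ℕ) (t : ℝ) (n : ℕ) :
    Sym (1 - Real.exp (-(3 * sfS k n))) (sigN k t n) := by
  induction n with
  | zero =>
    have : sfS k 0 = 0 := by simp [sfS]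
    rw [this]
    simp only [mul_zero, neg_zero, Real.exp_zero, sub_self, sigN]
    exact hB.s_dirac 0 le_rfl
  | succ n ih =>
    have h1 : sfS k (n + 1) = sfS k n + amp (-(k : ℤ) + n) := Finset.sum_range_succ _ _
    have ha0 := sf_amp_pos (-(k : ℤ) + n)
    have ha1 := sf_amp_le (-(k : ℤ) + n)
    set a := amp (-(k : ℤ) + n) with ha
    set R := 1 - Real.exp (-(3 * sfS k n)) with hR
    have hR0 : 0 ≤ R := sf_sym_r ih
    have hR1 : R < 1 := by
      have := Real.exp_pos (-(3 * sfS k n))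
      linarith
    have hc := sf_chan_sym (sf_pr_nonneg (-(k : ℤ) + n) t)
      ((sf_pr_le (-(k : ℤ) + n) t).trans (by norm_num)) ha0.le
    have h2 := hB.s_comb a R _ _ ha0.le hR0 (by linarith) hR1 hc ih
    have h3 : sigN k t (n + 1)
        = comb (chan (pr (-(k : ℤ) + n) t) (amp (-(k : ℤ) + n))) (sigN k t n) := rfl
    rw [h3]
    refine hB.s_mono _ _ _ ?_ h2
    have h4 : 1 - opl a R = (1 - a) * (1 - R) / (1 + a * R) := by
      unfold opl
      have : (1 + a * R) ≠ 0 := by positivity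
      field_simp
      ring
    have h5 := sf_exp_le ha0.le ha1
    have h6 : Real.exp (-(3 * sfS k (n + 1))) = (1 - R) * Real.exp (-(3 * a)) := by
      rw [hR, h1, sub_sub_cancel, ← Real.exp_add]
      congr 1; ring
    have h7 : (1 - R) * Real.exp (-(3 * a)) ≤ (1 - a) * (1 - R) / (1 + a * R) := by
      calc (1 - R) * Real.exp (-(3 * a)) ≤ (1 - R) * ((1 - a) / (1 + a)) :=
            mul_le_mul_of_nonneg_left h5 (by linarith)
        _ = (1 - a) * (1 - R) / (1 + a) := by ring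
        _ ≤ (1 - a) * (1 - R) / (1 + a * R) := by
            apply div_le_div_of_nonneg_left (mul_nonneg (by linarith) (by linarith)) (by positivity)
            nlinarith
    rw [h6]
    linarith

/-- a radius -/
noncomputable def sfR (J : ℕ) : ℝ := 1 - Real.exp (-(3 * ((J : ℝ) + 3) / 8))

theorem sfR_nonneg (J : ℕ) : 0 ≤ sfR J := by
  unfold sfR
  have : Real.exp (-(3 * ((J : ℝ) + 3) / 8)) ≤ 1 := by
    rw [Real.exp_le_one_iff]
    have : (0 : ℝ) ≤ J := Nat.cast_nonneg J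
    linarith
  linarith

theorem sfR_lt (J : ℕ) : sfR J < 1 := by
  unfold sfR
  have := Real.exp_pos (-(3 * ((J : ℝ) + 3) / 8))
  linarith

theorem sf_sigN_symR (hB : LAWB) {J k n : ℕ} (hn : n ≤ k + J + 2) (t : ℝ) :
    Sym (sfR J) (sigN k t n) := by
  refine hB.s_mono _ _ _ ?_ (sf_sigN_sym hB k t n)
  unfold sfR
  have h1 := sfS_le k n
  have h2 := sf_scal_le_one (n - k)
  have h3 : ((n - k : ℕ) : ℝ) ≤ (J : ℝ) + 2 := by
    have : n - k ≤ J + 2 := by omega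
    exact_mod_cast this
  have h4 : Real.exp (-(3 * ((J : ℝ) + 3) / 8)) ≤ Real.exp (-(3 * sfS k n)) := by
    rw [Real.exp_le_exp]
    linarith
  linarith

theorem sf_ceil {J : ℕ} {t : ℝ} (ht : t ≤ J + 1) : ⌈t⌉.toNat ≤ J + 1 := by
  have h : ⌈t⌉ ≤ (J : ℤ) + 1 := by
    rw [Int.ceil_le]
    push_cast
    exact ht
  omega

theorem sf_sigL_sym (hB : LAWB) {J : ℕ} (k : ℕ) {t : ℝ} (ht : t ≤ J + 1) :
    Sym (sfR J) (sigL k t) := by
  have := sf_ceil ht
  exact sf_sigN_symR hB (by omega) t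

/-- sum of the squares of the strengths of the rounds up to `j` -/
noncomputable def sfW (k : ℕ) (j : ℤ) (n : ℕ) : ℝ :=
  ∑ i ∈ Finset.range n, if (-(k : ℤ) + i) ≤ j then amp (-(k : ℤ) + i) ^ 2 else 0

theorem sf_geom (k : ℕ) (j : ℤ) (n : ℕ) :
    ∑ i ∈ Finset.range n, (if (-(k : ℤ) + i) ≤ j then (4 : ℝ) ^ ((-(k : ℤ) + i) - j) else 0)
      ≤ 1 / 3 * (4 : ℝ) ^ (min ((n : ℤ) - k - 1) j + 1 - j) := by
  induction n with
  | zero =>
    simp only [Finset.range_zero, Finset.sum_empty]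
    positivity
  | succ n ih =>
    rw [Finset.sum_range_succ]
    by_cases h : (-(k : ℤ) + n) ≤ j
    · rw [if_pos h]
      have e1 : min ((n : ℤ) - k - 1) j + 1 - j = -(k : ℤ) + n - j := by omega
      have e2 : min (((n + 1 : ℕ) : ℤ) - k - 1) j + 1 - j = (-(k : ℤ) + n - j) + 1 := by
        push_cast; omega
      rw [e1] at ih
      rw [e2, zpow_add₀ (by norm_num), zpow_one]
      linarith
    · rw [if_neg h, add_zero]
      have e1 : min ((n : ℤ) - k - 1) j + 1 - j = min (((n + 1 : ℕ) : ℤ) - k - 1) j + 1 - j := by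
        push_cast; omega
      rw [← e1]
      exact ih

theorem sfW_le {J : ℕ} {j : ℤ} (hj : j ≤ J) (k n : ℕ) : sfW k j n ≤ 4 ^ J * scal j ^ 2 := by
  have h1 : sfW k j n ≤ ∑ i ∈ Finset.range n, (1 / 64 * (4 ^ J * scal j ^ 2)) *
      (if (-(k : ℤ) + i) ≤ j then (4 : ℝ) ^ ((-(k : ℤ) + i) - j) else 0) := by
    unfold sfW
    refine Finset.sum_le_sum fun i _ => ?_
    by_cases h : (-(k : ℤ) + i) ≤ j
    · rw [if_pos h, if_pos h]
      have h2 := sf_scal_sq_le (J := (J : ℤ)) (m := -(k : ℤ) + i) hj (Int.natCast_nonneg J)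
      rw [zpow_natCast] at h2
      unfold amp
      nlinarith
    · rw [if_neg h, if_neg h, mul_zero]
  rw [← Finset.mul_sum] at h1
  have h2 := sf_geom k j n
  have h3 : (4 : ℝ) ^ (min ((n : ℤ) - k - 1) j + 1 - j) ≤ 4 := by
    calc (4 : ℝ) ^ (min ((n : ℤ) - k - 1) j + 1 - j) ≤ 4 ^ (1 : ℤ) :=
          zpow_le_zpow_right₀ (by norm_num) (by omega)
      _ = 4 := by norm_num
  have h4 : 0 ≤ (4 : ℝ) ^ J * scal j ^ 2 := by positivity
  calc sfW k j n ≤ _ := h1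
    _ ≤ 1 / 64 * (4 ^ J * scal j ^ 2) * (1 / 3 * 4) :=
        mul_le_mul_of_nonneg_left (h2.trans (by linarith)) (by positivity)
    _ ≤ 4 ^ J * scal j ^ 2 := by linarith

theorem sfW_succ (k : ℕ) (j : ℤ) (n : ℕ) : sfW k j (n + 1) = sfW k j n
    + if (-(k : ℤ) + n) ≤ j then amp (-(k : ℤ) + n) ^ 2 else 0 := Finset.sum_range_succ _ _

/-- a common radius for the laws occurring below -/
theorem sf_common (hB : LAWB) (k : ℕ) (t : ℝ) (n : ℕ) : ∃ r : ℝ, 0 ≤ r ∧ r < 1 ∧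
    (∀ m ≤ n, Sym r (sigN k t m)) ∧
    ∀ (i : ℤ) (p : ℝ), 0 ≤ p → p ≤ 1 → Sym r (chan p (amp i)) := by
  refine ⟨max (sfR n) (1 / 8), (sfR_nonneg n).trans (le_max_left _ _),
    max_lt (sfR_lt n) (by norm_num), fun m hm => ?_, fun i p h0 h1 => ?_⟩
  · exact hB.s_mono _ _ _ (le_max_left _ _) (sf_sigN_symR hB (J := n) (by omega) t)
  · exact hB.s_mono _ _ _ ((sf_amp_le i).trans (le_max_right _ _))
      (sf_chan_sym h0 h1 (sf_amp_pos i).le)

theorem sf_sigN_sq (hB : LAWB) (k : ℕ) {j : ℤ} {t : ℝ} (ht : t ≤ j + 1) (n : ℕ) :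
    ∫ s, s ^ 2 ∂(sigN k t n) ≤ sfW k j n := by
  induction n with
  | zero => simp [sigN, sfW]
  | succ n ih =>
    obtain ⟨r, hr0, hr1, hs, hc⟩ := sf_common hB k t n
    have h3 : sigN k t (n + 1)
        = comb (chan (pr (-(k : ℤ) + n) t) (amp (-(k : ℤ) + n))) (sigN k t n) := rfl
    have hp0 := sf_pr_nonneg (-(k : ℤ) + n) t
    have hp1 := sf_pr_le (-(k : ℤ) + n) t
    have h4 := sf_comb_le hB hr0 hr1 (hc (-(k : ℤ) + n) _ hp0 (hp1.trans (by norm_num)))
      (hs n le_rfl)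
    rw [h3, sfW_succ]
    refine h4.trans ?_
    rw [sf_chan_sq hB hp0 (hp1.trans (by norm_num)) (sf_amp_pos _).le
      ((sf_amp_le _).trans_lt (by norm_num))]
    have h5 : pr (-(k : ℤ) + n) t * (amp (-(k : ℤ) + n) ^ 2 / 3)
        ≤ if (-(k : ℤ) + n) ≤ j then amp (-(k : ℤ) + n) ^ 2 else 0 := by
      by_cases h : (-(k : ℤ) + n) ≤ j
      · rw [if_pos h]
        have := sq_nonneg (amp (-(k : ℤ) + n))
        nlinarith
      · rw [if_neg h, sf_pr_zero, zero_mul]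
        have h6 : j + 1 ≤ (-(k : ℤ) + n) := by omega
        have h7 : ((j : ℝ) + 1) ≤ ((-(k : ℤ) + n : ℤ) : ℝ) := by exact_mod_cast h6
        exact ht.trans h7
    linarith

theorem sf_fw_zero (w : ℝ) : Fw w 0 = 1 := by
  unfold Fw
  simp

theorem sf_chan_fw (hB : LAWB) (hF : FMU) {w p : ℝ} (hw : 0 ≤ w) (i : ℤ) (h0 : 0 ≤ p)
    (h1 : p ≤ 1) : ∫ s, Fw w s ∂(chan p (amp i)) ≤ Real.exp (w * amp i ^ 2) := by
  have ha0 := sf_amp_pos i
  have ha1 := sf_amp_le i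
  have hS := sf_chan_sym h0 h1 ha0.le
  have := hS.prob
  have hI := hB.int_cont (amp i) _ (by linarith) hS _ (hF.cont w hw)
  calc ∫ s, Fw w s ∂(chan p (amp i)) ≤ ∫ _, Real.exp (w * amp i ^ 2) ∂(chan p (amp i)) := by
        refine integral_mono_ae hI (integrable_const _) ?_
        filter_upwards [hS.supp] with x hx
        have hx1 : |x| < 1 := by linarith
        refine (hF.le_exp w x hw hx1).trans ?_
        rw [Real.exp_le_exp, mul_div_assoc]
        refine mul_le_mul_of_nonneg_left ?_ hw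
        have hx2 : x ^ 2 ≤ amp i ^ 2 := by
          rw [← sq_abs]; exact pow_le_pow_left₀ (abs_nonneg _) hx 2
        have hx3 : amp i ^ 2 ≤ 1 / 64 := by nlinarith
        have hx4 : 0 < 1 - x ^ 2 := by linarith
        have hx5 : (63 / 64 : ℝ) ^ 2 ≤ (1 - x ^ 2) ^ 2 :=
          pow_le_pow_left₀ (by norm_num) (by linarith) 2
        rw [div_le_iff₀ (by positivity)]
        nlinarith [sq_nonneg x, sq_nonneg (amp i)]
    _ = _ := by simp

theorem sf_sigN_fw (hB : LAWB) (hF : FMU) (k : ℕ) {j : ℤ} {t : ℝ} (ht : t ≤ j + 1) (n : ℕ)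
    {w : ℝ} (hw : 0 ≤ w) : ∫ s, Fw w s ∂(sigN k t n) ≤ Real.exp (w * sfW k j n) := by
  induction n with
  | zero => simp [sigN, sfW, sf_fw_zero]
  | succ n ih =>
    obtain ⟨r, hr0, hr1, hs, hc⟩ := sf_common hB k t n
    have h3 : sigN k t (n + 1)
        = comb (chan (pr (-(k : ℤ) + n) t) (amp (-(k : ℤ) + n))) (sigN k t n) := rfl
    have hp0 := sf_pr_nonneg (-(k : ℤ) + n) t
    have hp1 := sf_pr_le (-(k : ℤ) + n) t
    have hcc := hc (-(k : ℤ) + n) _ hp0 (hp1.trans (by norm_num))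
    have h4 := sf_comb_fw hB hF hr0 hr1 hcc (hs n le_rfl) hw
    rw [h3, sfW_succ, h4, mul_add, Real.exp_add, mul_comm]
    have h5 : ∫ s, Fw w s ∂(chan (pr (-(k : ℤ) + n) t) (amp (-(k : ℤ) + n)))
        ≤ Real.exp (w * if (-(k : ℤ) + n) ≤ j then amp (-(k : ℤ) + n) ^ 2 else 0) := by
      by_cases h : (-(k : ℤ) + n) ≤ j
      · rw [if_pos h]
        exact sf_chan_fw hB hF hw _ hp0 (hp1.trans (by norm_num))
      · have h6 : j + 1 ≤ (-(k : ℤ) + n) := by omega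
        have h7 : ((j : ℝ) + 1) ≤ ((-(k : ℤ) + n : ℤ) : ℝ) := by exact_mod_cast h6
        rw [if_neg h, sf_pr_zero (ht.trans h7), sf_chan_zero]
        simp [sf_fw_zero]
    have h8 : 0 ≤ ∫ s, Fw w s ∂(chan (pr (-(k : ℤ) + n) t) (amp (-(k : ℤ) + n))) := by
      refine integral_nonneg_of_ae ?_
      filter_upwards [hcc.supp] with x hx
      exact zero_le_one.trans (hF.one_le w x hw (lt_of_le_of_lt hx hr1))
    exact mul_le_mul ih h5 h8 (Real.exp_pos _).le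

theorem sf_step_ge (hB : LAWB) (k : ℕ) (t : ℝ) (n : ℕ) :
    ∫ s, s ^ 2 ∂(sigN k t n) + (pr (-(k : ℤ) + n) t * (amp (-(k : ℤ) + n) ^ 2 / 3))
        * (1 - ∫ s, s ^ 2 ∂(sigN k t n)) ^ 2 ≤ ∫ s, s ^ 2 ∂(sigN k t (n + 1)) ∧
    pr (-(k : ℤ) + n) t * (amp (-(k : ℤ) + n) ^ 2 / 3) ≤ ∫ s, s ^ 2 ∂(sigN k t (n + 1)) := by
  obtain ⟨r, hr0, hr1, hs, hc⟩ := sf_common hB k t n
  have h3 : sigN k t (n + 1)
      = comb (chan (pr (-(k : ℤ) + n) t) (amp (-(k : ℤ) + n))) (sigN k t n) := rfl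
  have hp0 := sf_pr_nonneg (-(k : ℤ) + n) t
  have hp1 := sf_pr_le (-(k : ℤ) + n) t
  have hcc := hc (-(k : ℤ) + n) _ hp0 (hp1.trans (by norm_num))
  have h4 := sf_comb_ge2 hB hr0 hr1 hcc (hs n le_rfl)
  have h5 := sf_comb_ge hB hr0 hr1 hcc (hs n le_rfl)
  rw [sf_chan_sq hB hp0 (hp1.trans (by norm_num)) (sf_amp_pos _).le
      ((sf_amp_le _).trans_lt (by norm_num))] at h4 h5
  rw [h3]
  exact ⟨h4, h5⟩

theorem sf_mono_n (hB : LAWB) (k : ℕ) (t : ℝ) :
    Monotone fun n => ∫ s, s ^ 2 ∂(sigN k t n) := by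
  refine monotone_nat_of_le_succ fun n => ?_
  have h := (sf_step_ge hB k t n).1
  have h2 : 0 ≤ (pr (-(k : ℤ) + n) t * (amp (-(k : ℤ) + n) ^ 2 / 3))
        * (1 - ∫ s, s ^ 2 ∂(sigN k t n)) ^ 2 := by
    have := sf_pr_nonneg (-(k : ℤ) + n) t
    positivity
  linarith

theorem sf_lo (hB : LAWB) {k : ℕ} {j : ℤ} {t : ℝ} (hk : -(k : ℤ) < j) (hj : (j : ℝ) ≤ t) :
    1 / 1536 * scal j ^ 2 ≤ ∫ s, s ^ 2 ∂(sigL k t) := by
  obtain ⟨i, hi⟩ : ∃ i : ℕ, (i : ℤ) = j - 1 + k := ⟨(j - 1 + k).toNat, by omega⟩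
  have h1 : -(k : ℤ) + i = j - 1 := by omega
  have h2 := (sf_step_ge hB k t i).2
  rw [h1] at h2
  have h3 : pr (j - 1) t = 1 / 2 := by
    apply sf_pr_half
    push_cast
    linarith
  rw [h3] at h2
  have h4 : i + 1 ≤ k + 1 + ⌈t⌉.toNat := by
    have : j ≤ ⌈t⌉ := by
      have h5 := hj.trans (Int.le_ceil t)
      exact_mod_cast h5
    omega
  have h5 := sf_mono_n hB k t h4
  have h6 : scal j / 2 ≤ scal (j - 1) := by
    unfold scal
    rw [div_le_iff₀ (by norm_num)]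
    have e : (2 : ℝ) ^ (min (j - 1) 0) * 2 = 2 ^ (min (j - 1) 0 + 1) := by
      rw [zpow_add₀ (by norm_num), zpow_one]
    rw [e]
    exact zpow_le_zpow_right₀ (by norm_num) (by omega)
  have h7 := sf_scal_pos j
  have h8 : (scal j / 2) ^ 2 ≤ scal (j - 1) ^ 2 := pow_le_pow_left₀ (by linarith) h6 2
  unfold amp at h2
  have h9 : sigL k t = sigN k t (k + 1 + ⌈t⌉.toNat) := rfl
  rw [h9]
  refine le_trans ?_ h5
  refine le_trans ?_ h2
  nlinarith

/-! ## Convex order -/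

theorem sf_cx_refl (L : Measure ℝ) : Cx L L := fun _ _ _ => le_rfl

theorem sf_cx_trans {L L' L'' : Measure ℝ} (h : Cx L L') (h' : Cx L' L'') : Cx L L'' :=
  fun φ h1 h2 => (h φ h1 h2).trans (h' φ h1 h2)

theorem sf_cx_chan (hB : LAWB) (hC : CVX) {p p' : ℝ} (h0 : 0 ≤ p) (h : p ≤ p') (h1 : p' ≤ 1)
    (i : ℤ) : Cx (chan p (amp i)) (chan p' (amp i)) := by
  intro φ h2 h3
  have ha0 := sf_amp_pos i
  have ha1 : amp i < 1 := (sf_amp_le i).trans_lt (by norm_num)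
  have h4 := hC.c_dirac (amp i) (chan 1 (amp i)) ha1 (sf_chan_sym zero_le_one le_rfl ha0.le)
    φ h2 h3
  rw [sf_chan_int hB zero_le_one le_rfl ha0.le ha1 h2, integral_dirac] at h4
  rw [sf_chan_int hB h0 (h.trans h1) ha0.le ha1 h2, sf_chan_int hB (h0.trans h) h1 ha0.le ha1 h2]
  nlinarith

theorem sf_cx_t (hB : LAWB) (hC : CVX) (k : ℕ) {t t' : ℝ} (h : t ≤ t') (n : ℕ) :
    Cx (sigN k t n) (sigN k t' n) := by
  induction n with
  | zero => exact sf_cx_refl _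
  | succ n ih =>
    obtain ⟨r, hr0, hr1, hs, hc⟩ := sf_common hB k t n
    obtain ⟨r', hr0', hr1', hs', hc'⟩ := sf_common hB k t' n
    have hm : r ≤ max r r' := le_max_left _ _
    have hm' : r' ≤ max r r' := le_max_right _ _
    have e1 : sigN k t (n + 1)
        = comb (chan (pr (-(k : ℤ) + n) t) (amp (-(k : ℤ) + n))) (sigN k t n) := rfl
    have e2 : sigN k t' (n + 1)
        = comb (chan (pr (-(k : ℤ) + n) t') (amp (-(k : ℤ) + n))) (sigN k t' n) := rfl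
    have hp0 := sf_pr_nonneg (-(k : ℤ) + n) t
    have hp1 : pr (-(k : ℤ) + n) t ≤ 1 := (sf_pr_le (-(k : ℤ) + n) t).trans (by norm_num)
    have hp0' := sf_pr_nonneg (-(k : ℤ) + n) t'
    have hp1' : pr (-(k : ℤ) + n) t' ≤ 1 := (sf_pr_le (-(k : ℤ) + n) t').trans (by norm_num)
    rw [e1, e2]
    exact hC.c_comb (max r r') _ _ _ _ (hr0.trans hm) (max_lt hr1 hr1')
      (hB.s_mono _ _ _ hm (hc _ _ hp0 hp1)) (hB.s_mono _ _ _ hm (hs n le_rfl))
      (hB.s_mono _ _ _ hm' (hc' _ _ hp0' hp1')) (hB.s_mono _ _ _ hm' (hs' n le_rfl))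
      (sf_cx_chan hB hC hp0 (sf_pr_mono _ h) hp1' _) ih

theorem sf_pad (hB : LAWB) (k : ℕ) {t : ℝ} (n m : ℕ) (ht : t ≤ (n : ℝ) - k) :
    sigN k t (n + m) = sigN k t n := by
  induction m with
  | zero => rfl
  | succ m ih =>
    have e1 : sigN k t (n + (m + 1)) = comb (chan (pr (-(k : ℤ) + ((n + m : ℕ) : ℤ)) t)
        (amp (-(k : ℤ) + ((n + m : ℕ) : ℤ)))) (sigN k t (n + m)) := rfl
    have e2 : pr (-(k : ℤ) + ((n + m : ℕ) : ℤ)) t = 0 := by
      apply sf_pr_zero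
      push_cast
      have : (0 : ℝ) ≤ m := Nat.cast_nonneg m
      linarith
    obtain ⟨r, hr0, hr1, hs, hc⟩ := sf_common hB k t (n + m)
    rw [e1, e2, sf_chan_zero, hB.dirac_comb r _ hr1 (hs _ le_rfl), ih]

theorem sf_sigL_eq (hB : LAWB) (k : ℕ) (t : ℝ) {n : ℕ} (hn : k + 1 + ⌈t⌉.toNat ≤ n) :
    sigN k t n = sigL k t := by
  obtain ⟨m, rfl⟩ := Nat.exists_eq_add_of_le hn
  refine sf_pad hB k _ m ?_
  have h1 := Int.le_ceil t
  have h2 : (⌈t⌉ : ℝ) ≤ ((⌈t⌉.toNat : ℕ) : ℝ) := by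
    have := Int.self_le_toNat ⌈t⌉
    exact_mod_cast this
  push_cast
  linarith

theorem sf_cx_k (hB : LAWB) (hC : CVX) (k : ℕ) (t : ℝ) (n : ℕ) :
    Cx (sigN k t n) (sigN (k + 1) t (n + 1)) := by
  induction n with
  | zero =>
    have h := sf_sigN_symR hB (J := 0) (k := k + 1) (n := 1) (by omega) t
    exact hC.c_dirac _ _ (sfR_lt 0) h
  | succ n ih =>
    obtain ⟨r, hr0, hr1, hs, hc⟩ := sf_common hB k t n
    obtain ⟨r', hr0', hr1', hs', hc'⟩ := sf_common hB (k + 1) t (n + 1)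
    have hm : r ≤ max r r' := le_max_left _ _
    have hm' : r' ≤ max r r' := le_max_right _ _
    have e1 : sigN k t (n + 1)
        = comb (chan (pr (-(k : ℤ) + n) t) (amp (-(k : ℤ) + n))) (sigN k t n) := rfl
    have e0 : -((k + 1 : ℕ) : ℤ) + ((n + 1 : ℕ) : ℤ) = -(k : ℤ) + n := by push_cast; ring
    have e2 : sigN (k + 1) t (n + 1 + 1)
        = comb (chan (pr (-(k : ℤ) + n) t) (amp (-(k : ℤ) + n))) (sigN (k + 1) t (n + 1)) := by
      have : sigN (k + 1) t (n + 1 + 1) = comb (chan (pr (-((k + 1 : ℕ) : ℤ) + ((n + 1 : ℕ) : ℤ)) t)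
        (amp (-((k + 1 : ℕ) : ℤ) + ((n + 1 : ℕ) : ℤ)))) (sigN (k + 1) t (n + 1)) := rfl
      rw [this, e0]
    have hp0 := sf_pr_nonneg (-(k : ℤ) + n) t
    have hp1 : pr (-(k : ℤ) + n) t ≤ 1 := (sf_pr_le (-(k : ℤ) + n) t).trans (by norm_num)
    rw [e1, e2]
    exact hC.c_comb (max r r') _ _ _ _ (hr0.trans hm) (max_lt hr1 hr1')
      (hB.s_mono _ _ _ hm (hc _ _ hp0 hp1)) (hB.s_mono _ _ _ hm (hs n le_rfl))
      (hB.s_mono _ _ _ hm' (hc' _ _ hp0 hp1)) (hB.s_mono _ _ _ hm' (hs' (n + 1) le_rfl))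
      (sf_cx_refl _) ih

/-! ## The variance after many rounds -/

theorem sf_vr_aux (hB : LAWB) (k J : ℕ) : ∀ s ≤ J,
    1 - 384 / ((s : ℝ) + 384) ≤ ∫ x, x ^ 2 ∂(sigN k (J : ℝ) (k + s)) := by
  intro s
  induction s with
  | zero =>
    intro _
    have : 0 ≤ ∫ x, x ^ 2 ∂(sigN k (J : ℝ) (k + 0)) := integral_nonneg fun x => sq_nonneg x
    simp only [Nat.cast_zero, zero_add]
    linarith
  | succ s ih =>
    intro hs
    have h1 := ih (by omega)
    have h2 := (sf_step_ge hB k (J : ℝ) (k + s)).1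
    have e0 : -(k : ℤ) + ((k + s : ℕ) : ℤ) = s := by push_cast; ring
    rw [e0] at h2
    have h3 : pr (s : ℤ) (J : ℝ) = 1 / 2 := by
      apply sf_pr_half
      have : ((s : ℝ) + 1) ≤ J := by exact_mod_cast hs
      push_cast
      linarith
    have h4 : amp (s : ℤ) = 1 / 8 := by
      unfold amp scal
      rw [min_eq_right (Int.natCast_nonneg s), zpow_zero]
    rw [h3, h4] at h2
    have h5 : k + (s + 1) = k + s + 1 := by ring
    rw [h5]
    refine le_trans ?_ h2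
    set m := ∫ x, x ^ 2 ∂(sigN k (J : ℝ) (k + s)) with hm
    have h6 : (0 : ℝ) ≤ s := Nat.cast_nonneg s
    set q : ℝ := 384 / ((s : ℝ) + 384) with hq
    have hq0 : 0 < q := by positivity
    have hq1 : q ≤ 1 := by
      rw [hq, div_le_one (by positivity)]
      linarith
    have hm1 : 0 ≤ 1 - m ∨ 1 - m < 0 := by
      by_cases h : 0 ≤ 1 - m
      · exact Or.inl h
      · exact Or.inr (not_le.1 h)
    have h7 : 384 / (((s + 1 : ℕ) : ℝ) + 384) ≥ q - q ^ 2 / 384 := by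
      rw [ge_iff_le, hq]
      have e : (384 : ℝ) / ((s : ℝ) + 384) - (384 / ((s : ℝ) + 384)) ^ 2 / 384
          = 384 * ((s : ℝ) + 383) / ((s : ℝ) + 384) ^ 2 := by
        field_simp
        ring
      rw [e, div_le_div_iff₀ (by positivity) (by positivity)]
      push_cast
      nlinarith
    rcases hm1 with h8 | h8
    · nlinarith [mul_nonneg h8 hq0.le, mul_nonneg (sub_nonneg.2 h1) hq0.le]
    · have h9 : 0 < 384 / (((s + 1 : ℕ) : ℝ) + 384) := by positivity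
      nlinarith [sq_nonneg (1 - m)]

theorem sigf_proof (hB : LAWB) (hC : CVX) (hF : FMU) : SIGF where
  hyp := by
    intro J
    refine ⟨1 / 1536, 4 ^ J, sfR J, by norm_num, by positivity, sfR_nonneg J, sfR_lt J, ?_⟩
    intro k j t hk hj hjt ht
    have hjJ : (j : ℝ) ≤ (J : ℝ) := by exact_mod_cast hj
    refine ⟨sf_sigL_sym hB k (ht.trans (by linarith)), sf_lo hB hk hjt, ?_, ?_⟩
    · exact (sf_sigN_sq hB k ht _).trans (sfW_le hj k _)
    · intro w hw
      refine (sf_sigN_fw hB hF k ht _ hw).trans ?_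
      rw [Real.exp_le_exp, mul_comm]
      exact mul_le_mul_of_nonneg_right (sfW_le hj k _) hw
  sym := by
    intro J
    exact ⟨sfR J, sfR_nonneg J, sfR_lt J, fun k t ht => sf_sigL_sym hB k ht⟩
  hi := by
    intro J
    exact ⟨4 ^ J, by positivity, fun k j t hj _ ht =>
      (sf_sigN_sq hB k ht _).trans (sfW_le hj k _)⟩
  monot := by
    intro k t t' h
    have h1 : ⌈t⌉.toNat ≤ ⌈t'⌉.toNat := Int.toNat_le_toNat (Int.ceil_mono h)
    rw [← sf_sigL_eq hB k t (n := k + 1 + ⌈t'⌉.toNat) (by omega)]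
    exact sf_cx_t hB hC k h _
  monok := by
    intro k t
    have h := sf_cx_k hB hC k t (k + 1 + ⌈t⌉.toNat)
    have e : k + 1 + ⌈t⌉.toNat + 1 = (k + 1) + 1 + ⌈t⌉.toNat := by ring
    rw [e] at h
    exact h
  vr := by
    refine ⟨384, by norm_num, fun k J => ?_⟩
    have h1 := sf_vr_aux hB k J J le_rfl
    have h2 : k + J ≤ k + 1 + ⌈(J : ℝ)⌉.toNat := by
      have : ⌈(J : ℝ)⌉ = (J : ℤ) := by simp
      rw [this]
      simp
    have h3 := sf_mono_n hB k (J : ℝ) h2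
    have h4 : 384 / ((J : ℝ) + 384) ≤ 384 / ((J : ℝ) + 1) := by
      have : (0 : ℝ) ≤ J := Nat.cast_nonneg J
      exact div_le_div_of_nonneg_left (by norm_num) (by linarith) (by linarith)
    have h5 : sigL k (J : ℝ) = sigN k (J : ℝ) (k + 1 + ⌈(J : ℝ)⌉.toNat) := rfl
    rw [h5]
    refine le_trans ?_ h3
    refine le_trans ?_ h1
    linarith

end P161C
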