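import Vale.Agent.P161C.Base

/-!
# P161 at the critical point: STAR, the increment inequality in finite volume
-/

open MeasureTheory Set Filter Topology

namespace P161C

open P161

universe u

variable {V : Type u} {μ μ₁ μ₂ : Measure (V → Bool)} {G : SimpleGraph V}

/-- the jump of a mean -/
noncomputable def jmp (χ : Prop) [Decidable χ] (a C m x : ℝ) : ℝ := if χ then C * Ig a m x else 0

theorem jmp_abs (hC : CHAN) {χ : Prop} [Decidable χ] {a C m x : ℝ} (ha : 0 ≤ a) (ha' : a ≤ 1 / 8)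
    (hc : |C| ≤ 2) (hm : |m| ≤ 1) (h0 : 0 ≤ x) (h1 : x ≤ 1) : |jmp χ a C m x| ≤ 1 / 2 := by
  unfold jmp
  split_ifs
  · have := hC.Ig_le a m x ha ha' hm h0 h1
    rw [abs_mul]
    calc |C| * |Ig a m x| ≤ 2 * (2 * a) := mul_le_mul hc this (abs_nonneg _) (by norm_num)
      _ ≤ 1 / 2 := by linarith
  · simp

theorem measurable_jmp (hC : CHAN) {χ : Prop} [Decidable χ] (a : ℝ) :
    Measurable fun p : ℝ × ℝ × ℝ => jmp χ a p.1 p.2.1 p.2.2 := by
  unfold jmp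
  split_ifs
  · exact measurable_fst.mul ((measurable_Ig hC).comp
      (measurable_const.prodMk (measurable_snd.fst.prodMk measurable_snd.snd)))
  · exact measurable_const

theorem jmp_int (hC : CHAN) {χ : Prop} [Decidable χ] {a C m : ℝ} (ha : 0 ≤ a) (ha' : a ≤ 1 / 8)
    (hm : |m| ≤ 1) : ∫ x : unitInterval, jmp χ a C m x = 0 := by
  unfold jmp
  split_ifs
  · rw [integral_const_mul, hC.Ig_int a m ha ha' hm, mul_zero]
  · simp

theorem cov_abs [IsProbabilityMeasure μ] {ρ : (V → Bool) → ℝ} (h : Post G μ ρ) (v w : V) :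
    |cov μ ρ v w| ≤ 2 := by
  unfold cov
  have h1 : |∫ s, ρ s * (spin (s v) * spin (s w)) ∂μ| ≤ 1 :=
    h.abs_int_le ((Loc.coord v).mul (Loc.coord w)) fun s => by rw [abs_mul, abs_spin, abs_spin]; simp
  have h2 := h.abs_mean_le v
  have h3 := h.abs_mean_le w
  have h4 : |mean μ ρ v * mean μ ρ w| ≤ 1 := by
    rw [abs_mul]
    calc |mean μ ρ v| * |mean μ ρ w| ≤ 1 * 1 := mul_le_mul h2 h3 (abs_nonneg _) (by norm_num)
      _ = 1 := by norm_num
  calc |∫ s, ρ s * (spin (s v) * spin (s w)) ∂μ - mean μ ρ v * mean μ ρ w|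
      ≤ |∫ s, ρ s * (spin (s v) * spin (s w)) ∂μ| + |mean μ ρ v * mean μ ρ w| := abs_sub _ _
    _ ≤ 2 := by linarith

theorem sq_int {A : ℝ} {B : unitInterval → ℝ} (hB : Measurable B) (hb : ∀ x, |B x| ≤ 1)
    (h0 : ∫ x, B x = 0) : ∫ x, (A + B x) ^ 2 = A ^ 2 + ∫ x, B x ^ 2 := by
  have i1 : Integrable B := Integrable.of_bound hB.aestronglyMeasurable 1
    (Filter.Eventually.of_forall fun x => by rw [Real.norm_eq_abs]; exact hb x)
  have i2 : Integrable (fun x => B x ^ 2) := Integrable.of_bound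
    (hB.pow_const 2).aestronglyMeasurable 1
    (Filter.Eventually.of_forall fun x => by
      rw [Real.norm_eq_abs, abs_pow]
      exact pow_le_one₀ (abs_nonneg _) (hb x))
  have h1 : ∀ x, (A + B x) ^ 2 = A ^ 2 + 2 * A * B x + B x ^ 2 := fun x => by ring
  simp_rw [h1]
  have i3 : Integrable fun x => 2 * A * B x := i1.const_mul _
  have i4 : Integrable fun x => A ^ 2 + 2 * A * B x := (integrable_const (A ^ 2)).add i3
  have e1 : (∫ x, (A ^ 2 + 2 * A * B x + B x ^ 2))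
      = (∫ x, (A ^ 2 + 2 * A * B x)) + ∫ x, B x ^ 2 := integral_add i4 i2
  have e2 : (∫ x, (A ^ 2 + 2 * A * B x)) = (∫ _x : unitInterval, A ^ 2) + ∫ x, 2 * A * B x :=
    integral_add (integrable_const _) i3
  rw [e1, e2, integral_const_mul, h0]
  simp

open Classical in
/-- one event -/
theorem one_step [IsProbabilityMeasure μ₁] [IsProbabilityMeasure μ₂] (hG : G.IsTree)
    (hC : CHAN) (χ₁ χ₂ : Prop) [Decidable χ₁] [Decidable χ₂] {l₁ l₂ : List (V × ℤ)} {e : V × ℤ} (h₁ : e ∉ l₁) (h₂ : e ∉ l₂)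
    (v : V) :
    ∫ U, (mean μ₁ (dn μ₁ U (if χ₁ then e :: l₁ else l₁)) v
        - mean μ₂ (dn μ₂ U (if χ₂ then e :: l₂ else l₂)) v) ^ 2 ∂(Pc V)
      = ∫ U, (mean μ₁ (dn μ₁ U l₁) v - mean μ₂ (dn μ₂ U l₂) v) ^ 2 ∂(Pc V)
        + ∫ U, (∫ x : unitInterval,
          (jmp χ₁ (amp e.2) (cov μ₁ (dn μ₁ U l₁) v e.1) (mean μ₁ (dn μ₁ U l₁) e.1) x
            - jmp χ₂ (amp e.2) (cov μ₂ (dn μ₂ U l₂) v e.1) (mean μ₂ (dn μ₂ U l₂) e.1) x) ^ 2)
          ∂(Pc V) := by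
  set A : Cfg V → ℝ := fun U => mean μ₁ (dn μ₁ U l₁) v - mean μ₂ (dn μ₂ U l₂) v with hA
  set B : Cfg V → ℝ → ℝ := fun U x =>
    jmp χ₁ (amp e.2) (cov μ₁ (dn μ₁ U l₁) v e.1) (mean μ₁ (dn μ₁ U l₁) e.1) x
      - jmp χ₂ (amp e.2) (cov μ₂ (dn μ₂ U l₂) v e.1) (mean μ₂ (dn μ₂ U l₂) e.1) x with hB
  have hpost₁ := fun U : Cfg V => dn_post (μ := μ₁) hG hC U l₁
  have hpost₂ := fun U : Cfg V => dn_post (μ := μ₂) hG hC U l₂
  have hnew : ∀ U : Cfg V, mean μ₁ (dn μ₁ U (if χ₁ then e :: l₁ else l₁)) v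
      - mean μ₂ (dn μ₂ U (if χ₂ then e :: l₂ else l₂)) v = A U + B U (U e) := by
    intro U
    simp only [hA, hB, jmp]
    split_ifs
    · rw [mean_dn_cons hG hC, mean_dn_cons hG hC]; ring
    · rw [mean_dn_cons hG hC]; ring
    · rw [mean_dn_cons hG hC]; ring
    · ring
  have hAup : ∀ (U : Cfg V) (x : unitInterval), A (Function.update U e x) = A U := by
    intro U x
    have e1 : dn μ₁ (Function.update U e x) l₁ = dn μ₁ U l₁ :=
      dn_congr _ fun f hf => Function.update_of_ne (ne_of_mem_of_not_mem hf h₁) _ _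
    have e2 : dn μ₂ (Function.update U e x) l₂ = dn μ₂ U l₂ :=
      dn_congr _ fun f hf => Function.update_of_ne (ne_of_mem_of_not_mem hf h₂) _ _
    simp only [hA, e1, e2]
  have hBup : ∀ (U : Cfg V) (x : unitInterval) (y : ℝ), B (Function.update U e x) y = B U y := by
    intro U x y
    have e1 : dn μ₁ (Function.update U e x) l₁ = dn μ₁ U l₁ :=
      dn_congr _ fun f hf => Function.update_of_ne (ne_of_mem_of_not_mem hf h₁) _ _
    have e2 : dn μ₂ (Function.update U e x) l₂ = dn μ₂ U l₂ :=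
      dn_congr _ fun f hf => Function.update_of_ne (ne_of_mem_of_not_mem hf h₂) _ _
    simp only [hB, e1, e2]
  have hAm : Measurable A := (measurable_mean_dn hC l₁ v).sub (measurable_mean_dn hC l₂ v)
  have hBm : Measurable fun p : Cfg V × ℝ => B p.1 p.2 := by
    have m1 := (measurable_jmp hC (χ := χ₁) (amp e.2)).comp
      (((measurable_cov_dn (μ := μ₁) hC l₁ v e.1).comp measurable_fst).prodMk
        (((measurable_mean_dn (μ := μ₁) hC l₁ e.1).comp measurable_fst).prodMk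
          (measurable_snd : Measurable fun p : Cfg V × ℝ => p.2)))
    have m2 := (measurable_jmp hC (χ := χ₂) (amp e.2)).comp
      (((measurable_cov_dn (μ := μ₂) hC l₂ v e.1).comp measurable_fst).prodMk
        (((measurable_mean_dn (μ := μ₂) hC l₂ e.1).comp measurable_fst).prodMk
          (measurable_snd : Measurable fun p : Cfg V × ℝ => p.2)))
    exact m1.sub m2
  have hBb : ∀ (U : Cfg V) (x : unitInterval), |B U x| ≤ 1 := by
    intro U x
    have b1 := jmp_abs hC (χ := χ₁) (amp_pos e.2).le (amp_le e.2) (cov_abs (hpost₁ U) v e.1)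
      ((hpost₁ U).abs_mean_le e.1) x.2.1 x.2.2
    have b2 := jmp_abs hC (χ := χ₂) (amp_pos e.2).le (amp_le e.2) (cov_abs (hpost₂ U) v e.1)
      ((hpost₂ U).abs_mean_le e.1) x.2.1 x.2.2
    calc |B U x| ≤ _ := abs_sub _ _
      _ ≤ 1 := by linarith
  have hAb : ∀ U, |A U| ≤ 2 := fun U => (abs_sub _ _).trans (by
    linarith [(hpost₁ U).abs_mean_le v, (hpost₂ U).abs_mean_le v])
  have hB0 : ∀ U : Cfg V, ∫ x : unitInterval, B U x = 0 := by
    intro U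
    have i1 : Integrable fun x : unitInterval => jmp χ₁ (amp e.2)
        (cov μ₁ (dn μ₁ U l₁) v e.1) (mean μ₁ (dn μ₁ U l₁) e.1) x := by
      refine Integrable.of_bound ((measurable_jmp hC (χ := χ₁) (amp e.2)).comp
        (measurable_const.prodMk (measurable_const.prodMk measurable_subtype_coe))
        ).aestronglyMeasurable (1 / 2) (Filter.Eventually.of_forall fun x => ?_)
      exact jmp_abs hC (amp_pos e.2).le (amp_le e.2) (cov_abs (hpost₁ U) v e.1)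
        ((hpost₁ U).abs_mean_le e.1) x.2.1 x.2.2
    have i2 : Integrable fun x : unitInterval => jmp χ₂ (amp e.2)
        (cov μ₂ (dn μ₂ U l₂) v e.1) (mean μ₂ (dn μ₂ U l₂) e.1) x := by
      refine Integrable.of_bound ((measurable_jmp hC (χ := χ₂) (amp e.2)).comp
        (measurable_const.prodMk (measurable_const.prodMk measurable_subtype_coe))
        ).aestronglyMeasurable (1 / 2) (Filter.Eventually.of_forall fun x => ?_)
      exact jmp_abs hC (amp_pos e.2).le (amp_le e.2) (cov_abs (hpost₂ U) v e.1)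
        ((hpost₂ U).abs_mean_le e.1) x.2.1 x.2.2
    simp only [hB]
    rw [integral_sub i1 i2, jmp_int hC (amp_pos e.2).le (amp_le e.2) ((hpost₁ U).abs_mean_le e.1),
      jmp_int hC (amp_pos e.2).le (amp_le e.2) ((hpost₂ U).abs_mean_le e.1), sub_zero]
  have hFm : Measurable fun U : Cfg V => (A U + B U (U e)) ^ 2 :=
    (hAm.add (hBm.comp (measurable_id.prodMk
      (measurable_subtype_coe.comp (measurable_pi_apply e))))).pow_const 2
  have hFi : Integrable (fun U : Cfg V => (A U + B U (U e)) ^ 2) (Pc V) := by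
    refine Integrable.of_bound hFm.aestronglyMeasurable 9 (Filter.Eventually.of_forall fun U => ?_)
    rw [Real.norm_eq_abs, abs_pow]
    have : |A U + B U (U e)| ≤ 3 := (abs_add_le _ _).trans (by linarith [hAb U, hBb U (U e)])
    calc |A U + B U (U e)| ^ 2 ≤ 3 ^ 2 := pow_le_pow_left₀ (abs_nonneg _) this 2
      _ = 9 := by norm_num
  have hA2 : Integrable (fun U : Cfg V => A U ^ 2) (Pc V) := by
    refine Integrable.of_bound (hAm.pow_const 2).aestronglyMeasurable 4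
      (Filter.Eventually.of_forall fun U => ?_)
    rw [Real.norm_eq_abs, abs_pow]
    calc |A U| ^ 2 ≤ 2 ^ 2 := pow_le_pow_left₀ (abs_nonneg _) (hAb U) 2
      _ = 4 := by norm_num
  have hB2m : Measurable fun U : Cfg V => ∫ x : unitInterval, B U x ^ 2 := by
    have h1 : StronglyMeasurable fun p : Cfg V × unitInterval => B p.1 p.2 ^ 2 :=
      ((hBm.comp (measurable_fst.prodMk (measurable_subtype_coe.comp measurable_snd))).pow_const
        2).stronglyMeasurable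
    exact (h1.integral_prod_right' (ν := (volume : Measure unitInterval))).measurable
  have hB2 : Integrable (fun U : Cfg V => ∫ x : unitInterval, B U x ^ 2) (Pc V) := by
    refine Integrable.of_bound hB2m.aestronglyMeasurable 1 (Filter.Eventually.of_forall fun U => ?_)
    have := norm_integral_le_of_norm_le_const (μ := (volume : Measure unitInterval))
      (f := fun x : unitInterval => B U x ^ 2) (C := 1) (Filter.Eventually.of_forall fun x => by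
        rw [Real.norm_eq_abs, abs_pow]; exact pow_le_one₀ (abs_nonneg _) (hBb U x))
    simpa using this
  calc ∫ U, (mean μ₁ (dn μ₁ U (if χ₁ then e :: l₁ else l₁)) v
        - mean μ₂ (dn μ₂ U (if χ₂ then e :: l₂ else l₂)) v) ^ 2 ∂(Pc V)
      = ∫ U, (A U + B U (U e)) ^ 2 ∂(Pc V) := by simp_rw [hnew]
    _ = ∫ U, (∫ x : unitInterval, (A U + B U x) ^ 2) ∂(Pc V) := by
        rw [integral_update e hFi]
        simp only [hAup, hBup, Function.update_self]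
    _ = ∫ U, (A U ^ 2 + ∫ x : unitInterval, B U x ^ 2) ∂(Pc V) := by
        congr 1
        ext U
        exact sq_int (hBm.comp (measurable_const.prodMk measurable_subtype_coe)) (hBb U) (hB0 U)
    _ = _ := integral_add hA2 hB2

/-! ## Fixed order labels -/

open Classical in
/-- squared difference for fixed order labels -/
noncomputable def Dq (μ₁ μ₂ : Measure (V → Bool)) (Λ₁ Λ₂ : Finset V) (k₁ k₂ : ℕ) (v : V) (t : ℝ)
    (o : Cfg V) : ℝ :=
  ∫ U, (mean μ₁ (dn μ₁ U (evl Λ₁ k₁ t o)) v - mean μ₂ (dn μ₂ U (evl Λ₂ k₂ t o)) v) ^ 2 ∂(Pc V)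

open Classical in
/-- the expected squared jump for fixed order labels -/
noncomputable def gq (μ₁ μ₂ : Measure (V → Bool)) (Λ₁ Λ₂ : Finset V) (k₁ k₂ : ℕ) (j : ℤ)
    (v w : V) (t : ℝ) (o : Cfg V) : ℝ :=
  ∫ U, (∫ x : unitInterval,
    (jmp (w ∈ Λ₁ ∧ -(k₁ : ℤ) ≤ j) (amp j) (cov μ₁ (dn μ₁ U (evl Λ₁ k₁ t o)) v w)
        (mean μ₁ (dn μ₁ U (evl Λ₁ k₁ t o)) w) x
      - jmp (w ∈ Λ₂ ∧ -(k₂ : ℤ) ≤ j) (amp j) (cov μ₂ (dn μ₂ U (evl Λ₂ k₂ t o)) v w)
        (mean μ₂ (dn μ₂ U (evl Λ₂ k₂ t o)) w) x) ^ 2) ∂(Pc V)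

theorem round_eq {j i : ℤ} {t₁ t₂ x : ℝ} (hj : (j : ℝ) ≤ t₁) (hj2 : t₂ ≤ j + 1 / 2)
    (h0 : 0 ≤ x) (h1 : x < 1 / 2) (h2 : t₁ ≤ i + x) (h3 : (i : ℝ) + x < t₂) : i = j := by
  have a1 : (i : ℝ) < j + 1 := by linarith
  have a2 : (j : ℝ) < i + 1 := by linarith
  have b1 : i < j + 1 := by exact_mod_cast a1
  have b2 : j < i + 1 := by exact_mod_cast a2
  omega

open Classical in
theorem evs_split {Λ : Finset V} {k : ℕ} {o : Cfg V} (hinj : Function.Injective (tm o)) {j : ℤ}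
    {t₁ t₂ : ℝ} (hj : (j : ℝ) ≤ t₁) (hj2 : t₂ ≤ j + 1 / 2) {w : V}
    (hw1 : t₁ ≤ tm o (w, j)) (hw2 : tm o (w, j) < t₂)
    (hmax : ∀ u ∈ Λ, t₁ ≤ tm o (u, j) → tm o (u, j) < t₂ → tm o (u, j) ≤ tm o (w, j)) :
    evs Λ k t₂ o = if w ∈ Λ ∧ -(k : ℤ) ≤ j then insert (w, j) (evs Λ k (tm o (w, j)) o)
      else evs Λ k (tm o (w, j)) o := by
  have key : ∀ e : V × ℤ, e ∈ evs Λ k t₂ o ↔
      (e ∈ evs Λ k (tm o (w, j)) o ∨ (e = (w, j) ∧ w ∈ Λ ∧ -(k : ℤ) ≤ j)) := by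
    rintro ⟨u, i⟩
    rw [mem_evs, mem_evs, act_iff, act_iff]
    constructor
    · rintro ⟨h1, h2, h3, h4⟩
      by_cases h5 : tm o (u, i) < tm o (w, j)
      · exact Or.inl ⟨h1, h2, h3, h5⟩
      · right
        have h6 : i = j := round_eq hj hj2 (o (u, i)).2.1 h3
          (hw1.trans (not_lt.1 h5)) h4
        subst h6
        have h7 := hmax u h1 (hw1.trans (not_lt.1 h5)) h4
        have h8 : ((u, i) : V × ℤ) = (w, i) := hinj (le_antisymm h7 (not_lt.1 h5))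
        have h9 : u = w := (Prod.ext_iff.1 h8).1
        subst h9
        exact ⟨rfl, h1, h2⟩
    · rintro (⟨h1, h2, h3, h4⟩ | ⟨h1, h2, h3⟩)
      · exact ⟨h1, h2, h3, h4.trans hw2⟩
      · obtain ⟨rfl, rfl⟩ := Prod.ext_iff.1 h1
        refine ⟨h2, h3, ?_, hw2⟩
        have : tm o (u, i) < i + 1 / 2 := hw2.trans_le hj2
        unfold tm at this
        simp only at this
        linarith
  ext e
  rw [key e]
  split_ifs with h
  · rw [Finset.mem_insert]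
    tauto
  · tauto

open Classical in
theorem evl_split {Λ : Finset V} {k : ℕ} {o : Cfg V} (hinj : Function.Injective (tm o)) {j : ℤ}
    {t₁ t₂ : ℝ} (hj : (j : ℝ) ≤ t₁) (hj2 : t₂ ≤ j + 1 / 2) {w : V}
    (hw1 : t₁ ≤ tm o (w, j)) (hw2 : tm o (w, j) < t₂)
    (hmax : ∀ u ∈ Λ, t₁ ≤ tm o (u, j) → tm o (u, j) < t₂ → tm o (u, j) ≤ tm o (w, j)) :
    evl Λ k t₂ o = if w ∈ Λ ∧ -(k : ℤ) ≤ j then (w, j) :: (evl Λ k (tm o (w, j)) o)
      else evl Λ k (tm o (w, j)) o := by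
  rw [evl_eq, evl_eq, evs_split hinj hj hj2 hw1 hw2 hmax]
  split_ifs with h
  · refine srt_insert hinj.injOn ?_ ?_
    · rw [mem_evs, act_iff]
      rintro ⟨_, _, _, h4⟩
      exact lt_irrefl _ h4
    · intro f hf
      rw [mem_evs, act_iff] at hf
      exact hf.2.2.2.le
  · rfl

theorem notMem_evl {Λ : Finset V} {k : ℕ} {o : Cfg V} {e : V × ℤ} :
    e ∉ evl Λ k (tm o e) o := by
  rw [evl_eq, mem_srt, mem_evs, act_iff]
  rintro ⟨_, _, _, h4⟩
  exact lt_irrefl _ h4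

open Classical in
theorem Dq_formula [IsProbabilityMeasure μ₁] [IsProbabilityMeasure μ₂] (hG : G.IsTree)
    (hC : CHAN) (Λ₁ Λ₂ : Finset V) (k₁ k₂ : ℕ) (v : V) {o : Cfg V}
    (hinj : Function.Injective (tm o)) {j : ℤ} {t₁ : ℝ} (hj : (j : ℝ) ≤ t₁) :
    ∀ (n : ℕ) (t₂ : ℝ), t₁ ≤ t₂ → t₂ ≤ j + 1 / 2 →
      ((Λ₁ ∪ Λ₂).filter fun w => t₁ ≤ tm o (w, j) ∧ tm o (w, j) < t₂).card = n →
      Dq μ₁ μ₂ Λ₁ Λ₂ k₁ k₂ v t₂ o = Dq μ₁ μ₂ Λ₁ Λ₂ k₁ k₂ v t₁ o
        + ∑ w ∈ (Λ₁ ∪ Λ₂).filter (fun w => t₁ ≤ tm o (w, j) ∧ tm o (w, j) < t₂),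
          gq μ₁ μ₂ Λ₁ Λ₂ k₁ k₂ j v w (tm o (w, j)) o := by
  intro n
  induction n with
  | zero =>
    intro t₂ h12 hj2 hcard
    rw [Finset.card_eq_zero] at hcard
    rw [hcard, Finset.sum_empty, add_zero]
    have key : ∀ (Λ : Finset V) (k : ℕ), Λ ⊆ Λ₁ ∪ Λ₂ → evs Λ k t₂ o = evs Λ k t₁ o := by
      intro Λ k hΛ
      ext ⟨u, i⟩
      rw [mem_evs, mem_evs, act_iff, act_iff]
      constructor
      · rintro ⟨h1, h2, h3, h4⟩
        refine ⟨h1, h2, h3, ?_⟩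
        by_contra h5
        rw [not_lt] at h5
        have h6 : i = j := round_eq hj hj2 (o (u, i)).2.1 h3 h5 h4
        subst h6
        have : u ∈ (Λ₁ ∪ Λ₂).filter fun w => t₁ ≤ tm o (w, i) ∧ tm o (w, i) < t₂ :=
          Finset.mem_filter.2 ⟨hΛ h1, h5, h4⟩
        rw [hcard] at this
        simp at this
      · rintro ⟨h1, h2, h3, h4⟩
        exact ⟨h1, h2, h3, h4.trans_le h12⟩
    unfold Dq
    rw [evl_eq, evl_eq, evl_eq, evl_eq, key Λ₁ k₁ Finset.subset_union_left,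
      key Λ₂ k₂ Finset.subset_union_right]
  | succ n ih =>
    intro t₂ h12 hj2 hcard
    set N := (Λ₁ ∪ Λ₂).filter fun w => t₁ ≤ tm o (w, j) ∧ tm o (w, j) < t₂ with hN
    have hne : N.Nonempty := by
      rw [← Finset.card_pos, hcard]; omega
    obtain ⟨w, hwN, hmax⟩ := N.exists_max_image (fun u => tm o (u, j)) hne
    have hw := Finset.mem_filter.1 hwN
    have hmax' : ∀ (Λ : Finset V), Λ ⊆ Λ₁ ∪ Λ₂ → ∀ u ∈ Λ, t₁ ≤ tm o (u, j) →
        tm o (u, j) < t₂ → tm o (u, j) ≤ tm o (w, j) := fun Λ hΛ u hu h1 h2 =>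
      hmax u (Finset.mem_filter.2 ⟨hΛ hu, h1, h2⟩)
    have e1 := evl_split (k := k₁) hinj hj hj2 hw.2.1 hw.2.2
      (hmax' Λ₁ Finset.subset_union_left)
    have e2 := evl_split (k := k₂) hinj hj hj2 hw.2.1 hw.2.2
      (hmax' Λ₂ Finset.subset_union_right)
    have hN' : (Λ₁ ∪ Λ₂).filter (fun u => t₁ ≤ tm o (u, j) ∧ tm o (u, j) < tm o (w, j))
        = N.erase w := by
      ext u
      rw [Finset.mem_erase, hN, Finset.mem_filter, Finset.mem_filter]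
      constructor
      · rintro ⟨h1, h2, h3⟩
        refine ⟨?_, h1, h2, h3.trans hw.2.2⟩
        rintro rfl
        exact lt_irrefl _ h3
      · rintro ⟨h1, h2, h3, h4⟩
        refine ⟨h2, h3, lt_of_le_of_ne (hmax' _ subset_rfl u h2 h3 h4) fun h5 => h1 ?_⟩
        exact (Prod.ext_iff.1 (hinj h5)).1
    have hcard' : ((Λ₁ ∪ Λ₂).filter
        (fun u => t₁ ≤ tm o (u, j) ∧ tm o (u, j) < tm o (w, j))).card = n := by
      rw [hN', Finset.card_erase_of_mem hwN, hcard]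
      rfl
    have ih' := ih (tm o (w, j)) hw.2.1 (hw.2.2.le.trans hj2) hcard'
    rw [hN'] at ih'
    have hstep := one_step (μ₁ := μ₁) (μ₂ := μ₂) hG hC (w ∈ Λ₁ ∧ -(k₁ : ℤ) ≤ j)
      (w ∈ Λ₂ ∧ -(k₂ : ℤ) ≤ j) (notMem_evl (Λ := Λ₁) (k := k₁) (o := o) (e := (w, j)))
      (notMem_evl (Λ := Λ₂) (k := k₂) (o := o) (e := (w, j))) v
    have hD : Dq μ₁ μ₂ Λ₁ Λ₂ k₁ k₂ v t₂ o = Dq μ₁ μ₂ Λ₁ Λ₂ k₁ k₂ v (tm o (w, j)) o
        + gq μ₁ μ₂ Λ₁ Λ₂ k₁ k₂ j v w (tm o (w, j)) o := by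
      unfold Dq gq
      rw [e1, e2]
      exact hstep
    rw [hD, ih', ← Finset.add_sum_erase N _ hwN]
    ring

/-! ## Integration over the order labels -/

/-- integral over a sub-interval of a round in terms of the label -/
theorem integral_label (j : ℤ) {t₁ t₂ : ℝ} (hj : (j : ℝ) ≤ t₁) (h12 : t₁ ≤ t₂)
    (hj2 : t₂ ≤ j + 1) (Γ : ℝ → ℝ) :
    ∫ x : unitInterval, (Ico t₁ t₂).indicator Γ ((j : ℝ) + x) = ∫ t in t₁..t₂, Γ t := by
  have h1 : ∫ x : unitInterval, (Ico t₁ t₂).indicator Γ ((j : ℝ) + x)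
      = ∫ x in Icc (0 : ℝ) 1, (Ico t₁ t₂).indicator Γ ((j : ℝ) + x) :=
    integral_subtype_comap measurableSet_Icc fun x : ℝ => (Ico t₁ t₂).indicator Γ ((j : ℝ) + x)
  rw [h1, integral_Icc_eq_integral_Ioc, ← intervalIntegral.integral_of_le (by norm_num),
    intervalIntegral.integral_comp_add_left (fun x => (Ico t₁ t₂).indicator Γ x) (j : ℝ),
    intervalIntegral.integral_of_le (by linarith), ← integral_Ico_eq_integral_Ioc,
    setIntegral_indicator measurableSet_Ico, intervalIntegral.integral_of_le h12,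
    ← integral_Ico_eq_integral_Ioc]
  congr 2
  rw [inter_eq_right]
  intro x hx
  exact ⟨by linarith [hx.1], by linarith [hx.2]⟩

/-- the state does not depend on the label of an event which is not used yet -/
theorem evl_update {Λ : Finset V} {k : ℕ} {o : Cfg V} {w : V} {j : ℤ} {x x' : unitInterval}
    (hxx' : (x : ℝ) ≤ x') [DecidableEq (V × ℤ)] :
    evl Λ k ((j : ℝ) + x) (Function.update o (w, j) x)
      = evl Λ k ((j : ℝ) + x) (Function.update o (w, j) x') := by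
  have hne : ∀ y : unitInterval, (x : ℝ) ≤ y → ∀ e ∈ evs Λ k ((j : ℝ) + x)
      (Function.update o (w, j) y), e ≠ (w, j) := by
    rintro y hy e he rfl
    rw [mem_evs, act_iff] at he
    have := he.2.2.2
    unfold tm at this
    simp only [Function.update_self] at this
    linarith
  have hev : evs Λ k ((j : ℝ) + x) (Function.update o (w, j) x)
      = evs Λ k ((j : ℝ) + x) (Function.update o (w, j) x') := by
    ext e
    constructor
    · intro he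
      have h1 := hne x le_rfl e he
      rw [mem_evs] at he ⊢
      unfold act at he ⊢
      rwa [Function.update_of_ne h1] at he ⊢
    · intro he
      have h1 := hne x' hxx' e he
      rw [mem_evs] at he ⊢
      unfold act at he ⊢
      rwa [Function.update_of_ne h1] at he ⊢
  rw [evl_eq, evl_eq, ← hev]
  refine srt_congr fun e he => ?_
  have h1 := hne x le_rfl e he
  unfold tm
  rw [Function.update_of_ne h1, Function.update_of_ne h1]

section main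

variable [Countable V] [G.LocallyFinite] {D : ℕ} {θ₁ θ₂ : ℝ}

open Classical in
/-- the integrated squared jump -/
noncomputable def hq (μ₁ μ₂ : Measure (V → Bool)) (Λ₁ Λ₂ : Finset V) (k₁ k₂ : ℕ) (j : ℤ)
    (v w : V) (t : ℝ) (ω : Om V) : ℝ :=
  ∫ x : unitInterval,
    (jmp (w ∈ Λ₁ ∧ -(k₁ : ℤ) ≤ j) (amp j) (ck μ₁ Λ₁ k₁ t v w ω) (mk μ₁ Λ₁ k₁ t w ω) x
      - jmp (w ∈ Λ₂ ∧ -(k₂ : ℤ) ≤ j) (amp j) (ck μ₂ Λ₂ k₂ t v w ω) (mk μ₂ Λ₂ k₂ t w ω) x) ^ 2

open Classical in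
theorem measurable_hq (hC : CHAN) (hS : STT.{u}) (hE : Env G D) (h₁ : Isg G D θ₁ μ₁)
    (h₂ : Isg G D θ₂ μ₂) (Λ₁ Λ₂ : Finset V) (k₁ k₂ : ℕ) (j : ℤ) (v w : V) :
    Measurable fun p : ℝ × Om V => hq μ₁ μ₂ Λ₁ Λ₂ k₁ k₂ j v w p.1 p.2 := by
  obtain ⟨-, m1, c1, -⟩ := hS V G D θ₁ μ₁ hE h₁ Λ₁ k₁
  obtain ⟨-, m2, c2, -⟩ := hS V G D θ₂ μ₂ hE h₂ Λ₂ k₂
  have e1 : Measurable fun p : (ℝ × Om V) × unitInterval =>
      jmp (w ∈ Λ₁ ∧ -(k₁ : ℤ) ≤ j) (amp j) (ck μ₁ Λ₁ k₁ p.1.1 v w p.1.2)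
        (mk μ₁ Λ₁ k₁ p.1.1 w p.1.2) p.2 :=
    (measurable_jmp hC (χ := w ∈ Λ₁ ∧ -(k₁ : ℤ) ≤ j) (amp j)).comp
      (((c1 v w).comp measurable_fst).prodMk (((m1 w).comp measurable_fst).prodMk
        (measurable_subtype_coe.comp measurable_snd)))
  have e2 : Measurable fun p : (ℝ × Om V) × unitInterval =>
      jmp (w ∈ Λ₂ ∧ -(k₂ : ℤ) ≤ j) (amp j) (ck μ₂ Λ₂ k₂ p.1.1 v w p.1.2)
        (mk μ₂ Λ₂ k₂ p.1.1 w p.1.2) p.2 :=
    (measurable_jmp hC (χ := w ∈ Λ₂ ∧ -(k₂ : ℤ) ≤ j) (amp j)).comp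
      (((c2 v w).comp measurable_fst).prodMk (((m2 w).comp measurable_fst).prodMk
        (measurable_subtype_coe.comp measurable_snd)))
  exact (((e1.sub e2).pow_const 2).stronglyMeasurable.integral_prod_right'
    (ν := (volume : Measure unitInterval))).measurable

open Classical in
theorem hq_bd (hC : CHAN) (hS : STT.{u}) (hE : Env G D) (h₁ : Isg G D θ₁ μ₁)
    (h₂ : Isg G D θ₂ μ₂) (Λ₁ Λ₂ : Finset V) (k₁ k₂ : ℕ) (j : ℤ) (v w : V) (t : ℝ) (ω : Om V) :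
    0 ≤ hq μ₁ μ₂ Λ₁ Λ₂ k₁ k₂ j v w t ω ∧ hq μ₁ μ₂ Λ₁ Λ₂ k₁ k₂ j v w t ω ≤ 1 := by
  have := h₁.ising.isProb
  have := h₂.ising.isProb
  have p1 := (hS V G D θ₁ μ₁ hE h₁ Λ₁ k₁).1 t ω
  have p2 := (hS V G D θ₂ μ₂ hE h₂ Λ₂ k₂).1 t ω
  refine ⟨integral_nonneg fun x => sq_nonneg _, ?_⟩
  have hb : ∀ x : unitInterval,
      |jmp (w ∈ Λ₁ ∧ -(k₁ : ℤ) ≤ j) (amp j) (ck μ₁ Λ₁ k₁ t v w ω) (mk μ₁ Λ₁ k₁ t w ω) x
      - jmp (w ∈ Λ₂ ∧ -(k₂ : ℤ) ≤ j) (amp j) (ck μ₂ Λ₂ k₂ t v w ω) (mk μ₂ Λ₂ k₂ t w ω) x| ≤ 1 := by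
    intro x
    have b1 := jmp_abs hC (χ := w ∈ Λ₁ ∧ -(k₁ : ℤ) ≤ j) (amp_pos j).le (amp_le j)
      (cov_abs p1 v w) (p1.abs_mean_le w) x.2.1 x.2.2
    have b2 := jmp_abs hC (χ := w ∈ Λ₂ ∧ -(k₂ : ℤ) ≤ j) (amp_pos j).le (amp_le j)
      (cov_abs p2 v w) (p2.abs_mean_le w) x.2.1 x.2.2
    exact (abs_sub _ _).trans (by unfold ck mk; linarith)
  have := norm_integral_le_of_norm_le_const (μ := (volume : Measure unitInterval))
    (f := fun x : unitInterval =>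
      (jmp (w ∈ Λ₁ ∧ -(k₁ : ℤ) ≤ j) (amp j) (ck μ₁ Λ₁ k₁ t v w ω) (mk μ₁ Λ₁ k₁ t w ω) x
      - jmp (w ∈ Λ₂ ∧ -(k₂ : ℤ) ≤ j) (amp j) (ck μ₂ Λ₂ k₂ t v w ω) (mk μ₂ Λ₂ k₂ t w ω) x) ^ 2)
    (C := 1) (Filter.Eventually.of_forall fun x => by
      rw [Real.norm_eq_abs, abs_pow]; exact pow_le_one₀ (abs_nonneg _) (hb x))
  rw [Real.norm_eq_abs] at this
  refine (le_abs_self _).trans ?_
  unfold hq
  simpa using this

omit [Countable V] in
theorem gq_eq (μ₁ μ₂ : Measure (V → Bool)) (Λ₁ Λ₂ : Finset V) (k₁ k₂ : ℕ) (j : ℤ)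
    (v w : V) (t : ℝ) (o : Cfg V) : gq μ₁ μ₂ Λ₁ Λ₂ k₁ k₂ j v w t o
      = ∫ U, hq μ₁ μ₂ Λ₁ Λ₂ k₁ k₂ j v w t (o, U) ∂(Pc V) := by
  unfold gq hq ck mk stt
  rfl

attribute [local irreducible] hq gq

theorem measurable_gq (hC : CHAN) (hS : STT.{u}) (hE : Env G D) (h₁ : Isg G D θ₁ μ₁)
    (h₂ : Isg G D θ₂ μ₂) (Λ₁ Λ₂ : Finset V) (k₁ k₂ : ℕ) (j : ℤ) (v w : V) :
    Measurable fun p : ℝ × Cfg V => gq μ₁ μ₂ Λ₁ Λ₂ k₁ k₂ j v w p.1 p.2 := by
  have h := measurable_hq hC hS hE h₁ h₂ Λ₁ Λ₂ k₁ k₂ j v w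
  have h' : Measurable fun p : (ℝ × Cfg V) × Cfg V =>
      hq μ₁ μ₂ Λ₁ Λ₂ k₁ k₂ j v w p.1.1 (p.1.2, p.2) := by
    have h2 : Measurable fun p : (ℝ × Cfg V) × Cfg V => (p.1.1, ((p.1.2, p.2) : Om V)) := by
      fun_prop
    exact h.comp h2
  have h3 := (h'.stronglyMeasurable.integral_prod_right' (ν := Pc V)).measurable
  simp only [gq_eq]
  exact h3

theorem gq_bd (hC : CHAN) (hS : STT.{u}) (hE : Env G D) (h₁ : Isg G D θ₁ μ₁)
    (h₂ : Isg G D θ₂ μ₂) (Λ₁ Λ₂ : Finset V) (k₁ k₂ : ℕ) (j : ℤ) (v w : V) (t : ℝ) (o : Cfg V) :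
    0 ≤ gq μ₁ μ₂ Λ₁ Λ₂ k₁ k₂ j v w t o ∧ gq μ₁ μ₂ Λ₁ Λ₂ k₁ k₂ j v w t o ≤ 1 := by
  have hb := fun U : Cfg V => hq_bd hC hS hE h₁ h₂ Λ₁ Λ₂ k₁ k₂ j v w t (o, U)
  rw [gq_eq]
  refine ⟨integral_nonneg fun U => (hb U).1, ?_⟩
  have := norm_integral_le_of_norm_le_const (μ := Pc V)
    (f := fun U : Cfg V => hq μ₁ μ₂ Λ₁ Λ₂ k₁ k₂ j v w t (o, U))
    (C := 1) (Filter.Eventually.of_forall fun U => by
      rw [Real.norm_eq_abs, abs_of_nonneg (hb U).1]; exact (hb U).2)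
  rw [Real.norm_eq_abs] at this
  exact (le_abs_self _).trans (by simpa using this)

theorem integral_hq (hC : CHAN) (hS : STT.{u}) (hE : Env G D) (h₁ : Isg G D θ₁ μ₁)
    (h₂ : Isg G D θ₂ μ₂) (Λ₁ Λ₂ : Finset V) (k₁ k₂ : ℕ) (j : ℤ) (v w : V) (t : ℝ) :
    ∫ ω, hq μ₁ μ₂ Λ₁ Λ₂ k₁ k₂ j v w t ω ∂(Pm V)
      = ∫ o, gq μ₁ μ₂ Λ₁ Λ₂ k₁ k₂ j v w t o ∂(Pc V) := by
  have hb := hq_bd hC hS hE h₁ h₂ Λ₁ Λ₂ k₁ k₂ j v w t
  have hm : Measurable fun ω : Om V => hq μ₁ μ₂ Λ₁ Λ₂ k₁ k₂ j v w t ω :=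
    (measurable_hq hC hS hE h₁ h₂ Λ₁ Λ₂ k₁ k₂ j v w).comp (measurable_const.prodMk measurable_id)
  simp only [gq_eq]
  unfold Pm
  rw [integral_prod]
  exact Integrable.of_bound hm.aestronglyMeasurable 1 (Filter.Eventually.of_forall fun ω => by
      rw [Real.norm_eq_abs, abs_of_nonneg (hb ω).1]; exact (hb ω).2)

theorem integral_Dq (hS : STT.{u}) (hE : Env G D) (h₁ : Isg G D θ₁ μ₁)
    (h₂ : Isg G D θ₂ μ₂) (Λ₁ Λ₂ : Finset V) (k₁ k₂ : ℕ) (v : V) (t : ℝ) :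
    ∫ ω, (mk μ₁ Λ₁ k₁ t v ω - mk μ₂ Λ₂ k₂ t v ω) ^ 2 ∂(Pm V)
      = ∫ o, Dq μ₁ μ₂ Λ₁ Λ₂ k₁ k₂ v t o ∂(Pc V) ∧
    Integrable (Dq μ₁ μ₂ Λ₁ Λ₂ k₁ k₂ v t) (Pc V) := by
  have s1 := hS V G D θ₁ μ₁ hE h₁ Λ₁ k₁
  have s2 := hS V G D θ₂ μ₂ hE h₂ Λ₂ k₂
  have m1 := s1.2.2.2.1 t v
  have m2 := s2.2.2.2.1 t v
  have b1 := s1.2.2.2.2.2.1 t v
  have b2 := s2.2.2.2.2.2.1 t v
  have hi : Integrable (fun ω : Om V => (mk μ₁ Λ₁ k₁ t v ω - mk μ₂ Λ₂ k₂ t v ω) ^ 2)
      ((Pc V).prod (Pc V)) := by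
    refine Integrable.of_bound ((m1.sub m2).pow_const 2).aestronglyMeasurable 4
      (Filter.Eventually.of_forall fun ω => ?_)
    rw [Real.norm_eq_abs, abs_pow]
    have : |mk μ₁ Λ₁ k₁ t v ω - mk μ₂ Λ₂ k₂ t v ω| ≤ 2 :=
      (abs_sub _ _).trans (by linarith [b1 ω, b2 ω])
    calc |mk μ₁ Λ₁ k₁ t v ω - mk μ₂ Λ₂ k₂ t v ω| ^ 2 ≤ 2 ^ 2 :=
          pow_le_pow_left₀ (abs_nonneg _) this 2
      _ = 4 := by norm_num
  constructor
  · unfold Pm
    rw [integral_prod _ hi]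
    rfl
  · exact hi.integral_prod_left

open Classical in
/-- the contribution of one vertex -/
theorem vertex_bound (hC : CHAN) (hS : STT.{u}) (hE : Env G D) (h₁ : Isg G D θ₁ μ₁)
    (h₂ : Isg G D θ₂ μ₂) (Λ₁ Λ₂ : Finset V) (k₁ k₂ : ℕ) (j : ℤ) (v w : V) {t₁ t₂ : ℝ}
    (hj : (j : ℝ) ≤ t₁) (h12 : t₁ ≤ t₂) (hj2 : t₂ ≤ j + 1 / 2) :
    ∫ o, (if t₁ ≤ tm o (w, j) ∧ tm o (w, j) < t₂ then
        gq μ₁ μ₂ Λ₁ Λ₂ k₁ k₂ j v w (tm o (w, j)) o else 0) ∂(Pc V)
      ≤ 2 * ∫ t in t₁..t₂, (∫ o, gq μ₁ μ₂ Λ₁ Λ₂ k₁ k₂ j v w t o ∂(Pc V)) := by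
  set g : ℝ → Cfg V → ℝ := gq μ₁ μ₂ Λ₁ Λ₂ k₁ k₂ j v w with hg
  have hgm : Measurable fun p : ℝ × Cfg V => g p.1 p.2 :=
    measurable_gq hC hS hE h₁ h₂ Λ₁ Λ₂ k₁ k₂ j v w
  have hgb : ∀ t o, 0 ≤ g t o ∧ g t o ≤ 1 := gq_bd hC hS hE h₁ h₂ Λ₁ Λ₂ k₁ k₂ j v w
  set e : V × ℤ := (w, j) with he
  have htm : Measurable fun o : Cfg V => tm o e := by
    unfold tm
    exact measurable_const.add (measurable_subtype_coe.comp (measurable_pi_apply e))
  set Φ : Cfg V → ℝ := fun o => if t₁ ≤ tm o e ∧ tm o e < t₂ then g (tm o e) o else 0 with hΦ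
  have hΦm : Measurable Φ := by
    refine Measurable.ite ?_ (hgm.comp (htm.prodMk measurable_id)) measurable_const
    exact (measurableSet_le measurable_const htm).inter (measurableSet_lt htm measurable_const)
  have hΦb : ∀ o, 0 ≤ Φ o ∧ Φ o ≤ 1 := by
    intro o
    simp only [hΦ]
    split_ifs
    · exact hgb _ _
    · exact ⟨le_rfl, zero_le_one⟩
  have hΦi : Integrable Φ (Pc V) := Integrable.of_bound hΦm.aestronglyMeasurable 1
    (Filter.Eventually.of_forall fun o => by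
      rw [Real.norm_eq_abs, abs_of_nonneg (hΦb o).1]; exact (hΦb o).2)
  -- resampled version
  set R : ℝ → Cfg V → ℝ := fun t o => ∫ x' : unitInterval, g t (Function.update o e x') with hR
  have hRm : Measurable fun p : ℝ × Cfg V => R p.1 p.2 := by
    have h1 : Measurable fun p : (ℝ × Cfg V) × unitInterval =>
        g p.1.1 (Function.update p.1.2 e p.2) :=
      hgm.comp ((measurable_fst.comp measurable_fst).prodMk
        ((measurable_upd2 e).comp ((measurable_snd.comp measurable_fst).prodMk measurable_snd)))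
    exact (h1.stronglyMeasurable.integral_prod_right'
      (ν := (volume : Measure unitInterval))).measurable
  have hgi : ∀ t, Integrable (g t) (Pc V) := fun t =>
    Integrable.of_bound (hgm.comp (measurable_const.prodMk measurable_id)).aestronglyMeasurable 1
      (Filter.Eventually.of_forall fun o => by
        rw [Real.norm_eq_abs, abs_of_nonneg (hgb t o).1]; exact (hgb t o).2)
  have hRint : ∀ t, ∫ o, R t o ∂(Pc V) = ∫ o, g t o ∂(Pc V) := fun t =>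
    (integral_update e (hgi t)).symm
  have hRb : ∀ t o, 0 ≤ R t o ∧ R t o ≤ 1 := by
    intro t o
    refine ⟨integral_nonneg fun x => (hgb _ _).1, ?_⟩
    have := norm_integral_le_of_norm_le_const (μ := (volume : Measure unitInterval))
      (f := fun x : unitInterval => g t (Function.update o e x))
      (C := 1) (Filter.Eventually.of_forall fun U => by
        rw [Real.norm_eq_abs, abs_of_nonneg (hgb _ _).1]; exact (hgb _ _).2)
    rw [Real.norm_eq_abs] at this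
    exact (le_abs_self _).trans (by simpa using this)
  -- pointwise comparison
  have hpt : ∀ (o : Cfg V) (x : unitInterval), Φ (Function.update o e x)
      ≤ (Ico t₁ t₂).indicator (fun t => 2 * R t o) ((j : ℝ) + x) := by
    intro o x
    have htx : tm (Function.update o e x) e = (j : ℝ) + x := by
      unfold tm; simp [he]
    simp only [hΦ, htx]
    by_cases hx : t₁ ≤ (j : ℝ) + x ∧ (j : ℝ) + x < t₂
    · rw [if_pos hx, indicator_of_mem (show (j : ℝ) + x ∈ Ico t₁ t₂ from hx)]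
      have hx2 : (x : ℝ) < 1 / 2 := by linarith [hx.2]
      have hsame : ∀ x' : unitInterval, (x : ℝ) ≤ x' →
          g ((j : ℝ) + x) (Function.update o e x') = g ((j : ℝ) + x) (Function.update o e x) := by
        intro x' hx'
        simp only [hg, gq]
        rw [evl_update (Λ := Λ₁) hx', evl_update (Λ := Λ₂) hx']
      have hlow : ∫ x' : unitInterval, (Ici x).indicator
          (fun _ => g ((j : ℝ) + x) (Function.update o e x)) x' ≤ R ((j : ℝ) + x) o := by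
        refine integral_mono ?_ ?_ fun x' => ?_
        · exact (integrable_const _).indicator measurableSet_Ici
        · have hmm : Measurable fun x' : unitInterval =>
              g ((j : ℝ) + x) (Function.update o e x') :=
            hgm.comp (measurable_const.prodMk
              ((measurable_upd2 e).comp (measurable_const.prodMk measurable_id)))
          exact Integrable.of_bound hmm.aestronglyMeasurable 1
            (Filter.Eventually.of_forall fun x' => by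
              rw [Real.norm_eq_abs, abs_of_nonneg (hgb _ _).1]; exact (hgb _ _).2)
        · by_cases hx' : x ≤ x'
          · rw [indicator_of_mem (show x' ∈ Ici x from hx')]
            exact (hsame x' hx').ge
          · rw [indicator_of_notMem (show x' ∉ Ici x from hx')]
            exact (hgb _ _).1
      rw [integral_indicator measurableSet_Ici, setIntegral_const] at hlow
      have hvol : (volume : Measure unitInterval).real (Ici x) = 1 - x := by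
        rw [Measure.real, unitInterval.volume_Ici]
        rw [ENNReal.toReal_ofReal]
        linarith [x.2.2]
      rw [hvol, smul_eq_mul] at hlow
      have h0 := (hgb ((j : ℝ) + x) (Function.update o e x)).1
      nlinarith
    · rw [if_neg hx, indicator_of_notMem (show (j : ℝ) + x ∉ Ico t₁ t₂ from hx)]
  have hΨm : Measurable fun p : Cfg V × unitInterval =>
      (Ico t₁ t₂).indicator (fun t => 2 * R t p.1) ((j : ℝ) + p.2) := by
    have h1 : Measurable fun p : Cfg V × unitInterval =>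
        (if (j : ℝ) + p.2 ∈ Ico t₁ t₂ then 2 * R ((j : ℝ) + p.2) p.1 else 0) := by
      refine Measurable.ite ?_ ?_ measurable_const
      · exact (by fun_prop : Measurable fun p : Cfg V × unitInterval => (j : ℝ) + p.2)
          measurableSet_Ico
      · exact (hRm.comp ((by fun_prop : Measurable fun p : Cfg V × unitInterval =>
          (j : ℝ) + p.2).prodMk measurable_fst)).const_mul 2
    have h2 : (fun p : Cfg V × unitInterval =>
        (Ico t₁ t₂).indicator (fun t => 2 * R t p.1) ((j : ℝ) + p.2))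
        = fun p : Cfg V × unitInterval =>
        (if (j : ℝ) + p.2 ∈ Ico t₁ t₂ then 2 * R ((j : ℝ) + p.2) p.1 else 0) := by
      funext p
      rw [indicator_apply]
    rw [h2]
    exact h1
  have hΨb : ∀ p : Cfg V × unitInterval,
      ‖(Ico t₁ t₂).indicator (fun t => 2 * R t p.1) ((j : ℝ) + p.2)‖ ≤ 2 := by
    intro p
    by_cases hp : (j : ℝ) + p.2 ∈ Ico t₁ t₂
    · rw [indicator_of_mem hp, Real.norm_eq_abs, abs_of_nonneg (by linarith [(hRb
        ((j : ℝ) + p.2) p.1).1])]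
      linarith [(hRb ((j : ℝ) + p.2) p.1).2]
    · rw [indicator_of_notMem hp]; simp
  have hΨi : Integrable (fun p : Cfg V × unitInterval =>
      (Ico t₁ t₂).indicator (fun t => 2 * R t p.1) ((j : ℝ) + p.2))
      ((Pc V).prod (volume : Measure unitInterval)) :=
    Integrable.of_bound hΨm.aestronglyMeasurable 2 (Filter.Eventually.of_forall hΨb)
  calc ∫ o, Φ o ∂(Pc V) = ∫ o, (∫ x : unitInterval, Φ (Function.update o e x)) ∂(Pc V) :=
        integral_update e hΦi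
    _ ≤ ∫ o, (∫ x : unitInterval,
          (Ico t₁ t₂).indicator (fun t => 2 * R t o) ((j : ℝ) + x)) ∂(Pc V) := by
        refine integral_mono ?_ hΨi.integral_prod_left fun o => ?_
        · exact ((mp_update (V := V) e).integrable_comp_of_integrable hΦi).integral_prod_left
        · refine integral_mono ?_ ?_ (hpt o)
          · exact Integrable.of_bound ((hΦm.comp ((measurable_upd2 e).comp
              (measurable_const.prodMk measurable_id)))).aestronglyMeasurable 1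
              (Filter.Eventually.of_forall fun x => by
                rw [Real.norm_eq_abs, abs_of_nonneg (hΦb _).1]; exact (hΦb _).2)
          · exact Integrable.of_bound (hΨm.comp
              (measurable_const.prodMk measurable_id)).aestronglyMeasurable 2
              (Filter.Eventually.of_forall fun x => hΨb (o, x))
    _ = ∫ x : unitInterval, (∫ o,
          (Ico t₁ t₂).indicator (fun t => 2 * R t o) ((j : ℝ) + x) ∂(Pc V)) :=
        integral_integral_swap hΨi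
    _ = ∫ x : unitInterval,
          (Ico t₁ t₂).indicator (fun t => 2 * ∫ o, g t o ∂(Pc V)) ((j : ℝ) + x) := by
        congr 1
        ext x
        by_cases hx : (j : ℝ) + x ∈ Ico t₁ t₂
        · simp only [indicator_of_mem hx]
          rw [integral_const_mul, hRint]
        · simp only [indicator_of_notMem hx]
          simp
    _ = ∫ t in t₁..t₂, 2 * ∫ o, g t o ∂(Pc V) :=
        integral_label j hj h12 (by linarith) _
    _ = 2 * ∫ t in t₁..t₂, (∫ o, g t o ∂(Pc V)) := intervalIntegral.integral_const_mul _ _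

open Classical in
theorem star_aux (hC : CHAN) (hS : STT.{u}) (hE : Env G D) (h₁ : Isg G D θ₁ μ₁)
    (h₂ : Isg G D θ₂ μ₂) (Λ₁ Λ₂ : Finset V) (k₁ k₂ : ℕ) (j : ℤ) (v : V) {t₁ t₂ : ℝ}
    (hj : (j : ℝ) ≤ t₁) (h12 : t₁ ≤ t₂) (hj2 : t₂ ≤ j + 1 / 2) :
    ∫ ω, (mk μ₁ Λ₁ k₁ t₂ v ω - mk μ₂ Λ₂ k₂ t₂ v ω) ^ 2 ∂(Pm V)
      - ∫ ω, (mk μ₁ Λ₁ k₁ t₁ v ω - mk μ₂ Λ₂ k₂ t₁ v ω) ^ 2 ∂(Pm V)
    ≤ 2 * ∫ t in t₁..t₂, ∑ w ∈ Λ₁ ∪ Λ₂, ∫ ω, hq μ₁ μ₂ Λ₁ Λ₂ k₁ k₂ j v w t ω ∂(Pm V) := by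
  have := h₁.ising.isProb
  have := h₂.ising.isProb
  obtain ⟨e2, i2⟩ := integral_Dq hS hE h₁ h₂ Λ₁ Λ₂ k₁ k₂ v t₂
  obtain ⟨e1, i1⟩ := integral_Dq hS hE h₁ h₂ Λ₁ Λ₂ k₁ k₂ v t₁
  rw [e1, e2, ← integral_sub i2 i1]
  set φ : V → Cfg V → ℝ := fun w o => if t₁ ≤ tm o (w, j) ∧ tm o (w, j) < t₂ then
        gq μ₁ μ₂ Λ₁ Λ₂ k₁ k₂ j v w (tm o (w, j)) o else 0 with hφ
  have hae : ∀ᵐ o ∂(Pc V), Dq μ₁ μ₂ Λ₁ Λ₂ k₁ k₂ v t₂ o - Dq μ₁ μ₂ Λ₁ Λ₂ k₁ k₂ v t₁ o
      = ∑ w ∈ Λ₁ ∪ Λ₂, φ w o := by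
    filter_upwards [ae_tm_inj (V := V)] with o ho
    rw [Dq_formula hE.tree hC Λ₁ Λ₂ k₁ k₂ v ho hj _ t₂ h12 hj2 rfl, add_sub_cancel_left,
      Finset.sum_filter]
  rw [integral_congr_ae hae]
  have hφi : ∀ w, Integrable (φ w) (Pc V) := by
    intro w
    have hgm := measurable_gq hC hS hE h₁ h₂ Λ₁ Λ₂ k₁ k₂ j v w
    have hgb := gq_bd hC hS hE h₁ h₂ Λ₁ Λ₂ k₁ k₂ j v w
    have htm : Measurable fun o : Cfg V => tm o (w, j) := by
      unfold tm
      exact measurable_const.add (measurable_subtype_coe.comp (measurable_pi_apply _))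
    have hm : Measurable (φ w) := by
      refine Measurable.ite ?_ (hgm.comp (htm.prodMk measurable_id)) measurable_const
      exact (measurableSet_le measurable_const htm).inter (measurableSet_lt htm measurable_const)
    refine Integrable.of_bound hm.aestronglyMeasurable 1 (Filter.Eventually.of_forall fun o => ?_)
    simp only [hφ, Real.norm_eq_abs]
    split_ifs
    · rw [abs_of_nonneg (hgb _ _).1]; exact (hgb _ _).2
    · simp
  rw [integral_finsetSum _ fun w _ => hφi w]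
  have hint : ∀ w ∈ Λ₁ ∪ Λ₂, IntervalIntegrable
      (fun t => ∫ ω, hq μ₁ μ₂ Λ₁ Λ₂ k₁ k₂ j v w t ω ∂(Pm V)) volume t₁ t₂ := by
    intro w _
    have hm : Measurable fun t => ∫ ω, hq μ₁ μ₂ Λ₁ Λ₂ k₁ k₂ j v w t ω ∂(Pm V) :=
      ((measurable_hq hC hS hE h₁ h₂ Λ₁ Λ₂ k₁ k₂ j v w).stronglyMeasurable.integral_prod_right'
        (ν := Pm V)).measurable
    rw [intervalIntegrable_iff]
    refine Measure.integrableOn_of_bounded (M := 1) ?_ hm.aestronglyMeasurable ?_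
    · simp
    · refine Filter.Eventually.of_forall fun t => ?_
      have := norm_integral_le_of_norm_le_const (μ := Pm V)
        (f := fun ω => hq μ₁ μ₂ Λ₁ Λ₂ k₁ k₂ j v w t ω)
        (C := 1) (Filter.Eventually.of_forall fun ω => by
          rw [Real.norm_eq_abs, abs_of_nonneg (hq_bd hC hS hE h₁ h₂ Λ₁ Λ₂ k₁ k₂ j v w t ω).1]
          exact (hq_bd hC hS hE h₁ h₂ Λ₁ Λ₂ k₁ k₂ j v w t ω).2)
      simpa using this
  rw [intervalIntegral.integral_finsetSum hint, Finset.mul_sum]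
  refine Finset.sum_le_sum fun w _ => ?_
  have := vertex_bound hC hS hE h₁ h₂ Λ₁ Λ₂ k₁ k₂ j v w hj h12 hj2
  simp only [integral_hq hC hS hE h₁ h₂ Λ₁ Λ₂ k₁ k₂ j v w]
  exact this

end main

/-- STAR -/
theorem star_proof (hC : CHAN) (hS : STT.{u}) : STAR.{u} := by
  intro V _ G _ D θ₁ θ₂ μ₁ μ₂ hE h₁ h₂ Λ₁ Λ₂ k₁ k₂ v j t₁ t₂ hj h12 hj2
  exact star_aux hC hS hE h₁ h₂ Λ₁ Λ₂ k₁ k₂ j v hj h12 hj2

end P161C
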