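import Vale.Agent.P161C.Base

/-!
# P161 at the critical point: STARI, the increment inequality in infinite volume
-/

open MeasureTheory Set Filter Topology

namespace P161C

open P161

universe u

variable {V : Type u}

namespace Stari

/-! ### Elementary estimates -/

theorem den_ge {θ α : ℝ} (h1 : θ ^ 2 ≤ 1 / 2) (hα : |α| ≤ 1) :
    1 / 2 ≤ 1 - θ ^ 2 * α ^ 2 := by
  have h2 : α ^ 2 ≤ 1 := by
    rw [← sq_abs]; exact pow_le_one₀ (abs_nonneg _) hα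
  nlinarith [sq_nonneg α, sq_nonneg θ]

theorem kap_le {θ α : ℝ} (h0 : 0 ≤ θ) (h1 : θ ^ 2 ≤ 1 / 2) (hα : |α| ≤ 1) :
    |kap θ α| ≤ θ := by
  have hd := den_ge h1 hα
  have h2 : α ^ 2 ≤ 1 := by
    rw [← sq_abs]; exact pow_le_one₀ (abs_nonneg _) hα
  have h3 : θ ^ 2 * α ^ 2 ≤ α ^ 2 := by nlinarith [sq_nonneg α, sq_nonneg θ]
  unfold kap
  rw [abs_of_nonneg (div_nonneg (mul_nonneg h0 (by linarith)) (by linarith)),
    div_le_iff₀ (by linarith)]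
  exact mul_le_mul_of_nonneg_left (by linarith) h0

theorem kap_lip {θ α β : ℝ} (h0 : 0 ≤ θ) (h1 : θ ^ 2 ≤ 1 / 2) (hα : |α| ≤ 1) (hβ : |β| ≤ 1) :
    |kap θ α - kap θ β| ≤ 8 * |α - β| := by
  have ha := den_ge h1 hα
  have hb := den_ge h1 hβ
  have hθ1 : θ ≤ 1 := by nlinarith
  have e : kap θ α - kap θ β = (θ * (1 - θ ^ 2)) * ((β + α) * (β - α))
      / ((1 - θ ^ 2 * α ^ 2) * (1 - θ ^ 2 * β ^ 2)) := by
    unfold kap
    rw [div_sub_div _ _ (by linarith) (by linarith)]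
    congr 1
    ring
  have hprod : 1 / 4 ≤ (1 - θ ^ 2 * α ^ 2) * (1 - θ ^ 2 * β ^ 2) := by nlinarith
  rw [e, abs_div, div_le_iff₀ (abs_pos.mpr (by linarith)), abs_mul, abs_mul (β + α),
    abs_sub_comm β α, abs_of_nonneg (show (0 : ℝ) ≤ (1 - θ ^ 2 * α ^ 2) * (1 - θ ^ 2 * β ^ 2) by
      linarith)]
  have h2 : |θ * (1 - θ ^ 2)| ≤ 1 := by
    rw [abs_of_nonneg (mul_nonneg h0 (by linarith))]
    nlinarith [sq_nonneg θ]
  have h3 : |β + α| ≤ 2 := (abs_add_le _ _).trans (by linarith)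
  have h4 : 0 ≤ |α - β| := abs_nonneg _
  have h5 : |β + α| * |α - β| ≤ 2 * |α - β| := mul_le_mul_of_nonneg_right h3 h4
  have h6 : |θ * (1 - θ ^ 2)| * (|β + α| * |α - β|) ≤ 1 * (2 * |α - β|) :=
    mul_le_mul h2 h5 (by positivity) zero_le_one
  nlinarith

theorem msg_le (hM : MSG) {θ x y : ℝ} (h0 : 0 ≤ θ) (h1 : θ ^ 2 ≤ 1 / 2) (hx : |x| ≤ 1)
    (hy : |y| ≤ 1) : |msg θ x y| ≤ 1 := by
  obtain ⟨C, hC0, hC⟩ := hM.lip
  refine le_of_forall_pos_le_add fun ε hε => ?_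
  obtain ⟨δ, hδ0, hδ1, hδ⟩ : ∃ δ : ℝ, 0 < δ ∧ δ < 1 ∧ C * δ ≤ ε := by
    refine ⟨min (1 / 2) (ε / C), by positivity, ?_, ?_⟩
    · exact (min_le_left _ _).trans_lt (by norm_num)
    · calc C * min (1 / 2) (ε / C) ≤ C * (ε / C) :=
            mul_le_mul_of_nonneg_left (min_le_right _ _) hC0.le
        _ = ε := by field_simp
  obtain ⟨r', -, hr', h⟩ := hM.lt_one (1 - δ) (by linarith)
  have hx' : |(1 - δ) * x| ≤ 1 - δ := by
    rw [abs_mul, abs_of_pos (by linarith : (0 : ℝ) < 1 - δ)]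
    exact mul_le_of_le_one_right (by linarith) hx
  have h2 := h θ ((1 - δ) * x) y h0 h1 hx' hy
  have h3 := hC θ x y ((1 - δ) * x) y h0 h1 hx hy (hx'.trans (by linarith)) hy
  have h4 : |x - (1 - δ) * x| ≤ δ := by
    have : x - (1 - δ) * x = δ * x := by ring
    rw [this, abs_mul, abs_of_pos hδ0]
    exact mul_le_of_le_one_right hδ0.le hx
  have h5 : |msg θ x y| ≤ |msg θ ((1 - δ) * x) y| + |msg θ x y - msg θ ((1 - δ) * x) y| := by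
    have := abs_add_le (msg θ ((1 - δ) * x) y) (msg θ x y - msg θ ((1 - δ) * x) y)
    simpa using this
  rw [sub_self, abs_zero, add_zero] at h3
  have h6 : C * |x - (1 - δ) * x| ≤ C * δ := mul_le_mul_of_nonneg_left h4 hC0.le
  linarith

theorem prod_le {ι : Type*} (s : Finset ι) (a : ι → ℝ) {c : ℝ} (ha : ∀ i ∈ s, |a i| ≤ c) :
    |∏ i ∈ s, a i| ≤ c ^ s.card := by
  rw [Finset.abs_prod]
  calc ∏ i ∈ s, |a i| ≤ ∏ _i ∈ s, c := Finset.prod_le_prod (fun i _ => abs_nonneg _) ha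
    _ = c ^ s.card := by rw [Finset.prod_const]

theorem prod_lip {ι : Type*} (s : Finset ι) (a b : ι → ℝ) {e : ℝ}
    (ha : ∀ i ∈ s, |a i| ≤ 1) (hb : ∀ i ∈ s, |b i| ≤ 1) (hab : ∀ i ∈ s, |a i - b i| ≤ e) :
    |∏ i ∈ s, a i - ∏ i ∈ s, b i| ≤ s.card * e := by
  classical
  induction s using Finset.induction_on with
  | empty => simp
  | insert j s hj ih =>
    rw [Finset.prod_insert hj, Finset.prod_insert hj, Finset.card_insert_of_notMem hj]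
    have h1 := ih (fun i hi => ha i (Finset.mem_insert_of_mem hi))
      (fun i hi => hb i (Finset.mem_insert_of_mem hi))
      (fun i hi => hab i (Finset.mem_insert_of_mem hi))
    have h2 : |∏ i ∈ s, a i| ≤ 1 := by
      have := prod_le s a (c := 1) (fun i hi => ha i (Finset.mem_insert_of_mem hi))
      simpa using this
    have h3 := hab j (Finset.mem_insert_self _ _)
    have h4 := hb j (Finset.mem_insert_self _ _)
    have e1 : a j * ∏ i ∈ s, a i - b j * ∏ i ∈ s, b i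
        = (a j - b j) * ∏ i ∈ s, a i + b j * (∏ i ∈ s, a i - ∏ i ∈ s, b i) := by ring
    rw [e1]
    have h5 := abs_add_le ((a j - b j) * ∏ i ∈ s, a i)
      (b j * (∏ i ∈ s, a i - ∏ i ∈ s, b i))
    rw [abs_mul, abs_mul] at h5
    have h6 : |a j - b j| * |∏ i ∈ s, a i| ≤ e * 1 :=
      mul_le_mul h3 h2 (abs_nonneg _) ((abs_nonneg _).trans h3)
    have h7 : |b j| * |∏ i ∈ s, a i - ∏ i ∈ s, b i| ≤ 1 * (s.card * e) :=
      mul_le_mul h4 h1 (abs_nonneg _) zero_le_one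
    push_cast
    linarith

theorem three_lip {a b c a' b' c' : ℝ} (hb : |b| ≤ 1) (hc : |c| ≤ 1)
    (ha' : |a'| ≤ 1) (hb' : |b'| ≤ 1) :
    |a * b * c - a' * b' * c'| ≤ |a - a'| + |b - b'| + |c - c'| := by
  have e : a * b * c - a' * b' * c' = (a - a') * (b * c) + (b - b') * (a' * c)
      + (c - c') * (a' * b') := by ring
  rw [e]
  have h1 := abs_add_three ((a - a') * (b * c)) ((b - b') * (a' * c)) ((c - c') * (a' * b'))
  have h2 : |(a - a') * (b * c)| ≤ |a - a'| := by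
    rw [abs_mul, abs_mul]
    exact mul_le_of_le_one_right (abs_nonneg _) (mul_le_one₀ hb (abs_nonneg _) hc)
  have h3 : |(b - b') * (a' * c)| ≤ |b - b'| := by
    rw [abs_mul, abs_mul]
    exact mul_le_of_le_one_right (abs_nonneg _) (mul_le_one₀ ha' (abs_nonneg _) hc)
  have h4 : |(c - c') * (a' * b')| ≤ |c - c'| := by
    rw [abs_mul, abs_mul]
    exact mul_le_of_le_one_right (abs_nonneg _) (mul_le_one₀ ha' (abs_nonneg _) hb')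
  linarith

/-- the covariance functional is bounded by `θ ^ n` -/
theorem cvp_le (hM : MSG) (G : SimpleGraph V) {θ : ℝ} (h0 : 0 ≤ θ) (h1 : θ ^ 2 ≤ 1 / 2)
    (M : V → ℝ) (hMb : ∀ x, |M x| ≤ 1) (v w : V) : |cvp G θ M v w| ≤ θ ^ (G.dist v w) := by
  unfold cvp
  have a1 := prod_le (Finset.range (G.dist v w / 2))
    (fun i => kap θ (ms θ M (geo G v w i) (geo G v w (i + 1)))) (c := θ)
    (fun i _ => kap_le h0 h1 (msg_le hM h0 h1 (hMb _) (hMb _)))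
  have a2 := prod_le (Finset.Ico (G.dist v w / 2) (G.dist v w))
    (fun i => kap θ (ms θ M (geo G v w (i + 1)) (geo G v w i))) (c := θ)
    (fun i _ => kap_le h0 h1 (msg_le hM h0 h1 (hMb _) (hMb _)))
  rw [Finset.card_range] at a1
  rw [Nat.card_Ico] at a2
  have a3 : |1 - M (geo G v w (G.dist v w / 2)) ^ 2| ≤ 1 := by
    have h2 : M (geo G v w (G.dist v w / 2)) ^ 2 ≤ 1 := by
      rw [← sq_abs]; exact pow_le_one₀ (abs_nonneg _) (hMb _)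
    rw [abs_le]
    constructor <;> nlinarith [sq_nonneg (M (geo G v w (G.dist v w / 2)))]
  rw [abs_mul, abs_mul]
  calc _ ≤ θ ^ (G.dist v w / 2) * 1 * θ ^ (G.dist v w - G.dist v w / 2) :=
        mul_le_mul (mul_le_mul a1 a3 (abs_nonneg _) (by positivity)) a2 (abs_nonneg _)
          (by positivity)
    _ = θ ^ (G.dist v w) := by
        rw [mul_one, ← pow_add]
        congr 1
        omega

theorem cvp_lip (hM : MSG) (G : SimpleGraph V) {θ : ℝ} (h0 : 0 ≤ θ) (h1 : θ ^ 2 ≤ 1 / 2)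
    (v w : V) : ∃ K : ℝ, 0 ≤ K ∧ ∀ M M' : V → ℝ, (∀ x, |M x| ≤ 1) → (∀ x, |M' x| ≤ 1) →
      |cvp G θ M v w - cvp G θ M' v w| ≤
        K * ∑ i ∈ Finset.range (G.dist v w + 1), |M (geo G v w i) - M' (geo G v w i)| := by
  obtain ⟨C, hC0, hC⟩ := hM.lip
  obtain ⟨n, hn⟩ : ∃ n, n = G.dist v w := ⟨_, rfl⟩
  refine ⟨n * (16 * C) + 2, by positivity, fun M M' hb hb' => ?_⟩
  have hθ1 : θ ≤ 1 := by nlinarith
  obtain ⟨S, hS⟩ : ∃ S, S = ∑ i ∈ Finset.range (G.dist v w + 1),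
    |M (geo G v w i) - M' (geo G v w i)| := ⟨_, rfl⟩
  rw [← hS]
  have hS0 : 0 ≤ S := by rw [hS]; exact Finset.sum_nonneg fun _ _ => abs_nonneg _
  have hle : ∀ i, i ≤ n → |M (geo G v w i) - M' (geo G v w i)| ≤ S := by
    intro i hi
    rw [hS]
    exact Finset.single_le_sum (f := fun i => |M (geo G v w i) - M' (geo G v w i)|)
      (fun _ _ => abs_nonneg _) (Finset.mem_range.mpr (by omega))
  have hk : ∀ i j, i ≤ n → j ≤ n → |kap θ (ms θ M (geo G v w i) (geo G v w j))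
      - kap θ (ms θ M' (geo G v w i) (geo G v w j))| ≤ 16 * C * S := by
    intro i j hi hj
    refine (kap_lip h0 h1 (msg_le hM h0 h1 (hb _) (hb _))
      (msg_le hM h0 h1 (hb' _) (hb' _))).trans ?_
    have h2 := hC θ (M (geo G v w i)) (M (geo G v w j)) (M' (geo G v w i)) (M' (geo G v w j))
      h0 h1 (hb _) (hb _) (hb' _) (hb' _)
    have h3 := hle i hi
    have h4 := hle j hj
    have h5 : C * (|M (geo G v w i) - M' (geo G v w i)| + |M (geo G v w j) - M' (geo G v w j)|)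
        ≤ C * (S + S) := mul_le_mul_of_nonneg_left (by linarith) hC0.le
    have h6 : 8 * |msg θ (M (geo G v w i)) (M (geo G v w j))
        - msg θ (M' (geo G v w i)) (M' (geo G v w j))| ≤ 16 * C * S := by linarith
    exact h6
  have hk1 : ∀ (M : V → ℝ), (∀ x, |M x| ≤ 1) → ∀ x y, |kap θ (ms θ M x y)| ≤ 1 :=
    fun M hb x y => (kap_le h0 h1 (msg_le hM h0 h1 (hb _) (hb _))).trans hθ1
  unfold cvp
  have q1 := prod_lip (Finset.range (G.dist v w / 2))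
    (fun i => kap θ (ms θ M (geo G v w i) (geo G v w (i + 1))))
    (fun i => kap θ (ms θ M' (geo G v w i) (geo G v w (i + 1)))) (e := 16 * C * S)
    (fun i _ => hk1 M hb _ _) (fun i _ => hk1 M' hb' _ _)
    (fun i hi => hk _ _ (by rw [Finset.mem_range] at hi; omega)
      (by rw [Finset.mem_range] at hi; omega))
  have q3 := prod_lip (Finset.Ico (G.dist v w / 2) (G.dist v w))
    (fun i => kap θ (ms θ M (geo G v w (i + 1)) (geo G v w i)))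
    (fun i => kap θ (ms θ M' (geo G v w (i + 1)) (geo G v w i))) (e := 16 * C * S)
    (fun i _ => hk1 M hb _ _) (fun i _ => hk1 M' hb' _ _)
    (fun i hi => hk _ _ (by rw [Finset.mem_Ico] at hi; omega)
      (by rw [Finset.mem_Ico] at hi; omega))
  have p1 : ∀ (M : V → ℝ), (∀ x, |M x| ≤ 1) → ∀ (s : Finset ℕ) (f g : ℕ → V),
      |∏ i ∈ s, kap θ (ms θ M (f i) (g i))| ≤ 1 := fun M hb s f g => by
    have := prod_le s (fun i => kap θ (ms θ M (f i) (g i))) (c := 1) (fun i _ => hk1 M hb _ _)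
    simpa using this
  have m1 : ∀ (M : V → ℝ), (∀ x, |M x| ≤ 1) → ∀ x, |1 - M x ^ 2| ≤ 1 := fun M hb x => by
    have h2 : M x ^ 2 ≤ 1 := by
      rw [← sq_abs]; exact pow_le_one₀ (abs_nonneg _) (hb _)
    rw [abs_le]
    constructor <;> nlinarith [sq_nonneg (M x)]
  have q2 : |(1 - M (geo G v w (G.dist v w / 2)) ^ 2)
      - (1 - M' (geo G v w (G.dist v w / 2)) ^ 2)| ≤ 2 * S := by
    have h2 := hle (G.dist v w / 2) (by omega)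
    have e : (1 - M (geo G v w (G.dist v w / 2)) ^ 2) - (1 - M' (geo G v w (G.dist v w / 2)) ^ 2)
        = -((M (geo G v w (G.dist v w / 2)) + M' (geo G v w (G.dist v w / 2)))
          * (M (geo G v w (G.dist v w / 2)) - M' (geo G v w (G.dist v w / 2)))) := by ring
    rw [e, abs_neg, abs_mul]
    have b1 := hb (geo G v w (G.dist v w / 2))
    have b2 := hb' (geo G v w (G.dist v w / 2))
    have h3 : |M (geo G v w (G.dist v w / 2)) + M' (geo G v w (G.dist v w / 2))| ≤ 2 :=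
      (abs_add_le _ _).trans (by linarith)
    exact mul_le_mul h3 h2 (abs_nonneg _) (by norm_num)
  refine (three_lip (m1 M hb _) (p1 M hb _ _ _) (p1 M' hb' _ _ _)
    (m1 M' hb' _)).trans ?_
  rw [Finset.card_range] at q1
  rw [Nat.card_Ico] at q3
  have hcast : ((G.dist v w / 2 : ℕ) : ℝ) + ((G.dist v w - G.dist v w / 2 : ℕ) : ℝ) = n := by
    rw [hn]
    exact_mod_cast (by omega : G.dist v w / 2 + (G.dist v w - G.dist v w / 2) = G.dist v w)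
  have hfin : ((G.dist v w / 2 : ℕ) : ℝ) * (16 * C * S)
      + ((G.dist v w - G.dist v w / 2 : ℕ) : ℝ) * (16 * C * S) = n * (16 * C) * S := by
    rw [← add_mul, hcast]; ring
  linarith

/-! ### Convergence in mean -/

section T1

variable {Ω : Type*} {mΩ : MeasurableSpace Ω} {P : Measure Ω}

/-- convergence in mean -/
def T1 (P : Measure Ω) (f : ℕ → Ω → ℝ) (g : Ω → ℝ) : Prop :=
  Tendsto (fun R => ∫ ω, |f R ω - g ω| ∂P) atTop (𝓝 0)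

theorem bdd_int [IsFiniteMeasure P] {f : Ω → ℝ} (hf : Measurable f) {C : ℝ}
    (hb : ∀ ω, |f ω| ≤ C) : Integrable f P :=
  Integrable.of_bound hf.aestronglyMeasurable C
    (Eventually.of_forall fun ω => by rw [Real.norm_eq_abs]; exact hb ω)

theorem abs_sub_le_two {x y : ℝ} (hx : |x| ≤ 1) (hy : |y| ≤ 1) : |x - y| ≤ 2 := by
  have h := abs_sub x y
  linarith

theorem T1.of_L2 [IsProbabilityMeasure P] {f : ℕ → Ω → ℝ} {g : Ω → ℝ}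
    (hf : ∀ R, Measurable (f R)) (hg : Measurable g)
    (bf : ∀ R ω, |f R ω| ≤ 1) (bg : ∀ ω, |g ω| ≤ 1) (h : TendL2 P f g) : T1 P f g := by
  have h1 : ∀ R, (∫ ω, |f R ω - g ω| ∂P) ^ 2 ≤ ∫ ω, (f R ω - g ω) ^ 2 ∂P := by
    intro R
    obtain ⟨c, hc⟩ : ∃ c, c = ∫ ω, |f R ω - g ω| ∂P := ⟨_, rfl⟩
    have i1 : Integrable (fun ω => |f R ω - g ω|) P :=
      bdd_int ((hf R).sub hg).abs (C := 2) fun ω => by
        rw [abs_abs]; exact abs_sub_le_two (bf R ω) (bg ω)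
    have i2 : Integrable (fun ω => (f R ω - g ω) ^ 2) P :=
      bdd_int (((hf R).sub hg).pow_const 2) (C := 4) fun ω => by
        rw [abs_pow]
        have := abs_sub_le_two (bf R ω) (bg ω)
        have h0 := abs_nonneg (f R ω - g ω)
        nlinarith
    have hnn : 0 ≤ ∫ ω, (|f R ω - g ω| - c) ^ 2 ∂P := integral_nonneg fun _ => sq_nonneg _
    have e : ∀ ω, (|f R ω - g ω| - c) ^ 2
        = (f R ω - g ω) ^ 2 - 2 * c * |f R ω - g ω| + c ^ 2 := by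
      intro ω; rw [sub_sq, sq_abs]; ring
    simp_rw [e] at hnn
    have i3 : Integrable (fun ω => 2 * c * |f R ω - g ω|) P := i1.const_mul _
    have i4 : Integrable (fun ω => (f R ω - g ω) ^ 2 - 2 * c * |f R ω - g ω|) P := i2.sub i3
    have e1 : ∫ ω, ((f R ω - g ω) ^ 2 - 2 * c * |f R ω - g ω| + c ^ 2) ∂P
        = (∫ ω, ((f R ω - g ω) ^ 2 - 2 * c * |f R ω - g ω|) ∂P) + ∫ _ω, c ^ 2 ∂P :=
      integral_add i4 (integrable_const _)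
    have e2 : ∫ ω, ((f R ω - g ω) ^ 2 - 2 * c * |f R ω - g ω|) ∂P
        = (∫ ω, (f R ω - g ω) ^ 2 ∂P) - ∫ ω, 2 * c * |f R ω - g ω| ∂P := integral_sub i2 i3
    rw [e1, e2, integral_const_mul, ← hc, integral_const, probReal_univ, smul_eq_mul,
      one_mul] at hnn
    rw [← hc]
    nlinarith
  have h2 : Tendsto (fun R => Real.sqrt (∫ ω, (f R ω - g ω) ^ 2 ∂P)) atTop (𝓝 0) := by
    have := (Real.continuous_sqrt.tendsto 0).comp h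
    rw [Real.sqrt_zero] at this
    exact this
  refine squeeze_zero (fun R => integral_nonneg fun _ => abs_nonneg _) (fun R => ?_) h2
  exact Real.le_sqrt_of_sq_le (h1 R)

theorem T1.of_le {F : ℕ → Ω → ℝ} {F₀ : Ω → ℝ} {ι : Type*} (I : Finset ι)
    {f : ι → ℕ → Ω → ℝ} {g : ι → Ω → ℝ} {K : ℝ}
    (hi : ∀ i ∈ I, ∀ R, Integrable (fun ω => |f i R ω - g i ω|) P)
    (h : ∀ i ∈ I, T1 P (f i) (g i))
    (hle : ∀ R ω, |F R ω - F₀ ω| ≤ K * ∑ i ∈ I, |f i R ω - g i ω|) : T1 P F F₀ := by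
  have h2 : Tendsto (fun R => K * ∑ i ∈ I, ∫ ω, |f i R ω - g i ω| ∂P) atTop (𝓝 0) := by
    have := (tendsto_finsetSum I h).const_mul K
    simpa using this
  refine squeeze_zero (fun R => integral_nonneg fun _ => abs_nonneg _) (fun R => ?_) h2
  rw [← integral_finsetSum I fun i hi' => hi i hi' R, ← integral_const_mul]
  refine integral_mono_of_nonneg (Eventually.of_forall fun _ => abs_nonneg _)
    ((integrable_finsetSum I fun i hi' => hi i hi' R).const_mul K)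
    (Eventually.of_forall fun ω => hle R ω)

theorem T1.int {F : ℕ → Ω → ℝ} {F₀ : Ω → ℝ} (h : T1 P F F₀) (hF : ∀ R, Integrable (F R) P)
    (hF₀ : Integrable F₀ P) :
    Tendsto (fun R => ∫ ω, F R ω ∂P) atTop (𝓝 (∫ ω, F₀ ω ∂P)) := by
  rw [tendsto_iff_norm_sub_tendsto_zero]
  refine squeeze_zero (fun R => norm_nonneg _) (fun R => ?_) h
  rw [← integral_sub (hF R) hF₀, Real.norm_eq_abs]
  exact abs_integral_le_integral_abs

end T1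

section cvp

variable {Ω : Type*} {mΩ : MeasurableSpace Ω} {P : Measure Ω}

theorem measurable_kms {θ : ℝ} {m : V → Ω → ℝ} (hm : ∀ x, Measurable (m x)) (a b : V) :
    Measurable fun ω => kap θ (ms θ (fun x => m x ω) a b) := by
  have ha := hm a
  have hb := hm b
  unfold ms msg kap
  fun_prop

theorem measurable_cvp (G : SimpleGraph V) {θ : ℝ} {m : V → Ω → ℝ} (hm : ∀ x, Measurable (m x))
    (v w : V) : Measurable fun ω => cvp G θ (fun x => m x ω) v w := by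
  unfold cvp
  exact ((Finset.measurable_fun_prod _ fun i _ => measurable_kms hm _ _).mul
    (measurable_const.sub ((hm _).pow_const 2))).mul
    (Finset.measurable_fun_prod _ fun i _ => measurable_kms hm _ _)

theorem T1_cvp [IsFiniteMeasure P] (hM : MSG) (G : SimpleGraph V) {θ : ℝ} (h0 : 0 ≤ θ)
    (h1 : θ ^ 2 ≤ 1 / 2)
    (v w : V) {m : ℕ → V → Ω → ℝ} {X : V → Ω → ℝ} (hm : ∀ R x, Measurable (m R x))
    (hX : ∀ x, Measurable (X x)) (bm : ∀ R x ω, |m R x ω| ≤ 1) (bX : ∀ x ω, |X x ω| ≤ 1)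
    (h : ∀ x, T1 P (fun R => m R x) (X x)) :
    T1 P (fun R ω => cvp G θ (fun x => m R x ω) v w) (fun ω => cvp G θ (fun x => X x ω) v w) := by
  obtain ⟨K, hK0, hK⟩ := cvp_lip hM G h0 h1 v w
  refine T1.of_le (Finset.range (G.dist v w + 1)) (f := fun i R ω => m R (geo G v w i) ω)
    (g := fun i ω => X (geo G v w i) ω) (K := K) (fun i _ R => ?_) (fun i _ => h _)
    (fun R ω => hK _ _ (fun x => bm R x ω) (fun x => bX x ω))
  exact bdd_int (((hm R _).sub (hX _)).abs) (C := 2) fun ω => by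
    rw [abs_abs]; exact abs_sub_le_two (bm R _ ω) (bX _ ω)

end cvp

/-! ### The integrand -/

/-- the integrand of the increment inequality -/
noncomputable def Q (a c₁ c₂ m₁ m₂ : ℝ) : ℝ :=
  8 * a ^ 2 * (c₁ - c₂) ^ 2 + 18 * a ^ 4 * (c₂ ^ 2 * (m₁ - m₂) ^ 2)

theorem Q_nonneg (a c₁ c₂ m₁ m₂ : ℝ) : 0 ≤ Q a c₁ c₂ m₁ m₂ := by unfold Q; positivity

theorem coef {a : ℝ} (h0 : 0 ≤ a) (h1 : a ≤ 1 / 8) : 8 * a ^ 2 ≤ 1 / 8 ∧ 18 * a ^ 4 ≤ 1 / 8 := by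
  have h2 : a ^ 2 ≤ 1 / 64 := by nlinarith
  have h3 : a ^ 4 ≤ 1 / 4096 := by nlinarith [sq_nonneg a]
  constructor <;> linarith

theorem Q_le {a c₁ c₂ m₁ m₂ : ℝ} (h0 : 0 ≤ a) (h1 : a ≤ 1 / 8) (hc₁ : |c₁| ≤ 1)
    (hc₂ : |c₂| ≤ 1) (hm₁ : |m₁| ≤ 1) (hm₂ : |m₂| ≤ 1) : Q a c₁ c₂ m₁ m₂ ≤ 1 := by
  unfold Q
  obtain ⟨k1, k2⟩ := coef h0 h1
  have e1 : (c₁ - c₂) ^ 2 ≤ 4 := by
    have h := abs_sub_le_two hc₁ hc₂
    rw [← sq_abs]; nlinarith [abs_nonneg (c₁ - c₂)]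
  have e2 : (m₁ - m₂) ^ 2 ≤ 4 := by
    have h := abs_sub_le_two hm₁ hm₂
    rw [← sq_abs]; nlinarith [abs_nonneg (m₁ - m₂)]
  have e3 : c₂ ^ 2 ≤ 1 := by
    rw [← sq_abs]; exact pow_le_one₀ (abs_nonneg _) hc₂
  have e4 : c₂ ^ 2 * (m₁ - m₂) ^ 2 ≤ 1 * 4 := mul_le_mul e3 e2 (sq_nonneg _) zero_le_one
  have e5 : 8 * a ^ 2 * (c₁ - c₂) ^ 2 ≤ 1 / 8 * 4 :=
    mul_le_mul k1 e1 (sq_nonneg _) (by norm_num)
  have e6 : 18 * a ^ 4 * (c₂ ^ 2 * (m₁ - m₂) ^ 2) ≤ 1 / 8 * (1 * 4) :=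
    mul_le_mul k2 e4 (by positivity) (by norm_num)
  linarith

theorem sq_lip {x y x' y' : ℝ} (hx : |x| ≤ 1) (hy : |y| ≤ 1) (hx' : |x'| ≤ 1) (hy' : |y'| ≤ 1) :
    |(x - y) ^ 2 - (x' - y') ^ 2| ≤ 4 * (|x - x'| + |y - y'|) := by
  have e : (x - y) ^ 2 - (x' - y') ^ 2 = ((x - y) + (x' - y')) * ((x - x') + -(y - y')) := by ring
  rw [e, abs_mul]
  have h1 := abs_add_le (x - y) (x' - y')
  have h2 := abs_add_le (x - x') (-(y - y'))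
  rw [abs_neg] at h2
  have h3 := abs_sub_le_two hx hy
  have h4 := abs_sub_le_two hx' hy'
  exact mul_le_mul (by linarith) h2 (abs_nonneg _) (by norm_num)

theorem Q_lip {a c₁ c₂ m₁ m₂ c₁' c₂' m₁' m₂' : ℝ} (h0 : 0 ≤ a) (h1 : a ≤ 1 / 8)
    (hc₁ : |c₁| ≤ 1) (hc₂ : |c₂| ≤ 1) (hm₁ : |m₁| ≤ 1) (hm₂ : |m₂| ≤ 1) (hc₁' : |c₁'| ≤ 1)
    (hc₂' : |c₂'| ≤ 1) (hm₁' : |m₁'| ≤ 1) (hm₂' : |m₂'| ≤ 1) :
    |Q a c₁ c₂ m₁ m₂ - Q a c₁' c₂' m₁' m₂'|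
      ≤ 16 * (|c₁ - c₁'| + |c₂ - c₂'| + |m₁ - m₁'| + |m₂ - m₂'|) := by
  obtain ⟨k1, k2⟩ := coef h0 h1
  have e : Q a c₁ c₂ m₁ m₂ - Q a c₁' c₂' m₁' m₂'
      = 8 * a ^ 2 * ((c₁ - c₂) ^ 2 - (c₁' - c₂') ^ 2)
        + 18 * a ^ 4 * ((c₂ - 0) ^ 2 - (c₂' - 0) ^ 2) * (m₁ - m₂) ^ 2
        + 18 * a ^ 4 * c₂' ^ 2 * ((m₁ - m₂) ^ 2 - (m₁' - m₂') ^ 2) := by
    unfold Q; ring
  rw [e]
  have h2 := sq_lip hc₁ hc₂ hc₁' hc₂'
  have h3 := sq_lip hc₂ (by simp : |(0 : ℝ)| ≤ 1) hc₂' (by simp : |(0 : ℝ)| ≤ 1)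
  have h4 := sq_lip hm₁ hm₂ hm₁' hm₂'
  have h5 : (m₁ - m₂) ^ 2 ≤ 4 := by
    have h := abs_sub_le_two hm₁ hm₂
    rw [← sq_abs]; nlinarith [abs_nonneg (m₁ - m₂)]
  have h6 : c₂' ^ 2 ≤ 1 := by
    rw [← sq_abs]; exact pow_le_one₀ (abs_nonneg _) hc₂'
  simp only [sub_self, abs_zero, add_zero] at h3
  have t1 : |8 * a ^ 2 * ((c₁ - c₂) ^ 2 - (c₁' - c₂') ^ 2)|
      ≤ 1 / 8 * (4 * (|c₁ - c₁'| + |c₂ - c₂'|)) := by
    rw [abs_mul, abs_of_nonneg (by positivity : (0 : ℝ) ≤ 8 * a ^ 2)]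
    exact mul_le_mul k1 h2 (abs_nonneg _) (by norm_num)
  have t2 : |18 * a ^ 4 * ((c₂ - 0) ^ 2 - (c₂' - 0) ^ 2) * (m₁ - m₂) ^ 2|
      ≤ 1 / 8 * (4 * |c₂ - c₂'|) * 4 := by
    rw [abs_mul, abs_mul, abs_of_nonneg (by positivity : (0 : ℝ) ≤ 18 * a ^ 4),
      abs_of_nonneg (sq_nonneg (m₁ - m₂))]
    exact mul_le_mul (mul_le_mul k2 h3 (abs_nonneg _) (by norm_num)) h5 (sq_nonneg _)
      (by positivity)
  have t3 : |18 * a ^ 4 * c₂' ^ 2 * ((m₁ - m₂) ^ 2 - (m₁' - m₂') ^ 2)|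
      ≤ 1 / 8 * 1 * (4 * (|m₁ - m₁'| + |m₂ - m₂'|)) := by
    rw [abs_mul, abs_of_nonneg (by positivity : (0 : ℝ) ≤ 18 * a ^ 4 * c₂' ^ 2)]
    exact mul_le_mul (mul_le_mul k2 h6 (sq_nonneg _) (by norm_num)) h4 (abs_nonneg _)
      (by norm_num)
  have t4 := abs_add_three (8 * a ^ 2 * ((c₁ - c₂) ^ 2 - (c₁' - c₂') ^ 2))
    (18 * a ^ 4 * ((c₂ - 0) ^ 2 - (c₂' - 0) ^ 2) * (m₁ - m₂) ^ 2)
    (18 * a ^ 4 * c₂' ^ 2 * ((m₁ - m₂) ^ 2 - (m₁' - m₂') ^ 2))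
  have n1 := abs_nonneg (c₁ - c₁')
  have n2 := abs_nonneg (c₂ - c₂')
  have n3 := abs_nonneg (m₁ - m₁')
  have n4 := abs_nonneg (m₂ - m₂')
  linarith

theorem inc_le_Q {a c₁ c₂ m₁ m₂ I₁ I₂ : ℝ} (h1 : |I₁| ≤ 2 * a)
    (h2 : |I₁ - I₂| ≤ 3 * a ^ 2 * |m₁ - m₂|) : (c₁ * I₁ - c₂ * I₂) ^ 2 ≤ Q a c₁ c₂ m₁ m₂ := by
  have e : c₁ * I₁ - c₂ * I₂ = (c₁ - c₂) * I₁ + c₂ * (I₁ - I₂) := by ring
  have h3 : I₁ ^ 2 ≤ 4 * a ^ 2 := by
    rw [← sq_abs]; nlinarith [abs_nonneg I₁]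
  have h4 : (I₁ - I₂) ^ 2 ≤ 9 * a ^ 4 * (m₁ - m₂) ^ 2 := by
    rw [← sq_abs, ← sq_abs (m₁ - m₂)]
    calc |I₁ - I₂| ^ 2 ≤ (3 * a ^ 2 * |m₁ - m₂|) ^ 2 := pow_le_pow_left₀ (abs_nonneg _) h2 2
      _ = 9 * a ^ 4 * |m₁ - m₂| ^ 2 := by ring
  have h5 := mul_le_mul_of_nonneg_left h3 (sq_nonneg (c₁ - c₂))
  have h6 := mul_le_mul_of_nonneg_left h4 (sq_nonneg c₂)
  rw [e]
  unfold Q
  nlinarith [sq_nonneg ((c₁ - c₂) * I₁ - c₂ * (I₁ - I₂))]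

theorem inc_le {a c₁ c₂ I₁ I₂ x y : ℝ} (ha : 0 ≤ a) (h1 : |I₁| ≤ 2 * a) (h2 : |I₂| ≤ 2 * a)
    (hx : |c₁| ≤ x) (hy : |c₂| ≤ y) : (c₁ * I₁ - c₂ * I₂) ^ 2 ≤ 8 * a ^ 2 * (x ^ 2 + y ^ 2) := by
  have h3 : I₁ ^ 2 ≤ 4 * a ^ 2 := by
    rw [← sq_abs]; nlinarith [abs_nonneg I₁]
  have h4 : I₂ ^ 2 ≤ 4 * a ^ 2 := by
    rw [← sq_abs]; nlinarith [abs_nonneg I₂]
  have h5 : c₁ ^ 2 ≤ x ^ 2 := by
    rw [← sq_abs]; exact pow_le_pow_left₀ (abs_nonneg _) hx 2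
  have h6 : c₂ ^ 2 ≤ y ^ 2 := by
    rw [← sq_abs]; exact pow_le_pow_left₀ (abs_nonneg _) hy 2
  have h7 : c₁ ^ 2 * I₁ ^ 2 ≤ x ^ 2 * (4 * a ^ 2) :=
    mul_le_mul h5 h3 (sq_nonneg _) (sq_nonneg _)
  have h8 : c₂ ^ 2 * I₂ ^ 2 ≤ y ^ 2 * (4 * a ^ 2) :=
    mul_le_mul h6 h4 (sq_nonneg _) (sq_nonneg _)
  nlinarith [sq_nonneg (c₁ * I₁ + c₂ * I₂)]

/-! ### The tail -/

theorem tail_le (hS : SPH.{u}) {G : SimpleGraph V} [G.LocallyFinite] {D : ℕ} (hE : Env G D)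
    (v : V) {θ : ℝ} (h1 : θ ^ 2 * D < 1) (N R : ℕ) :
    ∑ w ∈ (ballF G hE.tree.connected v R).filter (fun w => N < G.dist v w),
      (θ ^ (G.dist v w)) ^ 2 ≤ 2 * ((θ ^ 2 * D) ^ N / (1 - θ ^ 2 * D)) := by
  classical
  obtain ⟨x, hx⟩ : ∃ x : ℝ, x = θ ^ 2 * D := ⟨_, rfl⟩
  have hx0 : 0 ≤ x := by rw [hx]; positivity
  rw [← hx] at h1 ⊢
  rw [← Finset.sum_fiberwise_of_maps_to (g := fun w => G.dist v w)
    (t := Finset.Ico (N + 1) (R + 1))]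
  · calc ∑ n ∈ Finset.Ico (N + 1) (R + 1), ∑ w ∈ ((ballF G hE.tree.connected v R).filter
            (fun w => N < G.dist v w)).filter (fun w => G.dist v w = n), (θ ^ (G.dist v w)) ^ 2
        ≤ ∑ n ∈ Finset.Ico (N + 1) (R + 1), 2 * x ^ n := by
          refine Finset.sum_le_sum fun n hn => ?_
          rw [Finset.mem_Ico] at hn
          calc ∑ w ∈ ((ballF G hE.tree.connected v R).filter
                (fun w => N < G.dist v w)).filter (fun w => G.dist v w = n), (θ ^ (G.dist v w)) ^ 2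
              = ∑ _w ∈ ((ballF G hE.tree.connected v R).filter
                (fun w => N < G.dist v w)).filter (fun w => G.dist v w = n), (θ ^ n) ^ 2 := by
                refine Finset.sum_congr rfl fun w hw => ?_
                rw [(Finset.mem_filter.mp hw).2]
            _ = (((ballF G hE.tree.connected v R).filter
                (fun w => N < G.dist v w)).filter (fun w => G.dist v w = n)).card
                * (θ ^ n) ^ 2 := by rw [Finset.sum_const, nsmul_eq_mul]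
            _ ≤ (2 * (D : ℝ) ^ n) * (θ ^ n) ^ 2 := by
                refine mul_le_mul_of_nonneg_right ?_ (sq_nonneg _)
                refine le_trans ?_ (hS V G D hE v n)
                refine Nat.cast_le.mpr (Finset.card_le_card fun w hw => ?_)
                rw [Finset.mem_filter] at hw ⊢
                refine ⟨?_, hw.2⟩
                rw [mem_ballF]
                exact le_of_eq hw.2
            _ = 2 * x ^ n := by
                rw [hx, mul_pow, ← pow_mul, ← pow_mul, mul_comm n 2]; ring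
      _ = 2 * ∑ n ∈ Finset.Ico (N + 1) (R + 1), x ^ n := by rw [Finset.mul_sum]
      _ ≤ 2 * (x ^ (N + 1) / (1 - x)) := by
          refine mul_le_mul_of_nonneg_left ?_ (by norm_num)
          exact geom_sum_Ico_le_of_lt_one hx0 h1
      _ ≤ 2 * (x ^ N / (1 - x)) := by
          refine mul_le_mul_of_nonneg_left ?_ (by norm_num)
          refine div_le_div_of_nonneg_right ?_ (by linarith)
          exact pow_le_pow_of_le_one hx0 h1.le (Nat.le_succ N)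
  · intro w hw
    rw [Finset.mem_filter, mem_ballF] at hw
    rw [Finset.mem_Ico]
    exact ⟨hw.2, by omega⟩

theorem measurable_Q {Ω : Type*} {mΩ : MeasurableSpace Ω} (a : ℝ) {c₁ c₂ m₁ m₂ : Ω → ℝ}
    (h1 : Measurable c₁) (h2 : Measurable c₂) (h3 : Measurable m₁) (h4 : Measurable m₂) :
    Measurable fun ω => Q a (c₁ ω) (c₂ ω) (m₁ ω) (m₂ ω) := by
  unfold Q
  fun_prop

theorem abs_Q_le {a c₁ c₂ m₁ m₂ : ℝ} (h0 : 0 ≤ a) (h1 : a ≤ 1 / 8) (hc₁ : |c₁| ≤ 1)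
    (hc₂ : |c₂| ≤ 1) (hm₁ : |m₁| ≤ 1) (hm₂ : |m₂| ≤ 1) : |Q a c₁ c₂ m₁ m₂| ≤ 1 := by
  rw [abs_of_nonneg (Q_nonneg _ _ _ _ _)]
  exact Q_le h0 h1 hc₁ hc₂ hm₁ hm₂

/-- convergence of the integral of the integrand -/
theorem Q_tendsto {Ω : Type*} {mΩ : MeasurableSpace Ω} {P : Measure Ω} [IsProbabilityMeasure P]
    {a : ℝ} (h0 : 0 ≤ a) (h1 : a ≤ 1 / 8) {c₁ c₂ m₁ m₂ : ℕ → Ω → ℝ} {C₁ C₂ M₁ M₂ : Ω → ℝ}
    (bc₁ : ∀ R ω, |c₁ R ω| ≤ 1) (bc₂ : ∀ R ω, |c₂ R ω| ≤ 1) (bm₁ : ∀ R ω, |m₁ R ω| ≤ 1)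
    (bm₂ : ∀ R ω, |m₂ R ω| ≤ 1) (bC₁ : ∀ ω, |C₁ ω| ≤ 1) (bC₂ : ∀ ω, |C₂ ω| ≤ 1)
    (bM₁ : ∀ ω, |M₁ ω| ≤ 1) (bM₂ : ∀ ω, |M₂ ω| ≤ 1)
    (vc₁ : ∀ R, Measurable (c₁ R)) (vc₂ : ∀ R, Measurable (c₂ R)) (vm₁ : ∀ R, Measurable (m₁ R))
    (vm₂ : ∀ R, Measurable (m₂ R)) (vC₁ : Measurable C₁) (vC₂ : Measurable C₂)
    (vM₁ : Measurable M₁) (vM₂ : Measurable M₂) (tc₁ : T1 P c₁ C₁) (tc₂ : T1 P c₂ C₂)
    (tm₁ : T1 P m₁ M₁) (tm₂ : T1 P m₂ M₂) :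
    Tendsto (fun R => ∫ ω, Q a (c₁ R ω) (c₂ R ω) (m₁ R ω) (m₂ R ω) ∂P) atTop
      (𝓝 (∫ ω, Q a (C₁ ω) (C₂ ω) (M₁ ω) (M₂ ω) ∂P)) := by
  have hI : ∀ (f : ℕ → Ω → ℝ) (g : Ω → ℝ), (∀ R, Measurable (f R)) → Measurable g →
      (∀ R ω, |f R ω| ≤ 1) → (∀ ω, |g ω| ≤ 1) → ∀ R, Integrable (fun ω => |f R ω - g ω|) P :=
    fun f g hf hg bf bg R => bdd_int (((hf R).sub hg).abs) (C := 2) fun ω => by
      rw [abs_abs]; exact abs_sub_le_two (bf R ω) (bg ω)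
  have hT1 : T1 P (fun R ω => Q a (c₁ R ω) (c₂ R ω) (m₁ R ω) (m₂ R ω))
      (fun ω => Q a (C₁ ω) (C₂ ω) (M₁ ω) (M₂ ω)) := by
    refine T1.of_le (Finset.univ : Finset (Fin 4)) (f := ![c₁, c₂, m₁, m₂])
      (g := ![C₁, C₂, M₁, M₂]) (K := 16) ?_ ?_ ?_
    · intro i _
      fin_cases i
      · exact hI c₁ C₁ vc₁ vC₁ bc₁ bC₁
      · exact hI c₂ C₂ vc₂ vC₂ bc₂ bC₂
      · exact hI m₁ M₁ vm₁ vM₁ bm₁ bM₁
      · exact hI m₂ M₂ vm₂ vM₂ bm₂ bM₂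
    · intro i _
      fin_cases i
      · exact tc₁
      · exact tc₂
      · exact tm₁
      · exact tm₂
    · intro R ω
      have := Q_lip h0 h1 (bc₁ R ω) (bc₂ R ω) (bm₁ R ω) (bm₂ R ω) (bC₁ ω) (bC₂ ω) (bM₁ ω)
        (bM₂ ω)
      simpa [Fin.sum_univ_four] using this
  refine hT1.int (fun R => ?_) ?_
  · exact bdd_int (measurable_Q a (vc₁ R) (vc₂ R) (vm₁ R) (vm₂ R)) (C := 1) fun ω =>
      abs_Q_le h0 h1 (bc₁ R ω) (bc₂ R ω) (bm₁ R ω) (bm₂ R ω)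
  · exact bdd_int (measurable_Q a vC₁ vC₂ vM₁ vM₂) (C := 1) fun ω =>
      abs_Q_le h0 h1 (bC₁ ω) (bC₂ ω) (bM₁ ω) (bM₂ ω)

/-- convergence of the squared difference -/
theorem sq_tendsto {Ω : Type*} {mΩ : MeasurableSpace Ω} {P : Measure Ω} [IsProbabilityMeasure P]
    {m₁ m₂ : ℕ → Ω → ℝ} {M₁ M₂ : Ω → ℝ} (bm₁ : ∀ R ω, |m₁ R ω| ≤ 1)
    (bm₂ : ∀ R ω, |m₂ R ω| ≤ 1) (bM₁ : ∀ ω, |M₁ ω| ≤ 1) (bM₂ : ∀ ω, |M₂ ω| ≤ 1)
    (vm₁ : ∀ R, Measurable (m₁ R)) (vm₂ : ∀ R, Measurable (m₂ R)) (vM₁ : Measurable M₁)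
    (vM₂ : Measurable M₂) (tm₁ : T1 P m₁ M₁) (tm₂ : T1 P m₂ M₂) :
    Tendsto (fun R => ∫ ω, (m₁ R ω - m₂ R ω) ^ 2 ∂P) atTop
      (𝓝 (∫ ω, (M₁ ω - M₂ ω) ^ 2 ∂P)) := by
  have hb : ∀ x y : ℝ, |x| ≤ 1 → |y| ≤ 1 → |(x - y) ^ 2| ≤ 4 := fun x y hx hy => by
    rw [abs_pow]
    have h := abs_sub_le_two hx hy
    nlinarith [abs_nonneg (x - y)]
  have hI : ∀ (f : ℕ → Ω → ℝ) (g : Ω → ℝ), (∀ R, Measurable (f R)) → Measurable g →
      (∀ R ω, |f R ω| ≤ 1) → (∀ ω, |g ω| ≤ 1) → ∀ R, Integrable (fun ω => |f R ω - g ω|) P :=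
    fun f g hf hg bf bg R => bdd_int (((hf R).sub hg).abs) (C := 2) fun ω => by
      rw [abs_abs]; exact abs_sub_le_two (bf R ω) (bg ω)
  have hT1 : T1 P (fun R ω => (m₁ R ω - m₂ R ω) ^ 2) (fun ω => (M₁ ω - M₂ ω) ^ 2) := by
    refine T1.of_le (Finset.univ : Finset (Fin 2)) (f := ![m₁, m₂])
      (g := ![M₁, M₂]) (K := 4) ?_ ?_ ?_
    · intro i _
      fin_cases i
      · exact hI m₁ M₁ vm₁ vM₁ bm₁ bM₁
      · exact hI m₂ M₂ vm₂ vM₂ bm₂ bM₂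
    · intro i _
      fin_cases i
      · exact tm₁
      · exact tm₂
    · intro R ω
      have := sq_lip (bm₁ R ω) (bm₂ R ω) (bM₁ ω) (bM₂ ω)
      simpa [Fin.sum_univ_two] using this
  refine hT1.int (fun R => ?_) ?_
  · exact bdd_int (((vm₁ R).sub (vm₂ R)).pow_const 2) (C := 4) fun ω =>
      hb _ _ (bm₁ R ω) (bm₂ R ω)
  · exact bdd_int ((vM₁.sub vM₂).pow_const 2) (C := 4) fun ω => hb _ _ (bM₁ ω) (bM₂ ω)

theorem half_of {D : ℕ} (hD : 2 ≤ D) {θ : ℝ} (h : θ ^ 2 * D ≤ 1) : θ ^ 2 ≤ 1 / 2 := by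
  have h2 : (2 : ℝ) ≤ D := by exact_mod_cast hD
  nlinarith [sq_nonneg θ]

/-- data of one process in the balls around `v`, and of its limit -/
structure Dat (G : SimpleGraph V) (θ : ℝ) (v : V) (m : ℕ → ℝ → V → Om V → ℝ)
    (c : ℕ → ℝ → V → Om V → ℝ) (M : ℝ → V → Om V → ℝ) : Prop where
  h0 : 0 ≤ θ
  h1 : θ ^ 2 ≤ 1 / 2
  mm : ∀ R w, Measurable fun p : ℝ × Om V => m R p.1 w p.2
  mc : ∀ R w, Measurable fun p : ℝ × Om V => c R p.1 w p.2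
  vm : ∀ R s w, Measurable (m R s w)
  bm : ∀ R s w ω, |m R s w ω| ≤ 1
  cc : ∀ R s w ω, c R s w ω = cvp G θ (fun x => m R s x ω) v w
  vM : ∀ s w, Measurable (M s w)
  bM : ∀ s w ω, |M s w ω| ≤ 1
  lim : ∀ s w, TendL2 (Pm V) (fun R => m R s w) (M s w)

theorem dat_of [Countable V] (hT : STT.{u}) (hP : PATHF.{u}) (hL : LIM.{u})
    {G : SimpleGraph V} [G.LocallyFinite] {D : ℕ} {θ : ℝ} {μ : Measure (V → Bool)}
    (hE : Env G D) (hI : Isg G D θ μ) (hθ : θ ^ 2 * D < 1) (k : ℕ) (v : V) :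
    Dat G θ v (fun R s w => mk μ (ballF G hE.tree.connected v R) k s w)
      (fun R s w => ck μ (ballF G hE.tree.connected v R) k s v w)
      (fun s w => Mi G hE.tree.connected μ k s w) where
  h0 := hI.h0
  h1 := half_of hE.hD hI.h1
  mm := fun R w => (hT V G D θ μ hE hI (ballF G hE.tree.connected v R) k).2.1 w
  mc := fun R w => (hT V G D θ μ hE hI (ballF G hE.tree.connected v R) k).2.2.1 v w
  vm := fun R s w => (hT V G D θ μ hE hI (ballF G hE.tree.connected v R) k).2.2.2.1 s w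
  bm := fun R s w ω => (hT V G D θ μ hE hI (ballF G hE.tree.connected v R) k).2.2.2.2.2.1 s w ω
  cc := fun R s w ω => (hP V G D θ μ hE hI _
    ((hT V G D θ μ hE hI (ballF G hE.tree.connected v R) k).1 s ω)).2 v w
  vM := fun s w => (hL V G D θ μ hE hI hθ k s w).1
  bM := fun s w => (hL V G D θ μ hE hI hθ k s w).2.1
  lim := fun s w => (hL V G D θ μ hE hI hθ k s w).2.2 v

section Dat

variable {G : SimpleGraph V} {θ θ₁ θ₂ : ℝ} {v : V} {m m₁ m₂ : ℕ → ℝ → V → Om V → ℝ}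
    {c c₁ c₂ : ℕ → ℝ → V → Om V → ℝ} {M M₁ M₂ : ℝ → V → Om V → ℝ}

theorem Dat.c_le (hM : MSG) (d : Dat G θ v m c M) (R : ℕ) (s : ℝ) (w : V) (ω : Om V) :
    |c R s w ω| ≤ θ ^ (G.dist v w) := by
  rw [d.cc]
  exact cvp_le hM G d.h0 d.h1 _ (fun x => d.bm R s x ω) v w

theorem Dat.pow_le (d : Dat G θ v m c M) (n : ℕ) : θ ^ n ≤ 1 := by
  refine pow_le_one₀ d.h0 ?_
  have := d.h1
  have := d.h0
  nlinarith

theorem Dat.c_one (hM : MSG) (d : Dat G θ v m c M) (R : ℕ) (s : ℝ) (w : V) (ω : Om V) :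
    |c R s w ω| ≤ 1 := (d.c_le hM R s w ω).trans (d.pow_le _)

theorem Dat.t1 (d : Dat G θ v m c M) (s : ℝ) (w : V) : T1 (Pm V) (fun R => m R s w) (M s w) :=
  T1.of_L2 (fun R => d.vm R s w) (d.vM s w) (fun R => d.bm R s w) (d.bM s w) (d.lim s w)

theorem Dat.t1c (hM : MSG) (d : Dat G θ v m c M) (s : ℝ) (w : V) :
    T1 (Pm V) (fun R => c R s w) (fun ω => cvp G θ (fun x => M s x ω) v w) := by
  have h := T1_cvp (P := Pm V) hM G d.h0 d.h1 v w (m := fun R x => m R s x) (X := fun x => M s x)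
    (fun R x => d.vm R s x) (fun x => d.vM s x) (fun R x ω => d.bm R s x ω)
    (fun x ω => d.bM s x ω) (fun x => d.t1 s x)
  have e : (fun R => c R s w) = fun R ω => cvp G θ (fun x => m R s x ω) v w := by
    funext R ω; exact d.cc R s w ω
  rw [e]
  exact h

theorem Dat.vc (d : Dat G θ v m c M) (R : ℕ) (s : ℝ) (w : V) : Measurable (c R s w) := by
  have e : c R s w = fun ω => cvp G θ (fun x => m R s x ω) v w := by
    funext ω; exact d.cc R s w ω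
  rw [e]
  exact measurable_cvp G (fun x => d.vm R s x) v w

theorem Dat.vC (d : Dat G θ v m c M) (s : ℝ) (w : V) :
    Measurable (fun ω => cvp G θ (fun x => M s x ω) v w) :=
  measurable_cvp G (fun x => d.vM s x) v w

theorem Dat.bC (hM : MSG) (d : Dat G θ v m c M) (s : ℝ) (w : V) (ω : Om V) :
    |cvp G θ (fun x => M s x ω) v w| ≤ 1 :=
  (cvp_le hM G d.h0 d.h1 _ (fun x => d.bM s x ω) v w).trans (d.pow_le _)

/-- the finite volume integrand -/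
noncomputable def FR (a : ℝ) (m₁ m₂ c₁ c₂ : ℕ → ℝ → V → Om V → ℝ) (R : ℕ) (s : ℝ) (w : V) : ℝ :=
  ∫ ω, Q a (c₁ R s w ω) (c₂ R s w ω) (m₁ R s w ω) (m₂ R s w ω) ∂(Pm V)

/-- the infinite volume integrand -/
noncomputable def F0 (G : SimpleGraph V) (θ₁ θ₂ : ℝ) (v : V) (a : ℝ) (M₁ M₂ : ℝ → V → Om V → ℝ)
    (s : ℝ) (w : V) : ℝ :=
  ∫ ω, Q a (cvp G θ₁ (fun x => M₁ s x ω) v w) (cvp G θ₂ (fun x => M₂ s x ω) v w)
    (M₁ s w ω) (M₂ s w ω) ∂(Pm V)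

theorem FR_tendsto (hM : MSG) {a : ℝ} (h0 : 0 ≤ a) (h1 : a ≤ 1 / 8)
    (d₁ : Dat G θ₁ v m₁ c₁ M₁) (d₂ : Dat G θ₂ v m₂ c₂ M₂) (s : ℝ) (w : V) :
    Tendsto (fun R => FR a m₁ m₂ c₁ c₂ R s w) atTop (𝓝 (F0 G θ₁ θ₂ v a M₁ M₂ s w)) :=
  Q_tendsto h0 h1 (fun R => d₁.c_one hM R s w) (fun R => d₂.c_one hM R s w)
    (fun R => d₁.bm R s w) (fun R => d₂.bm R s w) (d₁.bC hM s w) (d₂.bC hM s w)
    (d₁.bM s w) (d₂.bM s w) (fun R => d₁.vc R s w) (fun R => d₂.vc R s w)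
    (fun R => d₁.vm R s w) (fun R => d₂.vm R s w) (d₁.vC s w) (d₂.vC s w) (d₁.vM s w)
    (d₂.vM s w) (d₁.t1c hM s w) (d₂.t1c hM s w) (d₁.t1 s w) (d₂.t1 s w)

theorem FR_meas {a : ℝ} (d₁ : Dat G θ₁ v m₁ c₁ M₁) (d₂ : Dat G θ₂ v m₂ c₂ M₂) (R : ℕ) (w : V) :
    Measurable fun s => FR a m₁ m₂ c₁ c₂ R s w := by
  have h := measurable_Q a (d₁.mc R w) (d₂.mc R w) (d₁.mm R w) (d₂.mm R w)
  exact (h.stronglyMeasurable.integral_prod_right (ν := Pm V)).measurable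

theorem F0_meas (hM : MSG) {a : ℝ} (h0 : 0 ≤ a) (h1 : a ≤ 1 / 8)
    (d₁ : Dat G θ₁ v m₁ c₁ M₁) (d₂ : Dat G θ₂ v m₂ c₂ M₂) (w : V) :
    Measurable fun s => F0 G θ₁ θ₂ v a M₁ M₂ s w :=
  measurable_of_tendsto_metrizable (fun R => FR_meas (a := a) d₁ d₂ R w)
    (tendsto_pi_nhds.2 fun s => FR_tendsto hM h0 h1 d₁ d₂ s w)

theorem FR_nonneg (a : ℝ) (R : ℕ) (s : ℝ) (w : V) : 0 ≤ FR a m₁ m₂ c₁ c₂ R s w :=
  integral_nonneg fun _ => Q_nonneg _ _ _ _ _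

theorem F0_nonneg (a : ℝ) (s : ℝ) (w : V) : 0 ≤ F0 G θ₁ θ₂ v a M₁ M₂ s w :=
  integral_nonneg fun _ => Q_nonneg _ _ _ _ _

theorem FR_le (hM : MSG) {a : ℝ} (h0 : 0 ≤ a) (h1 : a ≤ 1 / 8)
    (d₁ : Dat G θ₁ v m₁ c₁ M₁) (d₂ : Dat G θ₂ v m₂ c₂ M₂) (R : ℕ) (s : ℝ) (w : V) :
    FR a m₁ m₂ c₁ c₂ R s w ≤ 1 := by
  have h : FR a m₁ m₂ c₁ c₂ R s w ≤ ∫ _ω, (1 : ℝ) ∂(Pm V) := by
    refine integral_mono_of_nonneg (Eventually.of_forall fun _ => Q_nonneg _ _ _ _ _)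
      (integrable_const _) (Eventually.of_forall fun ω => ?_)
    exact Q_le h0 h1 (d₁.c_one hM R s w ω) (d₂.c_one hM R s w ω) (d₁.bm R s w ω)
      (d₂.bm R s w ω)
  simpa using h

theorem F0_le (hM : MSG) {a : ℝ} (h0 : 0 ≤ a) (h1 : a ≤ 1 / 8)
    (d₁ : Dat G θ₁ v m₁ c₁ M₁) (d₂ : Dat G θ₂ v m₂ c₂ M₂) (s : ℝ) (w : V) :
    F0 G θ₁ θ₂ v a M₁ M₂ s w ≤ 1 := by
  have h : F0 G θ₁ θ₂ v a M₁ M₂ s w ≤ ∫ _ω, (1 : ℝ) ∂(Pm V) := by
    refine integral_mono_of_nonneg (Eventually.of_forall fun _ => Q_nonneg _ _ _ _ _)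
      (integrable_const _) (Eventually.of_forall fun ω => ?_)
    exact Q_le h0 h1 (d₁.bC hM s w ω) (d₂.bC hM s w ω) (d₁.bM s w ω) (d₂.bM s w ω)
  simpa using h

/-- the jump integral of a vertex -/
noncomputable def GR (a : ℝ) (m₁ m₂ c₁ c₂ : ℕ → ℝ → V → Om V → ℝ) (R : ℕ) (s : ℝ) (w : V) : ℝ :=
  ∫ ω, (∫ x : unitInterval, (c₁ R s w ω * Ig a (m₁ R s w ω) x
    - c₂ R s w ω * Ig a (m₂ R s w ω) x) ^ 2) ∂(Pm V)

theorem GR_nonneg (a : ℝ) (R : ℕ) (s : ℝ) (w : V) : 0 ≤ GR a m₁ m₂ c₁ c₂ R s w :=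
  integral_nonneg fun _ => integral_nonneg fun _ => sq_nonneg _

theorem GR_le (hC : CHAN) (hM : MSG) {a : ℝ} (h0 : 0 ≤ a) (h1 : a ≤ 1 / 8)
    (d₁ : Dat G θ₁ v m₁ c₁ M₁) (d₂ : Dat G θ₂ v m₂ c₂ M₂) (R : ℕ) (s : ℝ) (w : V) :
    GR a m₁ m₂ c₁ c₂ R s w ≤ FR a m₁ m₂ c₁ c₂ R s w := by
  unfold GR FR
  refine integral_mono_of_nonneg (Eventually.of_forall fun _ =>
    integral_nonneg fun _ => sq_nonneg _) ?_ (Eventually.of_forall fun ω => ?_)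
  · exact bdd_int (measurable_Q a (d₁.vc R s w) (d₂.vc R s w) (d₁.vm R s w) (d₂.vm R s w))
      (C := 1) fun ω => abs_Q_le h0 h1 (d₁.c_one hM R s w ω) (d₂.c_one hM R s w ω)
        (d₁.bm R s w ω) (d₂.bm R s w ω)
  · have h : (∫ x : unitInterval, (c₁ R s w ω * Ig a (m₁ R s w ω) x
        - c₂ R s w ω * Ig a (m₂ R s w ω) x) ^ 2)
        ≤ ∫ _x : unitInterval, Q a (c₁ R s w ω) (c₂ R s w ω) (m₁ R s w ω) (m₂ R s w ω) := by
      refine integral_mono_of_nonneg (Eventually.of_forall fun _ => sq_nonneg _)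
        (integrable_const _) (Eventually.of_forall fun x => ?_)
      exact inc_le_Q (hC.Ig_le a _ x h0 h1 (d₁.bm R s w ω) x.2.1 x.2.2)
        (hC.Ig_lip a _ _ x h0 h1 (d₁.bm R s w ω) (d₂.bm R s w ω) x.2.1 x.2.2)
    simpa using h

theorem GR_le' (hC : CHAN) (hM : MSG) {a : ℝ} (h0 : 0 ≤ a) (h1 : a ≤ 1 / 8)
    (d₁ : Dat G θ₁ v m₁ c₁ M₁) (d₂ : Dat G θ₂ v m₂ c₂ M₂) (R : ℕ) (s : ℝ) (w : V) :
    GR a m₁ m₂ c₁ c₂ R s w
      ≤ 8 * a ^ 2 * ((θ₁ ^ (G.dist v w)) ^ 2 + (θ₂ ^ (G.dist v w)) ^ 2) := by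
  have h : GR a m₁ m₂ c₁ c₂ R s w ≤ ∫ _ω,
      8 * a ^ 2 * ((θ₁ ^ (G.dist v w)) ^ 2 + (θ₂ ^ (G.dist v w)) ^ 2) ∂(Pm V) := by
    unfold GR
    refine integral_mono_of_nonneg (Eventually.of_forall fun _ =>
      integral_nonneg fun _ => sq_nonneg _) (integrable_const _)
      (Eventually.of_forall fun ω => ?_)
    have h : (∫ x : unitInterval, (c₁ R s w ω * Ig a (m₁ R s w ω) x
        - c₂ R s w ω * Ig a (m₂ R s w ω) x) ^ 2)
        ≤ ∫ _x : unitInterval,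
          8 * a ^ 2 * ((θ₁ ^ (G.dist v w)) ^ 2 + (θ₂ ^ (G.dist v w)) ^ 2) := by
      refine integral_mono_of_nonneg (Eventually.of_forall fun _ => sq_nonneg _)
        (integrable_const _) (Eventually.of_forall fun x => ?_)
      exact inc_le h0 (hC.Ig_le a _ x h0 h1 (d₁.bm R s w ω) x.2.1 x.2.2)
        (hC.Ig_le a _ x h0 h1 (d₂.bm R s w ω) x.2.1 x.2.2) (d₁.c_le hM R s w ω)
        (d₂.c_le hM R s w ω)
    simpa using h
  simpa using h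

/-- the tail bound -/
noncomputable def tl (D : ℕ) (θ₁ θ₂ a : ℝ) (N : ℕ) : ℝ :=
  8 * a ^ 2 * (2 * ((θ₁ ^ 2 * D) ^ N / (1 - θ₁ ^ 2 * D))
    + 2 * ((θ₂ ^ 2 * D) ^ N / (1 - θ₂ ^ 2 * D)))

theorem tl_tendsto {D : ℕ} {θ₁ θ₂ a : ℝ} (h₁ : θ₁ ^ 2 * D < 1) (h₂ : θ₂ ^ 2 * D < 1) :
    Tendsto (fun N => tl D θ₁ θ₂ a N) atTop (𝓝 0) := by
  have k₁ : Tendsto (fun N : ℕ => (θ₁ ^ 2 * (D : ℝ)) ^ N) atTop (𝓝 0) :=
    tendsto_pow_atTop_nhds_zero_of_lt_one (by positivity) h₁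
  have k₂ : Tendsto (fun N : ℕ => (θ₂ ^ 2 * (D : ℝ)) ^ N) atTop (𝓝 0) :=
    tendsto_pow_atTop_nhds_zero_of_lt_one (by positivity) h₂
  have h := (((k₁.div_const (1 - θ₁ ^ 2 * D)).const_mul 2).add
    ((k₂.div_const (1 - θ₂ ^ 2 * D)).const_mul 2)).const_mul (8 * a ^ 2)
  simpa [tl] using h

theorem sum_GR_le (hC : CHAN) (hM : MSG) (hS : SPH.{u}) [G.LocallyFinite] {D : ℕ}
    (hE : Env G D) (hθ₁ : θ₁ ^ 2 * D < 1) (hθ₂ : θ₂ ^ 2 * D < 1)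
    {a : ℝ} (h0 : 0 ≤ a) (h1 : a ≤ 1 / 8) (d₁ : Dat G θ₁ v m₁ c₁ M₁)
    (d₂ : Dat G θ₂ v m₂ c₂ M₂) (N R : ℕ) (s : ℝ) :
    ∑ w ∈ ballF G hE.tree.connected v R, GR a m₁ m₂ c₁ c₂ R s w
      ≤ (∑ w ∈ ballF G hE.tree.connected v N, FR a m₁ m₂ c₁ c₂ R s w) + tl D θ₁ θ₂ a N := by
  classical
  rw [← Finset.sum_filter_add_sum_filter_not (ballF G hE.tree.connected v R)
    (fun w => N < G.dist v w), add_comm]
  refine add_le_add ?_ ?_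
  · refine (Finset.sum_le_sum fun w _ => GR_le hC hM h0 h1 d₁ d₂ R s w).trans ?_
    refine Finset.sum_le_sum_of_subset_of_nonneg ?_ fun w _ _ => FR_nonneg _ _ _ _
    intro w hw
    rw [Finset.mem_filter] at hw
    rw [mem_ballF]
    exact not_lt.mp hw.2
  · refine (Finset.sum_le_sum fun w _ => GR_le' hC hM h0 h1 d₁ d₂ R s w).trans ?_
    rw [← Finset.mul_sum, Finset.sum_add_distrib]
    unfold tl
    exact mul_le_mul_of_nonneg_left (add_le_add (tail_le hS hE v hθ₁ N R)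
      (tail_le hS hE v hθ₂ N R)) (by positivity)

theorem core_ineq (hC : CHAN) (hM : MSG) (hS : SPH.{u}) [G.LocallyFinite] {D : ℕ}
    (hE : Env G D) (hθ₁ : θ₁ ^ 2 * D < 1) (hθ₂ : θ₂ ^ 2 * D < 1)
    {a : ℝ} (h0 : 0 ≤ a) (h1 : a ≤ 1 / 8) (d₁ : Dat G θ₁ v m₁ c₁ M₁)
    (d₂ : Dat G θ₂ v m₂ c₂ M₂) {t₁ t₂ : ℝ} (h12 : t₁ ≤ t₂)
    (hst : ∀ R, ∫ ω, (m₁ R t₂ v ω - m₂ R t₂ v ω) ^ 2 ∂(Pm V)
        - ∫ ω, (m₁ R t₁ v ω - m₂ R t₁ v ω) ^ 2 ∂(Pm V)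
      ≤ 2 * ∫ s in t₁..t₂, ∑ w ∈ ballF G hE.tree.connected v R, GR a m₁ m₂ c₁ c₂ R s w)
    (h : ℝ → ℝ) (hh : IntervalIntegrable h volume t₁ t₂)
    (hyp : ∀ N : ℕ, ∀ s ∈ Icc t₁ t₂,
      ∑ w ∈ ballF G hE.tree.connected v N, F0 G θ₁ θ₂ v a M₁ M₂ s w ≤ h s) :
    ∫ ω, (M₁ t₂ v ω - M₂ t₂ v ω) ^ 2 ∂(Pm V) - ∫ ω, (M₁ t₁ v ω - M₂ t₁ v ω) ^ 2 ∂(Pm V)
      ≤ 2 * ∫ s in t₁..t₂, h s := by
  classical
  have hsq : ∀ t, Tendsto (fun R => ∫ ω, (m₁ R t v ω - m₂ R t v ω) ^ 2 ∂(Pm V)) atTop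
      (𝓝 (∫ ω, (M₁ t v ω - M₂ t v ω) ^ 2 ∂(Pm V))) := fun t =>
    sq_tendsto (fun R => d₁.bm R t v) (fun R => d₂.bm R t v) (d₁.bM t v) (d₂.bM t v)
      (fun R => d₁.vm R t v) (fun R => d₂.vm R t v) (d₁.vM t v) (d₂.vM t v) (d₁.t1 t v)
      (d₂.t1 t v)
  have hL := (hsq t₂).sub (hsq t₁)
  -- measurability and boundedness of the sums
  have mF : ∀ N R, Measurable fun s => ∑ w ∈ ballF G hE.tree.connected v N,
      FR a m₁ m₂ c₁ c₂ R s w := fun N R =>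
    Finset.measurable_fun_sum _ fun w _ => FR_meas d₁ d₂ R w
  have mF0 : ∀ N, Measurable fun s => ∑ w ∈ ballF G hE.tree.connected v N,
      F0 G θ₁ θ₂ v a M₁ M₂ s w := fun N =>
    Finset.measurable_fun_sum _ fun w _ => F0_meas hM h0 h1 d₁ d₂ w
  have bF : ∀ N R s, |∑ w ∈ ballF G hE.tree.connected v N, FR a m₁ m₂ c₁ c₂ R s w|
      ≤ (ballF G hE.tree.connected v N).card := fun N R s => by
    rw [abs_of_nonneg (Finset.sum_nonneg fun w _ => FR_nonneg _ _ _ _)]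
    calc _ ≤ ∑ _w ∈ ballF G hE.tree.connected v N, (1 : ℝ) :=
          Finset.sum_le_sum fun w _ => FR_le hM h0 h1 d₁ d₂ R s w
      _ = _ := by simp
  have bF0 : ∀ N s, |∑ w ∈ ballF G hE.tree.connected v N, F0 G θ₁ θ₂ v a M₁ M₂ s w|
      ≤ (ballF G hE.tree.connected v N).card := fun N s => by
    rw [abs_of_nonneg (Finset.sum_nonneg fun w _ => F0_nonneg _ _ _)]
    calc _ ≤ ∑ _w ∈ ballF G hE.tree.connected v N, (1 : ℝ) :=
          Finset.sum_le_sum fun w _ => F0_le hM h0 h1 d₁ d₂ s w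
      _ = _ := by simp
  have key : ∀ N, ∫ ω, (M₁ t₂ v ω - M₂ t₂ v ω) ^ 2 ∂(Pm V)
      - ∫ ω, (M₁ t₁ v ω - M₂ t₁ v ω) ^ 2 ∂(Pm V)
      ≤ 2 * ((∫ s in t₁..t₂, h s) + (t₂ - t₁) * tl D θ₁ θ₂ a N) := by
    intro N
    have i1 : ∀ R, IntervalIntegrable (fun s => ∑ w ∈ ballF G hE.tree.connected v N,
        FR a m₁ m₂ c₁ c₂ R s w) volume t₁ t₂ := fun R =>
      (intervalIntegrable_iff_integrableOn_Ioc_of_le h12).mpr (bdd_int (mF N R) (bF N R))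
    have i0 : IntervalIntegrable (fun s => ∑ w ∈ ballF G hE.tree.connected v N,
        F0 G θ₁ θ₂ v a M₁ M₂ s w) volume t₁ t₂ :=
      (intervalIntegrable_iff_integrableOn_Ioc_of_le h12).mpr (bdd_int (mF0 N) (bF0 N))
    have step : ∀ R, ∫ ω, (m₁ R t₂ v ω - m₂ R t₂ v ω) ^ 2 ∂(Pm V)
        - ∫ ω, (m₁ R t₁ v ω - m₂ R t₁ v ω) ^ 2 ∂(Pm V)
        ≤ 2 * ((∫ s in t₁..t₂, ∑ w ∈ ballF G hE.tree.connected v N,
          FR a m₁ m₂ c₁ c₂ R s w) + (t₂ - t₁) * tl D θ₁ θ₂ a N) := by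
      intro R
      refine (hst R).trans (mul_le_mul_of_nonneg_left ?_ (by norm_num))
      have e : (∫ s in t₁..t₂, ∑ w ∈ ballF G hE.tree.connected v N,
          FR a m₁ m₂ c₁ c₂ R s w) + (t₂ - t₁) * tl D θ₁ θ₂ a N
          = ∫ s in t₁..t₂, ((∑ w ∈ ballF G hE.tree.connected v N,
            FR a m₁ m₂ c₁ c₂ R s w) + tl D θ₁ θ₂ a N) := by
        rw [intervalIntegral.integral_add (i1 R) intervalIntegrable_const,
          intervalIntegral.integral_const, smul_eq_mul]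
      rw [e, intervalIntegral.integral_of_le h12, intervalIntegral.integral_of_le h12]
      refine integral_mono_of_nonneg (Eventually.of_forall fun s =>
        Finset.sum_nonneg fun w _ => GR_nonneg _ _ _ _) ?_
        (Eventually.of_forall fun s => sum_GR_le hC hM hS hE hθ₁ hθ₂ h0 h1 d₁ d₂ N R s)
      exact (bdd_int (mF N R) (bF N R)).add (integrable_const _)
    have hint : Tendsto (fun R => ∫ s in t₁..t₂, ∑ w ∈ ballF G hE.tree.connected v N,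
        FR a m₁ m₂ c₁ c₂ R s w) atTop (𝓝 (∫ s in t₁..t₂,
          ∑ w ∈ ballF G hE.tree.connected v N, F0 G θ₁ θ₂ v a M₁ M₂ s w)) := by
      refine intervalIntegral.tendsto_integral_filter_of_dominated_convergence
        (fun _ => ((ballF G hE.tree.connected v N).card : ℝ)) ?_ ?_ intervalIntegrable_const ?_
      · exact Eventually.of_forall fun R => (mF N R).aestronglyMeasurable
      · exact Eventually.of_forall fun R => Eventually.of_forall fun s _ => by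
          rw [Real.norm_eq_abs]; exact bF N R s
      · exact Eventually.of_forall fun s _ =>
          tendsto_finsetSum _ fun w _ => FR_tendsto hM h0 h1 d₁ d₂ s w
    have h3 : ∫ ω, (M₁ t₂ v ω - M₂ t₂ v ω) ^ 2 ∂(Pm V)
        - ∫ ω, (M₁ t₁ v ω - M₂ t₁ v ω) ^ 2 ∂(Pm V)
        ≤ 2 * ((∫ s in t₁..t₂, ∑ w ∈ ballF G hE.tree.connected v N,
          F0 G θ₁ θ₂ v a M₁ M₂ s w) + (t₂ - t₁) * tl D θ₁ θ₂ a N) :=
      le_of_tendsto_of_tendsto' hL ((hint.add_const _).const_mul 2) step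
    refine h3.trans (mul_le_mul_of_nonneg_left ?_ (by norm_num))
    refine add_le_add ?_ le_rfl
    exact intervalIntegral.integral_mono_on h12 i0 hh (hyp N)
  have hlim : Tendsto (fun N => 2 * ((∫ s in t₁..t₂, h s) + (t₂ - t₁) * tl D θ₁ θ₂ a N)) atTop
      (𝓝 (2 * ((∫ s in t₁..t₂, h s) + (t₂ - t₁) * 0))) :=
    (((tl_tendsto hθ₁ hθ₂).const_mul _).const_add _).const_mul 2
  rw [mul_zero, add_zero] at hlim
  exact ge_of_tendsto' hlim key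

end Dat

end Stari

open Stari in
theorem stari_proof (hC : CHAN) (hM : MSG) (hS : SPH.{u}) (hT : STT.{u}) (hP : PATHF.{u})
    (hL : LIM.{u}) (hSt : STAR.{u}) : STARI.{u} := by
  intro V _ G _ D θ₁ θ₂ μ₁ μ₂ hE hI₁ hI₂ hθ₁ hθ₂ k₁ k₂ v j t₁ t₂ hj₁ hj₂ hjt h12 ht2 h hh hyp
  classical
  have d₁ := dat_of hT hP hL hE hI₁ hθ₁ k₁ v
  have d₂ := dat_of hT hP hL hE hI₂ hθ₂ k₂ v
  refine core_ineq hC hM hS hE hθ₁ hθ₂ (amp_pos j).le (amp_le j) d₁ d₂ h12 ?_ h hh ?_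
  · intro R
    refine (hSt V G D θ₁ θ₂ μ₁ μ₂ hE hI₁ hI₂ (ballF G hE.tree.connected v R)
      (ballF G hE.tree.connected v R) k₁ k₂ v j t₁ t₂ hjt h12 ht2).trans (le_of_eq ?_)
    rw [Finset.union_self]
    congr 1
    refine intervalIntegral.integral_congr fun s _ => ?_
    refine Finset.sum_congr rfl fun w hw => ?_
    unfold GR
    simp only [hw, hj₁, hj₂, and_self, if_true]
  · intro N s hs
    refine le_trans (le_of_eq ?_) (hyp N s hs)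
    refine Finset.sum_congr rfl fun w _ => ?_
    rfl

end P161C
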