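import Vale.Agent.P161C.Base

/-!
# P161 at the critical point: module STT (state, measurability, constancy)
-/

open MeasureTheory Set Filter Topology

namespace P161C

open P161

universe u

variable {V : Type u} {μ : Measure (V → Bool)}

/-! ## Measurability of the sorted lists -/

section lists

variable [Countable V]

/-- lists of events form a discrete space -/
local instance instMSList : MeasurableSpace (List (V × ℤ)) := ⊤

local instance instDMSList : DiscreteMeasurableSpace (List (V × ℤ)) := ⟨fun _ => trivial⟩

/-- finite sets of events form a discrete space -/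
local instance instMSFin : MeasurableSpace (Finset (V × ℤ)) := ⊤

local instance instDMSFin : DiscreteMeasurableSpace (Finset (V × ℤ)) := ⟨fun _ => trivial⟩

omit [Countable V] in
theorem measurable_tm (e : V × ℤ) : Measurable fun o : Cfg V => tm o e := by
  unfold tm
  exact measurable_const.add (measurable_subtype_coe.comp (measurable_pi_apply e))

omit [Countable V] in
open Classical in
theorem measurable_oi (a : V × ℤ) (m : List (V × ℤ)) :
    Measurable fun o : Cfg V => List.orderedInsert (fun e f => tm o f ≤ tm o e) a m := by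
  induction m with
  | nil => exact measurable_const
  | cons b m ih =>
    simp only [List.orderedInsert]
    refine Measurable.ite ?_ measurable_const ?_
    · exact measurableSet_le (measurable_tm b) (measurable_tm a)
    · exact measurable_from_top.comp ih

open Classical in
theorem measurable_is (L : List (V × ℤ)) :
    Measurable fun o : Cfg V => L.insertionSort (fun e f => tm o f ≤ tm o e) := by
  induction L with
  | nil => exact measurable_const
  | cons b m ih =>
    simp only [List.insertionSort]
    have h1 : Measurable fun p : Cfg V × List (V × ℤ) =>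
        List.orderedInsert (fun e f => tm p.1 f ≤ tm p.1 e) b p.2 :=
      measurable_from_prod_countable_left fun m => measurable_oi b m
    exact h1.comp (measurable_id.prodMk ih)

theorem measurable_srt (E : Finset (V × ℤ)) : Measurable fun o : Cfg V => srt o E := by
  unfold srt
  exact measurable_is _

theorem measurable_evs (Λ : Finset V) (k : ℕ) :
    Measurable fun p : ℝ × Cfg V => evs Λ k p.1 p.2 := by
  refine measurable_to_countable' fun E => ?_
  have h1 : (fun p : ℝ × Cfg V => evs Λ k p.1 p.2) ⁻¹' {E}
      = ⋂ e : V × ℤ, {p : ℝ × Cfg V | e ∈ evs Λ k p.1 p.2 ↔ e ∈ E} := by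
    ext p
    simp only [mem_preimage, mem_singleton_iff, mem_iInter, Set.mem_ofPred_eq, Finset.ext_iff]
  rw [h1]
  refine MeasurableSet.iInter fun e => ?_
  have h2 : MeasurableSet {p : ℝ × Cfg V | e ∈ evs Λ k p.1 p.2} := by
    simp only [mem_evs]
    by_cases h : e.1 ∈ Λ ∧ -(k : ℤ) ≤ e.2
    · have h3 : {p : ℝ × Cfg V | e.1 ∈ Λ ∧ -(k : ℤ) ≤ e.2 ∧ act p.1 p.2 e}
          = {p : ℝ × Cfg V | ((p.2 e : unitInterval) : ℝ) < pr e.2 p.1} := by
        ext p
        simp only [Set.mem_ofPred_eq, act, h.1, h.2, true_and]
      rw [h3]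
      refine measurableSet_lt ?_ ?_
      · exact measurable_subtype_coe.comp ((measurable_pi_apply e).comp measurable_snd)
      · unfold pr
        fun_prop
    · have h3 : {p : ℝ × Cfg V | e.1 ∈ Λ ∧ -(k : ℤ) ≤ e.2 ∧ act p.1 p.2 e} = ∅ := by
        ext p
        simp only [Set.mem_ofPred_eq, mem_empty_iff_false, iff_false]
        rintro ⟨h4, h5, _⟩
        exact h ⟨h4, h5⟩
      rw [h3]
      exact MeasurableSet.empty
  by_cases he : e ∈ E
  · simpa [he] using h2
  · simp only [he, iff_false]
    exact h2.compl

theorem measurable_evl (Λ : Finset V) (k : ℕ) :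
    Measurable fun p : ℝ × Cfg V => evl Λ k p.1 p.2 := by
  have h1 : Measurable fun q : Cfg V × Finset (V × ℤ) => srt q.1 q.2 :=
    measurable_from_prod_countable_left fun E => measurable_srt E
  exact h1.comp (measurable_snd.prodMk (measurable_evs Λ k))

theorem measurable_mk [IsProbabilityMeasure μ] (hC : CHAN) (Λ : Finset V) (k : ℕ) (v : V) :
    Measurable fun p : ℝ × Om V => mk μ Λ k p.1 v p.2 := by
  have h1 : Measurable fun q : Cfg V × List (V × ℤ) => mean μ (dn μ q.1 q.2) v :=
    measurable_from_prod_countable_left fun l => measurable_mean_dn hC l v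
  have h2 : Measurable fun p : ℝ × Om V => evl Λ k p.1 p.2.1 :=
    (measurable_evl Λ k).comp (measurable_fst.prodMk (measurable_fst.comp measurable_snd))
  exact h1.comp ((measurable_snd.comp measurable_snd).prodMk h2)

theorem measurable_ck [IsProbabilityMeasure μ] (hC : CHAN) (Λ : Finset V) (k : ℕ) (v w : V) :
    Measurable fun p : ℝ × Om V => ck μ Λ k p.1 v w p.2 := by
  have h1 : Measurable fun q : Cfg V × List (V × ℤ) => cov μ (dn μ q.1 q.2) v w :=
    measurable_from_prod_countable_left fun l => measurable_cov_dn hC l v w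
  have h2 : Measurable fun p : ℝ × Om V => evl Λ k p.1 p.2.1 :=
    (measurable_evl Λ k).comp (measurable_fst.prodMk (measurable_fst.comp measurable_snd))
  exact h1.comp ((measurable_snd.comp measurable_snd).prodMk h2)

end lists

/-! ## Constancy on the second half of a round -/

theorem pr_const (i j : ℤ) {t : ℝ} (h1 : (j : ℝ) + 1 / 2 ≤ t) (h2 : t ≤ j + 1) :
    pr i t = pr i (j + 1 / 2) := by
  unfold pr
  rcases le_or_gt i j with h | h
  · have h3 : (i : ℝ) ≤ j := by exact_mod_cast h
    rw [min_eq_right (by linarith), min_eq_right (by linarith)]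
  · have h3 : (j : ℝ) + 1 ≤ i := by exact_mod_cast h
    rw [max_eq_left, max_eq_left]
    · exact (min_le_left _ _).trans (by linarith)
    · exact (min_le_left _ _).trans (by linarith)

theorem evs_const (Λ : Finset V) (k : ℕ) (o : Cfg V) (j : ℤ) {t : ℝ}
    (h1 : (j : ℝ) + 1 / 2 ≤ t) (h2 : t ≤ j + 1) :
    evs Λ k t o = evs Λ k (j + 1 / 2) o := by
  ext e
  simp only [mem_evs, act, pr_const e.2 j h1 h2]

theorem evl_const (Λ : Finset V) (k : ℕ) (o : Cfg V) (j : ℤ) {t : ℝ}
    (h1 : (j : ℝ) + 1 / 2 ≤ t) (h2 : t ≤ j + 1) :
    evl Λ k t o = evl Λ k (j + 1 / 2) o := by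
  rw [evl_eq, evl_eq, evs_const Λ k o j h1 h2]

/-- module STT -/
theorem stt_proof (hC : CHAN) : STT.{u} := by
  intro V _ G _ D θ μ hE hI Λ k
  have := hI.ising.isProb
  have hP : ∀ t ω, Post G μ (stt μ Λ k t ω) := fun t ω => dn_post hE.tree hC _ _
  refine ⟨hP, fun v => measurable_mk hC Λ k v, fun v w => measurable_ck hC Λ k v w,
    fun t v => (measurable_mk hC Λ k v).comp (measurable_const.prodMk measurable_id),
    fun t v w => (measurable_ck hC Λ k v w).comp (measurable_const.prodMk measurable_id),
    fun t v ω => (hP t ω).abs_mean_le v, ?_⟩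
  intro j t v ω h1 h2
  unfold mk stt
  rw [evl_const Λ k ω.1 j h1 h2]

end P161C
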