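import Vale.Agent.P161C.Star
import Vale.Agent.P161C.Stt

/-!
# P161 at the critical point: STARM, martingale facts in finite volume
-/

open MeasureTheory Set Filter Topology

namespace P161C

open P161

universe u

variable {V : Type u} {μ μ₁ μ₂ : Measure (V → Bool)} {G : SimpleGraph V}

section lists

variable [IsProbabilityMeasure μ]

/-- posterior expectation of a function -/
noncomputable def pe (μ : Measure (V → Bool)) (f : (V → Bool) → ℝ) (l : List (V × ℤ))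
    (U : Cfg V) : ℝ := ∫ s, dn μ U l s * f s ∂μ

theorem measurable_pe (hC : CHAN) {f : (V → Bool) → ℝ} (hf : Loc f) (l : List (V × ℤ)) :
    Measurable (pe μ f l) := by
  have h1 : Measurable fun p : Cfg V × (V → Bool) => dn μ p.1 l p.2 * f p.2 :=
    (measurable_dn hC l).mul (hf.measurable.comp measurable_snd)
  exact (h1.stronglyMeasurable.integral_prod_right' (ν := μ)).measurable

theorem pe_abs (hG : G.IsTree) (hC : CHAN) {f : (V → Bool) → ℝ} (hf : Loc f)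
    {B : ℝ} (hB : 0 < B) (hb : ∀ s, |f s| ≤ B) (l : List (V × ℤ)) (U : Cfg V) :
    |pe μ f l U| ≤ B := by
  have h := (dn_post (μ := μ) hG hC U l).abs_int_le (f := fun s => B⁻¹ * f s)
    (hf.const_mul _) (fun s => by
      rw [abs_mul, abs_of_pos (inv_pos.2 hB), inv_mul_le_iff₀ hB, mul_one]; exact hb s)
  have e : ∫ s, dn μ U l s * (B⁻¹ * f s) ∂μ = B⁻¹ * pe μ f l U := by
    unfold pe
    rw [← integral_const_mul]
    congr 1
    ext s
    ring
  rw [e, abs_mul, abs_of_pos (inv_pos.2 hB), inv_mul_le_iff₀ hB, mul_one] at h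
  exact h

omit [IsProbabilityMeasure μ] in
theorem pe_congr {f : (V → Bool) → ℝ} {l : List (V × ℤ)} {U U' : Cfg V}
    (h : ∀ e ∈ l, U e = U' e) : pe μ f l U = pe μ f l U' := by
  unfold pe
  rw [dn_congr μ h]

open Classical in
theorem pe_mart (hG : G.IsTree) (hC : CHAN) {f : (V → Bool) → ℝ} (hf : Loc f)
    (l : List (V × ℤ)) {F : Cfg V → ℝ} (hF : Measurable F) {B : ℝ} (hB : ∀ U, |F U| ≤ B) :
    ∀ l' : List (V × ℤ), (l' ++ l).Nodup →
      (∀ e ∈ l', ∀ (U : Cfg V) (x : unitInterval), F (Function.update U e x) = F U) →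
      ∫ U, pe μ f (l' ++ l) U * F U ∂(Pc V) = ∫ U, pe μ f l U * F U ∂(Pc V) := by
  obtain ⟨Bf0, hBf0⟩ := hf.bounded
  set Bf := |Bf0| + 1 with hBf
  have hBf1 : 0 < Bf := by positivity
  have hBf2 : ∀ s, |f s| ≤ Bf := fun s => (hBf0 s).trans (by rw [hBf]; linarith [le_abs_self Bf0])
  have hB0 : 0 ≤ B := (abs_nonneg _).trans (hB (fun _ => 0))
  intro l'
  induction l' with
  | nil => intro _ _; rfl
  | cons e l' ih =>
    intro hnd hup
    rw [List.cons_append] at hnd ⊢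
    have hnd' := List.nodup_cons.1 hnd
    have ih' := ih hnd'.2 fun e' he' => hup e' (List.mem_cons_of_mem _ he')
    rw [← ih']
    set L := l' ++ l with hL
    set Gf : Cfg V → ℝ := fun U => pe μ (fun s => f s * spin (s e.1)) L U
      - pe μ f L U * mean μ (dn μ U L) e.1 with hGf
    have hloc2 : Loc (fun s : V → Bool => f s * spin (s e.1)) := hf.mul (Loc.coord e.1)
    have hpe : ∀ U : Cfg V, pe μ f (e :: L) U = pe μ f L U
        + Ig (amp e.2) (mean μ (dn μ U L) e.1) (U e) * Gf U := by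
      intro U
      exact int_upd (μ := μ) (dn_post (μ := μ) hG hC U L).loc e.1 _ hf
    have hmL : ∀ U : Cfg V, |mean μ (dn μ U L) e.1| ≤ 1 := fun U =>
      (dn_post (μ := μ) hG hC U L).abs_mean_le e.1
    have hGm : Measurable Gf := (measurable_pe hC hloc2 L).sub
      ((measurable_pe hC hf L).mul (measurable_mean_dn hC L e.1))
    have hGb : ∀ U, |Gf U| ≤ 2 * Bf := by
      intro U
      have h1 := pe_abs (μ := μ) hG hC hloc2 hBf1 (fun s => by
        rw [abs_mul, abs_spin, mul_one]; exact hBf2 s) L U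
      have h2 := pe_abs (μ := μ) hG hC hf hBf1 hBf2 L U
      have h3 : |pe μ f L U * mean μ (dn μ U L) e.1| ≤ Bf := by
        rw [abs_mul]
        calc |pe μ f L U| * |mean μ (dn μ U L) e.1| ≤ Bf * 1 :=
              mul_le_mul h2 (hmL U) (abs_nonneg _) hBf1.le
          _ = Bf := mul_one _
      exact (abs_sub _ _).trans (by linarith)
    have hIm : Measurable fun U : Cfg V => Ig (amp e.2) (mean μ (dn μ U L) e.1) (U e) :=
      (measurable_Ig hC).comp (measurable_const.prodMk ((measurable_mean_dn hC L e.1).prodMk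
        (measurable_subtype_coe.comp (measurable_pi_apply e))))
    have hIb : ∀ U : Cfg V, |Ig (amp e.2) (mean μ (dn μ U L) e.1) (U e)| ≤ 1 := fun U =>
      (hC.Ig_le _ _ _ (amp_pos _).le (amp_le _) (hmL U) (U e).2.1 (U e).2.2).trans (by
        linarith [amp_le e.2])
    have hi1 : Integrable (fun U => pe μ f L U * F U) (Pc V) := by
      refine Integrable.of_bound ((measurable_pe hC hf L).mul hF).aestronglyMeasurable (Bf * B)
        (Filter.Eventually.of_forall fun U => ?_)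
      rw [norm_mul, Real.norm_eq_abs, Real.norm_eq_abs]
      exact mul_le_mul (pe_abs (μ := μ) hG hC hf hBf1 hBf2 L U) (hB U) (abs_nonneg _) hBf1.le
    have hi2 : Integrable (fun U : Cfg V => Ig (amp e.2) (mean μ (dn μ U L) e.1) (U e)
        * Gf U * F U) (Pc V) := by
      refine Integrable.of_bound ((hIm.mul hGm).mul hF).aestronglyMeasurable (1 * (2 * Bf) * B)
        (Filter.Eventually.of_forall fun U => ?_)
      rw [norm_mul, norm_mul, Real.norm_eq_abs, Real.norm_eq_abs, Real.norm_eq_abs]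
      exact mul_le_mul (mul_le_mul (hIb U) (hGb U) (abs_nonneg _) (by norm_num)) (hB U)
        (abs_nonneg _) (by positivity)
    have hzero : ∫ U : Cfg V, Ig (amp e.2) (mean μ (dn μ U L) e.1) (U e) * Gf U * F U ∂(Pc V)
        = 0 := by
      rw [integral_update e hi2]
      have hpt : ∀ U : Cfg V, (∫ x : unitInterval,
          Ig (amp e.2) (mean μ (dn μ (Function.update U e x) L) e.1) (Function.update U e x e)
            * Gf (Function.update U e x) * F (Function.update U e x)) = 0 := by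
        intro U
        have e1 : ∀ x : unitInterval, dn μ (Function.update U e x) L = dn μ U L := fun x =>
          dn_congr _ fun f hf => Function.update_of_ne (ne_of_mem_of_not_mem hf hnd'.1) _ _
        have e2 : ∀ x : unitInterval, Gf (Function.update U e x) = Gf U := fun x => by
          simp only [hGf, pe, e1]
        have e3 : ∀ x : unitInterval, F (Function.update U e x) = F U := fun x =>
          hup e (List.mem_cons_self ..) U x
        simp only [e1, e2, e3, Function.update_self]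
        simp_rw [mul_assoc]
        rw [integral_mul_const, hC.Ig_int _ _ (amp_pos _).le (amp_le _) (hmL U), zero_mul]
      simp only [hpt]
      simp
    calc ∫ U, pe μ f (e :: L) U * F U ∂(Pc V)
        = ∫ U, (pe μ f L U * F U
          + Ig (amp e.2) (mean μ (dn μ U L) e.1) (U e) * Gf U * F U) ∂(Pc V) := by
          congr 1
          ext U
          rw [hpe U]
          ring
      _ = _ := by rw [integral_add hi1 hi2, hzero, add_zero]

end lists

/-- splitting of the sorted list -/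
theorem evl_append {Λ : Finset V} {k : ℕ} {o : Cfg V} (hinj : Function.Injective (tm o))
    {t₁ t₂ : ℝ} (h12 : t₁ ≤ t₂) : ∃ l', evl Λ k t₂ o = l' ++ evl Λ k t₁ o := by
  classical
  refine ⟨srt o (evs Λ k t₂ o \ evs Λ k t₁ o), ?_⟩
  have hsub : evs Λ k t₁ o ⊆ evs Λ k t₂ o := by
    intro e he
    rw [mem_evs, act_iff] at he ⊢
    exact ⟨he.1, he.2.1, he.2.2.1, he.2.2.2.trans_le h12⟩
  rw [evl_eq, evl_eq]
  refine eq_srt hinj.injOn ?_ ?_
  · have hnd : (srt o (evs Λ k t₂ o \ evs Λ k t₁ o) ++ srt o (evs Λ k t₁ o)).Nodup := by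
      refine List.Nodup.append (nodup_srt _ _) (nodup_srt _ _) ?_
      intro e h1 h2
      rw [mem_srt] at h1 h2
      exact (Finset.mem_sdiff.1 h1).2 h2
    rw [List.perm_ext_iff_of_nodup hnd (Finset.nodup_toList _)]
    intro e
    rw [List.mem_append, mem_srt, mem_srt, Finset.mem_toList, Finset.mem_sdiff]
    constructor
    · rintro (h | h)
      · exact h.1
      · exact hsub h
    · intro h
      by_cases h' : e ∈ evs Λ k t₁ o
      · exact Or.inr h'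
      · exact Or.inl ⟨h, h'⟩
  · rw [List.pairwise_append]
    refine ⟨srt_pairwise _ _, srt_pairwise _ _, fun e he f hf => ?_⟩
    rw [mem_srt] at he hf
    rw [Finset.mem_sdiff, mem_evs, mem_evs, act_iff, act_iff] at he
    rw [mem_evs, act_iff] at hf
    have h1 : ¬ tm o e < t₁ := fun h => he.2 ⟨he.1.1, he.1.2.1, he.1.2.2.1, h⟩
    exact hf.2.2.2.le.trans (not_lt.1 h1)

section meas

attribute [local instance] instMSList instDMSList

theorem measurable_pes [Countable V] [IsProbabilityMeasure μ] (hC : CHAN)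
    {f : (V → Bool) → ℝ} (hf : Loc f) (Λ : Finset V) (k : ℕ) (t : ℝ) :
    Measurable fun ω : Om V => ∫ σ, stt μ Λ k t ω σ * f σ ∂μ := by
  have h1 : Measurable fun q : Cfg V × List (V × ℤ) => pe μ f q.2 q.1 :=
    measurable_from_prod_countable_left fun l => measurable_pe hC hf l
  have h2 : Measurable fun ω : Om V => evl Λ k t ω.1 :=
    (measurable_evl Λ k).comp (measurable_const.prodMk measurable_fst)
  exact h1.comp (measurable_snd.prodMk h2)

end meas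

section main

variable [Countable V] [G.LocallyFinite] {D : ℕ} {θ₁ θ₂ : ℝ}

theorem half_mono (hC : CHAN) (hS : STT.{u}) (hE : Env G D) (h₁ : Isg G D θ₁ μ₁)
    (h₂ : Isg G D θ₂ μ₂) (Λ₁ Λ₂ : Finset V) (k₁ k₂ : ℕ) (v : V) {j : ℤ} {t₁ t₂ : ℝ}
    (hj : (j : ℝ) ≤ t₁) (h12 : t₁ ≤ t₂) (hj2 : t₂ ≤ j + 1 / 2) :
    ∫ ω, (mk μ₁ Λ₁ k₁ t₁ v ω - mk μ₂ Λ₂ k₂ t₁ v ω) ^ 2 ∂(Pm V)
      ≤ ∫ ω, (mk μ₁ Λ₁ k₁ t₂ v ω - mk μ₂ Λ₂ k₂ t₂ v ω) ^ 2 ∂(Pm V) := by
  classical
  have := h₁.ising.isProb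
  have := h₂.ising.isProb
  obtain ⟨e2, i2⟩ := integral_Dq hS hE h₁ h₂ Λ₁ Λ₂ k₁ k₂ v t₂
  obtain ⟨e1, i1⟩ := integral_Dq hS hE h₁ h₂ Λ₁ Λ₂ k₁ k₂ v t₁
  rw [e1, e2]
  refine integral_mono_ae i1 i2 ?_
  filter_upwards [ae_tm_inj (V := V)] with o ho
  rw [Dq_formula hE.tree hC Λ₁ Λ₂ k₁ k₂ v ho hj _ t₂ h12 hj2 rfl]
  have : 0 ≤ ∑ w ∈ (Λ₁ ∪ Λ₂).filter (fun w => t₁ ≤ tm o (w, j) ∧ tm o (w, j) < t₂),
      gq μ₁ μ₂ Λ₁ Λ₂ k₁ k₂ j v w (tm o (w, j)) o :=
    Finset.sum_nonneg fun w _ => (gq_bd hC hS hE h₁ h₂ Λ₁ Λ₂ k₁ k₂ j v w _ o).1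
  linarith

/-- a function which is monotone on each `[j, j + 1/2]` and constant on `[j + 1/2, j + 1]` is
monotone -/
theorem mono_glue {f : ℝ → ℝ}
    (h1 : ∀ (j : ℤ) (s t : ℝ), (j : ℝ) ≤ s → s ≤ t → t ≤ j + 1 / 2 → f s ≤ f t)
    (h2 : ∀ (j : ℤ) (t : ℝ), (j : ℝ) + 1 / 2 ≤ t → t ≤ j + 1 → f t = f (j + 1 / 2)) :
    Monotone f := by
  have hr : ∀ (j : ℤ) (s t : ℝ), (j : ℝ) ≤ s → s ≤ t → t ≤ j + 1 → f s ≤ f t := by
    intro j s t hs hst ht
    rcases le_total t (j + 1 / 2) with h | h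
    · exact h1 j s t hs hst h
    · rw [h2 j t h ht]
      rcases le_total s (j + 1 / 2) with h' | h'
      · exact h1 j s _ hs h' le_rfl
      · rw [h2 j s h' (hst.trans ht)]
  have key : ∀ (n : ℕ) (j : ℤ) (s t : ℝ), (j : ℝ) ≤ s → s ≤ j + 1 → s ≤ t → t ≤ j + n + 1 →
      f s ≤ f t := by
    intro n
    induction n with
    | zero =>
      intro j s t h1 _ h3 h4
      exact hr j s t h1 h3 (by simpa using h4)
    | succ n ih =>
      intro j s t h1 h2 h3 h4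
      by_cases h : t ≤ j + 1
      · exact hr j s t h1 h3 h
      · rw [not_le] at h
        have a1 : f s ≤ f (j + 1) := hr j s _ h1 h2 le_rfl
        have a2 := ih (j + 1) ((j : ℝ) + 1) t (by push_cast; linarith) (by push_cast; linarith)
          h.le (by push_cast at h4 ⊢; linarith)
        exact a1.trans a2
  intro s t hst
  obtain ⟨n, hn⟩ := exists_nat_ge (t - s)
  refine key n ⌊s⌋ s t (Int.floor_le s) (Int.lt_floor_add_one s).le hst ?_
  have := Int.lt_floor_add_one s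
  linarith

theorem sq_mono (hC : CHAN) (hS : STT.{u}) (hE : Env G D) (h₁ : Isg G D θ₁ μ₁)
    (h₂ : Isg G D θ₂ μ₂) (Λ₁ Λ₂ : Finset V) (k₁ k₂ : ℕ) (v : V) :
    Monotone fun t => ∫ ω, (mk μ₁ Λ₁ k₁ t v ω - mk μ₂ Λ₂ k₂ t v ω) ^ 2 ∂(Pm V) := by
  refine mono_glue (fun j s t h1 h2 h3 => half_mono hC hS hE h₁ h₂ Λ₁ Λ₂ k₁ k₂ v h1 h2 h3)
    fun j t h1 h2 => ?_
  simp only [(hS V G D θ₁ μ₁ hE h₁ Λ₁ k₁).2.2.2.2.2.2 j t v _ h1 h2,
    (hS V G D θ₂ μ₂ hE h₂ Λ₂ k₂).2.2.2.2.2.2 j t v _ h1 h2]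

omit [Countable V] in
theorem pe_total (hC : CHAN) (hE : Env G D) (h₁ : Isg G D θ₁ μ₁)
    (Λ : Finset V) (k : ℕ) (t : ℝ) {f : (V → Bool) → ℝ} (hf : Loc f) (o : Cfg V) :
    ∫ U, pe μ₁ f (evl Λ k t o) U ∂(Pc V) = ∫ σ, f σ ∂μ₁ := by
  have := h₁.ising.isProb
  have h := pe_mart (μ := μ₁) hE.tree hC hf [] (F := fun _ => 1) measurable_const (B := 1)
    (fun U => by simp) (evl Λ k t o) (by
      rw [List.append_nil, evl_eq]; exact nodup_srt _ _) (fun e _ U x => rfl)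
  simp only [List.append_nil, mul_one] at h
  rw [h]
  simp [pe, dn]

omit [Countable V] in
theorem mart_o (hC : CHAN) (hE : Env G D) (h₁ : Isg G D θ₁ μ₁)
    (Λ : Finset V) (k : ℕ) (v : V) {t₁ t₂ : ℝ} (h12 : t₁ ≤ t₂) {o : Cfg V}
    (ho : Function.Injective (tm o)) :
    ∫ U, mean μ₁ (dn μ₁ U (evl Λ k t₂ o)) v * mean μ₁ (dn μ₁ U (evl Λ k t₁ o)) v ∂(Pc V)
      = ∫ U, mean μ₁ (dn μ₁ U (evl Λ k t₁ o)) v ^ 2 ∂(Pc V) := by
  classical
  have := h₁.ising.isProb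
  obtain ⟨l', hl'⟩ := evl_append (Λ := Λ) (k := k) ho h12
  have hnd : (l' ++ evl Λ k t₁ o).Nodup := by
    rw [← hl', evl_eq]; exact nodup_srt _ _
  have h := pe_mart (μ := μ₁) hE.tree hC (Loc.coord v) (evl Λ k t₁ o)
    (F := fun U => mean μ₁ (dn μ₁ U (evl Λ k t₁ o)) v) (measurable_mean_dn hC _ v) (B := 1)
    (fun U => (dn_post (μ := μ₁) hE.tree hC U _).abs_mean_le v) l' hnd (by
      intro e he U x
      have hne : e ∉ evl Λ k t₁ o := fun h2 => (List.nodup_append.1 hnd).2.2 e he e h2 rfl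
      have e1 : dn μ₁ (Function.update U e x) (evl Λ k t₁ o) = dn μ₁ U (evl Λ k t₁ o) :=
        dn_congr _ fun f hf => Function.update_of_ne (ne_of_mem_of_not_mem hf hne) _ _
      exact congrArg (fun ρ => mean μ₁ ρ v) e1)
  rw [hl']
  refine Eq.trans ?_ (h.trans ?_)
  · rfl
  · congr 1
    ext U
    rw [sq]
    rfl

end main

/-- STARM -/
theorem starm_proof (hC : CHAN) (hS : STT.{u}) : STARM.{u} := by
  intro V _ G _ D θ₁ θ₂ μ₁ μ₂ hE h₁ h₂ Λ₁ Λ₂ k₁ k₂ v t₁ t₂ h12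
  have := h₁.ising.isProb
  have s1 := hS V G D θ₁ μ₁ hE h₁ Λ₁ k₁
  have m := fun t => s1.2.2.2.1 t v
  have b := fun t => s1.2.2.2.2.2.1 t v
  have hprod : ∀ s t, Integrable (fun ω => mk μ₁ Λ₁ k₁ s v ω * mk μ₁ Λ₁ k₁ t v ω) (Pm V) := by
    intro s t
    refine Integrable.of_bound ((m s).mul (m t)).aestronglyMeasurable 1
      (Filter.Eventually.of_forall fun ω => ?_)
    rw [norm_mul, Real.norm_eq_abs, Real.norm_eq_abs]
    calc |mk μ₁ Λ₁ k₁ s v ω| * |mk μ₁ Λ₁ k₁ t v ω| ≤ 1 * 1 :=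
          mul_le_mul (b s ω) (b t ω) (abs_nonneg _) (by norm_num)
      _ = 1 := by norm_num
  refine ⟨sq_mono hC hS hE h₁ h₂ Λ₁ Λ₂ k₁ k₂ v h12, ?_, fun f hf => ?_⟩
  · have hcross : ∫ ω, mk μ₁ Λ₁ k₁ t₂ v ω * mk μ₁ Λ₁ k₁ t₁ v ω ∂(Pm V)
        = ∫ ω, mk μ₁ Λ₁ k₁ t₁ v ω * mk μ₁ Λ₁ k₁ t₁ v ω ∂(Pm V) := by
      have i1 := hprod t₂ t₁
      have i2 := hprod t₁ t₁
      unfold Pm at i1 i2 ⊢
      rw [integral_prod _ i1, integral_prod _ i2]
      refine integral_congr_ae ?_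
      filter_upwards [ae_tm_inj (V := V)] with o ho
      have := mart_o hC hE h₁ Λ₁ k₁ v h12 ho
      simp only [sq] at this
      exact this
    have hexp : ∀ ω, (mk μ₁ Λ₁ k₁ t₂ v ω - mk μ₁ Λ₁ k₁ t₁ v ω) ^ 2
        = mk μ₁ Λ₁ k₁ t₂ v ω * mk μ₁ Λ₁ k₁ t₂ v ω
          - 2 * (mk μ₁ Λ₁ k₁ t₂ v ω * mk μ₁ Λ₁ k₁ t₁ v ω)
          + mk μ₁ Λ₁ k₁ t₁ v ω * mk μ₁ Λ₁ k₁ t₁ v ω := fun ω => by ring
    simp_rw [hexp, sq]
    have j1 : Integrable (fun ω => mk μ₁ Λ₁ k₁ t₂ v ω * mk μ₁ Λ₁ k₁ t₂ v ω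
          - 2 * (mk μ₁ Λ₁ k₁ t₂ v ω * mk μ₁ Λ₁ k₁ t₁ v ω)) (Pm V) :=
      (hprod t₂ t₂).sub ((hprod t₂ t₁).const_mul 2)
    rw [integral_add j1 (hprod t₁ t₁), integral_sub (hprod t₂ t₂) ((hprod t₂ t₁).const_mul 2),
      integral_const_mul, hcross]
    ring
  · obtain ⟨Bf0, hBf0⟩ := hf.bounded
    have hpb : ∀ ω, |∫ σ, stt μ₁ Λ₁ k₁ t₁ ω σ * f σ ∂μ₁| ≤ |Bf0| + 1 := fun ω =>
      pe_abs (μ := μ₁) hE.tree hC hf (by positivity) (fun s => (hBf0 s).trans (by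
        linarith [le_abs_self Bf0])) (evl Λ₁ k₁ t₁ ω.1) ω.2
    by_cases hint : Integrable (fun ω => ∫ σ, stt μ₁ Λ₁ k₁ t₁ ω σ * f σ ∂μ₁) (Pm V)
    · unfold Pm at hint ⊢
      rw [integral_prod _ hint]
      have : ∀ o : Cfg V, ∫ U, ∫ σ, stt μ₁ Λ₁ k₁ t₁ (o, U) σ * f σ ∂μ₁ ∂(Pc V)
          = ∫ σ, f σ ∂μ₁ := fun o => pe_total hC hE h₁ Λ₁ k₁ t₁ hf o
      simp only [this]
      simp
    · exfalso
      apply hint
      refine Integrable.of_bound ?_ (|Bf0| + 1) (Filter.Eventually.of_forall hpb)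
      exact (measurable_pes hC hf Λ₁ k₁ t₁).aestronglyMeasurable

end P161C
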