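import Vale.Agent.P161C.Ind

/-!
# P161 at the critical point: the law of the planted messages (TREELAW)
-/

open MeasureTheory ProbabilityTheory Set Filter Topology
open scoped ENNReal

namespace P161C

open P161

universe u

/-! ## Densities and push-forwards -/

section general

variable {Ω α β : Type*} [MeasurableSpace Ω] [MeasurableSpace α] [MeasurableSpace β]

theorem map_wd_comp (Q : Measure Ω) {T : Ω → α} (hT : Measurable T) {g : α → ℝ≥0∞}
    (hg : Measurable g) : (Q.withDensity fun ω => g (T ω)).map T = (Q.map T).withDensity g := by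
  ext s hs
  rw [Measure.map_apply hT hs, withDensity_apply _ (hT hs), withDensity_apply _ hs,
    ← lintegral_indicator (hT hs), ← lintegral_indicator hs,
    lintegral_map (hg.indicator hs) hT]
  rfl

theorem map_wd_prod {P : Measure Ω} [IsProbabilityMeasure P] {f g : Ω → ℝ≥0∞} {X : Ω → α}
    {Y : Ω → β} (hf : Measurable f) (hg : Measurable g) (hX : Measurable X) (hY : Measurable Y)
    (hf1 : ∫⁻ ω, f ω ∂P ≠ ∞) (hg1 : ∫⁻ ω, g ω ∂P ≠ ∞)
    (hI : IndepFun (fun ω => (f ω, X ω)) (fun ω => (g ω, Y ω)) P) :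
    (P.withDensity fun ω => f ω * g ω).map (fun ω => (X ω, Y ω))
      = ((P.withDensity f).map X).prod ((P.withDensity g).map Y) := by
  have : IsFiniteMeasure (P.withDensity f) := isFiniteMeasure_withDensity hf1
  have : IsFiniteMeasure (P.withDensity g) := isFiniteMeasure_withDensity hg1
  symm
  refine Measure.prod_eq fun s t hs ht => ?_
  rw [Measure.map_apply (hX.prodMk hY) (hs.prod ht), Measure.map_apply hX hs,
    Measure.map_apply hY ht, withDensity_apply _ ((hX.prodMk hY) (hs.prod ht)),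
    withDensity_apply _ (hX hs), withDensity_apply _ (hY ht),
    ← lintegral_indicator ((hX.prodMk hY) (hs.prod ht)), ← lintegral_indicator (hX hs),
    ← lintegral_indicator (hY ht)]
  have hmf : Measurable fun p : ℝ≥0∞ × α => (Prod.snd ⁻¹' s).indicator (fun p => p.1) p :=
    measurable_fst.indicator (measurable_snd hs)
  have hmg : Measurable fun p : ℝ≥0∞ × β => (Prod.snd ⁻¹' t).indicator (fun p => p.1) p :=
    measurable_fst.indicator (measurable_snd ht)
  have h1 := lintegral_mul_eq_lintegral_mul_lintegral_of_indepFun''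
    (hmf.comp (hf.prodMk hX)).aemeasurable (hmg.comp (hg.prodMk hY)).aemeasurable
    (hI.comp hmf hmg)
  have e1 : ∀ ω, ((fun ω => (X ω, Y ω)) ⁻¹' s ×ˢ t).indicator (fun ω => f ω * g ω) ω
      = ((fun p : ℝ≥0∞ × α => (Prod.snd ⁻¹' s).indicator (fun p => p.1) p) ∘
          fun ω => (f ω, X ω)) ω
        * ((fun p : ℝ≥0∞ × β => (Prod.snd ⁻¹' t).indicator (fun p => p.1) p) ∘
          fun ω => (g ω, Y ω)) ω := by
    intro ω
    by_cases h1 : X ω ∈ s <;> by_cases h2 : Y ω ∈ t <;>
      simp [Set.indicator, h1, h2]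
  rw [lintegral_congr e1, h1]
  congr 1

theorem map_wd_pi {ι : Type*} [Fintype ι] {γ : Type*} [MeasurableSpace γ]
    {P : Measure Ω} [IsProbabilityMeasure P] {f : ι → Ω → ℝ≥0∞} {X : ι → Ω → γ}
    (hf : ∀ i, Measurable (f i)) (hX : ∀ i, Measurable (X i))
    (hf1 : ∀ i, ∫⁻ ω, f i ω ∂P ≠ ∞)
    (hI : iIndepFun (fun i ω => (f i ω, X i ω)) P) :
    (P.withDensity fun ω => ∏ i, f i ω).map (fun ω i => X i ω)
      = Measure.pi fun i => (P.withDensity (f i)).map (X i) := by
  have : ∀ i, IsFiniteMeasure (P.withDensity (f i)) := fun i => isFiniteMeasure_withDensity (hf1 i)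
  symm
  refine Measure.pi_eq fun s hs => ?_
  have hXm : Measurable fun ω i => X i ω := measurable_pi_lambda _ hX
  have hsm : MeasurableSet ((fun ω i => X i ω) ⁻¹' univ.pi s) :=
    hXm (MeasurableSet.univ_pi hs)
  rw [Measure.map_apply hXm (MeasurableSet.univ_pi hs), withDensity_apply _ hsm,
    ← lintegral_indicator hsm]
  have hmf : ∀ i, Measurable fun p : ℝ≥0∞ × γ => (Prod.snd ⁻¹' (s i)).indicator (fun p => p.1) p :=
    fun i => measurable_fst.indicator (measurable_snd (hs i))
  have h1 := lintegral_prod_eq_prod_lintegral_of_indepFun (μ := P) Finset.univ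
    (fun i ω => (Prod.snd ⁻¹' (s i)).indicator (fun p : ℝ≥0∞ × γ => p.1) (f i ω, X i ω))
    (hI.comp _ hmf) (fun i => (hmf i).comp ((hf i).prodMk (hX i)))
  have e1 : ∀ ω, ((fun ω i => X i ω) ⁻¹' univ.pi s).indicator (fun ω => ∏ i, f i ω) ω
      = ∏ i, (Prod.snd ⁻¹' (s i)).indicator (fun p : ℝ≥0∞ × γ => p.1) (f i ω, X i ω) := by
    intro ω
    by_cases h : ∀ i, X i ω ∈ s i
    · rw [Set.indicator_of_mem (by simpa using h)]
      refine Finset.prod_congr rfl fun i _ => ?_
      rw [Set.indicator_of_mem (show (f i ω, X i ω) ∈ Prod.snd ⁻¹' (s i) from h i)]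
    · rw [Set.indicator_of_notMem (by simpa using h)]
      push Not at h
      obtain ⟨i, hi⟩ := h
      symm
      refine Finset.prod_eq_zero (Finset.mem_univ i) ?_
      rw [Set.indicator_of_notMem (show (f i ω, X i ω) ∉ Prod.snd ⁻¹' (s i) from hi)]
  rw [lintegral_congr e1, h1]
  refine Finset.prod_congr rfl fun i _ => ?_
  rw [Measure.map_apply (hX i) (hs i), withDensity_apply _ (hX i (hs i)),
    ← lintegral_indicator (hX i (hs i))]
  rfl

end general

end P161C
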