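import Vale.Agent.P161C.TreeSig

/-!
# P161 at the critical point: the planted messages follow the recursion
-/

open MeasureTheory ProbabilityTheory Set Filter Topology
open scoped ENNReal

namespace P161C

open P161

universe u

variable {V : Type u} {G : SimpleGraph V}

/-! ## Geometry of the branches -/

theorem mem_sd [G.LocallyFinite] (hG : G.Connected) {p x u : V} {n : ℕ} :
    u ∈ sd G hG p x n ↔ G.dist p u ≤ n ∧ G.dist x u < G.dist p u := by
  classical
  unfold sd
  rw [Finset.mem_filter, mem_ballF]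

/-- two different neighbours of `x`: if `u` is behind `c` then it is behind `x` seen from `p` -/
theorem dist_other (hG : G.IsTree) {x c p u : V} (hc : G.Adj x c) (hp : G.Adj x p) (hne : c ≠ p)
    (h : G.dist c u < G.dist x u) : G.dist p u = G.dist x u + 1 := by
  have h1 := hG.dist_eq_dist_add_one_of_adj u hc
  have h2 := hG.dist_eq_dist_add_one_of_adj u hp
  have s1 : G.dist u x = G.dist x u := SimpleGraph.dist_comm
  have s2 : G.dist u c = G.dist c u := SimpleGraph.dist_comm
  have s3 : G.dist u p = G.dist p u := SimpleGraph.dist_comm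
  rw [s1, s2] at h1
  rw [s1, s3] at h2
  rcases h2 with h2 | h2
  · exfalso
    exact hne (next_unique hG (y := u) hc hp (by omega) (by omega))
  · exact h2

open Classical in
theorem sd_succ [G.LocallyFinite] (hG : G.IsTree) {p x : V} (hpx : G.Adj p x) (n : ℕ) :
    sd G hG.connected p x (n + 1)
      = insert x (((G.neighborFinset x).erase p).biUnion fun c => sd G hG.connected x c n) := by
  ext u
  rw [mem_sd, Finset.mem_insert, Finset.mem_biUnion]
  have h0 := hG.dist_eq_dist_add_one_of_adj u hpx
  have s1 : G.dist u x = G.dist x u := SimpleGraph.dist_comm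
  have s3 : G.dist u p = G.dist p u := SimpleGraph.dist_comm
  rw [s1, s3] at h0
  constructor
  · rintro ⟨h1, h2⟩
    by_cases hux : u = x
    · exact Or.inl hux
    · right
      obtain ⟨c, hc, hcu⟩ := exists_next hG.connected (Ne.symm hux)
      refine ⟨c, ?_, ?_⟩
      · rw [Finset.mem_erase, SimpleGraph.mem_neighborFinset]
        refine ⟨?_, hc⟩
        rintro rfl
        omega
      · rw [mem_sd]
        omega
  · rintro (rfl | ⟨c, hc, hu⟩)
    · have h1 : G.dist p u = 1 := SimpleGraph.dist_eq_one_iff_adj.2 hpx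
      have h2 : G.dist u u = 0 := SimpleGraph.dist_self
      omega
    · rw [Finset.mem_erase, SimpleGraph.mem_neighborFinset] at hc
      rw [mem_sd] at hu
      have := dist_other hG hc.2 hpx.symm hc.1 hu.2
      omega

theorem sd_disjoint [G.LocallyFinite] (hG : G.IsTree) {x c c' : V} {n n' : ℕ} (hc : G.Adj x c)
    (hc' : G.Adj x c') (hne : c ≠ c') :
    Disjoint (sd G hG.connected x c n) (sd G hG.connected x c' n') := by
  rw [Finset.disjoint_left]
  intro u hu hu'
  rw [mem_sd] at hu hu'
  have := dist_other hG hc hc' hne hu.2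
  omega

theorem notMem_sd [G.LocallyFinite] (hG : G.Connected) {x c : V} {n : ℕ} :
    x ∉ sd G hG x c n := by
  rw [mem_sd, SimpleGraph.dist_self]
  omega

theorem sd_zero [G.LocallyFinite] (hG : G.Connected) {p x : V} : sd G hG p x 0 = ∅ := by
  ext u
  rw [mem_sd]
  constructor
  · rintro ⟨h1, h2⟩
    omega
  · intro h
    exact absurd h (Finset.notMem_empty u)

/-! ## Splitting of the Ising integral at a vertex -/

theorem edgesIn_singleton (x : V) : edgesIn G {x} = ∅ := by
  ext e
  induction e using Sym2.ind with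
  | _ a b =>
    rw [P161.mem_edgesIn]
    constructor
    · rintro ⟨h1, h2, h3⟩
      rw [Finset.mem_singleton] at h1 h2
      subst h1
      subst h2
      exact absurd h3 (G.loopless.irrefl _)
    · intro h
      exact absurd h (Finset.notMem_empty _)

theorem integral_root {θ : ℝ} {μ : Measure (V → Bool)} (hμ : IsFreeIsing G θ μ) (x : V)
    (g : Bool → ℝ) : ∫ s, g (s x) ∂μ = 1 / 2 * ∑ b : Bool, g b := by
  classical
  have hc : (G.induce (({x} : Finset V) : Set V)).Connected := by
    have := (SimpleGraph.Walk.nil : G.Walk x x).connected_induce_support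
    have e : {v | v ∈ (SimpleGraph.Walk.nil : G.Walk x x).support} = (({x} : Finset V) : Set V) := by
      ext v; simp
    rwa [e] at this
  have hd : DependsOn (fun s : V → Bool => g (s x)) (({x} : Finset V) : Set V) := by
    intro s s' h
    show g (s x) = g (s' x)
    rw [h x (by simp)]
  rw [integral_eq_sum_wt hμ hc hd]
  have hw : ∀ η : V → Bool, P161.wt G θ {x} η = 1 / 2 := by
    intro η
    unfold P161.wt
    rw [edgesIn_singleton]
    simp
  simp only [hw]
  rw [← Finset.mul_sum]
  congr 1
  have hp : ({x} : Finset V).powerset = {∅, {x}} := by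
    ext A
    simp [Finset.subset_singleton_iff]
  rw [hp, Finset.sum_pair (by simp)]
  simp [pat, add_comm]

theorem integral_split [Countable V] (hG : G.IsTree) {θ : ℝ} {μ : Measure (V → Bool)}
    (hμ : IsFreeIsing G θ μ) (x : V) (A : V → Finset V) (H : V → (V → Bool) → ℝ)
    (C : Finset V) (hC : ∀ c ∈ C, G.Adj x c)
    (hA : ∀ c ∈ C, ∀ u ∈ A c, G.dist c u < G.dist x u)
    (hH : ∀ c ∈ C, DependsOn (H c) (A c : Set V)) :
    ∀ g : Bool → ℝ, ∫ s, g (s x) * ∏ c ∈ C, H c s ∂μ
      = 1 / 2 * ∑ b : Bool, g b * ∏ c ∈ C,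
        (∫ s, H c s ∂μ + θ * (∫ s, H c s * spin (s c) ∂μ) * spin b) := by
  classical
  induction C using Finset.induction_on with
  | empty =>
    intro g
    simpa using integral_root hμ x g
  | insert c C hcC ih =>
    intro g
    have hC' : ∀ c ∈ C, G.Adj x c := fun c hc => hC c (Finset.mem_insert_of_mem hc)
    have hA' : ∀ c ∈ C, ∀ u ∈ A c, G.dist c u < G.dist x u :=
      fun c hc => hA c (Finset.mem_insert_of_mem hc)
    have hH' : ∀ c ∈ C, DependsOn (H c) (A c : Set V) :=
      fun c hc => hH c (Finset.mem_insert_of_mem hc)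
    have ih' := ih hC' hA' hH'
    have hxc := hC c (Finset.mem_insert_self c C)
    set T : Finset V := insert x (C.biUnion A) with hT
    have hTd : DependsOn (fun s : V → Bool => g (s x) * ∏ c ∈ C, H c s) (T : Set V) := by
      intro s s' h
      show g (s x) * ∏ c ∈ C, H c s = g (s' x) * ∏ c ∈ C, H c s'
      rw [h x (by simp [hT])]
      congr 1
      refine Finset.prod_congr rfl fun c' hc' => hH' c' hc' fun u hu => h u ?_
      rw [hT, Finset.coe_insert, Finset.coe_biUnion]
      exact Or.inr (Set.mem_biUnion (Finset.mem_coe.2 hc') hu)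
    have hSs : ∀ u ∈ A c, G.dist u c < G.dist u x := by
      intro u hu
      have := hA c (Finset.mem_insert_self c C) u hu
      rwa [SimpleGraph.dist_comm (u := c), SimpleGraph.dist_comm (u := x)] at this
    have hTs : ∀ u ∈ T, G.dist u x < G.dist u c := by
      intro u hu
      rw [hT, Finset.mem_insert, Finset.mem_biUnion] at hu
      rcases hu with rfl | ⟨c', hc', hu⟩
      · rw [SimpleGraph.dist_self]
        exact hG.connected.pos_dist_of_ne hxc.ne
      · have hne : c' ≠ c := by
          rintro rfl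
          exact hcC hc'
        have h1 := dist_other hG (hC' c' hc') hxc hne (hA' c' hc' u hu)
        have s1 : G.dist u x = G.dist x u := SimpleGraph.dist_comm
        have s2 : G.dist u c = G.dist c u := SimpleGraph.dist_comm
        omega
    have h1 := edge_split hG hμ hxc.symm hSs hTs (hH c (Finset.mem_insert_self c C)) hTd
    have e1 : ∫ s, g (s x) * ∏ c ∈ insert c C, H c s ∂μ
        = ∫ s, H c s * (g (s x) * ∏ c ∈ C, H c s) ∂μ := by
      refine integral_congr_ae (Filter.Eventually.of_forall fun s => ?_)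
      simp only
      rw [Finset.prod_insert hcC]
      ring
    have e2 : ∫ s, g (s x) * (∏ c ∈ C, H c s) * spin (s x) ∂μ
        = ∫ s, (fun b => g b * spin b) (s x) * ∏ c ∈ C, H c s ∂μ := by
      refine integral_congr_ae (Filter.Eventually.of_forall fun s => ?_)
      simp only
      ring
    rw [e1, h1, e2, ih' g, ih' fun b => g b * spin b]
    simp only [Fintype.sum_bool, Finset.prod_insert hcC]
    ring

/-! ## Weights -/

theorem measurable_wt (k : ℕ) (t : ℝ) (v : V) (s : ℝ) :
    Measurable fun η : Om V => wt k t v η s := by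
  have : (fun η : Om V => wt k t v η s) = wn k t v (k + 1 + ⌈t⌉.toNat) s := by
    funext η
    exact wt_eq_wn k t v η s
  rw [this]
  exact measurable_wn _ _ _ _ _

theorem wt_pos (k : ℕ) (t : ℝ) (v : V) (η : Om V) {s : ℝ} (hs : |s| ≤ 1) : 0 < wt k t v η s := by
  rw [wt_eq_wn]
  exact wn_pos _ _ _ _ hs _

theorem wt_dep (k : ℕ) (t : ℝ) (v : V) (s : ℝ) :
    DepO (fun η : Om V => wt k t v η s) {e | e.1 = v} := by
  have : (fun η : Om V => wt k t v η s) = wn k t v (k + 1 + ⌈t⌉.toNat) s := by
    funext η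
    exact wt_eq_wn k t v η s
  rw [this]
  exact (DepO_wn k t v _ s).mono fun e he => he.1

theorem dep_prod (k : ℕ) (t : ℝ) (A : Finset V) (η : Om V) :
    DependsOn (fun σ : V → Bool => ∏ v ∈ A, wt k t v η (spin (σ v))) (A : Set V) := by
  intro σ σ' h
  show ∏ v ∈ A, wt k t v η (spin (σ v)) = ∏ v ∈ A, wt k t v η (spin (σ' v))
  refine Finset.prod_congr rfl fun v hv => ?_
  rw [h v (Finset.mem_coe.2 hv)]

theorem Zp_dep (μ : Measure (V → Bool)) (A : Finset V) (k : ℕ) (t : ℝ) :
    DepO (Zp μ A k t) {e | e.1 ∈ A} := by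
  intro η η' h
  unfold Zp
  refine integral_congr_ae (Filter.Eventually.of_forall fun σ => ?_)
  refine Finset.prod_congr rfl fun v hv => ?_
  refine wt_dep k t v _ η η' fun e he => h e ?_
  have : e.1 = v := he
  simpa [this] using hv

theorem ap_dep (μ : Measure (V → Bool)) (A : Finset V) (k : ℕ) (t : ℝ) (a : V) :
    DepO (ap μ A k t a) {e | e.1 ∈ A} := by
  intro η η' h
  unfold ap
  rw [Zp_dep μ A k t η η' h]
  congr 1
  refine integral_congr_ae (Filter.Eventually.of_forall fun σ => ?_)
  simp only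
  congr 1
  refine Finset.prod_congr rfl fun v hv => ?_
  refine wt_dep k t v _ η η' fun e he => h e ?_
  have : e.1 = v := he
  simpa [this] using hv

theorem measurable_Zp (μ : Measure (V → Bool)) [IsProbabilityMeasure μ] (A : Finset V) (k : ℕ)
    (t : ℝ) : Measurable (Zp μ A k t) := by
  classical
  have : Zp μ A k t = fun η => ∑ B ∈ A.powerset, μ.real (cyl A (pat B)) *
      ∏ v ∈ A, wt k t v η (spin (pat B v)) := by
    funext η
    exact integral_eq_sum A (dep_prod k t A η)
  rw [this]
  exact Finset.measurable_fun_sum _ fun B _ =>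
    (Finset.measurable_fun_prod _ fun v _ => measurable_wt k t v _).const_mul _

theorem measurable_ap (μ : Measure (V → Bool)) [IsProbabilityMeasure μ] (A : Finset V) (k : ℕ)
    (t : ℝ) (a : V) : Measurable (ap μ A k t a) := by
  classical
  unfold ap
  refine Measurable.div ?_ (measurable_Zp μ A k t)
  have hd : ∀ η : Om V, DependsOn
      (fun σ : V → Bool => spin (σ a) * ∏ v ∈ A, wt k t v η (spin (σ v)))
      ((insert a A : Finset V) : Set V) := by
    intro η σ σ' h
    show spin (σ a) * ∏ v ∈ A, wt k t v η (spin (σ v))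
      = spin (σ' a) * ∏ v ∈ A, wt k t v η (spin (σ' v))
    have h2 : ∏ v ∈ A, wt k t v η (spin (σ v)) = ∏ v ∈ A, wt k t v η (spin (σ' v)) :=
      dep_prod k t A η fun v hv => h v (by rw [Finset.coe_insert]; exact Or.inr hv)
    rw [h a (by simp), h2]
  have : (fun η : Om V => ∫ σ, spin (σ a) * ∏ v ∈ A, wt k t v η (spin (σ v)) ∂μ)
      = fun η => ∑ B ∈ (insert a A).powerset, μ.real (cyl (insert a A) (pat B)) *
      (spin (pat B a) * ∏ v ∈ A, wt k t v η (spin (pat B v))) := by
    funext η
    exact integral_eq_sum (insert a A) (hd η)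
  rw [this]
  exact Finset.measurable_fun_sum _ fun B _ =>
    ((Finset.measurable_fun_prod _ fun v _ => measurable_wt k t v _).const_mul _).const_mul _

theorem Zp_pos (μ : Measure (V → Bool)) [IsProbabilityMeasure μ] (A : Finset V) (k : ℕ)
    (t : ℝ) (η : Om V) : 0 < Zp μ A k t η := by
  unfold Zp
  have hpos : ∀ σ : V → Bool, 0 < ∏ v ∈ A, wt k t v η (spin (σ v)) := fun σ =>
    Finset.prod_pos fun v _ => wt_pos k t v η (abs_spin _).le
  rw [integral_pos_iff_support_of_nonneg (fun σ => (hpos σ).le)
    ((Loc.of_dependsOn (dep_prod k t A η)).integrable μ)]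
  have : Function.support (fun σ : V → Bool => ∏ v ∈ A, wt k t v η (spin (σ v))) = univ := by
    ext σ
    simp only [Function.mem_support, Set.mem_univ, iff_true]
    exact (hpos σ).ne'
  rw [this]
  simp

theorem num_eq (μ : Measure (V → Bool)) [IsProbabilityMeasure μ] (A : Finset V) (k : ℕ)
    (t : ℝ) (a : V) (η : Om V) :
    ∫ σ, (∏ v ∈ A, wt k t v η (spin (σ v))) * spin (σ a) ∂μ
      = Zp μ A k t η * ap μ A k t a η := by
  have h := (Zp_pos μ A k t η).ne'
  unfold ap
  rw [mul_div_cancel₀ _ h]
  refine integral_congr_ae (Filter.Eventually.of_forall fun σ => ?_)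
  simp only
  ring

theorem abs_ap_le (μ : Measure (V → Bool)) [IsProbabilityMeasure μ] (A : Finset V) (k : ℕ)
    (t : ℝ) (a : V) (η : Om V) : |ap μ A k t a η| ≤ 1 := by
  unfold ap
  rw [abs_div, abs_of_pos (Zp_pos μ A k t η), div_le_one (Zp_pos μ A k t η)]
  have hpos : ∀ σ : V → Bool, 0 < ∏ v ∈ A, wt k t v η (spin (σ v)) := fun σ =>
    Finset.prod_pos fun v _ => wt_pos k t v η (abs_spin _).le
  have hL := Loc.of_dependsOn (dep_prod k t A η)
  calc |∫ σ, spin (σ a) * ∏ v ∈ A, wt k t v η (spin (σ v)) ∂μ|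
      ≤ ∫ σ, |spin (σ a) * ∏ v ∈ A, wt k t v η (spin (σ v))| ∂μ := abs_integral_le_integral_abs
    _ = Zp μ A k t η := by
        unfold Zp
        refine integral_congr_ae (Filter.Eventually.of_forall fun σ => ?_)
        simp only
        rw [abs_mul, abs_spin, one_mul, abs_of_pos (hpos σ)]

/-! ## The recursion -/

open Classical in
theorem prod_sd_succ [G.LocallyFinite] (hG : G.IsTree) {p x : V} (hpx : G.Adj p x) (n : ℕ)
    (f : V → ℝ) : ∏ v ∈ sd G hG.connected p x (n + 1), f v
      = f x * ∏ c ∈ (G.neighborFinset x).erase p, ∏ v ∈ sd G hG.connected x c n, f v := by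
  rw [sd_succ hG hpx, Finset.prod_insert, Finset.prod_biUnion]
  · intro c hc c' hc' hne
    rw [Finset.mem_coe, Finset.mem_erase, SimpleGraph.mem_neighborFinset] at hc hc'
    exact sd_disjoint hG hc.2 hc'.2 hne
  · rw [Finset.mem_biUnion]
    rintro ⟨c, _, h⟩
    exact notMem_sd hG.connected h

/-- splitting of the weight integral with a function of the root spin -/
theorem root_formula [Countable V] [G.LocallyFinite] (hG : G.IsTree) {θ : ℝ}
    {μ : Measure (V → Bool)} (hμ : IsFreeIsing G θ μ) {p x : V} (hpx : G.Adj p x) (n k : ℕ)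
    (t : ℝ) (η : Om V) (g : Bool → ℝ) (C : Finset V)
    (hC : ∀ c, c ∈ C ↔ c ≠ p ∧ G.Adj x c) :
    ∫ σ, g (σ x) * ∏ v ∈ sd G hG.connected p x (n + 1), wt k t v η (spin (σ v)) ∂μ
      = zn k t x (k + 1 + ⌈t⌉.toNat) η
        * (∏ c ∈ C, Zp μ (sd G hG.connected x c n) k t η)
        * ((g true * ((1 + bn k t x (k + 1 + ⌈t⌉.toNat) η)
              * ∏ c ∈ C, (1 + θ * ap μ (sd G hG.connected x c n) k t c η))
          + g false * ((1 - bn k t x (k + 1 + ⌈t⌉.toNat) η)
              * ∏ c ∈ C, (1 - θ * ap μ (sd G hG.connected x c n) k t c η))) / 2) := by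
  classical
  have := hμ.isProb
  have hCe : C = (G.neighborFinset x).erase p := by
    ext c
    rw [hC, Finset.mem_erase, SimpleGraph.mem_neighborFinset]
  have e1 : ∫ σ, g (σ x) * ∏ v ∈ sd G hG.connected p x (n + 1), wt k t v η (spin (σ v)) ∂μ
      = ∫ σ, (fun b => g b * wt k t x η (spin b)) (σ x)
        * ∏ c ∈ C, (fun σ : V → Bool =>
          ∏ v ∈ sd G hG.connected x c n, wt k t v η (spin (σ v))) σ ∂μ := by
    refine integral_congr_ae (Filter.Eventually.of_forall fun σ => ?_)
    simp only
    rw [prod_sd_succ hG hpx, hCe]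
    ring
  rw [e1]
  refine (integral_split hG hμ x (fun c => sd G hG.connected x c n)
    (fun c σ => ∏ v ∈ sd G hG.connected x c n, wt k t v η (spin (σ v))) C
    (fun c hc => ((hC c).1 hc).2) (fun c _ u hu => ((mem_sd _).1 hu).2)
    (fun c _ => dep_prod k t _ η) (fun b => g b * wt k t x η (spin b))).trans ?_
  simp only [num_eq]
  have e2 : ∀ s : ℝ, ∏ c ∈ C, (∫ σ, ∏ v ∈ sd G hG.connected x c n, wt k t v η (spin (σ v)) ∂μ
        + θ * (Zp μ (sd G hG.connected x c n) k t η
          * ap μ (sd G hG.connected x c n) k t c η) * s)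
      = (∏ c ∈ C, Zp μ (sd G hG.connected x c n) k t η)
        * ∏ c ∈ C, (1 + s * (θ * ap μ (sd G hG.connected x c n) k t c η)) := by
    intro s
    rw [← Finset.prod_mul_distrib]
    refine Finset.prod_congr rfl fun c _ => ?_
    have : ∫ σ, ∏ v ∈ sd G hG.connected x c n, wt k t v η (spin (σ v)) ∂μ
      = Zp μ (sd G hG.connected x c n) k t η := rfl
    rw [this]
    ring
  have h1 := wn_eq k t x (k + 1 + ⌈t⌉.toNat) η
  rw [Fintype.sum_bool, e2, e2, wt_eq_wn, wt_eq_wn]
  have s1 : spin true = 1 := rfl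
  have s2 : spin false = -1 := rfl
  rw [s1, s2, h1.1, h1.2]
  have e3 : ∏ c ∈ C, (1 + 1 * (θ * ap μ (sd G hG.connected x c n) k t c η))
      = ∏ c ∈ C, (1 + θ * ap μ (sd G hG.connected x c n) k t c η) := by
    refine Finset.prod_congr rfl fun c _ => by ring
  have e4 : ∏ c ∈ C, (1 + -1 * (θ * ap μ (sd G hG.connected x c n) k t c η))
      = ∏ c ∈ C, (1 - θ * ap μ (sd G hG.connected x c n) k t c η) := by
    refine Finset.prod_congr rfl fun c _ => by ring
  rw [e3, e4]
  ring

end P161C
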