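import Vale.Agent.P161C.TreeGeo

/-!
# P161 at the critical point: TREELAW
-/

open MeasureTheory ProbabilityTheory Set Filter Topology
open scoped ENNReal

namespace P161C

open P161

universe u

variable {V : Type u} {G : SimpleGraph V}

theorem measurable_kt (r y : ℝ) : Measurable (kt r y) := by
  unfold kt
  fun_prop

section zpfacts

variable [G.LocallyFinite] (hG : G.Connected) (D : ℕ) (r y : ℝ) (μ : Measure (V → Bool)) (k : ℕ)
  (t : ℝ)

theorem zp_zero (n : ℕ) (p x : V) (η : Om V) : zp G hG D r y μ k t n 0 p x η = 1 := by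
  cases n <;> rfl

theorem measurable_zp [IsProbabilityMeasure μ] (n : ℕ) : ∀ (l : ℕ) (p x : V),
    Measurable (zp G hG D r y μ k t n l p x) := by
  classical
  induction n with
  | zero =>
    intro l p x
    cases l with
    | zero =>
      have : zp G hG D r y μ k t 0 0 p x = fun _ => 1 := by
        funext η
        rfl
      rw [this]
      exact measurable_const
    | succ l =>
      have : zp G hG D r y μ k t 0 (l + 1) p x = fun _ => 0 := by
        funext η
        rfl
      rw [this]
      exact measurable_const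
  | succ n ih =>
    intro l p x
    cases l with
    | zero =>
      have : zp G hG D r y μ k t (n + 1) 0 p x = fun _ => 1 := by
        funext η
        rfl
      rw [this]
      exact measurable_const
    | succ l =>
      have : zp G hG D r y μ k t (n + 1) (l + 1) p x = fun η =>
          (∑ c ∈ (G.neighborFinset x).erase p,
            kt r y (ap μ (sd G hG x c n) k t c η) * zp G hG D r y μ k t n l x c η) / D := by
        funext η
        rfl
      rw [this]
      refine Measurable.div_const (Finset.measurable_fun_sum _ fun c _ => ?_) _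
      exact ((measurable_kt r y).comp (measurable_ap μ _ k t c)).mul (ih l x c)

theorem zp_dep (hT : G.IsTree) (n : ℕ) : ∀ (l : ℕ) (p x : V), G.Adj p x →
    DepO (zp G hG D r y μ k t n l p x) {e | e.1 ∈ sd G hG p x n} := by
  classical
  induction n with
  | zero =>
    intro l p x _ η η' _
    cases l <;> rfl
  | succ n ih =>
    intro l p x hpx η η' h
    cases l with
    | zero => rfl
    | succ l =>
      show (∑ c ∈ (G.neighborFinset x).erase p,
            kt r y (ap μ (sd G hG x c n) k t c η) * zp G hG D r y μ k t n l x c η) / (D : ℝ)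
        = (∑ c ∈ (G.neighborFinset x).erase p,
            kt r y (ap μ (sd G hG x c n) k t c η') * zp G hG D r y μ k t n l x c η') / (D : ℝ)
      congr 1
      refine Finset.sum_congr rfl fun c hc => ?_
      have hsub : ∀ e : V × ℤ, e.1 ∈ sd G hG x c n → e.1 ∈ sd G hG p x (n + 1) := by
        intro e he
        rw [sd_succ hT hpx n, Finset.mem_insert, Finset.mem_biUnion]
        exact Or.inr ⟨c, hc, he⟩
      rw [Finset.mem_erase, SimpleGraph.mem_neighborFinset] at hc
      rw [ap_dep μ (sd G hG x c n) k t c η η' fun e he => h e (hsub e he),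
        ih l x c hc.2 η η' fun e he => h e (hsub e he)]

end zpfacts

open Classical in
/-- keep the labels of the events in `A` only -/
noncomputable def mask (A : Set (V × ℤ)) (ω : Om V) : Om V :=
  (fun e => if e ∈ A then ω.1 e else 0, fun e => if e ∈ A then ω.2 e else 0)

theorem measurable_mask (A : Set (V × ℤ)) : Measurable (mask A : Om V → Om V) := by
  classical
  unfold mask
  refine Measurable.prodMk (measurable_pi_lambda _ fun e => ?_) (measurable_pi_lambda _ fun e => ?_)
  · by_cases h : e ∈ A
    · simp only [h, if_true]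
      exact (measurable_pi_apply e).comp measurable_fst
    · simp only [h, if_false]
      exact measurable_const
  · by_cases h : e ∈ A
    · simp only [h, if_true]
      exact (measurable_pi_apply e).comp measurable_snd
    · simp only [h, if_false]
      exact measurable_const

theorem mask_dep (A : Set (V × ℤ)) : DepO (mask A : Om V → Om V) A := by
  classical
  intro η η' h
  unfold mask
  refine Prod.ext ?_ ?_
  · funext e
    by_cases he : e ∈ A
    · simp only [he, if_true]
      exact (h e he).1
    · simp only [he, if_false]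
  · funext e
    by_cases he : e ∈ A
    · simp only [he, if_true]
      exact (h e he).2
    · simp only [he, if_false]

theorem DepO.comp_mask {γ : Type*} {f : Om V → γ} {A : Set (V × ℤ)} (h : DepO f A) :
    f ∘ mask A = f := by
  classical
  funext η
  refine h _ _ fun e he => ?_
  simp [mask, he]

/-- functions of two disjoint blocks of labels are independent -/
theorem indep_pair {γ δ : Type*} [MeasurableSpace γ] [MeasurableSpace δ] {A B : Set (V × ℤ)}
    (hAB : Disjoint A B) {f : Om V → γ} {g : Om V → δ} (hf : Measurable f) (hg : Measurable g)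
    (hfA : DepO f A) (hgB : DepO g B) : IndepFun f g (Pm V) := by
  have h1 := indep_blocks (V := V) (J := Bool) (γ := fun _ => Om V)
    (fun j => if j then A else B)
    (by
      rintro (_ | _) (_ | _) hne
      · exact absurd rfl hne
      · simpa using hAB.symm
      · simpa using hAB
      · exact absurd rfl hne)
    (fun j => mask (if j then A else B)) (fun j => measurable_mask _) (fun j => mask_dep _)
  have h2 := (h1.indepFun (i := true) (j := false) (by decide)).comp hf hg
  simp only [if_true, Bool.false_eq_true, if_false] at h2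
  rwa [hfA.comp_mask, hgB.comp_mask] at h2

/-- one step of the recursion -/
theorem tree_step [Countable V] [G.LocallyFinite] (hB : LAWB) (D : ℕ) (θ r y : ℝ)
    (μ : Measure (V → Bool)) (hE : Env G D) (hI : Isg G D θ μ) (k : ℕ) (t : ℝ) (n : ℕ) {p x : V}
    (hpx : G.Adj p x) (ζ : V → Om V → ℝ) (J : Measure (ℝ × ℝ)) [IsProbabilityMeasure J]
    (hζm : ∀ c, G.Adj x c → Measurable (ζ c))
    (hζd : ∀ c, G.Adj x c → DepO (ζ c) {e | e.1 ∈ sd G hE.tree.connected x c n})
    (hlaw : ∀ c, G.Adj x c → ((Pm V).withDensity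
        (fun η => ENNReal.ofReal (Zp μ (sd G hE.tree.connected x c n) k t η))).map
        (fun η => (ap μ (sd G hE.tree.connected x c n) k t c η, ζ c η)) = J)
    (C : Finset V) (hC : ∀ c, c ∈ C ↔ c ≠ p ∧ G.Adj x c) :
    ((Pm V).withDensity
        (fun η => ENNReal.ofReal (Zp μ (sd G hE.tree.connected p x (n + 1)) k t η))).map
        (fun η => (ap μ (sd G hE.tree.connected p x (n + 1)) k t x η,
          (∑ c ∈ C, kt r y (ap μ (sd G hE.tree.connected x c n) k t c η) * ζ c η) / D))
      = (((sigL k t).prod (Measure.pi fun _ : Fin D => J)).withDensity fun p =>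
        ENNReal.ofReal (((1 + p.1) * ∏ i, (1 + θ * (p.2 i).1)
          + (1 - p.1) * ∏ i, (1 - θ * (p.2 i).1)) / 2)).map fun p =>
      (((1 + p.1) * ∏ i, (1 + θ * (p.2 i).1) - (1 - p.1) * ∏ i, (1 - θ * (p.2 i).1))
          / ((1 + p.1) * ∏ i, (1 + θ * (p.2 i).1) + (1 - p.1) * ∏ i, (1 - θ * (p.2 i).1)),
        (∑ i, kt r y (p.2 i).1 * (p.2 i).2) / D) := by
  classical
  have hprob := hI.ising.isProb
  have hG := hE.tree
  set hGc := hE.tree.connected with hGc'
  have hD := hE.hD
  have hθ1 : θ < 1 := by
    have h1 := hI.h1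
    have h2 : (2 : ℝ) ≤ D := by exact_mod_cast hD
    nlinarith [hI.h0]
  have hθ0 := hI.h0
  -- enumeration of the children
  have hCe : C = (G.neighborFinset x).erase p := by
    ext c
    rw [hC, Finset.mem_erase, SimpleGraph.mem_neighborFinset]
  have hcard : C.card = D := by
    rw [hCe, Finset.card_erase_of_mem (by
      rw [SimpleGraph.mem_neighborFinset]; exact hpx.symm), SimpleGraph.card_neighborFinset_eq_degree,
      hE.reg x]
    rfl
  let e : Fin D ≃ C := (Finset.equivFinOfCardEq hcard).symm
  have hprodC : ∀ f : V → ℝ, ∏ c ∈ C, f c = ∏ i, f (e i) := fun f => by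
    rw [← Finset.prod_coe_sort C f, ← Equiv.prod_comp e fun c : C => f c]
  have hsumC : ∀ f : V → ℝ, ∑ c ∈ C, f c = ∑ i, f (e i) := fun f => by
    rw [← Finset.sum_coe_sort C f, ← Equiv.sum_comp e fun c : C => f c]
  have hadj : ∀ i, G.Adj x (e i) := fun i => ((hC _).1 (e i).2).2
  have hinj : ∀ i j, i ≠ j → ((e i : V)) ≠ e j := by
    intro i j hij h
    exact hij (e.injective (Subtype.ext h))
  -- notation
  set N := k + 1 + ⌈t⌉.toNat with hN
  set Zx : Om V → ℝ := zn k t x N with hZx
  set β : Om V → ℝ := bn k t x N with hβ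
  set Z : Fin D → Om V → ℝ := fun i => Zp μ (sd G hGc x (e i) n) k t with hZ
  set α : Fin D → Om V → ℝ := fun i => ap μ (sd G hGc x (e i) n) k t (e i) with hα
  have hZpos : ∀ i η, 0 < Z i η := fun i η => Zp_pos μ _ k t η
  have hZm : ∀ i, Measurable (Z i) := fun i => measurable_Zp μ _ k t
  have hαm : ∀ i, Measurable (α i) := fun i => measurable_ap μ _ k t _
  have hα1 : ∀ i η, |α i η| ≤ 1 := fun i η => abs_ap_le μ _ k t _ η
  have hZxpos : ∀ η, 0 < Zx η := fun η => zn_pos k t x N η
  have hZxm : Measurable Zx := measurable_zn k t x N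
  have hβm : Measurable β := measurable_bn k t x N
  have hβ1 : ∀ η, |β η| < 1 := fun η => abs_bn_lt k t x N η
  -- the density
  set R : Om V → ℝ := fun η => (1 + β η) * ∏ i, (1 + θ * α i η) with hR
  set Q : Om V → ℝ := fun η => (1 - β η) * ∏ i, (1 - θ * α i η) with hQ
  have hfac : ∀ i η, |θ * α i η| < 1 := by
    intro i η
    rw [abs_mul, abs_of_nonneg hθ0]
    have := hα1 i η
    have := abs_nonneg (α i η)
    nlinarith
  have hRpos : ∀ η, 0 < R η := fun η => mul_pos (by linarith [(abs_lt.1 (hβ1 η)).1])
    (Finset.prod_pos fun i _ => by linarith [(abs_lt.1 (hfac i η)).1])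
  have hQpos : ∀ η, 0 < Q η := fun η => mul_pos (by linarith [(abs_lt.1 (hβ1 η)).2])
    (Finset.prod_pos fun i _ => by linarith [(abs_lt.1 (hfac i η)).2])
  have hZA : ∀ η, Zp μ (sd G hGc p x (n + 1)) k t η
      = (Zx η * ∏ i, Z i η) * ((R η + Q η) / 2) := by
    intro η
    have h1 := root_formula hG hI.ising hpx n k t η (fun _ => 1) C hC
    simp only [one_mul] at h1
    rw [hprodC fun c => Zp μ (sd G hGc x c n) k t η,
      hprodC fun c => 1 + θ * ap μ (sd G hGc x c n) k t c η,
      hprodC fun c => 1 - θ * ap μ (sd G hGc x c n) k t c η] at h1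
    exact h1
  have hNA : ∀ η, ∫ σ, spin (σ x) * ∏ v ∈ sd G hGc p x (n + 1), wt k t v η (spin (σ v)) ∂μ
      = (Zx η * ∏ i, Z i η) * ((R η - Q η) / 2) := by
    intro η
    have h1 := root_formula hG hI.ising hpx n k t η spin C hC
    have s1 : spin true = 1 := rfl
    have s2 : spin false = -1 := rfl
    rw [s1, s2] at h1
    rw [hprodC fun c => Zp μ (sd G hGc x c n) k t η,
      hprodC fun c => 1 + θ * ap μ (sd G hGc x c n) k t c η,
      hprodC fun c => 1 - θ * ap μ (sd G hGc x c n) k t c η] at h1
    rw [h1]
    simp only [hR, hQ]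
    ring
  have hap : ∀ η, ap μ (sd G hGc p x (n + 1)) k t x η = (R η - Q η) / (R η + Q η) := by
    intro η
    have h1 : 0 < Zx η * ∏ i, Z i η :=
      mul_pos (hZxpos η) (Finset.prod_pos fun i _ => hZpos i η)
    have h2 := hRpos η
    have h3 := hQpos η
    unfold ap
    rw [hNA, hZA, mul_div_mul_left _ _ h1.ne']
    field_simp
  -- the vector of local variables
  set Y : Om V → Fin D → ℝ × ℝ := fun η i => (α i η, ζ (e i) η) with hY
  have hYm : Measurable Y := measurable_pi_lambda _ fun i => (hαm i).prodMk (hζm _ (hadj i))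
  have hTm : Measurable fun η => (β η, Y η) := hβm.prodMk hYm
  -- masses
  have hZ1 : ∀ i, ∫⁻ η, ENNReal.ofReal (Z i η) ∂(Pm V) = 1 := by
    intro i
    have h1 := congrArg (fun m : Measure (ℝ × ℝ) => m univ) (hlaw (e i) (hadj i))
    simp only [measure_univ] at h1
    rw [Measure.map_apply ((hαm i).prodMk (hζm _ (hadj i))) MeasurableSet.univ, preimage_univ,
      withDensity_apply _ MeasurableSet.univ, Measure.restrict_univ] at h1
    exact h1
  have hZx1 : ∫⁻ η, ENNReal.ofReal (Zx η) ∂(Pm V) = 1 := by
    obtain ⟨r', _, _, hS⟩ := sigL_sym hB k t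
    have := hS.prob
    have h1 := congrArg (fun m : Measure ℝ => m univ) (sig_law (V := V) hB k t x)
    simp only [measure_univ] at h1
    rw [Measure.map_apply hβm MeasurableSet.univ, preimage_univ,
      withDensity_apply _ MeasurableSet.univ, Measure.restrict_univ] at h1
    exact h1
  -- independence
  have hI1 : iIndepFun (fun i (η : Om V) => (ENNReal.ofReal (Z i η), (α i η, ζ (e i) η)))
      (Pm V) := by
    refine indep_blocks (γ := fun _ => ℝ≥0∞ × (ℝ × ℝ))
      (fun i => {v | v.1 ∈ sd G hGc x (e i) n}) ?_ _ ?_ ?_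
    · intro i j hij
      rw [Set.disjoint_left]
      intro v hv hv'
      exact Finset.disjoint_left.1 (sd_disjoint hG (hadj i) (hadj j) (hinj i j hij)) hv hv'
    · intro i
      exact (hZm i).ennreal_ofReal.prodMk ((hαm i).prodMk (hζm _ (hadj i)))
    · intro i η η' h
      simp only [hZ, hα]
      rw [Zp_dep μ _ k t η η' h, ap_dep μ _ k t _ η η' h, hζd _ (hadj i) η η' h]
  have hI2 : IndepFun (fun η : Om V => (ENNReal.ofReal (Zx η), β η))
      (fun η => (∏ i, ENNReal.ofReal (Z i η), Y η)) (Pm V) := by
    refine indep_pair (A := {v | v.1 = x}) (B := {v | v.1 ≠ x}) ?_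
      (hZxm.ennreal_ofReal.prodMk hβm) ?_ ?_ ?_
    · rw [Set.disjoint_left]
      intro v hv hv'
      exact hv' hv
    · exact (Finset.measurable_fun_prod _ fun i _ => (hZm i).ennreal_ofReal).prodMk hYm
    · exact (DepO_zb k t x N).mono fun v hv => hv.1
    · intro η η' h
      have hsub : ∀ i (v : V × ℤ), v.1 ∈ sd G hGc x (e i) n → v.1 ≠ x := by
        rintro i v hv h'
        rw [h'] at hv
        exact notMem_sd hGc hv
      have h1 : ∀ i, Z i η = Z i η' := fun i =>
        Zp_dep μ _ k t η η' fun v hv => h v (hsub i v hv)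
      have h2 : Y η = Y η' := by
        funext i
        simp only [hY, hα]
        rw [ap_dep μ _ k t _ η η' fun v hv => h v (hsub i v hv),
          hζd _ (hadj i) η η' fun v hv => h v (hsub i v hv)]
      simp only [h1, h2]
  -- law of the vector of local variables
  have hL1 : ((Pm V).withDensity fun η => ∏ i, ENNReal.ofReal (Z i η)).map Y
      = Measure.pi fun _ : Fin D => J := by
    have h1 := map_wd_pi (P := Pm V) (f := fun i η => ENNReal.ofReal (Z i η))
      (X := fun i η => (α i η, ζ (e i) η)) (fun i => (hZm i).ennreal_ofReal)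
      (fun i => (hαm i).prodMk (hζm _ (hadj i)))
      (fun i => by rw [hZ1 i]; exact ENNReal.one_ne_top) hI1
    rw [h1]
    congr 1
    funext i
    exact hlaw (e i) (hadj i)
  have hmass : ∫⁻ η, ∏ i, ENNReal.ofReal (Z i η) ∂(Pm V) ≠ ∞ := by
    have h1 := congrArg (fun m : Measure (Fin D → ℝ × ℝ) => m univ) hL1
    simp only [measure_univ] at h1
    rw [Measure.map_apply hYm MeasurableSet.univ, preimage_univ,
      withDensity_apply _ MeasurableSet.univ, Measure.restrict_univ] at h1
    rw [h1]
    exact ENNReal.one_ne_top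
  have hL2 : ((Pm V).withDensity fun η => ENNReal.ofReal (Zx η) * ∏ i, ENNReal.ofReal (Z i η)).map
      (fun η => (β η, Y η)) = (sigL k t).prod (Measure.pi fun _ : Fin D => J) := by
    rw [map_wd_prod (P := Pm V) hZxm.ennreal_ofReal
      (Finset.measurable_fun_prod _ fun i _ => (hZm i).ennreal_ofReal) hβm hYm
      (by rw [hZx1]; exact ENNReal.one_ne_top) hmass hI2, hL1]
    rw [hβ, hZx, sig_law hB k t x]
  -- conclusion
  set g : ℝ × (Fin D → ℝ × ℝ) → ℝ≥0∞ := fun p =>
        ENNReal.ofReal (((1 + p.1) * ∏ i, (1 + θ * (p.2 i).1)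
          + (1 - p.1) * ∏ i, (1 - θ * (p.2 i).1)) / 2) with hg
  set Ψ : ℝ × (Fin D → ℝ × ℝ) → ℝ × ℝ := fun p =>
      (((1 + p.1) * ∏ i, (1 + θ * (p.2 i).1) - (1 - p.1) * ∏ i, (1 - θ * (p.2 i).1))
          / ((1 + p.1) * ∏ i, (1 + θ * (p.2 i).1) + (1 - p.1) * ∏ i, (1 - θ * (p.2 i).1)),
        (∑ i, kt r y (p.2 i).1 * (p.2 i).2) / D) with hΨ
  have hgm : Measurable g := by
    have h1 : ∀ i : Fin D, Measurable fun p : ℝ × (Fin D → ℝ × ℝ) => (p.2 i).1 := fun i =>
      measurable_fst.comp ((measurable_pi_apply i).comp measurable_snd)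
    have h2 : Measurable fun p : ℝ × (Fin D → ℝ × ℝ) => ∏ i, (1 + θ * (p.2 i).1) :=
      Finset.measurable_fun_prod _ fun i _ => ((h1 i).const_mul θ).const_add 1
    have h3 : Measurable fun p : ℝ × (Fin D → ℝ × ℝ) => ∏ i, (1 - θ * (p.2 i).1) :=
      Finset.measurable_fun_prod _ fun i _ => ((h1 i).const_mul θ).const_sub 1
    exact ((((measurable_fst.const_add 1).mul h2).add
      ((measurable_fst.const_sub 1).mul h3)).div_const 2).ennreal_ofReal
  have hΨm : Measurable Ψ := by
    have h1 : ∀ i : Fin D, Measurable fun p : ℝ × (Fin D → ℝ × ℝ) => (p.2 i).1 := fun i =>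
      measurable_fst.comp ((measurable_pi_apply i).comp measurable_snd)
    have h1' : ∀ i : Fin D, Measurable fun p : ℝ × (Fin D → ℝ × ℝ) => (p.2 i).2 := fun i =>
      measurable_snd.comp ((measurable_pi_apply i).comp measurable_snd)
    have h2 : Measurable fun p : ℝ × (Fin D → ℝ × ℝ) => ∏ i, (1 + θ * (p.2 i).1) :=
      Finset.measurable_fun_prod _ fun i _ => ((h1 i).const_mul θ).const_add 1
    have h3 : Measurable fun p : ℝ × (Fin D → ℝ × ℝ) => ∏ i, (1 - θ * (p.2 i).1) :=
      Finset.measurable_fun_prod _ fun i _ => ((h1 i).const_mul θ).const_sub 1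
    refine Measurable.prodMk ?_ ?_
    · exact (((measurable_fst.const_add 1).mul h2).sub
        ((measurable_fst.const_sub 1).mul h3)).div
        (((measurable_fst.const_add 1).mul h2).add ((measurable_fst.const_sub 1).mul h3))
    · exact (Finset.measurable_fun_sum _ fun i _ =>
        ((measurable_kt r y).comp (h1 i)).mul (h1' i)).div_const _
  have hden : ((Pm V).withDensity
        (fun η => ENNReal.ofReal (Zp μ (sd G hGc p x (n + 1)) k t η)))
      = ((Pm V).withDensity fun η => ENNReal.ofReal (Zx η) * ∏ i, ENNReal.ofReal (Z i η)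
        ).withDensity fun η => g (β η, Y η) := by
    have hm1 : Measurable fun η : Om V => ENNReal.ofReal (Zx η) * ∏ i, ENNReal.ofReal (Z i η) :=
      hZxm.ennreal_ofReal.mul (Finset.measurable_fun_prod _ fun i _ => (hZm i).ennreal_ofReal)
    have hm2 : Measurable fun η : Om V => g (β η, Y η) := hgm.comp hTm
    rw [← withDensity_mul _ hm1 hm2]
    congr 1
    funext η
    simp only [Pi.mul_apply]
    rw [hZA η, ENNReal.ofReal_mul (mul_pos (hZxpos η)
      (Finset.prod_pos fun i _ => hZpos i η)).le, ENNReal.ofReal_mul (hZxpos η).le,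
      ENNReal.ofReal_prod_of_nonneg fun i _ => (hZpos i η).le]
  have hfun : (fun η => (ap μ (sd G hGc p x (n + 1)) k t x η,
          (∑ c ∈ C, kt r y (ap μ (sd G hGc x c n) k t c η) * ζ c η) / (D : ℝ)))
      = Ψ ∘ fun η => (β η, Y η) := by
    funext η
    refine Prod.ext ?_ ?_
    · exact hap η
    · show (∑ c ∈ C, kt r y (ap μ (sd G hGc x c n) k t c η) * ζ c η) / (D : ℝ)
        = (∑ i, kt r y (α i η) * ζ (e i) η) / D
      rw [hsumC fun c => kt r y (ap μ (sd G hGc x c n) k t c η) * ζ c η]
  rw [hfun, ← Measure.map_map hΨm hTm, hden, map_wd_comp _ hTm hgm, hL2]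

/-- TREELAW -/
theorem treelaw_proof (hB : LAWB) (hJ : JLB) : TREELAW.{u} := by
  classical
  intro V _ G _ D θ r y μ hE hI hr hy k t
  have hprob := hI.ising.isProb
  obtain ⟨r₁, h0, h1, hS⟩ := sigL_sym hB k t
  have hJ' := hJ D θ r₁ r y (sigL k t) hE.hD hI.h0 hI.h1 h0 h1 hS hr hy
  suffices hmain : ∀ n l : ℕ, l ≤ n → ∀ p x, G.Adj p x →
      ((Pm V).withDensity
          (fun η => ENNReal.ofReal (Zp μ (sd G hE.tree.connected p x n) k t η))).map
        (fun η => (ap μ (sd G hE.tree.connected p x n) k t x η,
          zp G hE.tree.connected D r y μ k t n l p x η))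
      = jlaw θ D (sigL k t) r y n l by
    intro l n hln p x hpx
    exact ⟨measurable_ap μ _ k t x, measurable_zp hE.tree.connected D r y μ k t n l p x,
      hmain n l hln p x hpx⟩
  intro n
  induction n with
  | zero =>
    intro l hl p x hpx
    obtain rfl : l = 0 := by omega
    have e1 : (fun η : Om V => ENNReal.ofReal
        (Zp μ (sd G hE.tree.connected p x 0) k t η)) = 1 := by
      funext η
      rw [sd_zero]
      simp [Zp]
    have e2 : (fun η : Om V => (ap μ (sd G hE.tree.connected p x 0) k t x η,
          zp G hE.tree.connected D r y μ k t 0 0 p x η)) = fun _ => ((0 : ℝ), (1 : ℝ)) := by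
      funext η
      rw [sd_zero, zp_zero]
      refine Prod.ext ?_ rfl
      show ap μ ∅ k t x η = 0
      unfold ap
      have : ∫ σ : V → Bool, spin (σ x) * ∏ v ∈ (∅ : Finset V), wt k t v η (spin (σ v)) ∂μ = 0 := by
        simp only [Finset.prod_empty, mul_one]
        rw [integral_root hI.ising x spin, Fintype.sum_bool]
        simp [spin]
      rw [this, zero_div]
    rw [e1, e2, withDensity_one, Measure.map_const]
    have e3 : jlaw θ D (sigL k t) r y 0 0 = (lawR θ D (sigL k t) 0).map fun α => (α, 1) := by
      rw [jlaw]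
    rw [e3]
    have e4 : lawR θ D (sigL k t) 0 = Measure.dirac 0 := rfl
    rw [e4, Measure.map_dirac' (by fun_prop)]
    simp
  | succ n ih =>
    -- one step with the laws of the children
    have hstep : ∀ l, l ≤ n → ∀ p x, G.Adj p x →
      ((Pm V).withDensity
          (fun η => ENNReal.ofReal (Zp μ (sd G hE.tree.connected p x (n + 1)) k t η))).map
        (fun η => (ap μ (sd G hE.tree.connected p x (n + 1)) k t x η,
          zp G hE.tree.connected D r y μ k t (n + 1) (l + 1) p x η))
      = jlaw θ D (sigL k t) r y (n + 1) (l + 1) := by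
      intro l hl p x hpx
      have := (hJ' l n hl).1
      have h2 := tree_step hB D θ r y μ hE hI k t n hpx
        (fun c => zp G hE.tree.connected D r y μ k t n l x c)
        (jlaw θ D (sigL k t) r y n l)
        (fun c _ => measurable_zp hE.tree.connected D r y μ k t n l x c)
        (fun c hc => zp_dep hE.tree.connected D r y μ k t hE.tree n l x c hc)
        (fun c hc => ih l hl x c hc)
        ((G.neighborFinset x).erase p)
        (fun c => by rw [Finset.mem_erase, SimpleGraph.mem_neighborFinset])
      rw [jlaw]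
      rw [← h2]
      rfl
    intro l hl p x hpx
    cases l with
    | succ l => exact hstep l (by omega) p x hpx
    | zero =>
      have h2 := hstep 0 (Nat.zero_le _) p x hpx
      have h3 := (hJ' 1 (n + 1) (by omega)).2.1
      have hm1 : Measurable (ap μ (sd G hE.tree.connected p x (n + 1)) k t x) :=
        measurable_ap μ _ k t x
      have hm2 := measurable_zp hE.tree.connected D r y μ k t (n + 1) 1 p x
      have h4 : ((Pm V).withDensity
          (fun η => ENNReal.ofReal (Zp μ (sd G hE.tree.connected p x (n + 1)) k t η))).map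
        (ap μ (sd G hE.tree.connected p x (n + 1)) k t x) = lawR θ D (sigL k t) (n + 1) := by
        rw [← h3, ← h2, Measure.map_map measurable_fst (hm1.prodMk hm2)]
        rfl
      have e3 : jlaw θ D (sigL k t) r y (n + 1) 0
          = (lawR θ D (sigL k t) (n + 1)).map fun α => (α, 1) := by
        rw [jlaw]
      have hm3 : Measurable fun α : ℝ => (α, (1 : ℝ)) := by fun_prop
      rw [e3, ← h4, Measure.map_map hm3 hm1]
      congr 1

end P161C
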