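import Vale.Agent.P161C.TreeGen

/-!
# P161 at the critical point: law of the local signal of one vertex
-/

open MeasureTheory ProbabilityTheory Set Filter Topology
open scoped ENNReal

namespace P161C

open P161

universe u

variable {V : Type u}

/-! ## One round -/

/-- the law of a pair of labels of one event -/
theorem map_pair (e : V × ℤ) : (Pm V).map (fun η => (η.1 e, η.2 e))
    = (volume : Measure unitInterval).prod (volume : Measure unitInterval) := by
  have h1 : ∀ e : V × ℤ, MeasurePreserving (fun ω : Cfg V => ω e) (Pc V) volume := fun e =>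
    measurePreserving_eval_infinitePi (fun _ : V × ℤ => (volume : Measure unitInterval)) e
  exact ((h1 e).prod (h1 e)).map_eq

open Classical in
/-- the signal `b` of one event: the factor of the weight is `1 + s b` -/
noncomputable def bb (t : ℝ) (e : V × ℤ) (η : Om V) : ℝ :=
  if act t η.1 e then amp e.2 * (2 * (η.2 e : ℝ) - 1) else 0

theorem measurable_bb (t : ℝ) (e : V × ℤ) : Measurable (bb t e : Om V → ℝ) := by
  classical
  unfold bb
  refine Measurable.ite ?_ ?_ measurable_const
  · unfold act
    exact measurableSet_lt (measurable_subtype_coe.comp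
      ((measurable_pi_apply e).comp measurable_fst)) measurable_const
  · have : Measurable fun η : Om V => (η.2 e : ℝ) :=
      measurable_subtype_coe.comp ((measurable_pi_apply e).comp measurable_snd)
    fun_prop

theorem abs_bb_le (t : ℝ) (e : V × ℤ) (η : Om V) : |bb t e η| ≤ 1 / 8 := by
  unfold bb
  split_ifs
  · have h1 := amp_pos e.2
    have h2 := amp_le e.2
    have h3 := (η.2 e).2.1
    have h4 := (η.2 e).2.2
    rw [abs_le]
    constructor <;> nlinarith
  · norm_num

theorem bb_law (t : ℝ) (e : V × ℤ) : (Pm V).map (bb t e) = chan (pr e.2 t) (amp e.2) := by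
  classical
  set p : unitInterval := ⟨pr e.2 t, pr_nonneg _ _, (pr_le_half _ _).trans (by norm_num)⟩ with hp
  have hh : Measurable fun q : unitInterval × unitInterval =>
      if q.1 < p then amp e.2 * (2 * (q.2 : ℝ) - 1) else 0 := by
    refine Measurable.ite (measurableSet_lt measurable_fst measurable_const) ?_ measurable_const
    fun_prop
  have e1 : (bb t e : Om V → ℝ) = (fun q : unitInterval × unitInterval =>
      if q.1 < p then amp e.2 * (2 * (q.2 : ℝ) - 1) else 0) ∘ fun η => (η.1 e, η.2 e) := by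
    funext η
    unfold bb act
    simp only [Function.comp]
    rfl
  rw [e1, ← Measure.map_map hh, map_pair]
  · ext s hs
    have hu : Measurable fun y : unitInterval => amp e.2 * (2 * (y : ℝ) - 1) := by fun_prop
    have hset : (fun q : unitInterval × unitInterval =>
        if q.1 < p then amp e.2 * (2 * (q.2 : ℝ) - 1) else 0) ⁻¹' s
        = (Iio p ×ˢ ((fun y : unitInterval => amp e.2 * (2 * (y : ℝ) - 1)) ⁻¹' s))
          ∪ (Ici p ×ˢ (if (0 : ℝ) ∈ s then univ else ∅)) := by
      ext ⟨a, b⟩
      by_cases h1 : a < p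
      · simp [h1]
      · have h2 : p ≤ a := not_lt.1 h1
        by_cases h3 : (0 : ℝ) ∈ s
        · simp [h1, h2, h3]
        · simp [h1, h2, h3]
    have hdis : Disjoint (Iio p ×ˢ ((fun y : unitInterval => amp e.2 * (2 * (y : ℝ) - 1)) ⁻¹' s))
        (Ici p ×ˢ (if (0 : ℝ) ∈ s then (univ : Set unitInterval) else ∅)) := by
      rw [Set.disjoint_left]
      rintro ⟨a, b⟩ ⟨h1, _⟩ ⟨h2, _⟩
      exact (not_lt.2 (show p ≤ a from h2)) (show a < p from h1)
    rw [Measure.map_apply hh hs, hset, measure_union hdis, Measure.prod_prod, Measure.prod_prod,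
      unitInterval.volume_Iio, unitInterval.volume_Ici]
    · unfold chan
      rw [Measure.add_apply, Measure.smul_apply, Measure.smul_apply, Measure.map_apply hu hs,
        Measure.dirac_apply' _ hs, add_comm]
      congr 1
      by_cases h3 : (0 : ℝ) ∈ s
      · simp [h3, hp]
      · simp [h3]
    · refine measurableSet_Ici.prod ?_
      by_cases h3 : (0 : ℝ) ∈ s
      · simp [h3]
      · simp [h3]
  · exact ((measurable_pi_apply e).comp measurable_fst).prodMk
      ((measurable_pi_apply e).comp measurable_snd)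

theorem chan_sym {p a : ℝ} (hp0 : 0 ≤ p) (hp1 : p ≤ 1) (ha0 : 0 ≤ a) (ha : a ≤ 1 / 8) :
    Sym (1 / 8) (chan p a) := by
  have hu : Measurable fun y : unitInterval => a * (2 * (y : ℝ) - 1) := by fun_prop
  refine ⟨⟨?_⟩, ?_, ?_⟩
  · unfold chan
    rw [Measure.add_apply, Measure.smul_apply, Measure.smul_apply,
      Measure.map_apply hu MeasurableSet.univ]
    simp only [measure_univ, preimage_univ, smul_eq_mul, mul_one]
    rw [← ENNReal.ofReal_add (by linarith) hp0]
    simp
  · unfold chan
    rw [ae_add_measure_iff]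
    constructor
    · refine Measure.ae_smul_measure ?_ _
      rw [ae_dirac_iff (measurableSet_le (by fun_prop) measurable_const)]
      norm_num
    · refine Measure.ae_smul_measure ?_ _
      rw [ae_map_iff hu.aemeasurable (measurableSet_le (by fun_prop) measurable_const)]
      refine Filter.Eventually.of_forall fun y => ?_
      have h3 := y.2.1
      have h4 := y.2.2
      rw [abs_le]
      constructor <;> nlinarith
  · unfold chan
    rw [Measure.map_add _ _ measurable_neg, Measure.map_smul, Measure.map_smul,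
      Measure.map_dirac' measurable_neg, neg_zero, Measure.map_map measurable_neg hu]
    congr 2
    have e1 : ((fun x : ℝ => -x) ∘ fun y : unitInterval => a * (2 * (y : ℝ) - 1))
        = (fun y : unitInterval => a * (2 * (y : ℝ) - 1)) ∘ unitInterval.symm := by
      funext y
      simp only [Function.comp, unitInterval.coe_symm_eq]
      ring
    rw [e1, ← Measure.map_map hu unitInterval.measurable_symm,
      unitInterval.measurePreserving_symm.map_eq]

theorem opl_lt_one {r r' : ℝ} (h0 : 0 ≤ r) (h0' : 0 ≤ r') (h1 : r < 1) (h1' : r' < 1) :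
    0 ≤ opl r r' ∧ opl r r' < 1 := by
  unfold opl
  have h2 : 0 < 1 + r * r' := by positivity
  constructor
  · positivity
  · rw [div_lt_one h2]
    nlinarith [mul_pos (sub_pos.2 h1) (sub_pos.2 h1')]

theorem sigN_sym (hB : LAWB) (k : ℕ) (t : ℝ) (n : ℕ) :
    ∃ r : ℝ, 0 ≤ r ∧ r < 1 ∧ Sym r (sigN k t n) := by
  induction n with
  | zero => exact ⟨0, le_rfl, one_pos, hB.s_dirac 0 le_rfl⟩
  | succ n ih =>
    obtain ⟨r, h0, h1, h2⟩ := ih
    have h3 := opl_lt_one (r := 1 / 8) (r' := r) (by norm_num) h0 (by norm_num) h1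
    exact ⟨opl (1 / 8) r, h3.1, h3.2, hB.s_comb _ _ _ _ (by norm_num) h0 (by norm_num) h1
      (chan_sym (pr_nonneg _ _) ((pr_le_half _ _).trans (by norm_num)) (amp_pos _).le
        (amp_le _)) h2⟩

theorem sigL_sym (hB : LAWB) (k : ℕ) (t : ℝ) :
    ∃ r : ℝ, 0 ≤ r ∧ r < 1 ∧ Sym r (sigL k t) := sigN_sym hB k t _

/-! ## All rounds -/

/-- partial weights -/
noncomputable def wn (k : ℕ) (t : ℝ) (v : V) (n : ℕ) (s : ℝ) (η : Om V) : ℝ :=
  ∏ m ∈ Finset.range n, (1 + s * bb t (v, -(k : ℤ) + m) η)

theorem measurable_wn (k : ℕ) (t : ℝ) (v : V) (n : ℕ) (s : ℝ) :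
    Measurable (wn k t v n s : Om V → ℝ) := by
  unfold wn
  exact Finset.measurable_fun_prod _ fun m _ =>
    measurable_const.add ((measurable_bb t _).const_mul s)

theorem wn_pos (k : ℕ) (t : ℝ) (v : V) (n : ℕ) {s : ℝ} (hs : |s| ≤ 1) (η : Om V) :
    0 < wn k t v n s η := by
  unfold wn
  refine Finset.prod_pos fun m _ => ?_
  have h1 := abs_bb_le t (v, -(k : ℤ) + m) η
  have h2 : |s * bb t (v, -(k : ℤ) + m) η| ≤ 1 / 8 := by
    rw [abs_mul]
    calc |s| * |bb t (v, -(k : ℤ) + m) η| ≤ 1 * (1 / 8) :=
          mul_le_mul hs h1 (abs_nonneg _) zero_le_one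
      _ = 1 / 8 := one_mul _
  have := (abs_le.1 h2).1
  linarith

theorem wt_eq_wn (k : ℕ) (t : ℝ) (v : V) (η : Om V) (s : ℝ) :
    wt k t v η s = wn k t v (k + 1 + ⌈t⌉.toNat) s η := by
  classical
  have e1 : wt k t v η s = ∏ i ∈ Finset.Icc (-(k : ℤ)) ⌈t⌉, (1 + s * bb t (v, i) η) := by
    unfold wt bb
    refine Finset.prod_congr rfl fun i _ => ?_
    split_ifs
    · ring
    · ring
  have e2 : ∏ i ∈ Finset.Icc (-(k : ℤ)) ⌈t⌉, (1 + s * bb t (v, i) η)
      = ∏ i ∈ Finset.Ico (-(k : ℤ)) (⌈t⌉.toNat + 1), (1 + s * bb t (v, i) η) := by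
    refine Finset.prod_subset ?_ ?_
    · intro i hi
      rw [Finset.mem_Icc] at hi
      rw [Finset.mem_Ico]
      have := Int.self_le_toNat ⌈t⌉
      omega
    · intro i _ hi
      have h1 : ¬ act t η.1 (v, i) ∨ i < -(k : ℤ) := by
        by_cases hik : i < -(k : ℤ)
        · exact Or.inr hik
        · left
          intro hact
          apply hi
          rw [Finset.mem_Icc]
          refine ⟨not_lt.1 hik, ?_⟩
          have h4 := (act_iff.1 hact).2
          unfold tm at h4
          have h5 := (η.1 (v, i)).2.1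
          have h6 : (i : ℝ) ≤ t := by simp only at h4; linarith
          have h7 : (i : ℝ) ≤ (⌈t⌉ : ℝ) := h6.trans (Int.le_ceil t)
          exact_mod_cast h7
      rcases h1 with h1 | h1
      · unfold bb
        rw [if_neg h1]
        ring
      · rename_i hi2
        rw [Finset.mem_Ico] at hi2
        omega
  rw [e1, e2]
  unfold wn
  symm
  refine Finset.prod_nbij (fun m : ℕ => -(k : ℤ) + m) ?_ ?_ ?_ ?_
  · intro m hm
    rw [Finset.mem_range] at hm
    rw [Finset.mem_Ico]
    omega
  · intro a _ b _ h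
    simpa using h
  · intro i hi
    rw [Finset.mem_coe, Finset.mem_Ico] at hi
    refine ⟨(i + k).toNat, ?_, ?_⟩
    · rw [Finset.mem_coe, Finset.mem_range]
      omega
    · simp only
      omega
  · intro m _
    rfl

/-- total weight -/
noncomputable def zn (k : ℕ) (t : ℝ) (v : V) (n : ℕ) (η : Om V) : ℝ :=
  (wn k t v n 1 η + wn k t v n (-1) η) / 2

/-- mean of the spin given the local signals -/
noncomputable def bn (k : ℕ) (t : ℝ) (v : V) (n : ℕ) (η : Om V) : ℝ :=
  (wn k t v n 1 η - wn k t v n (-1) η) / (wn k t v n 1 η + wn k t v n (-1) η)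

theorem zn_pos (k : ℕ) (t : ℝ) (v : V) (n : ℕ) (η : Om V) : 0 < zn k t v n η := by
  have h1 := wn_pos k t v n (s := 1) (by norm_num) η
  have h2 := wn_pos k t v n (s := -1) (by norm_num) η
  unfold zn
  positivity

theorem wn_eq (k : ℕ) (t : ℝ) (v : V) (n : ℕ) (η : Om V) :
    wn k t v n 1 η = zn k t v n η * (1 + bn k t v n η) ∧
    wn k t v n (-1) η = zn k t v n η * (1 - bn k t v n η) := by
  have h1 := wn_pos k t v n (s := 1) (by norm_num) η
  have h2 := wn_pos k t v n (s := -1) (by norm_num) η
  have h3 : wn k t v n 1 η + wn k t v n (-1) η ≠ 0 := by positivity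
  unfold zn bn
  constructor <;> field_simp <;> ring

theorem abs_bn_lt (k : ℕ) (t : ℝ) (v : V) (n : ℕ) (η : Om V) : |bn k t v n η| < 1 := by
  have h1 := wn_pos k t v n (s := 1) (by norm_num) η
  have h2 := wn_pos k t v n (s := -1) (by norm_num) η
  unfold bn
  rw [abs_lt, lt_div_iff₀ (by positivity), div_lt_iff₀ (by positivity)]
  constructor <;> linarith

theorem measurable_zn (k : ℕ) (t : ℝ) (v : V) (n : ℕ) : Measurable (zn k t v n : Om V → ℝ) :=
  ((measurable_wn k t v n 1).add (measurable_wn k t v n (-1))).div_const 2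

theorem measurable_bn (k : ℕ) (t : ℝ) (v : V) (n : ℕ) : Measurable (bn k t v n : Om V → ℝ) :=
  ((measurable_wn k t v n 1).sub (measurable_wn k t v n (-1))).div
    ((measurable_wn k t v n 1).add (measurable_wn k t v n (-1)))

theorem wn_succ (k : ℕ) (t : ℝ) (v : V) (n : ℕ) (s : ℝ) (η : Om V) :
    wn k t v (n + 1) s η = wn k t v n s η * (1 + s * bb t (v, -(k : ℤ) + n) η) := by
  unfold wn
  rw [Finset.prod_range_succ]

theorem zn_succ (k : ℕ) (t : ℝ) (v : V) (n : ℕ) (η : Om V) :
    zn k t v (n + 1) η
      = zn k t v n η * (1 + bb t (v, -(k : ℤ) + n) η * bn k t v n η) := by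
  have h := wn_eq k t v n η
  have e : zn k t v (n + 1) η = (wn k t v (n + 1) 1 η + wn k t v (n + 1) (-1) η) / 2 := rfl
  rw [e, wn_succ, wn_succ, h.1, h.2]
  ring

theorem bn_succ (k : ℕ) (t : ℝ) (v : V) (n : ℕ) (η : Om V) :
    bn k t v (n + 1) η = opl (bb t (v, -(k : ℤ) + n) η) (bn k t v n η) := by
  have h := wn_eq k t v n η
  have hz := zn_pos k t v n η
  have e : bn k t v (n + 1) η = (wn k t v (n + 1) 1 η - wn k t v (n + 1) (-1) η)
    / (wn k t v (n + 1) 1 η + wn k t v (n + 1) (-1) η) := rfl
  have h1 := abs_bb_le t (v, -(k : ℤ) + n) η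
  have h2 := abs_bn_lt k t v n η
  have h3 : 0 < 1 + bb t (v, -(k : ℤ) + n) η * bn k t v n η := by
    have : |bb t (v, -(k : ℤ) + n) η * bn k t v n η| ≤ 1 / 8 * 1 := by
      rw [abs_mul]
      exact mul_le_mul h1 h2.le (abs_nonneg _) (by norm_num)
    have := (abs_le.1 this).1
    linarith
  rw [e, wn_succ, wn_succ, h.1, h.2]
  unfold opl
  have h4 : zn k t v n η * (1 + bn k t v n η) * (1 + 1 * bb t (v, -(k : ℤ) + n) η)
      + zn k t v n η * (1 - bn k t v n η) * (1 + -1 * bb t (v, -(k : ℤ) + n) η)
      = 2 * zn k t v n η * (1 + bb t (v, -(k : ℤ) + n) η * bn k t v n η) := by ring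
  have h5 : zn k t v n η * (1 + bn k t v n η) * (1 + 1 * bb t (v, -(k : ℤ) + n) η)
      - zn k t v n η * (1 - bn k t v n η) * (1 + -1 * bb t (v, -(k : ℤ) + n) η)
      = 2 * zn k t v n η * (bb t (v, -(k : ℤ) + n) η + bn k t v n η) := by ring
  rw [h4, h5, mul_div_mul_left _ _ (by positivity)]

theorem DepO_bb (t : ℝ) (e : V × ℤ) : DepO (bb t e : Om V → ℝ) {e} := by
  intro η η' h
  have := h e rfl
  unfold bb act
  rw [this.1, this.2]

theorem DepO_wn (k : ℕ) (t : ℝ) (v : V) (n : ℕ) (s : ℝ) :
    DepO (wn k t v n s : Om V → ℝ) {e | e.1 = v ∧ e.2 < -(k : ℤ) + n} := by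
  intro η η' h
  unfold wn
  refine Finset.prod_congr rfl fun m hm => ?_
  rw [Finset.mem_range] at hm
  rw [DepO_bb t (v, -(k : ℤ) + m) η η' ?_]
  intro e he
  rw [Set.mem_singleton_iff] at he
  subst he
  refine h _ ⟨rfl, ?_⟩
  simp only
  omega

theorem DepO_zb (k : ℕ) (t : ℝ) (v : V) (n : ℕ) :
    DepO (fun η : Om V => (ENNReal.ofReal (zn k t v n η), bn k t v n η))
      {e | e.1 = v ∧ e.2 < -(k : ℤ) + n} := by
  intro η η' h
  simp only [zn, bn]
  rw [DepO_wn k t v n 1 η η' h, DepO_wn k t v n (-1) η η' h]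

theorem sig_law_n (hB : LAWB) (k : ℕ) (t : ℝ) (v : V) (n : ℕ) :
    ((Pm V).withDensity fun η => ENNReal.ofReal (zn k t v n η)).map (bn k t v n)
      = sigN k t n := by
  induction n with
  | zero =>
    have e1 : (fun η : Om V => ENNReal.ofReal (zn k t v 0 η)) = 1 := by
      funext η
      simp [zn, wn]
    have e2 : (bn k t v 0 : Om V → ℝ) = fun _ => 0 := by
      funext η
      simp [bn, wn]
    rw [e1, e2, withDensity_one, Measure.map_const]
    simp [sigN]
  | succ n ih =>
    obtain ⟨r, _, _, hS⟩ := sigN_sym hB k t n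
    have hprob := hS.prob
    set e : V × ℤ := (v, -(k : ℤ) + n) with he
    have hz1 : ∫⁻ η, ENNReal.ofReal (zn k t v n η) ∂(Pm V) ≠ ∞ := by
      have h1 : ((Pm V).withDensity fun η => ENNReal.ofReal (zn k t v n η)) univ = 1 := by
        have := congrArg (fun μ : Measure ℝ => μ univ) ih
        simp only [Measure.map_apply (measurable_bn k t v n) MeasurableSet.univ,
          preimage_univ, measure_univ] at this
        exact this
      rw [withDensity_apply _ MeasurableSet.univ, Measure.restrict_univ] at h1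
      rw [h1]
      exact ENNReal.one_ne_top
    have hI : IndepFun (fun η : Om V => ((1 : ℝ≥0∞), bb t e η))
        (fun η => (ENNReal.ofReal (zn k t v n η), bn k t v n η)) (Pm V) := by
      have h1 := indep_blocks (V := V) (J := Bool) (γ := fun _ => ℝ≥0∞ × ℝ)
        (fun j => if j then {e} else {e | e.1 = v ∧ e.2 < -(k : ℤ) + n})
        (by
          have hd : Disjoint ({e} : Set (V × ℤ)) {e | e.1 = v ∧ e.2 < -(k : ℤ) + n} := by
            rw [Set.disjoint_singleton_left]
            rintro ⟨_, h⟩
            simp only [he] at h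
            omega
          rintro (_ | _) (_ | _) hne
          · exact absurd rfl hne
          · simpa using hd.symm
          · simpa using hd
          · exact absurd rfl hne)
        (fun j => if j then (fun η : Om V => ((1 : ℝ≥0∞), bb t e η))
          else (fun η => (ENNReal.ofReal (zn k t v n η), bn k t v n η)))
        (by
          rintro (_ | _)
          · simp only [Bool.false_eq_true, if_false]
            exact (measurable_zn k t v n).ennreal_ofReal.prodMk (measurable_bn k t v n)
          · simp only [if_true]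
            exact measurable_const.prodMk (measurable_bb t e))
        (by
          rintro (_ | _)
          · simp only [Bool.false_eq_true, if_false]
            exact DepO_zb k t v n
          · simp only [if_true]
            intro η η' h
            simp only [DepO_bb t e η η' h])
      exact h1.indepFun (i := true) (j := false) (by decide)
    have h2 := map_wd_prod (P := Pm V) (f := fun _ => 1)
      (g := fun η => ENNReal.ofReal (zn k t v n η)) (X := bb t e) (Y := bn k t v n)
      measurable_const (measurable_zn k t v n).ennreal_ofReal (measurable_bb t e)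
      (measurable_bn k t v n) (by simp) hz1 hI
    have h3 : (Pm V).withDensity (fun _ => (1 : ℝ≥0∞)) = Pm V := withDensity_one
    rw [h3, bb_law, ih] at h2
    have hg : Measurable fun p : ℝ × ℝ => ENNReal.ofReal (1 + p.1 * p.2) := by fun_prop
    have ho : Measurable fun p : ℝ × ℝ => opl p.1 p.2 := by unfold opl; fun_prop
    have hT : Measurable fun η : Om V => (bb t e η, bn k t v n η) :=
      (measurable_bb t e).prodMk (measurable_bn k t v n)
    have e3 : ((Pm V).withDensity fun η => ENNReal.ofReal (zn k t v (n + 1) η))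
        = ((Pm V).withDensity fun η => 1 * ENNReal.ofReal (zn k t v n η)).withDensity
          (fun η => (fun p : ℝ × ℝ => ENNReal.ofReal (1 + p.1 * p.2))
            ((fun η : Om V => (bb t e η, bn k t v n η)) η)) := by
      have hm1 : Measurable fun η : Om V => 1 * ENNReal.ofReal (zn k t v n η) := by
        simpa using (measurable_zn k t v n).ennreal_ofReal
      have hm2 : Measurable fun η : Om V => (fun p : ℝ × ℝ => ENNReal.ofReal (1 + p.1 * p.2))
            ((fun η : Om V => (bb t e η, bn k t v n η)) η) := hg.comp hT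
      rw [← withDensity_mul _ hm1 hm2]
      congr 1
      funext η
      simp only [Pi.mul_apply, one_mul]
      rw [zn_succ, ENNReal.ofReal_mul (zn_pos _ _ _ _ _).le]
    have e4 : (bn k t v (n + 1) : Om V → ℝ)
        = (fun p : ℝ × ℝ => opl p.1 p.2) ∘ fun η : Om V => (bb t e η, bn k t v n η) := by
      funext η
      exact bn_succ k t v n η
    rw [e3, e4, ← Measure.map_map ho hT, map_wd_comp _ hT hg, h2]
    rfl

/-- law of the local signal of one vertex -/
theorem sig_law (hB : LAWB) (k : ℕ) (t : ℝ) (v : V) :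
    ((Pm V).withDensity fun η => ENNReal.ofReal (zn k t v (k + 1 + ⌈t⌉.toNat) η)).map
      (bn k t v (k + 1 + ⌈t⌉.toNat)) = sigL k t := sig_law_n hB k t v _

end P161C
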