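import Vale.Agent.P161C.ProcLaw
import Vale.Agent.P161C.TreeSig
import Vale.Agent.P161C.TreeGeo

/-!
# P161 at the critical point: module VAR (every spin is eventually determined)
-/

open MeasureTheory Set Filter Topology

namespace P161C

open P161

universe u

variable {V : Type u} {μ : Measure (V → Bool)} {G : SimpleGraph V} {θ : ℝ}

theorem ofReal_integral_le {α : Type*} [MeasurableSpace α] {ν : Measure α} {f : α → ℝ}
    (hf : Integrable f ν) : ENNReal.ofReal (∫ x, f x ∂ν) ≤ ∫⁻ x, ENNReal.ofReal (f x) ∂ν := by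
  rw [integral_eq_lintegral_pos_part_sub_lintegral_neg_part hf]
  calc ENNReal.ofReal ((∫⁻ x, ENNReal.ofReal (f x) ∂ν).toReal
        - (∫⁻ x, ENNReal.ofReal (-f x) ∂ν).toReal)
      ≤ ENNReal.ofReal ((∫⁻ x, ENNReal.ofReal (f x) ∂ν).toReal) := by
        apply ENNReal.ofReal_le_ofReal
        have : 0 ≤ (∫⁻ x, ENNReal.ofReal (-f x) ∂ν).toReal := ENNReal.toReal_nonneg
        linarith
    _ ≤ ∫⁻ x, ENNReal.ofReal (f x) ∂ν := ENNReal.ofReal_toReal_le

theorem integral_centered (hC : CHAN) : ∫ x : unitInterval, (2 * (x : ℝ) - 1) = 0 := by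
  have h := hC.qt_int (1 / 8) (by norm_num) (fun _ => 1) measurable_const ⟨1, fun _ => by simp⟩
  simp only [one_mul] at h
  have hi : Integrable (fun x : unitInterval => (2 * (x : ℝ) - 1)) volume := by
    refine Integrable.of_bound (C := 1) (Continuous.aestronglyMeasurable (by fun_prop)) ?_
    refine Filter.Eventually.of_forall fun x => ?_
    rw [Real.norm_eq_abs, abs_le]
    constructor <;> linarith [x.2.1, x.2.2]
  rw [integral_add (integrable_const _) (hi.const_mul _), integral_const_mul] at h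
  linarith

/-- squared mean times the partition function -/
noncomputable def ql (μ : Measure (V → Bool)) (v : V) (Y : Cfg V) (l : List (V × ℤ)) : ℝ :=
  ml μ Y l v ^ 2 * zl μ Y l

theorem measurable_ql [IsProbabilityMeasure μ] (v : V) (l : List (V × ℤ)) :
    Measurable fun Y : Cfg V => ql μ v Y l :=
  ((measurable_ml l v).pow_const 2).mul (measurable_zl l)

theorem ql_ge [IsProbabilityMeasure μ] (v : V) (Y : Cfg V) (l : List (V × ℤ)) (c : ℝ) :
    2 * c * ∫ σ, wl Y l σ * spin (σ v) ∂μ - c ^ 2 * zl μ Y l ≤ ql μ v Y l := by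
  have hz := zl_pos (μ := μ) Y l
  have h1 : ∫ σ, wl Y l σ * spin (σ v) ∂μ = ml μ Y l v * zl μ Y l := by
    unfold ml
    field_simp
  rw [h1]
  unfold ql
  nlinarith [mul_nonneg (sq_nonneg (ml μ Y l v - c)) hz.le]

open Classical in
theorem ql_cons [IsProbabilityMeasure μ] (hC : CHAN) (v : V) {e : V × ℤ} {l : List (V × ℤ)}
    (h : e ∉ l) : ∫⁻ Y, ENNReal.ofReal (ql μ v Y l) ∂(Pc V)
      ≤ ∫⁻ Y, ENNReal.ofReal (ql μ v Y (e :: l)) ∂(Pc V) := by
  rw [lintegral_update e (f := fun Y => ENNReal.ofReal (ql μ v Y (e :: l)))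
      (measurable_ql v (e :: l)).ennreal_ofReal]
  refine lintegral_mono fun Y => ?_
  have hup : ∀ x : unitInterval, ∀ f ∈ l, Function.update Y e x f = Y f := by
    intro x f hf
    have h' : f ≠ e := by
      rintro rfl
      exact h hf
    exact Function.update_of_ne h' _ _
  set c := ml μ Y l v with hc
  set N₀ := ∫ σ, wl Y l σ * spin (σ v) ∂μ with hN₀
  set N₁ := ∫ σ, wl Y l σ * spin (σ e.1) * spin (σ v) ∂μ with hN₁
  set Z₁ := ∫ σ, wl Y l σ * spin (σ e.1) ∂μ with hZ₁
  have i1 : Integrable (fun σ => wl Y l σ * spin (σ v)) μ :=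
    ((wl_loc Y l).mul (Loc.coord v)).integrable μ
  have i2 : Integrable (fun σ => wl Y l σ * spin (σ e.1) * spin (σ v)) μ :=
    (((wl_loc Y l).mul (Loc.coord e.1)).mul (Loc.coord v)).integrable μ
  have i3 : Integrable (fun σ => wl Y l σ * spin (σ e.1)) μ :=
    ((wl_loc Y l).mul (Loc.coord e.1)).integrable μ
  have i4 : Integrable (fun σ => wl Y l σ) μ := (wl_loc Y l).integrable μ
  have hN : ∀ x : unitInterval, ∫ σ, wl (Function.update Y e x) (e :: l) σ * spin (σ v) ∂μ
      = N₀ + amp e.2 * (2 * (x : ℝ) - 1) * N₁ := by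
    intro x
    have h1 : ∀ σ, wl (Function.update Y e x) (e :: l) σ * spin (σ v)
        = wl Y l σ * spin (σ v)
          + amp e.2 * (2 * (x : ℝ) - 1) * (wl Y l σ * spin (σ e.1) * spin (σ v)) := by
      intro σ
      rw [wl_cons, wl_congr (hup x), Function.update_self]
      ring
    simp only [h1]
    rw [integral_add i1 (i2.const_mul _), integral_const_mul]
  have hZ : ∀ x : unitInterval, zl μ (Function.update Y e x) (e :: l)
      = zl μ Y l + amp e.2 * (2 * (x : ℝ) - 1) * Z₁ := by
    intro x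
    have h1 : ∀ σ, wl (Function.update Y e x) (e :: l) σ
        = wl Y l σ + amp e.2 * (2 * (x : ℝ) - 1) * (wl Y l σ * spin (σ e.1)) := by
      intro σ
      rw [wl_cons, wl_congr (hup x), Function.update_self]
      ring
    rw [zl]
    simp only [h1]
    rw [integral_add i4 (i3.const_mul _), integral_const_mul]
    rfl
  have hlow : ∀ x : unitInterval,
      (2 * c * N₀ - c ^ 2 * zl μ Y l)
        + (2 * c * amp e.2 * N₁ - c ^ 2 * amp e.2 * Z₁) * (2 * (x : ℝ) - 1)
      ≤ ql μ v (Function.update Y e x) (e :: l) := by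
    intro x
    refine le_trans (le_of_eq ?_) (ql_ge v (Function.update Y e x) (e :: l) c)
    rw [hN, hZ]
    ring
  have hi : Integrable (fun x : unitInterval => (2 * (x : ℝ) - 1)) volume := by
    refine Integrable.of_bound (C := 1) (Continuous.aestronglyMeasurable (by fun_prop)) ?_
    refine Filter.Eventually.of_forall fun x => ?_
    rw [Real.norm_eq_abs, abs_le]
    constructor <;> linarith [x.2.1, x.2.2]
  have hval : ql μ v Y l = ∫ x : unitInterval, ((2 * c * N₀ - c ^ 2 * zl μ Y l)
      + (2 * c * amp e.2 * N₁ - c ^ 2 * amp e.2 * Z₁) * (2 * (x : ℝ) - 1)) := by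
    rw [integral_add (integrable_const _) (hi.const_mul _), integral_const_mul,
      integral_centered hC]
    have h1 : N₀ = c * zl μ Y l := by
      rw [hc, ml]
      have hz := (zl_pos (μ := μ) Y l).ne'
      field_simp
      exact hN₀
    simp only [integral_const, smul_eq_mul, probReal_univ, one_mul, mul_zero, add_zero]
    rw [h1]
    unfold ql
    ring
  rw [hval]
  refine (ofReal_integral_le ((integrable_const _).add (hi.const_mul _))).trans ?_
  exact lintegral_mono fun x => ENNReal.ofReal_le_ofReal (hlow x)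

theorem ml_perm {Y : Cfg V} {l l' : List (V × ℤ)} (h : l.Perm l') (v : V) :
    ml μ Y l v = ml μ Y l' v := by
  unfold ml
  rw [zl_perm h]
  congr 1
  unfold wl
  refine integral_congr_ae (Filter.Eventually.of_forall fun σ => ?_)
  simp only
  rw [(h.map _).prod_eq]

theorem ql_perm {Y : Cfg V} {l l' : List (V × ℤ)} (h : l.Perm l') (v : V) :
    ql μ v Y l = ql μ v Y l' := by
  unfold ql
  rw [zl_perm h, ml_perm h]

open Classical in
theorem ql_union [IsProbabilityMeasure μ] (hC : CHAN) (v : V) (E E₂ : Finset (V × ℤ)) :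
    Disjoint E₂ E → ∫⁻ Y, ENNReal.ofReal (ql μ v Y E.toList) ∂(Pc V)
      ≤ ∫⁻ Y, ENNReal.ofReal (ql μ v Y (E₂ ∪ E).toList) ∂(Pc V) := by
  induction E₂ using Finset.induction_on with
  | empty =>
    intro _
    simp
  | insert e E₂ he ih =>
    intro h1
    have h3 : e ∉ E₂ ∪ E := by
      rw [Finset.mem_union]
      rintro (h4 | h4)
      · exact he h4
      · exact Finset.disjoint_left.1 h1 (Finset.mem_insert_self e E₂) h4
    have h5 : ∀ Y : Cfg V, ql μ v Y ((insert e E₂) ∪ E).toList
        = ql μ v Y (e :: (E₂ ∪ E).toList) := by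
      intro Y
      rw [Finset.insert_union]
      exact ql_perm (Finset.toList_insert h3) v
    simp only [h5]
    exact (ih (h1.mono_left (Finset.subset_insert e E₂))).trans
      (ql_cons hC v (by rwa [Finset.mem_toList]))

theorem ap_toList (A : Finset V) (k : ℕ) (t : ℝ) (v : V) (η : Om V) :
    ap μ A k t v η = ml μ η.2 (evs A k t η.1).toList v := by
  have h : (evl A k t η.1).Perm (evs A k t η.1).toList := by
    rw [evl_eq]
    exact srt_perm _ _
  rw [ap_def, wA_eq, Zp_eq, ← ml_perm h v]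
  rfl


open Classical in
/-- more signals, larger second moment -/
theorem second_mono [Countable V] [IsProbabilityMeasure μ] (hC : CHAN) {A Λ : Finset V}
    (hA : A ⊆ Λ) (k : ℕ) (t : ℝ) (v : V) :
    ∫⁻ η, ENNReal.ofReal (ap μ A k t v η ^ 2 * Zp μ A k t η) ∂(Pm V)
      ≤ ∫⁻ η, ENNReal.ofReal (ap μ Λ k t v η ^ 2 * Zp μ Λ k t η) ∂(Pm V) := by
  have h1 : ∀ B : Finset V, Measurable fun η : Om V =>
      ENNReal.ofReal (ap μ B k t v η ^ 2 * Zp μ B k t η) := fun B =>
    (((measurable_ap μ B k t v).pow_const 2).mul (measurable_ZpP (μ := μ) B k t)).ennreal_ofReal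
  unfold Pm
  rw [lintegral_prod _ (h1 Λ).aemeasurable, lintegral_prod _ (h1 A).aemeasurable]
  refine lintegral_mono fun o => ?_
  simp only [Zp_toList, ap_toList]
  have h2 : evs Λ k t o = (evs Λ k t o \ evs A k t o) ∪ evs A k t o := by
    rw [Finset.sdiff_union_of_subset]
    intro e he
    rw [mem_evs] at he ⊢
    exact ⟨hA he.1, he.2⟩
  rw [h2]
  exact ql_union hC v (evs A k t o) _ Finset.sdiff_disjoint

/-- the law of a single message is the law of the local signal -/
theorem lawR_one (hB : LAWB) (D : ℕ) (θ : ℝ) {r : ℝ} (h0 : 0 ≤ r) (h1 : r < 1) {S : Measure ℝ}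
    (hS : Sym r S) : lawR θ D S 1 = S := by
  have h2 : scl θ (lawR θ D S 0) = Measure.dirac 0 := by
    unfold scl lawR
    rw [Measure.map_dirac' (measurable_const_mul θ) 0, mul_zero]
  have hd : Sym r (Measure.dirac (0 : ℝ)) := hB.s_dirac r h0
  have h3 : ∀ n, combN (Measure.dirac (0 : ℝ)) n = Measure.dirac 0 := by
    intro n
    induction n with
    | zero => rfl
    | succ n ih =>
      simp only [combN, ih]
      exact hB.dirac_comb r _ h1 hd
  rw [lawR, h2, h3, hB.comm r S _ h0 h1 hS hd]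
  exact hB.dirac_comb r _ h1 hS

/-- module VAR -/
theorem var_proof (hC : CHAN) (hB : LAWB) (hF : SIGF) (hT : TREELAW.{u}) : VAR.{u} := by
  classical
  obtain ⟨C, hC0, hCv⟩ := hF.vr
  refine ⟨C, hC0, ?_⟩
  intro V _ G _ D θ μ hE hI Λ k J v hv
  have hpr := hI.ising.isProb
  refine (hCv k J).trans ?_
  -- a neighbour
  obtain ⟨p, hp⟩ : ∃ p, G.Adj v p := by
    have h1 : 0 < G.degree v := by rw [hE.reg v]; omega
    exact (G.degree_pos_iff_exists_adj v).1 h1
  obtain ⟨hm1, -, hlaw⟩ := hT V G D θ 1 1 μ hE hI one_pos one_pos k J 0 1 (by omega) p v hp.symm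
  have hsd : sd G hE.tree.connected p v 1 = {v} := by
    ext u
    rw [mem_sd_iff, Finset.mem_singleton]
    constructor
    · rintro ⟨h1, h2⟩
      have h3 : G.dist v u = 0 := by omega
      exact ((hE.tree.connected.dist_eq_zero_iff).1 h3).symm
    · rintro rfl
      have h3 : G.dist p u = 1 := SimpleGraph.dist_eq_one_iff_adj.2 hp.symm
      rw [h3, SimpleGraph.dist_self]
      omega
  rw [hsd] at hm1 hlaw
  obtain ⟨r, hr0, hr1, hS⟩ := sigL_sym hB k J
  have hSp := hS.prob
  -- law of the mean given the signals of `v`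
  have hlaw2 : ((Pm V).withDensity (fun η => ENNReal.ofReal (Zp μ {v} k J η))).map
      (ap μ {v} k J v) = sigL k J := by
    have h1 : (Measure.map Prod.fst (((Pm V).withDensity
        (fun η => ENNReal.ofReal (Zp μ {v} k J η))).map (fun η => (ap μ {v} k J v η,
          zp G hE.tree.connected D 1 1 μ k J 1 0 p v η))))
        = ((Pm V).withDensity (fun η => ENNReal.ofReal (Zp μ {v} k J η))).map
          (ap μ {v} k J v) := by
      rw [Measure.map_map measurable_fst (hm1.prodMk ?_)]
      · rfl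
      · simp only [zp]
        exact measurable_const
    rw [← h1, hlaw, jlaw, Measure.map_map measurable_fst (by fun_prop), lawR_one hB D θ hr0 hr1 hS]
    exact Measure.map_id
  have hmk : ∀ ω : Om V, mk μ Λ k J v ω = ap μ Λ k J v (Yp μ Λ k J ω) := by
    intro ω
    unfold mk mean stt
    rw [ap_def, ← integral_div]
    refine integral_congr_ae (Filter.Eventually.of_forall fun σ => ?_)
    simp only
    rw [dn_eq hC ω.2 _ (nodup_evl Λ k J ω.1) σ, wA_eq, Zp_eq]
    simp only [Yp]
    ring
  have hbd : ∀ B : Finset V, ∀ η : Om V, |ap μ B k J v η| ≤ 1 := by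
    intro B η
    rw [ap_toList]
    exact ml_abs_le _ _ _
  have hkm : Measurable (mk μ Λ k J v) := by
    have h1 : mk μ Λ k J v = fun ω => ap μ Λ k J v (Yp μ Λ k J ω) := by
      ext ω
      exact hmk ω
    rw [h1]
    exact (measurable_ap μ Λ k J v).comp (measurable_Yp hC Λ k J)
  have e1 : ENNReal.ofReal (∫ ω, mk μ Λ k J v ω ^ 2 ∂(Pm V))
      = ∫⁻ η, ENNReal.ofReal (ap μ Λ k J v η ^ 2 * Zp μ Λ k J η) ∂(Pm V) := by
    rw [ofReal_integral_eq_lintegral_ofReal ?_
      (Filter.Eventually.of_forall fun ω => sq_nonneg _)]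
    · simp only [hmk]
      have h2 : Measurable fun η : Om V => ENNReal.ofReal (ap μ Λ k J v η ^ 2) :=
        ((measurable_ap μ Λ k J v).pow_const 2).ennreal_ofReal
      rw [← lintegral_map (f := fun η : Om V => ENNReal.ofReal (ap μ Λ k J v η ^ 2)) h2
        (measurable_Yp (μ := μ) hC Λ k J), Yp_map hC,
        lintegral_withDensity_eq_lintegral_mul _ (measurable_ZpP (μ := μ) Λ k J).ennreal_ofReal h2]
      refine lintegral_congr fun η => ?_
      simp only [Pi.mul_apply]
      rw [ENNReal.ofReal_mul (sq_nonneg _), mul_comm]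
    · refine Integrable.of_bound (C := 1) (hkm.pow_const 2).aestronglyMeasurable ?_
      refine Filter.Eventually.of_forall fun ω => ?_
      rw [Real.norm_eq_abs, abs_of_nonneg (sq_nonneg _), hmk]
      have := hbd Λ (Yp μ Λ k J ω)
      rw [← sq_abs]
      nlinarith [abs_nonneg (ap μ Λ k J v (Yp μ Λ k J ω))]
  have e2 : ENNReal.ofReal (∫ s, s ^ 2 ∂(sigL k J))
      = ∫⁻ η, ENNReal.ofReal (ap μ {v} k J v η ^ 2 * Zp μ {v} k J η) ∂(Pm V) := by
    rw [ofReal_integral_eq_lintegral_ofReal ?_
      (Filter.Eventually.of_forall fun s => sq_nonneg _)]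
    · have h2 : Measurable fun s : ℝ => ENNReal.ofReal (s ^ 2) :=
        (measurable_id.pow_const 2).ennreal_ofReal
      rw [← hlaw2, lintegral_map h2 hm1,
        lintegral_withDensity_eq_lintegral_mul _ (measurable_ZpP (μ := μ) {v} k J).ennreal_ofReal
          (((measurable_ap μ {v} k J v).pow_const 2).ennreal_ofReal)]
      refine lintegral_congr fun η => ?_
      simp only [Pi.mul_apply]
      rw [ENNReal.ofReal_mul (sq_nonneg _), mul_comm]
    · refine Integrable.of_bound (C := 1) (by fun_prop) ?_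
      filter_upwards [hS.supp] with s hs
      rw [Real.norm_eq_abs, abs_of_nonneg (sq_nonneg _), ← sq_abs]
      nlinarith [abs_nonneg s]
  have h3 := second_mono (μ := μ) hC (Finset.singleton_subset_iff.2 hv) k J v
  rw [← e1, ← e2] at h3
  exact (ENNReal.ofReal_le_ofReal_iff (integral_nonneg fun ω => sq_nonneg _)).1 h3

end P161C
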